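import Vale.Agent.P300.GDefs

/-! P300: unramified extensions of a rational function field. -/

noncomputable section

namespace Vale.Agent.P300

/-- algebraic closure of the rational function field -/
abbrev KB (k : Type) [Field k] : Type := AlgebraicClosure (RatFunc k)

/-- the constant `c` in the algebraic closure -/
def cst {k : Type} [Field k] (c : k) : KB k := algebraMap (RatFunc k) (KB k) (RatFunc.C c)

/-- the variable in the algebraic closure -/
def vx (k : Type) [Field k] : KB k := algebraMap (RatFunc k) (KB k) RatFunc.X

/-- `L` is unramified over `k(x)` at all finite points other than the `a i`: for every valuation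
ring of the algebraic closure centred at `t`, the values of `L` are powers of the value of
`x - t`. -/
def Unr {k : Type} [Field k] (a : Fin 5 → k) (L : IntermediateField (RatFunc k) (KB k)) : Prop :=
  ∀ V : ValuationSubring (KB k), (∀ c : k, cst c ∈ V) → ∀ t : k, (∀ i, t ≠ a i) →
    V.valuation (vx k - cst t) < 1 → ∀ z ∈ L, z ≠ 0 →
      ∃ n : ℤ, V.valuation z = V.valuation (vx k - cst t) ^ n

end Vale.Agent.P300
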