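import Vale.Agent.P300.GDefs

/-! P300: small group-theoretic lemmas. -/

namespace Vale.Agent.P300

theorem IsArtin.mul {α β : MulAut F5} (hα : IsArtin α) (hβ : IsArtin β) : IsArtin (α * β) :=
  ⟨fun i => (hα.1 i).trans (α.toMonoidHom.map_isConj (hβ.1 i)), by
    rw [MulAut.mul_apply, hβ.2, hα.2]⟩

theorem IsArtin.inv {α : MulAut F5} (hα : IsArtin α) : IsArtin α⁻¹ := by
  refine ⟨fun i => ?_, ?_⟩
  · have h : IsConj (α⁻¹ (xx i)) (α⁻¹ (α (xx i))) := (α⁻¹).toMonoidHom.map_isConj (hα.1 i)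
    rw [MulAut.inv_apply_self] at h
    exact h.symm
  · conv_lhs => rw [← hα.2]
    exact MulAut.inv_apply_self _ _ _

theorem isArtin_one : IsArtin 1 := ⟨fun _ => IsConj.refl _, rfl⟩

theorem mem_Orb_self {C : Finset F5} {c : F5} (hc : c ∈ C) : c ∈ Orb C :=
  ⟨1, isArtin_one, c, hc, IsConj.refl _⟩

theorem Orb_conj {C : Finset F5} {g h : F5} (hg : g ∈ Orb C) (hh : IsConj g h) : h ∈ Orb C := by
  obtain ⟨β, hβ, c, hc, h1⟩ := hg
  exact ⟨β, hβ, c, hc, h1.trans hh⟩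

theorem Orb_artin {C : Finset F5} {g : F5} (hg : g ∈ Orb C) {α : MulAut F5} (hα : IsArtin α) :
    α g ∈ Orb C := by
  obtain ⟨β, hβ, c, hc, h1⟩ := hg
  exact ⟨α * β, hα.mul hβ, c, hc, α.toMonoidHom.map_isConj h1⟩

theorem PowE_artin {C : Finset F5} {E : ℕ} {g : F5} (hg : g ∈ PowE C E) {α : MulAut F5}
    (hα : IsArtin α) : α g ∈ PowE C E := by
  have hn : (PowE C E).Normal := Subgroup.normalClosure_normal
  have h : PowE C E ≤ (PowE C E).comap α.toMonoidHom := by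
    refine Subgroup.normalClosure_le_normal ?_
    rintro _ ⟨g, hg, rfl⟩
    exact Subgroup.subset_normalClosure ⟨α g, Orb_artin hg hα, map_pow α g E⟩
  exact h hg

theorem gmisc_pgroup (V : Subgroup F5) [V.Normal] (h2 : ∀ g, ∃ n, g ^ 2 ^ n ∈ V) :
    IsPGroup 2 (F5 ⧸ V) := fun q => by
  obtain ⟨g, rfl⟩ := QuotientGroup.mk_surjective q
  obtain ⟨n, hn⟩ := h2 g
  exact ⟨n, by rw [← QuotientGroup.mk_pow, QuotientGroup.eq_one_iff]; exact hn⟩

theorem gmisc_sq : ∀ x : Multiplicative (ZMod 2), x ^ 2 = 1 := by decide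

theorem gmisc_eq : ∀ x y : Multiplicative (ZMod 2), x ≠ 1 → y ≠ 1 → x = y := by decide

/-- a fully invariant subgroup of two-power index below a given one -/
theorem exists_N (F' : Subgroup F5) [F'.Normal] [F'.FiniteIndex] (h2 : ∀ g, ∃ n, g ^ 2 ^ n ∈ F') :
    ∃ N : Subgroup F5, N.Normal ∧ N.FiniteIndex ∧ N ≤ F' ∧ (∀ g, ∃ n, g ^ 2 ^ n ∈ N) ∧
      (∀ g ∈ N, ∀ χ : F5 →* Multiplicative (ZMod 2), χ g = 1) ∧
      ∀ e : F5 →* F5, ∀ g ∈ N, e g ∈ N := by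
  have hf : Finite (F5 →* (F5 ⧸ F') × Multiplicative (ZMod 2)) :=
    Finite.of_equiv _ FreeGroup.lift
  have hp : IsPGroup 2 ((F5 ⧸ F') × Multiplicative (ZMod 2)) := fun q => by
    obtain ⟨n, hn⟩ := gmisc_pgroup F' h2 q.1
    refine ⟨n + 1, Prod.ext ?_ ?_⟩
    · rw [Prod.pow_fst, pow_succ, pow_mul, hn, one_pow, Prod.fst_one]
    · rw [Prod.pow_snd, pow_succ, pow_mul, gmisc_sq, Prod.snd_one]
  obtain ⟨n, hn⟩ := IsPGroup.iff_card.1 hp
  refine ⟨⨅ φ : F5 →* (F5 ⧸ F') × Multiplicative (ZMod 2), φ.ker,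
    Subgroup.normal_iInf_normal fun φ => inferInstance,
    Subgroup.finiteIndex_iInf fun φ => inferInstance, fun g hg => ?_, fun g => ⟨n, ?_⟩,
    fun g hg χ => ?_, fun e g hg => ?_⟩
  · have h := Subgroup.mem_iInf.1 hg ((QuotientGroup.mk' F').prod 1)
    exact (QuotientGroup.eq_one_iff g).1 (congrArg Prod.fst (MonoidHom.mem_ker.1 h))
  · refine Subgroup.mem_iInf.2 fun φ => MonoidHom.mem_ker.2 ?_
    rw [map_pow, ← hn]
    exact pow_card_eq_one'
  · have h := Subgroup.mem_iInf.1 hg ((1 : F5 →* F5 ⧸ F').prod χ)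
    exact congrArg Prod.snd (MonoidHom.mem_ker.1 h)
  · exact Subgroup.mem_iInf.2 fun φ => Subgroup.mem_iInf.1 hg (φ.comp e)

theorem ker_eq_of_full {Γ : Type} [Group Γ] [Finite Γ] (j θ : F5 →* Γ) (hj : Function.Surjective j)
    (hθ : Function.Surjective θ) (hfull : ∀ e : F5 →* F5, ∀ g ∈ j.ker, e g ∈ j.ker) :
    θ.ker = j.ker := by
  have he : j.comp (FreeGroup.lift fun i => Function.surjInv hj (θ (FreeGroup.of i))) = θ := by
    ext i
    simp [Function.surjInv_eq]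
  have hle : j.ker ≤ θ.ker := fun g hg => by
    rw [← he]
    exact hfull _ g hg
  have h1 : j.ker.index = Nat.card Γ := by
    rw [Subgroup.index_ker, MonoidHom.range_eq_top.2 hj, Subgroup.card_top]
  have h2 : θ.ker.index = Nat.card Γ := by
    rw [Subgroup.index_ker, MonoidHom.range_eq_top.2 hθ, Subgroup.card_top]
  have h3 := Subgroup.relIndex_mul_index hle
  rw [h1, h2] at h3
  exact le_antisymm (Subgroup.relIndex_eq_one.1
    (Nat.eq_of_mul_eq_mul_right Nat.card_pos (h3.trans (one_mul _).symm))) hle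

open Classical in
/-- the character attached to a subgroup of index two -/
theorem gmisc_char {Γ : Type} [Group Γ] (K : Subgroup Γ) (hK : K.index = 2) :
    ∃ ψ : Γ →* Multiplicative (ZMod 2), ψ.ker = K := by
  refine ⟨MonoidHom.mk' (fun g => if g ∈ K then 1 else Multiplicative.ofAdd 1) fun a b => ?_, ?_⟩
  · simp only [Subgroup.mul_mem_iff_of_index_two hK]
    by_cases ha : a ∈ K <;> by_cases hb : b ∈ K <;> simp only [ha, hb, iff_true, iff_false,
      not_true_eq_false, if_true, if_false] <;> decide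
  · ext g
    by_cases hg : g ∈ K
    · simp [MonoidHom.mem_ker, hg]
    · simp [MonoidHom.mem_ker, hg]

theorem gmisc_proper {Γ : Type} [Group Γ] [Finite Γ] (h2 : IsPGroup 2 Γ) (H : Subgroup Γ)
    (h : ∀ ψ : Γ →* Multiplicative (ZMod 2), H ≤ ψ.ker → ψ = 1) : H = ⊤ := by
  by_contra hH
  obtain ⟨r, hr⟩ := IsPGroup.iff_card.1 h2
  obtain ⟨a, ha⟩ := IsPGroup.iff_card.1 (h2.to_subgroup H)
  have hlt : a < r := by
    by_contra hc
    refine hH (Subgroup.eq_top_of_le_card H ?_)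
    rw [hr, ha]
    exact Nat.pow_le_pow_right two_pos (not_lt.1 hc)
  obtain ⟨s, rfl⟩ : ∃ s, r = s + 1 := ⟨r - 1, by omega⟩
  obtain ⟨K, hK, hHK⟩ := Sylow.exists_subgroup_card_pow_prime_le 2 (G := Γ) (m := s)
    (by rw [hr]; exact pow_dvd_pow 2 (Nat.le_succ s)) H ha (by omega)
  have hi : K.index = 2 := by
    have h3 := K.card_mul_index
    rw [hK, hr, pow_succ] at h3
    exact Nat.eq_of_mul_eq_mul_left (by positivity) h3
  obtain ⟨ψ, hψ⟩ := gmisc_char K hi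
  have h4 := h ψ (hψ ▸ hHK)
  rw [h4, MonoidHom.ker_one] at hψ
  rw [← hψ, Subgroup.index_top] at hi
  exact absurd hi (by norm_num)

theorem surj_of_mod_two {Γ : Type} [Group Γ] [Finite Γ] (h2 : IsPGroup 2 Γ) (j θ : F5 →* Γ)
    (hj : Function.Surjective j) (χ : Fin 5 → (Γ →* Multiplicative (ZMod 2)))
    (hχ : ∀ i k, χ i (θ (xx k)) = 1 ↔ i ≠ k) : Function.Surjective θ := by
  have ha : Function.Injective
      fun (ψ : Γ →* Multiplicative (ZMod 2)) (k : Fin 5) => ψ (j (xx k)) := fun ψ ψ' e => by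
    have h : ψ.comp j = ψ'.comp j := FreeGroup.ext_hom _ _ fun k => congrFun e k
    exact (MonoidHom.cancel_right hj).1 h
  have hb : Function.Surjective
      fun (ψ : Γ →* Multiplicative (ZMod 2)) (k : Fin 5) => ψ (θ (xx k)) := fun v => by
    refine ⟨∏ i, if v i = 1 then 1 else χ i, funext fun k => ?_⟩
    simp only
    rw [MonoidHom.finsetProd_apply, Finset.prod_eq_single k]
    · split_ifs with hv
      · exact hv.symm
      · exact gmisc_eq _ _ (fun h => (hχ k k).1 h rfl) hv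
    · intro i _ hi
      split_ifs
      · rfl
      · exact (hχ i k).2 hi
    · exact fun h => absurd (Finset.mem_univ k) h
  have hf : Finite (Γ →* Multiplicative (ZMod 2)) := Finite.of_injective _ ha
  have hc := (hb.bijective_of_nat_card_le (Nat.card_le_card_of_injective _ ha)).1
  refine MonoidHom.range_eq_top.1 (gmisc_proper h2 _ fun ψ hψ => hc (funext fun k => ?_))
  exact hψ ⟨xx k, rfl⟩

theorem frattini_fix (V : Subgroup F5) [V.Normal] [V.FiniteIndex] (h2 : ∀ g, ∃ n, g ^ 2 ^ n ∈ V)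
    (α : F5 →* F5) (hV : ∀ g ∈ V, α g ∈ V) (h : ∀ i, ∃ y, IsConj (xx i) y ∧ α y * y⁻¹ ∈ V)
    (g : F5) : α g * g⁻¹ ∈ V := by
  obtain ⟨S, hS⟩ : ∃ S : Subgroup F5, ∀ g, g ∈ S ↔ α g * g⁻¹ ∈ V :=
    ⟨((QuotientGroup.mk' V).comp α).eqLocus (QuotientGroup.mk' V), fun g => by
      rw [← div_eq_mul_inv, ← QuotientGroup.eq_iff_div_mem]
      rfl⟩
  have ht : S.map (QuotientGroup.mk' V) = ⊤ := by
    refine gmisc_proper (gmisc_pgroup V h2) _ fun ψ hψ => ?_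
    have h1 : ψ.comp (QuotientGroup.mk' V) = (1 : _ →* _).comp (QuotientGroup.mk' V) := by
      refine FreeGroup.ext_hom _ _ fun i => ?_
      obtain ⟨y, hy, hy'⟩ := h i
      have h3 := isConj_iff_eq.1 ((ψ.comp (QuotientGroup.mk' V)).map_isConj hy)
      exact h3.trans (hψ ⟨y, (hS y).2 hy', rfl⟩)
    exact (MonoidHom.cancel_right (QuotientGroup.mk'_surjective V)).1 h1
  obtain ⟨s, hs, e⟩ : QuotientGroup.mk' V g ∈ S.map (QuotientGroup.mk' V) :=
    ht ▸ Subgroup.mem_top _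
  have h1 : s⁻¹ * g ∈ V := QuotientGroup.eq.1 e
  have h3 := S.mul_mem hs ((hS _).2 (V.mul_mem (hV _ h1) (V.inv_mem h1)))
  rw [mul_inv_cancel_left] at h3
  exact (hS g).1 h3

theorem gmisc_chain {Γ : Type} [Group Γ] [Finite Γ] (h2 : IsPGroup 2 Γ) (k : ℕ) :
    ∀ H : Subgroup Γ, Nat.card H * 2 ^ k = Nat.card Γ →
      ∃ c : ℕ → Subgroup Γ, c 0 = ⊤ ∧ c k = H ∧
        ∀ i < k, c (i + 1) ≤ c i ∧ (c (i + 1)).relIndex (c i) = 2 := by
  induction k with
  | zero =>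
    intro H hH
    rw [pow_zero, mul_one] at hH
    exact ⟨fun _ => ⊤, rfl, (Subgroup.eq_top_of_le_card H hH.ge).symm,
      fun i hi => absurd hi (Nat.not_lt_zero i)⟩
  | succ k ih =>
    intro H hH
    obtain ⟨a, ha⟩ := IsPGroup.iff_card.1 (h2.to_subgroup H)
    obtain ⟨K, hK, hHK⟩ := Sylow.exists_subgroup_card_pow_succ (G := Γ) (p := 2) (n := a)
      ⟨2 ^ k, by rw [← hH, ha]; ring⟩ ha
    obtain ⟨c, h0, h1, h3⟩ := ih K (by rw [← hH, ha, hK]; ring)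
    refine ⟨fun i => if i ≤ k then c i else H, by simp [h0], by simp, fun i hi => ?_⟩
    rcases Nat.lt_succ_iff_lt_or_eq.1 hi with hi | rfl
    · simp only [if_pos (Nat.succ_le_of_lt hi), if_pos hi.le]
      exact h3 i hi
    · simp only [if_neg (Nat.not_succ_le_self i), if_pos le_rfl, h1]
      refine ⟨hHK, ?_⟩
      have h4 := (H.subgroupOf K).card_mul_index
      rw [Nat.card_congr (Subgroup.subgroupOfEquivOfLe hHK).toEquiv, ha, hK, pow_succ] at h4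
      exact Nat.eq_of_mul_eq_mul_left (by positivity) h4

/-- a subgroup of a finite 2-group is reached from the top by index two steps -/
theorem exists_chain {Γ : Type} [Group Γ] [Finite Γ] (h2 : IsPGroup 2 Γ) (H : Subgroup Γ) :
    ∃ (r : ℕ) (c : ℕ → Subgroup Γ), c 0 = ⊤ ∧ c r = H ∧
      ∀ i < r, c (i + 1) ≤ c i ∧ (c (i + 1)).relIndex (c i) = 2 := by
  obtain ⟨k, hk⟩ := h2.index H
  exact ⟨k, gmisc_chain h2 k H (by rw [← hk, H.card_mul_index])⟩

theorem gmisc_dihedral {G : Type*} [Group G] {p q : G} {N : ℕ} (hN : 0 < N) (hp : p ^ 2 = 1)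
    (hq : q ^ 2 = 1) (h : (p * q) ^ N = 1) :
    ∃ T : Subgroup G, (T : Set G).Finite ∧ p ∈ T ∧ q ∈ T := by
  obtain ⟨r, hr⟩ : ∃ r, r = p * q := ⟨_, rfl⟩
  rw [← hr] at h
  have hpp : p * p = 1 := by rw [← sq, hp]
  have hp' : p⁻¹ = p := inv_eq_of_mul_eq_one_right hpp
  have hq' : q⁻¹ = q := inv_eq_of_mul_eq_one_right (by rw [← sq, hq])
  have h1 : p * r * p⁻¹ = r⁻¹ := by
    rw [hr, mul_inv_rev, hp', hq', ← mul_assoc, hpp, one_mul]
  have h2 : ∀ j : ℤ, p * r ^ j = r ^ (-j) * p := fun j => by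
    rw [zpow_neg, ← inv_zpow, ← h1, conj_zpow, inv_mul_cancel_right]
  have hf : (Subgroup.zpowers r : Set G).Finite :=
    (isOfFinOrder_iff_pow_eq_one.2 ⟨N, hN, h⟩).finite_zpowers
  refine ⟨{ carrier := {g | ∃ i : ℤ, g = r ^ i ∨ g = r ^ i * p}
            mul_mem' := ?_
            one_mem' := ⟨0, Or.inl (zpow_zero r).symm⟩
            inv_mem' := ?_ }, ?_, ⟨0, Or.inr (by simp)⟩, ⟨-1, Or.inr ?_⟩⟩
  · rintro _ _ ⟨i, rfl | rfl⟩ ⟨j, rfl | rfl⟩
    · exact ⟨i + j, Or.inl (zpow_add r i j).symm⟩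
    · exact ⟨i + j, Or.inr (by rw [zpow_add, mul_assoc])⟩
    · exact ⟨i + -j, Or.inr (by rw [zpow_add, mul_assoc, h2, mul_assoc])⟩
    · exact ⟨i + -j, Or.inl (by
        rw [zpow_add, mul_assoc, ← mul_assoc p, h2, mul_assoc, hpp, mul_one])⟩
  · rintro _ ⟨i, rfl | rfl⟩
    · exact ⟨-i, Or.inl (zpow_neg r i).symm⟩
    · exact ⟨i, Or.inr (by rw [mul_inv_rev, hp', ← zpow_neg, h2, neg_neg])⟩
  · refine (hf.union (hf.image (· * p))).subset ?_
    rintro _ ⟨i, rfl | rfl⟩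
    · exact Or.inl ⟨i, rfl⟩
    · exact Or.inr ⟨_, ⟨i, rfl⟩, rfl⟩
  · rw [zpow_neg_one, hr, mul_inv_rev, hp', hq', mul_assoc, hpp, mul_one]

/-- dihedral orbits are finite -/
theorem finite_orbit_two {X : Type*} (θ : FreeGroup (Fin 2) →* Equiv.Perm X) (N : ℕ) (hN : 0 < N)
    (h0 : θ (FreeGroup.of 0) ^ N = 1) (h1 : θ (FreeGroup.of 1) ^ N = 1)
    (h01 : θ (FreeGroup.of 0 * FreeGroup.of 1) ^ N = 1)
    (h : (θ (FreeGroup.of 0) ^ 2 = 1 ∧ θ (FreeGroup.of 1) ^ 2 = 1) ∨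
      (θ (FreeGroup.of 0) ^ 2 = 1 ∧ θ (FreeGroup.of 0 * FreeGroup.of 1) ^ 2 = 1) ∨
      (θ (FreeGroup.of 1) ^ 2 = 1 ∧ θ (FreeGroup.of 0 * FreeGroup.of 1) ^ 2 = 1)) :
    (Set.range θ).Finite := by
  rw [map_mul] at h01 h
  suffices hs : ∃ T : Subgroup (Equiv.Perm X), (T : Set (Equiv.Perm X)).Finite ∧
      θ (FreeGroup.of 0) ∈ T ∧ θ (FreeGroup.of 1) ∈ T by
    obtain ⟨T, hT, ha, hb⟩ := hs
    refine hT.subset ?_
    rintro _ ⟨g, rfl⟩
    have h3 : (⊤ : Subgroup (FreeGroup (Fin 2))) ≤ T.comap θ := by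
      rw [← FreeGroup.closure_range_of, Subgroup.closure_le]
      rintro _ ⟨i, rfl⟩
      fin_cases i
      · exact ha
      · exact hb
    exact h3 (Subgroup.mem_top g)
  generalize θ (FreeGroup.of 0) = a at *
  generalize θ (FreeGroup.of 1) = b at *
  rcases h with ⟨ha, hb⟩ | ⟨ha, hb⟩ | ⟨ha, hb⟩
  · exact gmisc_dihedral hN ha hb h01
  · obtain ⟨T, hT, h3, h4⟩ := gmisc_dihedral hN ha hb
      (by rw [← mul_assoc, ← sq, ha, one_mul, h1])
    exact ⟨T, hT, h3, (T.mul_mem_cancel_left h3).1 h4⟩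
  · obtain ⟨T, hT, h3, h4⟩ := gmisc_dihedral hN hb ha
      (by rw [mul_assoc, ← sq, ha, mul_one, h0])
    exact ⟨T, hT, (T.mul_mem_cancel_right h4).1 h3, h4⟩

end Vale.Agent.P300
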