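import Vale.Agent.P300.CTsen
import Vale.Agent.P300.GMisc

/-! P300: two-cocycles of two-groups with values in the multiplicative group are coboundaries. -/

namespace Vale.Agent.P300

section Abstract

variable {G A : Type} [Group G] [AddCommGroup A] (ρ : Representation ℤ G A)

/-- the cocycle identity -/
def CsCoc (f : G → G → A) : Prop :=
  ∀ σ τ υ, f σ τ + f (σ * τ) υ = ρ σ (f τ υ) + f σ (τ * υ)

/-- a cochain changed by a coboundary -/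
def csMod (f : G → G → A) (b : G → A) (σ τ : G) : A := f σ τ + b σ + ρ σ (b τ) - b (σ * τ)

variable {ρ}

theorem cs_mul (σ τ : G) (x : A) : ρ (σ * τ) x = ρ σ (ρ τ x) := by
  rw [map_mul]
  rfl

theorem CsCoc.mod {f : G → G → A} (hf : CsCoc ρ f) (b : G → A) : CsCoc ρ (csMod ρ f b) := by
  intro σ τ υ
  simp only [csMod, map_add, map_sub, cs_mul, mul_assoc]
  linear_combination (norm := abel) hf σ τ υ

theorem csMod_mod (f : G → G → A) (b c : G → A) :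
    csMod ρ (csMod ρ f b) c = csMod ρ f (b + c) := by
  funext σ τ
  simp only [csMod, Pi.add_apply, map_add]
  abel

variable {N H : Subgroup G} {γ : G}

theorem cs_first {f : G → G → A} (hf : CsCoc ρ f)
    (hi : ∀ a ∈ H, ∀ b ∈ H, (a * b ∈ N ↔ (a ∈ N ↔ b ∈ N))) (hNH : N ≤ H) (hγ : γ ∈ H)
    (hγ' : γ ∉ N) (h0 : ∀ σ ∈ N, ∀ τ ∈ N, f σ τ = 0)
    (h90 : ∀ c : G → A, (∀ σ ∈ N, ∀ τ ∈ N, c (σ * τ) = c σ + ρ σ (c τ)) →
      ∃ β, ∀ σ ∈ N, c σ = ρ σ β - β) :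
    ∃ b : G → A, ∀ σ ∈ H, ∀ τ ∈ H, σ ∈ N ∨ τ ∈ N → csMod ρ f b σ τ = 0 := by
  classical
  have hγi : γ⁻¹ ∉ N := fun h => hγ' (N.inv_mem_iff.1 h)
  have hc1 : ∀ n ∈ N, γ⁻¹ * n * γ ∈ N := fun n hn =>
    (hi _ (H.mul_mem (H.inv_mem hγ) (hNH hn)) _ hγ).2
      (iff_of_false (fun h => hγi ((N.mul_mem_cancel_right hn).1 h)) hγ')
  have hc2 : ∀ n ∈ N, γ * n * γ⁻¹ ∈ N := fun n hn =>
    (hi _ (H.mul_mem hγ (hNH hn)) _ (H.inv_mem hγ)).2
      (iff_of_false (fun h => hγ' ((N.mul_mem_cancel_right hn).1 h)) hγi)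
  have hc3 : ∀ σ ∈ H, σ ∉ N → ∃ n ∈ N, σ = n * γ := fun σ h1 h2 =>
    ⟨σ * γ⁻¹, (hi _ h1 _ (H.inv_mem hγ)).2 (iff_of_false h2 hγi), by simp⟩
  obtain ⟨β, hβ⟩ := h90 (fun m => f γ (γ⁻¹ * m * γ) - f m γ) fun m hm n hn => by
    have e1 := hf γ (γ⁻¹ * m * γ) (γ⁻¹ * n * γ)
    have e2 := hf m γ (γ⁻¹ * n * γ)
    have e3 := hf m n γ
    rw [h0 _ (hc1 m hm) _ (hc1 n hn), map_zero,
      show γ * (γ⁻¹ * m * γ) = m * γ by group,
      show γ⁻¹ * m * γ * (γ⁻¹ * n * γ) = γ⁻¹ * (m * n) * γ by group] at e1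
    rw [show γ * (γ⁻¹ * n * γ) = n * γ by group] at e2
    rw [h0 _ hm _ hn] at e3
    simp only [map_sub]
    linear_combination (norm := abel) e2 - e1 - e3
  refine ⟨fun σ => if σ ∈ N then 0 else ρ (σ * γ⁻¹) β + f (σ * γ⁻¹) γ, fun σ hσ τ hτ h => ?_⟩
  by_cases h1 : σ ∈ N <;> by_cases h2 : τ ∈ N
  · simp [csMod, h1, h2, N.mul_mem h1 h2, h0 σ h1 τ h2]
  · obtain ⟨m, hm, rfl⟩ := hc3 τ hτ h2
    have h3 : σ * (m * γ) ∉ N := fun h => h2 ((N.mul_mem_cancel_left h1).1 h)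
    have e1 := hf σ m γ
    rw [h0 _ h1 _ hm] at e1
    simp only [csMod, if_pos h1, if_neg h2, if_neg h3, mul_inv_cancel_right,
      show σ * (m * γ) * γ⁻¹ = σ * m by group, map_add, cs_mul]
    linear_combination (norm := abel) -e1
  · obtain ⟨n, hn, rfl⟩ := hc3 σ hσ h1
    have h3 : n * γ * τ ∉ N := fun h => h1 ((N.mul_mem_cancel_right h2).1 h)
    have e1 := hf n γ τ
    have e2 := hf n (γ * τ * γ⁻¹) γ
    have e3 := congrArg (ρ n) (hβ _ (hc2 τ h2))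
    rw [h0 _ hn _ (hc2 τ h2), inv_mul_cancel_right] at e2
    simp only [show γ⁻¹ * (γ * τ * γ⁻¹) * γ = τ by group, map_sub] at e3
    simp only [csMod, if_neg h1, if_pos h2, if_neg h3, mul_inv_cancel_right,
      show n * γ * τ * γ⁻¹ = n * (γ * τ * γ⁻¹) by group, map_zero, cs_mul n]
    linear_combination (norm := abel) e1 - e2 + e3
  · exact absurd h (not_or.2 ⟨h1, h2⟩)

theorem cs_second {f : G → G → A} (hf : CsCoc ρ f)
    (hi : ∀ a ∈ H, ∀ b ∈ H, (a * b ∈ N ↔ (a ∈ N ↔ b ∈ N))) (hNH : N ≤ H) (hγ : γ ∈ H)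
    (hγ' : γ ∉ N) (h0 : ∀ σ ∈ H, ∀ τ ∈ H, σ ∈ N ∨ τ ∈ N → f σ τ = 0)
    (hn : ∀ e : A, (∀ σ ∈ H, ρ σ e = e) → ∃ u, (∀ σ ∈ N, ρ σ u = u) ∧ u + ρ γ u + e = 0) :
    ∃ b : G → A, ∀ σ ∈ H, ∀ τ ∈ H, csMod ρ f b σ τ = 0 := by
  classical
  have hγi : γ⁻¹ ∉ N := fun h => hγ' (N.inv_mem_iff.1 h)
  have hc : ∀ σ ∈ H, σ ∉ N → ∃ n ∈ N, σ = γ * n := fun σ h1 h2 =>
    ⟨γ⁻¹ * σ, (hi _ (H.inv_mem hγ) _ h1).2 (iff_of_false hγi h2), by simp⟩
  have hγγ : γ * γ ∈ N := (hi _ hγ _ hγ).2 Iff.rfl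
  have k1 : ∀ σ ∈ H, σ ∉ N → ∀ τ ∈ H, τ ∉ N → f σ τ = f γ γ := fun σ h1 h2 τ h3 h4 => by
    obtain ⟨n, hn, rfl⟩ := hc σ h1 h2
    obtain ⟨m, hm, e⟩ := hc (n * τ) (H.mul_mem (hNH hn) h3)
      fun h => h4 ((N.mul_mem_cancel_left hn).1 h)
    have e1 := hf γ n τ
    have e2 := hf γ γ m
    rw [h0 _ hγ _ (hNH hn) (Or.inr hn), h0 _ (hNH hn) _ h3 (Or.inl hn), map_zero, e] at e1
    rw [h0 _ (hNH hγγ) _ (hNH hm) (Or.inr hm), h0 _ hγ _ (hNH hm) (Or.inr hm), map_zero] at e2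
    linear_combination (norm := abel) e1 - e2
  have k2 : ∀ n ∈ N, ρ n (f γ γ) = f γ γ := fun n hn => by
    have e1 := hf n γ γ
    rw [h0 _ (hNH hn) _ hγ (Or.inl hn), h0 _ (hNH hn) _ (hNH hγγ) (Or.inl hn),
      k1 _ (H.mul_mem (hNH hn) hγ) (fun h => hγ' ((N.mul_mem_cancel_left hn).1 h)) _ hγ hγ'] at e1
    linear_combination (norm := abel) -e1
  have k3 : ρ γ (f γ γ) = f γ γ := by
    have e1 := hf γ γ γ
    rw [h0 _ (hNH hγγ) _ hγ (Or.inl hγγ), h0 _ hγ _ (hNH hγγ) (Or.inr hγγ)] at e1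
    linear_combination (norm := abel) -e1
  obtain ⟨u, hu, hu'⟩ := hn (f γ γ) fun σ hσ => by
    by_cases h1 : σ ∈ N
    · exact k2 σ h1
    · obtain ⟨n, hn, rfl⟩ := hc σ hσ h1
      rw [cs_mul, k2 n hn, k3]
  refine ⟨fun σ => if σ ∈ N then 0 else u, fun σ hσ τ hτ => ?_⟩
  by_cases h1 : σ ∈ N <;> by_cases h2 : τ ∈ N
  · simp [csMod, h1, h2, N.mul_mem h1 h2, h0 σ hσ τ hτ (Or.inl h1)]
  · have h3 : σ * τ ∉ N := fun h => h2 ((N.mul_mem_cancel_left h1).1 h)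
    simp [csMod, h1, h2, h3, h0 σ hσ τ hτ (Or.inl h1), hu σ h1]
  · have h3 : σ * τ ∉ N := fun h => h1 ((N.mul_mem_cancel_right h2).1 h)
    simp [csMod, h1, h2, h3, h0 σ hσ τ hτ (Or.inr h2)]
  · have h3 : σ * τ ∈ N := (hi _ hσ _ hτ).2 (iff_of_false h1 h2)
    have h4 := k1 σ hσ h1 τ hτ h2
    simp only [csMod, if_neg h1, if_neg h2, if_pos h3, h4]
    obtain ⟨n, hn, rfl⟩ := hc σ hσ h1
    rw [cs_mul, hu n hn]
    linear_combination (norm := abel) hu'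

theorem cs_index (h : N.relIndex H = 2) :
    (∀ a ∈ H, ∀ b ∈ H, (a * b ∈ N ↔ (a ∈ N ↔ b ∈ N))) ∧ ∃ γ ∈ H, γ ∉ N := by
  refine ⟨fun a ha b hb => Subgroup.mul_mem_iff_of_index_two (H := N.subgroupOf H) h
    (a := ⟨a, ha⟩) (b := ⟨b, hb⟩), ?_⟩
  by_contra hc
  push Not at hc
  rw [Subgroup.relIndex_eq_one.2 hc] at h
  exact absurd h (by norm_num)

theorem cs_all [Finite G] (h2 : IsPGroup 2 G) {f : G → G → A} (hf : CsCoc ρ f)
    (h90 : ∀ (N : Subgroup G) (c : G → A), (∀ σ ∈ N, ∀ τ ∈ N, c (σ * τ) = c σ + ρ σ (c τ)) →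
      ∃ β, ∀ σ ∈ N, c σ = ρ σ β - β)
    (hn : ∀ (N H : Subgroup G) (γ : G), N ≤ H → γ ∈ H → γ ∉ N →
      (∀ a ∈ H, ∀ b ∈ H, (a * b ∈ N ↔ (a ∈ N ↔ b ∈ N))) → ∀ e : A, (∀ σ ∈ H, ρ σ e = e) →
        ∃ u, (∀ σ ∈ N, ρ σ u = u) ∧ u + ρ γ u + e = 0) :
    ∃ b : G → A, ∀ σ τ, csMod ρ f b σ τ = 0 := by
  obtain ⟨r, c, c0, cr, hc⟩ := exists_chain h2 ⊥
  have key : ∀ j ≤ r, ∃ b : G → A, ∀ σ ∈ c (r - j), ∀ τ ∈ c (r - j), csMod ρ f b σ τ = 0 := by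
    intro j
    induction j with
    | zero =>
      intro _
      refine ⟨fun _ => -f 1 1, fun σ hσ τ hτ => ?_⟩
      rw [Nat.sub_zero, cr, Subgroup.mem_bot] at hσ hτ
      simp [csMod, hσ, hτ]
    | succ j ih =>
      intro hj
      obtain ⟨b, hb⟩ := ih (by omega)
      obtain ⟨h3, h4⟩ := hc (r - (j + 1)) (by omega)
      rw [show r - (j + 1) + 1 = r - j by omega] at h3 h4
      obtain ⟨hi, γ, hγ, hγ'⟩ := cs_index h4
      obtain ⟨b', hb'⟩ := cs_first (hf.mod b) hi h3 hγ hγ' hb (h90 _)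
      obtain ⟨b'', hb''⟩ := cs_second ((hf.mod b).mod b') hi h3 hγ hγ' hb'
        (hn _ _ γ h3 hγ hγ' hi)
      exact ⟨b + b' + b'', by rwa [csMod_mod, csMod_mod, ← add_assoc] at hb''⟩
  obtain ⟨b, hb⟩ := key r le_rfl
  rw [Nat.sub_self, c0] at hb
  exact ⟨b, fun σ τ => hb σ trivial τ trivial⟩

end Abstract

theorem cs_h90 {K L : Type} [Field K] [Field L] [Algebra K L] [FiniteDimensional K L]
    (N : Subgroup (L ≃ₐ[K] L)) (c : (L ≃ₐ[K] L) → Lˣ)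
    (hc : ∀ σ ∈ N, ∀ τ ∈ N, c (σ * τ) = c σ * σ • c τ) : ∃ β : Lˣ, ∀ σ ∈ N, c σ = σ • β / β := by
  let e := IntermediateField.subgroupEquivAlgEquiv N
  obtain ⟨β, hβ⟩ := groupCohomology.isMulCoboundary₁_of_isMulCocycle₁_of_aut_to_units
    (fun g => c (e.symm g)) fun g h => by
      obtain ⟨g, rfl⟩ := e.surjective g
      obtain ⟨h, rfl⟩ := e.surjective h
      simp only [← map_mul, MulEquiv.symm_apply_apply]
      rw [Subgroup.coe_mul, hc _ g.2 _ h.2, mul_comm]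
      rfl
  refine ⟨β, fun σ hσ => ?_⟩
  have h := hβ (e ⟨σ, hσ⟩)
  simp only [MulEquiv.symm_apply_apply] at h
  exact h.symm

theorem cs_norm {k : Type} [Field k] [IsAlgClosed k] [CharZero k] {K L : Type} [Field K]
    [Field L] [Algebra (RatFunc k) K] [FiniteDimensional (RatFunc k) K] [Algebra K L]
    [FiniteDimensional K L] {N H : Subgroup (L ≃ₐ[K] L)} {γ : L ≃ₐ[K] L} (hNH : N ≤ H)
    (hγ : γ ∈ H) (hγ' : γ ∉ N) (hi : ∀ a ∈ H, ∀ b ∈ H, (a * b ∈ N ↔ (a ∈ N ↔ b ∈ N))) {e : L}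
    (he : ∀ σ ∈ H, σ e = e) : ∃ u : L, (∀ σ ∈ N, σ u = u) ∧ u * γ u = e := by
  have hK : CharZero K := charZero_of_injective_algebraMap (algebraMap (RatFunc k) K).injective
  have hL : CharZero L := charZero_of_injective_algebraMap (algebraMap K L).injective
  have hγi : γ⁻¹ ∉ N := fun h => hγ' (N.inv_mem_iff.1 h)
  obtain ⟨w, hw, hw'⟩ : ∃ w : L, (∀ σ ∈ N, σ w = w) ∧ γ w ≠ w := by
    by_contra hc
    push Not at hc
    rw [← IntermediateField.fixingSubgroup_fixedField N] at hγ'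
    exact hγ' fun x => hc x ((IntermediateField.mem_fixedField_iff N _).1 x.2)
  obtain ⟨δ, hδ0, hδN, hδγ⟩ : ∃ δ : L, δ ≠ 0 ∧ (∀ σ ∈ N, σ δ = δ) ∧ γ δ = -δ := by
    refine ⟨w - γ w, sub_ne_zero.2 hw'.symm, fun σ hσ => ?_, ?_⟩
    · have h1 : γ⁻¹ * σ * γ ∈ N := (hi _ (H.mul_mem (H.inv_mem hγ) (hNH hσ)) _ hγ).2
        (iff_of_false (fun h => hγi ((N.mul_mem_cancel_right hσ).1 h)) hγ')
      have h2 : σ * γ = γ * (γ⁻¹ * σ * γ) := by group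
      rw [map_sub, hw σ hσ, ← AlgEquiv.mul_apply, h2, AlgEquiv.mul_apply, hw _ h1]
    · rw [map_sub, ← AlgEquiv.mul_apply, hw _ ((hi _ hγ _ hγ).2 Iff.rfl), neg_sub]
  have hd : δ ^ 2 ∈ IntermediateField.fixedField H := by
    refine (IntermediateField.mem_fixedField_iff H _).2 fun σ hσ => ?_
    by_cases h1 : σ ∈ N
    · rw [map_pow, hδN σ h1]
    · have h2 : γ⁻¹ * σ ∈ N := (hi _ (H.inv_mem hγ) _ hσ).2 (iff_of_false hγi h1)
      rw [map_pow, ← mul_inv_cancel_left γ σ, AlgEquiv.mul_apply, hδN _ h2, hδγ, neg_sq]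
  let _ : Algebra (RatFunc k) (IntermediateField.fixedField H) :=
    ((algebraMap K (IntermediateField.fixedField H)).comp (algebraMap (RatFunc k) K)).toAlgebra
  have _ : IsScalarTower (RatFunc k) K (IntermediateField.fixedField H) :=
    IsScalarTower.of_algebraMap_eq fun _ => rfl
  have _ : FiniteDimensional (RatFunc k) (IntermediateField.fixedField H) :=
    FiniteDimensional.trans (RatFunc k) K _
  obtain ⟨X, Y, Z, h0, h⟩ := tsen_ternary (k := k) (IntermediateField.fixedField H) ⟨_, hd⟩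
    ⟨e, (IntermediateField.mem_fixedField_iff H _).2 he⟩
  have hX := (IntermediateField.mem_fixedField_iff H _).1 X.2
  have hY := (IntermediateField.mem_fixedField_iff H _).1 Y.2
  have hZ := (IntermediateField.mem_fixedField_iff H _).1 Z.2
  have h1 : (X : L) ^ 2 - δ ^ 2 * (Y : L) ^ 2 - e * (Z : L) ^ 2 = 0 := congrArg Subtype.val h
  have h2 : γ ((X : L) + δ * Y) = X - δ * Y := by
    rw [map_add, map_mul, hX γ hγ, hY γ hγ, hδγ]
    ring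
  have h3 : γ ((X : L) - δ * Y) = X + δ * Y := by
    rw [map_sub, map_mul, hX γ hγ, hY γ hγ, hδγ]
    ring
  have hZ0 : (Z : L) ≠ 0 := fun hz => by
    have h4 : ((X : L) + δ * Y) * (X - δ * Y) = 0 := by
      rw [hz] at h1
      linear_combination h1
    have h5 : (X : L) + δ * Y = 0 ∧ (X : L) - δ * Y = 0 := by
      rcases mul_eq_zero.1 h4 with h5 | h5
      · exact ⟨h5, by rw [← h2, h5, map_zero]⟩
      · exact ⟨by rw [← h3, h5, map_zero], h5⟩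
    have h6 : (X : L) = 0 := by linear_combination (h5.1 + h5.2) / 2
    have h7 : δ * (Y : L) = 0 := by linear_combination (h5.1 - h5.2) / 2
    rcases h0 with h0 | h0 | h0
    · exact h0 (Subtype.ext h6)
    · exact h0 (Subtype.ext ((mul_eq_zero.1 h7).resolve_left hδ0))
    · exact h0 (Subtype.ext hz)
  refine ⟨(X + δ * Y) / Z, fun σ hσ => ?_, ?_⟩
  · rw [map_div₀, map_add, map_mul, hX σ (hNH hσ), hY σ (hNH hσ), hZ σ (hNH hσ), hδN σ hσ]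
  · rw [map_div₀, h2, hZ γ hγ]
    field_simp
    linear_combination h1

theorem cocycle_split {k : Type} [Field k] [IsAlgClosed k] [CharZero k] (K L : Type) [Field K]
    [Field L] [Algebra (RatFunc k) K] [FiniteDimensional (RatFunc k) K] [Algebra K L]
    [FiniteDimensional K L] [IsGalois K L] (h2 : IsPGroup 2 (L ≃ₐ[K] L))
    (f : (L ≃ₐ[K] L) → (L ≃ₐ[K] L) → L) (hf0 : ∀ σ τ, f σ τ ≠ 0)
    (hf : ∀ σ τ ρ, f σ τ * f (σ * τ) ρ = σ (f τ ρ) * f σ (τ * ρ)) :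
    ∃ a : (L ≃ₐ[K] L) → L, (∀ σ, a σ ≠ 0) ∧ ∀ σ τ, f σ τ * a (σ * τ) = a σ * σ (a τ) := by
  obtain ⟨b, hb⟩ := cs_all (ρ := Representation.ofMulDistribMulAction (L ≃ₐ[K] L) Lˣ) h2
    (f := fun σ τ => Additive.ofMul (Units.mk0 (f σ τ) (hf0 σ τ)))
    (fun σ τ υ => congrArg Additive.ofMul (Units.ext (hf σ τ υ)))
    (fun N c hc => by
      obtain ⟨β, hβ⟩ := cs_h90 N (fun σ => (c σ).toMul) fun σ hσ τ hτ =>
        congrArg Additive.toMul (hc σ hσ τ hτ)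
      exact ⟨Additive.ofMul β, fun σ hσ => congrArg Additive.ofMul (hβ σ hσ)⟩)
    (fun N H γ hNH hγ hγ' hi e he => by
      obtain ⟨u, hu, hu'⟩ := cs_norm (k := k) hNH hγ hγ' hi (e := ((e.toMul : Lˣ) : L)⁻¹)
        fun σ hσ => by
          rw [map_inv₀]
          exact congrArg (fun x : Additive Lˣ => ((x.toMul : Lˣ) : L)⁻¹) (he σ hσ)
      have hu0 : u ≠ 0 := fun h => inv_ne_zero e.toMul.ne_zero (by rw [← hu', h, zero_mul])
      refine ⟨Additive.ofMul (Units.mk0 u hu0),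
        fun σ hσ => congrArg Additive.ofMul (Units.ext (hu σ hσ)),
        congrArg Additive.ofMul (Units.ext ?_)⟩
      change u * γ u * ((e.toMul : Lˣ) : L) = 1
      rw [hu', inv_mul_cancel₀ e.toMul.ne_zero])
  refine ⟨fun σ => (((b σ).toMul : Lˣ) : L)⁻¹, fun σ => inv_ne_zero (b σ).toMul.ne_zero,
    fun σ τ => ?_⟩
  have h1 : f σ τ * (((b σ).toMul : Lˣ) : L) * σ (((b τ).toMul : Lˣ) : L) =
      (((b (σ * τ)).toMul : Lˣ) : L) :=
    congrArg (fun x : Additive Lˣ => ((x.toMul : Lˣ) : L)) (sub_eq_zero.1 (hb σ τ))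
  have h3 := (b σ).toMul.ne_zero
  have h4 : σ (((b τ).toMul : Lˣ) : L) ≠ 0 := (map_ne_zero σ).2 (b τ).toMul.ne_zero
  have h5 := hf0 σ τ
  simp only [map_inv₀]
  rw [← h1]
  field_simp

end Vale.Agent.P300
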