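import Mathlib

/-! P300: elements of a quadratic extension. -/

namespace Vale.Agent.P300

theorem cunr_mem_sup {F Ω : Type*} [Field F] [Field Ω] [Algebra F Ω] (L : IntermediateField F Ω)
    {w : Ω} (hw : w ^ 2 ∈ L) {z : Ω} (hz : z ∈ L ⊔ IntermediateField.adjoin F {w}) :
    ∃ p ∈ L, ∃ q ∈ L, z = p + q * w := by
  let S : IntermediateField F Ω :=
    { carrier := {z | ∃ p ∈ L, ∃ q ∈ L, z = p + q * w}
      mul_mem' := by
        rintro _ _ ⟨p, hp, q, hq, rfl⟩ ⟨p', hp', q', hq', rfl⟩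
        exact ⟨p * p' + q * q' * w ^ 2, add_mem (mul_mem hp hp') (mul_mem (mul_mem hq hq') hw),
          p * q' + q * p', add_mem (mul_mem hp hq') (mul_mem hq hp'), by ring⟩
      add_mem' := by
        rintro _ _ ⟨p, hp, q, hq, rfl⟩ ⟨p', hp', q', hq', rfl⟩
        exact ⟨p + p', add_mem hp hp', q + q', add_mem hq hq', by ring⟩
      algebraMap_mem' := fun r => ⟨_, L.algebraMap_mem r, 0, zero_mem _, by ring⟩
      inv_mem' := by
        rintro _ ⟨p, hp, q, hq, rfl⟩
        have hN : p ^ 2 - q ^ 2 * w ^ 2 ∈ L := sub_mem (pow_mem hp 2) (mul_mem (pow_mem hq 2) hw)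
        by_cases h0 : p - q * w = 0
        · have h1 : p + q * w = p + p := by rw [← sub_eq_zero.1 h0]
          exact ⟨(p + p)⁻¹, inv_mem (add_mem hp hp), 0, zero_mem _, by rw [h1]; ring⟩
        · refine ⟨p / (p ^ 2 - q ^ 2 * w ^ 2), div_mem hp hN, -q / (p ^ 2 - q ^ 2 * w ^ 2),
            div_mem (neg_mem hq) hN, ?_⟩
          have h1 : p ^ 2 - q ^ 2 * w ^ 2 = (p + q * w) * (p - q * w) := by ring
          rw [h1, div_mul_eq_mul_div, ← add_div, neg_mul, ← sub_eq_add_neg,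
            div_mul_cancel_right₀ h0] }
  have h1 : L ⊔ IntermediateField.adjoin F {w} ≤ S := by
    refine sup_le (fun p hp => ⟨p, hp, 0, zero_mem _, by ring⟩) ?_
    rw [IntermediateField.adjoin_simple_le_iff]
    exact ⟨0, zero_mem _, 1, one_mem _, by ring⟩
  exact h1 hz

end Vale.Agent.P300
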