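import Vale.Agent.P300.CDefs
import Vale.Agent.P300.CSplit
import Vale.Agent.P300.CUnrX1

/-! P300: solution of central embedding problems with kernel of order two. -/

namespace Vale.Agent.P300

theorem cemb_ker {E G : Type} [Group E] [Group G] (π : E →* G) (hker : Nat.card π.ker = 2) :
    ∃ z₀ : E, π z₀ = 1 ∧ z₀ ≠ 1 ∧ (∀ z, π z = 1 → z = 1 ∨ z = z₀) ∧ z₀ * z₀ = 1 ∧
      ∀ z, π z = 1 → ∀ g, g * z = z * g := by
  obtain ⟨z₀, h0, hu⟩ := (Nat.card_eq_two_iff' (1 : π.ker)).1 hker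
  have h1 : z₀.1 ≠ 1 := fun h => h0 (Subtype.ext h)
  have h2 : ∀ z, π z = 1 → z = 1 ∨ z = z₀.1 := fun z hz =>
    or_iff_not_imp_left.2 fun h => congrArg Subtype.val
      (hu ⟨z, hz⟩ fun h' => h (congrArg Subtype.val h'))
  have h3 : π z₀.1 = 1 := z₀.2
  refine ⟨z₀.1, h3, h1, h2, ?_, fun z hz g => ?_⟩
  · rcases h2 (z₀.1 * z₀.1) (by rw [map_mul, h3, one_mul]) with h | h
    · exact h
    · exact absurd (mul_eq_left.1 h) h1
  · rcases h2 z hz with rfl | rfl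
    · rw [mul_one, one_mul]
    · rcases h2 (g * z₀.1 * g⁻¹) (by rw [map_mul, map_mul, h3, mul_one, ← map_mul,
        mul_inv_cancel, map_one]) with h | h
      · rw [mul_inv_eq_one, mul_eq_left] at h
        exact absurd h h1
      · exact mul_inv_eq_iff_eq_mul.1 h

theorem cemb_cocycle {k : Type} [Field k] [IsAlgClosed k] [CharZero k]
    (L : IntermediateField (RatFunc k) (KB k)) [FiniteDimensional (RatFunc k) L]
    [IsGalois (RatFunc k) L] (h2 : IsPGroup 2 (L ≃ₐ[RatFunc k] L))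
    {E : Type} [Group E] (π : E →* (L ≃ₐ[RatFunc k] L)) (hπ : Function.Surjective π)
    {z₀ : E} (h0 : π z₀ = 1) (h1 : z₀ ≠ 1) (hz : ∀ z, π z = 1 → z = 1 ∨ z = z₀)
    (hzz : z₀ * z₀ = 1) (hc : ∀ z, π z = 1 → ∀ g, g * z = z * g) :
    ∃ A : E → L, (∀ g, A g ≠ 0) ∧ (∀ g h, A (g * h) = A g * π g (A h)) ∧ A 1 = 1 ∧
      A z₀ = -1 := by
  classical
  obtain ⟨s, hs⟩ := hπ.hasRightInverse
  have hs : ∀ σ, π (s σ) = σ := hs
  obtain ⟨η, hη⟩ : ∃ η : E → L, η = fun z => if z = 1 then 1 else -1 := ⟨_, rfl⟩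
  have e1 : η 1 = 1 := by rw [hη]; exact if_pos rfl
  have e2 : η z₀ = -1 := by rw [hη]; exact if_neg h1
  have e3 : ∀ z z', π z = 1 → π z' = 1 → η (z * z') = η z * η z' := by
    intro z z' h h'
    rcases hz z h with rfl | rfl
    · rw [one_mul, e1, one_mul]
    · rcases hz z' h' with rfl | rfl
      · rw [mul_one, e1, mul_one]
      · rw [hzz, e1, e2, neg_mul_neg, one_mul]
  have e4 : ∀ z (σ : L ≃ₐ[RatFunc k] L), σ (η z) = η z := by
    intro z σ
    rw [hη]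
    by_cases h : z = 1 <;> simp [h]
  have e5 : ∀ z, η z ≠ 0 := by
    intro z
    rw [hη]
    by_cases h : z = 1 <;> simp [h]
  have k1 : ∀ σ τ, π (s σ * s τ * (s (σ * τ))⁻¹) = 1 := by
    intro σ τ
    simp [hs]
  have k2 : ∀ g, π (g * (s (π g))⁻¹) = 1 := by
    intro g
    simp [hs]
  obtain ⟨a, ha0, ha⟩ := cocycle_split (k := k) (RatFunc k) L h2
    (fun σ τ => η (s σ * s τ * (s (σ * τ))⁻¹)) (fun _ _ => e5 _) fun σ τ ρ => by
      rw [e4, ← e3 _ _ (k1 _ _) (k1 _ _), ← e3 _ _ (k1 _ _) (k1 _ _)]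
      congr 1
      rw [← mul_assoc (s τ * s ρ * (s (τ * ρ))⁻¹), ← mul_assoc (s τ * s ρ * (s (τ * ρ))⁻¹),
        ← hc _ (k1 τ ρ) (s σ), mul_assoc σ]
      group
  have hmul : ∀ g h, η (g * h * (s (π (g * h)))⁻¹) * a (π (g * h)) =
      η (g * (s (π g))⁻¹) * a (π g) * π g (η (h * (s (π h))⁻¹) * a (π h)) := by
    intro g h
    have h3 : g * h * (s (π g * π h))⁻¹ = g * (s (π g))⁻¹ * (h * (s (π h))⁻¹ *
        (s (π g) * s (π h) * (s (π g * π h))⁻¹)) := by
      rw [← mul_assoc (h * (s (π h))⁻¹), ← mul_assoc (h * (s (π h))⁻¹), ← hc _ (k2 h) (s (π g))]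
      group
    rw [map_mul π, h3, e3 _ _ (k2 g) (by rw [map_mul, k2, k1, one_mul]), e3 _ _ (k2 h) (k1 _ _),
      map_mul (π g), e4, mul_assoc, mul_assoc, ha]
    ring
  have hone : η (1 * (s (π 1))⁻¹) * a (π 1) = 1 := by
    have h3 := hmul 1 1
    rw [mul_one, map_one, AlgEquiv.one_apply] at h3
    rw [map_one]
    exact (mul_eq_left₀ (mul_ne_zero (e5 _) (ha0 _))).1 h3.symm
  refine ⟨fun g => η (g * (s (π g))⁻¹) * a (π g), fun g => mul_ne_zero (e5 _) (ha0 _), hmul,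
    hone, ?_⟩
  show η (z₀ * (s (π z₀))⁻¹) * a (π z₀) = -1
  rw [map_one, one_mul] at hone
  rw [h0, e3 _ _ h0 (by rw [map_inv, hs, inv_one]), e2, mul_assoc, hone, mul_one]

theorem cemb_alpha {F L : Type} [Field F] [Field L] [Algebra F L] [FiniteDimensional F L]
    {E : Type} [Group E] (π : E →* (L ≃ₐ[F] L)) (hπ : Function.Surjective π) {A : E → L}
    (h0 : ∀ g, A g ≠ 0) (hA : ∀ g h, A (g * h) = A g * π g (A h))
    (hk : ∀ z, π z = 1 → A z ^ 2 = 1) : ∃ α : L, α ≠ 0 ∧ ∀ g, π g α = A g ^ 2 * α := by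
  obtain ⟨s, hs⟩ := hπ.hasRightInverse
  have hs : ∀ σ, π (s σ) = σ := hs
  have h1 : ∀ g, A (s (π g)) ^ 2 = A g ^ 2 := by
    intro g
    have h2 : π (g * (s (π g))⁻¹) = 1 := by simp [hs]
    have h3 := hA (g * (s (π g))⁻¹) (s (π g))
    rw [inv_mul_cancel_right, h2, AlgEquiv.one_apply] at h3
    rw [h3, mul_pow, hk _ h2, one_mul]
  obtain ⟨x, hx⟩ := groupCohomology.isMulCoboundary₁_of_isMulCocycle₁_of_aut_to_units
    (fun σ : L ≃ₐ[F] L => Units.mk0 (A (s σ) ^ 2) (pow_ne_zero 2 (h0 _))) fun σ τ => by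
      apply Units.ext
      show A (s (σ * τ)) ^ 2 = σ (A (s τ) ^ 2) * A (s σ) ^ 2
      have h2 := h1 (s σ * s τ)
      rw [map_mul, hs, hs] at h2
      rw [h2, hA, hs, mul_pow, map_pow, mul_comm]
  refine ⟨x, x.ne_zero, fun g => ?_⟩
  have h2 := congrArg Units.val (div_eq_iff_eq_mul.1 (hx (π g)))
  rw [← h1]
  exact h2

theorem cemb_chi {F L : Type} [Field F] [Field L] [CharZero L] [Algebra F L]
    {E : Type} [Group E] (π : E →* (L ≃ₐ[F] L)) {A : E → L}
    (h0 : ∀ g, A g ≠ 0) (hA : ∀ g h, A (g * h) = A g * π g (A h)) {w : L} (hw : w ≠ 0)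
    (hw2 : ∀ g, π g (w ^ 2) = A g ^ 2 * w ^ 2) :
    ∃ χ : E →* Multiplicative (ZMod 2), ∀ g, χ g = 1 → π g w = A g * w := by
  classical
  have h1 : ∀ g, π g w = A g * w ∨ π g w = -(A g * w) := fun g =>
    sq_eq_sq_iff_eq_or_eq_neg.1 (by rw [← map_pow, hw2, mul_pow])
  have h2 : ∀ g, -(A g * w) ≠ A g * w := fun g h =>
    mul_ne_zero (h0 g) hw (neg_eq_self.1 h)
  have h3 : (Multiplicative.ofAdd (1 : ZMod 2)) ≠ 1 := by decide
  refine ⟨MonoidHom.mk' (fun g => if π g w = A g * w then 1 else Multiplicative.ofAdd 1)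
    fun g h => ?_, fun g hg => ?_⟩
  · have h4 : ∀ g, π g w = -(A g * w) → ¬π g w = A g * w := fun g e h => h2 g (e.symm.trans h)
    rcases h1 g with e | e <;> rcases h1 h with e' | e'
    · have h5 : π (g * h) w = A (g * h) * w := by
        rw [map_mul, AlgEquiv.mul_apply, e', map_mul, e, hA]; ring
      rw [if_pos e, if_pos e', if_pos h5, one_mul]
    · have h5 : π (g * h) w = -(A (g * h) * w) := by
        rw [map_mul, AlgEquiv.mul_apply, e', map_neg, map_mul, e, hA]; ring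
      rw [if_pos e, if_neg (h4 _ e'), if_neg (h4 _ h5), one_mul]
    · have h5 : π (g * h) w = -(A (g * h) * w) := by
        rw [map_mul, AlgEquiv.mul_apply, e', map_mul, e, hA]; ring
      rw [if_neg (h4 _ e), if_pos e', if_neg (h4 _ h5), mul_one]
    · have h5 : π (g * h) w = A (g * h) * w := by
        rw [map_mul, AlgEquiv.mul_apply, e', map_neg, map_mul, e, hA]; ring
      rw [if_neg (h4 _ e), if_neg (h4 _ e'), if_pos h5]
      decide
  · by_contra h
    exact h3 ((if_neg h).symm.trans hg)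

theorem embedding {k : Type} [Field k] [IsAlgClosed k] [CharZero k]
    (L : IntermediateField (RatFunc k) (KB k)) [FiniteDimensional (RatFunc k) L]
    [IsGalois (RatFunc k) L] (h2 : IsPGroup 2 (L ≃ₐ[RatFunc k] L))
    {E : Type} [Group E] (π : E →* (L ≃ₐ[RatFunc k] L)) (hπ : Function.Surjective π)
    (hker : Nat.card π.ker = 2)
    (hns : ∀ χ : E →* Multiplicative (ZMod 2), ∀ z ∈ π.ker, χ z = 1) :
    ∃ α : L, α ≠ 0 ∧ (∀ σ : L ≃ₐ[RatFunc k] L, ∃ c : L, σ α = c ^ 2 * α) ∧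
      ∀ β : RatFunc k, β ≠ 0 → ∀ w : KB k, w ^ 2 = (α : KB k) * algebraMap (RatFunc k) (KB k) β →
        ∃ (_ : IsGalois (RatFunc k) (L ⊔ IntermediateField.adjoin (RatFunc k) {w} :
            IntermediateField (RatFunc k) (KB k)))
          (e : E ≃* ((L ⊔ IntermediateField.adjoin (RatFunc k) {w} :
            IntermediateField (RatFunc k) (KB k)) ≃ₐ[RatFunc k]
            (L ⊔ IntermediateField.adjoin (RatFunc k) {w} : IntermediateField (RatFunc k) (KB k)))),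
          ∀ g : E, ∀ z : L, ((e g ⟨z, (le_sup_left : L ≤ _) z.2⟩ : (L ⊔ IntermediateField.adjoin
            (RatFunc k) {w} : IntermediateField (RatFunc k) (KB k))) : KB k) = (π g z : L) := by
  obtain ⟨z₀, hz0, hz1, hz, hzz, hc⟩ := cemb_ker π hker
  obtain ⟨A, hA0, hA, hA1, hAz⟩ := cemb_cocycle L h2 π hπ hz0 hz1 hz hzz hc
  obtain ⟨α, hα0, hα⟩ := cemb_alpha π hπ hA0 hA fun z h => by
    rcases hz z h with rfl | rfl
    · rw [hA1, one_pow]
    · rw [hAz, neg_one_sq]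
  refine ⟨α, hα0, fun σ => ?_, fun β hβ w hw => ?_⟩
  · obtain ⟨g, rfl⟩ := hπ σ
    exact ⟨A g, hα g⟩
  have : CharZero (KB k) :=
    charZero_of_injective_algebraMap (algebraMap (RatFunc k) (KB k)).injective
  have : IsGalois (RatFunc k) (KB k) := {}
  obtain ⟨γ, hγ⟩ : ∃ γ : L, γ = α * algebraMap (RatFunc k) L β := ⟨_, rfl⟩
  have hwγ : w ^ 2 = (γ : KB k) := by rw [hw, hγ]; rfl
  have hγσ : ∀ g, π g γ = A g ^ 2 * γ := fun g => by
    rw [hγ, map_mul, AlgEquiv.commutes, hα, mul_assoc]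
  have hw0 : w ≠ 0 := by
    intro h
    rw [h, zero_pow two_ne_zero] at hw
    exact mul_ne_zero (fun h => hα0 (Subtype.ext h)) ((map_ne_zero _).2 hβ) hw.symm
  have hwL : w ∉ L := by
    intro h
    have h1 : (⟨w, h⟩ : L) ^ 2 = γ := Subtype.ext hwγ
    have h3 : (⟨w, h⟩ : L) ≠ 0 := fun h' => hw0 (congrArg Subtype.val h')
    obtain ⟨χ, hχ⟩ := cemb_chi π hA0 hA h3 fun g => by rw [h1, hγσ]
    have h4 := hχ z₀ (hns χ z₀ hz0)
    rw [hz0, hAz, AlgEquiv.one_apply, neg_one_mul] at h4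
    exact h3 (self_eq_neg.1 h4)
  have hpm : ∀ (T : KB k ≃ₐ[RatFunc k] KB k) (g : E), (∀ z : L, T z = (π g z : L)) →
      T w = A g * w ∨ T w = -(A g * w) := fun T g hT =>
    sq_eq_sq_iff_eq_or_eq_neg.1 (by
      rw [← map_pow, hwγ, hT, hγσ, mul_pow, hwγ]
      rfl)
  have hres : ∀ T : KB k ≃ₐ[RatFunc k] KB k, ∃ g : E, (∀ z : L, T z = (π g z : L)) ∧
      T w = A g * w := by
    intro T
    obtain ⟨g, hg⟩ := hπ (T.restrictNormal L)
    have h1 : ∀ z : L, T z = (π g z : L) := fun z => by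
      rw [hg]
      exact (T.restrictNormal_commutes L z).symm
    rcases hpm T g h1 with h | h
    · exact ⟨g, h1, h⟩
    · refine ⟨z₀ * g, fun z => by rw [map_mul, hz0, one_mul, h1], ?_⟩
      rw [h, hA, hAz, hz0, AlgEquiv.one_apply, neg_one_mul]
      push_cast
      rw [neg_mul]
  have hι : ∃ ι : KB k ≃ₐ[RatFunc k] KB k, (∀ z : L, ι z = z) ∧ ι w = -w := by
    rw [← InfiniteGalois.fixedField_fixingSubgroup L, IntermediateField.mem_fixedField_iff] at hwL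
    push Not at hwL
    obtain ⟨ι, h1, h3⟩ := hwL
    have h4 : ∀ z : L, ι z = z := fun z => (IntermediateField.mem_fixingSubgroup_iff _ _).1 h1 z z.2
    refine ⟨ι, h4, ?_⟩
    exact (sq_eq_sq_iff_eq_or_eq_neg.1 (by rw [← map_pow, hwγ, h4])).resolve_left h3
  have hext : ∀ g : E, ∃ T : KB k ≃ₐ[RatFunc k] KB k, (∀ z : L, T z = (π g z : L)) ∧
      T w = A g * w := by
    intro g
    have h1 : ∀ z : L, (π g).liftNormal (KB k) z = (π g z : L) := fun z =>
      (π g).liftNormal_commutes (KB k) z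
    rcases hpm _ g h1 with h | h
    · exact ⟨_, h1, h⟩
    · obtain ⟨ι, h3, h4⟩ := hι
      refine ⟨(π g).liftNormal (KB k) * ι, fun z => ?_, ?_⟩
      · rw [AlgEquiv.mul_apply, h3, h1]
      · rw [AlgEquiv.mul_apply, h4, map_neg, h, neg_neg]
  choose T hT1 hT2 using hext
  obtain ⟨L', hL'⟩ : ∃ L' : IntermediateField (RatFunc k) (KB k),
    L' = L ⊔ IntermediateField.adjoin (RatFunc k) {w} := ⟨_, rfl⟩
  have hle : L ≤ L' := hL' ▸ le_sup_left
  have hwm : w ∈ L' := hL' ▸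
    (le_sup_right : _ ≤ L ⊔ _) (IntermediateField.mem_adjoin_simple_self _ w)
  have hdec : ∀ y ∈ L', ∃ p q : L, y = p + q * w := fun y hy => by
    obtain ⟨p, hp, q, hq, h⟩ := cunr_mem_sup L (hwγ ▸ γ.2) (hL' ▸ hy)
    exact ⟨⟨p, hp⟩, ⟨q, hq⟩, h⟩
  have hN : Normal (RatFunc k) L' := by
    rw [IntermediateField.normal_iff_forall_map_le']
    rintro S _ ⟨y, hy, rfl⟩
    obtain ⟨g, h1, h3⟩ := hres S
    obtain ⟨p, q, rfl⟩ := hdec y hy
    show S (p + q * w) ∈ L'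
    rw [map_add, map_mul, h1, h1, h3]
    exact add_mem (hle (π g p).2) (mul_mem (hle (π g q).2) (mul_mem (hle (A g).2) hwm))
  have hG : IsGalois (RatFunc k) L' := {}
  have hcoe : ∀ (g : E) (y : L'), (((T g).restrictNormal L' y : L') : KB k) = T g y :=
    fun g y => (T g).restrictNormal_commutes L' y
  obtain ⟨e, he⟩ : ∃ e : E →* (L' ≃ₐ[RatFunc k] L'), ∀ g y, ((e g y : L') : KB k) = T g y := by
    refine ⟨MonoidHom.mk' (fun g => (T g).restrictNormal L') fun g h => ?_, hcoe⟩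
    ext y
    rw [AlgEquiv.mul_apply, hcoe, hcoe, hcoe]
    obtain ⟨p, q, hy⟩ := hdec y y.2
    rw [hy]
    simp only [map_add, map_mul, hT1, hT2, hA, AlgEquiv.mul_apply]
    push_cast
    ring
  have hinj : Function.Injective e := by
    rw [injective_iff_map_eq_one]
    intro g hg
    have h1 : π g = 1 := by
      ext z
      have h3 := he g ⟨z, hle z.2⟩
      rw [hg, hT1] at h3
      exact h3.symm
    rcases hz g h1 with h | rfl
    · exact h
    · have h3 := he g ⟨w, hwm⟩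
      rw [hg, hT2, hAz] at h3
      push_cast at h3
      rw [neg_one_mul] at h3
      exact absurd (self_eq_neg.1 h3) hw0
  have hsurj : Function.Surjective e := by
    intro τ
    obtain ⟨g, h1, h3⟩ := hres (τ.liftNormal (KB k))
    refine ⟨g, ?_⟩
    ext y
    have h4 : τ.liftNormal (KB k) y = (τ y : L') := τ.liftNormal_commutes (KB k) y
    rw [he, ← h4]
    obtain ⟨p, q, hy⟩ := hdec y y.2
    rw [hy]
    simp only [map_add, map_mul, hT1, hT2, h1, h3]
  subst hL'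
  exact ⟨hG, MulEquiv.ofBijective e ⟨hinj, hsurj⟩, fun g z => (he g _).trans (hT1 g z)⟩

end Vale.Agent.P300
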