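import Vale.Agent.P300.CDefs
import Vale.Agent.P300.CUnrX1

/-! P300: removing ramification from a quadratic extension by twisting. -/

namespace Vale.Agent.P300

open Polynomial

section Aux

variable {k : Type} [Field k] {V : ValuationSubring (KB k)} {t : k}

theorem cunr_cst (hV : ∀ c : k, cst c ∈ V) {c : k} (hc : c ≠ 0) : V.valuation (cst c) = 1 := by
  have h1 : cst c * cst c⁻¹ = 1 := by
    rw [cst, cst, ← map_mul, ← map_mul, mul_inv_cancel₀ hc, map_one, map_one]
  have h2 := (V.valuation_le_one_iff _).2 (hV c)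
  have h3 := (V.valuation_le_one_iff _).2 (hV c⁻¹)
  refine le_antisymm h2 ?_
  calc (1 : V.ValueGroup) = V.valuation (cst c) * V.valuation (cst c⁻¹) := by
        rw [← map_mul, h1, map_one]
    _ ≤ V.valuation (cst c) * 1 := mul_le_mul_right h3 _
    _ = _ := mul_one _

theorem cunr_two [CharZero k] (hV : ∀ c : k, cst c ∈ V) : V.valuation (2 : KB k) = 1 := by
  have h1 : cst (2 : k) = 2 := by rw [cst, map_ofNat, map_ofNat]
  rw [← h1]
  exact cunr_cst hV two_ne_zero

/-- the image of a polynomial in the algebraic closure -/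
noncomputable def cunrP (k : Type) [Field k] : k[X] →+* KB k :=
  (algebraMap (RatFunc k) (KB k)).comp (algebraMap k[X] (RatFunc k))

theorem cunrP_X : cunrP k X = vx k := by simp [cunrP, vx]

theorem cunrP_C (c : k) : cunrP k (C c) = cst c := by simp [cunrP, cst]

theorem cunrP_inj : Function.Injective (cunrP k) :=
  (algebraMap (RatFunc k) (KB k)).injective.comp (IsFractionRing.injective k[X] (RatFunc k))

theorem cunr_u (t : k) : vx k - cst t = cunrP k (X - C t) := by rw [map_sub, cunrP_X, cunrP_C]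

theorem cunr_u_ne (t : k) : vx k - cst t ≠ 0 := by
  rw [cunr_u]
  exact (map_ne_zero_iff _ cunrP_inj).2 (X_sub_C_ne_zero t)

theorem cunr_pos (V : ValuationSubring (KB k)) (t : k) : 0 < V.valuation (vx k - cst t) :=
  zero_lt_iff.2 ((map_ne_zero V.valuation).2 (cunr_u_ne t))

theorem cunr_le (hV : ∀ c : k, cst c ∈ V) (ht : V.valuation (vx k - cst t) < 1) (p : k[X]) :
    V.valuation (cunrP k p) ≤ 1 := by
  rw [V.valuation_le_one_iff]
  have hx : vx k ∈ V := by
    have := V.add_mem _ _ ((V.valuation_le_one_iff _).1 ht.le) (hV t)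
    rwa [sub_add_cancel] at this
  induction p using Polynomial.induction_on' with
  | add p q hp hq => rw [map_add]; exact V.add_mem _ _ hp hq
  | monomial n c =>
    rw [← C_mul_X_pow_eq_monomial, map_mul, map_pow, cunrP_X, cunrP_C]
    exact V.mul_mem _ _ (hV c) (pow_mem hx n)

theorem cunr_unit (hV : ∀ c : k, cst c ∈ V) (ht : V.valuation (vx k - cst t) < 1) {p : k[X]}
    (hp : ¬p.IsRoot t) : V.valuation (cunrP k p) = 1 := by
  obtain ⟨q, hq⟩ := X_sub_C_dvd_sub_C_eval (p := p) (a := t)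
  have h1 : cunrP k p = cst (p.eval t) + (vx k - cst t) * cunrP k q := by
    rw [cunr_u, ← map_mul, ← hq, map_sub, cunrP_C, add_sub_cancel]
  have h2 := cunr_cst hV (show p.eval t ≠ 0 from hp)
  rw [h1, Valuation.map_add_eq_of_lt_left, h2]
  rw [h2, map_mul]
  exact mul_lt_one_of_lt_of_le ht (cunr_le hV ht q)

theorem cunr_poly (hV : ∀ c : k, cst c ∈ V) (ht : V.valuation (vx k - cst t) < 1) {p : k[X]}
    (hp : p ≠ 0) :
    V.valuation (cunrP k p) = V.valuation (vx k - cst t) ^ (p.rootMultiplicity t) := by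
  obtain ⟨q, hq, hnd⟩ := exists_eq_pow_rootMultiplicity_mul_and_not_dvd p hp t
  conv_lhs => rw [hq]
  rw [map_mul, map_mul, map_pow, map_pow, ← cunr_u, cunr_unit hV ht (mt dvd_iff_isRoot.2 hnd),
    mul_one]

theorem cunr_rat_eq (f : RatFunc k) :
    algebraMap (RatFunc k) (KB k) f = cunrP k f.num / cunrP k f.denom := by
  conv_lhs => rw [← RatFunc.num_div_denom f]
  rw [map_div₀]
  rfl

theorem cunr_rat (t : k) {f : RatFunc k} (hf : f ≠ 0) : ∃ m : ℤ,
    ∀ V : ValuationSubring (KB k), (∀ c : k, cst c ∈ V) → V.valuation (vx k - cst t) < 1 →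
      V.valuation (algebraMap (RatFunc k) (KB k) f) = V.valuation (vx k - cst t) ^ m := by
  refine ⟨(f.num.rootMultiplicity t : ℤ) - f.denom.rootMultiplicity t, fun V hV ht => ?_⟩
  rw [cunr_rat_eq, map_div₀, cunr_poly hV ht (RatFunc.num_ne_zero hf),
    cunr_poly hV ht f.denom_ne_zero, zpow_sub₀ (cunr_pos V t).ne', zpow_natCast, zpow_natCast]

theorem cunr_rat_lt {V' : ValuationSubring (KB k)} (hV : ∀ c : k, cst c ∈ V)
    (ht : V.valuation (vx k - cst t) < 1) (hV' : ∀ c : k, cst c ∈ V')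
    (ht' : V'.valuation (vx k - cst t) < 1) {f : RatFunc k}
    (h : V.valuation (algebraMap (RatFunc k) (KB k) f) < 1) :
    V'.valuation (algebraMap (RatFunc k) (KB k) f) < 1 := by
  by_cases hf : f = 0
  · rw [hf, map_zero, map_zero]
    exact zero_lt_one
  obtain ⟨m, hm⟩ := cunr_rat t hf
  rw [hm V hV ht, zpow_lt_one_iff_right_of_lt_one₀ (cunr_pos V t) ht] at h
  rwa [hm V' hV' ht', zpow_lt_one_iff_right_of_lt_one₀ (cunr_pos V' t) ht']

theorem cunr_root {M Γ : Type*} [Field M] [LinearOrderedCommGroupWithZero Γ] (v : Valuation M Γ)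
    {P : M[X]} {d : ℕ} {y : M} (hy : y ≠ 0) (h0 : (X ^ d + P).eval y = 0)
    (h : ∀ j, P.coeff j ≠ 0 → v (P.coeff j) * v y ^ j < v y ^ d) : False := by
  have h1 : v (P.eval y) < v y ^ d := by
    rw [eval_eq_sum, Polynomial.sum]
    refine v.map_sum_lt (pow_ne_zero _ ((map_ne_zero v).2 hy)) fun j hj => ?_
    rw [map_mul, map_pow]
    exact h j (mem_support_iff.1 hj)
  rw [eval_add, eval_pow, eval_X, add_eq_zero_iff_neg_eq] at h0
  rw [← h0, Valuation.map_neg, map_pow] at h1
  exact lt_irrefl _ h1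

theorem cunr_prod {M Γ ι : Type*} [Field M] [LinearOrderedCommGroupWithZero Γ]
    (v : Valuation M Γ) (s : Finset ι) (f : ι → M) (hf : ∀ i, v (f i) < 1) (j : ℕ) :
    v ((∏ i ∈ s, (X - C (f i)) - X ^ s.card).coeff j) < 1 := by
  classical
  induction s using Finset.induction_on generalizing j with
  | empty => simp
  | insert i s hi ih =>
    rw [Finset.prod_insert hi, Finset.card_insert_of_notMem hi]
    obtain ⟨Q, hQ⟩ : ∃ Q, Q = ∏ i ∈ s, (X - C (f i)) - X ^ s.card := ⟨_, rfl⟩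
    rw [← hQ] at ih
    have h1 : (X - C (f i)) * ∏ i ∈ s, (X - C (f i)) - X ^ (s.card + 1) =
        X * Q - C (f i) * Q - C (f i) * X ^ s.card := by
      rw [hQ]; ring
    rw [h1, coeff_sub, coeff_sub, coeff_C_mul, coeff_C_mul]
    refine v.map_sub_lt (v.map_sub_lt ?_ ?_) ?_
    · rcases j with _ | j
      · simp
      · rw [coeff_X_mul]; exact ih j
    · rw [map_mul]
      exact mul_lt_one_of_lt_of_le (hf i) (ih j).le
    · rw [map_mul]
      refine mul_lt_one_of_lt_of_le (hf i) ?_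
      rw [coeff_X_pow]
      split_ifs <;> simp

variable (L : IntermediateField (RatFunc k) (KB k)) [FiniteDimensional (RatFunc k) L]

theorem cunr_int (y : L) : ∃ T : Finset k, ∀ t ∉ T, ∀ V : ValuationSubring (KB k),
    (∀ c : k, cst c ∈ V) → V.valuation (vx k - cst t) < 1 → V.valuation (y : KB k) ≤ 1 := by
  classical
  obtain ⟨p, hp, hy⟩ := (IsIntegral.of_finite (RatFunc k) y).algebraMap (B := KB k)
  refine ⟨p.support.biUnion fun j => (p.coeff j).denom.roots.toFinset, fun t hT V hV ht => ?_⟩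
  by_contra hlt
  rw [not_le] at hlt
  refine cunr_root V.valuation (P := p.eraseLead.map (algebraMap (RatFunc k) (KB k)))
    (d := p.natDegree) (y := (y : KB k)) ?_ ?_ fun j hj => ?_
  · intro h
    rw [h, map_zero] at hlt
    exact not_lt_zero hlt
  · have h1 := p.eraseLead_add_C_mul_X_pow
    rw [hp.leadingCoeff, C_1, one_mul] at h1
    rw [add_comm, eval_add, eval_map, eval_pow, eval_X]
    rw [← h1, eval₂_add, eval₂_X_pow] at hy
    exact hy
  · rw [coeff_map] at hj ⊢
    have h1 : p.eraseLead.coeff j ≠ 0 := fun h => hj (by rw [h, map_zero])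
    have h2 : j ≠ p.natDegree := by
      rintro rfl
      exact h1 eraseLead_coeff_natDegree
    rw [eraseLead_coeff_of_ne j h2] at h1 ⊢
    have h3 : j < p.natDegree := lt_of_le_of_ne (le_natDegree_of_ne_zero h1) h2
    have h4 : V.valuation (algebraMap (RatFunc k) (KB k) (p.coeff j)) ≤ 1 := by
      rw [cunr_rat_eq, map_div₀, cunr_unit hV ht (p := (p.coeff j).denom), div_one]
      · exact cunr_le hV ht _
      · intro h
        exact hT (Finset.mem_biUnion.2 ⟨j, mem_support_iff.2 h1,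
          Multiset.mem_toFinset.2 ((mem_roots (RatFunc.denom_ne_zero _)).2 h)⟩)
    calc _ ≤ 1 * V.valuation (y : KB k) ^ j := mul_le_mul_left h4 _
      _ < _ := by rw [one_mul]; exact pow_lt_pow_right₀ hlt h3

variable [IsGalois (RatFunc k) L]

theorem cunr_conj_lt {V' : ValuationSubring (KB k)} (hV : ∀ c : k, cst c ∈ V)
    (ht : V.valuation (vx k - cst t) < 1) (hV' : ∀ c : k, cst c ∈ V')
    (ht' : V'.valuation (vx k - cst t) < 1) {y : L} (hy : V'.valuation (y : KB k) = 1)
    (h : ∀ σ : L ≃ₐ[RatFunc k] L, V.valuation ((σ y : L) : KB k) < 1) : False := by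
  obtain ⟨P, hP⟩ : ∃ P : L[X], P = ∏ σ : L ≃ₐ[RatFunc k] L, (X - C (σ y)) -
    X ^ (Finset.univ : Finset (L ≃ₐ[RatFunc k] L)).card := ⟨_, rfl⟩
  have h1 : ∀ j, P.coeff j ∈ Set.range (algebraMap (RatFunc k) L) := by
    intro j
    rw [IsGalois.mem_range_algebraMap_iff_fixed]
    intro τ
    have h2 : P.map (τ : L →+* L) = P := by
      rw [hP, Polynomial.map_sub, Polynomial.map_prod, Polynomial.map_pow, map_X]
      congr 1
      refine Fintype.prod_equiv (Equiv.mulLeft τ) _ _ fun σ => ?_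
      simp
    conv_rhs => rw [← h2]
    rw [coeff_map]
    rfl
  have h2 : P.map (algebraMap L (KB k)) = ∏ σ : L ≃ₐ[RatFunc k] L, (X - C ((σ y : L) : KB k)) -
      X ^ (Finset.univ : Finset (L ≃ₐ[RatFunc k] L)).card := by
    rw [hP, Polynomial.map_sub, Polynomial.map_prod, Polynomial.map_pow, map_X]
    simp
  refine cunr_root V'.valuation (P := P.map (algebraMap L (KB k)))
    (d := (Finset.univ : Finset (L ≃ₐ[RatFunc k] L)).card) (y := (y : KB k)) ?_ ?_ fun j _ => ?_
  · intro h0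
    rw [h0, map_zero] at hy
    exact zero_ne_one hy
  · rw [h2, add_sub_cancel, eval_prod]
    exact Finset.prod_eq_zero (Finset.mem_univ 1) (by simp)
  · have h3 := cunr_prod V.valuation Finset.univ _ h j
    rw [← h2] at h3
    obtain ⟨f, hf⟩ := h1 j
    rw [coeff_map, ← hf, ← IsScalarTower.algebraMap_apply] at h3 ⊢
    rw [hy, one_pow, one_pow, mul_one]
    exact cunr_rat_lt hV ht hV' ht' h3

theorem cunr_conj [CharZero k] {V' : ValuationSubring (KB k)} (hV : ∀ c : k, cst c ∈ V)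
    (ht : V.valuation (vx k - cst t) < 1) (hV' : ∀ c : k, cst c ∈ V')
    (ht' : V'.valuation (vx k - cst t) < 1) {y : L} (hy : V'.valuation (y : KB k) = 1) :
    ∃ σ : L ≃ₐ[RatFunc k] L, V.valuation ((σ y : L) : KB k) = 1 := by
  by_contra hno
  push Not at hno
  have key : ∀ e : L, (e = 1 ∨ e = -1) → V'.valuation ((y : KB k) ^ 2 + e) = 1 → False := by
    intro e he h1
    refine cunr_conj_lt L hV ht hV' ht' (y := y / (y ^ 2 + e)) ?_ fun σ => ?_
    · push_cast
      rw [map_div₀, hy, h1, div_one]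
    · have h2 : σ e = e := by rcases he with rfl | rfl <;> simp
      have h3 : V.valuation (e : KB k) = 1 := by rcases he with rfl | rfl <;> simp
      rw [map_div₀, map_add, map_pow, h2]
      push_cast
      rw [map_div₀]
      rcases lt_or_gt_of_ne (hno σ) with h4 | h4
      · rw [Valuation.map_add_eq_of_lt_right, h3, div_one]
        · exact h4
        · rw [h3, map_pow]
          exact pow_lt_one₀ zero_le h4 two_ne_zero
      · rw [Valuation.map_add_eq_of_lt_left, map_pow, sq, div_mul_cancel_left₀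
          (zero_lt_one.trans h4).ne']
        · exact inv_lt_one_of_one_lt₀ h4
        · rw [h3, map_pow]
          exact one_lt_pow₀ h4 two_ne_zero
  have h1 : ∀ e : L, (e = 1 ∨ e = -1) → V'.valuation ((y : KB k) ^ 2 + e) < 1 := by
    intro e he
    refine lt_of_le_of_ne (V'.valuation.map_add_le ?_ ?_) (key e he)
    · rw [map_pow, hy, one_pow]
    · rcases he with rfl | rfl <;> simp
  have h2 := V'.valuation.map_sub_lt (h1 1 (Or.inl rfl)) (h1 (-1) (Or.inr rfl))
  push_cast at h2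
  rw [show (y : KB k) ^ 2 + 1 - ((y : KB k) ^ 2 + -1) = 2 by ring, cunr_two hV'] at h2
  exact lt_irrefl _ h2

end Aux

theorem unr_step {k : Type} [Field k] [IsAlgClosed k] [CharZero k] (a : Fin 5 → k)
    (L : IntermediateField (RatFunc k) (KB k)) (hL : Unr a L) (α : KB k) (hα : α ∈ L)
    (heven : ∀ V : ValuationSubring (KB k), (∀ c : k, cst c ∈ V) → ∀ t : k, (∀ i, t ≠ a i) →
      V.valuation (vx k - cst t) < 1 →
        ∃ n : ℤ, V.valuation α = V.valuation (vx k - cst t) ^ (2 * n))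
    (w : KB k) (hw : w ^ 2 = α) : Unr a (L ⊔ IntermediateField.adjoin (RatFunc k) {w}) := by
  intro V hV t hta ht z hz hz0
  obtain ⟨p, hp, q, hq, rfl⟩ := cunr_mem_sup L (hw ▸ hα) hz
  obtain ⟨n, hn⟩ := heven V hV t hta ht
  have hu := (cunr_pos V t).ne'
  have hvw : V.valuation w = V.valuation (vx k - cst t) ^ n := by
    rw [← hw, map_pow, mul_comm, zpow_mul, zpow_ofNat] at hn
    exact (pow_left_inj₀ zero_le zero_le two_ne_zero).1 hn
  by_cases hq0 : q = 0
  · rw [hq0, zero_mul, add_zero] at hz0 ⊢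
    exact hL V hV t hta ht p hp hz0
  obtain ⟨m, hm⟩ := hL V hV t hta ht q hq hq0
  have hqw : V.valuation (q * w) = V.valuation (vx k - cst t) ^ (m + n) := by
    rw [map_mul, hm, hvw, zpow_add₀ hu]
  by_cases hp0 : p = 0
  · rw [hp0, zero_add]
    exact ⟨_, hqw⟩
  obtain ⟨l, hl⟩ := hL V hV t hta ht p hp hp0
  rcases lt_trichotomy (V.valuation p) (V.valuation (q * w)) with h | h | h
  · exact ⟨_, (Valuation.map_add_eq_of_lt_right _ h).trans hqw⟩
  · by_cases h1 : V.valuation (p + q * w) = V.valuation p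
    · exact ⟨l, h1.trans hl⟩
    have h2 : V.valuation (p + q * w) < V.valuation p :=
      lt_of_le_of_ne (V.valuation.map_add_le le_rfl h.ge) h1
    have h3 : V.valuation (p - q * w) = V.valuation p := by
      have h4 : V.valuation (2 * p) = V.valuation p := by rw [map_mul, cunr_two hV, one_mul]
      rw [show p - q * w = 2 * p - (p + q * w) by ring, Valuation.map_sub_eq_of_lt_left, h4]
      rwa [h4]
    have h4 : p - q * w ≠ 0 := by
      intro h0
      rw [h0, map_zero] at h3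
      exact hp0 ((map_eq_zero V.valuation).1 h3.symm)
    have h5 : (p + q * w) * (p - q * w) = p ^ 2 - q ^ 2 * α := by rw [← hw]; ring
    obtain ⟨r, hr⟩ := hL V hV t hta ht _ (sub_mem (pow_mem hp 2) (mul_mem (pow_mem hq 2) hα))
      (h5 ▸ mul_ne_zero hz0 h4)
    refine ⟨r - l, ?_⟩
    rw [← h5, map_mul, h3, hl] at hr
    rw [zpow_sub₀ hu, ← hr, mul_div_cancel_right₀ _ (zpow_ne_zero _ hu)]
  · exact ⟨l, (Valuation.map_add_eq_of_lt_left _ h).trans hl⟩

theorem exists_twist {k : Type} [Field k] [IsAlgClosed k] [CharZero k] (a : Fin 5 → k)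
    (L : IntermediateField (RatFunc k) (KB k)) [FiniteDimensional (RatFunc k) L]
    [IsGalois (RatFunc k) L] (hL : Unr a L) (α : L) (hα : α ≠ 0)
    (hσ : ∀ σ : L ≃ₐ[RatFunc k] L, ∃ c : L, σ α = c ^ 2 * α) :
    ∃ β : RatFunc k, β ≠ 0 ∧ ∀ V : ValuationSubring (KB k), (∀ c : k, cst c ∈ V) → ∀ t : k,
      (∀ i, t ≠ a i) → V.valuation (vx k - cst t) < 1 →
        ∃ n : ℤ, V.valuation ((α : KB k) * algebraMap (RatFunc k) (KB k) β) =
          V.valuation (vx k - cst t) ^ (2 * n) := by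
  classical
  have hα' : (α : KB k) ≠ 0 := fun h => hα (Subtype.ext h)
  have par : ∀ t : k, (∀ i, t ≠ a i) → ∀ V : ValuationSubring (KB k), (∀ c : k, cst c ∈ V) →
      V.valuation (vx k - cst t) < 1 → ∀ V' : ValuationSubring (KB k), (∀ c : k, cst c ∈ V') →
      V'.valuation (vx k - cst t) < 1 → ∀ m n : ℤ,
      V.valuation (α : KB k) = V.valuation (vx k - cst t) ^ m →
      V'.valuation (α : KB k) = V'.valuation (vx k - cst t) ^ n → Even (n - m) := by
    intro t hta V hV ht V' hV' ht' m n hm hn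
    have e1 : ∀ y : L, ((y / algebraMap (RatFunc k) L ((RatFunc.X - RatFunc.C t) ^ n) : L) :
        KB k) = y / (vx k - cst t) ^ n := by
      intro y
      rw [vx, cst, ← map_sub, ← map_zpow₀]
      rfl
    obtain ⟨σ, h1⟩ := cunr_conj L hV ht hV' ht'
      (y := α / algebraMap (RatFunc k) L ((RatFunc.X - RatFunc.C t) ^ n)) (by
        rw [e1, map_div₀, map_zpow₀, hn, div_self (zpow_ne_zero _ (cunr_pos V' t).ne')])
    obtain ⟨c, hc⟩ := hσ σ
    have hc0 : (c : KB k) ≠ 0 := by
      intro h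
      rw [show c = 0 from Subtype.ext h, zero_pow two_ne_zero, zero_mul, map_eq_zero] at hc
      exact hα hc
    obtain ⟨j, hj⟩ := hL V hV t hta ht c c.2 hc0
    have hu := (cunr_pos V t).ne'
    rw [map_div₀, AlgEquiv.commutes, hc, e1] at h1
    push_cast at h1
    rw [map_div₀, map_mul, map_pow, map_zpow₀, hj, hm, sq, ← zpow_add₀ hu, ← zpow_add₀ hu,
      ← zpow_sub₀ hu, zpow_eq_one_iff_right₀ zero_le ht.ne] at h1
    exact ⟨j, by omega⟩
  obtain ⟨T₁, hT₁⟩ := cunr_int L α
  obtain ⟨T₂, hT₂⟩ := cunr_int L α⁻¹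
  obtain ⟨S, hS⟩ : ∃ S : Finset k, S = (T₁ ∪ T₂).filter fun t => ∃ V : ValuationSubring (KB k),
    (∀ c : k, cst c ∈ V) ∧ V.valuation (vx k - cst t) < 1 ∧ ∃ n : ℤ, Odd n ∧
      V.valuation (α : KB k) = V.valuation (vx k - cst t) ^ n := ⟨_, rfl⟩
  have hP : (∏ s ∈ S, (X - C s) : k[X]) ≠ 0 :=
    Finset.prod_ne_zero_iff.2 fun s _ => X_sub_C_ne_zero s
  refine ⟨algebraMap k[X] (RatFunc k) (∏ s ∈ S, (X - C s)),
    (map_ne_zero_iff _ (IsFractionRing.injective k[X] (RatFunc k))).2 hP,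
    fun V hV t hta ht => ?_⟩
  have hu := (cunr_pos V t).ne'
  have hother : ∀ S' : Finset k, t ∉ S' → V.valuation (cunrP k (∏ s ∈ S', (X - C s))) = 1 := by
    intro S' h
    refine cunr_unit hV ht ?_
    rw [IsRoot.def, eval_prod]
    refine Finset.prod_ne_zero_iff.2 fun s hs => ?_
    rw [eval_sub, eval_X, eval_C, sub_ne_zero]
    rintro rfl
    exact h hs
  obtain ⟨m, hm⟩ := hL V hV t hta ht α α.2 hα'
  show ∃ n : ℤ, V.valuation ((α : KB k) * cunrP k (∏ s ∈ S, (X - C s))) = _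
  rw [map_mul, hm]
  by_cases h : t ∈ S
  · rw [← Finset.mul_prod_erase S _ h, map_mul, map_mul, hother _ (Finset.notMem_erase t S),
      mul_one, ← cunr_u, ← zpow_add_one₀ hu]
    rw [hS] at h
    obtain ⟨V', hV', ht', n, ⟨r, hr⟩, hn⟩ := (Finset.mem_filter.1 h).2
    obtain ⟨j, hj⟩ := par t hta V hV ht V' hV' ht' m n hm hn
    exact ⟨r - j + 1, by congr 1; omega⟩
  · rw [hother S h, mul_one]
    rcases Int.even_or_odd m with ⟨j, hj⟩ | hodd
    · exact ⟨j, by congr 1; omega⟩
    · have h1 : t ∉ T₁ ∪ T₂ := fun h1 =>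
        h (hS ▸ Finset.mem_filter.2 ⟨h1, V, hV, ht, m, hodd, hm⟩)
      rw [Finset.notMem_union] at h1
      have h2 := hT₂ t h1.2 V hV ht
      push_cast at h2
      rw [map_inv₀, inv_le_one₀ (zero_lt_iff.2 ((map_ne_zero V.valuation).2 hα'))] at h2
      exact ⟨0, by rw [← hm, le_antisymm (hT₁ t h1.1 V hV ht) h2, mul_zero, zpow_zero]⟩

theorem unr_bot {k : Type} [Field k] [IsAlgClosed k] (a : Fin 5 → k) : Unr a ⊥ := by
  intro V hV t _ ht z hz hz0
  obtain ⟨f, rfl⟩ := IntermediateField.mem_bot.1 hz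
  obtain ⟨m, hm⟩ := cunr_rat t (f := f) fun h => hz0 (by rw [h, map_zero])
  exact ⟨m, hm V hV ht⟩

end Vale.Agent.P300
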