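import Vale.Agent.P300.CEmb
import Vale.Agent.P300.CUnr

/-! P300: algebraic Riemann existence theorem for two-groups. -/

namespace Vale.Agent.P300

open IntermediateField

section

variable {k : Type} [Field k]

theorem CThmC_cst_sub (s t : k) : cst (s - t) = cst s - cst t := by
  simp only [cst, map_sub]

theorem CThmC_cst_mul (s t : k) : cst (s * t) = cst s * cst t := by
  simp only [cst, map_mul]

theorem CThmC_cst_one : cst (1 : k) = 1 := by
  simp only [cst, map_one]

theorem CThmC_lin (c : k) : vx k - cst c =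
    algebraMap (RatFunc k) (KB k) (algebraMap (Polynomial k) (RatFunc k)
      (Polynomial.X - Polynomial.C c)) := by
  simp only [vx, cst, map_sub, RatFunc.algebraMap_X, RatFunc.algebraMap_C]

theorem CThmC_lin_ne (c : k) : vx k - cst c ≠ 0 := by
  rw [CThmC_lin, map_ne_zero_iff _ (algebraMap (RatFunc k) (KB k)).injective,
    map_ne_zero_iff _ (RatFunc.algebraMap_injective k)]
  exact Polynomial.X_sub_C_ne_zero c

theorem CThmC_val_cst (V : ValuationSubring (KB k)) (hV : ∀ c : k, cst c ∈ V) {c : k}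
    (hc : c ≠ 0) : V.valuation (cst c) = 1 := by
  have h1 := (V.valuation_le_one_iff _).mpr (hV c)
  have h2 := (V.valuation_le_one_iff _).mpr (hV c⁻¹)
  have h3 : V.valuation (cst c) * V.valuation (cst c⁻¹) = 1 := by
    rw [← map_mul, ← CThmC_cst_mul, mul_inv_cancel₀ hc, CThmC_cst_one, map_one]
  refine le_antisymm h1 ?_
  calc 1 = V.valuation (cst c) * V.valuation (cst c⁻¹) := h3.symm
    _ ≤ V.valuation (cst c) * 1 := mul_le_mul_right h2 _
    _ = V.valuation (cst c) := mul_one _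

theorem CThmC_val_lin (V : ValuationSubring (KB k)) (hV : ∀ c : k, cst c ∈ V) {t s : k}
    (hts : t ≠ s) (ht : V.valuation (vx k - cst t) < 1) : V.valuation (vx k - cst s) = 1 := by
  have e : vx k - cst s = cst (t - s) + (vx k - cst t) := by
    rw [CThmC_cst_sub]
    ring
  have h1 := CThmC_val_cst V hV (sub_ne_zero.mpr hts)
  rw [e, Valuation.map_add_eq_of_lt_left _ (by rw [h1]; exact ht), h1]

theorem CThmC_exists_val (t : k) : ∃ V : ValuationSubring (KB k), (∀ c : k, cst c ∈ V) ∧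
    V.valuation (vx k - cst t) < 1 := by
  set φ : Polynomial k →+* KB k :=
    (algebraMap (RatFunc k) (KB k)).comp (algebraMap (Polynomial k) (RatFunc k)) with hφ
  have hinj : Function.Injective φ :=
    (algebraMap (RatFunc k) (KB k)).injective.comp (RatFunc.algebraMap_injective k)
  have hI : Ideal.span {φ.rangeRestrict (Polynomial.X - Polynomial.C t)} ≠ ⊤ := by
    rw [Ne, Ideal.span_singleton_eq_top]
    intro hu
    obtain ⟨u, hu⟩ := hu.exists_right_inv
    obtain ⟨p, rfl⟩ := φ.rangeRestrict_surjective u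
    rw [← map_mul] at hu
    have h1 : φ ((Polynomial.X - Polynomial.C t) * p) = φ 1 := by
      rw [map_one]
      exact congrArg Subtype.val hu
    exact Polynomial.not_isUnit_X_sub_C t (IsUnit.of_mul_eq_one p (hinj h1))
  obtain ⟨V, h1, h2⟩ := Ideal.image_subset_nonunits_valuationSubring _ hI
  refine ⟨V, fun c => h1 ⟨Polynomial.C c, ?_⟩, ?_⟩
  · simp only [hφ, cst, RingHom.comp_apply, RatFunc.algebraMap_C]
  · rw [← V.mem_nonunits_iff]
    refine h2 ⟨_, Ideal.mem_span_singleton_self _, ?_⟩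
    rw [CThmC_lin]
    rfl

theorem CThmC_unr_roots [IsAlgClosed k] [CharZero k] (a : Fin 5 → k) (c : Fin 5 → k)
    (r : Fin 5 → KB k) (hr : ∀ i, r i ^ 2 = vx k - cst (c i)) (S : Finset (Fin 5))
    (hS : ∀ i ∈ S, ∃ j, c i = a j) : Unr a (adjoin (RatFunc k) (r '' S)) := by
  classical
  induction S using Finset.induction_on with
  | empty =>
    rw [Finset.coe_empty, Set.image_empty, adjoin_empty]
    exact unr_bot a
  | insert i S _ ih =>
    rw [Finset.coe_insert, Set.image_insert_eq, ← Set.union_singleton, adjoin_union]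
    refine unr_step a _ (ih fun j hj => hS j (Finset.mem_insert_of_mem hj)) (vx k - cst (c i)) ?_
      (fun V hV t ht hlt => ⟨0, ?_⟩) _ (hr i)
    · rw [CThmC_lin]
      exact IntermediateField.algebraMap_mem _ _
    · obtain ⟨j, hj⟩ := hS i (Finset.mem_insert_self i S)
      rw [mul_zero, zpow_zero, hj]
      exact CThmC_val_lin V hV (ht j) hlt

theorem CThmC_not_mem [IsAlgClosed k] [CharZero k] (a : Fin 5 → k) (ha : Function.Injective a)
    (r : Fin 5 → KB k) (hr : ∀ i, r i ^ 2 = vx k - cst (a i)) (i : Fin 5) :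
    r i ∉ adjoin (RatFunc k) (r '' (Finset.univ.erase i : Finset (Fin 5))) := by
  intro hmem
  obtain ⟨i', hi'⟩ := exists_ne i
  have hU := CThmC_unr_roots (fun j => if j = i then a i' else a j) a r hr (Finset.univ.erase i)
    fun j hj => ⟨j, by rw [if_neg (Finset.mem_erase.mp hj).1]⟩
  obtain ⟨V, hV, hlt⟩ := CThmC_exists_val (a i)
  have hr0 : r i ≠ 0 := fun h => CThmC_lin_ne (a i) (by rw [← hr i, h]; ring)
  obtain ⟨n, hn⟩ := hU V hV (a i) (fun j => by
    change a i ≠ if j = i then a i' else a j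
    by_cases hj : j = i
    · rw [if_pos hj]
      exact fun h => hi' (ha h).symm
    · rw [if_neg hj]
      exact fun h => hj (ha h).symm) hlt (r i) hmem hr0
  have h0 : 0 < V.valuation (vx k - cst (a i)) :=
    (Valuation.pos_iff _).mpr (CThmC_lin_ne (a i))
  have h1 : V.valuation (vx k - cst (a i)) ^ (1 : ℤ) =
      V.valuation (vx k - cst (a i)) ^ (n * 2) := by
    rw [zpow_mul, ← hn, zpow_one, ← hr i, map_pow, zpow_two, sq]
  have h2 := zpow_right_injective₀ h0 hlt.ne h1
  omega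

theorem CThmC_sign (σ : KB k ≃ₐ[RatFunc k] KB k) {r : KB k} {c : k}
    (hr : r ^ 2 = vx k - cst c) : σ r = r ∨ σ r = -r := by
  rw [← sq_eq_sq_iff_eq_or_eq_neg, ← map_pow, hr, CThmC_lin, AlgEquiv.commutes]

theorem CThmC_exists_flip [IsAlgClosed k] [CharZero k] (a : Fin 5 → k)
    (ha : Function.Injective a) (r : Fin 5 → KB k) (hr : ∀ i, r i ^ 2 = vx k - cst (a i))
    (i : Fin 5) : ∃ σ : KB k ≃ₐ[RatFunc k] KB k, σ (r i) ≠ r i ∧ ∀ j, j ≠ i → σ (r j) = r j := by
  have h := CThmC_not_mem a ha r hr i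
  rw [← InfiniteGalois.fixedField_fixingSubgroup (adjoin (RatFunc k) _), mem_fixedField_iff] at h
  push Not at h
  obtain ⟨σ, hσ, hne⟩ := h
  refine ⟨σ, hne, fun j hj => ?_⟩
  rw [IntermediateField.mem_fixingSubgroup_iff] at hσ
  exact hσ _ (subset_adjoin _ _ ⟨j, by simpa using hj, rfl⟩)

theorem CThmC_two (u : Multiplicative (ZMod 2)) : u = 1 ∨ u = Multiplicative.ofAdd 1 := by
  revert u
  decide

theorem CThmC_exists_sgn [CharZero k] {r : KB k} {c : k} (hr : r ^ 2 = vx k - cst c) :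
    ∃ s : (KB k ≃ₐ[RatFunc k] KB k) →* Multiplicative (ZMod 2), ∀ σ, s σ = 1 ↔ σ r = r := by
  classical
  have hr0 : r ≠ 0 := fun h => CThmC_lin_ne c (by rw [← hr, h]; ring)
  have hne : -r ≠ r := fun h => hr0 (by
    have : (2 : KB k) * r = 0 := by linear_combination -h
    exact (mul_eq_zero.mp this).resolve_left two_ne_zero)
  have h11 : (Multiplicative.ofAdd (1 : ZMod 2)) * Multiplicative.ofAdd 1 = 1 := by decide
  have h10 : (Multiplicative.ofAdd (1 : ZMod 2)) ≠ 1 := by decide
  refine ⟨MonoidHom.mk' (fun σ => if σ r = r then 1 else Multiplicative.ofAdd 1) fun σ τ => ?_,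
    fun σ => ?_⟩
  · rcases CThmC_sign σ hr with h1 | h1 <;> rcases CThmC_sign τ hr with h2 | h2 <;>
      simp only [AlgEquiv.mul_apply, h1, h2, map_neg, neg_neg, hne, if_true, if_false, mul_one,
        one_mul, h11]
  · change (if σ r = r then 1 else Multiplicative.ofAdd 1) = 1 ↔ _
    by_cases h : σ r = r
    · simp only [h, if_true]
    · simp only [h, if_false, h10]

/-- the subgroup `M` is the kernel of a Galois realization -/
def CThmC_Real (a : Fin 5 → k) (M : Subgroup F5) : Prop :=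
  ∃ L : IntermediateField (RatFunc k) (KB k), FiniteDimensional (RatFunc k) L ∧
    IsGalois (RatFunc k) L ∧ Unr a L ∧ (∀ i, ∃ r ∈ L, r ^ 2 = vx k - cst (a i)) ∧
    ∃ j : F5 →* (L ≃ₐ[RatFunc k] L), Function.Surjective j ∧ j.ker = M

theorem CThmC_base [IsAlgClosed k] [CharZero k] (a : Fin 5 → k) (ha : Function.Injective a)
    (M : Subgroup F5) (hM : ∀ g, g ∈ M ↔ ∀ χ : F5 →* Multiplicative (ZMod 2), χ g = 1) :
    CThmC_Real a M := by
  classical
  choose r hr using fun i => IsAlgClosed.exists_pow_nat_eq (vx k - cst (a i)) zero_lt_two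
  choose τ hτ1 hτ2 using CThmC_exists_flip a ha r hr
  choose s hs using fun i => CThmC_exists_sgn (hr i)
  set L : IntermediateField (RatFunc k) (KB k) :=
    adjoin (RatFunc k) (r '' (Finset.univ : Finset (Fin 5))) with hL
  have hrL : ∀ i, r i ∈ L := fun i => subset_adjoin _ _ ⟨i, by simp, rfl⟩
  have hfd : FiniteDimensional (RatFunc k) L :=
    haveI : Finite (r '' (Finset.univ : Finset (Fin 5))) :=
      ((Finset.finite_toSet _).image r).to_subtype
    finiteDimensional_adjoin fun x _ => Algebra.IsIntegral.isIntegral x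
  have hnor : Normal (RatFunc k) L := by
    refine normal_iff_forall_map_le'.mpr fun σ => ?_
    rw [hL, adjoin_map, adjoin_le_iff]
    rintro _ ⟨_, ⟨i, -, rfl⟩, rfl⟩
    rcases CThmC_sign σ (hr i) with h | h
    · change σ (r i) ∈ L
      rw [h]
      exact hrL i
    · change σ (r i) ∈ L
      rw [h]
      exact neg_mem (hrL i)
  have hgal : IsGalois (RatFunc k) L := {}
  have hker : ∀ σ : KB k ≃ₐ[RatFunc k] KB k,
      AlgEquiv.restrictNormalHom L σ = 1 ↔ ∀ i, s i σ = 1 := by
    intro σ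
    refine (AlgEquiv.restrictNormal_eq_one_iff L σ).trans ⟨fun h i => (hs i σ).mpr (h _ (hrL i)),
      fun h x hx => ?_⟩
    induction hx using adjoin_induction with
    | mem x hx =>
      obtain ⟨i, -, rfl⟩ := hx
      exact (hs i σ).mp (h i)
    | algebraMap x => exact σ.commutes x
    | add x y _ _ h1 h2 => rw [map_add, h1, h2]
    | inv x _ h1 => rw [map_inv₀, h1]
    | mul x y _ _ h1 h2 => rw [map_mul, h1, h2]
  set J : F5 →* (KB k ≃ₐ[RatFunc k] KB k) := FreeGroup.lift τ with hJ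
  have hsJ : ∀ i j, s i (J (xx j)) = if i = j then Multiplicative.ofAdd 1 else 1 := by
    intro i j
    rw [hJ, lift_xx]
    split_ifs with h
    · subst h
      exact (CThmC_two _).resolve_left fun h' => hτ1 i ((hs i _).mp h')
    · exact (hs i _).mpr (hτ2 j i h)
  refine ⟨L, hfd, hgal, CThmC_unr_roots a a r hr _ fun i _ => ⟨i, rfl⟩,
    fun i => ⟨r i, hrL i, hr i⟩, (AlgEquiv.restrictNormalHom L).comp J, fun σ' => ?_, ?_⟩
  · obtain ⟨σ, rfl⟩ := AlgEquiv.restrictNormalHom_surjective (F := RatFunc k) (K₁ := L) (KB k) σ'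
    refine ⟨(List.ofFn fun j => if s j σ = 1 then 1 else xx j).prod, ?_⟩
    rw [MonoidHom.comp_apply, ← mul_inv_eq_one, ← map_inv, ← map_mul, hker]
    intro i
    rw [map_mul, map_inv, mul_inv_eq_one, ← MonoidHom.comp_apply, map_list_prod, List.map_ofFn,
      List.prod_ofFn, Finset.prod_eq_single i]
    · simp only [Function.comp_apply, MonoidHom.comp_apply]
      split_ifs with h
      · rw [map_one, map_one, h]
      · rw [hsJ, if_pos rfl, (CThmC_two _).resolve_left h]
    · intro j _ hj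
      simp only [Function.comp_apply, MonoidHom.comp_apply]
      split_ifs with h
      · rw [map_one, map_one]
      · rw [hsJ, if_neg hj.symm]
    · intro h
      exact absurd (Finset.mem_univ i) h
  · ext g
    rw [MonoidHom.mem_ker, MonoidHom.comp_apply, hker, hM]
    refine ⟨fun h χ => ?_, fun h i => h ((s i).comp J)⟩
    have e : χ = ∏ i, if χ (xx i) = 1 then 1 else (s i).comp J := by
      refine FreeGroup.ext_hom _ _ fun j => ?_
      change χ (xx j) = _
      rw [MonoidHom.finsetProd_apply, Finset.prod_eq_single j]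
      · split_ifs with h'
        · exact h'
        · change _ = s j (J (xx j))
          rw [hsJ, if_pos rfl, (CThmC_two _).resolve_left h']
      · intro i _ hi
        split_ifs with h'
        · rfl
        · change s i (J (xx j)) = 1
          rw [hsJ, if_neg hi]
      · intro h'
        exact absurd (Finset.mem_univ j) h'
    rw [e, MonoidHom.finsetProd_apply]
    refine Finset.prod_eq_one fun i _ => ?_
    split_ifs with h'
    · rfl
    · exact h i

theorem CThmC_step [IsAlgClosed k] [CharZero k] (a : Fin 5 → k) (N : Subgroup F5) [N.Normal]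
    (h2 : ∀ g, ∃ n, g ^ 2 ^ n ∈ N) (Z : Subgroup (F5 ⧸ N)) (hZ : Nat.card Z = 2)
    (hΦ : ∀ z ∈ Z, ∀ χ : (F5 ⧸ N) →* Multiplicative (ZMod 2), χ z = 1)
    (h : CThmC_Real a (Z.comap (QuotientGroup.mk' N))) : CThmC_Real a N := by
  obtain ⟨L, hfd, hgal, hunr, hroot, j, hj, hker⟩ := h
  have hle : N ≤ j.ker := by
    intro g hg
    rw [hker, Subgroup.mem_comap, QuotientGroup.mk'_apply, (QuotientGroup.eq_one_iff g).mpr hg]
    exact Z.one_mem
  have hp : IsPGroup 2 (L ≃ₐ[RatFunc k] L) := by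
    intro σ
    obtain ⟨g, rfl⟩ := hj σ
    obtain ⟨n, hn⟩ := h2 g
    exact ⟨n, by rw [← map_pow]; exact hle hn⟩
  have hπk : (QuotientGroup.lift N j hle).ker = Z := by
    rw [QuotientGroup.ker_lift, hker,
      Subgroup.map_comap_eq_self_of_surjective (QuotientGroup.mk'_surjective N)]
  have hπ : Function.Surjective (QuotientGroup.lift N j hle) := by
    intro σ
    obtain ⟨g, rfl⟩ := hj σ
    exact ⟨(g : F5 ⧸ N), rfl⟩
  obtain ⟨α, hα, hσ, hw⟩ := embedding L hp (QuotientGroup.lift N j hle) hπ (by rw [hπk, hZ])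
    fun χ z hz => hΦ z (hπk ▸ hz) χ
  obtain ⟨β, hβ, hev⟩ := exists_twist a L hunr α hα hσ
  obtain ⟨w, hw2⟩ := IsAlgClosed.exists_pow_nat_eq
    ((α : KB k) * algebraMap (RatFunc k) (KB k) β) zero_lt_two
  obtain ⟨hgal', e, -⟩ := hw β hβ w hw2
  have : FiniteDimensional (RatFunc k) (adjoin (RatFunc k) {w}) :=
    adjoin.finiteDimensional (Algebra.IsIntegral.isIntegral w)
  refine ⟨L ⊔ adjoin (RatFunc k) {w}, finiteDimensional_sup _ _, hgal',
    unr_step a L hunr _ (mul_mem α.2 (L.algebraMap_mem _)) hev w hw2, fun i => ?_,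
    e.toMonoidHom.comp (QuotientGroup.mk' N), e.surjective.comp (QuotientGroup.mk'_surjective N),
    ?_⟩
  · obtain ⟨r, hr, hr2⟩ := hroot i
    exact ⟨r, (le_sup_left : L ≤ _) hr, hr2⟩
  · ext g
    rw [MonoidHom.mem_ker, MonoidHom.comp_apply, MulEquiv.coe_toMonoidHom, map_eq_one_iff _
      e.injective, QuotientGroup.mk'_apply, QuotientGroup.eq_one_iff]

end

theorem CThmC_central {Γ : Type} [Group Γ] [Finite Γ] (h2 : IsPGroup 2 Γ) (H : Subgroup Γ)
    [H.Normal] (hH : H ≠ ⊥) : ∃ z ∈ H, z ∈ Subgroup.center Γ ∧ orderOf z = 2 := by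
  have : Fact (Nat.Prime 2) := ⟨Nat.prime_two⟩
  have hd : 2 ∣ Nat.card H := by
    have : Nontrivial H := (Subgroup.nontrivial_iff_ne_bot H).mpr hH
    obtain ⟨n, hn0, hn⟩ := (h2.to_subgroup H).nontrivial_iff_card.mp inferInstance
    exact hn.symm ▸ dvd_pow_self _ (ne_of_gt hn0)
  obtain ⟨b, hb, hb1⟩ :=
    (h2.of_equiv ConjAct.toConjAct).exists_fixed_point_of_prime_dvd_card_of_fixed_point H hd
      (a := 1) fun g => smul_one g
  have hbc : (b : Γ) ∈ Subgroup.center Γ := by
    rw [Subgroup.mem_center_iff]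
    intro g
    have := congrArg Subtype.val (hb (ConjAct.toConjAct g))
    rw [ConjAct.Subgroup.val_conj_smul, ConjAct.toConjAct_smul] at this
    exact mul_inv_eq_iff_eq_mul.mp this
  have hb1' : (b : Γ) ≠ 1 := fun h => hb1 (Subtype.ext h.symm)
  obtain ⟨n, hn⟩ := IsPGroup.iff_orderOf.mp h2 (b : Γ)
  have hn0 : n ≠ 0 := by
    rintro rfl
    exact hb1' (orderOf_eq_one_iff.mp hn)
  have hdv : 2 ∣ orderOf (b : Γ) := hn ▸ dvd_pow_self 2 hn0
  refine ⟨(b : Γ) ^ (orderOf (b : Γ) / 2), pow_mem b.2 _, pow_mem hbc _, ?_⟩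
  exact orderOf_pow_orderOf_div (orderOf_pos _).ne' hdv

theorem CThmC_main {k : Type} [Field k] [IsAlgClosed k] [CharZero k] (a : Fin 5 → k)
    (ha : Function.Injective a) (m : ℕ) : ∀ (N : Subgroup F5) [N.Normal] [N.FiniteIndex],
    N.index = m → (∀ g, ∃ n, g ^ 2 ^ n ∈ N) →
    (∀ g ∈ N, ∀ χ : F5 →* Multiplicative (ZMod 2), χ g = 1) → CThmC_Real a N := by
  induction m using Nat.strong_induction_on with
  | _ m ih =>
  intro N _ _ hm h2 hΦ
  set H : Subgroup (F5 ⧸ N) := ⨅ χ : (F5 ⧸ N) →* Multiplicative (ZMod 2), χ.ker with hH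
  have hHm : ∀ z, z ∈ H ↔ ∀ χ : (F5 ⧸ N) →* Multiplicative (ZMod 2), χ z = 1 := by
    intro z
    simp only [hH, Subgroup.mem_iInf, MonoidHom.mem_ker]
  by_cases hb : H = ⊥
  · refine CThmC_base a ha N fun g => ⟨hΦ g, fun h => ?_⟩
    rw [← QuotientGroup.eq_one_iff, ← Subgroup.mem_bot, ← hb, hHm]
    exact fun χ => h (χ.comp (QuotientGroup.mk' N))
  · have : H.Normal := Subgroup.normal_iInf_normal fun χ => MonoidHom.normal_ker χ
    have hp : IsPGroup 2 (F5 ⧸ N) := by
      intro z
      obtain ⟨g, rfl⟩ := QuotientGroup.mk'_surjective N z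
      obtain ⟨n, hn⟩ := h2 g
      exact ⟨n, by rw [← map_pow]; exact (QuotientGroup.eq_one_iff _).mpr hn⟩
    obtain ⟨z, hz, hzc, hz2⟩ := CThmC_central hp H hb
    have hZH : Subgroup.zpowers z ≤ H := (Subgroup.zpowers_le).mpr hz
    have hZc : Subgroup.zpowers z ≤ Subgroup.center _ := (Subgroup.zpowers_le).mpr hzc
    have hZ : Nat.card (Subgroup.zpowers z) = 2 := by rw [Nat.card_zpowers, hz2]
    have : (Subgroup.zpowers z).Normal := ⟨fun y hy g => by
      rw [Subgroup.mem_center_iff.mp (hZc hy) g, mul_inv_cancel_right]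
      exact hy⟩
    have hle : N ≤ (Subgroup.zpowers z).comap (QuotientGroup.mk' N) := by
      intro g hg
      rw [Subgroup.mem_comap, QuotientGroup.mk'_apply, (QuotientGroup.eq_one_iff g).mpr hg]
      exact one_mem _
    have : ((Subgroup.zpowers z).comap (QuotientGroup.mk' N)).FiniteIndex :=
      Subgroup.finiteIndex_of_le hle
    refine CThmC_step a N h2 _ hZ (fun y hy => (hHm y).mp (hZH hy)) (ih _ ?_ _ rfl
      (fun g => (h2 g).imp fun n hn => hle hn) fun g hg χ => ?_)
    · rw [Subgroup.index_comap_of_surjective _ (QuotientGroup.mk'_surjective N)]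
      have h1 := (Subgroup.zpowers z).card_mul_index
      have h3 : N.index ≠ 0 := Subgroup.FiniteIndex.index_ne_zero
      rw [hZ, ← Subgroup.index_eq_card] at h1
      omega
    · exact (hHm _).mp (hZH hg) (QuotientGroup.lift N χ fun g hg => hΦ g hg χ)

theorem thmC {k : Type} [Field k] [IsAlgClosed k] [CharZero k] (a : Fin 5 → k)
    (ha : Function.Injective a) (N : Subgroup F5) [N.Normal] [N.FiniteIndex]
    (h2 : ∀ g, ∃ n, g ^ 2 ^ n ∈ N)
    (hΦ : ∀ g ∈ N, ∀ χ : F5 →* Multiplicative (ZMod 2), χ g = 1) :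
    ∃ L : IntermediateField (RatFunc k) (KB k), FiniteDimensional (RatFunc k) L ∧
      IsGalois (RatFunc k) L ∧ Unr a L ∧ (∀ i, ∃ r ∈ L, r ^ 2 = vx k - cst (a i)) ∧
      ∃ j : F5 →* (L ≃ₐ[RatFunc k] L), Function.Surjective j ∧ j.ker = N :=
  CThmC_main a ha _ N rfl h2 hΦ

end Vale.Agent.P300
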