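import Mathlib

/-! P300: Tsen's theorem for ternary quadratic forms. -/

namespace Vale.Agent.P300

open MvPolynomial in
theorem ctsen_height {k : Type} [Field k] {ι : Type} [DecidableEq ι] (S : Finset ι) :
    (S.card : ℕ∞) ≤ (RingHom.ker (aeval (R := k)
      fun i => if i ∈ S then (0 : MvPolynomial ι k) else X i)).height := by
  induction S using Finset.induction_on with
  | empty => simp
  | insert a S ha ih =>
    have h1 := RingHom.ker_isPrime (aeval (R := k)
      fun i => if i ∈ S then (0 : MvPolynomial ι k) else X i)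
    have h2 := RingHom.ker_isPrime (aeval (R := k)
      fun i => if i ∈ insert a S then (0 : MvPolynomial ι k) else X i)
    have h3 : (aeval (R := k) fun i => if i ∈ insert a S then (0 : MvPolynomial ι k) else X i) =
        (aeval (R := k) fun i => if i = a then (0 : MvPolynomial ι k) else X i).comp
          (aeval fun i => if i ∈ S then (0 : MvPolynomial ι k) else X i) := by
      refine algHom_ext fun i => ?_
      by_cases h : i ∈ S <;> simp [h]
    rw [Finset.card_insert_of_notMem ha, Nat.cast_add, Nat.cast_one]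
    refine (add_le_add_left ih 1).trans (Ideal.height_add_one_le_of_lt_of_isPrime
      (lt_of_le_of_ne (fun f hf => ?_) fun h => ?_))
    · rw [RingHom.mem_ker] at hf ⊢
      rw [h3, AlgHom.comp_apply, hf, map_zero]
    · have h4 : (X a : MvPolynomial ι k) ∈ RingHom.ker (aeval (R := k)
          fun i => if i ∈ insert a S then (0 : MvPolynomial ι k) else X i) := by
        simp [RingHom.mem_ker]
      rw [← h, RingHom.mem_ker] at h4
      simp [ha] at h4

/-- homogeneous polynomials of positive degree in more variables than equations have a common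
nontrivial zero over an algebraically closed field -/
theorem exists_common_zero {k : Type} [Field k] [IsAlgClosed k] {ι κ : Type} [Fintype ι] [Fintype κ]
    (h : Fintype.card κ < Fintype.card ι) (P : κ → MvPolynomial ι k)
    (hP : ∀ j, ∃ d, 0 < d ∧ (P j).IsHomogeneous d) :
    ∃ v : ι → k, v ≠ 0 ∧ ∀ j, MvPolynomial.eval v (P j) = 0 := by
  classical
  by_contra hc
  have h0 : MvPolynomial.zeroLocus k (Ideal.span (Set.range P)) = {0} := by
    rw [MvPolynomial.zeroLocus_span]
    ext v
    refine ⟨fun hv => by_contra fun hv0 => hc ⟨v, hv0, fun j => hv _ ⟨j, rfl⟩⟩, ?_⟩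
    rintro rfl _ ⟨j, rfl⟩
    obtain ⟨d, hd, hd'⟩ := hP j
    rw [MvPolynomial.aeval_zero, MvPolynomial.constantCoeff_eq,
      hd'.coeff_eq_zero (by simpa using hd.ne), map_zero]
  have h1 := MvPolynomial.vanishingIdeal_zeroLocus_eq_radical (K := k) (Ideal.span (Set.range P))
  rw [h0] at h1
  have h2 : MvPolynomial.vanishingIdeal k {(0 : ι → k)} ∈
      (Ideal.span ((Finset.univ.image P : Finset _) : Set (MvPolynomial ι k))).minimalPrimes := by
    rw [Finset.coe_image, Finset.coe_univ, Set.image_univ]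
    refine ⟨⟨inferInstance, h1 ▸ Ideal.le_radical⟩, fun q hq _ => ?_⟩
    rw [h1]
    exact hq.1.radical_le_iff.2 hq.2
  have h3 := Ideal.height_le_card_of_mem_minimalPrimes_span_finset h2
  have h4 : RingHom.ker (MvPolynomial.aeval (R := k)
      fun i => if i ∈ (Finset.univ : Finset ι) then (0 : MvPolynomial ι k) else .X i) ≤
      MvPolynomial.vanishingIdeal k {(0 : ι → k)} := by
    intro f hf
    rw [RingHom.mem_ker] at hf
    rw [MvPolynomial.mem_vanishingIdeal_singleton_iff, MvPolynomial.aeval_zero]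
    simp only [Finset.mem_univ, if_true, MvPolynomial.aeval_zero', MvPolynomial.algebraMap_eq,
      MvPolynomial.C_eq_zero] at hf
    rw [hf, map_zero]
  have h5 := ((ctsen_height (k := k) (Finset.univ : Finset ι)).trans
    (Ideal.height_mono h4)).trans h3
  have h6 : (Finset.univ.image P).card ≤ Fintype.card κ := Finset.card_image_le
  rw [Nat.cast_le, Finset.card_univ] at h5
  omega

open Polynomial in
theorem ctsen_poly {k : Type} [Field k] [IsAlgClosed k] {n : ℕ} (hn : 0 < n)
    (B : Fin 3 → Fin n → Fin n → Fin n → k[X]) :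
    ∃ p : Fin 3 → Fin n → k[X], p ≠ 0 ∧
      ∀ l, ∑ t, ∑ i, ∑ j, B t i j l * (p t i * p t j) = 0 := by
  obtain ⟨r, hr⟩ : ∃ r, ∀ t i j l, (B t i j l).natDegree ≤ r := by
    obtain ⟨r, hr⟩ := (Set.finite_range fun u : Fin 3 × Fin n × Fin n × Fin n =>
      (B u.1 u.2.1 u.2.2.1 u.2.2.2).natDegree).bddAbove
    exact ⟨r, fun t i j l => hr ⟨(t, i, j, l), rfl⟩⟩
  obtain ⟨v, hv0, hv⟩ := exists_common_zero (k := k) (ι := Fin 3 × Fin n × Fin (r + 1))
    (κ := Fin n × Fin (3 * r + 1)) (by
      simp only [Fintype.card_prod, Fintype.card_fin]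
      nlinarith)
    (fun u => ∑ t, ∑ i, ∑ j, ∑ a : Fin (r + 1), ∑ b : Fin (r + 1),
      MvPolynomial.C ((B t i j u.1 * (X ^ (a : ℕ) * X ^ (b : ℕ))).coeff u.2) *
        (MvPolynomial.X (t, i, a) * MvPolynomial.X (t, j, b)))
    fun u => ⟨2, two_pos, by
      refine MvPolynomial.IsHomogeneous.sum _ _ _ fun t _ => ?_
      refine MvPolynomial.IsHomogeneous.sum _ _ _ fun i _ => ?_
      refine MvPolynomial.IsHomogeneous.sum _ _ _ fun j _ => ?_
      refine MvPolynomial.IsHomogeneous.sum _ _ _ fun a _ => ?_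
      refine MvPolynomial.IsHomogeneous.sum _ _ _ fun b _ => ?_
      exact ((MvPolynomial.isHomogeneous_X _ _).mul (MvPolynomial.isHomogeneous_X _ _)).C_mul _⟩
  refine ⟨fun t i => ∑ a : Fin (r + 1), C (v (t, i, a)) * X ^ (a : ℕ), fun h => hv0 ?_,
    fun l => ?_⟩
  · funext ⟨t, i, a⟩
    have h1 := congrArg (fun q : k[X] => q.coeff a) (congrFun (congrFun h t) i)
    simpa [coeff_C_mul, coeff_X_pow, Fin.val_inj] using h1
  · ext m
    have h1 : (∑ t, ∑ i, ∑ j, B t i j l * ((∑ a : Fin (r + 1), C (v (t, i, a)) * X ^ (a : ℕ)) *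
        ∑ a : Fin (r + 1), C (v (t, j, a)) * X ^ (a : ℕ))).coeff m =
        ∑ t, ∑ i, ∑ j, ∑ a : Fin (r + 1), ∑ b : Fin (r + 1),
          (B t i j l * (X ^ (a : ℕ) * X ^ (b : ℕ))).coeff m * (v (t, i, a) * v (t, j, b)) := by
      simp only [Finset.sum_mul_sum]
      simp only [Finset.mul_sum, finsetSum_coeff, ← coeff_mul_C, map_mul]
      refine Finset.sum_congr rfl fun t _ => Finset.sum_congr rfl fun i _ =>
        Finset.sum_congr rfl fun j _ => Finset.sum_congr rfl fun a _ =>
        Finset.sum_congr rfl fun b _ => congrArg (fun q : k[X] => q.coeff m) (by ring)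
    rw [h1, coeff_zero]
    by_cases hm : m < 3 * r + 1
    · simpa only [map_sum, map_mul, MvPolynomial.eval_C, MvPolynomial.eval_X] using
        hv (l, ⟨m, hm⟩)
    · refine Finset.sum_eq_zero fun t _ => Finset.sum_eq_zero fun i _ =>
        Finset.sum_eq_zero fun j _ => Finset.sum_eq_zero fun a _ =>
        Finset.sum_eq_zero fun b _ => ?_
      have h2 : (B t i j l * (X ^ (a : ℕ) * X ^ (b : ℕ))).natDegree < m := by
        rw [← pow_add]
        have h3 := hr t i j l
        have h4 := natDegree_mul_le (p := B t i j l) (q := X ^ ((a : ℕ) + b))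
        rw [natDegree_X_pow] at h4
        omega
      rw [coeff_eq_zero_of_natDegree_lt h2, zero_mul]

theorem tsen_ternary {k : Type} [Field k] [IsAlgClosed k] (K : Type) [Field K]
    [Algebra (RatFunc k) K] [FiniteDimensional (RatFunc k) K] (a c : K) :
    ∃ X Y Z : K, (X ≠ 0 ∨ Y ≠ 0 ∨ Z ≠ 0) ∧ X ^ 2 - a * Y ^ 2 - c * Z ^ 2 = 0 := by
  let e := Module.finBasis (RatFunc k) K
  let w : Fin 3 → K := ![1, -a, -c]
  let φ := algebraMap (Polynomial k) (RatFunc k)
  have hφ : Function.Injective φ := IsFractionRing.injective _ _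
  obtain ⟨d, hd⟩ := IsLocalization.exist_integer_multiples_of_finite
    (nonZeroDivisors (Polynomial k))
    (fun u : Fin 3 × Fin _ × Fin _ × Fin _ => e.repr (w u.1 * (e u.2.1 * e u.2.2.1)) u.2.2.2)
  choose B hB using hd
  obtain ⟨p, hp0, hp⟩ := ctsen_poly (Module.finrank_pos (R := RatFunc k) (M := K))
    fun t i j l => B (t, i, j, l)
  let W : Fin 3 → K := fun t => ∑ i, φ (p t i) • e i
  have h1 : ∑ t, w t * W t ^ 2 = 0 := by
    refine e.ext_elem fun l => ?_
    have h2 : φ d ≠ 0 := fun h => nonZeroDivisors.ne_zero d.2 (hφ (h.trans (map_zero φ).symm))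
    have h3 := congrArg φ (hp l)
    have h4 : ∀ t i j, φ (B (t, i, j, l)) = φ d * e.repr (w t * (e i * e j)) l :=
      fun t i j => (hB (t, i, j, l)).trans (Algebra.smul_def _ _)
    simp only [map_sum, map_mul, map_zero, h4, mul_assoc, ← Finset.mul_sum] at h3
    rw [map_zero, Finsupp.zero_apply, ← (mul_eq_zero.1 h3).resolve_left h2]
    simp only [W, sq, Finset.sum_mul_sum, smul_mul_smul_comm]
    simp only [Finset.mul_sum, mul_smul_comm, map_sum, map_smul, Finsupp.coe_finsetSum,
      Finset.sum_apply, Finsupp.smul_apply, smul_eq_mul]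
    refine Finset.sum_congr rfl fun t _ => Finset.sum_congr rfl fun i _ =>
      Finset.sum_congr rfl fun j _ => mul_comm _ _
  refine ⟨W 0, W 1, W 2, ?_, ?_⟩
  · by_contra h
    simp only [not_or, not_not] at h
    refine hp0 (funext fun t => funext fun i => hφ ?_)
    have h2 : W t = 0 := by
      fin_cases t
      exacts [h.1, h.2.1, h.2.2]
    simpa using Fintype.linearIndependent_iff.1 e.linearIndependent _ h2 i
  · simp only [Fin.sum_univ_three, w, Matrix.cons_val_zero, Matrix.cons_val_one,
      Matrix.cons_val] at h1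
    linear_combination h1

end Vale.Agent.P300
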