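import Vale.Agent.P300.DDefs

/-! P300: local rings of the points of a projective model. -/

noncomputable section

namespace Vale.Agent.P300

open MvPolynomial

variable {Ω : Type} [Field Ω] [Algebra ℂ Ω] {ι : Type}

namespace LA

variable {L : LA Ω}

theorem ev_zero : L.ev 0 = 0 := by simpa using L.ev_alg 0
theorem ev_one : L.ev 1 = 1 := by simpa using L.ev_alg 1
theorem ev_neg {z : Ω} (hz : z ∈ L.O) : L.ev (-z) = -L.ev z := by
  have h := L.ev_add z hz (-z) (L.O.neg_mem hz)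
  rw [add_neg_cancel, ev_zero] at h
  linear_combination -h
theorem ev_sub {z w : Ω} (hz : z ∈ L.O) (hw : w ∈ L.O) : L.ev (z - w) = L.ev z - L.ev w := by
  rw [sub_eq_add_neg, L.ev_add z hz _ (L.O.neg_mem hw), ev_neg hw, sub_eq_add_neg]
theorem ev_pow {z : Ω} (hz : z ∈ L.O) (n : ℕ) : L.ev (z ^ n) = L.ev z ^ n := by
  induction n with
  | zero => simpa using ev_one
  | succ n ih => rw [pow_succ, L.ev_mul _ (L.O.pow_mem hz n) _ hz, ih, pow_succ]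
theorem ev_smul {z : Ω} (hz : z ∈ L.O) (c : ℂ) : L.ev (c • z) = c * L.ev z := by
  rw [Algebra.smul_def, L.ev_mul _ (L.O.algebraMap_mem c) _ hz, L.ev_alg]
theorem Un.ne_zero {z : Ω} (hz : L.Un z) : z ≠ 0 := by
  rintro rfl
  exact hz.2 ev_zero
theorem Un.inv {z : Ω} (hz : L.Un z) : L.Un z⁻¹ ∧ L.ev z⁻¹ = (L.ev z)⁻¹ := by
  have h1 := L.inv_mem z hz.1 hz.2
  have h2 := L.ev_mul z hz.1 _ h1
  rw [mul_inv_cancel₀ hz.ne_zero, ev_one] at h2
  have h3 : L.ev z⁻¹ = (L.ev z)⁻¹ := (eq_inv_of_mul_eq_one_right h2.symm)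
  exact ⟨⟨h1, h3 ▸ inv_ne_zero hz.2⟩, h3⟩
theorem Un.mul {z w : Ω} (hz : L.Un z) (hw : L.Un w) : L.Un (z * w) :=
  ⟨L.O.mul_mem hz.1 hw.1, by
    rw [L.ev_mul z hz.1 w hw.1]
    exact mul_ne_zero hz.2 hw.2⟩
theorem Un.zpow {z : Ω} (hz : L.Un z) (n : ℤ) : L.Un (z ^ n) ∧ L.ev (z ^ n) = L.ev z ^ n := by
  have h : ∀ k : ℕ, L.Un (z ^ k) := fun k =>
    ⟨L.O.pow_mem hz.1 k, by
      rw [ev_pow hz.1]
      exact pow_ne_zero k hz.2⟩
  obtain ⟨k, rfl | rfl⟩ := Int.eq_nat_or_neg n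
  · rw [zpow_natCast, zpow_natCast]
    exact ⟨h k, ev_pow hz.1 k⟩
  · rw [zpow_neg, zpow_neg, zpow_natCast, zpow_natCast]
    exact ⟨(h k).inv.1, by rw [(h k).inv.2, ev_pow hz.1]⟩
theorem mx_ctr {z : Ω} (hz : z ∈ L.O) : L.Mx (L.ctr z) :=
  ⟨L.O.sub_mem hz (L.O.algebraMap_mem _), by
    rw [ctr, ev_sub hz (L.O.algebraMap_mem _), L.ev_alg, sub_self]⟩

/-- evaluation as an algebra homomorphism -/
def evHom (L : LA Ω) : L.O →ₐ[ℂ] ℂ where
  toFun z := L.ev z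
  map_one' := ev_one
  map_mul' z w := L.ev_mul _ z.2 _ w.2
  map_zero' := ev_zero
  map_add' z w := L.ev_add _ z.2 _ w.2
  commutes' c := L.ev_alg c

theorem db_isUnit {z : L.O} (hz : L.ev z ≠ 0) : IsUnit z :=
  IsUnit.of_mul_eq_one ⟨(z : Ω)⁻¹, L.inv_mem _ z.2 hz⟩
    (Subtype.ext (mul_inv_cancel₀ (Un.ne_zero ⟨z.2, hz⟩)))

theorem isLocalRing (L : LA Ω) : IsLocalRing L.O := by
  refine IsLocalRing.of_isUnit_or_isUnit_one_sub_self fun z => ?_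
  by_cases hz : L.ev z = 0
  · refine Or.inr (db_isUnit ?_)
    show L.ev (1 - z) ≠ 0
    rw [ev_sub L.O.one_mem z.2, ev_one, hz]
    simp
  · exact Or.inl (db_isUnit hz)

/-- a valuation ring dominating a local algebra -/
theorem exists_val (L : LA Ω) : ∃ V : ValuationSubring Ω, (∀ z ∈ L.O, z ∈ V) ∧
    ∀ z, L.Mx z → V.valuation z < 1 := by
  let I : Ideal L.O.toSubring := RingHom.ker (R := L.O.toSubring) L.evHom.toRingHom
  have hI : I ≠ ⊤ := RingHom.ker_ne_top _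
  obtain ⟨V, h1, h2⟩ := Ideal.image_subset_nonunits_valuationSubring I hI
  exact ⟨V, fun z hz => h1 hz, fun z hz =>
    V.mem_nonunits_iff.1 (h2 ⟨⟨z, hz.1⟩, hz.2, rfl⟩)⟩

theorem db_aeval {s : ι → Ω} (hs : ∀ i, s i ∈ L.O) (F : MvPolynomial ι ℂ) :
    aeval s F ∈ L.O ∧ L.ev (aeval s F) = eval (fun i => L.ev (s i)) F := by
  induction F using MvPolynomial.induction_on with
  | C a => exact ⟨by simp, by simp [L.ev_alg]⟩
  | add p q hp hq =>
    rw [map_add, map_add, L.ev_add _ hp.1 _ hq.1, hp.2, hq.2]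
    exact ⟨L.O.add_mem hp.1 hq.1, rfl⟩
  | mul_X p i hp =>
    rw [map_mul, map_mul, aeval_X, eval_X, L.ev_mul _ hp.1 _ (hs i), hp.2]
    exact ⟨L.O.mul_mem hp.1 (hs i), rfl⟩

theorem db_adjoin {L L' : LA Ω} {S : Set Ω} (h : ∀ z ∈ S, z ∈ L.O) (h' : ∀ z ∈ S, z ∈ L'.O)
    (he : ∀ z ∈ S, L.ev z = L'.ev z) : ∀ z ∈ Algebra.adjoin ℂ S, L.ev z = L'.ev z := by
  have a : Algebra.adjoin ℂ S ≤ L.O := Algebra.adjoin_le h
  have a' : Algebra.adjoin ℂ S ≤ L'.O := Algebra.adjoin_le h'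
  intro z hz
  induction hz using Algebra.adjoin_induction with
  | mem x hx => exact he x hx
  | algebraMap r => rw [L.ev_alg, L'.ev_alg]
  | add x y hx hy ex ey => rw [L.ev_add _ (a hx) _ (a hy), L'.ev_add _ (a' hx) _ (a' hy), ex, ey]
  | mul x y hx hy ex ey => rw [L.ev_mul _ (a hx) _ (a hy), L'.ev_mul _ (a' hx) _ (a' hy), ex, ey]

theorem db_noeth {R : Subalgebra ℂ Ω} (h : L.LocOf R) (hR : IsNoetherianRing R) :
    IsNoetherianRing L.O := by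
  letI : Algebra R L.O := (Subalgebra.inclusion h.1).toRingHom.toAlgebra
  let S : Submonoid R :=
    { carrier := {s | L.ev s ≠ 0}
      mul_mem' := fun {a b} ha hb => (Un.mul ⟨h.1 a.2, ha⟩ ⟨h.1 b.2, hb⟩).2
      one_mem' := by
        show L.ev 1 ≠ 0
        rw [ev_one]
        exact one_ne_zero }
  have : IsLocalization S L.O :=
    { map_units := fun s => db_isUnit s.2
      surj := fun z => by
        obtain ⟨r, hr, s, hs, h1, h2⟩ := h.2 z z.2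
        exact ⟨(⟨r, hr⟩, ⟨⟨s, hs⟩, h1⟩), Subtype.ext h2⟩
      exists_of_eq := fun {x y} e => ⟨1, by
        have : x = y := Subalgebra.inclusion_injective h.1 e
        rw [this]⟩ }
  exact IsLocalization.isNoetherianRing S L.O hR

end LA

theorem db_scale {A : Type} [CommRing A] [Algebra ℂ A] {P : MvPolynomial ι ℂ} {d : ℕ}
    (hP : P.IsHomogeneous d) (c : A) (t : ι → A) :
    aeval (fun i => c * t i) P = c ^ d * aeval t P := by
  rw [aeval_def, aeval_def, eval₂_eq, eval₂_eq, Finset.mul_sum]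
  refine Finset.sum_congr rfl fun m hm => ?_
  rw [hP.degree_eq_sum_deg_support hm]
  simp only [mul_pow, Finset.prod_mul_distrib, Finset.prod_pow_eq_pow_sum]
  ring

theorem db_scale_eval {P : MvPolynomial ι ℂ} {d : ℕ} (hP : P.IsHomogeneous d) (c : ℂ)
    (v : ι → ℂ) : eval (fun i => c * v i) P = c ^ d * eval v P :=
  db_scale hP c v

theorem db_ne {t : ι → Ω} (y : Zt t) {Q : MvPolynomial ι ℂ} {d : ℕ} (hQ : Q.IsHomogeneous d)
    (h : eval y.1.rep Q ≠ 0) : aeval t Q ≠ 0 := fun e => h (y.2 Q ⟨⟨d, hQ⟩, e⟩)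

theorem db_unique {t : ι → Ω} (y : Zt t) {z : Ω} {c c' : ℂ} (h : RegV t y.1 z c)
    (h' : RegV t y.1 z c') : c = c' := by
  obtain ⟨d, P, Q, hP, hQ, h1, h2, h3⟩ := h
  obtain ⟨d', P', Q', hP', hQ', h1', h2', h3'⟩ := h'
  have a1 : (P * Q' - Q * P').IsHomogeneous (d + d') := (hP.mul hQ').sub (hQ.mul hP')
  have a2 : aeval t (P * Q' - Q * P') = 0 := by
    rw [map_sub, map_mul, map_mul, ← h2, ← h2']
    ring
  have a3 := y.2 _ ⟨⟨_, a1⟩, a2⟩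
  rw [map_sub, map_mul, map_mul, ← h3, ← h3'] at a3
  have a4 : (c - c') * (eval y.1.rep Q * eval y.1.rep Q') = 0 := by linear_combination a3
  exact sub_eq_zero.1 ((mul_eq_zero.1 a4).resolve_right (mul_ne_zero h1 h1'))

theorem db_mul {t : ι → Ω} {p : PSp ι} {z w : Ω} {c e : ℂ} (h : RegV t p z c)
    (h' : RegV t p w e) : RegV t p (z * w) (c * e) := by
  obtain ⟨d, P, Q, hP, hQ, h1, h2, h3⟩ := h
  obtain ⟨d', P', Q', hP', hQ', h1', h2', h3'⟩ := h'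
  refine ⟨d + d', P * P', Q * Q', hP.mul hP', hQ.mul hQ', ?_, ?_, ?_⟩
  · rw [map_mul]
    exact mul_ne_zero h1 h1'
  · rw [map_mul, map_mul, ← h2, ← h2']
    ring
  · rw [map_mul, map_mul, ← h3, ← h3']
    ring

theorem db_add {t : ι → Ω} {p : PSp ι} {z w : Ω} {c e : ℂ} (h : RegV t p z c)
    (h' : RegV t p w e) : RegV t p (z + w) (c + e) := by
  obtain ⟨d, P, Q, hP, hQ, h1, h2, h3⟩ := h
  obtain ⟨d', P', Q', hP', hQ', h1', h2', h3'⟩ := h'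
  refine ⟨d + d', P * Q' + Q * P', Q * Q', (hP.mul hQ').add (hQ.mul hP'), hQ.mul hQ', ?_, ?_, ?_⟩
  · rw [map_mul]
    exact mul_ne_zero h1 h1'
  · rw [map_add, map_mul, map_mul, map_mul, ← h2, ← h2']
    ring
  · rw [map_add, map_mul, map_mul, map_mul, ← h3, ← h3']
    ring

theorem db_alg (t : ι → Ω) (p : PSp ι) (c : ℂ) : RegV t p (algebraMap ℂ Ω c) c :=
  ⟨0, C c, 1, isHomogeneous_C _ c, isHomogeneous_one _ _, by simp, by simp, by simp⟩

theorem db_inv {t : ι → Ω} (y : Zt t) {z : Ω} {c : ℂ} (h : RegV t y.1 z c) (hc : c ≠ 0) :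
    RegV t y.1 z⁻¹ c⁻¹ := by
  obtain ⟨d, P, Q, hP, hQ, h1, h2, h3⟩ := h
  have a1 : eval y.1.rep P ≠ 0 := h3 ▸ mul_ne_zero hc h1
  have a2 : z ≠ 0 := by
    rintro rfl
    exact db_ne y hP a1 (by rw [← h2, zero_mul])
  refine ⟨d, Q, P, hQ, hP, a1, ?_, ?_⟩
  · rw [← h2, inv_mul_cancel_left₀ a2]
  · rw [← h3, inv_mul_cancel_left₀ hc]

open Classical in
theorem db_ev {t : ι → Ω} (y : Zt t) {z : Ω} {c : ℂ} (h : RegV t y.1 z c) :
    (if h : ∃ c, RegV t y.1 z c then h.choose else 0) = c := by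
  have h' : ∃ c, RegV t y.1 z c := ⟨c, h⟩
  rw [dif_pos h']
  exact db_unique y h'.choose_spec h

open Classical in
/-- the local ring of a point of the model, with its evaluation map -/
def la (t : ι → Ω) (y : Zt t) : LA Ω where
  O :=
    { carrier := {z | ∃ c, RegV t y.1 z c}
      mul_mem' := fun ⟨_, h⟩ ⟨_, h'⟩ => ⟨_, db_mul h h'⟩
      add_mem' := fun ⟨_, h⟩ ⟨_, h'⟩ => ⟨_, db_add h h'⟩
      algebraMap_mem' := fun c => ⟨c, db_alg t y.1 c⟩ }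
  ev z := if h : ∃ c, RegV t y.1 z c then h.choose else 0
  ev_add := fun _ ⟨_, h⟩ _ ⟨_, h'⟩ => by rw [db_ev y h, db_ev y h', db_ev y (db_add h h')]
  ev_mul := fun _ ⟨_, h⟩ _ ⟨_, h'⟩ => by rw [db_ev y h, db_ev y h', db_ev y (db_mul h h')]
  ev_alg := fun c => db_ev y (db_alg t y.1 c)
  inv_mem := fun _ ⟨_, h⟩ hc => ⟨_, db_inv y h (by rwa [db_ev y h] at hc)⟩
  ev_out := fun _ h => dif_neg h

theorem mem_la_iff {t : ι → Ω} {y : Zt t} {z : Ω} : z ∈ (la t y).O ↔ ∃ c, RegV t y.1 z c := Iff.rfl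

theorem ev_of_regV {t : ι → Ω} {y : Zt t} {z : Ω} {c : ℂ} (h : RegV t y.1 z c) :
    (la t y).ev z = c :=
  db_ev y h

theorem PSp.rep_ne (p : PSp ι) : p.rep ≠ 0 :=
  Projectivization.rep_nonzero p

theorem PSp.mk_rep (p : PSp ι) : PSp.mk ⟨p.rep, p.rep_ne⟩ = p :=
  Projectivization.mk_rep p

theorem PSp.mk_eq_iff (v w : {v : ι → ℂ // v ≠ 0}) :
    PSp.mk v = PSp.mk w ↔ ∃ c : ℂ, c ≠ 0 ∧ v.1 = c • w.1 := by
  refine (Projectivization.mk_eq_mk_iff ℂ v.1 w.1 v.2 w.2).trans ⟨?_, ?_⟩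
  · rintro ⟨a, ha⟩
    exact ⟨a, a.ne_zero, ha.symm⟩
  · rintro ⟨c, hc, e⟩
    exact ⟨Units.mk0 c hc, e.symm⟩

theorem db_rep_mk (v : {v : ι → ℂ // v ≠ 0}) :
    ∃ c : ℂ, c ≠ 0 ∧ (PSp.mk v).rep = fun i => c * v.1 i :=
  (PSp.mk_eq_iff ⟨_, (PSp.mk v).rep_ne⟩ v).1 (PSp.mk_rep _)

theorem t_ne_of_rep {t : ι → Ω} (y : Zt t) {j : ι} (hj : y.1.rep j ≠ 0) : t j ≠ 0 := by
  simpa using db_ne y (isHomogeneous_X ℂ j) (by simpa using hj)

theorem ratio_mem {t : ι → Ω} (y : Zt t) {j : ι} (hj : y.1.rep j ≠ 0) (i : ι) :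
    t i / t j ∈ (la t y).O ∧ (la t y).ev (t i / t j) = y.1.rep i / y.1.rep j := by
  have h : RegV t y.1 (t i / t j) (y.1.rep i / y.1.rep j) :=
    ⟨1, X i, X j, isHomogeneous_X ℂ i, isHomogeneous_X ℂ j, by simpa using hj,
      by simp [t_ne_of_rep y hj], by simp [hj]⟩
  exact ⟨⟨_, h⟩, ev_of_regV h⟩

theorem db_mem_chA (t : ι → Ω) (j : ι) (F : MvPolynomial ι ℂ) :
    aeval (fun i => t i / t j) F ∈ chA t j := by
  rw [chA, Algebra.adjoin_range_eq_range_aeval]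
  exact ⟨F, rfl⟩

theorem db_ratio {A : Type} [Field A] [Algebra ℂ A] {P : MvPolynomial ι ℂ} {d : ℕ}
    (hP : P.IsHomogeneous d) (t : ι → A) (j : ι) :
    aeval (fun i => t i / t j) P = (t j)⁻¹ ^ d * aeval t P := by
  rw [← db_scale hP]
  simp only [div_eq_inv_mul]

theorem db_ev_ratio {t : ι → Ω} (y : Zt t) {j : ι} (hj : y.1.rep j ≠ 0) (F : MvPolynomial ι ℂ) :
    (la t y).ev (aeval (fun i => t i / t j) F) = eval (fun i => y.1.rep i / y.1.rep j) F := by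
  rw [(LA.db_aeval (fun i => (ratio_mem y hj i).1) F).2]
  simp only [(ratio_mem y hj _).2]

theorem locOf_chA {t : ι → Ω} (y : Zt t) {j : ι} (hj : y.1.rep j ≠ 0) :
    (la t y).LocOf (chA t j) := by
  refine ⟨Algebra.adjoin_le ?_, ?_⟩
  · rintro _ ⟨i, rfl⟩
    exact (ratio_mem y hj i).1
  · rintro z ⟨c, d, P, Q, hP, hQ, h1, h2, -⟩
    refine ⟨_, db_mem_chA t j P, _, db_mem_chA t j Q, ?_, ?_⟩
    · rw [db_ev_ratio y hj]
      have e : eval (fun i => y.1.rep i / y.1.rep j) Q = (y.1.rep j)⁻¹ ^ d * eval y.1.rep Q :=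
        db_ratio hQ y.1.rep j
      rw [e]
      exact mul_ne_zero (pow_ne_zero _ (inv_ne_zero hj)) h1
    · rw [db_ratio hP, db_ratio hQ, ← h2]
      ring

theorem db_exists_rep (p : PSp ι) : ∃ j, p.rep j ≠ 0 := Function.ne_iff.1 p.rep_ne

/-- if all ratios `t i / t j` are regular at `y` then `y` lies in the chart `j` -/
theorem rep_ne_of_ratio {t : ι → Ω} (y : Zt t) {j : ι} (hj : t j ≠ 0)
    (h : ∀ i, t i / t j ∈ (la t y).O) : y.1.rep j ≠ 0 := by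
  obtain ⟨k, hk⟩ := db_exists_rep y.1
  have h1 := (la t y).ev_mul _ (h k) _ (ratio_mem y hk j).1
  have h2 : t k / t j * (t j / t k) = 1 := by
    have := t_ne_of_rep y hk
    field_simp
  rw [h2, LA.ev_one, (ratio_mem y hk j).2] at h1
  intro e
  rw [e] at h1
  simp at h1

theorem pt_of_hom [Fintype ι] (t : ι → Ω) {j : ι} (hj : t j ≠ 0) (χ : chA t j →ₐ[ℂ] ℂ) :
    ∃ y : Zt t, y.1.rep j ≠ 0 ∧ ∀ r : chA t j, (la t y).ev r = χ r := by
  let s : ι → chA t j := fun i => ⟨t i / t j, Algebra.subset_adjoin ⟨i, rfl⟩⟩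
  let v : ι → ℂ := fun i => χ (s i)
  have hv : v j = 1 := by
    have : s j = 1 := Subtype.ext (div_self hj)
    simp [v, this]
  have hv0 : v ≠ 0 := fun e => by simp [e] at hv
  have h1 : ∀ F : MvPolynomial ι ℂ, ((aeval s F : chA t j) : Ω) = aeval (fun i => t i / t j) F :=
    fun F => (comp_aeval_apply (f := s) (chA t j).val F)
  have h2 : ∀ F : MvPolynomial ι ℂ, χ (aeval s F) = eval v F := fun F =>
    comp_aeval_apply (f := s) χ F
  obtain ⟨c, hc, e⟩ := db_rep_mk ⟨v, hv0⟩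
  have hy : PSp.mk ⟨v, hv0⟩ ∈ Zt t := by
    rintro P ⟨⟨d, hP⟩, h0⟩
    have a1 : aeval s P = 0 := Subtype.ext (by
      rw [h1, db_ratio hP, h0, mul_zero]
      rfl)
    rw [e, db_scale_eval hP, ← h2, a1, map_zero, mul_zero]
  have hj' : (PSp.mk ⟨v, hv0⟩).rep j ≠ 0 := by
    rw [e]
    simpa [hv] using hc
  refine ⟨⟨_, hy⟩, hj', fun r => ?_⟩
  have hr : r.1 ∈ (aeval (R := ℂ) fun i => t i / t j).range := by
    rw [← Algebra.adjoin_range_eq_range_aeval]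
    exact r.2
  obtain ⟨F, hF⟩ := hr
  have a1 : r = aeval s F := Subtype.ext (by rw [h1]; exact hF.symm)
  rw [a1, h1, h2, db_ev_ratio ⟨_, hy⟩ hj']
  congr 2
  funext i
  simp only [e, hv]
  field_simp

theorem la_inj {t : ι → Ω} {y y' : Zt t} (h : la t y = la t y') : y = y' := by
  obtain ⟨j, hj⟩ := db_exists_rep y.1
  have hj' : y'.1.rep j ≠ 0 :=
    rep_ne_of_ratio y' (t_ne_of_rep y hj) fun i => h ▸ (ratio_mem y hj i).1
  refine Subtype.ext ?_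
  rw [← y.1.mk_rep, ← y'.1.mk_rep, PSp.mk_eq_iff]
  refine ⟨y.1.rep j / y'.1.rep j, div_ne_zero hj hj', funext fun i => ?_⟩
  have e := (ratio_mem y hj i).2
  rw [h, (ratio_mem y' hj' i).2] at e
  simp only [Pi.smul_apply, smul_eq_mul]
  field_simp
  field_simp at e
  linear_combination -e

theorem la_noeth [Fintype ι] (t : ι → Ω) (y : Zt t) : IsNoetherianRing (la t y).O := by
  obtain ⟨j, hj⟩ := db_exists_rep y.1
  exact LA.db_noeth (locOf_chA y hj)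
    (isNoetherianRing_of_fg (Subalgebra.fg_def.2 ⟨_, Set.finite_range _, rfl⟩))

theorem LA.db_le {L L' : LA Ω} {R : Subalgebra ℂ Ω} (h : L.LocOf R) (h' : L'.LocOf R)
    (he : ∀ z ∈ R, L.ev z = L'.ev z) {z : Ω} (hz : z ∈ L.O) : z ∈ L'.O ∧ L.ev z = L'.ev z := by
  obtain ⟨r, hr, s, hs, h1, h2⟩ := h.2 z hz
  have hu : L'.Un s := ⟨h'.1 hs, he s hs ▸ h1⟩
  have a1 : z ∈ L'.O := by
    rw [(eq_mul_inv_iff_mul_eq₀ hu.ne_zero).2 h2]
    exact L'.O.mul_mem (h'.1 hr) hu.inv.1.1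
  refine ⟨a1, mul_right_cancel₀ h1 ?_⟩
  rw [← L.ev_mul z hz s (h.1 hs), he s hs, ← L'.ev_mul z a1 s hu.1, h2, he r hr]

/-- two local algebras that are localisations of the same subalgebra with the same values agree -/
theorem LA.eq_of_locOf {L L' : LA Ω} {R : Subalgebra ℂ Ω} (h : L.LocOf R) (h' : L'.LocOf R)
    (he : ∀ z ∈ R, L.ev z = L'.ev z) : L = L' := by
  have hO : ∀ z, z ∈ L.O ↔ z ∈ L'.O := fun z =>
    ⟨fun hz => (LA.db_le h h' he hz).1,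
      fun hz => (LA.db_le h' h (fun z hz => (he z hz).symm) hz).1⟩
  refine LA.ext (Subalgebra.ext hO) (funext fun z => ?_)
  by_cases hz : z ∈ L.O
  · exact (LA.db_le h h' he hz).2
  · rw [L.ev_out z hz, L'.ev_out z fun e => hz ((hO z).2 e)]

theorem LA.Ext.unique {L L₁ L₂ : LA Ω} {w : Ω} (h₁ : L.Ext L₁ w) (h₂ : L.Ext L₂ w)
    (he : L₁.ev w = L₂.ev w) : L₁ = L₂ := by
  have a : ∀ {L' : LA Ω}, L.Ext L' w → ∀ z ∈ insert w (L.O : Set Ω), z ∈ L'.O := by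
    rintro L' h z (rfl | hz)
    · exact h.2.2.1
    · exact h.1 hz
  refine LA.eq_of_locOf ⟨Algebra.adjoin_le (a h₁), h₁.2.2.2⟩ ⟨Algebra.adjoin_le (a h₂), h₂.2.2.2⟩
    (LA.db_adjoin (a h₁) (a h₂) ?_)
  rintro z (rfl | hz)
  · exact he
  · rw [h₁.2.1 z hz, h₂.2.1 z hz]

theorem exists_la_reindex [Fintype ι] {κ : Type} [Fintype κ] (t : ι → Ω) (e : κ ≃ ι)
    (y : Zt (t ∘ e)) : ∃ y' : Zt t, la (t ∘ e) y = la t y' := by
  obtain ⟨j, hj⟩ := db_exists_rep y.1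
  have hv0 : y.1.rep ∘ e.symm ≠ 0 := fun h => hj (by simpa using congrFun h (e j))
  obtain ⟨c, hc, hr⟩ := db_rep_mk ⟨_, hv0⟩
  have hy : PSp.mk ⟨_, hv0⟩ ∈ Zt t := by
    rintro P ⟨⟨d, hP⟩, h0⟩
    have a1 := y.2 (rename e.symm P) ⟨⟨d, hP.rename_isHomogeneous⟩, by
      rw [aeval_rename, ← h0]
      congr 2
      funext i
      simp⟩
    rw [eval_rename] at a1
    rw [hr, db_scale_eval hP, a1, mul_zero]
  have hj' : (PSp.mk ⟨_, hv0⟩).rep (e j) ≠ 0 := by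
    rw [hr]
    simpa [hc] using hj
  have hA : chA t (e j) = chA (t ∘ e) j := by
    unfold chA
    congr 1
    exact (e.surjective.range_comp fun i => t i / t (e j)).symm
  have h1 := locOf_chA y hj
  have h2 := locOf_chA ⟨_, hy⟩ hj'
  rw [hA] at h2
  refine ⟨⟨_, hy⟩, LA.eq_of_locOf h1 h2 (LA.db_adjoin (fun z hz => h1.1 (Algebra.subset_adjoin hz))
    (fun z hz => h2.1 (Algebra.subset_adjoin hz)) ?_)⟩
  rintro _ ⟨i, rfl⟩
  refine (ratio_mem y hj i).2.trans (Eq.trans ?_ (ratio_mem ⟨_, hy⟩ hj' (e i)).2.symm)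
  simp only [hr, Function.comp, Equiv.symm_apply_apply]
  field_simp

/-- a projective model of `M` all of whose points are good -/
def Dat.Good (D : Dat Ω) (M : IntermediateField ℂ Ω) (t : ι → Ω) : Prop :=
  (∃ i, t i ≠ 0) ∧ ∀ y : Zt t, D.GoodPt M (la t y)

end Vale.Agent.P300
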