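import Vale.Agent.P300.DUfd

/-! P300: the blow-up of a point of a projective model. -/

noncomputable section

namespace Vale.Agent.P300

variable {Ω : Type} [Field Ω] [Algebra ℂ Ω] {ι : Type} [Fintype ι]

theorem dblow_le {L L' : LA Ω} {R : Subalgebra ℂ Ω} (h : L.LocOf R) (h' : R ≤ L'.O)
    (he : ∀ z ∈ R, L.ev z = L'.ev z) {z : Ω} (hz : z ∈ L.O) : z ∈ L'.O ∧ L'.ev z = L.ev z := by
  obtain ⟨r, hr, s, hs, h1, h2⟩ := h.2 z hz
  have hu : L'.Un s := ⟨h' hs, he s hs ▸ h1⟩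
  have a1 : z ∈ L'.O := by
    rw [(eq_mul_inv_iff_mul_eq₀ hu.ne_zero).2 h2]
    exact L'.O.mul_mem (h' hr) hu.inv.1.1
  refine ⟨a1, (mul_right_cancel₀ h1 ?_).symm⟩
  rw [← L.ev_mul z hz s (h.1 hs), he s hs, ← L'.ev_mul z a1 s hu.1, h2, he r hr]

/-- the centred generators generate the maximal ideal -/
theorem dblow_gen {L : LA Ω} {S : Set Ω} (h : L.LocOf (Algebra.adjoin ℂ S)) {O : Subalgebra ℂ Ω}
    (hO : L.O ≤ O) (w : Ω) (hw : ∀ z ∈ S, ∃ a ∈ O, L.ctr z = a * w) {z : Ω} (hz : L.Mx z) :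
    ∃ a ∈ O, z = a * w := by
  have key : ∀ r ∈ Algebra.adjoin ℂ S, ∃ a ∈ O, L.ctr r = a * w := by
    intro r hr
    induction hr using Algebra.adjoin_induction with
    | mem x hx => exact hw x hx
    | algebraMap c => exact ⟨0, O.zero_mem, by rw [LA.ctr, L.ev_alg, sub_self, zero_mul]⟩
    | add x y hx hy ex ey =>
      obtain ⟨a, ha, e⟩ := ex
      obtain ⟨b, hb, e'⟩ := ey
      refine ⟨a + b, O.add_mem ha hb, ?_⟩
      rw [add_mul, ← e, ← e', LA.ctr, LA.ctr, LA.ctr, L.ev_add _ (h.1 hx) _ (h.1 hy), map_add]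
      ring
    | mul x y hx hy ex ey =>
      obtain ⟨a, ha, e⟩ := ex
      obtain ⟨b, hb, e'⟩ := ey
      refine ⟨a * y + algebraMap ℂ Ω (L.ev x) * b, O.add_mem (O.mul_mem ha (hO (h.1 hy)))
        (O.mul_mem (O.algebraMap_mem _) hb), ?_⟩
      rw [LA.ctr] at e e' ⊢
      rw [L.ev_mul _ (h.1 hx) _ (h.1 hy), map_mul]
      linear_combination y * e + algebraMap ℂ Ω (L.ev x) * e'
  obtain ⟨r, hr, s, hs, h1, h2⟩ := h.2 z hz.1
  obtain ⟨a, ha, e⟩ := key r hr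
  have hu : L.Un s := ⟨h.1 hs, h1⟩
  rw [LA.ctr, ← h2, L.ev_mul z hz.1 s hu.1, hz.2, zero_mul, map_zero, sub_zero] at e
  refine ⟨a * s⁻¹, O.mul_mem ha (hO hu.inv.1.1), ?_⟩
  rw [mul_right_comm, ← e, mul_inv_cancel_right₀ hu.ne_zero]

/-- fractions of elements of `R` with invertible denominator -/
def dblowLoc (L : LA Ω) (R : Subalgebra ℂ Ω) (h : R ≤ L.O) : Subalgebra ℂ Ω where
  carrier := {z | ∃ r ∈ R, ∃ s ∈ R, L.ev s ≠ 0 ∧ z * s = r}
  mul_mem' := by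
    rintro x y ⟨r, hr, s, hs, h1, h2⟩ ⟨r', hr', s', hs', h1', h2'⟩
    exact ⟨r * r', R.mul_mem hr hr', s * s', R.mul_mem hs hs',
      (LA.Un.mul ⟨h hs, h1⟩ ⟨h hs', h1'⟩).2, by rw [← h2, ← h2']; ring⟩
  add_mem' := by
    rintro x y ⟨r, hr, s, hs, h1, h2⟩ ⟨r', hr', s', hs', h1', h2'⟩
    exact ⟨r * s' + s * r', R.add_mem (R.mul_mem hr hs') (R.mul_mem hs hr'), s * s',
      R.mul_mem hs hs', (LA.Un.mul ⟨h hs, h1⟩ ⟨h hs', h1'⟩).2, by rw [← h2, ← h2']; ring⟩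
  algebraMap_mem' c := ⟨_, R.algebraMap_mem c, 1, R.one_mem, by
    rw [LA.ev_one]
    exact one_ne_zero, mul_one _⟩

theorem dblow_ext {L L' : LA Ω} {T : Subalgebra ℂ Ω} (hT : L'.LocOf T) (hO : L.O ≤ L'.O)
    (he : ∀ z ∈ L.O, L'.ev z = L.ev z) {u v w α β : Ω} (hw : w ≠ 0) (hα : L'.Un α)
    (hβ : β ∈ L'.O) (hu : u = α * w) (hv : v = β * w)
    (hg : ∀ z, L.Mx z → ∃ A ∈ L.O, ∃ B ∈ L.O, z = A * u + B * v) (hm : L.Mx w)
    (hle : ∀ R : Subalgebra ℂ Ω, L.O ≤ R → (∀ z, L.Mx z → z / w ∈ R) → T ≤ R) :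
    L.Ext L' (v / u) ∧ L'.ev (v / u) = L'.ev β * (L'.ev α)⁻¹ := by
  have h0 := hα.ne_zero
  have e : v / u = β * α⁻¹ := by
    rw [hu, hv]
    field_simp
  have h1 : v / u ∈ L'.O := e ▸ L'.O.mul_mem hβ hα.inv.1.1
  refine ⟨⟨hO, he, h1, fun z hz => ?_⟩, by rw [e, L'.ev_mul _ hβ _ hα.inv.1.1, hα.inv.2]⟩
  set R := Algebra.adjoin ℂ (insert (v / u) (L.O : Set Ω))
  have hR : R ≤ L'.O := Algebra.adjoin_le (Set.insert_subset h1 hO)
  have hLR : L.O ≤ R := fun x hx => Algebra.subset_adjoin (Set.mem_insert_of_mem _ hx)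
  have hdiv : ∀ x, L.Mx x → x / u ∈ R := fun x hx => by
    obtain ⟨A, hA, B, hB, rfl⟩ := hg x hx
    rw [add_div, mul_div_assoc, mul_div_assoc, div_self (hu ▸ mul_ne_zero h0 hw), mul_one]
    exact R.add_mem (hLR hA) (R.mul_mem (hLR hB) (Algebra.subset_adjoin (Set.mem_insert _ _)))
  have hT' : T ≤ dblowLoc L' R hR := by
    refine hle _ (fun x hx => ⟨x, hLR hx, 1, R.one_mem, ?_, mul_one x⟩) fun x hx =>
      ⟨_, hdiv x hx, _, hdiv w hm, ?_, ?_⟩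
    · rw [LA.ev_one]
      exact one_ne_zero
    · rw [hu, div_mul_cancel_right₀ hw]
      exact hα.inv.1.2
    · rw [div_mul_div_cancel₀ hw]
  obtain ⟨r, hr, q, hq, a1, a2⟩ := hT.2 z hz
  obtain ⟨b, hb, a, ha, b1, b2⟩ := hT' hr
  obtain ⟨b', hb', a', ha', c1, c2⟩ := hT' hq
  refine ⟨b * a', R.mul_mem hb ha', b' * a, R.mul_mem hb' ha, ?_, ?_⟩
  · rw [← c2]
    exact (LA.Un.mul (LA.Un.mul ⟨hT.1 hq, a1⟩ ⟨hR ha', c1⟩) ⟨hR ha, b1⟩).2
  · rw [← b2, ← c2, ← a2]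
    ring

theorem exists_blowup (t : ι → Ω) (y₀ : Zt t) {u v : Ω} (h : (la t y₀).Coord u v) :
    ∃ t' : ι × ι → Ω, (∃ i, t' i ≠ 0) ∧ ∀ y' : Zt t',
      (∃ y : Zt t, y ≠ y₀ ∧ la t' y' = la t y) ∨ (la t y₀).Ext (la t' y') (v / u) ∨
        ((la t y₀).Ext (la t' y') (u / v) ∧ (la t' y').ev (u / v) = 0) := by
  obtain ⟨j, hj⟩ := db_exists_rep y₀.1
  have htj := t_ne_of_rep y₀ hj
  let ell : ι → Ω := fun l => t l - algebraMap ℂ Ω (y₀.1.rep l / y₀.1.rep j) * t j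
  have hs : ∀ l, (la t y₀).ctr (t l / t j) = ell l / t j := fun l => by
    rw [LA.ctr, (ratio_mem y₀ hj l).2, sub_div, mul_div_cancel_right₀ _ htj]
  have hm : ∀ l, (la t y₀).Mx (ell l / t j) := fun l => hs l ▸ LA.mx_ctr (ratio_mem y₀ hj l).1
  refine ⟨fun p => t p.1 * ell p.2, ?_, fun y' => ?_⟩
  · by_contra hn
    push Not at hn
    obtain ⟨a, -, e⟩ := dblow_gen (locOf_chA y₀ hj) le_rfl 0 (by
      rintro _ ⟨l, rfl⟩
      refine ⟨0, zero_mem _, ?_⟩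
      rw [hs, (mul_eq_zero.1 (hn (j, l))).resolve_left htj, zero_div, zero_mul]) h.1.1
    exact LA.dufd_u0 h (Subtype.ext (e.trans (mul_zero a)))
  obtain ⟨⟨i, l⟩, hil⟩ := db_exists_rep y'.1
  obtain ⟨hti, hl⟩ := mul_ne_zero_iff.1 (t_ne_of_rep y' hil)
  have hT := locOf_chA y' hil
  set L' := la (fun p : ι × ι => t p.1 * ell p.2) y'
  have r1 : ∀ k, t k / t i ∈ L'.O := fun k => by
    have := (ratio_mem y' hil (k, l)).1
    rwa [mul_div_mul_right _ _ hl] at this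
  have r2 : ∀ k, ell k / ell l ∈ L'.O := fun k => by
    have := (ratio_mem y' hil (i, k)).1
    rwa [mul_div_mul_left _ _ hti] at this
  have hle : ∀ R : Subalgebra ℂ Ω, (∀ k, t k / t i ∈ R) → (∀ k, ell k / ell l ∈ R) →
      chA (fun p : ι × ι => t p.1 * ell p.2) (i, l) ≤ R := fun R a b => Algebra.adjoin_le (by
    rintro _ ⟨p, rfl⟩
    simpa only [div_mul_div_comm, SetLike.mem_coe] using R.mul_mem (a p.1) (b p.2))
  have hA : chA t i ≤ L'.O := Algebra.adjoin_le (by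
    rintro _ ⟨k, rfl⟩
    exact r1 k)
  obtain ⟨y, hy, hχ⟩ := pt_of_hom t hti (L'.evHom.comp (Subalgebra.inclusion hA))
  have hO := fun z (hz : z ∈ (la t y).O) =>
    dblow_le (locOf_chA y hy) hA (fun z hz => hχ ⟨z, hz⟩) hz
  by_cases e : y = y₀
  · subst e
    have hw : ell l / t j ≠ 0 := div_ne_zero hl htj
    have hq : ∀ k, ell k / t j / (ell l / t j) = ell k / ell l := fun k => by field_simp
    have hg : ∀ z, (la t y).Mx z → ∃ a ∈ L'.O, z = a * (ell l / t j) := fun z hz =>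
      dblow_gen (locOf_chA y hj) (fun z hz => (hO z hz).1) _ (by
        rintro _ ⟨k, rfl⟩
        exact ⟨_, r2 k, by rw [hs, ← hq, div_mul_cancel₀ _ hw]⟩) hz
    obtain ⟨α, hα, eu⟩ := hg u h.1.1
    obtain ⟨β, hβ, ev⟩ := hg v h.1.2.1
    have hle' : ∀ R : Subalgebra ℂ Ω, (la t y).O ≤ R →
        (∀ z, (la t y).Mx z → z / (ell l / t j) ∈ R) →
        chA (fun p : ι × ι => t p.1 * ell p.2) (i, l) ≤ R := fun R a b =>
      hle R (fun k => a (ratio_mem y hy k).1) fun k => hq k ▸ b _ (hm k)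
    by_cases h0 : L'.ev α = 0
    · obtain ⟨A, hA, B, hB, e⟩ := h.1.2.2 _ (hm l)
      have e1 : A * α + B * β = 1 := mul_right_cancel₀ hw (by
        rw [one_mul, add_mul, mul_assoc, mul_assoc, ← eu, ← ev, ← e])
      have e2 := congrArg L'.ev e1
      rw [L'.ev_add _ (L'.O.mul_mem (hO A hA).1 hα) _ (L'.O.mul_mem (hO B hB).1 hβ),
        L'.ev_mul _ (hO A hA).1 _ hα, L'.ev_mul _ (hO B hB).1 _ hβ, h0, LA.ev_one] at e2
      have h1 : L'.ev β ≠ 0 := fun h1 => by simp [h1] at e2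
      obtain ⟨a, b⟩ := dblow_ext hT (fun z hz => (hO z hz).1) (fun z hz => (hO z hz).2) hw
        ⟨hβ, h1⟩ hα ev eu (fun z hz => by
          obtain ⟨A, hA, B, hB, e⟩ := h.1.2.2 z hz
          exact ⟨B, hB, A, hA, e.trans (add_comm _ _)⟩) (hm l) hle'
      exact Or.inr (Or.inr ⟨a, by rw [b, h0, zero_mul]⟩)
    · exact Or.inr (Or.inl (dblow_ext hT (fun z hz => (hO z hz).1) (fun z hz => (hO z hz).2) hw
        ⟨hα, h0⟩ hβ eu ev h.1.2.2 (hm l) hle').1)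
  · have r3 : ∀ k, ell k / t i ∈ (la t y).O ∧ (la t y).ev (ell k / t i) =
        (y.1.rep k - y₀.1.rep k / y₀.1.rep j * y.1.rep j) / y.1.rep i := fun k => by
      have a := (la t y).O.mul_mem ((la t y).O.algebraMap_mem (y₀.1.rep k / y₀.1.rep j))
        (ratio_mem y hy j).1
      rw [sub_div, mul_div_assoc, LA.ev_sub (ratio_mem y hy k).1 a,
        (la t y).ev_mul _ ((la t y).O.algebraMap_mem _) _ (ratio_mem y hy j).1, LA.ev_alg,
        (ratio_mem y hy k).2, (ratio_mem y hy j).2, sub_div, mul_div_assoc]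
      exact ⟨(la t y).O.sub_mem (ratio_mem y hy k).1 a, rfl⟩
    obtain ⟨k, hk⟩ : ∃ k, (la t y).ev (ell k / t i) ≠ 0 := by
      by_contra hn
      push Not at hn
      have a : ∀ k, y.1.rep k = y₀.1.rep k / y₀.1.rep j * y.1.rep j := fun k =>
        sub_eq_zero.1 ((div_eq_zero_iff.1 ((r3 k).2.symm.trans (hn k))).resolve_right hy)
      refine e (Subtype.ext ?_)
      rw [← y.1.mk_rep, ← y₀.1.mk_rep, PSp.mk_eq_iff]
      refine ⟨y.1.rep j / y₀.1.rep j, div_ne_zero (fun b => hy ?_) hj, funext fun k => ?_⟩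
      · rw [a i, b, mul_zero]
      · simp only [Pi.smul_apply, smul_eq_mul]
        rw [a k]
        ring
    have hu : (la t y).Un (ell l / t i) := ⟨(r3 l).1, fun h0 => hk (by
      rw [← (hO _ (r3 k).1).2, ← div_mul_div_cancel₀ hl, L'.ev_mul _ (r2 k) _ (hO _ (r3 l).1).1,
        (hO _ (r3 l).1).2, h0, mul_zero])⟩
    have hc := hle (la t y).O (fun k => (ratio_mem y hy k).1) fun k => by
      have a := (la t y).O.mul_mem (r3 k).1 hu.inv.1.1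
      rwa [inv_div, div_mul_div_cancel₀ hti] at a
    refine Or.inl ⟨y, e, LA.eq_of_locOf (R := (la t y).O) ⟨fun z hz => (hO z hz).1, fun z hz => ?_⟩
      ⟨le_rfl, fun z hz => ⟨z, hz, 1, one_mem _, ?_, mul_one z⟩⟩ fun z hz => (hO z hz).2⟩
    · obtain ⟨r, hr, s, hs, a1, a2⟩ := hT.2 z hz
      exact ⟨r, hc hr, s, hc hs, a1, a2⟩
    · rw [LA.ev_one]
      exact one_ne_zero

end Vale.Agent.P300
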