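import Vale.Agent.P300.DUfd

/-! P300: local description of the blow-up of a point. -/

noncomputable section

namespace Vale.Agent.P300

variable {Ω : Type} [Field Ω] [Algebra ℂ Ω]

theorem dblowl_adj {L L' : LA Ω} {w : Ω} (h' : L.Ext L' w) :
    Algebra.adjoin ℂ (insert w (L.O : Set Ω)) ≤ L'.O :=
  Algebra.adjoin_le (Set.insert_subset h'.2.2.1 h'.1)

theorem dblowl_ctr {L L' : LA Ω} {u v : Ω} (h : L.Coord u v) (h' : L.Ext L' (v / u)) {z : Ω}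
    (hz : z ∈ L.O) : ∃ α ∈ L'.O, L'.ctr z = α * u := by
  obtain ⟨α, hα, β, hβ, e⟩ := h.1.2.2 _ (LA.mx_ctr hz)
  refine ⟨α + β * (v / u), add_mem (h'.1 hα) (mul_mem (h'.1 hβ) h'.2.2.1), ?_⟩
  have hu := h.ne_zero.1
  rw [LA.ctr, h'.2.1 z hz, ← LA.ctr, e]
  field_simp

theorem dblowl_gen {L L' : LA Ω} {u v : Ω} (h : L.Coord u v) (h' : L.Ext L' (v / u)) :
    L'.Gen u (L'.ctr (v / u)) := by
  have hA := dblowl_adj h'
  have key : ∀ r ∈ Algebra.adjoin ℂ (insert (v / u) (L.O : Set Ω)),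
      ∃ α ∈ L'.O, ∃ β ∈ L'.O, L'.ctr r = α * u + β * L'.ctr (v / u) := by
    intro r hr
    induction hr using Algebra.adjoin_induction with
    | mem x hx =>
      rcases hx with rfl | hx
      · exact ⟨0, zero_mem _, 1, one_mem _, by ring⟩
      · obtain ⟨α, hα, e⟩ := dblowl_ctr h h' hx
        exact ⟨α, hα, 0, zero_mem _, by rw [e]; ring⟩
    | algebraMap c => exact ⟨0, zero_mem _, 0, zero_mem _, by rw [LA.ctr, L'.ev_alg]; ring⟩
    | add x y hx hy ex ey =>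
      obtain ⟨α, hα, β, hβ, e⟩ := ex
      obtain ⟨α', hα', β', hβ', e'⟩ := ey
      refine ⟨α + α', add_mem hα hα', β + β', add_mem hβ hβ', ?_⟩
      rw [LA.ctr] at e e'
      rw [LA.ctr, L'.ev_add _ (hA hx) _ (hA hy), map_add]
      linear_combination e + e'
    | mul x y hx hy ex ey =>
      obtain ⟨α, hα, β, hβ, e⟩ := ex
      obtain ⟨α', hα', β', hβ', e'⟩ := ey
      have h1 := L'.O.algebraMap_mem (L'.ev x)
      refine ⟨α * y + algebraMap ℂ Ω (L'.ev x) * α', add_mem (mul_mem hα (hA hy)) (mul_mem h1 hα'),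
        β * y + algebraMap ℂ Ω (L'.ev x) * β', add_mem (mul_mem hβ (hA hy)) (mul_mem h1 hβ'), ?_⟩
      rw [LA.ctr] at e e'
      rw [LA.ctr, L'.ev_mul _ (hA hx) _ (hA hy), map_mul]
      linear_combination y * e + algebraMap ℂ Ω (L'.ev x) * e'
  refine ⟨⟨h'.1 h.1.1.1, (h'.2.1 u h.1.1.1).trans h.1.1.2⟩, LA.mx_ctr h'.2.2.1, fun z hz => ?_⟩
  obtain ⟨r, hr, s, hs, h1, h2⟩ := h'.2.2.2 z hz.1
  obtain ⟨α, hα, β, hβ, e⟩ := key r hr
  have h3 : L'.Un s := ⟨hA hs, h1⟩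
  have h4 : L'.ev r = 0 := by rw [← h2, L'.ev_mul _ hz.1 _ h3.1, hz.2, zero_mul]
  rw [LA.ctr, h4, map_zero, sub_zero] at e
  refine ⟨α * s⁻¹, mul_mem hα h3.inv.1.1, β * s⁻¹, mul_mem hβ h3.inv.1.1, ?_⟩
  have h5 := h3.ne_zero
  rw [← mul_left_inj' h5, h2, e]
  field_simp

section Rel

variable {L : LA Ω} {A : Type} [CommRing A] [IsDomain A] [Algebra ℂ A] (σ : L.O →ₐ[ℂ] A)

/-- the graph of the extension of `σ` to the localisation at its kernel -/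
def DBlowLRel (z : Ω) (f : A) : Prop :=
  ∃ a b : L.O, σ b ≠ 0 ∧ z * b = a ∧ f * σ b = σ a

variable {σ} {z z' : Ω} {f f' : A}

theorem DBlowLRel.unique (h : DBlowLRel σ z f) (h' : DBlowLRel σ z f') : f = f' := by
  obtain ⟨a, b, h1, h2, h3⟩ := h
  obtain ⟨a', b', h1', h2', h3'⟩ := h'
  have e : a * b' = a' * b := Subtype.ext (by
    change (a : Ω) * b' = a' * b
    rw [← h2, ← h2']
    ring)
  have e' := congrArg σ e
  rw [map_mul, map_mul, ← h3, ← h3'] at e'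
  refine mul_right_cancel₀ (mul_ne_zero h1 h1') ?_
  linear_combination e'

theorem DBlowLRel.of_mem (a : L.O) : DBlowLRel σ a (σ a) :=
  ⟨a, 1, by simp, by simp, by simp⟩

theorem DBlowLRel.alg (c : ℂ) : DBlowLRel σ (algebraMap ℂ Ω c) (algebraMap ℂ A c) := by
  have := DBlowLRel.of_mem (σ := σ) (algebraMap ℂ L.O c)
  rwa [σ.commutes] at this

theorem DBlowLRel.add (h : DBlowLRel σ z f) (h' : DBlowLRel σ z' f') :
    DBlowLRel σ (z + z') (f + f') := by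
  obtain ⟨a, b, h1, h2, h3⟩ := h
  obtain ⟨a', b', h1', h2', h3'⟩ := h'
  refine ⟨a * b' + a' * b, b * b', by rw [map_mul]; exact mul_ne_zero h1 h1', ?_, ?_⟩
  · change (z + z') * ((b : Ω) * b') = a * b' + a' * b
    rw [← h2, ← h2']
    ring
  · rw [map_add, map_mul, map_mul, map_mul, ← h3, ← h3']
    ring

theorem DBlowLRel.mul (h : DBlowLRel σ z f) (h' : DBlowLRel σ z' f') :
    DBlowLRel σ (z * z') (f * f') := by
  obtain ⟨a, b, h1, h2, h3⟩ := h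
  obtain ⟨a', b', h1', h2', h3'⟩ := h'
  refine ⟨a * a', b * b', by rw [map_mul]; exact mul_ne_zero h1 h1', ?_, ?_⟩
  · change (z * z') * ((b : Ω) * b') = a * a'
    rw [← h2, ← h2']
    ring
  · rw [map_mul, map_mul, ← h3, ← h3']
    ring

theorem DBlowLRel.div {r s : Ω} {g g' : A} (h : DBlowLRel σ r f) (h' : DBlowLRel σ s g)
    (hg : g * g' = 1) (hz : z * s = r) : DBlowLRel σ z (f * g') := by
  obtain ⟨a, b, h1, h2, h3⟩ := h
  obtain ⟨a', b', h1', h2', h3'⟩ := h'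
  refine ⟨a * b', a' * b, ?_, ?_, ?_⟩
  · rw [map_mul, ← h3']
    exact mul_ne_zero (mul_ne_zero (left_ne_zero_of_mul_eq_one hg) h1') h1
  · change z * ((a' : Ω) * b) = a * b'
    rw [← h2, ← h2', ← hz]
    ring
  · rw [map_mul, map_mul, ← h3, ← h3']
    linear_combination (f * σ b * σ b') * hg

theorem dblowl_extend {L' : LA Ω} (h : ∀ z ∈ L'.O, ∃ f, DBlowLRel σ z f) :
    ∃ τ : L'.O →ₐ[ℂ] A, ∀ z : L'.O, DBlowLRel σ z (τ z) := by
  choose F hF using h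
  exact ⟨{ toFun := fun z => F z z.2
           map_one' := (hF _ _).unique (by simpa using DBlowLRel.alg (σ := σ) 1)
           map_mul' := fun x y => (hF _ _).unique ((hF x x.2).mul (hF y y.2))
           map_zero' := (hF _ _).unique (by simpa using DBlowLRel.alg (σ := σ) 0)
           map_add' := fun x y => (hF _ _).unique ((hF x x.2).add (hF y y.2))
           commutes' := fun c => (hF _ _).unique (DBlowLRel.alg c) }, fun z => hF z z.2⟩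

end Rel

open MvPowerSeries in
theorem LA.Coord.blow {L L' : LA Ω} {u v : Ω} (h : L.Coord u v) (h' : L.Ext L' (v / u)) :
    L'.Coord u (L'.ctr (v / u)) := by
  have : IsDomain (MvPowerSeries (Fin 2) ℂ) := NoZeroDivisors.to_isDomain _
  obtain ⟨τ, hu, hv, -⟩ := LA.exists_tau h
  have hA := dblowl_adj h'
  obtain ⟨c, hc⟩ : ∃ c, c = L'.ev (v / u) := ⟨_, rfl⟩
  have hs : HasSubst (![X 0, X 0 * (X 1 + C c)] : Fin 2 → MvPowerSeries (Fin 2) ℂ) :=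
    hasSubst_of_constantCoeff_zero fun i => by fin_cases i <;> simp
  obtain ⟨σ, hσu, hσv⟩ : ∃ σ : L.O →ₐ[ℂ] MvPowerSeries (Fin 2) ℂ, σ ⟨u, h.1.1.1⟩ = X 0 ∧
      σ ⟨v, h.1.2.1.1⟩ = X 0 * (X 1 + C c) :=
    ⟨(substAlgHom hs).comp τ, by rw [AlgHom.comp_apply, hu, substAlgHom_X]; rfl,
      by rw [AlgHom.comp_apply, hv, substAlgHom_X]; rfl⟩
  have hX : (X 0 : MvPowerSeries (Fin 2) ℂ) ≠ 0 := fun e => by
    simpa using congrArg (coeff (Finsupp.single 0 1)) e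
  have hw : DBlowLRel σ (v / u) (X 1 + C c) :=
    ⟨⟨v, h.1.2.1.1⟩, ⟨u, h.1.1.1⟩, hσu ▸ hX, div_mul_cancel₀ _ h.ne_zero.1,
      by rw [hσu, hσv, mul_comm]⟩
  have key : ∀ r ∈ Algebra.adjoin ℂ (insert (v / u) (L.O : Set Ω)),
      ∃ f, DBlowLRel σ r f ∧ constantCoeff f = L'.ev r := by
    intro r hr
    induction hr using Algebra.adjoin_induction with
    | mem x hx =>
      rcases hx with rfl | hx
      · exact ⟨_, hw, by simp [hc]⟩
      · refine ⟨_, DBlowLRel.of_mem ⟨x, hx⟩, ?_⟩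
        obtain ⟨α, hα, β, hβ, e⟩ := h.1.2.2 _ (LA.mx_ctr hx)
        have e' : (⟨x, hx⟩ : L.O) = algebraMap ℂ L.O (L.ev x) +
            (⟨α, hα⟩ * ⟨u, h.1.1.1⟩ + ⟨β, hβ⟩ * ⟨v, h.1.2.1.1⟩) :=
          Subtype.ext (eq_add_of_sub_eq' e)
        rw [e', map_add σ, map_add σ, map_mul σ, map_mul σ, hσu, hσv, σ.commutes, h'.2.1 x hx]
        simp [MvPowerSeries.algebraMap_apply]
    | algebraMap a => exact ⟨_, DBlowLRel.alg a, by
        simp [L'.ev_alg, MvPowerSeries.algebraMap_apply]⟩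
    | add x y hx hy ex ey =>
      obtain ⟨f, h1, h2⟩ := ex
      obtain ⟨g, h3, h4⟩ := ey
      exact ⟨_, h1.add h3, by rw [map_add, h2, h4, L'.ev_add _ (hA hx) _ (hA hy)]⟩
    | mul x y hx hy ex ey =>
      obtain ⟨f, h1, h2⟩ := ex
      obtain ⟨g, h3, h4⟩ := ey
      exact ⟨_, h1.mul h3, by rw [map_mul, h2, h4, L'.ev_mul _ (hA hx) _ (hA hy)]⟩
  obtain ⟨τ', hτ⟩ := dblowl_extend (σ := σ) (L' := L') fun z hz => by
    obtain ⟨r, hr, s, hs, h1, h2⟩ := h'.2.2.2 z hz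
    obtain ⟨f, h3, -⟩ := key r hr
    obtain ⟨g, h4, h5⟩ := key s hs
    obtain ⟨g', h6⟩ := (isUnit_iff_constantCoeff.2 (h5 ▸ h1.isUnit)).exists_right_inv
    exact ⟨_, h3.div h4 h6 h2⟩
  refine LA.coord_of_tau (dblowl_gen h h') τ'
    ((hτ _).unique (hσu ▸ DBlowLRel.of_mem ⟨u, h.1.1.1⟩)) ((hτ _).unique ?_)
  have h1 := hw.add (DBlowLRel.alg (-c))
  rw [map_neg, map_neg, MvPowerSeries.algebraMap_apply, Algebra.algebraMap_self_apply,
    add_neg_cancel_right, ← sub_eq_add_neg, hc] at h1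
  exact h1

theorem LA.Frac.ext {L L' : LA Ω} {M : IntermediateField ℂ Ω} (h : L.Frac M) {w : Ω} (hw : w ∈ M)
    (h' : L.Ext L' w) : L'.Frac M := by
  have hA : Algebra.adjoin ℂ (insert w (L.O : Set Ω)) ≤ M.toSubalgebra :=
    Algebra.adjoin_le (Set.insert_subset hw h.1)
  refine ⟨fun z hz => ?_, fun z hz => ?_⟩
  · obtain ⟨r, hr, s, hs, h1, h2⟩ := h'.2.2.2 z hz
    rw [eq_div_of_mul_eq (LA.Un.ne_zero ⟨dblowl_adj h' hs, h1⟩) h2]
    exact div_mem (hA hr : r ∈ M) (hA hs : s ∈ M)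
  · obtain ⟨r, hr, s, hs, h1⟩ := h.2 z hz
    exact ⟨r, h'.1 hr, s, h'.1 hs, h1⟩

theorem dblowl_zpow {L : LA Ω} {w : Ω} (hw : L.Un w) (m : ℤ) :
    ∃ q ∈ L.O, L.ctr (w ^ m) = q * L.ctr w ∧ L.ev q * L.ev w = m * L.ev w ^ m := by
  have h0 := hw.ne_zero
  have hc := hw.2
  have hc' : algebraMap ℂ Ω (L.ev w) ≠ 0 := (map_ne_zero _).2 hc
  simp only [LA.ctr, (hw.zpow _).2, map_zpow₀]
  have hz : ∀ k : ℤ, algebraMap ℂ Ω (L.ev w) ^ k ∈ L.O ∧
      L.ev (algebraMap ℂ Ω (L.ev w) ^ k) = L.ev w ^ k := fun k => by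
    rw [← map_zpow₀, L.ev_alg]
    exact ⟨L.O.algebraMap_mem _, rfl⟩
  induction m using Int.induction_on with
  | zero => exact ⟨0, zero_mem _, by simp, by simp [LA.ev_zero]⟩
  | succ n ih =>
    obtain ⟨q, hq, e1, e2⟩ := ih
    refine ⟨w * q + algebraMap ℂ Ω (L.ev w) ^ (n : ℤ), add_mem (mul_mem hw.1 hq) (hz _).1, ?_, ?_⟩
    · rw [zpow_add_one₀ h0, zpow_add_one₀ hc']
      linear_combination w * e1
    · rw [L.ev_add _ (mul_mem hw.1 hq) _ (hz _).1, L.ev_mul _ hw.1 _ hq, (hz _).2,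
        zpow_add_one₀ hc]
      push_cast at e2 ⊢
      linear_combination L.ev w * e2
  | pred n ih =>
    obtain ⟨q, hq, e1, e2⟩ := ih
    have h1 := sub_mem hq (hz (-(n : ℤ) - 1)).1
    refine ⟨w⁻¹ * (q - algebraMap ℂ Ω (L.ev w) ^ (-(n : ℤ) - 1)), mul_mem hw.inv.1.1 h1, ?_, ?_⟩
    · rw [zpow_sub_one₀ h0, zpow_sub_one₀ hc']
      field_simp
      linear_combination algebraMap ℂ Ω (L.ev w) * e1
    · rw [L.ev_mul _ hw.inv.1.1 _ h1, LA.ev_sub hq (hz _).1, (hz _).2, hw.inv.2,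
        zpow_sub_one₀ hc]
      push_cast at e2 ⊢
      field_simp
      linear_combination e2

/-- blowing up a crossing point keeps the invariant -/
theorem Dat.goodPt_blow (D : Dat Ω) {M : IntermediateField ℂ Ω} {L L' : LA Ω}
    [IsNoetherianRing L.O] [IsNoetherianRing L'.O] {u v : Ω} {e : D.Ix → ℤ × ℤ} (hF : L.Frac M)
    (hc : L.Coord u v) (hm : ∀ φ, L.Mon u v (D.phi φ) (e φ))
    (h2 : ∃ φ φ', (e φ).1 * (e φ').2 - (e φ).2 * (e φ').1 ≠ 0) (h' : L.Ext L' (v / u)) :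
    L'.Frac M ∧ ¬ D.IsU L' ∧
      D.InvAt L' u (L'.ctr (v / u))
        (fun φ => ((e φ).1 + (e φ).2, if L'.ev (v / u) = 0 then (e φ).2 else 0)) := by
  classical
  have hb := hc.blow h'
  have hu := hc.ne_zero.1
  have hv := hc.ne_zero.2
  have hw : v / u ≠ 0 := div_ne_zero hv hu
  have hU : ∀ {ε}, L.Un ε → L'.Un ε := fun {ε} hε => ⟨h'.1 hε.1, h'.2.1 ε hε.1 ▸ hε.2⟩
  choose ε hε he using hm
  have he' : ∀ φ, D.phi φ = ε φ * u ^ ((e φ).1 + (e φ).2) * (v / u) ^ (e φ).2 := fun φ => by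
    have := zpow_ne_zero (e φ).2 hu
    rw [he φ, zpow_add₀ hu, div_zpow]
    field_simp
  have hM : ∀ φ, L'.Mon u (L'.ctr (v / u)) (D.phi φ)
      ((e φ).1 + (e φ).2, if L'.ev (v / u) = 0 then (e φ).2 else 0) := fun φ => by
    by_cases h0 : L'.ev (v / u) = 0
    · refine ⟨ε φ, hU (hε φ), ?_⟩
      rw [if_pos h0, LA.ctr, h0, map_zero, sub_zero, he']
    · refine ⟨ε φ * (v / u) ^ (e φ).2, (hU (hε φ)).mul (LA.Un.zpow ⟨h'.2.2.1, h0⟩ _).1, ?_⟩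
      rw [if_neg h0, he', zpow_zero]
      ring
  obtain ⟨φ, φ', hd⟩ := h2
  have hne : ∃ ψ, (e ψ).1 + (e ψ).2 ≠ 0 := by
    by_contra hn
    push Not at hn
    exact hd (by linear_combination (e φ').2 * hn φ - (e φ).2 * hn φ')
  refine ⟨hF.ext (div_mem (hF.1 v hc.1.2.1.1) (hF.1 u hc.1.1.1)) h', fun hI => ?_, hb, hM, ?_⟩
  · obtain ⟨ψ, hψ⟩ := hne
    exact hψ (congrArg Prod.fst ((hb.mon_mem (hM ψ)).2.1 (hI ψ)))
  by_cases h0 : L'.ev (v / u) = 0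
  · refine Or.inr (Or.inr ⟨φ, φ', fun hz => hd ?_⟩)
    simp only [if_pos h0] at hz
    linear_combination hz
  have hwU : L'.Un (v / u) := ⟨h'.2.2.1, h0⟩
  have hp : ∀ ψ, D.phi ψ ≠ 0 := fun ψ => by
    rw [he ψ]
    exact mul_ne_zero (mul_ne_zero (hε ψ).ne_zero (zpow_ne_zero _ hu)) (zpow_ne_zero _ hv)
  have hs : ∀ (ψ : D.Ix) (k : ℤ), D.mono (Pi.single ψ k) = D.phi ψ ^ k := fun ψ k => by
    rw [Dat.mono, Fintype.prod_eq_single ψ fun χ hχ => by rw [Pi.single_eq_of_ne hχ, zpow_zero],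
      Pi.single_eq_same]
  obtain ⟨η, hη⟩ : ∃ η, η = ε φ ^ ((e φ').1 + (e φ').2) * ε φ' ^ (-((e φ).1 + (e φ).2)) := ⟨_, rfl⟩
  have hηU : L.Un η := hη ▸ ((hε φ).zpow _).1.mul ((hε φ').zpow _).1
  obtain ⟨m, hm⟩ : ∃ m, m = (e φ).2 * ((e φ').1 + (e φ').2) + (e φ').2 * -((e φ).1 + (e φ).2) :=
    ⟨_, rfl⟩
  have hm0 : m ≠ 0 := fun hz => hd (by linear_combination hm - hz)
  have hk : D.mono (Pi.single φ ((e φ').1 + (e φ').2) + Pi.single φ' (-((e φ).1 + (e φ).2))) =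
      η * (v / u) ^ m := by
    have h1 : ∀ k k' : D.Ix → ℤ, D.mono (k + k') = D.mono k * D.mono k' := fun k k' => by
      simp only [Dat.mono, Pi.add_apply, zpow_add₀ (hp _), Finset.prod_mul_distrib]
    have h3 : u ^ (((e φ).1 + (e φ).2) * ((e φ').1 + (e φ').2)) *
        u ^ (((e φ').1 + (e φ').2) * -((e φ).1 + (e φ).2)) = 1 := by
      rw [← zpow_add₀ hu]
      exact (congrArg (u ^ ·) (by ring)).trans (zpow_zero u)
    rw [h1, hs, hs, he' φ, he' φ', hη, hm, zpow_add₀ hw]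
    simp only [mul_zpow, ← zpow_mul]
    linear_combination (ε φ ^ ((e φ').1 + (e φ').2) * ε φ' ^ (-((e φ).1 + (e φ).2)) *
      ((v / u) ^ ((e φ).2 * ((e φ').1 + (e φ').2)) *
        (v / u) ^ ((e φ').2 * -((e φ).1 + (e φ).2)))) * h3
  have hkU : L'.Un (η * (v / u) ^ m) := (hU hηU).mul (hwU.zpow m).1
  refine Or.inr (Or.inl ⟨fun ψ => if_neg h0, hne, _, hk ▸ hkU, ?_⟩)
  obtain ⟨q, hq, e1, e2⟩ := dblowl_zpow hwU m
  obtain ⟨α, hα, e3⟩ := dblowl_ctr hc h' hηU.1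
  have ha := L'.O.algebraMap_mem (L'.ev η)
  rw [hk]
  refine hb.change (LA.gen_of_mod_sq hb.1 hb.1.1 (LA.mx_ctr hkU.1) (one_mem _) (zero_mem _)
    (mul_mem hα (hwU.zpow m).1.1) (mul_mem ha hq) (by ring) ?_ ?_)
  · rw [LA.ctr] at e1 e3
    rw [LA.ctr, L'.ev_mul _ (hU hηU).1 _ (hwU.zpow m).1.1, map_mul]
    linear_combination (v / u) ^ m * e3 + algebraMap ℂ Ω (L'.ev η) * e1
  · rw [LA.ev_one, LA.ev_zero, zero_mul, sub_zero, one_mul, L'.ev_mul _ ha _ hq, L'.ev_alg]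
    refine mul_ne_zero (hU hηU).2 fun hz => ?_
    rw [hz, zero_mul] at e2
    exact mul_ne_zero (Int.cast_ne_zero.2 hm0) (zpow_ne_zero m h0) e2.symm

end Vale.Agent.P300
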