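import Vale.Agent.P300.DBasic

/-! P300: the classical topology of a projective model. -/

noncomputable section

namespace Vale.Agent.P300

open Topology Filter

variable {Ω : Type} [Field Ω] [Algebra ℂ Ω] {ι : Type} [Fintype ι]

theorem PSp.continuous_mk : Continuous (PSp.mk : {v : ι → ℂ // v ≠ 0} → PSp ι) := by
  exact continuous_coinduced_rng

theorem PSp.isOpenQuotientMap_mk : IsOpenQuotientMap (PSp.mk : {v : ι → ℂ // v ≠ 0} → PSp ι) := by
  refine ⟨fun p => ⟨_, p.mk_rep⟩, PSp.continuous_mk, fun U hU => ?_⟩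
  refine isOpen_coinduced.2 (isOpen_iff_mem_nhds.2 ?_)
  rintro v ⟨w, hw, e⟩
  obtain ⟨c, hc, e1⟩ := (PSp.mk_eq_iff _ _).1 e
  have h1 : Continuous fun u : {v : ι → ℂ // v ≠ 0} =>
      (⟨c • u.1, smul_ne_zero hc u.2⟩ : {v : ι → ℂ // v ≠ 0}) :=
    (continuous_subtype_val.const_smul c).subtype_mk _
  have h2 : (⟨c • v.1, smul_ne_zero hc v.2⟩ : {v : ι → ℂ // v ≠ 0}) ∈ U := by
    rwa [show (⟨c • v.1, smul_ne_zero hc v.2⟩ : {v : ι → ℂ // v ≠ 0}) = w from
      Subtype.ext e1.symm]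
  filter_upwards [(hU.preimage h1).mem_nhds h2] with u hu
  exact ⟨_, hu, (PSp.mk_eq_iff _ _).2 ⟨c, hc, rfl⟩⟩

omit [Fintype ι] in
theorem dtop_open {Q : MvPolynomial ι ℂ} {d : ℕ} (hQ : Q.IsHomogeneous d) :
    IsOpen {p : PSp ι | MvPolynomial.eval p.rep Q ≠ 0} := by
  refine isOpen_coinduced.2 ?_
  have e : PSp.mk ⁻¹' {p : PSp ι | MvPolynomial.eval p.rep Q ≠ 0} =
      {v | MvPolynomial.eval v.1 Q ≠ 0} := by
    ext v
    obtain ⟨c, hc, e⟩ := db_rep_mk v
    simp [e, db_scale_eval hQ, hc]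
  rw [e]
  exact isOpen_ne_fun ((MvPolynomial.continuous_eval Q).comp continuous_subtype_val)
    continuous_const

theorem dtop_ratio {P Q : MvPolynomial ι ℂ} {d : ℕ} (hP : P.IsHomogeneous d)
    (hQ : Q.IsHomogeneous d) {p : PSp ι} (hp : MvPolynomial.eval p.rep Q ≠ 0) :
    ContinuousAt (fun p : PSp ι => MvPolynomial.eval p.rep P / MvPolynomial.eval p.rep Q) p := by
  rw [← p.mk_rep, ← PSp.isOpenQuotientMap_mk.continuousAt_comp_iff]
  have e : (fun p : PSp ι => MvPolynomial.eval p.rep P / MvPolynomial.eval p.rep Q) ∘ PSp.mk =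
      fun v => MvPolynomial.eval v.1 P / MvPolynomial.eval v.1 Q := by
    funext v
    obtain ⟨c, hc, e⟩ := db_rep_mk v
    rw [Function.comp_apply, e, db_scale_eval hP, db_scale_eval hQ,
      mul_div_mul_left _ _ (pow_ne_zero d hc)]
  rw [e]
  exact ((MvPolynomial.continuous_eval P).comp continuous_subtype_val).continuousAt.div
    ((MvPolynomial.continuous_eval Q).comp continuous_subtype_val).continuousAt hp

theorem dtop_loc {t : ι → Ω} {z : Ω} {y : Zt t} (hy : z ∈ (la t y).O) :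
    ∃ F : Zt t → ℂ, ContinuousAt F y ∧ ∀ᶠ y' in 𝓝 y, RegV t y'.1 z (F y') := by
  obtain ⟨c, d, P, Q, hP, hQ, h1, h2, -⟩ := hy
  refine ⟨fun y' => MvPolynomial.eval y'.1.rep P / MvPolynomial.eval y'.1.rep Q,
    (dtop_ratio hP hQ h1).comp continuous_subtype_val.continuousAt, ?_⟩
  filter_upwards [((dtop_open hQ).preimage continuous_subtype_val).mem_nhds h1] with y' hy'
  exact ⟨d, P, Q, hP, hQ, hy', h2, div_mul_cancel₀ _ hy'⟩

theorem PSp.t2 : T2Space (PSp ι) := by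
  rw [t2Space_iff_of_isOpenQuotientMap PSp.isOpenQuotientMap_mk]
  have e : {q : {v : ι → ℂ // v ≠ 0} × {v : ι → ℂ // v ≠ 0} | PSp.mk q.1 = PSp.mk q.2} =
      ⋂ i, ⋂ j, {q | q.1.1 i * q.2.1 j = q.1.1 j * q.2.1 i} := by
    ext ⟨v, w⟩
    simp only [Set.mem_ofPred_eq, Set.mem_iInter, PSp.mk_eq_iff]
    constructor
    · rintro ⟨c, -, e⟩ i j
      simp only [e, Pi.smul_apply, smul_eq_mul]
      ring
    · intro h
      obtain ⟨j, hj⟩ : ∃ j, w.1 j ≠ 0 := Function.ne_iff.1 w.2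
      have e : v.1 = (v.1 j / w.1 j) • w.1 := by
        funext i
        rw [Pi.smul_apply, smul_eq_mul, div_mul_eq_mul_div, eq_div_iff hj, h]
      exact ⟨_, fun h0 => v.2 (by rw [e, h0, zero_smul]), e⟩
  have hc : ∀ i, Continuous fun v : {v : ι → ℂ // v ≠ 0} => v.1 i := fun i =>
    (continuous_apply i).comp continuous_subtype_val
  rw [e]
  exact isClosed_iInter fun i => isClosed_iInter fun j => isClosed_eq
    (((hc i).comp continuous_fst).mul ((hc j).comp continuous_snd))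
    (((hc j).comp continuous_fst).mul ((hc i).comp continuous_snd))

theorem PSp.compact : CompactSpace (PSp ι) := by
  have h0 : ∀ v : Metric.sphere (0 : ι → ℂ) 1, v.1 ≠ 0 := fun v =>
    ne_zero_of_mem_unit_sphere v
  have h1 : Continuous fun v : Metric.sphere (0 : ι → ℂ) 1 => PSp.mk ⟨v.1, h0 v⟩ :=
    PSp.continuous_mk.comp (continuous_subtype_val.subtype_mk _)
  refine Function.Surjective.compactSpace h1 fun p => ?_
  have h2 : ‖p.rep‖ ≠ 0 := norm_ne_zero_iff.2 p.rep_ne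
  refine ⟨⟨((‖p.rep‖ : ℂ))⁻¹ • p.rep, by simp [norm_smul, h2]⟩, Eq.trans ?_ p.mk_rep⟩
  exact (PSp.mk_eq_iff _ _).2 ⟨_, inv_ne_zero (Complex.ofReal_ne_zero.2 h2), rfl⟩

theorem Zt.t2 (t : ι → Ω) : T2Space (Zt t) := by
  have : T2Space (PSp ι) := PSp.t2
  infer_instance

theorem Zt.compact (t : ι → Ω) : CompactSpace (Zt t) := by
  have : CompactSpace (PSp ι) := PSp.compact
  refine isCompact_iff_compactSpace.1 (IsClosed.isCompact ?_)
  rw [Zt, Set.ofPred_forall]
  refine isClosed_iInter fun P => ?_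
  rw [Set.ofPred_forall]
  refine isClosed_iInter fun ⟨⟨d, hP⟩, _⟩ => ?_
  simpa [Set.compl_ofPred] using (dtop_open hP).isClosed_compl

theorem isOpen_rep_ne (j : ι) : IsOpen {p : PSp ι | p.rep j ≠ 0} := by
  simpa using dtop_open (MvPolynomial.isHomogeneous_X ℂ j)

theorem continuousOn_ratio (i j : ι) :
    ContinuousOn (fun p : PSp ι => p.rep i / p.rep j) {p | p.rep j ≠ 0} := by
  intro p hp
  have h := dtop_ratio (MvPolynomial.isHomogeneous_X ℂ i) (MvPolynomial.isHomogeneous_X ℂ j)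
    (p := p) (by simpa using hp)
  simp only [MvPolynomial.eval_X] at h
  exact h.continuousWithinAt

theorem isOpen_reg (t : ι → Ω) (z : Ω) : IsOpen {y : Zt t | z ∈ (la t y).O} := by
  refine isOpen_iff_mem_nhds.2 fun y hy => ?_
  obtain ⟨F, -, h⟩ := dtop_loc (t := t) (z := z) (y := y) hy
  filter_upwards [h] with y' h'
  exact mem_la_iff.2 ⟨_, h'⟩

theorem continuousOn_ev (t : ι → Ω) (z : Ω) :
    ContinuousOn (fun y : Zt t => (la t y).ev z) {y | z ∈ (la t y).O} := by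
  intro y hy
  obtain ⟨F, h1, h⟩ := dtop_loc (t := t) (z := z) (y := y) hy
  refine (h1.congr ?_).continuousWithinAt
  filter_upwards [h] with y' h'
  exact (ev_of_regV h').symm

theorem isOpen_un (t : ι → Ω) (z : Ω) : IsOpen {y : Zt t | (la t y).Un z} := by
  exact (continuousOn_ev t z).isOpen_inter_preimage (isOpen_reg t z) isOpen_ne

/-- convergence in the model is tested on the affine coordinates -/
theorem tendsto_of_ratio (t : ι → Ω) {α : Type*} {l : Filter α} (f : α → Zt t) (y : Zt t) {j : ι}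
    (hj : y.1.rep j ≠ 0) (h1 : ∀ᶠ a in l, (f a).1.rep j ≠ 0)
    (h2 : ∀ i, Tendsto (fun a => (f a).1.rep i / (f a).1.rep j) l (𝓝 (y.1.rep i / y.1.rep j))) :
    Tendsto f l (𝓝 y) := by
  classical
  have hne : ∀ p : PSp ι, p.rep j ≠ 0 → (fun i => p.rep i / p.rep j) ≠ 0 := fun p hp h =>
    div_ne_zero hp hp (congrFun h j)
  have hmk : ∀ (p : PSp ι) (hp : p.rep j ≠ 0), PSp.mk ⟨_, hne p hp⟩ = p := fun p hp =>
    Eq.trans ((PSp.mk_eq_iff _ _).2 ⟨(p.rep j)⁻¹, inv_ne_zero hp, funext fun i =>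
      div_eq_inv_mul _ _⟩) p.mk_rep
  have h3 : Tendsto (fun a => if h : (f a).1.rep j ≠ 0 then
      (⟨_, hne _ h⟩ : {v : ι → ℂ // v ≠ 0}) else ⟨_, hne _ hj⟩) l (𝓝 ⟨_, hne _ hj⟩) := by
    refine tendsto_subtype_rng.2 ((tendsto_pi_nhds.2 h2).congr' ?_)
    filter_upwards [h1] with a ha
    rw [dif_pos ha]
  have h4 := (PSp.continuous_mk.tendsto _).comp h3
  rw [hmk _ hj] at h4
  refine tendsto_subtype_rng.2 (h4.congr' ?_)
  filter_upwards [h1] with a ha
  rw [Function.comp_apply, dif_pos ha, hmk _ ha]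

end Vale.Agent.P300
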