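import Vale.Agent.P300.DChartX2
import Vale.Agent.P300.DTop

/-! P300: the inverse function theorem for polynomial fractions, growth along lines. -/

noncomputable section

namespace Vale.Agent.P300

open MvPolynomial Topology Filter

variable {Ω : Type} [Field Ω] [Algebra ℂ Ω] {ι : Type} [Fintype ι]

theorem dc_fderiv (a : ι → ℂ) (P : MvPolynomial ι ℂ) : ∃ D : (ι → ℂ) →L[ℂ] ℂ,
    HasFDerivAt (fun w => eval w P) D a ∧ ∀ ξ, D ξ = dcg a P ⬝ᵥ ξ := by
  classical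
  induction P using MvPolynomial.induction_on with
  | C c => exact ⟨0, by simpa using hasFDerivAt_const c a, fun ξ => by simp [dcg_C]⟩
  | add P Q hP hQ =>
    obtain ⟨D, d1, d2⟩ := hP
    obtain ⟨E, e1, e2⟩ := hQ
    refine ⟨D + E, ?_, fun ξ => by simp [d2, e2]⟩
    simp only [map_add]
    exact d1.add e1
  | mul_X P k hP =>
    obtain ⟨D, d1, d2⟩ := hP
    refine ⟨eval a P • ContinuousLinearMap.proj k + a k • D, ?_, fun ξ => ?_⟩
    · simp only [map_mul, eval_X]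
      exact d1.mul (hasFDerivAt_apply k a)
    · simp [dcg_mul, dcg_X, d2]

theorem dc_ana (P : MvPolynomial ι ℂ) (a : ι → ℂ) : AnalyticAt ℂ (fun w => eval w P) a :=
  AnalyticOnNhd.eval_mvPolynomial P a (Set.mem_univ a)

variable {κ : Type} [Fintype κ]

/-- a vector of polynomial fractions -/
def dcF (F : κ → MvPolynomial ι ℂ) (G : MvPolynomial ι ℂ) (w : ι → ℂ) : κ → ℂ :=
  fun k => eval w (F k) / eval w G

theorem dcF_ana (F : κ → MvPolynomial ι ℂ) {G : MvPolynomial ι ℂ} {a : ι → ℂ}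
    (hG : eval a G ≠ 0) : AnalyticAt ℂ (dcF F G) a :=
  AnalyticAt.pi fun k => (dc_ana (F k) a).div (dc_ana G a) hG

theorem dcF_fderiv (F : κ → MvPolynomial ι ℂ) {G : MvPolynomial ι ℂ} {a : ι → ℂ}
    (hG : eval a G ≠ 0) (ξ : ι → ℂ) (k : κ) :
    eval a G * fderiv ℂ (dcF F G) a ξ k = dcg a (F k - C (dcF F G a k) * G) ⬝ᵥ ξ := by
  obtain ⟨D, d1, d2⟩ := dc_fderiv a (F k)
  obtain ⟨E, e1, e2⟩ := dc_fderiv a G
  have h1 := (hasFDerivAt_pi'.1 (dcF_ana F hG).differentiableAt.hasFDerivAt k).mul e1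
  have h2 : (fun w => eval w (F k)) =ᶠ[𝓝 a] (fun w => dcF F G w k) * fun w => eval w G := by
    filter_upwards [e1.continuousAt.eventually_ne hG] with w hw
    exact (div_mul_cancel₀ _ hw).symm
  have h3 := congrArg (fun A : (ι → ℂ) →L[ℂ] ℂ => A ξ) (d1.unique (h1.congr_of_eventuallyEq h2))
  rw [map_sub, ← smul_eq_C_mul, map_smul, sub_dotProduct, smul_dotProduct, ← d2, ← e2]
  simp only [ContinuousLinearMap.add_apply, ContinuousLinearMap.smul_apply, smul_eq_mul,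
    ContinuousLinearMap.comp_apply, ContinuousLinearMap.proj_apply] at h3 ⊢
  rw [h3]
  ring

theorem dc_ift (F : κ → MvPolynomial ι ℂ) {G : MvPolynomial ι ℂ} {a : ι → ℂ} (hG : eval a G ≠ 0)
    (h0 : ∀ k, eval a (F k) = 0) (h1 : LinearIndependent ℂ fun k => dcg a (F k))
    (h2 : ∀ ξ : ι → ℂ, (∀ k, dcg a (F k) ⬝ᵥ ξ = 0) → ξ = 0) :
    ∃ e : OpenPartialHomeomorph (ι → ℂ) (κ → ℂ), ⇑e = dcF F G ∧ a ∈ e.source ∧
      AnalyticAt ℂ e.symm (dcF F G a) := by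
  have hi : Function.Injective (fderiv ℂ (dcF F G) a : (ι → ℂ) →ₗ[ℂ] (κ → ℂ)) := by
    refine (injective_iff_map_eq_zero _).2 fun ξ hξ => h2 ξ fun k => ?_
    have h3 := dcF_fderiv F hG ξ k
    have h4 : fderiv ℂ (dcF F G) a ξ = 0 := hξ
    rw [h4, dcF, h0] at h3
    simpa using h3.symm
  have hd : Module.finrank ℂ (ι → ℂ) = Module.finrank ℂ (κ → ℂ) := by
    refine (LinearMap.finrank_le_finrank_of_injective hi).antisymm ?_
    rw [Module.finrank_fintype_fun_eq_card]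
    exact h1.fintype_card_le_finrank
  have hc : ContDiffAt ℂ ⊤ (dcF F G) a := (dcF_ana F hG).contDiffAt
  have hD : HasFDerivAt (dcF F G)
      ((LinearMap.linearEquivOfInjective _ hi hd).toContinuousLinearEquiv :
        (ι → ℂ) →L[ℂ] (κ → ℂ)) a :=
    (dcF_ana F hG).differentiableAt.hasFDerivAt.congr_fderiv (ContinuousLinearMap.ext fun _ => rfl)
  exact ⟨hc.toOpenPartialHomeomorph _ hD (by simp), rfl,
    hc.mem_toOpenPartialHomeomorph_source hD _, (hc.to_localInverse hD (by simp)).analyticAt⟩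

theorem dc_inj (F : κ → MvPolynomial ι ℂ) {G : MvPolynomial ι ℂ}
    (e : OpenPartialHomeomorph (ι → ℂ) (κ → ℂ)) (he : ⇑e = dcF F G) {w : ι → ℂ}
    (hw : w ∈ e.source) (hG : eval w G ≠ 0) (hs : AnalyticAt ℂ e.symm (dcF F G w)) (ξ : ι → ℂ)
    (h : ∀ k, dcg w (F k - C (dcF F G w k) * G) ⬝ᵥ ξ = 0) : ξ = 0 := by
  have h1 := hs.differentiableAt.hasFDerivAt.comp w (dcF_ana F hG).differentiableAt.hasFDerivAt
  have h2 : id =ᶠ[𝓝 w] e.symm ∘ dcF F G := by
    filter_upwards [e.eventually_left_inverse hw] with x hx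
    rw [← he]
    exact hx.symm
  have h3 := congrArg (fun A : (ι → ℂ) →L[ℂ] (ι → ℂ) => A ξ)
    ((hasFDerivAt_id w).unique (h1.congr_of_eventuallyEq h2))
  have h4 : fderiv ℂ (dcF F G) w ξ = 0 := _root_.funext fun k =>
    (mul_eq_zero.1 ((dcF_fderiv F hG ξ k).trans (h k))).resolve_left hG
  simpa [h4] using h3

theorem dc_ev_sum {L : LA Ω} (S : Finset ℕ) {z : ℕ → Ω} (hz : ∀ i ∈ S, z i ∈ L.O) :
    L.ev (∑ i ∈ S, z i) = ∑ i ∈ S, L.ev (z i) := by
  induction S using Finset.induction_on with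
  | empty => simpa using LA.ev_zero
  | insert i S hi ih =>
    have h : ∀ k ∈ S, z k ∈ L.O := fun k hk => hz k (Finset.mem_insert_of_mem hk)
    rw [Finset.sum_insert hi, Finset.sum_insert hi,
      L.ev_add _ (hz i (Finset.mem_insert_self _ _)) _ (L.O.sum_mem h), ih h]

theorem dc_ev_form {L : LA Ω} {n : ℕ} {c : ℕ → Ω} (hc : ∀ i ∈ Finset.range (n + 1), c i ∈ L.O)
    {p q : Ω} (hp : p ∈ L.O) (hq : q ∈ L.O) :
    L.ev (∑ i ∈ Finset.range (n + 1), c i * p ^ i * q ^ (n - i)) =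
      ∑ i ∈ Finset.range (n + 1), L.ev (c i) * L.ev p ^ i * L.ev q ^ (n - i) := by
  rw [dc_ev_sum _ fun i hi =>
    L.O.mul_mem (L.O.mul_mem (hc i hi) (L.O.pow_mem hp _)) (L.O.pow_mem hq _)]
  refine Finset.sum_congr rfl fun i hi => ?_
  rw [L.ev_mul _ (L.O.mul_mem (hc i hi) (L.O.pow_mem hp _)) _ (L.O.pow_mem hq _),
    L.ev_mul _ (hc i hi) _ (L.O.pow_mem hp _), LA.ev_pow hp, LA.ev_pow hq]

theorem dc_line (t : ι → Ω) (σ : ℂ × ℂ → Zt t) (η₀ : ℂ × ℂ) (hσ : ContinuousAt σ η₀) {u v : Ω}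
    (huv : ∀ᶠ η in 𝓝 η₀, u ∈ (la t (σ η)).O ∧ v ∈ (la t (σ η)).O ∧
      (la t (σ η)).ev u = η.1 ∧ (la t (σ η)).ev v = η.2)
    (n : ℕ) (c : ℕ → Ω) (hc : ∀ i, c i ∈ (la t (σ η₀)).O)
    (h0 : ∀ᶠ η in 𝓝 η₀, (la t (σ η)).ev (∑ i ∈ Finset.range (n + 1),
      c i * (u - algebraMap ℂ Ω η₀.1) ^ i * (v - algebraMap ℂ Ω η₀.2) ^ (n - i)) = 0) :
    ∀ i ≤ n, (la t (σ η₀)).ev (c i) = 0 := by
  have h1 : ∀ x : ℂ, ∑ i ∈ Finset.range (n + 1), (la t (σ η₀)).ev (c i) * x ^ i = 0 := by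
    intro x
    have hγ : Tendsto (fun τ : ℂ => η₀ + (τ * x, τ)) (𝓝 0) (𝓝 η₀) := by
      have : Continuous fun τ : ℂ => η₀ + (τ * x, τ) := by fun_prop
      exact this.tendsto' 0 _ (by ext <;> simp)
    have a1 : Tendsto (fun τ : ℂ => ∑ i ∈ Finset.range (n + 1),
        (la t (σ (η₀ + (τ * x, τ)))).ev (c i) * x ^ i) (𝓝 0)
        (𝓝 (∑ i ∈ Finset.range (n + 1), (la t (σ η₀)).ev (c i) * x ^ i)) :=
      tendsto_finsetSum _ fun i _ => Tendsto.mul_const _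
        ((((continuousOn_ev t (c i)).continuousAt
          ((isOpen_reg t (c i)).mem_nhds (hc i))).tendsto.comp hσ).comp hγ)
    have a2 : ∀ᶠ η in 𝓝 η₀, ∀ i ∈ Finset.range (n + 1), c i ∈ (la t (σ η)).O :=
      (eventually_all_finset _).2 fun i _ => hσ ((isOpen_reg t (c i)).mem_nhds (hc i))
    refine tendsto_nhds_unique (l := 𝓝[≠] (0 : ℂ)) (a1.mono_left nhdsWithin_le_nhds)
      (tendsto_const_nhds.congr' ?_)
    filter_upwards [nhdsWithin_le_nhds (hγ.eventually (huv.and (a2.and h0))),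
      self_mem_nhdsWithin] with τ ⟨⟨b1, b2, b3, b4⟩, b5, b6⟩ hτ
    rw [dc_ev_form b5 (Subalgebra.sub_mem _ b1 (Subalgebra.algebraMap_mem _ _))
      (Subalgebra.sub_mem _ b2 (Subalgebra.algebraMap_mem _ _)),
      LA.ev_sub b1 (Subalgebra.algebraMap_mem _ _), LA.ev_sub b2 (Subalgebra.algebraMap_mem _ _),
      b3, b4, LA.ev_alg, LA.ev_alg] at b6
    refine (mul_left_cancel₀ (pow_ne_zero n hτ) ?_).symm
    rw [mul_zero, ← b6, Finset.mul_sum]
    refine Finset.sum_congr rfl fun i hi => ?_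
    rw [← pow_mul_pow_sub τ (Nat.lt_succ_iff.1 (Finset.mem_range.1 hi))]
    simp only [Prod.fst_add, Prod.snd_add, add_sub_cancel_left, mul_pow]
    ring
  intro i hi
  have h2 : (∑ i ∈ Finset.range (n + 1), Polynomial.monomial i ((la t (σ η₀)).ev (c i))) = 0 :=
    Polynomial.funext fun x => by
      rw [Polynomial.eval_finset_sum, Polynomial.eval_zero, ← h1 x]
      simp only [Polynomial.eval_monomial]
  have h3 := congrArg (fun p => Polynomial.coeff p i) h2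
  simp only [Polynomial.finset_sum_coeff, Polynomial.coeff_monomial, Finset.sum_ite_eq',
    Finset.mem_range, Polynomial.coeff_zero] at h3
  rwa [if_pos (by omega)] at h3

end Vale.Agent.P300
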