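import Mathlib

/-! P300: expansions with respect to two generators of a maximal ideal, abstract part. -/

noncomputable section

namespace Vale.Agent.P300

open MvPolynomial

section Ring

variable {A : Type} [CommRing A] (U V : A)

/-- sums of degree `n` monomials with coefficients in `J` -/
def dtauT (J : Ideal A) (n : ℕ) : Ideal A where
  carrier := {x | ∃ c : ℕ → A, (∀ i, c i ∈ J) ∧
    x = ∑ i ∈ Finset.range (n + 1), c i * U ^ i * V ^ (n - i)}
  add_mem' := by
    rintro _ _ ⟨c, hc, rfl⟩ ⟨c', hc', rfl⟩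
    refine ⟨fun i => c i + c' i, fun i => J.add_mem (hc i) (hc' i), ?_⟩
    rw [← Finset.sum_add_distrib]
    exact Finset.sum_congr rfl fun i _ => by ring
  zero_mem' := ⟨fun _ => 0, fun _ => J.zero_mem, by simp⟩
  smul_mem' := by
    rintro a _ ⟨c, hc, rfl⟩
    refine ⟨fun i => a * c i, fun i => J.mul_mem_left a (hc i), ?_⟩
    rw [smul_eq_mul, Finset.mul_sum]
    exact Finset.sum_congr rfl fun i _ => by ring

theorem dtau_mulU {J : Ideal A} {n : ℕ} {x : A} (hx : x ∈ dtauT U V J n) :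
    x * U ∈ dtauT U V J (n + 1) := by
  obtain ⟨c, hc, rfl⟩ := hx
  refine ⟨fun i => match i with
    | 0 => 0
    | i + 1 => c i, fun i => ?_, ?_⟩
  · cases i
    · exact J.zero_mem
    · exact hc _
  · rw [Finset.sum_range_succ' _ (n + 1), Finset.sum_mul]
    simp only [zero_mul, add_zero, Nat.add_sub_add_right]
    exact Finset.sum_congr rfl fun i _ => by ring

theorem dtau_mulV {J : Ideal A} {n : ℕ} {x : A} (hx : x ∈ dtauT U V J n) :
    x * V ∈ dtauT U V J (n + 1) := by
  obtain ⟨c, hc, rfl⟩ := hx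
  refine ⟨fun i => if i ≤ n then c i else 0, fun i => ?_, ?_⟩
  · dsimp only
    split_ifs
    · exact hc _
    · exact J.zero_mem
  · rw [Finset.sum_range_succ _ (n + 1), Finset.sum_mul]
    simp only [Nat.add_one_le_iff, lt_self_iff_false, if_false, zero_mul, add_zero]
    refine Finset.sum_congr rfl fun i hi => ?_
    have hi' : i ≤ n := Nat.lt_succ_iff.1 (Finset.mem_range.1 hi)
    rw [if_pos hi', show n + 1 - i = n - i + 1 by omega]
    ring

theorem dtau_le (J : Ideal A) (n : ℕ) : J * Ideal.span {U, V} ^ n ≤ dtauT U V J n := by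
  induction n with
  | zero =>
    intro x hx
    rw [pow_zero, mul_one] at hx
    exact ⟨fun _ => x, fun _ => hx, by simp⟩
  | succ n ih =>
    rw [pow_succ, ← mul_assoc, Ideal.mul_le]
    intro x hx z hz
    obtain ⟨α, β, rfl⟩ := Ideal.mem_span_pair.1 hz
    have e : x * (α * U + β * V) = α * (x * U) + β * (x * V) := by ring
    rw [e]
    exact Ideal.add_mem _ (Ideal.mul_mem_left _ _ (dtau_mulU U V (ih hx)))
      (Ideal.mul_mem_left _ _ (dtau_mulV U V (ih hx)))

theorem dtau_U : U ∈ Ideal.span {U, V} := Ideal.subset_span (by simp)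

theorem dtau_V : V ∈ Ideal.span {U, V} := Ideal.subset_span (by simp)

theorem dtau_mon (a b : ℕ) : U ^ a * V ^ b ∈ Ideal.span {U, V} ^ (a + b) := by
  rw [pow_add]
  exact Ideal.mul_mem_mul (Ideal.pow_mem_pow (dtau_U U V) a) (Ideal.pow_mem_pow (dtau_V U V) b)

theorem dtau_sum_mem (J : Ideal A) (n : ℕ) (c : ℕ → A) (hc : ∀ i, c i ∈ J) :
    ∑ i ∈ Finset.range (n + 1), c i * U ^ i * V ^ (n - i) ∈ J * Ideal.span {U, V} ^ n := by
  refine Ideal.sum_mem _ fun i hi => ?_
  have hi' : i ≤ n := Nat.lt_succ_iff.1 (Finset.mem_range.1 hi)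
  have := dtau_mon U V i (n - i)
  rw [show i + (n - i) = n by omega] at this
  rw [mul_assoc]
  exact Ideal.mul_mem_mul (hc i) this

/-- congruent elements of order `a` -/
def dtauR (m : Ideal A) (a : ℕ) (x y : A) : Prop := x ∈ m ^ a ∧ y ∈ m ^ a ∧ x - y ∈ m ^ (a + 1)

theorem dtauR.mul {m : Ideal A} {a b : ℕ} {x y x' y' : A} (h : dtauR m a x y)
    (h' : dtauR m b x' y') : dtauR m (a + b) (x * x') (y * y') := by
  refine ⟨?_, ?_, ?_⟩
  · rw [pow_add]; exact Ideal.mul_mem_mul h.1 h'.1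
  · rw [pow_add]; exact Ideal.mul_mem_mul h.2.1 h'.2.1
  · have e : x * x' - y * y' = (x - y) * x' + y * (x' - y') := by ring
    rw [e]
    refine Ideal.add_mem _ ?_ ?_
    · rw [show a + b + 1 = (a + 1) + b by ring, pow_add]
      exact Ideal.mul_mem_mul h.2.2 h'.1
    · rw [add_assoc, pow_add]
      exact Ideal.mul_mem_mul h.2.1 h'.2.2

theorem dtauR.pow {m : Ideal A} {x y : A} (h : dtauR m 1 x y) (k : ℕ) :
    dtauR m k (x ^ k) (y ^ k) := by
  induction k with
  | zero => exact ⟨by simp, by simp, by simp⟩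
  | succ k ih => rw [pow_succ, pow_succ]; exact ih.mul h

end Ring

/-- the exponent `(a, b)` -/
def dtauD (a b : ℕ) : Fin 2 →₀ ℕ := Finsupp.single 0 a + Finsupp.single 1 b

@[simp] theorem dtauD_zero (a b : ℕ) : dtauD a b 0 = a := by simp [dtauD]

@[simp] theorem dtauD_one (a b : ℕ) : dtauD a b 1 = b := by simp [dtauD]

theorem dtauD_eq (d : Fin 2 →₀ ℕ) : dtauD (d 0) (d 1) = d := by
  ext i
  fin_cases i <;> simp

theorem dtau_X_pow (e : ℂ) (a b : ℕ) :
    (C e * X 0 ^ a * X 1 ^ b : MvPolynomial (Fin 2) ℂ) = monomial (dtauD a b) e := by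
  rw [X_pow_eq_monomial, X_pow_eq_monomial, C_mul_monomial, monomial_mul, dtauD]
  simp

/-- homogeneous polynomial with given coefficients -/
def dtauH (n : ℕ) (e : ℕ → ℂ) : MvPolynomial (Fin 2) ℂ :=
  ∑ i ∈ Finset.range (n + 1), C (e i) * X 0 ^ i * X 1 ^ (n - i)

theorem dtau_coeffH (n : ℕ) (e : ℕ → ℂ) (d : Fin 2 →₀ ℕ) :
    coeff d (dtauH n e) = if d 0 + d 1 = n then e (d 0) else 0 := by
  classical
  simp only [dtauH, dtau_X_pow, coeff_sum, coeff_monomial]
  split_ifs with h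
  · rw [Finset.sum_eq_single (d 0)]
    · rw [if_pos]
      rw [show n - d 0 = d 1 by omega, dtauD_eq]
    · intro i _ hi
      rw [if_neg]
      rintro rfl
      simp at hi
    · intro hi
      exact absurd (Finset.mem_range.2 (by omega)) hi
  · refine Finset.sum_eq_zero fun i hi => ?_
    have hi' : i ≤ n := Nat.lt_succ_iff.1 (Finset.mem_range.1 hi)
    rw [if_neg]
    rintro rfl
    simp at h
    omega

theorem dtau_degH (n : ℕ) (e : ℕ → ℂ) : (dtauH n e).totalDegree ≤ n := by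
  rw [totalDegree, Finset.sup_le_iff]
  intro d hd
  rw [mem_support_iff, dtau_coeffH] at hd
  have h : d 0 + d 1 = n := by
    by_contra h
    exact hd (if_neg h)
  rw [Finsupp.sum_fintype _ _ (fun _ => rfl), Fin.sum_univ_two, h]

section Alg

variable {A : Type} [CommRing A] [Algebra ℂ A] (U V : A)

theorem dtau_aevalH (n : ℕ) (e : ℕ → ℂ) : aeval ![U, V] (dtauH n e) =
    ∑ i ∈ Finset.range (n + 1), algebraMap ℂ A (e i) * U ^ i * V ^ (n - i) := by
  simp [dtauH]

theorem dtau_aeval_mem (P : MvPolynomial (Fin 2) ℂ) (k : ℕ)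
    (h : ∀ d : Fin 2 →₀ ℕ, d 0 + d 1 < k → coeff d P = 0) :
    aeval ![U, V] P ∈ Ideal.span {U, V} ^ k := by
  rw [P.as_sum, map_sum]
  refine Ideal.sum_mem _ fun d hd => ?_
  have hk : k ≤ d 0 + d 1 := by
    by_contra hk
    exact mem_support_iff.1 hd (h d (by omega))
  have e : (monomial d (coeff d P) : MvPolynomial (Fin 2) ℂ) =
      C (coeff d P) * X 0 ^ d 0 * X 1 ^ d 1 := by rw [dtau_X_pow, dtauD_eq]
  rw [e]
  simp only [map_mul, map_pow, aeval_X, Matrix.cons_val_zero, Matrix.cons_val_one, mul_assoc]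
  exact Ideal.mul_mem_left _ _ (Ideal.pow_le_pow_right hk (dtau_mon U V _ _))

variable (χ : A →ₐ[ℂ] ℂ)

/-- abstract generation -/
def dtauG : Prop := χ U = 0 ∧ χ V = 0 ∧ ∀ z, χ z = 0 → z ∈ Ideal.span {U, V}

/-- abstract quasi-regularity -/
def dtauQ : Prop := ∀ (n : ℕ) (c : ℕ → A),
  ∑ i ∈ Finset.range (n + 1), c i * U ^ i * V ^ (n - i) = 0 → ∀ i ≤ n, χ (c i) = 0

variable {U V χ}

theorem dtauG.ev (h : dtauG U V χ) {z : A} (hz : z ∈ Ideal.span {U, V}) : χ z = 0 := by
  obtain ⟨α, β, rfl⟩ := Ideal.mem_span_pair.1 hz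
  simp [h.1, h.2.1]

theorem dtauG.ctr (h : dtauG U V χ) (z : A) : z - algebraMap ℂ A (χ z) ∈ Ideal.span {U, V} :=
  h.2.2 _ (by simp)

theorem dtauG.expansion (h : dtauG U V χ) (z : A) (n : ℕ) : ∃ P : MvPolynomial (Fin 2) ℂ,
    (P.totalDegree < n ∨ P = 0) ∧ z - aeval ![U, V] P ∈ Ideal.span {U, V} ^ n := by
  induction n with
  | zero => exact ⟨0, Or.inr rfl, by simp⟩
  | succ n ih =>
    obtain ⟨P, hP, hz⟩ := ih
    obtain ⟨c, -, hc⟩ := dtau_le U V ⊤ n (by rwa [Ideal.top_mul])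
    refine ⟨P + dtauH n fun i => χ (c i), Or.inl ?_, ?_⟩
    · have h1 : P.totalDegree ≤ n := by
        rcases hP with hP | rfl
        · exact hP.le
        · simp
      exact Nat.lt_succ_of_le ((totalDegree_add _ _).trans (max_le h1 (dtau_degH _ _)))
    · rw [map_add, ← sub_sub, hc, dtau_aevalH, ← Finset.sum_sub_distrib, pow_succ']
      have := dtau_sum_mem U V _ n (fun i => c i - algebraMap ℂ A (χ (c i))) fun i => h.ctr _
      have e : ∑ i ∈ Finset.range (n + 1), (c i * U ^ i * V ^ (n - i) -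
          algebraMap ℂ A (χ (c i)) * U ^ i * V ^ (n - i)) = ∑ i ∈ Finset.range (n + 1),
          (c i - algebraMap ℂ A (χ (c i))) * U ^ i * V ^ (n - i) :=
        Finset.sum_congr rfl fun i _ => by ring
      rw [e]
      exact this

theorem dtau_hom (h : dtauG U V χ) (hq : dtauQ U V χ) (n : ℕ) (e : ℕ → ℂ)
    (he : aeval ![U, V] (dtauH n e) ∈ Ideal.span {U, V} ^ (n + 1)) : ∀ i ≤ n, e i = 0 := by
  rw [pow_succ'] at he
  obtain ⟨c, hc, hc'⟩ := dtau_le U V _ n he
  intro i hi
  have := hq n (fun i => algebraMap ℂ A (e i) - c i) (by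
    rw [dtau_aevalH] at hc'
    rw [← sub_eq_zero.2 hc', ← Finset.sum_sub_distrib]
    exact Finset.sum_congr rfl fun i _ => by ring) i hi
  simpa [h.ev (hc i)] using this

theorem dtau_low (h : dtauG U V χ) (hq : dtauQ U V χ) (P : MvPolynomial (Fin 2) ℂ) (n : ℕ)
    (hP : aeval ![U, V] P ∈ Ideal.span {U, V} ^ n) :
    ∀ d : Fin 2 →₀ ℕ, d 0 + d 1 < n → coeff d P = 0 := by
  have key : ∀ k ≤ n, ∀ d : Fin 2 →₀ ℕ, d 0 + d 1 < k → coeff d P = 0 := by
    intro k
    induction k with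
    | zero => intro _ d hd; omega
    | succ k ih =>
      intro hk d hd
      have ih' := ih (by omega)
      by_cases hdk : d 0 + d 1 < k
      · exact ih' d hdk
      have h1 : aeval ![U, V] (P - dtauH k fun i => coeff (dtauD i (k - i)) P) ∈
          Ideal.span {U, V} ^ (k + 1) := by
        refine dtau_aeval_mem U V _ _ fun d' hd' => ?_
        rw [coeff_sub, dtau_coeffH]
        split_ifs with h'
        · rw [show k - d' 0 = d' 1 by omega, dtauD_eq, sub_self]
        · rw [ih' d' (by omega), sub_zero]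
      have h2 := Ideal.sub_mem _ (Ideal.pow_le_pow_right hk hP) h1
      rw [map_sub, sub_sub_cancel] at h2
      have h3 := dtau_hom h hq k _ h2 (d 0) (by omega)
      rwa [show k - d 0 = d 1 by omega, dtauD_eq] at h3
  exact key n le_rfl

/-- the power series of an element -/
def dtauS (h : dtauG U V χ) (z : A) : MvPowerSeries (Fin 2) ℂ :=
  fun d => coeff d (h.expansion z (d 0 + d 1 + 1)).choose

theorem dtau_coeffS (h : dtauG U V χ) (hq : dtauQ U V χ) {z : A} {P : MvPolynomial (Fin 2) ℂ}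
    {n : ℕ} (hP : z - aeval ![U, V] P ∈ Ideal.span {U, V} ^ n) {d : Fin 2 →₀ ℕ}
    (hd : d 0 + d 1 < n) : MvPowerSeries.coeff d (dtauS h z) = coeff d P := by
  have h1 := (h.expansion z (d 0 + d 1 + 1)).choose_spec.2
  have h2 := Ideal.sub_mem _ (Ideal.pow_le_pow_right (show d 0 + d 1 + 1 ≤ n from hd) hP) h1
  rw [sub_sub_sub_cancel_left, ← map_sub] at h2
  have h3 := dtau_low h hq _ _ h2 d (Nat.lt_succ_self _)
  rw [coeff_sub, sub_eq_zero] at h3
  exact h3

theorem dtauS_aeval (h : dtauG U V χ) (hq : dtauQ U V χ) (P : MvPolynomial (Fin 2) ℂ) :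
    dtauS h (aeval ![U, V] P) = P := by
  ext d
  rw [dtau_coeffS h hq (P := P) (n := d 0 + d 1 + 1) (by simp) (Nat.lt_succ_self _), coeff_coe]

theorem dtauS_add (h : dtauG U V χ) (hq : dtauQ U V χ) (z w : A) :
    dtauS h (z + w) = dtauS h z + dtauS h w := by
  ext d
  obtain ⟨P, -, hP⟩ := h.expansion z (d 0 + d 1 + 1)
  obtain ⟨Q, -, hQ⟩ := h.expansion w (d 0 + d 1 + 1)
  have h1 : z + w - aeval ![U, V] (P + Q) ∈ Ideal.span {U, V} ^ (d 0 + d 1 + 1) := by
    rw [map_add, add_sub_add_comm]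
    exact Ideal.add_mem _ hP hQ
  rw [map_add, dtau_coeffS h hq h1 (Nat.lt_succ_self _), dtau_coeffS h hq hP (Nat.lt_succ_self _),
    dtau_coeffS h hq hQ (Nat.lt_succ_self _), coeff_add]

theorem dtauS_mul (h : dtauG U V χ) (hq : dtauQ U V χ) (z w : A) :
    dtauS h (z * w) = dtauS h z * dtauS h w := by
  classical
  ext d
  obtain ⟨P, -, hP⟩ := h.expansion z (d 0 + d 1 + 1)
  obtain ⟨Q, -, hQ⟩ := h.expansion w (d 0 + d 1 + 1)
  have h1 : z * w - aeval ![U, V] (P * Q) ∈ Ideal.span {U, V} ^ (d 0 + d 1 + 1) := by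
    have e : z * w - aeval ![U, V] (P * Q) =
        (z - aeval ![U, V] P) * w + aeval ![U, V] P * (w - aeval ![U, V] Q) := by
      rw [map_mul]; ring
    rw [e]
    exact Ideal.add_mem _ (Ideal.mul_mem_right _ _ hP) (Ideal.mul_mem_left _ _ hQ)
  rw [dtau_coeffS h hq h1 (Nat.lt_succ_self _), coeff_mul, MvPowerSeries.coeff_mul]
  refine Finset.sum_congr rfl fun p hp => ?_
  have e := Finset.HasAntidiagonal.mem_antidiagonal.1 hp
  have e0 : p.1 0 + p.2 0 = d 0 := by rw [← e]; rfl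
  have e1 : p.1 1 + p.2 1 = d 1 := by rw [← e]; rfl
  rw [dtau_coeffS h hq hP (by omega), dtau_coeffS h hq hQ (by omega)]

theorem dtau_exists (h : dtauG U V χ) (hq : dtauQ U V χ) :
    ∃ τ : A →ₐ[ℂ] MvPowerSeries (Fin 2) ℂ, τ U = MvPowerSeries.X 0 ∧ τ V = MvPowerSeries.X 1 ∧
      ∀ z, MvPowerSeries.constantCoeff (τ z) = χ z := by
  refine ⟨{ toFun := dtauS h
            map_one' := by simpa using dtauS_aeval h hq 1
            map_mul' := dtauS_mul h hq
            map_zero' := by simpa using dtauS_aeval h hq 0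
            map_add' := dtauS_add h hq
            commutes' := fun c => by
              have := dtauS_aeval h hq (C c)
              rw [aeval_C, coe_C] at this
              exact this }, ?_, ?_, fun z => ?_⟩
  · change dtauS h U = _
    simpa using dtauS_aeval h hq (X 0)
  · change dtauS h V = _
    simpa using dtauS_aeval h hq (X 1)
  · have h1 : z - aeval ![U, V] (C (χ z) : MvPolynomial (Fin 2) ℂ) ∈ Ideal.span {U, V} ^ 1 := by
      rw [pow_one, aeval_C]
      exact h.ctr z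
    have := dtau_coeffS h hq h1 (d := 0) (by simp)
    change MvPowerSeries.constantCoeff (dtauS h z) = _
    simpa using this

theorem dtau_of_tau (h : dtauG U V χ) (τ : A →ₐ[ℂ] MvPowerSeries (Fin 2) ℂ)
    (hu : τ U = MvPowerSeries.X 0) (hv : τ V = MvPowerSeries.X 1) : dtauQ U V χ := by
  classical
  have hc0 : ∀ z, MvPowerSeries.constantCoeff (τ z) = χ z := by
    intro z
    obtain ⟨α, β, e⟩ := Ideal.mem_span_pair.1 (h.ctr z)
    have : z = algebraMap ℂ A (χ z) + (α * U + β * V) := by rw [e]; ring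
    conv_lhs => rw [this]
    simp [hu, hv, MvPowerSeries.algebraMap_apply]
  intro n c hc i hi
  have h1 := congrArg (fun z => MvPowerSeries.coeff (dtauD i (n - i)) (τ z)) hc
  simp only [map_sum, map_mul, map_pow, hu, hv, map_zero, mul_assoc, MvPowerSeries.X_pow_eq,
    MvPowerSeries.monomial_mul_monomial, MvPowerSeries.coeff_mul_monomial] at h1
  rw [Finset.sum_eq_single i] at h1
  · rw [if_pos (by rw [dtauD])] at h1
    rw [dtauD, tsub_self] at h1
    simpa [hc0] using h1
  · intro j hj hji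
    have hj' : j ≤ n := Nat.lt_succ_iff.1 (Finset.mem_range.1 hj)
    rw [if_neg]
    intro hle
    have a0 := hle 0
    have a1 := hle 1
    simp at a0 a1
    omega
  · intro hi'
    exact absurd (Finset.mem_range.2 (by omega)) hi'

theorem dtau_lin (hq : dtauQ U V χ) {a b : A} (h : a * U + b * V = 0) : χ a = 0 ∧ χ b = 0 := by
  have := hq 1 (fun i => if i = 0 then b else a) (by
    simp only [Finset.sum_range_succ, Finset.range_zero, Finset.sum_empty]
    simp
    linear_combination h)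
  exact ⟨by simpa using this 1 le_rfl, by simpa using this 0 zero_le_one⟩

theorem dtau_change (h : dtauG U V χ) (hq : dtauQ U V χ) {U' V' : A} (h' : dtauG U' V' χ) :
    dtauQ U' V' χ := by
  obtain ⟨a, b, hu'⟩ := Ideal.mem_span_pair.1 (h.2.2 _ h'.1)
  obtain ⟨c, d, hv'⟩ := Ideal.mem_span_pair.1 (h.2.2 _ h'.2.1)
  obtain ⟨a', b', hu⟩ := Ideal.mem_span_pair.1 (h'.2.2 _ h.1)
  obtain ⟨c', d', hv⟩ := Ideal.mem_span_pair.1 (h'.2.2 _ h.2.1)
  have r1 := dtau_lin hq (a := a' * a + b' * c - 1) (b := a' * b + b' * d)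
    (by linear_combination hu + a' * hu' + b' * hv')
  have r2 := dtau_lin hq (a := c' * a + d' * c) (b := c' * b + d' * d - 1)
    (by linear_combination hv + c' * hu' + d' * hv')
  simp only [map_sub, map_add, map_mul, map_one] at r1 r2
  have hdet : χ a * χ d - χ b * χ c ≠ 0 := by
    intro h0
    have : (χ a' * χ d' - χ b' * χ c') * (χ a * χ d - χ b * χ c) = 1 := by
      linear_combination (χ c' * χ b + χ d' * χ d) * r1.1 + r2.2 -
        (χ c' * χ a + χ d' * χ c) * r1.2
    rw [h0, mul_zero] at this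
    exact zero_ne_one this
  have hR : ∀ x y : A, dtauR (Ideal.span {U, V}) 1 (x * U + y * V)
      (algebraMap ℂ A (χ x) * U + algebraMap ℂ A (χ y) * V) := by
    intro x y
    refine ⟨?_, ?_, ?_⟩
    · rw [pow_one]; exact Ideal.mem_span_pair.2 ⟨_, _, rfl⟩
    · rw [pow_one]; exact Ideal.mem_span_pair.2 ⟨_, _, rfl⟩
    · have e : x * U + y * V - (algebraMap ℂ A (χ x) * U + algebraMap ℂ A (χ y) * V) =
          (x - algebraMap ℂ A (χ x)) * U + (y - algebraMap ℂ A (χ y)) * V := by ring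
      rw [e, pow_succ, pow_one]
      exact Ideal.add_mem _ (Ideal.mul_mem_mul (h.ctr x) (dtau_U U V))
        (Ideal.mul_mem_mul (h.ctr y) (dtau_V U V))
  intro n e he
  set l0 : MvPolynomial (Fin 2) ℂ := C (χ a) * X 0 + C (χ b) * X 1 with hl0
  set l1 : MvPolynomial (Fin 2) ℂ := C (χ c) * X 0 + C (χ d) * X 1 with hl1
  have hG : aeval ![U, V] (aeval ![l0, l1] (dtauH n fun i => χ (e i))) ∈
      Ideal.span {U, V} ^ (n + 1) := by
    rw [dtau_aevalH, map_sum, ← neg_mem_iff, ← zero_sub, ← he, ← Finset.sum_sub_distrib]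
    refine Ideal.sum_mem _ fun i hi => ?_
    have hi' : i ≤ n := Nat.lt_succ_iff.1 (Finset.mem_range.1 hi)
    have r0 : dtauR (Ideal.span {U, V}) 0 (e i) (algebraMap ℂ A (χ (e i))) :=
      ⟨by simp, by simp, by simpa using h.ctr _⟩
    have := ((r0.mul ((hR a b).pow i)).mul ((hR c d).pow (n - i))).2.2
    rw [show 0 + i + (n - i) + 1 = n + 1 by omega, hu', hv'] at this
    simpa [hl0, hl1] using this
  have hl0' : l0.IsHomogeneous 1 :=
    ((isHomogeneous_X ℂ 0).C_mul _).add ((isHomogeneous_X ℂ 1).C_mul _)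
  have hl1' : l1.IsHomogeneous 1 :=
    ((isHomogeneous_X ℂ 0).C_mul _).add ((isHomogeneous_X ℂ 1).C_mul _)
  have hH : (aeval ![l0, l1] (dtauH n fun i => χ (e i))).IsHomogeneous n := by
    rw [dtau_aevalH]
    refine IsHomogeneous.sum _ _ _ fun i hi => ?_
    have hi' : i ≤ n := Nat.lt_succ_iff.1 (Finset.mem_range.1 hi)
    have := ((hl0'.pow i).mul (hl1'.pow (n - i))).C_mul (χ (e i))
    rw [show 1 * i + 1 * (n - i) = n by omega] at this
    rw [algebraMap_eq, mul_assoc]
    exact this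
  have hG0 : aeval ![l0, l1] (dtauH n fun i => χ (e i)) = 0 := by
    ext d'
    by_cases hd : d' 0 + d' 1 = n
    · exact dtau_low h hq _ _ hG d' (by omega)
    · refine hH.coeff_eq_zero ?_
      rw [Finsupp.degree_eq_sum, Fin.sum_univ_two]
      exact hd
  set δ := (χ a * χ d - χ b * χ c)⁻¹ with hδ
  have hδ1 : δ * (χ a * χ d - χ b * χ c) = 1 := inv_mul_cancel₀ hdet
  have hδ2 : (C δ * (C (χ a) * C (χ d) - C (χ b) * C (χ c)) : MvPolynomial (Fin 2) ℂ) = 1 := by
    rw [← C_mul, ← C_mul, ← C_sub, ← C_mul, hδ1, C_1]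
  have hinv : (aeval ![C δ * (C (χ d) * X 0 - C (χ b) * X 1),
      C δ * (C (χ a) * X 1 - C (χ c) * X 0)] :
      MvPolynomial (Fin 2) ℂ →ₐ[ℂ] MvPolynomial (Fin 2) ℂ).comp (aeval ![l0, l1]) =
      AlgHom.id ℂ _ := by
    refine algHom_ext fun i => ?_
    fin_cases i
    · simp [hl0]
      linear_combination X 0 * hδ2
    · simp [hl1]
      linear_combination X 1 * hδ2
  have hF := DFunLike.congr_fun hinv (dtauH n fun i => χ (e i))
  rw [AlgHom.comp_apply, hG0, map_zero, AlgHom.id_apply] at hF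
  intro i hi
  have := dtau_coeffH n (fun i => χ (e i)) (dtauD i (n - i))
  rw [← hF, coeff_zero, if_pos (by simp; omega)] at this
  simpa using this.symm

end Alg

end Vale.Agent.P300
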