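import Vale.Agent.P300.DBasic
import Vale.Agent.P300.DTauX1

/-! P300: power series expansions in regular local algebras of dimension two. -/

noncomputable section

namespace Vale.Agent.P300

namespace LA

variable {Ω : Type} [Field Ω] [Algebra ℂ Ω] {L : LA Ω} {u v : Ω}

theorem dtau_gen (h : L.Gen u v) :
    dtauG (⟨u, h.1.1⟩ : L.O) ⟨v, h.2.1.1⟩ L.evHom := by
  refine ⟨h.1.2, h.2.1.2, fun z hz => ?_⟩
  obtain ⟨α, hα, β, hβ, e⟩ := h.2.2 z ⟨z.2, hz⟩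
  exact Ideal.mem_span_pair.2 ⟨⟨α, hα⟩, ⟨β, hβ⟩, Subtype.ext e.symm⟩

theorem dtau_qreg_iff (hu : u ∈ L.O) (hv : v ∈ L.O) :
    L.QReg u v ↔ dtauQ (⟨u, hu⟩ : L.O) ⟨v, hv⟩ L.evHom := by
  constructor
  · intro h n c hc i hi
    refine h n (fun i => c i) (fun i => (c i).2) ?_ i hi
    have := congrArg Subtype.val hc
    simpa using this
  · intro h n c hc he i hi
    refine h n (fun i => ⟨c i, hc i⟩) (Subtype.ext ?_) i hi
    simpa using he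

theorem Coord.change (h : L.Coord u v) {u' v' : Ω} (h' : L.Gen u' v') : L.Coord u' v' :=
  ⟨h', (dtau_qreg_iff h'.1.1 h'.2.1.1).2
    (dtau_change (dtau_gen h.1) ((dtau_qreg_iff _ _).1 h.2) (dtau_gen h'))⟩

theorem Coord.symm (h : L.Coord u v) : L.Coord v u := by
  refine h.change ⟨h.1.2.1, h.1.1, fun z hz => ?_⟩
  obtain ⟨α, hα, β, hβ, e⟩ := h.1.2.2 z hz
  exact ⟨β, hβ, α, hα, by rw [e, add_comm]⟩

theorem Coord.ne_zero (h : L.Coord u v) : u ≠ 0 ∧ v ≠ 0 := by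
  have hq := (dtau_qreg_iff h.1.1.1 h.1.2.1.1).1 h.2
  constructor
  · intro h0
    have := dtau_lin hq (a := 1) (b := 0) (Subtype.ext (by simpa using h0))
    simp at this
  · intro h0
    have := dtau_lin hq (a := 0) (b := 1) (Subtype.ext (by simpa using h0))
    simp at this

theorem exists_tau (h : L.Coord u v) : ∃ τ : L.O →ₐ[ℂ] MvPowerSeries (Fin 2) ℂ,
    τ ⟨u, h.1.1.1⟩ = MvPowerSeries.X 0 ∧ τ ⟨v, h.1.2.1.1⟩ = MvPowerSeries.X 1 ∧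
    ∀ z : L.O, MvPowerSeries.constantCoeff (τ z) = L.ev z :=
  dtau_exists (dtau_gen h.1) ((dtau_qreg_iff _ _).1 h.2)

theorem coord_of_tau (h : L.Gen u v) (τ : L.O →ₐ[ℂ] MvPowerSeries (Fin 2) ℂ)
    (hu : τ ⟨u, h.1.1⟩ = MvPowerSeries.X 0) (hv : τ ⟨v, h.2.1.1⟩ = MvPowerSeries.X 1) :
    L.Coord u v :=
  ⟨h, (dtau_qreg_iff _ _).2 (dtau_of_tau (dtau_gen h) τ hu hv)⟩

/-- generation of the maximal ideal can be tested modulo its square -/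
theorem gen_of_mod_sq [IsNoetherianRing L.O] (h : L.Gen u v) {u' v' : Ω} (hu' : L.Mx u')
    (hv' : L.Mx v') {a b c d : Ω} (ha : a ∈ L.O) (hb : b ∈ L.O) (hc : c ∈ L.O) (hd : d ∈ L.O)
    (hu : u' = a * u + b * v) (hv : v' = c * u + d * v)
    (hdet : L.ev a * L.ev d - L.ev b * L.ev c ≠ 0) : L.Gen u' v' := by
  have hΔ : L.Un (a * d - b * c) := by
    refine ⟨L.O.sub_mem (L.O.mul_mem ha hd) (L.O.mul_mem hb hc), ?_⟩
    rwa [ev_sub (L.O.mul_mem ha hd) (L.O.mul_mem hb hc), L.ev_mul _ ha _ hd, L.ev_mul _ hb _ hc]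
  have hi := hΔ.inv.1.1
  have h0 := hΔ.ne_zero
  refine ⟨hu', hv', fun z hz => ?_⟩
  obtain ⟨α, hα, β, hβ, e⟩ := h.2.2 z hz
  refine ⟨(α * d - β * c) * (a * d - b * c)⁻¹,
    L.O.mul_mem (L.O.sub_mem (L.O.mul_mem hα hd) (L.O.mul_mem hβ hc)) hi,
    (β * a - α * b) * (a * d - b * c)⁻¹,
    L.O.mul_mem (L.O.sub_mem (L.O.mul_mem hβ ha) (L.O.mul_mem hα hb)) hi, ?_⟩
  have h1 : (a * d - b * c)⁻¹ * (a * d - b * c) = 1 := inv_mul_cancel₀ h0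
  rw [e, hu, hv]
  linear_combination (-(α * u) - β * v) * h1

/-- Krull intersection -/
theorem eq_zero_of_all_pow [IsNoetherianRing L.O] (h : L.Gen u v) {z : Ω}
    (hz : ∀ n : ℕ, ∃ c : ℕ → Ω, (∀ i, c i ∈ L.O) ∧
      z = ∑ i ∈ Finset.range (n + 1), c i * u ^ i * v ^ (n - i)) : z = 0 := by
  have := L.isLocalRing
  have hzO : z ∈ L.O := by
    obtain ⟨c, hc, e⟩ := hz 0
    rw [e]
    simpa using hc 0
  have hne : Ideal.span {(⟨u, h.1.1⟩ : L.O), ⟨v, h.2.1.1⟩} ≠ ⊤ := by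
    intro ht
    have := (dtau_gen h).ev (z := 1) (ht ▸ Submodule.mem_top)
    simp at this
  have hk := Ideal.iInf_pow_eq_bot_of_isLocalRing _ hne
  have hm : (⟨z, hzO⟩ : L.O) ∈ ⨅ i : ℕ,
      Ideal.span {(⟨u, h.1.1⟩ : L.O), ⟨v, h.2.1.1⟩} ^ i := by
    rw [Ideal.mem_iInf]
    intro n
    obtain ⟨c, hc, e⟩ := hz n
    have h1 := dtau_sum_mem (⟨u, h.1.1⟩ : L.O) ⟨v, h.2.1.1⟩ ⊤ n (fun i => ⟨c i, hc i⟩)
      fun _ => Submodule.mem_top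
    rw [Ideal.top_mul] at h1
    have e' : (⟨z, hzO⟩ : L.O) = ∑ i ∈ Finset.range (n + 1),
        (⟨c i, hc i⟩ : L.O) * ⟨u, h.1.1⟩ ^ i * ⟨v, h.2.1.1⟩ ^ (n - i) :=
      Subtype.ext (by simpa using e)
    rw [e']
    exact h1
  rw [hk, Ideal.mem_bot] at hm
  exact congrArg Subtype.val hm

/-- Taylor expansion with remainder -/
theorem exists_expansion (h : L.Gen u v) {z : Ω} (hz : z ∈ L.O) (n : ℕ) :
    ∃ (P : MvPolynomial (Fin 2) ℂ) (c : ℕ → Ω), (P.totalDegree < n ∨ P = 0) ∧ (∀ i, c i ∈ L.O) ∧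
      z = MvPolynomial.aeval ![u, v] P + ∑ i ∈ Finset.range (n + 1), c i * u ^ i * v ^ (n - i) := by
  obtain ⟨P, hP, h1⟩ := (dtau_gen h).expansion ⟨z, hz⟩ n
  rw [← Ideal.top_mul (_ ^ n)] at h1
  obtain ⟨c, -, hc⟩ := dtau_le _ _ ⊤ n h1
  refine ⟨P, fun i => c i, hP, fun i => (c i).2, ?_⟩
  have h2 := congrArg L.O.val hc
  rw [map_sub, MvPolynomial.comp_aeval_apply] at h2
  have e : (fun i => L.O.val (![(⟨u, h.1.1⟩ : L.O), ⟨v, h.2.1.1⟩] i)) = ![u, v] := by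
    funext i
    fin_cases i <;> rfl
  rw [e] at h2
  rw [← sub_eq_iff_eq_add']
  simpa using h2

end LA

end Vale.Agent.P300
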