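import Vale.Agent.P300.DTop
import Vale.Agent.P300.DTau
import Vale.Agent.P300.DChartX3

/-! P300: analytic charts at regular points. -/

noncomputable section

namespace Vale.Agent.P300

open Topology Filter

variable {Ω : Type} [Field Ω] [Algebra ℂ Ω] {ι : Type} [Fintype ι]

/-- an analytic chart given by two regular functions -/
structure AChart (t : ι → Ω) (y : Zt t) (u v : Ω) where
  ρ : ℝ
  hρ : 0 < ρ
  κ : OpenPartialHomeomorph (Zt t) (ℂ × ℂ)
  mem : y ∈ κ.source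
  tgt : κ.target = Metric.ball 0 ρ
  ctr : κ y = 0
  reg : ∀ y' ∈ κ.source, u ∈ (la t y').O ∧ v ∈ (la t y').O
  kap : ∀ y' ∈ κ.source, κ y' = ((la t y').ev u, (la t y').ev v)
  coord : ∀ y' ∈ κ.source, (la t y').Coord ((la t y').ctr u) ((la t y').ctr v)
  ana : ∀ z, ∀ η ∈ κ.target, z ∈ (la t (κ.symm η)).O →
    AnalyticAt ℂ (fun η => (la t (κ.symm η)).ev z) η
  lift : ∃ ψ : ℂ × ℂ → ι → ℂ, AnalyticOnNhd ℂ ψ κ.target ∧
    ∀ η ∈ κ.target, ∃ h : ψ η ≠ 0, (κ.symm η).1 = PSp.mk ⟨ψ η, h⟩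

section

open MvPolynomial

/-- the data of a local parametrisation in an affine chart -/
structure DcPar (t : ι → Ω) (y : Zt t) (u v : Ω) (j : ι) (c : ℕ) where
  F : Fin c ⊕ Fin 2 → MvPolynomial ι ℂ
  G : MvPolynomial ι ℂ
  g : MvPolynomial ι ℂ
  e : OpenPartialHomeomorph (ι → ℂ) (Fin c ⊕ Fin 2 → ℂ)
  he : ⇑e = dcF F G
  mem : dca j y.1 ∈ e.source
  ana : AnalyticAt ℂ e.symm 0
  F0 : dcF F G (dca j y.1) = 0
  hG : eval (dca j y.1) G ≠ 0
  hg : eval (dca j y.1) g ≠ 0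
  hf : ∀ k, aeval (fun i => t i / t j) (F (Sum.inl k)) = 0
  hU : u * aeval (fun i => t i / t j) G = aeval (fun i => t i / t j) (F (Sum.inr 0))
  hV : v * aeval (fun i => t i / t j) G = aeval (fun i => t i / t j) (F (Sum.inr 1))
  cut : ∀ w, eval w g ≠ 0 → (∀ k, eval w (F (Sum.inl k)) = 0) →
    ∀ P : MvPolynomial ι ℂ, aeval (fun i => t i / t j) P = 0 → eval w P = 0

theorem dc_par (t : ι → Ω) (y : Zt t) {u v : Ω} (h : (la t y).Coord u v) {j : ι}
    (hj : y.1.rep j ≠ 0) : ∃ c, Nonempty (DcPar t y u v j c) := by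
  have hA := dc_aff y hj
  obtain ⟨U, V, G, hf⟩ := hA.exists_fr h.1.1 h.1.2.1
  obtain ⟨c, f, f1, f2, f3⟩ := dc_pick (dca j y.1)
    {P : MvPolynomial ι ℂ | aeval (fun i => t i / t j) P = 0}
  obtain ⟨g, g1, g2⟩ := dc_krull hA hf h (Ideal.span (Set.range f)) (dc_span_van f1)
    fun ξ hξ P hP => f3 ξ (fun k => hξ _ (Ideal.subset_span ⟨k, rfl⟩)) P hP
  have h0 : ∀ k, eval (dca j y.1) (Sum.elim f ![U, V] k) = 0 := by
    rintro (k | k)
    · exact hA.van (f1 k)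
    · fin_cases k
      exacts [hf.U0, hf.V0]
  have hF : dcF (Sum.elim f ![U, V]) G (dca j y.1) = 0 := _root_.funext fun k => by
    rw [dcF, h0, zero_div, Pi.zero_apply]
  obtain ⟨e, e1, e2, e3⟩ := dc_ift (Sum.elim f ![U, V]) hf.hG h0
    (Fintype.linearIndependent_iff.2 fun x hx => by
      rw [Fintype.sum_sum_type, Fin.sum_univ_two] at hx
      have b1 := dc_indep hA hf h (x := x (Sum.inr 0)) (y := x (Sum.inr 1))
        (P := -∑ k, x (Sum.inl k) • f k)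
        (by
          rw [map_neg, map_sum, neg_eq_zero]
          exact Finset.sum_eq_zero fun k _ => by rw [map_smul, f1 k, smul_zero])
        (by
          rw [map_neg, map_sum]
          simp only [map_smul]
          exact eq_neg_of_add_eq_zero_right hx)
      rw [b1.1, b1.2, zero_smul, zero_smul, add_zero, add_zero] at hx
      rintro (k | k)
      · exact Fintype.linearIndependent_iff.1 f2 _ hx k
      · fin_cases k
        exacts [b1.1, b1.2])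
    fun ξ hξ => dc_ann hA hf h.1 ξ (f3 ξ fun k => hξ (Sum.inl k)) (hξ (Sum.inr 0)) (hξ (Sum.inr 1))
  refine ⟨c, ⟨⟨Sum.elim f ![U, V], G, g, e, e1, e2, hF ▸ e3, hF, hf.hG, g1, f1, hf.hU, hf.hV,
    fun w w1 w2 P hP => ?_⟩⟩⟩
  have b2 := dc_span_van (w := w) (f := f) w2 _ (g2 P hP)
  rw [map_mul] at b2
  exact (mul_eq_zero.1 b2).resolve_left w1

/-- the last two coordinates -/
def dcEmb (c : ℕ) (η : ℂ × ℂ) : Fin c ⊕ Fin 2 → ℂ := Sum.elim 0 ![η.1, η.2]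

theorem dcEmb_ana (c : ℕ) (η : ℂ × ℂ) : AnalyticAt ℂ (dcEmb c) η := by
  refine AnalyticAt.pi ?_
  rintro (k | k)
  · exact analyticAt_const
  · fin_cases k
    exacts [analyticAt_fst, analyticAt_snd]

theorem dcEmb_zero (c : ℕ) : dcEmb c 0 = 0 := by
  ext (k | k)
  · rfl
  · fin_cases k <;> rfl

namespace DcPar

variable {t : ι → Ω} {y : Zt t} {u v : Ω} {j : ι} {c : ℕ} (D : DcPar t y u v j c)

/-- the parametrisation in affine coordinates -/
def psi (η : ℂ × ℂ) : ι → ℂ := D.e.symm (dcEmb c η)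

/-- good parameters -/
def Ok (η : ℂ × ℂ) : Prop :=
  dcEmb c η ∈ D.e.target ∧ AnalyticAt ℂ D.e.symm (dcEmb c η) ∧ eval (D.psi η) D.g ≠ 0 ∧
    eval (D.psi η) D.G ≠ 0

open Classical in
/-- the parametrisation -/
def sig (η : ℂ × ℂ) : Zt t :=
  if h : ∃ y' : Zt t, y'.1.rep j ≠ 0 ∧ dca j y'.1 = D.psi η then h.choose else y

/-- the chart map -/
def kap (y' : Zt t) : ℂ × ℂ :=
  (dcF D.F D.G (dca j y'.1) (Sum.inr 0), dcF D.F D.G (dca j y'.1) (Sum.inr 1))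

theorem psi_zero : D.psi 0 = dca j y.1 := by
  rw [psi, dcEmb_zero, ← D.F0, ← D.he, D.e.left_inv D.mem]

theorem psi_ana {η : ℂ × ℂ} (h : D.Ok η) : AnalyticAt ℂ D.psi η := h.2.1.comp (dcEmb_ana c η)

theorem ok_zero : D.Ok 0 := by
  refine ⟨?_, ?_, ?_, ?_⟩
  · rw [dcEmb_zero, ← D.F0, ← D.he]
    exact D.e.map_source D.mem
  · rw [dcEmb_zero]
    exact D.ana
  · rw [psi_zero]
    exact D.hg
  · rw [psi_zero]
    exact D.hG

theorem ok_ev {η : ℂ × ℂ} (h : D.Ok η) : ∀ᶠ η' in 𝓝 η, D.Ok η' := by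
  have h1 := (dcEmb_ana c η).continuousAt
  have h2 := (D.psi_ana h).continuousAt
  filter_upwards [h1.eventually_mem (D.e.open_target.mem_nhds h.1),
    h1.eventually h.2.1.eventually_analyticAt,
    (D.g.continuous_eval.continuousAt.comp h2).eventually_ne h.2.2.1,
    (D.G.continuous_eval.continuousAt.comp h2).eventually_ne h.2.2.2] with η' b1 b2 b3 b4
  exact ⟨b1, b2, b3, b4⟩

theorem F_psi {η : ℂ × ℂ} (h : D.Ok η) : dcF D.F D.G (D.psi η) = dcEmb c η := by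
  rw [← D.he]
  exact D.e.right_inv h.1

theorem sig_spec (hj : y.1.rep j ≠ 0) {η : ℂ × ℂ} (h : D.Ok η) :
    (D.sig η).1.rep j ≠ 0 ∧ dca j (D.sig η).1 = D.psi η := by
  have h1 : ∃ y' : Zt t, y'.1.rep j ≠ 0 ∧ dca j y'.1 = D.psi η :=
    dc_pt (t_ne_of_rep y hj) (D.cut _ h.2.2.1 fun k =>
      (div_eq_zero_iff.1 (congrFun (D.F_psi h) (Sum.inl k))).resolve_right h.2.2.2)
  rw [sig, dif_pos h1]
  exact h1.choose_spec

theorem kap_sig (hj : y.1.rep j ≠ 0) {η : ℂ × ℂ} (h : D.Ok η) : D.kap (D.sig η) = η := by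
  rw [kap, (D.sig_spec hj h).2, D.F_psi h]
  rfl

theorem psi_kap {y' : Zt t} (h1 : y'.1.rep j ≠ 0) (h2 : dca j y'.1 ∈ D.e.source) :
    D.psi (D.kap y') = dca j y'.1 := by
  have h3 : dcEmb c (D.kap y') = dcF D.F D.G (dca j y'.1) := by
    ext (k | k)
    · rw [dcF, (dc_aff y' h1).van (D.hf k), zero_div]
      rfl
    · fin_cases k <;> rfl
  rw [psi, h3, ← D.he, D.e.left_inv h2]

theorem sig_kap (hj : y.1.rep j ≠ 0) {y' : Zt t} (h1 : y'.1.rep j ≠ 0)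
    (h2 : dca j y'.1 ∈ D.e.source) (h : D.Ok (D.kap y')) : D.sig (D.kap y') = y' :=
  Subtype.ext (dca_inj (D.sig_spec hj h).1 h1 ((D.sig_spec hj h).2.trans (D.psi_kap h1 h2)))

theorem sig_cont (hj : y.1.rep j ≠ 0) {η : ℂ × ℂ} (h : D.Ok η) : ContinuousAt D.sig η := by
  refine tendsto_of_ratio t D.sig (D.sig η) (D.sig_spec hj h).1
    ((D.ok_ev h).mono fun η' h' => (D.sig_spec hj h').1) fun i => ?_
  have h1 : Tendsto (fun η' => D.psi η' i) (𝓝 η) (𝓝 (D.psi η i)) :=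
    (continuous_apply i).continuousAt.tendsto.comp (D.psi_ana h).continuousAt
  rw [← (D.sig_spec hj h).2] at h1
  exact h1.congr' ((D.ok_ev h).mono fun η' h' => (congrFun (D.sig_spec hj h').2 i).symm)

theorem aff (hj : y.1.rep j ≠ 0) {η : ℂ × ℂ} (h : D.Ok η) :
    DcAff (fun i => t i / t j) (D.psi η) (la t (D.sig η)) :=
  (D.sig_spec hj h).2 ▸ dc_aff (D.sig η) (D.sig_spec hj h).1

theorem ev_uv (hj : y.1.rep j ≠ 0) {η : ℂ × ℂ} (h : D.Ok η) :
    u ∈ (la t (D.sig η)).O ∧ v ∈ (la t (D.sig η)).O ∧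
      (la t (D.sig η)).ev u = η.1 ∧ (la t (D.sig η)).ev v = η.2 := by
  have h1 := (D.aff hj h).frac h.2.2.2 D.hU
  have h2 := (D.aff hj h).frac h.2.2.2 D.hV
  exact ⟨h1.1, h2.1, h1.2.trans (congrFun (D.F_psi h) (Sum.inr 0)),
    h2.2.trans (congrFun (D.F_psi h) (Sum.inr 1))⟩

theorem coord (hj : y.1.rep j ≠ 0) {η : ℂ × ℂ} (h : D.Ok η) :
    (la t (D.sig η)).Coord ((la t (D.sig η)).ctr u) ((la t (D.sig η)).ctr v) := by
  obtain ⟨-, -, a1, a2⟩ := D.ev_uv hj h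
  have b0 := congrFun (D.F_psi h) (Sum.inr 0)
  have b1 := congrFun (D.F_psi h) (Sum.inr 1)
  rw [LA.ctr, LA.ctr, a1, a2]
  refine ⟨dc_gen (U := D.F (Sum.inr 0) - C η.1 * D.G) (V := D.F (Sum.inr 1) - C η.2 * D.G)
    (D.aff hj h) ⟨h.2.2.2, ?_, ?_, ?_, ?_⟩ fun ξ x1 x2 x3 => ?_, fun n d hd e => ?_⟩
  · rw [map_sub, map_mul, aeval_C, ← D.hU, sub_mul]
  · rw [map_sub, map_mul, aeval_C, ← D.hV, sub_mul]
  · rw [map_sub, map_mul, eval_C, sub_eq_zero]
    exact (div_eq_iff h.2.2.2).1 b0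
  · rw [map_sub, map_mul, eval_C, sub_eq_zero]
    exact (div_eq_iff h.2.2.2).1 b1
  · refine dc_inj D.F D.e D.he (w := D.psi η) (D.e.map_target h.1) h.2.2.2
      (by rw [D.F_psi h]; exact h.2.1) ξ ?_
    rw [D.F_psi h]
    rintro (k | k)
    · refine x1 _ ?_
      simp [dcEmb, D.hf k]
    · fin_cases k
      exacts [x2, x3]
  · exact dc_line t D.sig η (D.sig_cont hj h) ((D.ok_ev h).mono fun η' h' => D.ev_uv hj h') n d hd
      (Eventually.of_forall fun η' => by rw [e, LA.ev_zero])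

theorem ev_ana (hj : y.1.rep j ≠ 0) {η : ℂ × ℂ} (h : D.Ok η) {z : Ω}
    (hz : z ∈ (la t (D.sig η)).O) : AnalyticAt ℂ (fun η => (la t (D.sig η)).ev z) η := by
  obtain ⟨P, Q, h1, h2⟩ := (D.aff hj h).loc z hz
  have hQ := (dc_ana Q _).comp (D.psi_ana h)
  refine (((dc_ana P _).comp (D.psi_ana h)).div hQ h1).congr ?_
  filter_upwards [D.ok_ev h, hQ.continuousAt.eventually_ne h1] with η' b1 b2
  exact ((D.aff hj b1).frac b2 h2).2.symm

theorem dca_cont : ContinuousOn (fun y' : Zt t => dca j y'.1) {y' | y'.1.rep j ≠ 0} :=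
  continuousOn_pi.2 fun i =>
    (continuousOn_ratio i j).comp continuous_subtype_val.continuousOn fun _ h => h

theorem kap_cont : ContinuousOn D.kap {y' | y'.1.rep j ≠ 0 ∧ dca j y'.1 ∈ D.e.source} := by
  have h1 : ContinuousOn (fun y' : Zt t => dcF D.F D.G (dca j y'.1))
      {y' | y'.1.rep j ≠ 0 ∧ dca j y'.1 ∈ D.e.source} := by
    rw [← D.he]
    exact D.e.continuousOn.comp (dca_cont.mono fun _ h => h.1) fun _ h => h.2
  exact ((continuous_apply _).comp_continuousOn h1).prodMk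
    ((continuous_apply _).comp_continuousOn h1)

/-- the chart -/
def chart (hj : y.1.rep j ≠ 0) {ρ : ℝ} (h : ∀ η ∈ Metric.ball (0 : ℂ × ℂ) ρ, D.Ok η) :
    OpenPartialHomeomorph (Zt t) (ℂ × ℂ) where
  toFun := D.kap
  invFun := D.sig
  source := {y' | y'.1.rep j ≠ 0 ∧ dca j y'.1 ∈ D.e.source} ∩ D.kap ⁻¹' Metric.ball 0 ρ
  target := Metric.ball 0 ρ
  map_source' _ hy := hy.2
  map_target' η hη := ⟨⟨(D.sig_spec hj (h η hη)).1, by
    rw [(D.sig_spec hj (h η hη)).2]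
    exact D.e.map_target (h η hη).1⟩, by
      rw [Set.mem_preimage, D.kap_sig hj (h η hη)]
      exact hη⟩
  left_inv' _ hy := D.sig_kap hj hy.1.1 hy.1.2 (h _ hy.2)
  right_inv' η hη := D.kap_sig hj (h η hη)
  open_source := D.kap_cont.isOpen_inter_preimage
    (dca_cont.isOpen_inter_preimage ((isOpen_rep_ne j).preimage continuous_subtype_val)
      D.e.open_source) Metric.isOpen_ball
  open_target := Metric.isOpen_ball
  continuousOn_toFun := D.kap_cont.mono Set.inter_subset_left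
  continuousOn_invFun η hη := (D.sig_cont hj (h η hη)).continuousWithinAt

theorem kap_y : D.kap y = 0 := by
  rw [kap, D.F0]
  rfl

end DcPar

end

theorem exists_achart (t : ι → Ω) (y : Zt t) {u v : Ω} (h : (la t y).Coord u v)
    {Nb : Set (Zt t)} (hNb : Nb ∈ 𝓝 y) : ∃ ch : AChart t y u v, ch.κ.source ⊆ Nb := by
  obtain ⟨j, hj⟩ := db_exists_rep y.1
  obtain ⟨c, ⟨D⟩⟩ := dc_par t y h hj
  have h0 : D.sig 0 = y := by
    rw [← D.kap_y]
    exact D.sig_kap hj hj D.mem (D.kap_y ▸ D.ok_zero)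
  have h1 : ∀ᶠ η in 𝓝 (0 : ℂ × ℂ), D.sig η ∈ Nb :=
    (D.sig_cont hj D.ok_zero).eventually_mem (by rw [h0]; exact hNb)
  obtain ⟨ρ, hρ, h2⟩ := Metric.eventually_nhds_iff_ball.1 ((D.ok_ev D.ok_zero).and h1)
  have h3 : ∀ η ∈ Metric.ball (0 : ℂ × ℂ) ρ, D.Ok η := fun η hη => (h2 η hη).1
  have h4 : ∀ y' ∈ (D.chart hj h3).source, D.Ok (D.kap y') ∧ D.sig (D.kap y') = y' :=
    fun y' hy => ⟨h3 _ hy.2, (D.chart hj h3).left_inv hy⟩
  refine ⟨⟨ρ, hρ, D.chart hj h3, ⟨⟨hj, D.mem⟩, ?_⟩, rfl, D.kap_y, fun y' hy => ?_, fun y' hy => ?_,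
    fun y' hy => ?_, fun z η hη hz => D.ev_ana hj (h3 η hη) hz,
    D.psi, fun η hη => D.psi_ana (h3 η hη), fun η hη => ?_⟩, fun y' hy => ?_⟩
  · rw [Set.mem_preimage, D.kap_y]
    exact Metric.mem_ball_self hρ
  · have b := D.ev_uv hj (h4 y' hy).1
    rw [(h4 y' hy).2] at b
    exact ⟨b.1, b.2.1⟩
  · have b := D.ev_uv hj (h4 y' hy).1
    rw [(h4 y' hy).2] at b
    exact Prod.ext b.2.2.1.symm b.2.2.2.symm
  · have b := D.coord hj (h4 y' hy).1
    rwa [(h4 y' hy).2] at b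
  · obtain ⟨b1, b2⟩ := D.sig_spec hj (h3 η hη)
    refine ⟨b2 ▸ dca_ne b1, ?_⟩
    exact (dc_mk_dca b1).symm.trans (congrArg PSp.mk (Subtype.ext b2))
  · rw [← (h4 y' hy).2]
    exact (h2 _ hy.2).2

/-- a regular function vanishing near a regular point is zero -/
theorem eq_zero_of_ev_eventually (t : ι → Ω) (y : Zt t) {u v : Ω} (h : (la t y).Coord u v) {z : Ω}
    (hz : z ∈ (la t y).O) (h0 : ∀ᶠ y' in 𝓝 y, (la t y').ev z = 0) : z = 0 := by
  obtain ⟨j, hj⟩ := db_exists_rep y.1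
  obtain ⟨c, ⟨D⟩⟩ := dc_par t y h hj
  have h1 : D.sig 0 = y := by
    rw [← D.kap_y]
    exact D.sig_kap hj hj D.mem (D.kap_y ▸ D.ok_zero)
  have h2 : ∀ᶠ η in 𝓝 (0 : ℂ × ℂ), (la t (D.sig η)).ev z = 0 :=
    (D.sig_cont hj D.ok_zero).eventually (p := fun y' => (la t y').ev z = 0)
      (by rw [h1]; exact h0)
  have := la_noeth t y
  refine LA.eq_zero_of_all_pow h.1 fun n => ?_
  induction n with
  | zero => exact ⟨fun _ => z, fun _ => hz, by simp⟩
  | succ n ih =>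
    obtain ⟨d, d1, d2⟩ := ih
    have b1 := dc_line t D.sig 0 (D.sig_cont hj D.ok_zero)
      ((D.ok_ev D.ok_zero).mono fun η' h' => D.ev_uv hj h') n d (by rw [h1]; exact d1)
      (by simpa [← d2] using h2)
    rw [h1] at b1
    have b2 : ∀ i, ∃ α ∈ (la t y).O, ∃ β ∈ (la t y).O, i ≤ n → d i = α * u + β * v := fun i => by
      by_cases hi : i ≤ n
      · obtain ⟨α, hα, β, hβ, e⟩ := h.1.2.2 (d i) ⟨d1 i, b1 i hi⟩
        exact ⟨α, hα, β, hβ, fun _ => e⟩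
      · exact ⟨0, zero_mem _, 0, zero_mem _, fun hi' => absurd hi' hi⟩
    choose α hα β hβ b2 using b2
    refine ⟨fun i => (Nat.casesOn i 0 α : Ω) + if i ≤ n then β i else 0, fun i => add_mem ?_ ?_, ?_⟩
    · cases i with
      | zero => exact zero_mem _
      | succ i => exact hα i
    · split_ifs
      exacts [hβ i, zero_mem _]
    · rw [← dc_regroup u v n α β, d2]
      exact Finset.sum_congr rfl fun i hi => by
        rw [b2 i (Nat.lt_succ_iff.1 (Finset.mem_range.1 hi))]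

end Vale.Agent.P300
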