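import Vale.Agent.P300.DBasic

/-! P300: local equations of an affine variety at a regular point. -/

noncomputable section

namespace Vale.Agent.P300

open MvPolynomial

variable {Ω : Type} [Field Ω] [Algebra ℂ Ω] {ι : Type}

/-- the gradient of a polynomial at a point -/
def dcg (a : ι → ℂ) : MvPolynomial ι ℂ →ₗ[ℂ] (ι → ℂ) where
  toFun P i := eval a (pderiv i P)
  map_add' P Q := by
    funext i
    simp
  map_smul' c P := by
    funext i
    simp [smul_eval]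

theorem dcg_apply (a : ι → ℂ) (P : MvPolynomial ι ℂ) (i : ι) :
    dcg a P i = eval a (pderiv i P) := rfl

theorem dcg_mul (a : ι → ℂ) (P Q : MvPolynomial ι ℂ) :
    dcg a (P * Q) = eval a P • dcg a Q + eval a Q • dcg a P := by
  funext i
  simp [dcg_apply]

theorem dcg_C (a : ι → ℂ) (c : ℂ) : dcg a (C c) = 0 := by
  funext i
  simp [dcg_apply]

theorem dcg_X [DecidableEq ι] (a : ι → ℂ) (k : ι) : dcg a (X k) = Pi.single k 1 := by
  funext i
  by_cases h : i = k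
  · simp [dcg_apply, h]
  · simp [dcg_apply, h, pderiv_X_of_ne (Ne.symm h)]

/-- the maximal ideal of a point -/
def dcm (a : ι → ℂ) : Ideal (MvPolynomial ι ℂ) := RingHom.ker (eval a)

theorem mem_dcm {a : ι → ℂ} {P : MvPolynomial ι ℂ} : P ∈ dcm a ↔ eval a P = 0 := Iff.rfl

theorem dc_taylor [Fintype ι] (a : ι → ℂ) (P : MvPolynomial ι ℂ) :
    P - C (eval a P) - ∑ i, C (dcg a P i) * (X i - C (a i)) ∈ dcm a * dcm a := by
  classical
  induction P using MvPolynomial.induction_on with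
  | C c => simp [dcg_C]
  | add P Q hP hQ =>
    have e : P + Q - C (eval a (P + Q)) - ∑ i, C (dcg a (P + Q) i) * (X i - C (a i)) =
        (P - C (eval a P) - ∑ i, C (dcg a P i) * (X i - C (a i))) +
          (Q - C (eval a Q) - ∑ i, C (dcg a Q i) * (X i - C (a i))) := by
      simp only [map_add, Pi.add_apply, add_mul, Finset.sum_add_distrib]
      ring
    rw [e]
    exact add_mem hP hQ
  | mul_X P k hP =>
    have e1 : ∑ i, (C (dcg a (P * X k) i) * (X i - C (a i)) : MvPolynomial ι ℂ) =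
        C (eval a P) * (X k - C (a k)) + C (a k) * ∑ i, C (dcg a P i) * (X i - C (a i)) := by
      rw [dcg_mul, dcg_X]
      simp only [Pi.add_apply, Pi.smul_apply, smul_eq_mul, map_add, add_mul,
        Finset.sum_add_distrib, eval_X, map_mul, Finset.mul_sum, mul_assoc]
      congr 1
      rw [Finset.sum_eq_single k (fun i _ hi => by simp [hi]) (by simp)]
      simp
    have e : P * X k - C (eval a (P * X k)) - ∑ i, C (dcg a (P * X k) i) * (X i - C (a i)) =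
        (P - C (eval a P) - ∑ i, C (dcg a P i) * (X i - C (a i))) * X k +
          (∑ i, C (dcg a P i) * (X i - C (a i))) * (X k - C (a k)) := by
      rw [e1, map_mul, eval_X, map_mul]
      ring
    rw [e]
    refine add_mem (Ideal.mul_mem_right _ _ hP) (Ideal.mul_mem_mul ?_ ?_)
    · simp [mem_dcm]
    · simp [mem_dcm]

theorem dc_sq [Fintype ι] {a : ι → ℂ} {P : MvPolynomial ι ℂ} (h0 : eval a P = 0)
    (h1 : dcg a P = 0) : P ∈ dcm a * dcm a := by
  simpa [h0, h1] using dc_taylor a P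

theorem dc_nak [Fintype ι] (a : ι → ℂ) (K : Ideal (MvPolynomial ι ℂ)) (hK : K ≤ dcm a)
    (h : ∀ ξ : ι → ℂ, (∀ P ∈ K, dcg a P ⬝ᵥ ξ = 0) → ξ = 0) :
    ∃ r, eval a r = 1 ∧ ∀ P, eval a P = 0 → r * P ∈ K := by
  classical
  have hT : (K.restrictScalars ℂ).map (dcg a) = ⊤ := by
    by_contra hne
    obtain ⟨φ, hφ0, hφ⟩ := Submodule.exists_le_ker_of_lt_top _ (lt_top_iff_ne_top.2 hne)
    have hc : ∀ w, φ w = w ⬝ᵥ fun i => φ fun j => if i = j then 1 else 0 := fun w => by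
      rw [LinearMap.pi_apply_eq_sum_univ]
      rfl
    have h1 := h _ fun P hP => (hc _).symm.trans (hφ ⟨P, hP, rfl⟩)
    exact hφ0 (LinearMap.ext fun w => by rw [hc, h1, dotProduct_zero, LinearMap.zero_apply])
  have hle : dcm a ≤ K ⊔ dcm a • dcm a := fun P hP => by
    obtain ⟨Q, hQ, e⟩ : dcg a P ∈ (K.restrictScalars ℂ).map (dcg a) := hT ▸ Submodule.mem_top
    have h2 : P - Q ∈ dcm a * dcm a :=
      dc_sq (sub_mem hP (hK hQ) : P - Q ∈ dcm a) (by rw [map_sub, e, sub_self])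
    have e2 : P = Q + (P - Q) := by ring
    rw [e2]
    exact Submodule.add_mem_sup hQ h2
  obtain ⟨r, h1, h2⟩ := Submodule.exists_sub_one_mem_and_smul_le_of_fg_of_le_sup
    (IsNoetherian.noetherian (dcm a)) le_rfl hle
  refine ⟨r, ?_, fun P hP => h2 (Submodule.smul_mem_pointwise_smul P r _ hP)⟩
  have := mem_dcm.1 h1
  rwa [map_sub, map_one, sub_eq_zero] at this

theorem dc_regroup {R : Type} [CommRing R] (u v : R) (n : ℕ) (α β : ℕ → R) :
    ∑ i ∈ Finset.range (n + 1), (α i * u + β i * v) * u ^ i * v ^ (n - i) =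
      ∑ i ∈ Finset.range (n + 1 + 1), ((Nat.casesOn i 0 α : R) + if i ≤ n then β i else 0) *
        u ^ i * v ^ (n + 1 - i) := by
  simp only [add_mul, Finset.sum_add_distrib]
  congr 1
  · rw [Finset.sum_range_succ' _ (n + 1)]
    simp only [Nat.add_sub_add_right, Nat.rec_zero, zero_mul, add_zero]
    exact Finset.sum_congr rfl fun i _ => by ring
  · rw [Finset.sum_range_succ _ (n + 1), if_neg (by omega), zero_mul, zero_mul, add_zero]
    refine Finset.sum_congr rfl fun i hi => ?_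
    have hi' : i ≤ n := Nat.lt_succ_iff.1 (Finset.mem_range.1 hi)
    rw [if_pos hi', Nat.succ_sub hi', pow_succ]
    ring

/-- `L` is the local ring at `a` of the affine variety with generic point `s` -/
structure DcAff (s : ι → Ω) (a : ι → ℂ) (L : LA Ω) : Prop where
  mem : ∀ P : MvPolynomial ι ℂ, aeval s P ∈ L.O
  ev : ∀ P : MvPolynomial ι ℂ, L.ev (aeval s P) = eval a P
  loc : ∀ z ∈ L.O, ∃ P Q : MvPolynomial ι ℂ, eval a Q ≠ 0 ∧ z * aeval s Q = aeval s P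

/-- `u, v` are the fractions `U / G, V / G` -/
structure DcFr (s : ι → Ω) (a : ι → ℂ) (u v : Ω) (U V G : MvPolynomial ι ℂ) : Prop where
  hG : eval a G ≠ 0
  hU : u * aeval s G = aeval s U
  hV : v * aeval s G = aeval s V
  U0 : eval a U = 0
  V0 : eval a V = 0

variable {s : ι → Ω} {a : ι → ℂ} {L : LA Ω} {u v : Ω} {U V G : MvPolynomial ι ℂ}

theorem DcAff.van (h : DcAff s a L) {P : MvPolynomial ι ℂ} (hP : aeval s P = 0) :
    eval a P = 0 := by
  rw [← h.ev, hP, LA.ev_zero]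

theorem DcAff.frac (h : DcAff s a L) {z : Ω} {P Q : MvPolynomial ι ℂ} (hQ : eval a Q ≠ 0)
    (e : z * aeval s Q = aeval s P) : z ∈ L.O ∧ L.ev z = eval a P / eval a Q := by
  have hu : L.Un (aeval s Q) := ⟨h.mem Q, by rwa [h.ev]⟩
  have hz : z = aeval s P * (aeval s Q)⁻¹ := by
    rw [← e, mul_inv_cancel_right₀ hu.ne_zero]
  rw [hz]
  exact ⟨L.O.mul_mem (h.mem P) hu.inv.1.1, by
    rw [L.ev_mul _ (h.mem P) _ hu.inv.1.1, hu.inv.2, h.ev, h.ev, div_eq_mul_inv]⟩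

theorem DcAff.loc2 (h : DcAff s a L) {z w : Ω} (hz : z ∈ L.O) (hw : w ∈ L.O) :
    ∃ P Q H : MvPolynomial ι ℂ, eval a H ≠ 0 ∧ z * aeval s H = aeval s P ∧
      w * aeval s H = aeval s Q := by
  obtain ⟨P, Q, h1, h2⟩ := h.loc z hz
  obtain ⟨P', Q', h1', h2'⟩ := h.loc w hw
  refine ⟨P * Q', P' * Q, Q * Q', by simpa using ⟨h1, h1'⟩, ?_, ?_⟩
  · rw [map_mul, map_mul, ← h2, mul_assoc]
  · rw [map_mul, map_mul, ← h2']
    ring

theorem DcAff.exists_fr (h : DcAff s a L) (hu : L.Mx u) (hv : L.Mx v) :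
    ∃ U V G, DcFr s a u v U V G := by
  obtain ⟨U, V, G, h1, h2, h3⟩ := h.loc2 hu.1 hv.1
  refine ⟨U, V, G, h1, h2, h3, ?_, ?_⟩
  · rw [← h.ev, ← h2, L.ev_mul _ hu.1 _ (h.mem _), hu.2, zero_mul]
  · rw [← h.ev, ← h3, L.ev_mul _ hv.1 _ (h.mem _), hv.2, zero_mul]

theorem dc_ann [Fintype ι] (h : DcAff s a L) (hf : DcFr s a u v U V G) (hg : L.Gen u v)
    (ξ : ι → ℂ) (h1 : ∀ P, aeval s P = 0 → dcg a P ⬝ᵥ ξ = 0) (h2 : dcg a U ⬝ᵥ ξ = 0)
    (h3 : dcg a V ⬝ᵥ ξ = 0) : ξ = 0 := by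
  classical
  funext i
  obtain ⟨α, hα, β, hβ, e⟩ := hg.2.2 (aeval s (X i - C (a i) : MvPolynomial ι ℂ))
    ⟨h.mem _, by rw [h.ev]; simp⟩
  obtain ⟨A, B, H, b1, b2, b3⟩ := h.loc2 hα hβ
  have h4 := h1 ((X i - C (a i)) * (G * H) - A * U - B * V) (by
    rw [map_sub, map_sub, map_mul, map_mul, map_mul, map_mul, e, ← b2, ← b3, ← hf.hU, ← hf.hV]
    ring)
  rw [map_sub, map_sub, dcg_mul, dcg_mul a A, dcg_mul a B, map_sub (dcg a), dcg_C, dcg_X, hf.U0,
    hf.V0] at h4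
  simp only [sub_dotProduct, add_dotProduct, smul_dotProduct, h2, h3] at h4
  simpa [hf.hG, b1] using h4

theorem dc_indep [Fintype ι] (h : DcAff s a L) (hf : DcFr s a u v U V G) (hc : L.Coord u v)
    {x y : ℂ} {P : MvPolynomial ι ℂ} (hP : aeval s P = 0)
    (e : x • dcg a U + y • dcg a V = dcg a P) : x = 0 ∧ y = 0 := by
  have h1 : C x * U + C y * V - P ∈ dcm a * dcm a := dc_sq
    (by simp [hf.U0, hf.V0, h.van hP])
    (by rw [map_sub, map_add, ← smul_eq_C_mul, ← smul_eq_C_mul, map_smul, map_smul, e, sub_self])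
  have h2 : ∀ z ∈ dcm a * dcm a, ∃ p q, L.Mx p ∧ L.Mx q ∧ aeval s z = p * u + q * v := by
    intro z hz
    refine Submodule.mul_induction_on hz (fun z hz w hw => ?_) ?_
    · obtain ⟨α, hα, β, hβ, e⟩ := hc.1.2.2 (aeval s w) ⟨h.mem _, (h.ev w).trans hw⟩
      have hz0 : L.ev (aeval s z) = 0 := (h.ev z).trans hz
      refine ⟨aeval s z * α, aeval s z * β, ⟨L.O.mul_mem (h.mem _) hα, ?_⟩,
        ⟨L.O.mul_mem (h.mem _) hβ, ?_⟩, ?_⟩
      · rw [L.ev_mul _ (h.mem _) _ hα, hz0, zero_mul]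
      · rw [L.ev_mul _ (h.mem _) _ hβ, hz0, zero_mul]
      · rw [map_mul, e]
        ring
    · rintro z w ⟨p, q, hp, hq, e⟩ ⟨p', q', hp', hq', e'⟩
      refine ⟨p + p', q + q', ⟨L.O.add_mem hp.1 hp'.1, ?_⟩, ⟨L.O.add_mem hq.1 hq'.1, ?_⟩, ?_⟩
      · rw [L.ev_add _ hp.1 _ hp'.1, hp.2, hp'.2, add_zero]
      · rw [L.ev_add _ hq.1 _ hq'.1, hq.2, hq'.2, add_zero]
      · rw [map_add, e, e']
        ring
  obtain ⟨p, q, hp, hq, e2⟩ := h2 _ h1
  have h3 := hc.2 1 (fun i => if i = 0 then aeval s (C y * G) - q else aeval s (C x * G) - p)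
    (fun i => by
      split_ifs
      · exact L.O.sub_mem (h.mem _) hq.1
      · exact L.O.sub_mem (h.mem _) hp.1)
    (by
      rw [map_sub, map_add, map_mul, map_mul, hP, ← hf.hU, ← hf.hV] at e2
      simp only [Finset.sum_range_succ, Finset.range_zero, Finset.sum_empty, map_mul]
      simp only [if_true, one_ne_zero, if_false]
      linear_combination e2)
  have h4 := h3 0 (by omega)
  have h5 := h3 1 le_rfl
  simp only [if_true, one_ne_zero, if_false] at h4 h5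
  rw [LA.ev_sub (h.mem _) hq.1, h.ev, hq.2] at h4
  rw [LA.ev_sub (h.mem _) hp.1, h.ev, hp.2] at h5
  exact ⟨by simpa [hf.hG] using h5, by simpa [hf.hG] using h4⟩

theorem dc_nak2 [Fintype ι] (hf : DcFr s a u v U V G) (J : Ideal (MvPolynomial ι ℂ))
    (hJ : J ≤ dcm a) (h : ∀ ξ : ι → ℂ, (∀ P ∈ J, dcg a P ⬝ᵥ ξ = 0) → dcg a U ⬝ᵥ ξ = 0 →
      dcg a V ⬝ᵥ ξ = 0 → ξ = 0) :
    ∃ r, eval a r = 1 ∧ ∀ P, eval a P = 0 → ∃ α β, r * P - (α * U + β * V) ∈ J := by
  obtain ⟨r, h1, h2⟩ := dc_nak a (J ⊔ Ideal.span {U, V})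
    (sup_le hJ (Ideal.span_le.2 (by
      rintro _ (rfl | rfl)
      exacts [hf.U0, hf.V0])))
    fun ξ hξ => h ξ (fun P hP => hξ P (Ideal.mem_sup_left hP))
      (hξ U (Ideal.mem_sup_right (Ideal.subset_span (by simp))))
      (hξ V (Ideal.mem_sup_right (Ideal.subset_span (by simp))))
  refine ⟨r, h1, fun P hP => ?_⟩
  obtain ⟨j, hj, k, hk, e⟩ := Submodule.mem_sup.1 (h2 P hP)
  obtain ⟨α, β, rfl⟩ := Ideal.mem_span_pair.1 hk
  exact ⟨α, β, by rw [← e, add_sub_cancel_right]; exact hj⟩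

theorem dc_gen [Fintype ι] (h : DcAff s a L) (hf : DcFr s a u v U V G)
    (hξ : ∀ ξ : ι → ℂ, (∀ P, aeval s P = 0 → dcg a P ⬝ᵥ ξ = 0) → dcg a U ⬝ᵥ ξ = 0 →
      dcg a V ⬝ᵥ ξ = 0 → ξ = 0) : L.Gen u v := by
  have hu := h.frac hf.hG hf.hU
  have hv := h.frac hf.hG hf.hV
  refine ⟨⟨hu.1, by rw [hu.2, hf.U0, zero_div]⟩, ⟨hv.1, by rw [hv.2, hf.V0, zero_div]⟩,
    fun z hz => ?_⟩
  obtain ⟨r, h1, h2⟩ := dc_nak2 hf (RingHom.ker (aeval s : MvPolynomial ι ℂ →ₐ[ℂ] Ω))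
    (fun P hP => h.van hP) hξ
  obtain ⟨P, Q, hQ, e⟩ := h.loc z hz.1
  have hP : eval a P = 0 := by
    rw [← h.ev, ← e, L.ev_mul _ hz.1 _ (h.mem _), hz.2, zero_mul]
  obtain ⟨α, β, h3⟩ := h2 P hP
  have hun : L.Un (aeval s (r * Q)) := ⟨h.mem _, by rw [h.ev]; simpa [h1] using hQ⟩
  refine ⟨aeval s (α * G) * (aeval s (r * Q))⁻¹, L.O.mul_mem (h.mem _) hun.inv.1.1,
    aeval s (β * G) * (aeval s (r * Q))⁻¹, L.O.mul_mem (h.mem _) hun.inv.1.1, ?_⟩
  refine mul_right_cancel₀ hun.ne_zero ?_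
  have h4 : aeval s (r * P - (α * U + β * V)) = 0 := h3
  have h5 := inv_mul_cancel₀ hun.ne_zero
  simp only [map_sub, map_add, map_mul, ← e, ← hf.hU, ← hf.hV] at h4 h5 ⊢
  linear_combination h4 - (aeval s α * aeval s G * u + aeval s β * aeval s G * v) * h5

theorem dc_krull [Fintype ι] (h : DcAff s a L) (hf : DcFr s a u v U V G) (hc : L.Coord u v)
    (J : Ideal (MvPolynomial ι ℂ)) (hJ : ∀ P ∈ J, aeval s P = 0)
    (hs : ∀ ξ : ι → ℂ, (∀ P ∈ J, dcg a P ⬝ᵥ ξ = 0) → ∀ P, aeval s P = 0 → dcg a P ⬝ᵥ ξ = 0) :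
    ∃ g, eval a g ≠ 0 ∧ ∀ P, aeval s P = 0 → g * P ∈ J := by
  obtain ⟨r, h1, h2⟩ := dc_nak2 hf J (fun P hP => h.van (hJ P hP))
    fun ξ a1 a2 a3 => dc_ann h hf hc.1 ξ (hs ξ a1) a2 a3
  have h3 : ∀ P, aeval s P = 0 → ∀ n : ℕ, ∃ c : ℕ → MvPolynomial ι ℂ,
      r ^ n * P - ∑ i ∈ Finset.range (n + 1), c i * U ^ i * V ^ (n - i) ∈ J := by
    intro P hP n
    induction n with
    | zero => exact ⟨fun _ => P, by simp⟩
    | succ n ih =>
      obtain ⟨c, hc1⟩ := ih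
      have b1 := hc.2 n (fun i => aeval s (c i * G ^ n)) (fun i => h.mem _) (by
        have b2 := hJ _ hc1
        rw [map_sub, map_mul, hP, mul_zero, zero_sub, neg_eq_zero, map_sum] at b2
        refine Eq.trans (Finset.sum_congr rfl fun i hi => ?_) b2
        have hi' : i ≤ n := Nat.lt_succ_iff.1 (Finset.mem_range.1 hi)
        simp only [map_mul, map_pow, ← hf.hU, ← hf.hV, mul_pow]
        rw [← pow_mul_pow_sub (aeval s G) hi']
        ring)
      have b3 : ∀ i, ∃ α β, i ≤ n → r * c i - (α * U + β * V) ∈ J := fun i => by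
        by_cases hi : i ≤ n
        · have b4 := b1 i hi
          rw [h.ev] at b4
          obtain ⟨α, β, b5⟩ := h2 (c i) (by simpa [hf.hG] using b4)
          exact ⟨α, β, fun _ => b5⟩
        · exact ⟨0, 0, fun hi' => absurd hi' hi⟩
      choose α β b3 using b3
      refine ⟨fun i => (Nat.casesOn i 0 α : MvPolynomial ι ℂ) + if i ≤ n then β i else 0, ?_⟩
      rw [← dc_regroup U V n α β]
      have e : r ^ (n + 1) * P - ∑ i ∈ Finset.range (n + 1),
          (α i * U + β i * V) * U ^ i * V ^ (n - i) =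
          r * (r ^ n * P - ∑ i ∈ Finset.range (n + 1), c i * U ^ i * V ^ (n - i)) +
            ∑ i ∈ Finset.range (n + 1), (r * c i - (α i * U + β i * V)) * (U ^ i * V ^ (n - i)) := by
        simp only [sub_mul, Finset.sum_sub_distrib, mul_sub, Finset.mul_sum, mul_assoc]
        ring
      rw [e]
      exact add_mem (J.mul_mem_left _ hc1) (Ideal.sum_mem _ fun i hi => J.mul_mem_right _
        (b3 i (Nat.lt_succ_iff.1 (Finset.mem_range.1 hi))))
  have h4 : ∀ P, aeval s P = 0 → ∀ n : ℕ, P ∈ J ⊔ dcm a ^ n := by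
    intro P hP n
    obtain ⟨c, hc1⟩ := h3 P hP n
    have b1 : r ^ n * P ∈ J ⊔ dcm a ^ n := by
      rw [← sub_add_cancel (r ^ n * P) (∑ i ∈ Finset.range (n + 1), c i * U ^ i * V ^ (n - i))]
      refine Submodule.add_mem_sup hc1 (Ideal.sum_mem _ fun i hi => ?_)
      rw [mul_assoc, ← pow_mul_pow_sub (dcm a) (Nat.lt_succ_iff.1 (Finset.mem_range.1 hi))]
      exact Ideal.mul_mem_left _ _
        (Ideal.mul_mem_mul (Ideal.pow_mem_pow hf.U0 _) (Ideal.pow_mem_pow hf.V0 _))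
    have b2 : ∀ k ≤ n, P ∈ J ⊔ dcm a ^ k := by
      intro k
      induction k with
      | zero => simp
      | succ k ih =>
        intro hk
        obtain ⟨j, hj, w, hw, e⟩ := Submodule.mem_sup.1 (ih (by omega))
        have e2 : P = r ^ n * P + ((1 - r ^ n) * j + w * (1 - r ^ n)) := by
          rw [← e]
          ring
        rw [e2]
        refine add_mem (sup_le_sup_left (Ideal.pow_le_pow_right hk) J b1)
          (Submodule.add_mem_sup (J.mul_mem_left _ hj) ?_)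
        rw [pow_succ]
        exact Ideal.mul_mem_mul hw (by simp [mem_dcm, h1])
    exact b2 n le_rfl
  have h5 : RingHom.ker (aeval s : MvPolynomial ι ℂ →ₐ[ℂ] Ω) ≤
      J ⊔ dcm a • RingHom.ker (aeval s : MvPolynomial ι ℂ →ₐ[ℂ] Ω) := fun P hP => by
    obtain ⟨ρ, hρ⟩ := (Ideal.mem_iInf_smul_pow_eq_bot_iff (dcm a)
      (M := MvPolynomial ι ℂ ⧸ J) (J.mkQ P)).1 (Submodule.mem_iInf _ |>.2 fun n => by
        obtain ⟨j, hj, w, hw, e⟩ := Submodule.mem_sup.1 (h4 P hP n)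
        have e2 : J.mkQ P = w • J.mkQ 1 := by
          rw [← map_smul, smul_eq_mul, mul_one, ← e, map_add,
            (Submodule.Quotient.mk_eq_zero J).2 hj |> (id : J.mkQ j = 0 → _), zero_add]
        rw [e2]
        exact Submodule.smul_mem_smul hw Submodule.mem_top)
    have b1 : P - ρ * P ∈ J := by
      rw [← map_smul] at hρ
      exact (Submodule.Quotient.eq J).1 hρ.symm
    rw [← sub_add_cancel P (ρ * P)]
    exact Submodule.add_mem_sup b1 (Submodule.smul_mem_smul ρ.2 hP)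
  obtain ⟨g, h6, h7⟩ := Submodule.exists_sub_one_mem_and_smul_le_of_fg_of_le_sup
    (IsNoetherian.noetherian _) le_rfl h5
  refine ⟨g, ?_, fun P hP => h7 (Submodule.smul_mem_pointwise_smul P g _ hP)⟩
  have := mem_dcm.1 h6
  rw [map_sub, map_one, sub_eq_zero] at this
  rw [this]
  exact one_ne_zero

theorem dc_pick [Fintype ι] (a : ι → ℂ) (A : Set (MvPolynomial ι ℂ)) :
    ∃ (c : ℕ) (f : Fin c → MvPolynomial ι ℂ), (∀ k, f k ∈ A) ∧
      LinearIndependent ℂ (fun k => dcg a (f k)) ∧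
      ∀ ξ : ι → ℂ, (∀ k, dcg a (f k) ⬝ᵥ ξ = 0) → ∀ P ∈ A, dcg a P ⬝ᵥ ξ = 0 := by
  obtain ⟨κ, b, -, h1, h2⟩ := exists_linearIndependent' ℂ fun P : A => dcg a P
  have : Finite κ := h2.finite
  let e := Finite.equivFin κ
  refine ⟨_, fun k => b (e.symm k), fun k => (b _).2, h2.comp _ e.symm.injective,
    fun ξ hξ P hP => ?_⟩
  have h3 : dcg a P ∈ Submodule.span ℂ (Set.range ((fun P : A => dcg a P) ∘ b)) :=
    h1 ▸ Submodule.subset_span ⟨⟨P, hP⟩, rfl⟩
  generalize dcg a P = w at h3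
  induction h3 using Submodule.span_induction with
  | mem w hw =>
    obtain ⟨k, rfl⟩ := hw
    simpa using hξ (e k)
  | zero => simp
  | add w w' _ _ b1 b2 => rw [add_dotProduct, b1, b2, add_zero]
  | smul c w _ b1 => rw [smul_dotProduct, b1, smul_zero]

theorem dc_span_van {κ : Type} {f : κ → MvPolynomial ι ℂ} {A : Type} [CommRing A] [Algebra ℂ A]
    {w : ι → A} (h0 : ∀ k, aeval w (f k) = 0) :
    ∀ P ∈ Ideal.span (Set.range f), aeval w P = 0 := by
  have : Ideal.span (Set.range f) ≤ RingHom.ker (aeval w : MvPolynomial ι ℂ →ₐ[ℂ] A) :=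
    Ideal.span_le.2 (by
      rintro _ ⟨k, rfl⟩
      exact h0 k)
  exact fun P hP => this hP

end Vale.Agent.P300
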