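import Vale.Agent.P300.DChartX1

/-! P300: affine coordinates of the points of a projective model. -/

noncomputable section

namespace Vale.Agent.P300

open MvPolynomial

variable {Ω : Type} [Field Ω] [Algebra ℂ Ω] {ι : Type}

/-- affine coordinates in the chart number `j` -/
def dca (j : ι) (p : PSp ι) : ι → ℂ := fun i => p.rep i / p.rep j

theorem dc_aff {t : ι → Ω} (y : Zt t) {j : ι} (hj : y.1.rep j ≠ 0) :
    DcAff (fun i => t i / t j) (dca j y.1) (la t y) where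
  mem P := (LA.db_aeval (fun i => (ratio_mem y hj i).1) P).1
  ev P := db_ev_ratio y hj P
  loc z hz := by
    obtain ⟨r, hr, q, hq, h1, h2⟩ := (locOf_chA y hj).2 z hz
    rw [chA, Algebra.adjoin_range_eq_range_aeval] at hr hq
    obtain ⟨P, rfl⟩ := hr
    obtain ⟨Q, rfl⟩ := hq
    exact ⟨P, Q, fun h => h1 ((db_ev_ratio y hj Q).trans h), h2⟩

theorem dca_mk (j : ι) (v : {v : ι → ℂ // v ≠ 0}) :
    dca j (PSp.mk v) = (fun i => v.1 i / v.1 j) ∧ ((PSp.mk v).rep j ≠ 0 ↔ v.1 j ≠ 0) := by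
  obtain ⟨c, hc, e⟩ := db_rep_mk v
  refine ⟨funext fun i => ?_, ?_⟩
  · rw [dca, e]
    exact mul_div_mul_left _ _ hc
  · rw [e]
    simp [hc]

theorem dc_mk_div {j : ι} (v : {v : ι → ℂ // v ≠ 0}) (hj : v.1 j ≠ 0)
    (h : (fun i => v.1 i / v.1 j) ≠ 0) : PSp.mk v = PSp.mk ⟨_, h⟩ :=
  (PSp.mk_eq_iff _ _).2 ⟨v.1 j, hj, funext fun i => by
    simp only [Pi.smul_apply, smul_eq_mul]
    rw [mul_div_cancel₀ _ hj]⟩

theorem dca_ne {j : ι} {p : PSp ι} (hj : p.rep j ≠ 0) : dca j p ≠ 0 := fun h => by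
  simpa [dca, hj] using congrFun h j

theorem dc_mk_dca {j : ι} {p : PSp ι} (hj : p.rep j ≠ 0) : PSp.mk ⟨dca j p, dca_ne hj⟩ = p :=
  (dc_mk_div ⟨p.rep, p.rep_ne⟩ hj _).symm.trans p.mk_rep

theorem dca_inj {j : ι} {p q : PSp ι} (hp : p.rep j ≠ 0) (hq : q.rep j ≠ 0)
    (h : dca j p = dca j q) : p = q := by
  rw [← dc_mk_dca hp, ← dc_mk_dca hq]
  exact congrArg PSp.mk (Subtype.ext h)

theorem dc_pt {t : ι → Ω} {j : ι} (hj : t j ≠ 0) {w : ι → ℂ}
    (hw : ∀ P : MvPolynomial ι ℂ, aeval (fun i => t i / t j) P = 0 → eval w P = 0) :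
    ∃ y : Zt t, y.1.rep j ≠ 0 ∧ dca j y.1 = w := by
  have h1 : w j = 1 := by
    have := hw (X j - 1) (by simp [hj])
    simpa [sub_eq_zero] using this
  have h0 : w ≠ 0 := fun h => by simp [h] at h1
  obtain ⟨c, hc, e⟩ := db_rep_mk ⟨w, h0⟩
  refine ⟨⟨PSp.mk ⟨w, h0⟩, ?_⟩, (dca_mk j ⟨w, h0⟩).2.2 (by simp [h1]), ?_⟩
  · rintro P ⟨⟨d, hd⟩, hP⟩
    rw [e, db_scale_eval hd, hw P (by rw [db_ratio hd, hP, mul_zero]), mul_zero]
  · rw [(dca_mk j ⟨w, h0⟩).1]
    simp [h1]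

theorem dc_homog [Fintype ι] {t : ι → Ω} {j : ι} (hj : t j ≠ 0) {a ξ : ι → ℂ} (ha : a j = 1)
    (hξ : ξ j = 0) {P : MvPolynomial ι ℂ} (hP : aeval (fun i => t i / t j) P = 0) :
    ∃ Q : MvPolynomial ι ℂ, (∃ d, Q.IsHomogeneous d) ∧ aeval t Q = 0 ∧
      dcg a Q ⬝ᵥ ξ = dcg a P ⬝ᵥ ξ := by
  classical
  have h1 : ∀ k : ℕ, dcg a (X j ^ k) ⬝ᵥ ξ = 0 := fun k => by
    induction k with
    | zero => rw [pow_zero, ← C_1, dcg_C, zero_dotProduct]
    | succ k ih => rw [pow_succ, dcg_mul, add_dotProduct, smul_dotProduct, smul_dotProduct, ih,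
        dcg_X, single_dotProduct, hξ, mul_zero, smul_zero, smul_zero, add_zero]
  have h2 : (∑ d ∈ Finset.range (P.totalDegree + 1),
      homogeneousComponent d P * X j ^ (P.totalDegree - d)).IsHomogeneous P.totalDegree := by
    refine IsHomogeneous.sum _ _ _ fun d hd => ?_
    have h3 := (homogeneousComponent_isHomogeneous d P).mul
      (isHomogeneous_X_pow (R := ℂ) j (P.totalDegree - d))
    rwa [Nat.add_sub_cancel' (Nat.lt_succ_iff.1 (Finset.mem_range.1 hd))] at h3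
  refine ⟨_, ⟨_, h2⟩, ?_, ?_⟩
  · have h3 := db_ratio h2 t j
    rw [map_sum] at h3
    simp only [map_mul, map_pow, aeval_X, div_self hj, one_pow, mul_one] at h3
    rw [← map_sum, sum_homogeneousComponent, hP] at h3
    exact (mul_eq_zero.1 h3.symm).resolve_left (pow_ne_zero _ (inv_ne_zero hj))
  · conv_rhs => rw [← sum_homogeneousComponent P]
    rw [map_sum, map_sum, sum_dotProduct, sum_dotProduct]
    refine Finset.sum_congr rfl fun d _ => ?_
    rw [dcg_mul, add_dotProduct, smul_dotProduct, smul_dotProduct, h1, map_pow, eval_X, ha]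
    simp

end Vale.Agent.P300
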