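import Vale.Agent.P300.DConnX1

/-! P300: norms along a clopen part of a finite covering of the open part of the plane. -/

noncomputable section

namespace Vale.Agent.P300

open Topology Filter Polynomial

section Cover

variable {E X : Type} [TopologicalSpace E] [TopologicalSpace X] {p : E → X}

/-- local sections of a finite covering -/
theorem dconn_sections (hp : IsCoveringMap p) (hfin : ∀ x, (p ⁻¹' {x}).Finite) {A : Set E}
    (hA : IsClopen A) (x : X) : ∃ s : p ⁻¹' {x} → X → E, (∀ i, Tendsto (s i) (𝓝 x) (𝓝 (s i x))) ∧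
      ∀ᶠ x' in 𝓝 x, (Function.Injective fun i => s i x') ∧ (∀ e, p e = x' ↔ ∃ i, s i x' = e) ∧
        ∀ i, (s i x' ∈ A ↔ s i x ∈ A) := by
  classical
  obtain ⟨-, U, hxU, hU, -, H, hH⟩ := hp x
  have := (hfin x).to_subtype
  let s : p ⁻¹' {x} → X → E := fun i x' => if h : x' ∈ U then (H.symm (⟨x', h⟩, i)).1 else i.1
  have hs : ∀ i x' (h : x' ∈ U), s i x' = (H.symm (⟨x', h⟩, i)).1 := fun i x' h => dif_pos h
  have hc : ∀ i, ContinuousAt (s i) x := by
    intro i
    refine ContinuousOn.continuousAt (s := U) ?_ (hU.mem_nhds hxU)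
    rw [continuousOn_iff_continuous_domRestrict]
    have : Continuous fun x' : U => (H.symm (x', i)).1 := by fun_prop
    exact this.congr fun x' => (hs i x' x'.2).symm
  refine ⟨s, hc, ?_⟩
  have h3 : ∀ᶠ x' in 𝓝 x, ∀ i, (s i x' ∈ A ↔ s i x ∈ A) := by
    rw [eventually_all]
    intro i
    by_cases hi : s i x ∈ A
    · filter_upwards [hc i (hA.isOpen.mem_nhds hi)] with x' hx'
      exact iff_of_true hx' hi
    · filter_upwards [hc i (hA.compl.isOpen.mem_nhds hi)] with x' hx'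
      exact iff_of_false hx' hi
  filter_upwards [hU.mem_nhds hxU, h3] with x' hx' h3'
  refine ⟨fun i j hij => ?_, fun e => ⟨fun he => ?_, ?_⟩, h3'⟩
  · simp only [hs _ _ hx'] at hij
    exact (Prod.ext_iff.1 (H.symm.injective (Subtype.ext hij))).2
  · have he' : e ∈ p ⁻¹' U := by rw [Set.mem_preimage, he]; exact hx'
    refine ⟨(H ⟨e, he'⟩).2, ?_⟩
    rw [hs _ _ hx']
    have : ((⟨x', hx'⟩ : U), (H ⟨e, he'⟩).2) = H ⟨e, he'⟩ :=
      Prod.ext (Subtype.ext (by rw [hH]; exact he.symm)) rfl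
    rw [this, H.symm_apply_apply]
  · rintro ⟨i, rfl⟩
    rw [hs _ _ hx', ← hH, H.apply_symm_apply]

open Classical in
/-- the points of `A` over `x` -/
def dconnF (hfin : ∀ x, (p ⁻¹' {x}).Finite) (A : Set E) (x : X) : Finset E :=
  (hfin x).toFinset.filter (· ∈ A)

omit [TopologicalSpace E] [TopologicalSpace X] in
theorem mem_dconnF {hfin : ∀ x, (p ⁻¹' {x}).Finite} {A : Set E} {x : X} {e : E} :
    e ∈ dconnF hfin A x ↔ p e = x ∧ e ∈ A := by
  simp [dconnF]

/-- local description of the points of `A` over nearby points -/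
theorem dconn_local (hp : IsCoveringMap p) (hfin : ∀ x, (p ⁻¹' {x}).Finite) {A : Set E}
    (hA : IsClopen A) (x : X) : ∃ (I : Finset (p ⁻¹' {x})) (s : p ⁻¹' {x} → X → E),
      (∀ i, Tendsto (s i) (𝓝 x) (𝓝 (s i x))) ∧ ∀ᶠ x' in 𝓝 x, (∀ i, p (s i x') = x') ∧
        (dconnF hfin A x').card = I.card ∧
        ∀ f : E → ℂ, ∏ e ∈ dconnF hfin A x', f e = ∏ i ∈ I, f (s i x') := by
  classical
  obtain ⟨s, hc, h⟩ := dconn_sections hp hfin hA x
  have := (hfin x).fintype
  refine ⟨Finset.univ.filter fun i => s i x ∈ A, s, hc, ?_⟩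
  filter_upwards [h] with x' ⟨h1, h2, h3⟩
  have e : dconnF hfin A x' = (Finset.univ.filter fun i => s i x ∈ A).image fun i => s i x' := by
    ext e
    simp only [mem_dconnF, Finset.mem_image, Finset.mem_filter, Finset.mem_univ, true_and, h2]
    constructor
    · rintro ⟨⟨i, rfl⟩, hi⟩
      exact ⟨i, (h3 i).1 hi, rfl⟩
    · rintro ⟨i, hi, rfl⟩
      exact ⟨⟨i, rfl⟩, (h3 i).2 hi⟩
  refine ⟨fun i => (h2 _).2 ⟨i, rfl⟩, ?_, fun f => ?_⟩
  · rw [e, Finset.card_image_of_injective _ h1]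
  · rw [e, Finset.prod_image fun i _ j _ hij => h1 hij]

theorem dconn_card [PreconnectedSpace X] (hp : IsCoveringMap p) (hfin : ∀ x, (p ⁻¹' {x}).Finite)
    {A : Set E} (hA : IsClopen A) (x x' : X) :
    (dconnF hfin A x).card = (dconnF hfin A x').card := by
  have : IsLocallyConstant fun x => (dconnF hfin A x).card := by
    rw [IsLocallyConstant.iff_eventually_eq]
    intro x
    obtain ⟨I, s, -, h⟩ := dconn_local hp hfin hA x
    filter_upwards [h] with x' hx'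
    rw [hx'.2.1, h.self_of_nhds.2.1]
  exact this.apply_eq_of_preconnectedSpace x x'

end Cover

theorem dconn_nhds {S : Finset ℂ} {x : U0 S} {P : U0 S → Prop} (h : ∀ᶠ x' in 𝓝 x, P x') :
    ∀ᶠ q in 𝓝 x.1, ∃ hq : q ∈ U0 S, P ⟨q, hq⟩ := by
  rw [← (isOpen_U0 S).isOpenEmbedding_subtypeVal.map_nhds_eq x, eventually_map]
  filter_upwards [h] with x' hx'
  exact ⟨x'.2, hx'⟩

variable {E : Type} [TopologicalSpace E] {S : Finset ℂ} {p : E → U0 S}

theorem dconn_preconn (S : Finset ℂ) : PreconnectedSpace (U0 S) :=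
  isPreconnected_iff_preconnectedSpace.1 (isPathConnected_U0 S).isConnected.isPreconnected

/-- the norm of `T - θ` along `A` is rational -/
theorem dconn_norm (hp : IsCoveringMap p) (hfin : ∀ x, (p ⁻¹' {x}).Finite) {A : Set E}
    (hA : IsClopen A) {θ : E → ℂ} (hθ : dconnPG (fun e => (p e).1) θ)
    (hana : ∀ e, ∃ f : ℂ × ℂ → ℂ, DifferentiableAt ℂ f (p e).1 ∧ ∀ᶠ e' in 𝓝 e, θ e' = f (p e').1)
    (T : ℂ) : ∃ (n : ℕ) (r l : ℕ → ℂ[X]), ∀ x : U0 S,
      dconnD S x.1 * ∏ e ∈ dconnF hfin A x, (T - θ e) =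
        ∑ k ∈ Finset.range n, (r k).eval x.1.1 * (l k).eval x.1.2 := by
  classical
  have := dconn_preconn S
  let h : ℂ × ℂ → ℂ := fun q =>
    if hq : q ∈ U0 S then ∏ e ∈ dconnF hfin A ⟨q, hq⟩, (T - θ e) else 0
  have hh : ∀ x : U0 S, h x.1 = ∏ e ∈ dconnF hfin A x, (T - θ e) := fun x => dif_pos x.2
  have h1 : ∀ q ∈ U0 S, DifferentiableAt ℂ h q := by
    intro q hq
    obtain ⟨I, s, hc, he⟩ := dconn_local hp hfin hA ⟨q, hq⟩
    choose f hf hf' using hana
    have h2 : ∀ᶠ x' in 𝓝 (⟨q, hq⟩ : U0 S), ∀ i ∈ I, θ (s i x') = f (s i ⟨q, hq⟩) (p (s i x')).1 := by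
      rw [eventually_all_finset]
      exact fun i _ => (hc i).eventually (hf' _)
    have h3 : h =ᶠ[𝓝 q] fun q' => ∏ i ∈ I, (T - f (s i ⟨q, hq⟩) q') := by
      filter_upwards [dconn_nhds (he.and h2)] with q' ⟨hq', ⟨a1, _, a3⟩, a4⟩
      rw [hh ⟨q', hq'⟩, a3 fun e => T - θ e]
      exact Finset.prod_congr rfl fun i hi => by rw [a4 i hi, a1]
    refine DifferentiableAt.congr_of_eventuallyEq (dconn_diffAt_prod _ fun i _ => ?_) h3
    have := hf (s i ⟨q, hq⟩)
    rw [he.self_of_nhds.1 i] at this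
    exact this.const_sub T
  have h2 : dconnPG id h := by
    obtain ⟨C, N, hC, hb⟩ := (dconnPG.const T).sub hθ
    obtain ⟨x₀, hx₀⟩ := (isPathConnected_U0 S).nonempty
    refine ⟨C ^ (dconnF hfin A ⟨x₀, hx₀⟩).card, N * (dconnF hfin A ⟨x₀, hx₀⟩).card,
      by positivity, fun q => ?_⟩
    by_cases hq : q ∈ U0 S
    · rw [hh ⟨q, hq⟩, dconn_card hp hfin hA ⟨x₀, hx₀⟩ ⟨q, hq⟩, pow_mul, ← mul_pow, norm_prod,
        ← Finset.prod_const]
      refine Finset.prod_le_prod (fun _ _ => norm_nonneg _) fun e he => ?_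
      have := hb e
      dsimp only at this
      rwa [(mem_dconnF.1 he).1] at this
    · have : h q = 0 := dif_neg hq
      rw [this, norm_zero]
      positivity
  obtain ⟨n, r, l, e⟩ := dconn_two S h1 h2
  exact ⟨n, r, l, fun x => by rw [← hh, e _ x.2]⟩

omit [TopologicalSpace E] in
theorem dconn_aeval_mem {R : Subalgebra ℂ (E → ℂ)} {f : E → ℂ} (hf : f ∈ R) (r : ℂ[X]) :
    (fun e => r.eval (f e)) ∈ R := by
  have h : aeval f r ∈ R :=
    Algebra.adjoin_le (Set.singleton_subset_iff.2 hf) (aeval_mem_adjoin_singleton ℂ f)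
  have e : (fun e => r.eval (f e)) = aeval f r := by
    funext e
    rw [aeval_fn_apply, coe_aeval_eq_eval]
  rwa [e]

/-- the characteristic polynomial of `θ` along `A`, evaluated at `θ` -/
theorem dconn_main (hp : IsCoveringMap p) (hfin : ∀ x, (p ⁻¹' {x}).Finite) {A : Set E}
    (hA : IsClopen A) {θ : E → ℂ} (hθ : dconnPG (fun e => (p e).1) θ)
    (hana : ∀ e, ∃ f : ℂ × ℂ → ℂ, DifferentiableAt ℂ f (p e).1 ∧ ∀ᶠ e' in 𝓝 e, θ e' = f (p e').1)
    {R : Subalgebra ℂ (E → ℂ)} (h1 : (fun e => (p e).1.1) ∈ R) (h2 : (fun e => (p e).1.2) ∈ R)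
    (h3 : θ ∈ R) :
    (fun e => dconnD S (p e).1 * ∏ e' ∈ dconnF hfin A (p e), (θ e - θ e')) ∈ R := by
  have := dconn_preconn S
  obtain ⟨x₀, hx₀⟩ := (isPathConnected_U0 S).nonempty
  set n := (dconnF hfin A ⟨x₀, hx₀⟩).card with hn
  have key : ∀ T : ℂ, (fun e => dconnD S (p e).1 * ∏ e' ∈ dconnF hfin A (p e), (T - θ e')) ∈ R := by
    intro T
    obtain ⟨m, r, l, h⟩ := dconn_norm hp hfin hA hθ hana T
    have e : (fun e => dconnD S (p e).1 * ∏ e' ∈ dconnF hfin A (p e), (T - θ e')) =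
        ∑ k ∈ Finset.range m, (fun e => (r k).eval (p e).1.1) * fun e => (l k).eval (p e).1.2 := by
      funext e
      rw [h, Finset.sum_apply]
      rfl
    rw [e]
    exact R.sum_mem fun k _ => R.mul_mem (dconn_aeval_mem h1 _) (dconn_aeval_mem h2 _)
  have e : (fun e => dconnD S (p e).1 * ∏ e' ∈ dconnF hfin A (p e), (θ e - θ e')) =
      ∑ k ∈ Finset.range (n + 1),
        (fun e => dconnD S (p e).1 * ∏ e' ∈ dconnF hfin A (p e), ((k : ℂ) + 2 - θ e')) *
        fun e => (Lagrange.basis (Finset.range (n + 1)) (fun k : ℕ => (k : ℂ) + 2) k).eval (θ e) := by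
    funext e
    have hd : (∏ e' ∈ dconnF hfin A (p e), (X - C (θ e')) : ℂ[X]).natDegree ≤ n := by
      rw [natDegree_finsetProd_X_sub_C_eq_card, hn, dconn_card hp hfin hA ⟨x₀, hx₀⟩ (p e)]
    have := dconn_lagr hd (θ e)
    simp only [eval_prod, eval_sub, eval_X, eval_C] at this
    rw [this, Finset.sum_apply, Finset.mul_sum]
    exact Finset.sum_congr rfl fun k _ => by rw [Pi.mul_apply, mul_assoc]
  rw [e]
  exact R.sum_mem fun k _ => R.mul_mem (key _) (dconn_aeval_mem h3 _)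

end Vale.Agent.P300
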