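import Vale.Agent.P300.DDefs

/-! P300: the open part of the plane is path connected. -/

noncomputable section

namespace Vale.Agent.P300

/-- a real number larger than the modulus of the five points by at least one -/
def Rr (b : ℂ) : ℝ := 2 + ‖b‖ + ‖b‖ ^ 2

theorem norm_av_le (i : Fin 5) (b : ℂ) : ‖av i b‖ + 1 ≤ Rr b := by
  have h0 := norm_nonneg b
  have h1 := sq_nonneg ‖b‖
  have h2 : ‖1 + b‖ ≤ 1 + ‖b‖ := by simpa using norm_add_le 1 b
  unfold Rr
  fin_cases i <;> simp [av] <;> linarith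

theorem continuous_Rr : Continuous Rr := by
  unfold Rr
  fun_prop

theorem sec_mem {S : Finset ℂ} {b : ℂ} (hb : b ∉ S) : (b, (Rr b : ℂ)) ∈ U0 S := by
  refine ⟨hb, fun i h => ?_⟩
  have h1 := norm_av_le i b
  have h2 : ((Rr b : ℝ) : ℂ) = av i b := h
  rw [← h2, Complex.norm_real, Real.norm_eq_abs] at h1
  linarith [le_abs_self (Rr b)]

theorem tu0_cont_av (i : Fin 5) : Continuous fun b : ℂ => av i b := by
  fin_cases i <;> simp [av] <;> fun_prop

theorem isOpen_U0 (S : Finset ℂ) : IsOpen (U0 S) := by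
  have h1 : IsOpen {q : ℂ × ℂ | q.1 ∉ S} :=
    (S.finite_toSet.isClosed.isOpen_compl).preimage continuous_fst
  have h2 : IsOpen {q : ℂ × ℂ | ∀ i, q.2 ≠ av i q.1} := by
    rw [Set.ofPred_forall]
    exact isOpen_iInter_of_finite fun i =>
      isOpen_ne_fun continuous_snd ((tu0_cont_av i).comp continuous_fst)
  exact h1.inter h2

theorem isPathConnected_U0 (S : Finset ℂ) : IsPathConnected (U0 S) := by
  have hr : 1 < Module.rank ℝ ℂ := by
    rw [Complex.rank_real_complex]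
    exact Cardinal.one_lt_two
  have h1 := (S.finite_toSet.countable.isPathConnected_compl_of_one_lt_rank hr).image
    (f := fun b : ℂ => (b, (Rr b : ℂ)))
    (continuous_id.prodMk (Complex.continuous_ofReal.comp continuous_Rr))
  have h2 : (fun b : ℂ => (b, (Rr b : ℂ))) '' (S : Set ℂ)ᶜ ⊆ U0 S := by
    rintro _ ⟨b, hb, rfl⟩
    exact sec_mem hb
  obtain ⟨q0, hq0, h3⟩ := h1
  refine ⟨q0, h2 hq0, fun {q} hq => ?_⟩
  have h4 := ((Set.finite_range fun i => av i q.1).countable.isPathConnected_compl_of_one_lt_rank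
    hr).image (f := fun x : ℂ => (q.1, x)) (continuous_const.prodMk continuous_id)
  have h5 : (fun x : ℂ => (q.1, x)) '' (Set.range fun i => av i q.1)ᶜ ⊆ U0 S := by
    rintro _ ⟨x, hx, rfl⟩
    exact ⟨hq.1, fun i h => hx ⟨i, h.symm⟩⟩
  have h6 := h4.joinedIn (q.1, (Rr q.1 : ℂ))
    ⟨_, fun ⟨i, h⟩ => (sec_mem hq.1).2 i h.symm, rfl⟩ q ⟨q.2, fun ⟨i, h⟩ => hq.2 i h.symm, rfl⟩
  exact ((h3 ⟨q.1, hq.1, rfl⟩).mono h2).trans (h6.mono h5)

end Vale.Agent.P300
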