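import Vale.Agent.P300.DSpm
import Vale.Agent.P300.TU0
import Vale.Agent.P300.DConnX2

/-! P300: the open part of a good model is connected. -/

noncomputable section

namespace Vale.Agent.P300

open Topology Filter

variable {Ω : Type} [Field Ω] [Algebra ℂ Ω] {ι : Type} [Fintype ι]

/-- functions on the open part given by everywhere regular elements -/
def dconnR (D : Dat Ω) (t : ι → Ω) : Subalgebra ℂ ({y : Zt t | D.IsU (la t y)} → ℂ) where
  carrier := {φ | ∃ z, ∀ y : {y : Zt t | D.IsU (la t y)},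
    z ∈ (la t y.1).O ∧ (la t y.1).ev z = φ y}
  mul_mem' := by
    rintro φ ψ ⟨z, hz⟩ ⟨w, hw⟩
    exact ⟨z * w, fun y => ⟨Subalgebra.mul_mem _ (hz y).1 (hw y).1, by
      rw [LA.ev_mul _ _ (hz y).1 _ (hw y).1, (hz y).2, (hw y).2, Pi.mul_apply]⟩⟩
  add_mem' := by
    rintro φ ψ ⟨z, hz⟩ ⟨w, hw⟩
    exact ⟨z + w, fun y => ⟨Subalgebra.add_mem _ (hz y).1 (hw y).1, by
      rw [LA.ev_add _ _ (hz y).1 _ (hw y).1, (hz y).2, (hw y).2, Pi.add_apply]⟩⟩
  algebraMap_mem' := fun c =>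
    ⟨algebraMap ℂ Ω c, fun y => ⟨Subalgebra.algebraMap_mem _ c, LA.ev_alg _ c⟩⟩

theorem dconn_adj_le {D : Dat Ω} {L : LA Ω} (h : D.IsU L) :
    Algebra.adjoin ℂ {D.b, D.x} ≤ L.O := by
  refine Algebra.adjoin_le ?_
  rintro z (rfl | rfl)
  · exact h.mem.1
  · exact h.mem.2.1

omit [Fintype ι] in
theorem dconn_pg_adj (D : Dat Ω) (t : ι → Ω) {z : Ω} (hz : z ∈ Algebra.adjoin ℂ {D.b, D.x}) :
    dconnPG (fun e => (D.prU t e).1) fun e => (la t e.1).ev z := by
  induction hz using Algebra.adjoin_induction with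
  | mem z hz =>
    rcases hz with rfl | rfl
    · exact dconnPG.fst
    · exact dconnPG.snd
  | algebraMap c => simpa only [LA.ev_alg] using dconnPG.const c
  | add z w hz hw h1 h2 =>
    have e : (fun e : {y : Zt t | D.IsU (la t y)} => (la t e.1).ev (z + w)) =
        fun e => (la t e.1).ev z + (la t e.1).ev w :=
      funext fun e => LA.ev_add _ _ (dconn_adj_le e.2 hz) _ (dconn_adj_le e.2 hw)
    rw [e]
    exact h1.add h2
  | mul z w hz hw h1 h2 =>
    have e : (fun e : {y : Zt t | D.IsU (la t y)} => (la t e.1).ev (z * w)) =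
        fun e => (la t e.1).ev z * (la t e.1).ev w :=
      funext fun e => LA.ev_mul _ _ (dconn_adj_le e.2 hz) _ (dconn_adj_le e.2 hw)
    rw [e]
    exact h1.mul h2

omit [Fintype ι] in
theorem dconn_RM_le {D : Dat Ω} {M : IntermediateField ℂ Ω} {t : ι → Ω} (hG : D.Good M t)
    (e : {y : Zt t | D.IsU (la t y)}) : D.RM M ≤ (la t e.1).O :=
  ((hG.2 e.1).2.2 e.2).1

omit [Fintype ι] in
theorem dconn_pg_RM {D : Dat Ω} {M : IntermediateField ℂ Ω} {t : ι → Ω} (hG : D.Good M t)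
    {w : Ω} (hw : w ∈ D.RM M) : dconnPG (fun e => (D.prU t e).1) fun e => (la t e.1).ev w := by
  obtain ⟨P, hP, h0⟩ : IsIntegral (Algebra.adjoin ℂ {D.b, D.x}) w := hw.1
  refine dconnPG.root P.natDegree (fun j e => (la t e.1).ev (P.coeff j))
    (fun j => dconn_pg_adj D t (P.coeff j).2) fun e => ?_
  rw [hP.as_sum, Polynomial.eval₂_add, Polynomial.eval₂_X_pow, Polynomial.eval₂_finsetSum] at h0
  simp only [Polynomial.eval₂_mul, Polynomial.eval₂_C, Polynomial.eval₂_X_pow] at h0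
  have h1 : (⟨w, dconn_RM_le hG e hw⟩ : (la t e.1).O) ^ P.natDegree +
      ∑ j ∈ Finset.range P.natDegree, (⟨P.coeff j, dconn_adj_le e.2 (P.coeff j).2⟩ : (la t e.1).O) *
        ⟨w, dconn_RM_le hG e hw⟩ ^ j = 0 := Subtype.ext (by simpa using h0)
  have h2 := congrArg (la t e.1).evHom h1
  simp only [map_add, map_pow, map_sum, map_mul, map_zero] at h2
  exact h2

theorem dconn_ana {D : Dat Ω} {M : IntermediateField ℂ Ω} {t : ι → Ω} (hG : D.Good M t)
    {w : Ω} (hw : w ∈ D.RM M) (e : {y : Zt t | D.IsU (la t y)}) :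
    ∃ f : ℂ × ℂ → ℂ, DifferentiableAt ℂ f (D.prU t e).1 ∧
      ∀ᶠ e' in 𝓝 e, (la t e'.1).ev w = f (D.prU t e').1 := by
  obtain ⟨ch, -⟩ := exists_achart t e.1 (hG.coord_of_isU e.2) univ_mem
  have h0 : (0 : ℂ × ℂ) ∈ ch.κ.target := ch.ctr ▸ ch.κ.map_source ch.mem
  have h1 : ch.κ.symm 0 = e.1 := ch.ctr ▸ ch.κ.left_inv ch.mem
  refine ⟨fun q => (la t (ch.κ.symm (q - (D.prU t e).1))).ev w, ?_, ?_⟩
  · have h2 := (ch.ana w 0 h0 (by rw [h1]; exact dconn_RM_le hG e hw)).differentiableAt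
    have h3 : DifferentiableAt ℂ (fun q : ℂ × ℂ => q - (D.prU t e).1) (D.prU t e).1 :=
      differentiableAt_id.sub_const _
    exact DifferentiableAt.comp (f := fun q : ℂ × ℂ => q - (D.prU t e).1) (D.prU t e).1
      (by simpa using h2) h3
  · filter_upwards [continuous_subtype_val.continuousAt (ch.κ.open_source.mem_nhds ch.mem)]
      with e' he'
    have h3 : ch.κ e'.1 = (D.prU t e').1 - (D.prU t e).1 := by
      rw [ch.kap _ he', LA.ctr, LA.ctr,
        LA.ev_sub (Dat.IsU.mem e'.2).1 (Subalgebra.algebraMap_mem _ _),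
        LA.ev_sub (Dat.IsU.mem e'.2).2.1 (Subalgebra.algebraMap_mem _ _), LA.ev_alg, LA.ev_alg]
      rfl
    rw [← h3, ch.κ.left_inv he']

theorem Dat.Good.preconnected {D : Dat Ω} {K M : IntermediateField ℂ Ω} (hK : D.BaseField K)
    (hle : K ⊔ IntermediateField.adjoin ℂ {D.x} ≤ M) {t : ι → Ω} (hG : D.Good M t) :
    IsPreconnected {y : Zt t | D.IsU (la t y)} := by
  have hKM : K ≤ M := le_sup_left.trans hle
  have hb : D.b ∈ M := by
    obtain ⟨T, hT, -⟩ := hK.fin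
    exact hKM (hT ▸ IntermediateField.subset_adjoin _ _ (Set.mem_insert _ _))
  have hx : D.x ∈ M := (le_sup_right.trans hle) (IntermediateField.mem_adjoin_simple_self ℂ D.x)
  obtain ⟨H, hH⟩ := hG.exists_homeo hb hx fun p hp => hKM (hK.rt_mem p hp)
  obtain ⟨hp, hfin⟩ := hG.covering_prU
  rw [isPreconnected_iff_preconnectedSpace]
  refine preconnectedSpace_of_forall_constant fun F hF a y => ?_
  by_contra hne
  have hA : IsClopen (F ⁻¹' {F a}) := (isClopen_discrete _).preimage hF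
  have sep : ∀ e ∈ dconnF hfin (F ⁻¹' {F a}) (D.prU t y), ∃ z ∈ D.RM M,
      (la t e.1).ev z = 0 ∧ (la t y.1).ev z ≠ 0 := by
    intro e he
    have h1 : e ≠ y := by
      rintro rfl
      exact hne (mem_dconnF.1 he).2.symm
    have h2 : (H e).1 ≠ (H y).1 := fun h => h1 (H.injective (Subtype.ext h))
    obtain ⟨z, hz⟩ := Function.ne_iff.1 h2
    have hzR : z ∈ D.RM M := by
      by_contra hzR
      exact hz (((H e).2.2.2.1 z hzR).trans ((H y).2.2.2.1 z hzR).symm)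
    rw [hH e z hzR, hH y z hzR] at hz
    refine ⟨z - algebraMap ℂ Ω ((la t e.1).ev z),
      Subalgebra.sub_mem _ hzR (Subalgebra.algebraMap_mem _ _), ?_, ?_⟩
    · rw [LA.ev_sub (dconn_RM_le hG e hzR) (Subalgebra.algebraMap_mem _ _), LA.ev_alg, sub_self]
    · rw [LA.ev_sub (dconn_RM_le hG y hzR) (Subalgebra.algebraMap_mem _ _), LA.ev_alg]
      exact sub_ne_zero.2 hz.symm
  have sep' : ∀ s : Finset {y : Zt t | D.IsU (la t y)},
      s ⊆ dconnF hfin (F ⁻¹' {F a}) (D.prU t y) → ∃ w ∈ D.RM M,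
      (∀ e ∈ s, (la t e.1).ev w = 0) ∧ (la t y.1).ev w ≠ 0 := by
    classical
    intro s
    induction s using Finset.induction_on with
    | empty => exact fun _ => ⟨1, Subalgebra.one_mem _, by simp, by rw [LA.ev_one]; exact one_ne_zero⟩
    | insert e s _ ih =>
      intro hs
      obtain ⟨w, hw, h1, h2⟩ := ih ((Finset.subset_insert _ _).trans hs)
      obtain ⟨z, hz, h3, h4⟩ := sep e (hs (Finset.mem_insert_self _ _))
      refine ⟨z * w, Subalgebra.mul_mem _ hz hw, fun e' he' => ?_, ?_⟩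
      · rw [LA.ev_mul _ _ (dconn_RM_le hG e' hz) _ (dconn_RM_le hG e' hw)]
        rcases Finset.mem_insert.1 he' with rfl | he'
        · rw [h3, zero_mul]
        · rw [h1 e' he', mul_zero]
      · rw [LA.ev_mul _ _ (dconn_RM_le hG y hz) _ (dconn_RM_le hG y hw)]
        exact mul_ne_zero h4 h2
  obtain ⟨w, hw, h1, h2⟩ := sep' _ subset_rfl
  obtain ⟨z, hz⟩ := dconn_main hp hfin hA (dconn_pg_RM hG hw) (dconn_ana hG hw)
    (R := dconnR D t) ⟨D.b, fun e => ⟨(Dat.IsU.mem e.2).1, rfl⟩⟩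
    ⟨D.x, fun e => ⟨(Dat.IsU.mem e.2).2.1, rfl⟩⟩ ⟨w, fun e => ⟨dconn_RM_le hG e hw, rfl⟩⟩
  have hz0 : z = 0 := by
    refine eq_zero_of_ev_eventually t a.1 (hG.coord_of_isU a.2) (hz a).1 ?_
    rw [← (isOpen_isU D t).isOpenEmbedding_subtypeVal.map_nhds_eq a, eventually_map]
    filter_upwards [hA.isOpen.mem_nhds (show a ∈ F ⁻¹' {F a} from rfl)] with e he
    rw [(hz e).2]
    exact mul_eq_zero_of_right _ (Finset.prod_eq_zero (mem_dconnF.2 ⟨rfl, he⟩) (sub_self _))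
  have h3 := (hz y).2
  rw [hz0, LA.ev_zero] at h3
  refine mul_ne_zero (dconnD_ne.2 (D.prU t y).2) (Finset.prod_ne_zero_iff.2 fun e he => ?_) h3.symm
  rw [h1 e he, sub_zero]
  exact h2

end Vale.Agent.P300
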