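import Vale.Agent.P300.TU0

/-! P300: holomorphic functions of polynomial growth on the open part of the plane. -/

noncomputable section

namespace Vale.Agent.P300

open Topology Filter Polynomial

/-- entire functions of polynomial growth are polynomials -/
theorem dconn_liou (N : ℕ) : ∀ (f : ℂ → ℂ) (C : ℝ), Differentiable ℂ f →
    (∀ z, ‖f z‖ ≤ C * (1 + ‖z‖) ^ N) → ∃ p : ℂ[X], p.natDegree ≤ N ∧ ∀ z, p.eval z = f z := by
  induction N with
  | zero =>
    intro f C hf hb
    refine ⟨Polynomial.C (f 0), by simp, fun z => ?_⟩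
    rw [eval_C]
    refine hf.apply_eq_apply_of_bounded ?_ 0 z
    rw [isBounded_iff_forall_norm_le]
    exact ⟨C, by rintro _ ⟨w, rfl⟩; simpa using hb w⟩
  | succ N ih =>
    intro f C hf hb
    have hC : 0 ≤ C := by simpa using (norm_nonneg _).trans (hb 0)
    have hg : Differentiable ℂ (dslope f 0) := by
      rw [← differentiableOn_univ] at hf ⊢
      exact (Complex.differentiableOn_dslope univ_mem).2 hf
    obtain ⟨B, hB⟩ := (isCompact_closedBall (0 : ℂ) 1).exists_bound_of_continuousOn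
      hg.continuous.continuousOn
    have hB0 : 0 ≤ B := (norm_nonneg _).trans (hB 0 (by simp))
    obtain ⟨p, hp, he⟩ := ih (dslope f 0) (4 * C + B) hg (fun z => by
      have h1 : 1 ≤ (1 + ‖z‖) ^ N := one_le_pow₀ (by linarith [norm_nonneg z])
      by_cases hz : ‖z‖ ≤ 1
      · have := hB z (by simpa using hz)
        nlinarith
      · push Not at hz
        have hz0 : z ≠ 0 := by rintro rfl; simp at hz; linarith
        have e : z * dslope f 0 z = f z - f 0 := by
          simpa using sub_smul_dslope f 0 z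
        have h2 : ‖z‖ * ‖dslope f 0 z‖ ≤ C * (1 + ‖z‖) ^ (N + 1) + C := by
          rw [← norm_mul, e]
          refine (norm_sub_le _ _).trans (add_le_add (hb z) ?_)
          simpa using hb 0
        rw [pow_succ] at h2
        have h3 : ‖z‖ * ‖dslope f 0 z‖ ≤ ‖z‖ * (4 * C * (1 + ‖z‖) ^ N) := by
          have h4 : 0 ≤ C * (1 + ‖z‖) ^ N := by positivity
          have h5 : C ≤ C * (1 + ‖z‖) ^ N := le_mul_of_one_le_right hC h1
          nlinarith
        have h6 := le_of_mul_le_mul_left h3 (by linarith)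
        nlinarith)
    refine ⟨Polynomial.C (f 0) + X * p, ?_, fun z => ?_⟩
    · refine (natDegree_add_le _ _).trans (max_le (by simp) ?_)
      exact natDegree_mul_le.trans (by rw [natDegree_X]; omega)
    · have e : z * dslope f 0 z = f z - f 0 := by
        simpa using sub_smul_dslope f 0 z
      rw [eval_add, eval_C, eval_mul, eval_X, he, e]
      ring

/-- removal of finitely many singularities -/
theorem dconn_one {h d : ℂ → ℂ} {F : Set ℂ} (hF : F.Finite)
    (hh : ∀ z ∉ F, DifferentiableAt ℂ h z) (hd : Differentiable ℂ d) (h0 : ∀ z ∈ F, d z = 0)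
    {C C' : ℝ} {N N' : ℕ} (hb : ∀ z, ‖h z‖ ≤ C * (1 + ‖z‖) ^ N)
    (hb' : ∀ z, ‖d z * h z‖ ≤ C' * (1 + ‖z‖) ^ N') :
    ∃ p : ℂ[X], p.natDegree ≤ N' ∧ ∀ z, p.eval z = d z * h z := by
  refine dconn_liou N' _ C' (fun a => ?_) hb'
  by_cases ha : a ∈ F
  · refine (Complex.analyticAt_of_differentiable_on_punctured_nhds_of_continuousAt ?_
      ?_).differentiableAt
    · have h1 : (F \ {a})ᶜ ∈ 𝓝 a :=
        (hF.subset Set.sdiff_subset).isClosed.isOpen_compl.mem_nhds (by simp)
      filter_upwards [mem_nhdsWithin_of_mem_nhds h1, self_mem_nhdsWithin] with z hz hza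
      exact (hd z).mul (hh z fun hzF => hz ⟨hzF, hza⟩)
    · rw [ContinuousAt, h0 a ha, zero_mul]
      refine squeeze_zero_norm (a := fun z => ‖d z‖ * (C * (1 + ‖z‖) ^ N)) (fun z => ?_) ?_
      · rw [norm_mul]
        exact mul_le_mul_of_nonneg_left (hb z) (norm_nonneg _)
      · have hc : Continuous fun z => ‖d z‖ * (C * (1 + ‖z‖) ^ N) := by
          have := hd.continuous
          fun_prop
        have := hc.tendsto a
        rwa [h0 a ha, norm_zero, zero_mul] at this
  · exact (hd a).mul (hh a ha)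

/-- polynomial growth with respect to a map to the plane -/
def dconnPG {E : Type} (π : E → ℂ × ℂ) (f : E → ℂ) : Prop :=
  ∃ (C : ℝ) (N : ℕ), 0 ≤ C ∧ ∀ e, ‖f e‖ ≤ C * (1 + ‖π e‖) ^ N

namespace dconnPG

variable {E : Type} {π : E → ℂ × ℂ} {f g : E → ℂ}

theorem const (c : ℂ) : dconnPG π fun _ => c := ⟨‖c‖, 0, norm_nonneg _, fun _ => by simp⟩

theorem add (hf : dconnPG π f) (hg : dconnPG π g) : dconnPG π fun e => f e + g e := by
  obtain ⟨C, N, hC, h⟩ := hf
  obtain ⟨C', N', hC', h'⟩ := hg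
  refine ⟨C + C', N + N', by positivity, fun e => ?_⟩
  have h1 : 1 ≤ 1 + ‖π e‖ := by linarith [norm_nonneg (π e)]
  have h2 := pow_le_pow_right₀ h1 (Nat.le_add_right N N')
  have h3 := pow_le_pow_right₀ h1 (Nat.le_add_left N' N)
  refine (norm_add_le _ _).trans ?_
  have := h e
  have := h' e
  nlinarith

theorem mul (hf : dconnPG π f) (hg : dconnPG π g) : dconnPG π fun e => f e * g e := by
  obtain ⟨C, N, hC, h⟩ := hf
  obtain ⟨C', N', hC', h'⟩ := hg
  refine ⟨C * C', N + N', by positivity, fun e => ?_⟩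
  rw [norm_mul, pow_add, mul_mul_mul_comm]
  exact mul_le_mul (h e) (h' e) (norm_nonneg _) (by positivity)

theorem fst : dconnPG π fun e => (π e).1 :=
  ⟨1, 1, zero_le_one, fun e => by linarith [norm_fst_le (π e)]⟩

theorem snd : dconnPG π fun e => (π e).2 :=
  ⟨1, 1, zero_le_one, fun e => by linarith [norm_snd_le (π e)]⟩

theorem neg (hf : dconnPG π f) : dconnPG π fun e => -f e := by
  obtain ⟨C, N, hC, h⟩ := hf
  exact ⟨C, N, hC, fun e => by simpa using h e⟩

theorem sub (hf : dconnPG π f) (hg : dconnPG π g) : dconnPG π fun e => f e - g e := by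
  simpa only [sub_eq_add_neg] using hf.add hg.neg

theorem prod {κ : Type} (s : Finset κ) {F : κ → E → ℂ} (h : ∀ i ∈ s, dconnPG π (F i)) :
    dconnPG π fun e => ∏ i ∈ s, F i e := by
  classical
  induction s using Finset.induction_on with
  | empty => simpa using const 1
  | insert a s ha ih =>
    simp only [Finset.prod_insert ha]
    exact (h a (Finset.mem_insert_self _ _)).mul (ih fun i hi => h i (Finset.mem_insert_of_mem hi))

/-- roots of monic polynomials -/
theorem root (n : ℕ) (a : ℕ → E → ℂ) (ha : ∀ j, dconnPG π (a j))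
    (h : ∀ e, f e ^ n + ∑ j ∈ Finset.range n, a j e * f e ^ j = 0) : dconnPG π f := by
  have key : ∃ (C : ℝ) (N : ℕ), 0 ≤ C ∧ ∀ e,
      1 + ∑ j ∈ Finset.range n, ‖a j e‖ ≤ C * (1 + ‖π e‖) ^ N := by
    clear h
    induction n with
    | zero => exact ⟨1, 0, zero_le_one, fun e => by simp⟩
    | succ n ih =>
      obtain ⟨C, N, hC, h⟩ := ih
      obtain ⟨C', N', hC', h'⟩ := ha n
      refine ⟨C + C', N + N', by positivity, fun e => ?_⟩
      have h1 : 1 ≤ 1 + ‖π e‖ := by linarith [norm_nonneg (π e)]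
      have h2 := pow_le_pow_right₀ h1 (Nat.le_add_right N N')
      have h3 := pow_le_pow_right₀ h1 (Nat.le_add_left N' N)
      rw [Finset.sum_range_succ]
      have := h e
      have := h' e
      nlinarith
  obtain ⟨C, N, hC, hb⟩ := key
  refine ⟨C, N, hC, fun e => le_trans ?_ (hb e)⟩
  have hs : 0 ≤ ∑ j ∈ Finset.range n, ‖a j e‖ := Finset.sum_nonneg fun _ _ => norm_nonneg _
  by_cases h1 : ‖f e‖ ≤ 1
  · linarith
  push Not at h1
  rcases n with _ | n
  · simpa using h e
  have h2 : ‖f e‖ ^ n * ‖f e‖ ≤ ‖f e‖ ^ n * ∑ j ∈ Finset.range (n + 1), ‖a j e‖ := by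
    rw [← pow_succ, ← norm_pow, eq_neg_of_add_eq_zero_left (h e), norm_neg, Finset.mul_sum]
    refine (norm_sum_le _ _).trans (Finset.sum_le_sum fun j hj => ?_)
    rw [norm_mul, norm_pow, mul_comm]
    exact mul_le_mul_of_nonneg_right
      (pow_le_pow_right₀ h1.le (Nat.lt_succ_iff.1 (Finset.mem_range.1 hj))) (norm_nonneg _)
  have := le_of_mul_le_mul_left h2 (pow_pos (by linarith) n)
  linarith

end dconnPG

/-- an equation of the complement of the open part -/
def dconnD (S : Finset ℂ) (q : ℂ × ℂ) : ℂ := (∏ p ∈ S, (q.1 - p)) * ∏ i, (q.2 - av i q.1)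

theorem dconnD_ne {S : Finset ℂ} {q : ℂ × ℂ} : dconnD S q ≠ 0 ↔ q ∈ U0 S := by
  simp only [dconnD, U0, Set.mem_ofPred_eq, mul_ne_zero_iff, Finset.prod_ne_zero_iff, sub_ne_zero,
    Finset.mem_univ, true_imp_iff]
  refine and_congr_left' ⟨fun h hq => h _ hq rfl, fun h p hp e => h (e ▸ hp)⟩

theorem dconn_av_diff (i : Fin 5) : Differentiable ℂ fun b : ℂ => av i b := by
  fin_cases i
  · simp [av]
  · simp [av]
  · simp [av]
  · simp [av]
  · exact (differentiable_const 1).add differentiable_id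

theorem dconn_diffAt_prod {κ : Type} (s : Finset κ) {F : κ → ℂ × ℂ → ℂ} {q : ℂ × ℂ}
    (h : ∀ i ∈ s, DifferentiableAt ℂ (F i) q) :
    DifferentiableAt ℂ (fun q => ∏ i ∈ s, F i q) q := by
  classical
  induction s using Finset.induction_on with
  | empty => simp
  | insert a s ha ih =>
    simp only [Finset.prod_insert ha]
    exact (h a (Finset.mem_insert_self _ _)).mul (ih fun i hi => h i (Finset.mem_insert_of_mem hi))

theorem dconnD_diff (S : Finset ℂ) : Differentiable ℂ (dconnD S) := by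
  have h : ∀ i : Fin 5, Differentiable ℂ fun q : ℂ × ℂ => av i q.1 := fun i =>
    (dconn_av_diff i).comp differentiable_fst
  unfold dconnD
  refine fun q => DifferentiableAt.mul ?_ ?_
  · exact dconn_diffAt_prod _ fun p _ => differentiableAt_fst.sub_const p
  · exact dconn_diffAt_prod _ fun i _ => differentiableAt_snd.sub (h i q)

theorem dconnD_pg (S : Finset ℂ) : dconnPG id (dconnD S) := by
  have h1 : dconnPG (id : ℂ × ℂ → ℂ × ℂ) fun q => q.1 := dconnPG.fst
  have h2 : dconnPG (id : ℂ × ℂ → ℂ × ℂ) fun q => q.2 := dconnPG.snd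
  refine dconnPG.mul (dconnPG.prod _ fun p _ => h1.sub (dconnPG.const p))
    (dconnPG.prod _ fun i _ => h2.sub ?_)
  fin_cases i
  · exact dconnPG.const 0
  · simpa [av, sq] using h1.mul h1
  · exact h1
  · exact dconnPG.const 1
  · exact (dconnPG.const 1).add h1

theorem dconn_slice (S : Finset ℂ) (k : ℕ) : {b : ℂ | (b, (k : ℂ) + 2) ∉ U0 S}.Finite := by
  have h2 : {b : ℂ | b ^ 2 = (k : ℂ) + 2}.Finite := by
    refine (finite_setOfPred_isRoot (X_pow_sub_C_ne_zero two_pos ((k : ℂ) + 2))).subset ?_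
    intro b hb
    simpa [sub_eq_zero] using hb
  refine (((S.finite_toSet.union h2).union (Set.finite_singleton ((k : ℂ) + 2))).union
    (Set.finite_singleton ((k : ℂ) + 1))).subset fun b hb => ?_
  simp only [U0, Set.mem_ofPred_eq, not_and_or, not_not, not_forall] at hb
  rcases hb with hb | ⟨i, hi⟩
  · exact Or.inl (Or.inl (Or.inl hb))
  · fin_cases i
    · exfalso
      have : ((k + 2 : ℕ) : ℂ) = 0 := by simpa [av] using hi
      exact absurd (Nat.cast_eq_zero.1 this) (by omega)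
    · exact Or.inl (Or.inl (Or.inr (by simpa [av] using hi.symm)))
    · exact Or.inl (Or.inr (by simpa [av] using hi.symm))
    · exfalso
      have h1 : (k : ℂ) + 2 = 1 := by simpa [av] using hi
      have : ((k + 1 : ℕ) : ℂ) = 0 := by push_cast; linear_combination h1
      exact absurd (Nat.cast_eq_zero.1 this) (by omega)
    · have h1 : (k : ℂ) + 2 = 1 + b := by simpa [av] using hi
      exact Or.inr (by rw [Set.mem_singleton_iff]; linear_combination -h1)

theorem dconn_lagr {p : ℂ[X]} {n : ℕ} (hp : p.natDegree ≤ n) (z : ℂ) :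
    p.eval z = ∑ k ∈ Finset.range (n + 1), p.eval ((k : ℂ) + 2) *
      (Lagrange.basis (Finset.range (n + 1)) (fun k : ℕ => (k : ℂ) + 2) k).eval z := by
  have hinj : Set.InjOn (fun k : ℕ => (k : ℂ) + 2) (Finset.range (n + 1) : Finset ℕ) := by
    intro a _ b _ h
    simpa using h
  have h := Lagrange.eq_interpolate (f := p) hinj (by
    rw [Finset.card_range]
    exact degree_le_natDegree.trans_lt (by exact_mod_cast Nat.lt_succ_of_le hp))
  conv_lhs => rw [h]
  simp [Lagrange.interpolate, eval_finsetSum]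

theorem dconn_norm_le (b x : ℂ) : 1 + ‖(b, x)‖ ≤ (1 + ‖b‖) * (1 + ‖x‖) := by
  have h : ‖(b, x)‖ ≤ ‖b‖ + ‖x‖ := by
    rw [Prod.norm_mk]
    exact max_le (by linarith [norm_nonneg x]) (by linarith [norm_nonneg b])
  nlinarith [mul_nonneg (norm_nonneg b) (norm_nonneg x)]

/-- the two variable statement -/
theorem dconn_two (S : Finset ℂ) {h : ℂ × ℂ → ℂ} (hh : ∀ q ∈ U0 S, DifferentiableAt ℂ h q)
    (hb : dconnPG id h) : ∃ (n : ℕ) (p l : ℕ → ℂ[X]), ∀ q ∈ U0 S,
      dconnD S q * h q = ∑ k ∈ Finset.range n, (p k).eval q.1 * (l k).eval q.2 := by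
  obtain ⟨C', N', hC', hb'⟩ := (dconnD_pg S).mul hb
  obtain ⟨C, N, hC, hb⟩ := hb
  have bx : ∀ {f : ℂ × ℂ → ℂ} {C : ℝ} {N : ℕ}, 0 ≤ C → (∀ q, ‖f q‖ ≤ C * (1 + ‖id q‖) ^ N) →
      ∀ b x, ‖f (b, x)‖ ≤ C * (1 + ‖b‖) ^ N * (1 + ‖x‖) ^ N := by
    intro f C N hC hf b x
    refine (hf _).trans ?_
    rw [mul_assoc, ← mul_pow]
    exact mul_le_mul_of_nonneg_left (pow_le_pow_left₀ (by positivity) (dconn_norm_le b x) N) hC
  have h1 : ∀ k : ℕ, ∃ p : ℂ[X], ∀ b,
      p.eval b = dconnD S (b, (k : ℂ) + 2) * h (b, (k : ℂ) + 2) := by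
    intro k
    obtain ⟨p, -, hp⟩ := dconn_one (h := fun b => h (b, (k : ℂ) + 2))
      (d := fun b => dconnD S (b, (k : ℂ) + 2)) (dconn_slice S k)
      (fun b hb => (hh _ (not_not.1 hb)).comp b (by fun_prop))
      ((dconnD_diff S).comp (by fun_prop)) (fun b hb => not_not.1 (mt dconnD_ne.1 hb))
      (C := C * (1 + ‖(k : ℂ) + 2‖) ^ N) (C' := C' * (1 + ‖(k : ℂ) + 2‖) ^ N') (N := N) (N' := N')
      (fun b => by rw [mul_right_comm]; exact bx hC hb _ _)
      (fun b => by rw [mul_right_comm]; exact bx hC' hb' _ _)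
    exact ⟨p, hp⟩
  choose p hp using h1
  refine ⟨N' + 1, p, fun k => Lagrange.basis (Finset.range (N' + 1)) (fun k : ℕ => (k : ℂ) + 2) k,
    fun q hq => ?_⟩
  obtain ⟨b, x⟩ := q
  obtain ⟨r, hr, he⟩ := dconn_one (h := fun x => h (b, x)) (d := fun x => dconnD S (b, x))
    (Set.finite_range fun i => av i b)
    (fun x hx => (hh (b, x) ⟨hq.1, fun i e => hx ⟨i, e.symm⟩⟩).comp x (by fun_prop))
    ((dconnD_diff S).comp (by fun_prop))
    (fun x hx => not_not.1 (mt dconnD_ne.1 fun hU => by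
      obtain ⟨i, hi⟩ := hx
      exact hU.2 i hi.symm))
    (C := C * (1 + ‖b‖) ^ N) (C' := C' * (1 + ‖b‖) ^ N') (N := N) (N' := N')
    (fun x => bx hC hb _ _) (fun x => bx hC' hb' _ _)
  rw [← he, dconn_lagr hr]
  exact Finset.sum_congr rfl fun k _ => by rw [he, hp]

end Vale.Agent.P300
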