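import Vale.Agent.P300.DUfd
import Vale.Agent.P300.DChart
import Vale.Agent.P300.DBlow

/-! P300: double covers of projective models are projective. -/

noncomputable section

namespace Vale.Agent.P300

variable {Ω : Type} [Field Ω] [Algebra ℂ Ω] {ι : Type} [Fintype ι]

/-- local normal form of the branch divisor -/
def LA.Br (L : LA Ω) (M : IntermediateField ℂ Ω) (w h : Ω) : Prop :=
  h ∈ M ∧ h ≠ 0 ∧ ∃ u v ε, L.Coord u v ∧ L.Un ε ∧ (w ^ 2 = h ^ 2 * ε ∨ w ^ 2 = h ^ 2 * (ε * u))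

theorem dcov_sqrt {L : LA Ω} [IsNoetherianRing L.O] {u v : Ω} (h : L.Coord u v)
    {M : IntermediateField ℂ Ω} (hM : L.Frac M) {z : Ω} (hz : z ∈ M) (h2 : z ^ 2 ∈ L.O) :
    z ∈ L.O :=
  h.mem_of_integral hM le_rfl hz (IsIntegral.of_pow two_pos
    (isIntegral_algebraMap (R := L.O) (A := Ω) (x := ⟨_, h2⟩)))

/-- `w / h` generates the elements of `M w` with regular square -/
theorem dcov_mem {L : LA Ω} [IsNoetherianRing L.O] {M : IntermediateField ℂ Ω} (hM : L.Frac M)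
    {w h g : Ω} (hB : L.Br M w h) (hg : g ∈ M) (h2 : (g * w) ^ 2 ∈ L.O) : g * h ∈ L.O := by
  obtain ⟨hh, -, u, v, ε, hc, hε, e | e⟩ := hB
  · refine dcov_sqrt hc hM (M.mul_mem hg hh) ?_
    have := L.O.mul_mem h2 hε.inv.1.1
    rwa [mul_pow, e, ← mul_assoc, ← mul_pow, mul_inv_cancel_right₀ hε.ne_zero] at this
  · have hu := hc.1.1.1
    have h3 : (g * h) ^ 2 * u ∈ L.O := by
      have := L.O.mul_mem h2 hε.inv.1.1
      rwa [mul_pow, e, ← mul_assoc, ← mul_pow, mul_comm ε, ← mul_assoc,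
        mul_inv_cancel_right₀ hε.ne_zero] at this
    have h4 : g * h * u ∈ L.O := dcov_sqrt hc hM (M.mul_mem (M.mul_mem hg hh) (hM.1 u hu)) (by
      rw [mul_pow, sq u, ← mul_assoc]
      exact L.O.mul_mem h3 hu)
    have h5 : (⟨u, hu⟩ : L.O) ∣ (⟨_, h4⟩ : L.O) ^ 2 :=
      ⟨⟨_, h3⟩, Subtype.ext (by
        show (g * h * u) ^ 2 = u * ((g * h) ^ 2 * u)
        ring)⟩
    obtain ⟨b, hb⟩ := hc.prime.dvd_of_dvd_pow h5
    have h6 : g * h * u = u * b := congrArg Subtype.val hb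
    rw [mul_comm u] at h6
    rw [mul_right_cancel₀ hc.ne_zero.1 h6]
    exact b.2

theorem dcov_sq {L : LA Ω} {M : IntermediateField ℂ Ω} {w h : Ω} (hB : L.Br M w h) :
    (h⁻¹ * w) ^ 2 ∈ L.O := by
  obtain ⟨-, h0, u, v, ε, hc, hε, e | e⟩ := hB
  · rw [mul_pow, e, ← mul_assoc, ← mul_pow, inv_mul_cancel₀ h0, one_pow, one_mul]
    exact hε.1
  · rw [mul_pow, e, ← mul_assoc, ← mul_pow, inv_mul_cancel₀ h0, one_pow, one_mul]
    exact L.O.mul_mem hε.1 hc.1.1.1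

theorem dcov_un {L : LA Ω} [IsNoetherianRing L.O] {M : IntermediateField ℂ Ω} (hM : L.Frac M)
    {w h h' : Ω} (hB : L.Br M w h) (hB' : L.Br M w h') : L.Un (h'⁻¹ * h) := by
  have h1 := dcov_mem hM hB (M.inv_mem hB'.1) (dcov_sq hB')
  have h2 := dcov_mem hM hB' (M.inv_mem hB.1) (dcov_sq hB)
  refine ⟨h1, fun h0 => ?_⟩
  have h3 := L.ev_mul _ h1 _ h2
  rw [h0, zero_mul, mul_assoc, mul_inv_cancel_left₀ hB.2.1, inv_mul_cancel₀ hB'.2.1,
    LA.ev_one] at h3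
  exact one_ne_zero h3

theorem dcov_br {L : LA Ω} {M : IntermediateField ℂ Ω} {w h u v ε : Ω} {i : ℕ}
    (hc : L.Coord (L.ctr u) v) (hu : u ∈ L.O) (hε : L.Un ε) (hi : i ≤ 1) (hh : h ∈ M)
    (h0 : h ≠ 0) (e : w ^ 2 = h ^ 2 * (ε * u ^ i)) : L.Br M w h := by
  refine ⟨hh, h0, ?_⟩
  obtain rfl | rfl : i = 0 ∨ i = 1 := by omega
  · exact ⟨_, _, ε, hc, hε, Or.inl (by rw [e, pow_zero, mul_one])⟩
  · rw [pow_one] at e
    by_cases h1 : L.ev u = 0
    · rw [LA.ctr, h1, map_zero, sub_zero] at hc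
      exact ⟨_, _, ε, hc, hε, Or.inr e⟩
    · exact ⟨_, _, ε * u, hc, hε.mul ⟨hu, h1⟩, Or.inl e⟩

theorem dcov_near {t : ι → Ω} {M : IntermediateField ℂ Ω} {w h : Ω} {y : Zt t}
    (hB : (la t y).Br M w h) : ∀ᶠ y' in nhds y, (la t y').Br M w h := by
  obtain ⟨hh, h0, u, v, ε, hc, hε, e⟩ := hB
  obtain ⟨ch, hch⟩ := exists_achart t y hc ((isOpen_un t ε).mem_nhds hε)
  filter_upwards [ch.κ.open_source.mem_nhds ch.mem] with y' hy'
  rcases e with e | e
  · exact dcov_br (i := 0) (ch.coord y' hy') (ch.reg y' hy').1 (hch hy') zero_le_one hh h0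
      (by rw [e, pow_zero, mul_one])
  · exact dcov_br (i := 1) (ch.coord y' hy') (ch.reg y' hy').1 (hch hy') le_rfl hh h0
      (by rw [e, pow_one])

omit [Fintype ι] in
theorem dcov_ratio (t : ι → Ω) (i j : ι) : t i / t j ∈ chA t j := Algebra.subset_adjoin ⟨i, rfl⟩

omit [Fintype ι] in
theorem dcov_up {t : ι → Ω} {k j : ι} {a : Ω} {N n : ℕ} (hn : N ≤ n)
    (h : (t k / t j) ^ N * a ∈ chA t j) : (t k / t j) ^ n * a ∈ chA t j := by
  obtain ⟨d, rfl⟩ := Nat.exists_eq_add_of_le hn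
  rw [add_comm, pow_add, mul_assoc]
  exact (chA t j).mul_mem ((chA t j).pow_mem (dcov_ratio t k j) d) h

omit [Fintype ι] in
theorem dcov_deg {t : ι → Ω} {k : ι} (hk : t k ≠ 0) {a : Ω} (ha : a ∈ chA t k) :
    ∃ N : ℕ, ∀ j, (t k / t j) ^ N * a ∈ chA t j := by
  induction ha using Algebra.adjoin_induction with
  | mem x hx =>
    obtain ⟨i, rfl⟩ := hx
    refine ⟨1, fun j => ?_⟩
    rw [pow_one, mul_comm, div_mul_div_cancel₀ hk]
    exact dcov_ratio t i j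
  | algebraMap c => exact ⟨0, fun j => by simp⟩
  | add x y _ _ ex ey =>
    obtain ⟨a, ha⟩ := ex
    obtain ⟨b, hb⟩ := ey
    refine ⟨a + b, fun j => ?_⟩
    rw [mul_add]
    exact (chA t j).add_mem (dcov_up (by omega) (ha j)) (dcov_up (by omega) (hb j))
  | mul x y _ _ ex ey =>
    obtain ⟨a, ha⟩ := ex
    obtain ⟨b, hb⟩ := ey
    refine ⟨a + b, fun j => ?_⟩
    rw [pow_add, mul_mul_mul_comm]
    exact (chA t j).mul_mem (ha j) (hb j)

omit [Fintype ι] in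
/-- a point lies in a chart whose coordinates are in a dominating valuation ring -/
theorem dcov_chart {t : ι → Ω} (y : Zt t) {V : ValuationSubring Ω}
    (hV : ∀ z, (la t y).Mx z → V.valuation z < 1) {j : ι} (hj : t j ≠ 0)
    (h : ∀ k, t k / t j ∈ V) : y.1.rep j ≠ 0 := by
  intro h0
  obtain ⟨k, hk⟩ := db_exists_rep y.1
  have h1 := hV _ ⟨(ratio_mem y hk j).1, by rw [(ratio_mem y hk j).2, h0, zero_div]⟩
  have h2 := (V.valuation_le_one_iff _).2 (h k)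
  have h3 : t j / t k * (t k / t j) = 1 := by
    have := t_ne_of_rep y hk
    field_simp
  have h4 := mul_lt_one_of_lt_of_le h1 h2
  rw [← map_mul, h3, map_one] at h4
  exact lt_irrefl _ h4

/-- finitely many local generators -/
theorem dcov_data (t : ι → Ω) (M : IntermediateField ℂ Ω)
    (hF : ∀ y : Zt t, (la t y).Frac M) {w : Ω} (hloc : ∀ y : Zt t, ∃ h, (la t y).Br M w h) :
    ∃ (T : Finset (Zt t)) (m : ℕ) (k : Zt t → ι) (s h : Zt t → Ω),
      (∀ l, (h l)⁻¹ * s l ∈ M) ∧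
      (∀ l ∈ T, ∀ j, ((t (k l) / t j) ^ (m + 1) * ((h l)⁻¹ * s l) * w) ^ 2 ∈ chA t j) ∧
      ∀ y : Zt t, ∃ l ∈ T, y.1.rep (k l) ≠ 0 ∧ (la t y).Un (s l) ∧ (la t y).Br M w (h l) := by
  choose h hh using hloc
  choose k hk using fun y : Zt t => db_exists_rep y.1
  choose r hr s hs h1 h2 using fun y : Zt t => (locOf_chA y (hk y)).2 _ (dcov_sq (hh y))
  have hs' : ∀ y, (la t y).Un (s y) := fun y => ⟨(locOf_chA y (hk y)).1 (hs y), h1 y⟩
  choose N hN using fun y : Zt t => dcov_deg (t_ne_of_rep y (hk y))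
    ((chA t (k y)).mul_mem (hr y) (hs y))
  have := Zt.compact t
  obtain ⟨T, hT⟩ := CompactSpace.elim_nhds_subcover (fun l : Zt t => {y : Zt t |
      y.1.rep (k l) ≠ 0 ∧ (la t y).Un (s l) ∧ (la t y).Br M w (h l)}) fun l =>
    Filter.inter_mem (((isOpen_rep_ne (k l)).preimage continuous_subtype_val).mem_nhds (hk l))
      (Filter.inter_mem ((isOpen_un t (s l)).mem_nhds (hs' l)) (dcov_near (hh l)))
  refine ⟨T, T.sup N, k, s, h, fun l => M.mul_mem (M.inv_mem (hh l).1) ((hF l).1 _ (hs' l).1),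
    fun l hl j => ?_, fun y => ?_⟩
  · have h3 := dcov_up (n := (T.sup N + 1) * 2)
      ((Finset.le_sup (f := N) hl).trans (by omega)) (hN l j)
    have h4 : ((t (k l) / t j) ^ (T.sup N + 1) * ((h l)⁻¹ * s l) * w) ^ 2
        = (t (k l) / t j) ^ ((T.sup N + 1) * 2) * (r l * s l) := by
      rw [← h2 l, pow_mul]
      ring
    rwa [h4]
  · have h3 : y ∈ ⋃ l ∈ T, {y : Zt t |
      y.1.rep (k l) ≠ 0 ∧ (la t y).Un (s l) ∧ (la t y).Br M w (h l)} := hT ▸ Set.mem_univ y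
    obtain ⟨l, hl, h4⟩ := Set.mem_iUnion₂.1 h3
    exact ⟨l, hl, h4⟩

theorem exists_cover (t : ι → Ω) (M : IntermediateField ℂ Ω) (ht : ∃ i, t i ≠ 0)
    (hF : ∀ y : Zt t, (la t y).Frac M) {w : Ω} (hloc : ∀ y : Zt t, ∃ h, (la t y).Br M w h) :
    ∃ (κ : Type) (_ : Fintype κ) (t' : κ → Ω), (∃ i, t' i ≠ 0) ∧
      ∀ y' : Zt t', ∃ y : Zt t, ∀ h, (la t y).Br M w h → (la t y).Ext (la t' y') (w / h) := by
  obtain ⟨T, m, k, s, g, hgM, hsq, hcov⟩ := dcov_data t M hF hloc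
  obtain ⟨t', h1, h2⟩ : ∃ t' : (ι × ι) ⊕ T → Ω,
      (∀ p : ι × ι, t' (Sum.inl p) = t p.1 * t p.2 ^ m) ∧
      ∀ l : T, t' (Sum.inr l) = t (k l) ^ (m + 1) * ((g l)⁻¹ * s l) * w :=
    ⟨Sum.elim (fun p => t p.1 * t p.2 ^ m) fun l => t (k l) ^ (m + 1) * ((g l)⁻¹ * s l) * w,
      fun _ => rfl, fun _ => rfl⟩
  obtain ⟨i₀, hi₀⟩ := ht
  refine ⟨(ι × ι) ⊕ T, inferInstance, t', ⟨Sum.inl (i₀, i₀), ?_⟩, fun y' => ?_⟩
  · rw [h1]
    exact mul_ne_zero hi₀ (pow_ne_zero _ hi₀)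
  obtain ⟨V, hV1, hV2⟩ := (la t' y').exists_val
  obtain ⟨j, -, hj⟩ := Finset.univ.exists_max_image (fun i => V.valuation (t i))
    ⟨i₀, Finset.mem_univ _⟩
  have hj0 : t j ≠ 0 := fun h0 => hi₀ (by
    have := hj i₀ (Finset.mem_univ _)
    rwa [h0, map_zero, le_zero_iff, Valuation.zero_iff] at this)
  have e1 : ∀ p : ι × ι, t' (Sum.inl p) / t' (Sum.inl (j, j))
      = t p.1 / t j * (t p.2 / t j) ^ m := fun p => by
    rw [h1, h1, div_pow, div_mul_div_comm]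
  have e2 : ∀ l : T, t' (Sum.inr l) / t' (Sum.inl (j, j))
      = (t (k l) / t j) ^ (m + 1) * ((g l)⁻¹ * s l) * w := fun l => by
    rw [h1, h2, div_pow, ← pow_succ']
    ring
  have hr : ∀ i, t i / t j ∈ V := fun i => by
    rw [← V.valuation_le_one_iff, map_div₀]
    exact div_le_one_of_le₀ (hj i (Finset.mem_univ _)) zero_le
  have hAV : ∀ z ∈ chA t j, z ∈ V := fun z hz => by
    induction hz using Algebra.adjoin_induction with
    | mem x hx =>
      obtain ⟨i, rfl⟩ := hx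
      exact hr i
    | algebraMap c => exact hV1 _ ((la t' y').O.algebraMap_mem c)
    | add x y _ _ ex ey => exact V.add_mem _ _ ex ey
    | mul x y _ _ ex ey => exact V.mul_mem _ _ ex ey
  have hy' : y'.1.rep (Sum.inl (j, j)) ≠ 0 := by
    refine dcov_chart y' hV2 (by rw [h1]; exact mul_ne_zero hj0 (pow_ne_zero _ hj0)) ?_
    rintro (p | l)
    · rw [e1]
      exact hAV _ ((chA t j).mul_mem (dcov_ratio t _ j) ((chA t j).pow_mem (dcov_ratio t _ j) m))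
    · have h3 := (V.valuation_le_one_iff _).2 (hAV _ (hsq l l.2 j))
      rw [map_pow, pow_le_one_iff two_ne_zero] at h3
      rw [e2]
      exact (V.valuation_le_one_iff _).1 h3
  have hT := locOf_chA y' hy'
  have hA : chA t j ≤ (la t' y').O := Algebra.adjoin_le (by
    rintro _ ⟨i, rfl⟩
    have h3 := (ratio_mem y' hy' (Sum.inl (i, j))).1
    rwa [e1, div_self hj0, one_pow, mul_one] at h3)
  obtain ⟨y, hy, hχ⟩ := pt_of_hom t hj0 ((la t' y').evHom.comp (Subalgebra.inclusion hA))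
  have hO := fun z (hz : z ∈ (la t y).O) =>
    dblow_le (locOf_chA y hy) hA (fun z hz => hχ ⟨z, hz⟩) hz
  have := la_noeth t y
  refine ⟨y, fun h hB => ⟨fun z hz => (hO z hz).1, fun z hz => (hO z hz).2, ?_, fun z hz => ?_⟩⟩
  · obtain ⟨l, hl, a1, a2, a3⟩ := hcov y
    have b1 : (la t y).Un (t (k l) / t j) :=
      ⟨(ratio_mem y hy _).1, by rw [(ratio_mem y hy _).2]; exact div_ne_zero a1 hy⟩
    have b2 := (((b1.zpow (m + 1 : ℕ)).1.mul a2).mul (dcov_un (hF y) hB a3))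
    have b3 := (la t' y').O.mul_mem (hO _ b2.inv.1.1).1 (ratio_mem y' hy' (Sum.inr ⟨l, hl⟩)).1
    have b4 : (t (k l) / t j) ^ (m + 1) * ((g l)⁻¹ * s l) * w
        = (t (k l) / t j) ^ ((m + 1 : ℕ) : ℤ) * s l * ((g l)⁻¹ * h) * (w / h) := by
      rw [zpow_natCast]
      have := hB.2.1
      field_simp
    rwa [e2, b4, inv_mul_cancel_left₀ b2.ne_zero] at b3
  · have hLR : ∀ x ∈ (la t y).O, x ∈ Algebra.adjoin ℂ (insert (w / h) ((la t y).O : Set Ω)) :=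
      fun x hx => Algebra.subset_adjoin (Set.mem_insert_of_mem _ hx)
    have hle : chA t' (Sum.inl (j, j))
        ≤ Algebra.adjoin ℂ (insert (w / h) ((la t y).O : Set Ω)) := Algebra.adjoin_le (by
      rintro _ ⟨p | l, rfl⟩
      · show t' (Sum.inl p) / t' (Sum.inl (j, j)) ∈ _
        rw [e1]
        exact hLR _ ((la t y).O.mul_mem (ratio_mem y hy _).1
          ((la t y).O.pow_mem (ratio_mem y hy _).1 m))
      · show t' (Sum.inr l) / t' (Sum.inl (j, j)) ∈ _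
        have b1 := dcov_mem (hF y) hB
          (M.mul_mem (pow_mem ((hF y).1 _ (ratio_mem y hy (k l)).1) (m + 1)) (hgM l))
          ((locOf_chA y hy).1 (hsq l l.2 j))
        have b2 : (t (k l) / t j) ^ (m + 1) * ((g l)⁻¹ * s l) * w
            = (t (k l) / t j) ^ (m + 1) * ((g l)⁻¹ * s l) * h * (w / h) := by
          rw [mul_assoc _ h, mul_div_cancel₀ _ hB.2.1]
        rw [e2, b2]
        exact Subalgebra.mul_mem _ (hLR _ b1) (Algebra.subset_adjoin (Set.mem_insert _ _)))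
    obtain ⟨a, ha, b, hb, c1, c2⟩ := hT.2 z hz
    exact ⟨a, hle ha, b, hle hb, c1, c2⟩

end Vale.Agent.P300
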