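import Vale.Agent.P300.DCovLX1

/-! P300: local description of double covers. -/

noncomputable section

namespace Vale.Agent.P300

variable {Ω : Type} [Field Ω] [Algebra ℂ Ω]

theorem Dat.zero_mem_S (D : Dat Ω) : (0 : ℂ) ∈ D.S := by
  by_contra h
  have := D.hS 0 h (a₁ := 0) (a₂ := 2) (by simp [av])
  exact absurd this (by decide)

theorem Dat.dcovl_one_mem (D : Dat Ω) : (1 : ℂ) ∈ D.S := by
  by_contra h
  have := D.hS 1 h (a₁ := 2) (a₂ := 3) (by simp [av])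
  exact absurd this (by decide)

namespace LA

section val

variable {L : LA Ω} {u v : Ω} {p : L.O} {V : ValuationSubring Ω}

theorem dcovl_val_one (h1 : ∀ z ∈ L.O, z ∈ V) (h2 : ∀ z : L.O, V.valuation (z : Ω) < 1 ↔ p ∣ z)
    {z : L.O} (hz : ¬ p ∣ z) : V.valuation (z : Ω) = 1 :=
  le_antisymm ((V.valuation_le_one_iff _).2 (h1 _ z.2)) (not_lt.1 fun h => hz ((h2 z).1 h))

theorem dcovl_val_un (hp : Prime p) (h1 : ∀ z ∈ L.O, z ∈ V)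
    (h2 : ∀ z : L.O, V.valuation (z : Ω) < 1 ↔ p ∣ z) {z : Ω} (hz : L.Un z) :
    V.valuation z = 1 :=
  dcovl_val_one h1 h2 (z := ⟨z, hz.1⟩) fun h =>
    hp.not_isUnit (isUnit_of_dvd_unit h (isUnit_iff.2 hz.2))

theorem dcovl_ev_zero (hp : Prime p) (h1 : ∀ z ∈ L.O, z ∈ V)
    (h2 : ∀ z : L.O, V.valuation (z : Ω) < 1 ↔ p ∣ z) {z : Ω} (hz : z ∈ L.O)
    (h : V.valuation z < 1) : L.ev z = 0 := by
  by_contra hc
  exact h.ne (dcovl_val_un hp h1 h2 ⟨hz, hc⟩)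

theorem dcovl_in (hp : Prime p) (h1 : ∀ z ∈ L.O, z ∈ V)
    (h2 : ∀ z : L.O, V.valuation (z : Ω) < 1 ↔ p ∣ z) (h : L.Coord u v) {f : Ω} {e e' : ℤ × ℤ}
    (m1 : L.Mon u v f e) (m2 : L.Mon u v (f - 1) e') (hf : V.valuation f = 1) {t : ℂ}
    (ht : V.valuation (f - algebraMap ℂ Ω t) < 1) : f ∈ L.O ∧ L.ev f = t := by
  have hm : f ∈ L.O := by
    refine (dcovl_mem_or h m1 m2).resolve_right fun hx => ?_
    have f0 : f ≠ 0 := by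
      rintro rfl
      rw [map_zero] at hf
      exact zero_ne_one hf
    have a1 := L.O.mul_mem (L.O.algebraMap_mem t) hx.1
    have a2 : L.Un (1 - algebraMap ℂ Ω t * f⁻¹) := ⟨L.O.sub_mem L.O.one_mem a1, by
      rw [ev_sub L.O.one_mem a1, L.ev_mul _ (L.O.algebraMap_mem t) _ hx.1, hx.2, ev_one]
      simp⟩
    have a3 : f - algebraMap ℂ Ω t = f * (1 - algebraMap ℂ Ω t * f⁻¹) := by field_simp
    rw [a3, map_mul, hf, dcovl_val_un hp h1 h2 a2, mul_one] at ht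
    exact lt_irrefl _ ht
  have := dcovl_ev_zero hp h1 h2 (L.O.sub_mem hm (L.O.algebraMap_mem t)) ht
  rw [ev_sub hm (L.O.algebraMap_mem t), L.ev_alg] at this
  exact ⟨hm, sub_eq_zero.1 this⟩

theorem dcovl_parity [IsNoetherianRing L.O] (hp : Prime p) (h1 : ∀ z ∈ L.O, z ∈ V)
    (h2 : ∀ z : L.O, V.valuation (z : Ω) < 1 ↔ p ∣ z) {M : IntermediateField ℂ Ω}
    (hF : L.Frac M) {b : L.O} (hb : Squarefree b) (hpb : p ∣ b) {g : Ω} (hg : g ∈ M) (g0 : g ≠ 0)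
    (hv : V.valuation (b : Ω) = V.valuation g ^ 2) : False := by
  obtain ⟨r, hr, s, hs, s0, e⟩ := hF.2 g hg
  have r0 : r ≠ 0 := e ▸ mul_ne_zero g0 s0
  obtain ⟨m, r', a1, a2⟩ := WfDvdMonoid.max_power_factor' (a₀ := (⟨r, hr⟩ : L.O))
    (fun h => r0 (congrArg Subtype.val h)) hp.not_isUnit
  obtain ⟨n, s', b1, b2⟩ := WfDvdMonoid.max_power_factor' (a₀ := (⟨s, hs⟩ : L.O))
    (fun h => s0 (congrArg Subtype.val h)) hp.not_isUnit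
  obtain ⟨c, rfl⟩ := hpb
  have c1 : ¬ p ∣ c := fun h => hp.not_isUnit (hb p (mul_dvd_mul_left p h))
  have a3 : r = (p : Ω) ^ m * r' := by simpa using congrArg Subtype.val a2
  have b3 : s = (p : Ω) ^ n * s' := by simpa using congrArg Subtype.val b2
  have e1 := congrArg V.valuation e
  rw [a3, b3, map_mul, map_mul, map_mul, map_pow, map_pow, dcovl_val_one h1 h2 a1,
    dcovl_val_one h1 h2 b1, mul_one, mul_one] at e1
  rw [MulMemClass.coe_mul, map_mul, dcovl_val_one h1 h2 c1, mul_one] at hv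
  have p0 : 0 < V.valuation (p : Ω) := by
    rw [zero_lt_iff, Valuation.ne_zero_iff]
    exact fun h => hp.ne_zero (Subtype.ext h)
  have p1 : V.valuation (p : Ω) < 1 := (h2 p).2 dvd_rfl
  have e2 : V.valuation (p : Ω) ^ (2 * n + 1) = V.valuation (p : Ω) ^ (2 * m) := by
    rw [pow_succ', pow_mul', pow_mul', ← e1, mul_pow, ← hv]
  have := pow_right_injective₀ p0 p1.ne e2
  omega

end val

section ext

variable {L L' : LA Ω} {M : IntermediateField ℂ Ω} {w u v : Ω}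

theorem dcovl_adj (hq : w ^ 2 ∈ L.O) {z : Ω} (hz : z ∈ Algebra.adjoin ℂ (insert w (L.O : Set Ω))) :
    ∃ a ∈ L.O, ∃ b ∈ L.O, z = a + b * w := by
  induction hz using Algebra.adjoin_induction with
  | mem x hx =>
    rcases hx with rfl | hx
    · exact ⟨0, L.O.zero_mem, 1, L.O.one_mem, by ring⟩
    · exact ⟨x, hx, 0, L.O.zero_mem, by ring⟩
  | algebraMap r => exact ⟨_, L.O.algebraMap_mem r, 0, L.O.zero_mem, by ring⟩
  | add x y _ _ ex ey =>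
    obtain ⟨a, ha, b, hb, rfl⟩ := ex
    obtain ⟨c, hc, d, hd, rfl⟩ := ey
    exact ⟨a + c, L.O.add_mem ha hc, b + d, L.O.add_mem hb hd, by ring⟩
  | mul x y _ _ ex ey =>
    obtain ⟨a, ha, b, hb, rfl⟩ := ex
    obtain ⟨c, hc, d, hd, rfl⟩ := ey
    exact ⟨a * c + b * d * w ^ 2, L.O.add_mem (L.O.mul_mem ha hc)
      (L.O.mul_mem (L.O.mul_mem hb hd) hq), a * d + b * c,
      L.O.add_mem (L.O.mul_mem ha hd) (L.O.mul_mem hb hc), by ring⟩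

theorem Ext.dcovl_rep (h : L.Ext L' w) (hq : w ^ 2 ∈ L.O) {z : Ω} (hz : z ∈ L'.O) :
    ∃ a ∈ L.O, ∃ b ∈ L.O, ∃ c ∈ L.O, ∃ d ∈ L.O, L'.Un (a + b * w) ∧
      z * (a + b * w) = c + d * w := by
  obtain ⟨r, hr, s, hs, h1, h2⟩ := h.2.2.2 z hz
  obtain ⟨c, hc, d, hd, rfl⟩ := dcovl_adj hq hr
  obtain ⟨a, ha, b, hb, rfl⟩ := dcovl_adj hq hs
  exact ⟨a, ha, b, hb, c, hc, d, hd,
    ⟨L'.O.add_mem (h.1 ha) (L'.O.mul_mem (h.1 hb) h.2.2.1), h1⟩, h2⟩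

theorem Ext.dcovl_ev (h : L.Ext L' w) {a b : Ω} (ha : a ∈ L.O) (hb : b ∈ L.O) :
    L'.ev (a + b * w) = L.ev a + L.ev b * L'.ev w := by
  rw [L'.ev_add _ (h.1 ha) _ (L'.O.mul_mem (h.1 hb) h.2.2.1), L'.ev_mul _ (h.1 hb) _ h.2.2.1,
    h.2.1 a ha, h.2.1 b hb]

theorem Ext.dcovl_un (h : L.Ext L' w) {z : Ω} (hz : L.Un z) : L'.Un z :=
  ⟨h.1 hz.1, by rw [h.2.1 z hz.1]; exact hz.2⟩

theorem Ext.dcovl_mx (h : L.Ext L' w) {z : Ω} (hz : L.Mx z) : L'.Mx z :=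
  ⟨h.1 hz.1, by rw [h.2.1 z hz.1]; exact hz.2⟩

theorem Ext.dcovl_ctr (h : L.Ext L' w) {z : Ω} (hz : L.ctr z ∈ L.O) : L'.ctr z = L.ctr z := by
  have : z ∈ L.O := by
    have := L.O.add_mem hz (L.O.algebraMap_mem (L.ev z))
    rwa [ctr, sub_add_cancel] at this
  rw [ctr, ctr, h.2.1 z this]

theorem Ext.dcovl_inter (h : L.Ext L' w) (hq : w ^ 2 ∈ L.O) (hF : L.Frac M) (hw : w ∉ M) {z : Ω}
    (hz : z ∈ L'.O) (hM : z ∈ M) : z ∈ L.O := by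
  obtain ⟨a, ha, b, hb, c, hc, d, hd, h1, h2⟩ := h.dcovl_rep hq hz
  have e1 : z * b = d := by
    by_contra hn
    refine hw ?_
    have : w = (c - z * a) / (z * b - d) := by
      rw [eq_div_iff (sub_ne_zero.2 hn)]
      linear_combination h2
    rw [this]
    exact M.div_mem (M.sub_mem (hF.1 c hc) (M.mul_mem hM (hF.1 a ha)))
      (M.sub_mem (M.mul_mem hM (hF.1 b hb)) (hF.1 d hd))
  have e2 : z * a = c := by linear_combination h2 - w * e1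
  have key : ∀ s t, s ∈ L.O → t ∈ L.O → L.ev s ≠ 0 → z * s = t → z ∈ L.O := fun s t hs ht h0 e => by
    have s0 : s ≠ 0 := Un.ne_zero ⟨hs, h0⟩
    have : z = t * s⁻¹ := by rw [← e]; field_simp
    rw [this]
    exact L.O.mul_mem ht (L.inv_mem s hs h0)
  by_cases h0 : L.ev a = 0
  · refine key b d hb hd (fun h3 => h1.2 ?_) e1
    rw [h.dcovl_ev ha hb, h0, h3]
    simp
  · exact key a c ha hc h0 e2

/-- membership in the ideal generated by two elements -/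
def dcovlI (L : LA Ω) (u v z : Ω) : Prop := ∃ α ∈ L.O, ∃ β ∈ L.O, z = α * u + β * v

theorem dcovlI.add {z z' : Ω} (h : L.dcovlI u v z) (h' : L.dcovlI u v z') :
    L.dcovlI u v (z + z') := by
  obtain ⟨a, ha, b, hb, rfl⟩ := h
  obtain ⟨c, hc, d, hd, rfl⟩ := h'
  exact ⟨a + c, L.O.add_mem ha hc, b + d, L.O.add_mem hb hd, by ring⟩

theorem dcovlI.mul {z s : Ω} (h : L.dcovlI u v z) (hs : s ∈ L.O) : L.dcovlI u v (z * s) := by
  obtain ⟨a, ha, b, hb, rfl⟩ := h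
  exact ⟨a * s, L.O.mul_mem ha hs, b * s, L.O.mul_mem hb hs, by ring⟩

theorem Ext.dcovl_gen (h : L.Ext L' w) (hq : w ^ 2 ∈ L.O) (hu : L'.Mx u) (hv : L'.Mx v)
    (h1 : ∀ z, L.Mx z → L'.dcovlI u v z) (h2 : L'.dcovlI u v (L'.ctr w)) : L'.Gen u v := by
  refine ⟨hu, hv, fun z hz => ?_⟩
  obtain ⟨a, ha, b, hb, c, hc, d, hd, h3, h4⟩ := h.dcovl_rep hq hz.1
  have h5 : L.ev c + L.ev d * L'.ev w = 0 := by
    rw [← h.dcovl_ev hc hd, ← h4, L'.ev_mul _ hz.1 _ h3.1, hz.2, zero_mul]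
  have h6 : z = (L.ctr c + L.ctr d * w + L'.ctr w * algebraMap ℂ Ω (L.ev d)) * (a + b * w)⁻¹ := by
    rw [eq_mul_inv_iff_mul_eq₀ h3.ne_zero, h4, ctr, ctr, ctr]
    have := congrArg (algebraMap ℂ Ω) h5
    rw [map_add, map_mul, map_zero] at this
    linear_combination this
  rw [h6]
  exact (((h1 _ (mx_ctr hc)).add ((h1 _ (mx_ctr hd)).mul h.2.2.1)).add
    (h2.mul (L'.O.algebraMap_mem _))).mul h3.inv.1.1

theorem Ext.dcovl_unr [IsNoetherianRing L'.O] (h : L.Ext L' w) (hq : L.Un (w ^ 2))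
    (hF : L.Frac M) (hw : w ∉ M) (hc : L.Coord u v) : L'.Coord u v := by
  have h1 : ∀ z, L.Mx z → L'.dcovlI u v z := fun z hz => by
    obtain ⟨α, hα, β, hβ, e⟩ := hc.1.2.2 z hz
    exact ⟨α, h.1 hα, β, h.1 hβ, e⟩
  have h2 : L.ev (w ^ 2) = L'.ev w ^ 2 := by rw [← h.2.1 _ hq.1, ev_pow h.2.2.1]
  have h3 : L'.ev w ≠ 0 := fun h0 => hq.2 (by rw [h2, h0]; simp)
  have h4 : L'.Un (w + algebraMap ℂ Ω (L'.ev w)) :=
    ⟨L'.O.add_mem h.2.2.1 (L'.O.algebraMap_mem _), by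
      rw [L'.ev_add _ h.2.2.1 _ (L'.O.algebraMap_mem _), L'.ev_alg, ← two_mul]
      exact mul_ne_zero two_ne_zero h3⟩
  have h5 : L'.ctr w = L.ctr (w ^ 2) * (w + algebraMap ℂ Ω (L'.ev w))⁻¹ := by
    rw [eq_mul_inv_iff_mul_eq₀ h4.ne_zero, ctr, ctr, h2, map_pow]
    ring
  refine dcovl_coord (h.dcovl_gen hq.1 (h.dcovl_mx hc.1.1) (h.dcovl_mx hc.1.2.1) h1 ?_)
    hc.ne_zero.1 fun n hn => ?_
  · rw [h5]
    exact (h1 _ (mx_ctr hq.1)).mul h4.inv.1.1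
  · have h6 := h.dcovl_inter hq.1 hF hw hn
      (M.div_mem (pow_mem (hF.1 v hc.1.2.1.1) n) (hF.1 u hc.1.1.1))
    have h7 : L.Mon u v (v ^ n / u) (-1, n) := ⟨1, dcovl_un_one, by simp; ring⟩
    exact absurd ((dufd_mon_mem hc h7).1 h6).1 (by norm_num)

theorem Ext.dcovl_ram [IsNoetherianRing L'.O] (h : L.Ext L' w) {ε : Ω} (hε : L.Un ε)
    (hq : w ^ 2 = ε * u) (hF : L.Frac M) (hw : w ∉ M) (hc : L.Coord u v) : L'.Coord w v := by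
  have hq' : w ^ 2 ∈ L.O := hq ▸ L.O.mul_mem hε.1 hc.1.1.1
  have h2 : L'.ev w = 0 := by
    have : L'.ev w ^ 2 = 0 := by
      rw [← ev_pow h.2.2.1, h.2.1 _ hq', hq, L.ev_mul _ hε.1 _ hc.1.1.1, hc.1.1.2, mul_zero]
    exact pow_eq_zero_iff two_ne_zero |>.1 this
  have e0 := hε.ne_zero
  have w0 : w ≠ 0 := fun h0 => hw (h0 ▸ M.zero_mem)
  refine dcovl_coord (h.dcovl_gen hq' ⟨h.2.2.1, h2⟩ (h.dcovl_mx hc.1.2.1) (fun z hz => ?_) ?_)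
    w0 fun n hn => ?_
  · obtain ⟨α, hα, β, hβ, e⟩ := hc.1.2.2 z hz
    refine ⟨α * ε⁻¹ * w, L'.O.mul_mem (h.1 (L.O.mul_mem hα hε.inv.1.1)) h.2.2.1, β, h.1 hβ, ?_⟩
    rw [e, mul_assoc, ← sq, hq]
    field_simp
  · exact ⟨1, L'.O.one_mem, 0, L'.O.zero_mem, by simp [ctr, h2]⟩
  · have h5 : (v ^ n / w) ^ 2 ∈ M := by
      rw [div_pow]
      exact M.div_mem (pow_mem (pow_mem (hF.1 v hc.1.2.1.1) n) 2) (hF.1 _ hq')
    have h6 := h.dcovl_inter hq' hF hw (L'.O.pow_mem hn 2) h5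
    have h7 : L.Mon u v ((v ^ n / w) ^ 2) (-1, (2 * n : ℕ)) := ⟨ε⁻¹, hε.inv.1, by
      rw [div_pow, hq, zpow_natCast, zpow_neg_one]; ring⟩
    exact absurd ((dufd_mon_mem hc h7).1 h6).1 (by norm_num)

theorem Ext.dcovl_mon (h : L.Ext L' w) {ε : Ω} (hε : L.Un ε) (hq : w ^ 2 = ε * u) {φ : Ω}
    {e : ℤ × ℤ} (hm : L.Mon u v φ e) : L'.Mon w v φ (2 * e.1, e.2) := by
  obtain ⟨η, hη, rfl⟩ := hm
  refine ⟨η * ε ^ (-e.1), h.dcovl_un (hη.mul (hε.zpow _).1), ?_⟩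
  have e0 := zpow_ne_zero e.1 hε.ne_zero
  rw [zpow_mul, zpow_ofNat, hq, mul_zpow, zpow_neg]
  field_simp

theorem Ext.dcovl_frac (h : L.Ext L' w) (hq : w ^ 2 ∈ L.O) (hF : L.Frac M) {w' g : Ω}
    (hg : g ∈ M) (g0 : g ≠ 0) (hw : w = w' / g) :
    L'.Frac (M ⊔ IntermediateField.adjoin ℂ {w'}) := by
  have hM : ∀ z ∈ M, z ∈ M ⊔ IntermediateField.adjoin ℂ {w'} := fun z hz =>
    (le_sup_left : M ≤ _) hz
  have hw' : w ∈ M ⊔ IntermediateField.adjoin ℂ {w'} := by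
    rw [hw]
    exact div_mem ((le_sup_right : IntermediateField.adjoin ℂ {w'} ≤ _)
      (IntermediateField.mem_adjoin_simple_self ℂ w')) (hM g hg)
  refine ⟨fun z hz => ?_, ?_⟩
  · obtain ⟨a, ha, b, hb, c, hc, d, hd, h3, h4⟩ := h.dcovl_rep hq hz
    rw [eq_div_of_mul_eq h3.ne_zero h4]
    exact div_mem (add_mem (hM c (hF.1 c hc)) (mul_mem (hM d (hF.1 d hd)) hw'))
      (add_mem (hM a (hF.1 a ha)) (mul_mem (hM b (hF.1 b hb)) hw'))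
  · let K : IntermediateField ℂ Ω :=
      { carrier := {z | ∃ r ∈ L'.O, ∃ s ∈ L'.O, s ≠ 0 ∧ z * s = r}
        mul_mem' := by
          rintro a b ⟨r, hr, s, hs, s0, e⟩ ⟨r', hr', s', hs', s0', e'⟩
          exact ⟨r * r', mul_mem hr hr', s * s', mul_mem hs hs', mul_ne_zero s0 s0', by
            rw [← e, ← e']; ring⟩
        add_mem' := by
          rintro a b ⟨r, hr, s, hs, s0, e⟩ ⟨r', hr', s', hs', s0', e'⟩
          exact ⟨r * s' + r' * s, add_mem (mul_mem hr hs') (mul_mem hr' hs), s * s',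
            mul_mem hs hs', mul_ne_zero s0 s0', by rw [← e, ← e']; ring⟩
        algebraMap_mem' := fun c => ⟨_, L'.O.algebraMap_mem c, 1, one_mem _, one_ne_zero, mul_one _⟩
        inv_mem' := by
          rintro a ⟨r, hr, s, hs, s0, e⟩
          by_cases a0 : a = 0
          · exact ⟨0, zero_mem _, 1, one_mem _, one_ne_zero, by simp [a0]⟩
          · exact ⟨s, hs, r, hr, e ▸ mul_ne_zero a0 s0, by rw [← e]; field_simp⟩ }
    have h1 : M ≤ K := fun z hz => by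
      obtain ⟨r, hr, s, hs, s0, e⟩ := hF.2 z hz
      exact ⟨r, h.1 hr, s, h.1 hs, s0, e⟩
    have h2 : w ∈ K := ⟨w, h.2.2.1, 1, one_mem _, one_ne_zero, mul_one _⟩
    have h3 : w' ∈ K := by
      have := K.mul_mem h2 (h1 hg)
      rwa [hw, div_mul_cancel₀ _ g0] at this
    have h4 : M ⊔ IntermediateField.adjoin ℂ {w'} ≤ K :=
      sup_le h1 (IntermediateField.adjoin_simple_le_iff.2 h3)
    exact fun z hz => h4 hz

theorem Ext.dcovl_loc (h : L.Ext L' w) {R R' : Subalgebra ℂ Ω} (hR : L.LocOf R) (h1 : R ≤ R')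
    (h2 : R' ≤ L'.O) (h3 : ∃ s ∈ R, L.ev s ≠ 0 ∧ w * s ∈ R') : L'.LocOf R' := by
  let T : Subalgebra ℂ Ω :=
    { carrier := {z | ∃ r ∈ R', ∃ s ∈ R', L'.ev s ≠ 0 ∧ z * s = r}
      mul_mem' := by
        rintro a b ⟨r, hr, s, hs, s0, e⟩ ⟨r', hr', s', hs', s0', e'⟩
        exact ⟨r * r', mul_mem hr hr', s * s', mul_mem hs hs',
          (Un.mul ⟨h2 hs, s0⟩ ⟨h2 hs', s0'⟩).2, by rw [← e, ← e']; ring⟩
      add_mem' := by
        rintro a b ⟨r, hr, s, hs, s0, e⟩ ⟨r', hr', s', hs', s0', e'⟩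
        exact ⟨r * s' + r' * s, add_mem (mul_mem hr hs') (mul_mem hr' hs), s * s',
          mul_mem hs hs', (Un.mul ⟨h2 hs, s0⟩ ⟨h2 hs', s0'⟩).2, by rw [← e, ← e']; ring⟩
      algebraMap_mem' := fun c =>
        ⟨_, R'.algebraMap_mem c, 1, one_mem _, dcovl_un_one.2, mul_one _⟩ }
  have hT : Algebra.adjoin ℂ (insert w (L.O : Set Ω)) ≤ T := by
    refine Algebra.adjoin_le ?_
    rintro z (rfl | hz)
    · obtain ⟨s, hs, s0, e⟩ := h3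
      exact ⟨_, e, s, h1 hs, (h.dcovl_un ⟨hR.1 hs, s0⟩).2, rfl⟩
    · obtain ⟨r, hr, s, hs, s0, e⟩ := hR.2 z hz
      exact ⟨r, h1 hr, s, h1 hs, (h.dcovl_un ⟨hR.1 hs, s0⟩).2, e⟩
  have hA : Algebra.adjoin ℂ (insert w (L.O : Set Ω)) ≤ L'.O :=
    Algebra.adjoin_le (Set.insert_subset h.2.2.1 h.1)
  refine ⟨h2, fun z hz => ?_⟩
  obtain ⟨r, hr, s, hs, s0, e⟩ := h.2.2.2 z hz
  obtain ⟨r1, hr1, s1, hs1, t1, e1⟩ := hT hs
  obtain ⟨r2, hr2, s2, hs2, t2, e2⟩ := hT hr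
  refine ⟨r2 * s1, mul_mem hr2 hs1, r1 * s2, mul_mem hr1 hs2, ?_, ?_⟩
  · rw [← e1]
    exact ((Un.mul ⟨hA hs, s0⟩ ⟨h2 hs1, t1⟩).mul ⟨h2 hs2, t2⟩).2
  · rw [← e1, ← e2, ← e]; ring

end ext

end LA

open LA in
theorem Dat.dcovl_prime (D : Dat Ω) {L : LA Ω} [IsNoetherianRing L.O] {u v : Ω}
    {e : D.Ix → ℤ × ℤ} (hI : D.InvAt L u v e) {w : Ω} (hU : D.Unr0 w) {p : L.O} (hp : Prime p)
    {V : ValuationSubring Ω} (h1 : ∀ z ∈ L.O, z ∈ V)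
    (h2 : ∀ z : L.O, V.valuation (z : Ω) < 1 ↔ p ∣ z)
    (hu : ¬ (p ∣ ⟨u, hI.1.1.1.1⟩ ∧ ∃ φ, (e φ).1 ≠ 0))
    (hv : ¬ (p ∣ ⟨v, hI.1.1.2.1.1⟩ ∧ ∃ φ, (e φ).2 ≠ 0)) :
    ∃ h ∈ IntermediateField.adjoin ℂ {D.b, D.x}, h ≠ 0 ∧ V.valuation w = V.valuation h := by
  obtain ⟨hc, hm, ht⟩ := hI
  have a1 : ∀ φ, V.valuation (D.phi φ) = 1 := fun φ => by
    obtain ⟨ε, hε, h3⟩ := hm φ
    have b1 : V.valuation u ^ (e φ).1 = 1 := by
      by_cases h0 : (e φ).1 = 0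
      · rw [h0, zpow_zero]
      · rw [dcovl_val_one h1 h2 (z := ⟨u, hc.1.1.1⟩) fun h => hu ⟨h, φ, h0⟩, one_zpow]
    have b2 : V.valuation v ^ (e φ).2 = 1 := by
      by_cases h0 : (e φ).2 = 0
      · rw [h0, zpow_zero]
      · rw [dcovl_val_one h1 h2 (z := ⟨v, hc.1.2.1.1⟩) fun h => hv ⟨h, φ, h0⟩, one_zpow]
    rw [h3, map_mul, map_mul, map_zpow₀, map_zpow₀, dcovl_val_un hp h1 h2 hε, b1, b2, mul_one,
      mul_one]
  have a2 : ∀ q ∈ D.S, V.valuation (D.b - algebraMap ℂ Ω q) = 1 := fun q hq => by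
    have : V.valuation (D.rt q) = 1 := a1 (Sum.inl ⟨q, hq⟩)
    rw [← D.hrt q hq, map_pow, this, one_pow]
  have a3 : ∀ i, V.valuation (D.x - av i D.b) = 1 := fun i => a1 (Sum.inr i)
  have a4 : ∀ q (hq : q ∈ D.S), L.Mon u v (D.b - algebraMap ℂ Ω q) (D.E • e (Sum.inl ⟨q, hq⟩)) :=
    fun q hq => D.hrt q hq ▸ dcovl_mon_pow hc (hm (Sum.inl ⟨q, hq⟩)) D.E
  have vb : V.valuation D.b = 1 := by simpa using a2 0 D.zero_mem_S
  have vx : V.valuation D.x = 1 := by simpa [av] using a3 0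
  refine hU V (fun c => h1 _ (L.O.algebraMap_mem c)) ((V.valuation_le_one_iff _).1 vb.le)
    ((V.valuation_le_one_iff _).1 vx.le) a2 a3 ?_
  rintro ⟨t, c, k1, k2⟩
  have mb := a4 0 D.zero_mem_S
  have mb1 := a4 1 D.dcovl_one_mem
  rw [map_zero, sub_zero] at mb
  rw [map_one] at mb1
  have mx : L.Mon u v D.x (e (Sum.inr 0)) := by simpa [Dat.phi, av] using hm (Sum.inr 0)
  have mx1 : L.Mon u v (D.x - 1) (e (Sum.inr 3)) := by simpa [Dat.phi, av] using hm (Sum.inr 3)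
  obtain ⟨b1, b2⟩ := dcovl_in hp h1 h2 hc mb mb1 vb k1
  obtain ⟨x1, x2⟩ := dcovl_in hp h1 h2 hc mx mx1 vx k2
  have d1 : p ∣ ⟨D.b, b1⟩ - algebraMap ℂ L.O t := (h2 _).1 k1
  have d2 : p ∣ ⟨D.x, x1⟩ - algebraMap ℂ L.O c := (h2 _).1 k2
  have e0 : ∀ φ, e φ = 0 := by
    rintro (⟨q, hq⟩ | i)
    · have m1 := L.O.sub_mem b1 (L.O.algebraMap_mem q)
      have m2 : L.Un (D.b - algebraMap ℂ Ω q) := ⟨m1, fun h0 => by
        rw [ev_sub b1 (L.O.algebraMap_mem q), L.ev_alg, b2, sub_eq_zero] at h0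
        rw [h0, a2 q hq] at k1
        exact lt_irrefl _ k1⟩
      exact (smul_eq_zero.1 ((dufd_mon_un hc (a4 q hq)).1 m2)).resolve_left D.hE.ne'
    · have m0 : ((av i (⟨D.b, b1⟩ : L.O) : L.O) : Ω) = av i D.b := dcovl_av_map L.O.val i _
      have m1 : av i D.b ∈ L.O := m0 ▸ (av i (⟨D.b, b1⟩ : L.O)).2
      have m3 : L.ev (av i D.b) = av i t := by
        rw [← m0, ← b2]
        exact dcovl_av_map L.evHom i _
      refine (dufd_mon_un hc (hm (Sum.inr i))).1 ⟨L.O.sub_mem x1 m1, fun h0 => ?_⟩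
      change L.ev (D.x - av i D.b) = 0 at h0
      rw [ev_sub x1 m1, x2, m3, sub_eq_zero] at h0
      have d3 := dvd_sub d2 (d1.trans (dcovl_av_sub i _ _))
      rw [← dcovl_av_map, ← h0, sub_sub_sub_cancel_right] at d3
      have d4 := (h2 _).2 d3
      rw [AddSubgroupClass.coe_sub, m0, a3 i] at d4
      exact lt_irrefl _ d4
  rcases ht with ⟨-, h3⟩ | ⟨-, ⟨φ, h3⟩, -⟩ | ⟨φ, φ', h3⟩
  · have d5 : p ∣ ⟨L.ctr D.b, h3.1.1.1⟩ := (h2 _).1 (by rw [← b2] at k1; exact k1)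
    have d6 : p ∣ ⟨L.ctr D.x, h3.1.2.1.1⟩ := (h2 _).1 (by rw [← x2] at k2; exact k2)
    refine dufd_not_dvd h3 1 ?_
    rw [pow_one]
    exact (hp.associated_of_dvd h3.prime d5).symm.dvd.trans d6
  · exact h3 (by rw [e0]; rfl)
  · exact h3 (by simp [e0])

open LA in
theorem Dat.exists_factor (D : Dat Ω) {M : IntermediateField ℂ Ω} {L : LA Ω} [IsNoetherianRing L.O]
    (hF : L.Frac M) (hb : D.b ∈ M) (hx : D.x ∈ M) {u v : Ω} {e : D.Ix → ℤ × ℤ}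
    (hI : D.InvAt L u v e) {w : Ω} (hw : w ^ 2 ∈ M) (hw0 : w ≠ 0) (hU : D.Unr0 w) :
    ∃ h ∈ M, h ≠ 0 ∧ ∃ ε, L.Un ε ∧ ∃ i j : ℕ, i ≤ 1 ∧ j ≤ 1 ∧ w ^ 2 = h ^ 2 * (ε * u ^ i * v ^ j) ∧
      (i = 1 → ∃ φ, (e φ).1 ≠ 0) ∧ (j = 1 → ∃ φ, (e φ).2 ≠ 0) := by
  have hc := hI.1
  have := hc.ufd
  obtain ⟨r, hr, s, hs, s0, e1⟩ := hF.2 _ hw
  have r0 : r ≠ 0 := e1 ▸ mul_ne_zero (pow_ne_zero 2 hw0) s0
  obtain ⟨a, b, e2, hsq⟩ := dcovl_sq (y := (⟨r * s, L.O.mul_mem hr hs⟩ : L.O))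
    fun h => mul_ne_zero r0 s0 (congrArg Subtype.val h)
  have e3 : (a : Ω) ^ 2 * b = r * s := by simpa using congrArg Subtype.val e2
  have a0 : (a : Ω) ≠ 0 := fun h => mul_ne_zero r0 s0 (by rw [← e3, h]; ring)
  have hh : (a : Ω) / s ∈ M := M.div_mem (hF.1 _ a.2) (hF.1 s hs)
  have hh0 : (a : Ω) / s ≠ 0 := div_ne_zero a0 s0
  have e4 : w ^ 2 = ((a : Ω) / s) ^ 2 * b := by
    rw [div_pow, div_mul_eq_mul_div, e3, ← e1]
    field_simp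
  obtain ⟨ε, hε, i, j, hi, hj, e5, k1, k2⟩ := dcovl_shape (P := ∃ φ, (e φ).1 ≠ 0)
    (Q := ∃ φ, (e φ).2 ≠ 0) hsq (dufd_nu hc) (dufd_nv hc) hc.prime hc.symm.prime
    (by simpa using dufd_not_dvd hc 1) (by simpa using dufd_not_dvd hc.symm 1) (fun p hp hpb => by
      by_contra hn
      rw [not_or] at hn
      obtain ⟨V, h1, h2⟩ := exists_val_prime hc p hp
      obtain ⟨g, hg, g0, e6⟩ := D.dcovl_prime hI hU hp h1 h2 hn.1 hn.2
      have hgM : g ∈ M := (IntermediateField.adjoin_le_iff.2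
        (Set.insert_subset hb (Set.singleton_subset_iff.2 hx)) : _ ≤ M) hg
      refine dcovl_parity hp h1 h2 hF hsq hpb (M.div_mem hgM hh) (div_ne_zero g0 hh0) ?_
      have e7 := congrArg V.valuation e4
      have e8 : V.valuation ((a : Ω) / s) ≠ 0 := (Valuation.ne_zero_iff _).2 hh0
      rw [map_mul, map_pow, map_pow, e6] at e7
      rw [map_div₀, div_pow, e7, mul_div_cancel_left₀ _ (pow_ne_zero 2 e8)])
  refine ⟨_, hh, hh0, ε, ⟨ε.2, isUnit_iff.1 hε⟩, i, j, hi, hj, ?_, k1, k2⟩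
  rw [e4, e5]
  simp

open LA in
theorem Dat.goodPt_cover (D : Dat Ω) {M : IntermediateField ℂ Ω} {L L' : LA Ω}
    [IsNoetherianRing L.O] [IsNoetherianRing L'.O] (hF : L.Frac M) (hb : D.b ∈ M) (hx : D.x ∈ M)
    {u v : Ω} {e : D.Ix → ℤ × ℤ} (hI : D.InvAt L u v e) (hcan : D.IsU L → L.LocOf (D.RM M))
    {w h ε : Ω} {i j : ℕ} (hwM : w ∉ M) (hh : h ∈ M) (hh0 : h ≠ 0) (hε : L.Un ε) (hij : i + j ≤ 1)
    (hw : w ^ 2 = h ^ 2 * (ε * u ^ i * v ^ j)) (hi : i = 1 → ∃ φ, (e φ).1 ≠ 0)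
    (hj : j = 1 → ∃ φ, (e φ).2 ≠ 0) (h' : L.Ext L' (w / h)) :
    D.GoodPt (M ⊔ IntermediateField.adjoin ℂ {w}) L' := by
  obtain ⟨hc, hm, ht⟩ := hI
  have q1 : (w / h) ^ 2 = ε * u ^ i * v ^ j := by
    rw [div_pow, hw, mul_div_cancel_left₀ _ (pow_ne_zero 2 hh0)]
  have q2 : (w / h) ^ 2 ∈ L.O := q1 ▸ L.O.mul_mem (L.O.mul_mem hε.1 (L.O.pow_mem hc.1.1.1 i))
    (L.O.pow_mem hc.1.2.1.1 j)
  have q3 : w / h ∉ M := fun h0 => hwM (by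
    have := M.mul_mem h0 hh
    rwa [div_mul_cancel₀ _ hh0] at this)
  have hF' := h'.dcovl_frac q2 hF hh hh0 rfl
  have hI' : ∃ u' v' e', D.InvAt L' u' v' e' := by
    obtain ⟨rfl, rfl⟩ | ⟨rfl, rfl⟩ | ⟨rfl, rfl⟩ :
        (i = 0 ∧ j = 0) ∨ (i = 1 ∧ j = 0) ∨ (i = 0 ∧ j = 1) := by omega
    · have q4 : L.Un ((w / h) ^ 2) := by simpa [q1] using hε
      refine ⟨u, v, e, h'.dcovl_unr q4 hF q3 hc, fun φ => ?_, ?_⟩
      · obtain ⟨η, hη, h0⟩ := hm φ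
        exact ⟨η, h'.dcovl_un hη, h0⟩
      · rcases ht with ⟨h1, h2⟩ | ⟨h1, h2, k, h3, h4⟩ | h1
        · refine Or.inl ⟨h1, ?_⟩
          rw [h'.dcovl_ctr h2.1.1.1, h'.dcovl_ctr h2.1.2.1.1]
          exact h'.dcovl_unr q4 hF q3 h2
        · refine Or.inr (Or.inl ⟨h1, h2, k, h'.dcovl_un h3, ?_⟩)
          rw [h'.dcovl_ctr h4.1.2.1.1]
          exact h'.dcovl_unr q4 hF q3 h4
        · exact Or.inr (Or.inr h1)
    · have q4 : (w / h) ^ 2 = ε * u := by simpa using q1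
      refine ⟨w / h, v, fun φ => (2 * (e φ).1, (e φ).2), h'.dcovl_ram hε q4 hF q3 hc,
        fun φ => h'.dcovl_mon hε q4 (hm φ), ?_⟩
      rcases ht with ⟨h1, -⟩ | ⟨h1, ⟨φ, h2⟩, k, h3, h4⟩ | ⟨φ, φ', h1⟩
      · obtain ⟨φ, h2⟩ := hi rfl
        exact absurd (by rw [h1]; rfl) h2
      · refine Or.inr (Or.inl ⟨h1, ⟨φ, mul_ne_zero two_ne_zero h2⟩, k, h'.dcovl_un h3, ?_⟩)
        rw [h'.dcovl_ctr h4.1.2.1.1]
        exact h'.dcovl_ram hε q4 hF q3 h4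
      · refine Or.inr (Or.inr ⟨φ, φ', fun h0 => mul_ne_zero two_ne_zero h1 ?_⟩)
        linear_combination h0
    · have q4 : (w / h) ^ 2 = ε * v := by simpa using q1
      obtain ⟨ψ, hψ⟩ := hj rfl
      refine ⟨w / h, u, fun φ => (2 * (e φ).2, (e φ).1), h'.dcovl_ram hε q4 hF q3 hc.symm,
        fun φ => h'.dcovl_mon hε q4 (dufd_mon_swap (hm φ)), ?_⟩
      rcases ht with ⟨h1, -⟩ | ⟨h1, -⟩ | ⟨φ, φ', h1⟩
      · exact absurd (by rw [h1]; rfl) hψ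
      · exact absurd (h1 ψ) hψ
      · refine Or.inr (Or.inr ⟨φ', φ, fun h0 => mul_ne_zero two_ne_zero h1 ?_⟩)
        linear_combination h0
  refine ⟨hF', hI', fun hU => ?_⟩
  obtain ⟨u', v', e', hc', -⟩ := hI'
  have hU' : D.IsU L := fun φ => by
    have m1 : D.phi φ ∈ M := by
      obtain ⟨η, hη, h0⟩ := hm φ
      rw [h0]
      exact M.mul_mem (M.mul_mem (hF.1 η hη.1) (zpow_mem (hF.1 u hc.1.1.1) _))
        (zpow_mem (hF.1 v hc.1.2.1.1) _)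
    have m2 := h'.dcovl_inter q2 hF q3 (hU φ).1 m1
    exact ⟨m2, by rw [← h'.2.1 _ m2]; exact (hU φ).2⟩
  have hL := hcan hU'
  have hMM : M ≤ M ⊔ IntermediateField.adjoin ℂ {w} := le_sup_left
  have hA : Algebra.adjoin ℂ {D.b, D.x} ≤ D.RM M := fun z hz =>
    ⟨isIntegral_algebraMap (x := (⟨z, hz⟩ : Algebra.adjoin ℂ {D.b, D.x})),
      (Algebra.adjoin_le (S := M.toSubalgebra)
        (Set.insert_subset hb (Set.singleton_subset_iff.2 hx))) hz⟩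
  refine h'.dcovl_loc hL (fun z hz => ⟨hz.1, hMM hz.2⟩)
    (fun z hz => hc'.mem_of_integral hF' (hA.trans (hL.1.trans h'.1)) hz.2 hz.1) ?_
  obtain ⟨r, hr, s, hs, s0, e1⟩ := hL.2 _ q2
  refine ⟨s, hs, s0, ?_, mul_mem (hF'.1 _ h'.2.2.1) (hMM hs.2)⟩
  refine IsIntegral.of_pow two_pos ?_
  rw [mul_pow, sq s, ← mul_assoc, e1]
  exact (mul_mem hr hs).1

end Vale.Agent.P300
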