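import Vale.Agent.P300.DUfd

/-! P300: auxiliary facts for double covers (factorisation, monomials). -/

noncomputable section

namespace Vale.Agent.P300

section DCovLAbstract

variable {A : Type} [CommRing A] [IsDomain A] [UniqueFactorizationMonoid A]

theorem dcovl_sq {y : A} (hy : y ≠ 0) : ∃ a b : A, a ^ 2 * b = y ∧ Squarefree b := by
  obtain ⟨b, ⟨a, rfl⟩, hm⟩ := wellFounded_dvdNotUnit.has_min
    {b : A | ∃ a, a ^ 2 * b = y} ⟨y, 1, by rw [one_pow, one_mul]⟩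
  refine ⟨a, b, rfl, fun x hx => ?_⟩
  obtain ⟨c, rfl⟩ := hx
  by_contra hu
  refine hm c ⟨a * x, by ring⟩ ⟨?_, x * x, fun h => hu (isUnit_of_mul_isUnit_left h), by ring⟩
  rintro rfl
  exact hy (by ring)

omit [IsDomain A] [UniqueFactorizationMonoid A] in
theorem dcovl_strip {b u : A} (hb : Squarefree b) (hu : ¬ IsUnit u) :
    ∃ i : ℕ, i ≤ 1 ∧ ∃ c, b = u ^ i * c ∧ ¬ u ∣ c ∧ (i = 1 → u ∣ b) := by
  by_cases h : u ∣ b
  · obtain ⟨c, rfl⟩ := h
    exact ⟨1, le_rfl, c, by rw [pow_one], fun h => hu (hb u (mul_dvd_mul_left u h)),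
      fun _ => dvd_mul_right _ _⟩
  · exact ⟨0, zero_le_one, b, by rw [pow_zero, one_mul], h, fun h => absurd h zero_ne_one⟩

theorem dcovl_shape {b u v : A} {P Q : Prop} (hb : Squarefree b) (hu : ¬ IsUnit u)
    (hv : ¬ IsUnit v) (pu : Prime u) (pv : Prime v) (huv : ¬ u ∣ v) (hvu : ¬ v ∣ u)
    (h : ∀ p, Prime p → p ∣ b → (p ∣ u ∧ P) ∨ (p ∣ v ∧ Q)) :
    ∃ ε, IsUnit ε ∧ ∃ i j : ℕ, i ≤ 1 ∧ j ≤ 1 ∧ b = ε * u ^ i * v ^ j ∧ (i = 1 → P) ∧
      (j = 1 → Q) := by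
  obtain ⟨i, hi, c, hc, h1, h2⟩ := dcovl_strip hb hu
  have hcb : c ∣ b := hc ▸ dvd_mul_left _ _
  obtain ⟨j, hj, d, hd, h3, h4⟩ := dcovl_strip (hb.squarefree_of_dvd hcb) hv
  have hdc : d ∣ c := hd ▸ dvd_mul_left _ _
  refine ⟨d, ?_, i, j, hi, hj, by rw [hc, hd]; ring, fun e => ?_, fun e => ?_⟩
  · by_contra hn
    have d0 : d ≠ 0 := by
      rintro rfl
      exact h3 (dvd_zero _)
    obtain ⟨p, hp, hpd⟩ := WfDvdMonoid.exists_irreducible_factor hn d0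
    have hp' := UniqueFactorizationMonoid.irreducible_iff_prime.1 hp
    rcases h p hp' (hpd.trans (hdc.trans hcb)) with ⟨h5, -⟩ | ⟨h5, -⟩
    · exact h1 (((hp'.associated_of_dvd pu h5).symm.dvd.trans hpd).trans hdc)
    · exact h3 ((hp'.associated_of_dvd pv h5).symm.dvd.trans hpd)
  · exact ((h u pu (h2 e)).resolve_right fun h5 => huv h5.1).2
  · exact ((h v pv ((h4 e).trans hcb)).resolve_left fun h5 => hvu h5.1).2

end DCovLAbstract

theorem dcovl_av_sub {R : Type} [CommRing R] (i : Fin 5) (b t : R) :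
    (b - t) ∣ av i b - av i t := by
  fin_cases i
  · simp [av]
  · exact ⟨b + t, by simp [av]; ring⟩
  · simp [av]
  · simp [av]
  · simp [av]

theorem dcovl_av_map {R S F : Type} [CommRing R] [CommRing S] [FunLike F R S]
    [RingHomClass F R S] (f : F) (i : Fin 5) (b : R) : f (av i b) = av i (f b) := by
  fin_cases i <;> simp [av]

variable {Ω : Type} [Field Ω] [Algebra ℂ Ω]

namespace LA

variable {L : LA Ω} {u v : Ω}

theorem dcovl_un_one : L.Un 1 := ⟨L.O.one_mem, by rw [ev_one]; exact one_ne_zero⟩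

theorem dcovl_mon_mul (h : L.Coord u v) {φ ψ : Ω} {e e' : ℤ × ℤ} (h1 : L.Mon u v φ e)
    (h2 : L.Mon u v ψ e') : L.Mon u v (φ * ψ) (e + e') := by
  obtain ⟨ε, hε, rfl⟩ := h1
  obtain ⟨ε', hε', rfl⟩ := h2
  refine ⟨ε * ε', hε.mul hε', ?_⟩
  rw [Prod.fst_add, Prod.snd_add, zpow_add₀ h.ne_zero.1, zpow_add₀ h.ne_zero.2]
  ring

theorem dcovl_mon_uv (a c : ℤ) : L.Mon u v (u ^ a * v ^ c) (a, c) :=
  ⟨1, dcovl_un_one, by rw [one_mul]⟩

theorem dcovl_mon_pow (h : L.Coord u v) {φ : Ω} {e : ℤ × ℤ} (h1 : L.Mon u v φ e) (n : ℕ) :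
    L.Mon u v (φ ^ n) (n • e) := by
  induction n with
  | zero => exact ⟨1, dcovl_un_one, by simp⟩
  | succ n ih =>
    rw [pow_succ, succ_nsmul]
    exact dcovl_mon_mul h ih h1

theorem dcovl_mon_inv {φ : Ω} {e : ℤ × ℤ} (h1 : L.Mon u v φ e) : L.Mon u v φ⁻¹ (-e) := by
  obtain ⟨ε, hε, rfl⟩ := h1
  refine ⟨ε⁻¹, hε.inv.1, ?_⟩
  simp only [Prod.fst_neg, Prod.snd_neg, zpow_neg, mul_inv]

theorem dcovl_mx_of_mon (h : L.Coord u v) {φ : Ω} {e : ℤ × ℤ} (h1 : L.Mon u v φ e)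
    (h2 : 0 ≤ e.1) (h3 : 0 ≤ e.2) (h4 : e ≠ 0) : L.Mx φ := by
  have hm := (dufd_mon_mem h h1).2 ⟨h2, h3⟩
  refine ⟨hm, ?_⟩
  by_contra hc
  exact h4 ((dufd_mon_un h h1).1 ⟨hm, hc⟩)

theorem dcovl_mixed (h : L.Coord u v) {f : Ω} {e e' : ℤ × ℤ} (h1 : L.Mon u v f e)
    (h2 : L.Mon u v (f - 1) e') (ha : 0 < e.1) (hc : e.2 < 0) : False := by
  have key : ∀ a c : ℤ, (0 ≤ e.1 + a ∧ 0 ≤ e.2 + c) → (0 ≤ e'.1 + a ∧ 0 ≤ e'.2 + c) →
      0 ≤ a ∧ 0 ≤ c := fun a c k1 k2 => by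
    have m1 := (dufd_mon_mem h (dcovl_mon_mul h h1 (dcovl_mon_uv a c))).2 k1
    have m2 := (dufd_mon_mem h (dcovl_mon_mul h h2 (dcovl_mon_uv a c))).2 k2
    have m3 := L.O.sub_mem m1 m2
    rw [← sub_mul, sub_sub_cancel, one_mul] at m3
    exact (dufd_mon_mem h (dcovl_mon_uv a c)).1 m3
  have key' : ∀ a c : ℤ, (0 ≤ e'.1 + a ∧ 0 ≤ e'.2 + c) → (0 ≤ a ∧ 0 ≤ c) →
      0 ≤ e.1 + a ∧ 0 ≤ e.2 + c := fun a c k1 k2 => by
    have m1 := (dufd_mon_mem h (dcovl_mon_uv (L := L) a c)).2 k2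
    have m2 := (dufd_mon_mem h (dcovl_mon_mul h h2 (dcovl_mon_uv a c))).2 k1
    have m3 := L.O.add_mem m2 m1
    rw [← add_one_mul, sub_add_cancel] at m3
    exact (dufd_mon_mem h (dcovl_mon_mul h h1 (dcovl_mon_uv a c))).1 m3
  have a1 := dcovl_mx_of_mon h (dcovl_mon_mul h h1 (dcovl_mon_uv 0 (-e.2)))
    (by simpa using ha.le) (by simp) (fun h0 => by simpa [ha.ne'] using congrArg Prod.fst h0)
  have a2 := dcovl_mx_of_mon h (dcovl_mon_uv (L := L) 0 (-e.2)) le_rfl (by simpa using hc.le)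
    (fun h0 => by simpa [hc.ne] using congrArg Prod.snd h0)
  have a3 := dcovl_mon_mul h h2 (dcovl_mon_uv 0 (-e.2))
  have a4 : L.Mx ((f - 1) * (u ^ (0 : ℤ) * v ^ (-e.2))) := by
    rw [sub_mul, one_mul]
    exact ⟨L.O.sub_mem a1.1 a2.1, by rw [ev_sub a1.1 a2.1, a1.2, a2.2, sub_self]⟩
  have a5 := (dufd_mon_mem h a3).1 a4.1
  have a6 : e' + (0, -e.2) ≠ 0 := fun h0 => ((dufd_mon_un h a3).2 h0).2 a4.2
  simp only [Prod.fst_add, Prod.snd_add] at a5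
  by_cases h0 : 0 < e'.1
  · have := key (-1) (-e.2) ⟨by omega, by omega⟩ ⟨by omega, by omega⟩
    omega
  · have h3 : 0 < e'.2 + -e.2 := by
      by_contra h4
      exact a6 (Prod.ext (by simp only [Prod.fst_add, Prod.fst_zero]; omega)
        (by simp only [Prod.snd_add, Prod.snd_zero]; omega))
    have := key' 0 (-e.2 - 1) ⟨by omega, by omega⟩ ⟨by omega, by omega⟩
    omega

theorem dcovl_mem_or (h : L.Coord u v) {f : Ω} {e e' : ℤ × ℤ} (h1 : L.Mon u v f e)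
    (h2 : L.Mon u v (f - 1) e') : f ∈ L.O ∨ L.Mx f⁻¹ := by
  by_cases k : 0 ≤ e.1 ∧ 0 ≤ e.2
  · exact Or.inl ((dufd_mon_mem h h1).2 k)
  right
  have b1 : e.1 ≤ 0 := by
    by_contra k1
    exact dcovl_mixed h h1 h2 (by omega) (by omega)
  have b2 : e.2 ≤ 0 := by
    by_contra k1
    exact dcovl_mixed h.symm (dufd_mon_swap h1) (dufd_mon_swap h2)
      (by simp only [Prod.fst_swap]; omega) (by simp only [Prod.snd_swap]; omega)
  refine dcovl_mx_of_mon h (dcovl_mon_inv h1) (by simpa using b1) (by simpa using b2) fun h0 => k ?_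
  rw [neg_eq_zero.1 h0]
  exact ⟨le_rfl, le_rfl⟩

/-- a criterion for regular parameters -/
theorem dcovl_coord [IsNoetherianRing L.O] (h : L.Gen u v) (hu : u ≠ 0)
    (hn : ∀ n : ℕ, v ^ n / u ∉ L.O) : L.Coord u v := by
  have := L.isLocalRing
  have hn' : ∀ n : ℕ, ¬ (⟨u, h.1.1⟩ : L.O) ∣ (⟨v, h.2.1.1⟩ : L.O) ^ n := by
    rintro n ⟨c, hc⟩
    have h1 : v ^ n = u * c := by simpa using congrArg Subtype.val hc
    exact hn n (by rw [h1, mul_div_cancel_left₀ _ hu]; exact c.2)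
  have hp : Prime (⟨u, h.1.1⟩ : L.O) := by
    refine dufd_prime (v := ⟨v, h.2.1.1⟩) (fun e => hu (congrArg Subtype.val e)) ?_ ?_ ?_ hn'
    · rw [isUnit_iff, not_not]; exact h.1.2
    · rw [isUnit_iff, not_not]; exact h.2.1.2
    · intro z hz
      rw [isUnit_iff, not_not] at hz
      obtain ⟨α, hα, β, hβ, e⟩ := h.2.2 z ⟨z.2, hz⟩
      exact ⟨⟨α, hα⟩, ⟨β, hβ⟩, Subtype.ext e⟩
  refine ⟨h, fun n => ?_⟩
  induction n with
  | zero =>
    intro c hc hs i hi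
    obtain rfl : i = 0 := by omega
    have : c 0 = 0 := by simpa using hs
    rw [this, ev_zero]
  | succ n ih =>
    intro c hc hs
    rw [Finset.sum_range_succ'] at hs
    have hS : ∑ i ∈ Finset.range (n + 1), c (i + 1) * u ^ (i + 1) * v ^ (n + 1 - (i + 1))
        = u * ∑ i ∈ Finset.range (n + 1), c (i + 1) * u ^ i * v ^ (n - i) := by
      rw [Finset.mul_sum]
      refine Finset.sum_congr rfl fun i _ => ?_
      rw [Nat.add_sub_add_right]
      ring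
    rw [hS, pow_zero, mul_one, Nat.sub_zero] at hs
    have hmem : ∑ i ∈ Finset.range (n + 1), c (i + 1) * u ^ i * v ^ (n - i) ∈ L.O :=
      L.O.sum_mem fun i _ => L.O.mul_mem (L.O.mul_mem (hc _) (L.O.pow_mem h.1.1 _))
        (L.O.pow_mem h.2.1.1 _)
    have hd : (⟨u, h.1.1⟩ : L.O) ∣ ⟨c 0, hc 0⟩ * (⟨v, h.2.1.1⟩ : L.O) ^ (n + 1) :=
      ⟨-⟨_, hmem⟩, Subtype.ext (by
        simp only [MulMemClass.coe_mul, SubmonoidClass.coe_pow, NegMemClass.coe_neg]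
        linear_combination hs)⟩
    obtain ⟨d, hd'⟩ := (hp.dvd_or_dvd hd).resolve_right (hn' _)
    have h0 : c 0 = u * d := by simpa using congrArg Subtype.val hd'
    have hv' : (d : Ω) * v ∈ L.O := L.O.mul_mem d.2 h.2.1.1
    have h1 := ih (fun i => c (i + 1) + if i = 0 then (d : Ω) * v else 0)
      (fun i => L.O.add_mem (hc _) (by split_ifs; exacts [hv', L.O.zero_mem])) (by
        refine mul_left_cancel₀ hu ?_
        rw [h0] at hs
        simp only [add_mul, Finset.sum_add_distrib, ite_mul, zero_mul, Finset.sum_ite_eq',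
          Finset.mem_range, Nat.succ_pos, if_true]
        rw [Nat.sub_zero]
        linear_combination hs)
    intro i hi
    rcases i with _ | i
    · rw [h0, L.ev_mul _ h.1.1 _ d.2, h.1.2, zero_mul]
    · have h2 := h1 i (by omega)
      by_cases h3 : i = 0
      · rw [if_pos h3, L.ev_add _ (hc _) _ hv', L.ev_mul _ d.2 _ h.2.1.1, h.2.1.2, mul_zero,
          add_zero] at h2
        exact h2
      · rwa [if_neg h3, add_zero] at h2

end LA

end Vale.Agent.P300
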