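import Vale.Agent.P300.DCurveX1

/-! P300: the smooth projective model of the base curve. -/

noncomputable section

namespace Vale.Agent.P300

open scoped IntermediateField IntermediateField.algebraAdjoinAdjoin

variable {Ω : Type} [Field Ω] [Algebra ℂ Ω]

/-- `L` is a discrete valuation ring of `K` with uniformiser `ϖ` -/
def LA.Dvr (L : LA Ω) (K : IntermediateField ℂ Ω) (ϖ : Ω) : Prop :=
  (∀ z ∈ L.O, z ∈ K) ∧ L.Mx ϖ ∧ ϖ ≠ 0 ∧ ∀ z ∈ K, z ≠ 0 → ∃ n : ℤ, L.Un (z / ϖ ^ n)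

/-- elements of `K` integral over `ℂ[b]` -/
def Dat.AK (D : Dat Ω) (K : IntermediateField ℂ Ω) : Subalgebra ℂ Ω :=
  (integralClosure (Algebra.adjoin ℂ {D.b}) Ω).restrictScalars ℂ ⊓ K.toSubalgebra

theorem DCurve_un {L : LA Ω} (u : (L.O)ˣ) : L.Un ((u : L.O) : Ω) := by
  refine ⟨(u : L.O).2, fun h => ?_⟩
  have e := (Units.map L.evHom.toRingHom.toMonoidHom u).ne_zero
  exact e h

theorem DCurve_dvr {β : Ω} {K : IntermediateField ℂ Ω} {G : Finset Ω} (hG : DCurveGood β K G)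
    {L : LA Ω} (h : L.LocOf (DCurveIC β K)) : ∃ ϖ, L.Dvr K ϖ := by
  let A := DCurveIC β K
  have := hG.ded
  let i : Algebra A L.O := (Subalgebra.inclusion h.1).toRingHom.toAlgebra
  let f : A →+* ℂ := L.evHom.toRingHom.comp (Subalgebra.inclusion h.1).toRingHom
  let P : Ideal A := RingHom.ker f
  have : P.IsPrime := RingHom.ker_isPrime f
  have hβA : β ∈ A := DCurve_self hG.mem
  have hP : P ≠ ⊥ := by
    intro e
    have h1 : (⟨L.ctr β, A.sub_mem hβA (A.algebraMap_mem _)⟩ : A) ∈ P :=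
      (LA.mx_ctr (h.1 hβA)).2
    rw [e, Ideal.mem_bot] at h1
    have h2 : β = algebraMap ℂ Ω (L.ev β) := sub_eq_zero.1 (congrArg Subtype.val h1)
    exact hG.tr (h2 ▸ isAlgebraic_algebraMap (L.ev β))
  have : IsLocalization.AtPrime L.O P :=
    { map_units := fun s => LA.db_isUnit s.2
      surj := fun z => by
        obtain ⟨r, hr, s, hs, h1, h2⟩ := h.2 z z.2
        exact ⟨(⟨r, hr⟩, ⟨⟨s, hs⟩, h1⟩), Subtype.ext h2⟩
      exists_of_eq := fun {x y} e => ⟨1, by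
        have : x = y := Subalgebra.inclusion_injective h.1 e
        rw [this]⟩ }
  have := IsLocalization.AtPrime.isDiscreteValuationRing_of_dedekind_domain A hP L.O
  obtain ⟨ϖ, hϖ⟩ := IsDiscreteValuationRing.exists_irreducible L.O
  have h0 : (ϖ : Ω) ≠ 0 := fun e => hϖ.ne_zero (Subtype.ext e)
  refine ⟨ϖ, fun z hz => ?_, ⟨ϖ.2, ?_⟩, h0, fun z hz hz0 => ?_⟩
  · obtain ⟨r, hr, s, hs, h1, h2⟩ := h.2 z hz
    rw [(eq_mul_inv_iff_mul_eq₀ (LA.Un.ne_zero ⟨h.1 hs, h1⟩)).2 h2]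
    exact K.mul_mem hr.2 (K.inv_mem hs.2)
  · by_contra e
    exact hϖ.not_isUnit (LA.db_isUnit e)
  · obtain ⟨r, hr, s, hs, hs0, e⟩ := hG.frac z hz
    have hr0 : r ≠ 0 := e ▸ mul_ne_zero hz0 hs0
    obtain ⟨a, u, ea⟩ := IsDiscreteValuationRing.eq_unit_mul_pow_irreducible
      (x := (⟨r, h.1 hr⟩ : L.O)) (fun e => hr0 (congrArg Subtype.val e)) hϖ
    obtain ⟨b, v, eb⟩ := IsDiscreteValuationRing.eq_unit_mul_pow_irreducible
      (x := (⟨s, h.1 hs⟩ : L.O)) (fun e => hs0 (congrArg Subtype.val e)) hϖ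
    have ea' : r = ((u : L.O) : Ω) * (ϖ : Ω) ^ a := congrArg Subtype.val ea
    have eb' : s = ((v : L.O) : Ω) * (ϖ : Ω) ^ b := congrArg Subtype.val eb
    have hv := DCurve_un v
    refine ⟨(a : ℤ) - b, ?_⟩
    have e2 : z / (ϖ : Ω) ^ ((a : ℤ) - b) = ((u : L.O) : Ω) * ((v : L.O) : Ω)⁻¹ := by
      have hv0 := hv.ne_zero
      rw [(eq_mul_inv_iff_mul_eq₀ hs0).2 e, ea', eb', zpow_sub₀ h0, zpow_natCast, zpow_natCast]
      field_simp
    rw [e2]
    exact (DCurve_un u).mul hv.inv.1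

theorem DCurve_chart {ι : Type} {t : ι → Ω} (y : Zt t) {V : ValuationSubring Ω}
    (hV : ∀ z, (la t y).Mx z → V.valuation z < 1) {j : ι} (hj : t j ≠ 0)
    (h : ∀ i, t i / t j ∈ V) : y.1.rep j ≠ 0 := by
  obtain ⟨k, hk⟩ := db_exists_rep y.1
  intro e
  have h1 : V.valuation (t j / t k) < 1 :=
    hV _ ⟨(ratio_mem y hk j).1, by rw [(ratio_mem y hk j).2, e, zero_div]⟩
  have h2 : V.valuation (t k / t j) ≤ 1 := (V.valuation_le_one_iff _).2 (h k)
  have h3 : t k / t j * (t j / t k) = 1 := by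
    have := t_ne_of_rep y hk
    field_simp
  have h4 : V.valuation (t k / t j * (t j / t k)) < 1 := by
    rw [map_mul]
    calc V.valuation (t k / t j) * V.valuation (t j / t k) ≤ 1 * V.valuation (t j / t k) := by
          gcongr
      _ < 1 := by rwa [one_mul]
  rw [h3, map_one] at h4
  exact lt_irrefl _ h4

theorem DCurve_fin {β : Ω} {K : IntermediateField ℂ Ω} {G : Finset Ω} (hG : DCurveGood β K G)
    {ι : Type} (t : ι → Ω) (c : ℂ) :
    {y : Zt t | (la t y).LocOf (DCurveIC β K) ∧ (la t y).ev β = c}.Finite := by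
  classical
  set S := {y : Zt t | (la t y).LocOf (DCurveIC β K) ∧ (la t y).ev β = c} with hS
  rcases S.eq_empty_or_nonempty with h | ⟨y0, hy0⟩
  · rw [h]
    exact Set.finite_empty
  have hsub : ∀ z ∈ insert β (G : Set Ω), z ∈ DCurveIC β K := fun z hz =>
    hG.gen ▸ Algebra.subset_adjoin hz
  have hR := DCurve_le hG.mem
  let f : ∀ y ∈ S, Algebra.adjoin ℂ {β} →+* ℂ := fun y hy =>
    (la t y).evHom.toRingHom.comp (Subalgebra.inclusion (hR.trans hy.1.1)).toRingHom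
  have hf : ∀ y hy, f y hy = f y0 hy0 := fun y hy => RingHom.ext fun a =>
    LA.db_adjoin (S := {β}) (L := la t y) (L' := la t y0)
      (fun z hz => hy.1.1 (hsub z (Or.inl hz))) (fun z hz => hy0.1.1 (hsub z (Or.inl hz)))
      (fun z hz => by rw [Set.mem_singleton_iff.1 hz, hy.2, hy0.2]) a a.2
  have hint : ∀ g : G, IsIntegral (Algebra.adjoin ℂ {β}) (g : Ω) := fun g =>
    (hsub g (Or.inr g.2)).1
  choose p hp hp0 using hint
  have hfin : (Set.univ.pi fun g : G => {w : ℂ | ((p g).map (f y0 hy0)).IsRoot w}).Finite :=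
    Set.Finite.pi fun g => Polynomial.finite_setOf_isRoot ((hp g).map _).ne_zero
  refine Set.Finite.of_finite_image (f := fun y (g : G) => (la t y).ev g) (hfin.subset ?_) ?_
  · rintro _ ⟨y, hy, rfl⟩ g -
    have hg : (g : Ω) ∈ (la t y).O := hy.1.1 (hsub g (Or.inr g.2))
    let ι1 := (Subalgebra.inclusion (hR.trans hy.1.1)).toRingHom
    have h1 : (p g).eval₂ ι1 ⟨g, hg⟩ = 0 := by
      apply Subtype.ext
      have := Polynomial.hom_eval₂ (p g) ι1 (la t y).O.val.toRingHom ⟨g, hg⟩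
      exact this.trans (hp0 g)
    have h2 := Polynomial.hom_eval₂ (p g) ι1 (la t y).evHom.toRingHom ⟨g, hg⟩
    rw [h1, map_zero] at h2
    change ((p g).map (f y0 hy0)).eval _ = 0
    rw [← hf y hy, Polynomial.eval_map]
    exact h2.symm
  · intro y hy y' hy' e
    refine la_inj (LA.eq_of_locOf hy.1 hy'.1 ?_)
    rw [hG.gen]
    refine LA.db_adjoin (fun z hz => hy.1.1 (hsub z hz)) (fun z hz => hy'.1.1 (hsub z hz)) ?_
    rintro z (rfl | hz)
    · rw [hy.2, hy'.2]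
    · exact congrFun e ⟨z, hz⟩

theorem Dat.exists_curve (D : Dat Ω) (K : IntermediateField ℂ Ω) (hK : D.BaseField K) :
    ∃ (ι : Type) (_ : Fintype ι) (t : ι → Ω), (∃ i, t i ≠ 0) ∧
      (∀ y : Zt t, (∃ ϖ, (la t y).Dvr K ϖ) ∧ (D.b ∈ (la t y).O → (la t y).LocOf (D.AK K))) ∧
      (∀ c : ℂ, {y : Zt t | D.b ∈ (la t y).O ∧ (la t y).ev D.b = c}.Finite) ∧
      {y : Zt t | D.b ∉ (la t y).O}.Finite := by
  classical
  obtain ⟨T, hT, halg⟩ := hK.fin
  have htr := hK.trb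
  change ∃ (ι : Type) (_ : Fintype ι) (t : ι → Ω), (∃ i, t i ≠ 0) ∧
      (∀ y : Zt t, (∃ ϖ, (la t y).Dvr K ϖ) ∧
        (D.b ∈ (la t y).O → (la t y).LocOf (DCurveIC D.b K))) ∧
      (∀ c : ℂ, {y : Zt t | D.b ∈ (la t y).O ∧ (la t y).ev D.b = c}.Finite) ∧
      {y : Zt t | D.b ∉ (la t y).O}.Finite
  generalize D.b = b at hT halg htr ⊢
  have b0 : b ≠ 0 := fun e => htr (e ▸ isAlgebraic_zero)
  have halg' : ∀ z ∈ T, IsAlgebraic ℂ⟮b⟯ z := fun z hz =>
    (halg z hz).extendScalars (FaithfulSMul.algebraMap_injective _ _)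
  have hF : ℂ⟮b⁻¹⟯ = ℂ⟮b⟯ := by
    refine le_antisymm ?_ ?_
    · rw [IntermediateField.adjoin_simple_le_iff]
      exact inv_mem (IntermediateField.mem_adjoin_simple_self ℂ b)
    · rw [IntermediateField.adjoin_simple_le_iff]
      simpa using inv_mem (IntermediateField.mem_adjoin_simple_self ℂ b⁻¹)
  have hT1 : K = IntermediateField.adjoin ℂ (insert b⁻¹ (T : Set Ω)) := by
    rw [hT, Set.insert_eq, Set.insert_eq, IntermediateField.adjoin_union,
      IntermediateField.adjoin_union, hF]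
  obtain ⟨G, hG⟩ := DCurve_good htr T halg' hT
  obtain ⟨G1, hG1⟩ := DCurve_good (β := b⁻¹) (fun e => htr (IsAlgebraic.inv_iff.1 e)) T
    (by rw [hF]; exact halg') hT1
  have hGs : ∀ g ∈ G, g ∈ DCurveIC b K := fun g hg =>
    hG.gen ▸ Algebra.subset_adjoin (Or.inr hg)
  have hG1s : ∀ g ∈ G1, g ∈ DCurveIC b⁻¹ K := fun g hg =>
    hG1.gen ▸ Algebra.subset_adjoin (Or.inr hg)
  obtain ⟨m, hm, hm1⟩ : ∃ m : ℕ, (∀ g ∈ G, g * b⁻¹ ^ (m + 1) ∈ DCurveIC b⁻¹ K) ∧
      ∀ g ∈ G1, g * b ^ (m + 1) ∈ DCurveIC b K := by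
    choose! m1 hm1 using fun g hg => DCurve_clear b0 hG.mem (hGs g hg)
    choose! m2 hm2 using fun g hg => DCurve_clear (inv_ne_zero b0) hG1.mem (hG1s g hg)
    refine ⟨G.sup m1 + G1.sup m2, fun g hg => hm1 g hg _ ?_, fun g hg => ?_⟩
    · have := Finset.le_sup (f := m1) hg
      omega
    · have := Finset.le_sup (f := m2) hg
      simpa using hm2 g hg (G.sup m1 + G1.sup m2 + 1) (by omega)
  let T' : Finset Ω := {1, b, b ^ m, b ^ (m + 1)} ∪ G ∪ G1.image fun g => g * b ^ (m + 1)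
  let t : T' → Ω := Subtype.val
  let i1 : T' := ⟨1, by simp [T']⟩
  let i2 : T' := ⟨b ^ (m + 1), by simp [T']⟩
  have hb := DCurve_self hG.mem
  have hb1 := DCurve_self hG1.mem
  have a1 : ∀ i, t i / t i1 ∈ DCurveIC b K := by
    rintro ⟨z, hz⟩
    change z / 1 ∈ _
    rw [div_one]
    simp only [T', Finset.mem_union, Finset.mem_insert, Finset.mem_singleton,
      Finset.mem_image] at hz
    rcases hz with ((rfl | rfl | rfl | rfl) | hz) | ⟨g, hg, rfl⟩
    · exact one_mem _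
    · exact hb
    · exact pow_mem hb _
    · exact pow_mem hb _
    · exact hGs z hz
    · exact hm1 g hg
  have a2 : ∀ i, t i / t i2 ∈ DCurveIC b⁻¹ K := by
    rintro ⟨z, hz⟩
    change z / b ^ (m + 1) ∈ _
    simp only [T', Finset.mem_union, Finset.mem_insert, Finset.mem_singleton,
      Finset.mem_image] at hz
    rcases hz with ((rfl | rfl | rfl | rfl) | hz) | ⟨g, hg, rfl⟩
    · rw [one_div, ← inv_pow]
      exact pow_mem hb1 _
    · have e : z / z ^ (m + 1) = z⁻¹ ^ m := by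
        rw [inv_pow]
        field_simp
        ring
      rw [e]
      exact pow_mem hb1 _
    · have e : b ^ m / b ^ (m + 1) = b⁻¹ := by
        field_simp
        ring
      rw [e]
      exact hb1
    · rw [div_self (pow_ne_zero _ b0)]
      exact one_mem _
    · rw [div_eq_mul_inv, ← inv_pow]
      exact hm z hz
    · rw [mul_div_cancel_right₀ _ (pow_ne_zero _ b0)]
      exact hG1s g hg
  have c1 : chA t i1 = DCurveIC b K := by
    refine le_antisymm (Algebra.adjoin_le ?_) ?_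
    · rintro _ ⟨i, rfl⟩
      exact a1 i
    · rw [hG.gen]
      refine Algebra.adjoin_mono ?_
      rintro z (rfl | hz)
      · exact ⟨⟨z, by simp [T']⟩, div_one _⟩
      · exact ⟨⟨z, by simp [T', Finset.mem_coe.1 hz]⟩, div_one _⟩
  have c2 : chA t i2 = DCurveIC b⁻¹ K := by
    refine le_antisymm (Algebra.adjoin_le ?_) ?_
    · rintro _ ⟨i, rfl⟩
      exact a2 i
    · rw [hG1.gen]
      refine Algebra.adjoin_mono ?_
      rintro z (rfl | hz)
      · refine ⟨⟨b ^ m, by simp [T']⟩, ?_⟩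
        change b ^ m / b ^ (m + 1) = b⁻¹
        field_simp
        ring
      · exact ⟨⟨z * b ^ (m + 1), Finset.mem_union_right _ (Finset.mem_image_of_mem _ hz)⟩,
          mul_div_cancel_right₀ _ (pow_ne_zero _ b0)⟩
  have key : ∀ y : Zt t, (b ∈ (la t y).O → (la t y).LocOf (DCurveIC b K)) ∧
      (b ∉ (la t y).O → (la t y).LocOf (DCurveIC b⁻¹ K)) := by
    intro y
    obtain ⟨V, hV, hV'⟩ := (la t y).exists_val
    have hc : ∀ c : ℂ, algebraMap ℂ Ω c ∈ V := fun c => hV _ ((la t y).O.algebraMap_mem c)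
    have k1 : b ∈ V → (la t y).LocOf (DCurveIC b K) := fun h =>
      c1 ▸ locOf_chA y (DCurve_chart y hV' one_ne_zero fun i => DCurve_val V hc h (a1 i))
    refine ⟨fun h => k1 (hV b h), fun h => ?_⟩
    have h1 : b⁻¹ ∈ V := (V.mem_or_inv_mem b).resolve_left fun h' => h ((k1 h').1 hb)
    exact c2 ▸ locOf_chA y (DCurve_chart y hV' (pow_ne_zero _ b0)
      fun i => DCurve_val V hc h1 (a2 i))
  refine ⟨T', inferInstance, t, ⟨i1, one_ne_zero⟩, fun y => ⟨?_, (key y).1⟩, fun c => ?_, ?_⟩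
  · by_cases h : b ∈ (la t y).O
    · exact DCurve_dvr hG ((key y).1 h)
    · exact DCurve_dvr hG1 ((key y).2 h)
  · exact (DCurve_fin hG t c).subset fun y hy => ⟨(key y).1 hy.1, hy.2⟩
  · refine (DCurve_fin hG1 t 0).subset fun y hy => ⟨(key y).2 hy, ?_⟩
    by_contra e
    have h1 := (la t y).inv_mem _ (((key y).2 hy).1 hb1) e
    rw [inv_inv] at h1
    exact hy h1

end Vale.Agent.P300
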