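import Vale.Agent.P300.DBasic

/-! P300: integral closures of polynomial rings in a function field of one variable. -/

noncomputable section

namespace Vale.Agent.P300

open scoped IntermediateField IntermediateField.algebraAdjoinAdjoin

variable {Ω : Type} [Field Ω] [Algebra ℂ Ω]

/-- elements of `K` integral over `ℂ[β]` -/
def DCurveIC (β : Ω) (K : IntermediateField ℂ Ω) : Subalgebra ℂ Ω :=
  (integralClosure (Algebra.adjoin ℂ {β}) Ω).restrictScalars ℂ ⊓ K.toSubalgebra

theorem DCurve_mem {β : Ω} {K : IntermediateField ℂ Ω} {z : Ω} :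
    z ∈ DCurveIC β K ↔ IsIntegral (Algebra.adjoin ℂ {β}) z ∧ z ∈ K := Iff.rfl

theorem DCurve_le {β : Ω} {K : IntermediateField ℂ Ω} (hβ : β ∈ K) :
    Algebra.adjoin ℂ {β} ≤ DCurveIC β K := fun z hz =>
  ⟨isIntegral_algebraMap (R := Algebra.adjoin ℂ {β}) (A := Ω) (x := ⟨z, hz⟩),
    (Algebra.adjoin_le (S := K.toSubalgebra) (by simpa using hβ)) hz⟩

theorem DCurve_self {β : Ω} {K : IntermediateField ℂ Ω} (hβ : β ∈ K) : β ∈ DCurveIC β K :=
  DCurve_le hβ (Algebra.self_mem_adjoin_singleton ℂ β)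

/-- the structure of the integral closure -/
structure DCurveGood (β : Ω) (K : IntermediateField ℂ Ω) (G : Finset Ω) : Prop where
  tr : Transcendental ℂ β
  mem : β ∈ K
  ded : IsDedekindDomain (DCurveIC β K)
  gen : DCurveIC β K = Algebra.adjoin ℂ (insert β (G : Set Ω))
  frac : ∀ z ∈ K, ∃ r ∈ DCurveIC β K, ∃ s ∈ DCurveIC β K, s ≠ 0 ∧ z * s = r

theorem DCurve_good {β : Ω} (hβ : Transcendental ℂ β) (T : Finset Ω)
    (hT : ∀ z ∈ T, IsAlgebraic ℂ⟮β⟯ z) {K : IntermediateField ℂ Ω}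
    (hK : K = IntermediateField.adjoin ℂ (insert β (T : Set Ω))) : ∃ G, DCurveGood β K G := by
  classical
  have hβK : β ∈ K := by
    rw [hK]
    exact IntermediateField.subset_adjoin _ _ (Set.mem_insert _ _)
  let R := Algebra.adjoin ℂ {β}
  let F := ℂ⟮β⟯
  let L := IntermediateField.adjoin F (T : Set Ω)
  let C := DCurveIC β K
  have hL : ∀ z, z ∈ L ↔ z ∈ K := fun z => by
    rw [hK, Set.insert_eq, ← IntermediateField.adjoin_adjoin_left]
    rfl
  have : IsPrincipalIdealRing R :=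
    IsPrincipalIdealRing.of_surjective (Polynomial.algEquivOfTranscendental ℂ β hβ)
      (Polynomial.algEquivOfTranscendental ℂ β hβ).surjective
  have : FiniteDimensional F L :=
    IntermediateField.finiteDimensional_adjoin fun z hz => (hT z hz).isIntegral
  have : CharZero F := algebraRat.charZero F
  let iRC : Algebra R C := (Subalgebra.inclusion (DCurve_le hβK)).toRingHom.toAlgebra
  let iCL : Algebra C L := (C.val.toRingHom.codRestrict L fun z => (hL z).2 z.2.2).toAlgebra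
  have : IsScalarTower R C L := IsScalarTower.of_algebraMap_eq fun _ => rfl
  have : IsScalarTower R L Ω := IsScalarTower.of_algebraMap_eq fun _ => rfl
  have : IsIntegralClosure C R L := by
    refine ⟨fun a b h => Subtype.ext (congrArg (fun w : L => (w : Ω)) h), fun {x} => ?_⟩
    rw [← isIntegral_algebraMap_iff (A := L) (B := Ω) (algebraMap L Ω).injective]
    constructor
    · intro h
      exact ⟨⟨x, h, (hL x).1 x.2⟩, rfl⟩
    · rintro ⟨y, rfl⟩
      exact y.2.1
  have hfin : Module.Finite R C := IsIntegralClosure.finite R F L C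
  have hfr : IsFractionRing C L := IsIntegralClosure.isFractionRing_of_finite_extension R F L C
  obtain ⟨S, hS⟩ := hfin.fg_top
  refine ⟨S.image Subtype.val, hβ, hβK, IsIntegralClosure.isDedekindDomain R F L C, ?_, ?_⟩
  · refine le_antisymm (fun z hz => ?_) (Algebra.adjoin_le ?_)
    · have h : (⟨z, hz⟩ : C) ∈ Submodule.span R (S : Set C) := hS ▸ Submodule.mem_top
      have key : ∀ w ∈ Submodule.span R (S : Set C),
          (w : Ω) ∈ Algebra.adjoin ℂ (insert β ((S.image Subtype.val : Finset Ω) : Set Ω)) := by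
        intro w hw
        induction hw using Submodule.span_induction with
        | mem x hx =>
          exact Algebra.subset_adjoin (Set.mem_insert_of_mem _ (Finset.mem_image_of_mem _ hx))
        | zero => exact Subalgebra.zero_mem _
        | add x y _ _ hx hy => exact Subalgebra.add_mem _ hx hy
        | smul a x _ hx =>
          exact Subalgebra.mul_mem _
            (Algebra.adjoin_mono (Set.singleton_subset_iff.2 (Set.mem_insert _ _)) a.2) hx
      exact key _ h
    · rintro z (rfl | hz)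
      · exact DCurve_self hβK
      · obtain ⟨w, -, rfl⟩ := Finset.mem_image.1 hz
        exact w.2
  · intro z hz
    obtain ⟨⟨r, s⟩, e⟩ := IsLocalization.surj (nonZeroDivisors C) (⟨z, (hL z).2 hz⟩ : L)
    refine ⟨r, r.2, s.1, s.1.2, fun h => nonZeroDivisors.ne_zero s.2 (Subtype.ext h), ?_⟩
    exact congrArg Subtype.val e

/-- clearing denominators -/
theorem DCurve_clear {β : Ω} (h0 : β ≠ 0) {K : IntermediateField ℂ Ω} (hβ : β ∈ K) {z : Ω}
    (hz : z ∈ DCurveIC β K) : ∃ m : ℕ, ∀ k, m ≤ k → z * β⁻¹ ^ k ∈ DCurveIC β⁻¹ K := by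
  let R1 := Algebra.adjoin ℂ {β⁻¹}
  have hγ : β⁻¹ ∈ R1 := Algebra.self_mem_adjoin_singleton ℂ _
  let Rm : Subalgebra ℂ Ω :=
    { carrier := {a | ∃ m : ℕ, a * β⁻¹ ^ m ∈ R1}
      mul_mem' := by
        rintro a b ⟨m, hm⟩ ⟨k, hk⟩
        refine ⟨m + k, ?_⟩
        rw [pow_add, mul_mul_mul_comm]
        exact R1.mul_mem hm hk
      add_mem' := by
        rintro a b ⟨m, hm⟩ ⟨k, hk⟩
        refine ⟨m + k, ?_⟩
        have e : (a + b) * β⁻¹ ^ (m + k) = a * β⁻¹ ^ m * β⁻¹ ^ k + b * β⁻¹ ^ k * β⁻¹ ^ m := by ring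
        rw [e]
        exact R1.add_mem (R1.mul_mem hm (R1.pow_mem hγ k)) (R1.mul_mem hk (R1.pow_mem hγ m))
      algebraMap_mem' := fun c => ⟨0, by simp⟩ }
  have h1 : R1 ≤ Rm := fun a ha => ⟨0, by simpa using ha⟩
  have hβm : β ∈ Rm := ⟨1, by simp [h0]⟩
  have h2 : Algebra.adjoin ℂ {β} ≤ Rm := Algebra.adjoin_le (by simpa using hβm)
  let i1 : Algebra R1 Rm := (Subalgebra.inclusion h1).toRingHom.toAlgebra
  let i2 : Algebra (Algebra.adjoin ℂ {β}) Rm := (Subalgebra.inclusion h2).toRingHom.toAlgebra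
  have : IsScalarTower R1 Rm Ω := IsScalarTower.of_algebraMap_eq fun _ => rfl
  have : IsScalarTower (Algebra.adjoin ℂ {β}) Rm Ω := IsScalarTower.of_algebraMap_eq fun _ => rfl
  have : IsLocalization (Submonoid.powers (⟨β⁻¹, hγ⟩ : R1)) Rm :=
    { map_units := by
        rintro ⟨_, k, rfl⟩
        refine IsUnit.of_mul_eq_one ⟨β ^ k, Rm.pow_mem hβm k⟩ (Subtype.ext ?_)
        change β⁻¹ ^ k * β ^ k = 1
        rw [← mul_pow, inv_mul_cancel₀ h0, one_pow]
      surj := by
        rintro ⟨a, m, hm⟩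
        exact ⟨(⟨_, hm⟩, ⟨_, m, rfl⟩), rfl⟩
      exists_of_eq := fun {x y} e => ⟨1, by
        have : x = y := Subalgebra.inclusion_injective h1 e
        rw [this]⟩ }
  have h3 : IsIntegral Rm z := hz.1.tower_top
  obtain ⟨⟨_, m, rfl⟩, hm⟩ := IsIntegral.exists_multiple_integral_of_isLocalization
    (Submonoid.powers (⟨β⁻¹, hγ⟩ : R1)) z h3
  have hγK : β⁻¹ ∈ K := K.inv_mem hβ
  have h4 : z * β⁻¹ ^ m ∈ DCurveIC β⁻¹ K :=
    ⟨by rw [mul_comm]; exact hm, K.mul_mem hz.2 (pow_mem hγK m)⟩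
  refine ⟨m, fun k hk => ?_⟩
  obtain ⟨d, rfl⟩ := Nat.exists_eq_add_of_le hk
  rw [pow_add, ← mul_assoc]
  exact Subalgebra.mul_mem _ h4 (Subalgebra.pow_mem _ (DCurve_self hγK) d)

/-- the integral closure lies in every valuation ring containing `β` -/
theorem DCurve_val {β : Ω} {K : IntermediateField ℂ Ω} (V : ValuationSubring Ω)
    (hc : ∀ c : ℂ, algebraMap ℂ Ω c ∈ V) (hβ : β ∈ V) {z : Ω} (hz : z ∈ DCurveIC β K) :
    z ∈ V := by
  have h1 : ∀ a ∈ Algebra.adjoin ℂ {β}, a ∈ V := by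
    intro a ha
    induction ha using Algebra.adjoin_induction with
    | mem x hx => rwa [Set.mem_singleton_iff.1 hx]
    | algebraMap r => exact hc r
    | add x y _ _ hx hy => exact V.add_mem _ _ hx hy
    | mul x y _ _ hx hy => exact V.mul_mem _ _ hx hy
  let i : Algebra (Algebra.adjoin ℂ {β}) V :=
    ((Algebra.adjoin ℂ {β}).val.toRingHom.codRestrict V fun a => h1 a a.2).toAlgebra
  have : IsScalarTower (Algebra.adjoin ℂ {β}) V Ω := IsScalarTower.of_algebraMap_eq fun _ => rfl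
  have h3 : IsIntegral V z := hz.1.tower_top
  obtain ⟨y, rfl⟩ := IsIntegrallyClosed.isIntegral_iff.1 h3
  exact y.2

end Vale.Agent.P300
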