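import Vale.Agent.P300.PDefs

/-! P300: local algebras inside a field, normal crossing invariant, projective models. -/

noncomputable section

namespace Vale.Agent.P300

/-- the five moving points -/
def av {R : Type} [CommRing R] (i : Fin 5) (b : R) : R := ![0, b ^ 2, b, 1, 1 + b] i

/-- the complement of the sections and of the fibres over `S` -/
def U0 (S : Finset ℂ) : Set (ℂ × ℂ) := {q | q.1 ∉ S ∧ ∀ i, q.2 ≠ av i q.1}

variable {Ω : Type} [Field Ω] [Algebra ℂ Ω]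

/-- a local subalgebra of `Ω` with residue field `ℂ`, with its evaluation map -/
@[ext] structure LA (Ω : Type) [Field Ω] [Algebra ℂ Ω] where
  O : Subalgebra ℂ Ω
  ev : Ω → ℂ
  ev_add : ∀ z ∈ O, ∀ w ∈ O, ev (z + w) = ev z + ev w
  ev_mul : ∀ z ∈ O, ∀ w ∈ O, ev (z * w) = ev z * ev w
  ev_alg : ∀ c : ℂ, ev (algebraMap ℂ Ω c) = c
  inv_mem : ∀ z ∈ O, ev z ≠ 0 → z⁻¹ ∈ O
  ev_out : ∀ z, z ∉ O → ev z = 0

namespace LA

variable (L : LA Ω)

/-- units -/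
def Un (z : Ω) : Prop := z ∈ L.O ∧ L.ev z ≠ 0

/-- elements of the maximal ideal -/
def Mx (z : Ω) : Prop := z ∈ L.O ∧ L.ev z = 0

/-- `z` minus its value -/
def ctr (z : Ω) : Ω := z - algebraMap ℂ Ω (L.ev z)

/-- `u, v` generate the maximal ideal -/
def Gen (u v : Ω) : Prop :=
  L.Mx u ∧ L.Mx v ∧ ∀ z, L.Mx z → ∃ α ∈ L.O, ∃ β ∈ L.O, z = α * u + β * v

/-- `u, v` is a quasi-regular sequence -/
def QReg (u v : Ω) : Prop :=
  ∀ (n : ℕ) (c : ℕ → Ω), (∀ i, c i ∈ L.O) →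
    ∑ i ∈ Finset.range (n + 1), c i * u ^ i * v ^ (n - i) = 0 → ∀ i ≤ n, L.ev (c i) = 0

/-- regular system of parameters of a two-dimensional regular local ring -/
def Coord (u v : Ω) : Prop := L.Gen u v ∧ L.QReg u v

/-- `φ` is a unit times a monomial -/
def Mon (u v φ : Ω) (e : ℤ × ℤ) : Prop := ∃ ε, L.Un ε ∧ φ = ε * u ^ e.1 * v ^ e.2

/-- `L'` is a localisation of the algebra generated by `L` and `w`, dominating `L` -/
def Ext (L L' : LA Ω) (w : Ω) : Prop :=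
  L.O ≤ L'.O ∧ (∀ z ∈ L.O, L'.ev z = L.ev z) ∧ w ∈ L'.O ∧
    ∀ z ∈ L'.O, ∃ r ∈ Algebra.adjoin ℂ (insert w (L.O : Set Ω)),
      ∃ s ∈ Algebra.adjoin ℂ (insert w (L.O : Set Ω)), L'.ev s ≠ 0 ∧ z * s = r

/-- `M` is the fraction field -/
def Frac (M : IntermediateField ℂ Ω) : Prop :=
  (∀ z ∈ L.O, z ∈ M) ∧ ∀ z ∈ M, ∃ r ∈ L.O, ∃ s ∈ L.O, s ≠ 0 ∧ z * s = r

/-- `L` is a localisation of the subalgebra `R` -/
def LocOf (R : Subalgebra ℂ Ω) : Prop :=
  R ≤ L.O ∧ ∀ z ∈ L.O, ∃ r ∈ R, ∃ s ∈ R, L.ev s ≠ 0 ∧ z * s = r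

end LA

/-- the coordinates `b, x`, the set of bad fibres and roots of their equations -/
structure Dat (Ω : Type) [Field Ω] [Algebra ℂ Ω] where
  b : Ω
  x : Ω
  S : Finset ℂ
  E : ℕ
  hE : 0 < E
  rt : ℂ → Ω
  hrt : ∀ p ∈ S, rt p ^ E = b - algebraMap ℂ Ω p
  hS : ∀ c : ℂ, c ∉ S → Function.Injective fun i => av i c

namespace Dat

variable (D : Dat Ω)

/-- index set of the boundary functions -/
abbrev Ix : Type := D.S ⊕ Fin 5

/-- the boundary functions -/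
def phi : D.Ix → Ω
  | Sum.inl p => D.rt p
  | Sum.inr i => D.x - av i D.b

/-- monomials in the boundary functions -/
def mono (k : D.Ix → ℤ) : Ω := ∏ φ, D.phi φ ^ k φ

/-- points of the open part -/
def IsU (L : LA Ω) : Prop := ∀ φ, L.Un (D.phi φ)

/-- the three types of points: open part, smooth boundary point, crossing -/
def Typ (L : LA Ω) (u : Ω) (e : D.Ix → ℤ × ℤ) : Prop :=
  ((∀ φ, e φ = 0) ∧ L.Coord (L.ctr D.b) (L.ctr D.x)) ∨
  ((∀ φ, (e φ).2 = 0) ∧ (∃ φ, (e φ).1 ≠ 0) ∧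
    ∃ k, L.Un (D.mono k) ∧ L.Coord u (L.ctr (D.mono k))) ∨
  ∃ φ φ', (e φ).1 * (e φ').2 - (e φ).2 * (e φ').1 ≠ 0

/-- the normal crossing invariant in the coordinates `u, v` -/
def InvAt (L : LA Ω) (u v : Ω) (e : D.Ix → ℤ × ℤ) : Prop :=
  L.Coord u v ∧ (∀ φ, L.Mon u v (D.phi φ) (e φ)) ∧ D.Typ L u e

/-- elements of `M` integral over `ℂ[b, x]` -/
def RM (M : IntermediateField ℂ Ω) : Subalgebra ℂ Ω :=
  (integralClosure (Algebra.adjoin ℂ {D.b, D.x}) Ω).restrictScalars ℂ ⊓ M.toSubalgebra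

/-- good points of a model of `M` -/
def GoodPt (M : IntermediateField ℂ Ω) (L : LA Ω) : Prop :=
  L.Frac M ∧ (∃ u v e, D.InvAt L u v e) ∧ (D.IsU L → L.LocOf (D.RM M))

/-- `w` has the value of an element of `ℂ(b, x)` at every divisorial valuation over the open part -/
def Unr0 (w : Ω) : Prop :=
  ∀ V : ValuationSubring Ω, (∀ c : ℂ, algebraMap ℂ Ω c ∈ V) → D.b ∈ V → D.x ∈ V →
    (∀ p ∈ D.S, V.valuation (D.b - algebraMap ℂ Ω p) = 1) →
    (∀ i, V.valuation (D.x - av i D.b) = 1) →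
    (¬ ∃ t c : ℂ, V.valuation (D.b - algebraMap ℂ Ω t) < 1 ∧
      V.valuation (D.x - algebraMap ℂ Ω c) < 1) →
    ∃ h ∈ IntermediateField.adjoin ℂ {D.b, D.x}, h ≠ 0 ∧ V.valuation w = V.valuation h

/-- `K` is the function field of a curve, finite over the `b`-line and unramified outside `S` -/
structure BaseField (K : IntermediateField ℂ Ω) : Prop where
  trb : Transcendental ℂ D.b
  fin : ∃ T : Finset Ω, K = IntermediateField.adjoin ℂ (insert D.b (T : Set Ω)) ∧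
    ∀ z ∈ T, IsAlgebraic (Algebra.adjoin ℂ {D.b}) z
  trx : Transcendental K D.x
  rt_mem : ∀ p ∈ D.S, D.rt p ∈ K
  unr : ∀ V : ValuationSubring Ω, (∀ c : ℂ, algebraMap ℂ Ω c ∈ V) → ∀ t : ℂ, t ∉ D.S →
    V.valuation (D.b - algebraMap ℂ Ω t) < 1 → ∀ z ∈ K, z ≠ 0 →
      ∃ n : ℤ, V.valuation z = V.valuation (D.b - algebraMap ℂ Ω t) ^ n

/-- characters of `RM M` over the open part, as functions vanishing outside `RM M` -/
def Spm (M : IntermediateField ℂ Ω) : Set (Ω → ℂ) :=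
  {χ | (∀ z ∈ D.RM M, ∀ w ∈ D.RM M, χ (z + w) = χ z + χ w ∧ χ (z * w) = χ z * χ w) ∧
    (∀ c : ℂ, χ (algebraMap ℂ Ω c) = c) ∧ (∀ z, z ∉ D.RM M → χ z = 0) ∧ (χ D.b, χ D.x) ∈ U0 D.S}

/-- projection to the open part of the plane -/
def prj (M : IntermediateField ℂ Ω) (χ : D.Spm M) : U0 D.S := ⟨(χ.1 D.b, χ.1 D.x), χ.2.2.2.2⟩

end Dat

/-- the projective variety with generic point `t` -/
def Zt {ι : Type} (t : ι → Ω) : Set (PSp ι) :=
  {p | ∀ P ∈ {P : MvPolynomial ι ℂ | (∃ d, P.IsHomogeneous d) ∧ MvPolynomial.aeval t P = 0},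
    MvPolynomial.eval p.rep P = 0}

/-- `z` is regular at `p` with value `c` -/
def RegV {ι : Type} (t : ι → Ω) (p : PSp ι) (z : Ω) (c : ℂ) : Prop :=
  ∃ (d : ℕ) (P Q : MvPolynomial ι ℂ), P.IsHomogeneous d ∧ Q.IsHomogeneous d ∧
    MvPolynomial.eval p.rep Q ≠ 0 ∧ z * MvPolynomial.aeval t Q = MvPolynomial.aeval t P ∧
    c * MvPolynomial.eval p.rep Q = MvPolynomial.eval p.rep P

/-- coordinate ring of the affine chart number `j` -/
def chA {ι : Type} (t : ι → Ω) (j : ι) : Subalgebra ℂ Ω :=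
  Algebra.adjoin ℂ (Set.range fun i => t i / t j)

/-- subfield of elements fixed by a subgroup -/
def fixIF {Γ : Type} [Group Γ] (act : Γ →* (Ω ≃ₐ[ℂ] Ω)) (H : Subgroup Γ) :
    IntermediateField ℂ Ω where
  carrier := {z | ∀ γ ∈ H, act γ z = z}
  mul_mem' := fun ha hb γ hγ => by rw [map_mul, ha γ hγ, hb γ hγ]
  one_mem' := fun γ _ => map_one _
  add_mem' := fun ha hb γ hγ => by rw [map_add, ha γ hγ, hb γ hγ]
  zero_mem' := fun γ _ => map_zero _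
  algebraMap_mem' := fun c γ _ => AlgEquiv.commutes _ c
  inv_mem' := fun a ha γ hγ => by rw [map_inv₀, ha γ hγ]

end Vale.Agent.P300
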