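import Vale.Agent.P300.DSpm
import Vale.Agent.P300.DCurve

/-! P300: Galois action on the spaces of characters. -/

noncomputable section

namespace Vale.Agent.P300

open Polynomial Topology Filter

variable {Ω : Type} [Field Ω] [Algebra ℂ Ω]

theorem dgal_mem {D : Dat Ω} {M : IntermediateField ℂ Ω} {z : Ω} :
    z ∈ D.RM M ↔ IsIntegral (Algebra.adjoin ℂ {D.b, D.x}) z ∧ z ∈ M := Iff.rfl

theorem dgal_bA (D : Dat Ω) : D.b ∈ Algebra.adjoin ℂ {D.b, D.x} :=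
  Algebra.subset_adjoin (by simp)

theorem dgal_xA (D : Dat Ω) : D.x ∈ Algebra.adjoin ℂ {D.b, D.x} :=
  Algebra.subset_adjoin (by simp)

theorem dgal_le {D : Dat Ω} {M : IntermediateField ℂ Ω} (hb : D.b ∈ M) (hx : D.x ∈ M) :
    Algebra.adjoin ℂ {D.b, D.x} ≤ D.RM M := fun z hz =>
  dgal_mem.2 ⟨isIntegral_algebraMap (x := (⟨z, hz⟩ : Algebra.adjoin ℂ {D.b, D.x})),
    (Algebra.adjoin_le (S := M.toSubalgebra) (by
      rintro w (rfl | rfl)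
      exacts [hb, hx])) hz⟩

theorem dgal_mono {D : Dat Ω} {M M' : IntermediateField ℂ Ω} (h : M' ≤ M) : D.RM M' ≤ D.RM M :=
  fun _ hz => dgal_mem.2 ⟨(dgal_mem.1 hz).1, h (dgal_mem.1 hz).2⟩

/-- a character as an algebra homomorphism -/
def dgalHom {D : Dat Ω} {M : IntermediateField ℂ Ω} (χ : D.Spm M) : D.RM M →ₐ[ℂ] ℂ where
  toFun z := χ.1 z
  map_one' := by simpa using χ.2.2.1 1
  map_mul' z w := (χ.2.1 z z.2 w w.2).2
  map_zero' := by simpa using χ.2.2.1 0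
  map_add' z w := (χ.2.1 z z.2 w w.2).1
  commutes' c := χ.2.2.1 c

theorem dgal_sub {D : Dat Ω} {M : IntermediateField ℂ Ω} (χ : D.Spm M) {z w : Ω} (hz : z ∈ D.RM M)
    (hw : w ∈ D.RM M) : χ.1 (z - w) = χ.1 z - χ.1 w :=
  map_sub (dgalHom χ) ⟨z, hz⟩ ⟨w, hw⟩

theorem dgal_prod {D : Dat Ω} {M : IntermediateField ℂ Ω} (χ : D.Spm M) {κ : Type} [Fintype κ]
    {f : κ → Ω} (hf : ∀ i, f i ∈ D.RM M) : χ.1 (∏ i, f i) = ∏ i, χ.1 (f i) := by
  have h := map_prod (dgalHom χ) (fun i => ⟨f i, hf i⟩) Finset.univ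
  have h1 : ((∏ i, (⟨f i, hf i⟩ : D.RM M) : D.RM M) : Ω) = ∏ i, f i :=
    map_prod (D.RM M).val _ _
  rw [← h1]
  exact h

theorem dgal_int {D : Dat Ω} (g : Ω ≃ₐ[ℂ] Ω) (hb : g D.b = D.b) (hx : g D.x = D.x) {z : Ω}
    (hz : IsIntegral (Algebra.adjoin ℂ {D.b, D.x}) z) :
    IsIntegral (Algebra.adjoin ℂ {D.b, D.x}) (g z) := by
  have h1 : Algebra.adjoin ℂ {D.b, D.x} ≤ AlgHom.equalizer (g : Ω →ₐ[ℂ] Ω) (AlgHom.id ℂ Ω) :=
    Algebra.adjoin_le (by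
      rintro w (rfl | rfl)
      exacts [hb, hx])
  let g' : Ω →ₐ[Algebra.adjoin ℂ {D.b, D.x}] Ω :=
    { (g : Ω →+* Ω) with commutes' := fun a => h1 a.2 }
  exact hz.map g'

theorem dgal_iff {D : Dat Ω} {M : IntermediateField ℂ Ω} (g : Ω ≃ₐ[ℂ] Ω) (hb : g D.b = D.b)
    (hx : g D.x = D.x) (hM : ∀ z, g z ∈ M ↔ z ∈ M) (z : Ω) : g z ∈ D.RM M ↔ z ∈ D.RM M := by
  refine ⟨fun h => dgal_mem.2 ⟨?_, (hM z).1 (dgal_mem.1 h).2⟩, fun h =>
    dgal_mem.2 ⟨dgal_int g hb hx (dgal_mem.1 h).1, (hM z).2 (dgal_mem.1 h).2⟩⟩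
  have := dgal_int g.symm (g.symm_apply_eq.2 hb.symm) (g.symm_apply_eq.2 hx.symm) (dgal_mem.1 h).1
  rwa [g.symm_apply_apply] at this

theorem Dat.exists_res (D : Dat Ω) {M M' : IntermediateField ℂ Ω} (hle : M' ≤ M) (hb : D.b ∈ M')
    (hx : D.x ∈ M') : ∃ r : C(D.Spm M, D.Spm M'), ∀ χ, ∀ z ∈ D.RM M', (r χ).1 z = χ.1 z := by
  classical
  refine ⟨⟨fun χ => ⟨fun z => if z ∈ D.RM M' then χ.1 z else 0, fun z hz w hw => ?_, fun c => ?_,
    fun z hz => if_neg hz, ?_⟩, Continuous.subtype_mk (continuous_pi fun z => ?_) _⟩,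
    fun χ z hz => if_pos hz⟩
  · simp only [if_pos hz, if_pos hw, if_pos (add_mem hz hw), if_pos (mul_mem hz hw)]
    exact χ.2.1 z (dgal_mono hle hz) w (dgal_mono hle hw)
  · simp only [if_pos ((D.RM M').algebraMap_mem c)]
    exact χ.2.2.1 c
  · simp only [if_pos (dgal_le hb hx (dgal_bA D)), if_pos (dgal_le hb hx (dgal_xA D))]
    exact χ.2.2.2.2
  · split_ifs
    · exact (continuous_apply z).comp continuous_subtype_val
    · exact continuous_const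

theorem Dat.exists_smul (D : Dat Ω) {M : IntermediateField ℂ Ω} (g : Ω ≃ₐ[ℂ] Ω) (hb : g D.b = D.b)
    (hx : g D.x = D.x) (hM : ∀ z, g z ∈ M ↔ z ∈ M) :
    ∃ r : C(D.Spm M, D.Spm M), ∀ χ z, (r χ).1 z = χ.1 (g z) := by
  have h := dgal_iff g hb hx hM
  refine ⟨⟨fun χ => ⟨fun z => χ.1 (g z), fun z hz w hw => ?_, fun c => ?_,
    fun z hz => χ.2.2.2.1 _ fun h' => hz ((h z).1 h'), ?_⟩, ?_⟩, fun χ z => rfl⟩
  · simp only [map_add, map_mul]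
    exact χ.2.1 _ ((h z).2 hz) _ ((h w).2 hw)
  · simp only [AlgEquiv.commutes]
    exact χ.2.2.1 c
  · simp only [hb, hx]
    exact χ.2.2.2.2
  · refine Continuous.subtype_mk (continuous_pi fun z => ?_) _
    exact (continuous_apply (g z)).comp continuous_subtype_val

theorem Dat.Good.free {D : Dat Ω} {M : IntermediateField ℂ Ω} {ι : Type} [Fintype ι] {t : ι → Ω}
    (hG : D.Good M t) (hbM : D.b ∈ M) (hxM : D.x ∈ M) (hrt : ∀ p ∈ D.S, D.rt p ∈ M)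
    (g : Ω ≃ₐ[ℂ] Ω) (hb : g D.b = D.b) (hx : g D.x = D.x) (hM : ∀ z, g z ∈ M ↔ z ∈ M)
    (χ : D.Spm M) (h : ∀ z ∈ D.RM M, χ.1 (g z) = χ.1 z) : ∀ z ∈ M, g z = z := by
  obtain ⟨r, hr⟩ := D.exists_smul g hb hx hM
  obtain ⟨e, he⟩ := hG.exists_homeo hbM hxM hrt
  have hiff := dgal_iff g hb hx hM
  have h1 : IsOpen {a | r a = id a} :=
    (hG.covering_prj hbM hxM hrt).1.isLocalHomeomorph.isLocallyInjective.isOpen_eqLocus
      r.continuous continuous_id (funext fun a => Subtype.ext (by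
        simp only [Function.comp_apply, Dat.prj, hr, hb, hx, id]))
  have h2 : r χ = id χ := Subtype.ext (funext fun z => by
    rw [hr]
    by_cases hz : z ∈ D.RM M
    · exact h z hz
    · exact (χ.2.2.2.1 _ fun h' => hz ((hiff z).1 h')).trans (χ.2.2.2.1 _ hz).symm)
  obtain ⟨y, rfl⟩ := e.surjective χ
  have h3 : ∀ᶠ y' in 𝓝 y, r (e y') = e y' := e.continuous.continuousAt.eventually (h1.mem_nhds h2)
  obtain ⟨hfr, -, hloc⟩ := hG.2 y.1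
  obtain ⟨hl1, hl2⟩ := hloc y.2
  have h4 : ∀ z ∈ D.RM M, g z = z := fun z hz => by
    have hz' := sub_mem ((hiff z).2 hz) hz
    refine sub_eq_zero.1 (eq_zero_of_ev_eventually t y.1 (hG.coord_of_isU y.2) (hl1 hz') ?_)
    rw [← (isOpen_isU D t).isOpenEmbedding_subtypeVal.map_nhds_eq, eventually_map]
    filter_upwards [h3] with y' hy'
    rw [← he y' _ hz', dgal_sub _ ((hiff z).2 hz) hz, ← hr, hy', sub_self]
  have h5 : ∀ z ∈ (la t y.1).O, g z = z := fun z hz => by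
    obtain ⟨a, ha, s, hs, hs0, hzs⟩ := hl2 z hz
    have hs1 : s ≠ 0 := LA.Un.ne_zero ⟨hl1 hs, hs0⟩
    rw [eq_div_of_mul_eq hs1 hzs, map_div₀, h4 a ha, h4 s hs]
  intro z hz
  obtain ⟨a, ha, s, hs, hs0, hzs⟩ := hfr.2 z hz
  rw [eq_div_of_mul_eq hs0 hzs, map_div₀, h5 a ha, h5 s hs]

theorem Dat.trans (D : Dat Ω) {M : IntermediateField ℂ Ω} {Γ : Type} [Group Γ] [Finite Γ]
    (act : Γ →* (Ω ≃ₐ[ℂ] Ω)) (hb : ∀ γ, act γ D.b = D.b) (hx : ∀ γ, act γ D.x = D.x)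
    (hM : ∀ γ z, act γ z ∈ M ↔ z ∈ M) (H : Subgroup Γ) (χ χ' : D.Spm M)
    (h : ∀ z ∈ D.RM (M ⊓ fixIF act H), χ'.1 z = χ.1 z) :
    ∃ γ ∈ H, ∀ z ∈ D.RM M, χ'.1 z = χ.1 (act γ z) := by
  classical
  haveI : Fintype H := Fintype.ofFinite H
  have hiff := fun γ => dgal_iff (act γ) (hb γ) (hx γ) (hM γ)
  by_contra hc
  have h1 : ∀ γ : H, ∃ w ∈ D.RM M, χ'.1 w ≠ 0 ∧ χ.1 (act γ w) = 0 := fun γ => by
    obtain ⟨z, hz, hne⟩ : ∃ z ∈ D.RM M, χ'.1 z ≠ χ.1 (act γ z) := by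
      by_contra h2
      exact hc ⟨γ, γ.2, fun z hz => by_contra fun h3 => h2 ⟨z, hz, h3⟩⟩
    have ha := (D.RM M).algebraMap_mem (χ.1 (act γ z))
    refine ⟨z - algebraMap ℂ Ω (χ.1 (act γ z)), sub_mem hz ha, ?_, ?_⟩
    · rw [dgal_sub _ hz ha, χ'.2.2.1]
      exact sub_ne_zero.2 hne
    · rw [map_sub, AlgEquiv.commutes, dgal_sub _ ((hiff γ z).2 hz) ha, χ.2.2.1, sub_self]
  choose w hw hw1 hw2 using h1
  have hW : ∏ γ, w γ ∈ D.RM M := prod_mem fun γ _ => hw γ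
  have hc0 : χ'.1 (∏ γ, w γ) ≠ 0 := by
    rw [dgal_prod _ hw]
    exact Finset.prod_ne_zero_iff.2 fun γ _ => hw1 γ
  have hW2 : ∀ δ : H, χ.1 (act δ (∏ γ, w γ)) = 0 := fun δ => by
    rw [map_prod, dgal_prod _ fun γ => (hiff δ _).2 (hw γ)]
    exact Finset.prod_eq_zero (Finset.mem_univ δ) (hw2 δ)
  generalize ∏ γ, w γ = W at hW hc0 hW2
  have ha := (D.RM M).algebraMap_mem (χ'.1 W)
  have hu : ∀ δ : H, act δ (algebraMap ℂ Ω (χ'.1 W) - W) ∈ D.RM M := fun δ =>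
    (hiff δ _).2 (sub_mem ha hW)
  have hN : ∏ δ : H, act δ (algebraMap ℂ Ω (χ'.1 W) - W) ∈ D.RM M := prod_mem fun δ _ => hu δ
  have h2 := h _ (dgal_mem.2 ⟨(dgal_mem.1 hN).1, (dgal_mem.1 hN).2, fun γ hγ => by
    rw [map_prod]
    refine Fintype.prod_equiv (Equiv.mulLeft ⟨γ, hγ⟩) _ _ fun δ => ?_
    simp only [Equiv.coe_mulLeft, Subgroup.coe_mul, map_mul, AlgEquiv.mul_apply]⟩)
  rw [dgal_prod _ hu, dgal_prod _ hu, Finset.prod_eq_zero (Finset.mem_univ 1) (by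
    rw [Subgroup.coe_one, map_one, AlgEquiv.one_apply, dgal_sub _ ha hW, χ'.2.2.1, sub_self])] at h2
  refine Finset.prod_ne_zero_iff.2 (fun δ _ => ?_) h2.symm
  rwa [map_sub, AlgEquiv.commutes, dgal_sub _ ha ((hiff δ _).2 hW), χ.2.2.1, hW2, sub_zero]

theorem dgal_bK {D : Dat Ω} {K : IntermediateField ℂ Ω} (hK : D.BaseField K) : D.b ∈ K := by
  obtain ⟨T, hT, -⟩ := hK.fin
  rw [hT]
  exact IntermediateField.subset_adjoin _ _ (Set.mem_insert _ _)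

theorem dgal_bx {D : Dat Ω} {K M : IntermediateField ℂ Ω} (hK : D.BaseField K)
    (hle : K ⊔ IntermediateField.adjoin ℂ {D.x} ≤ M) : D.b ∈ M ∧ D.x ∈ M :=
  ⟨(le_sup_left.trans hle) (dgal_bK hK),
    (le_sup_right.trans hle) (IntermediateField.mem_adjoin_simple_self ℂ D.x)⟩

/-- substitution of `b` -/
def dgalI {D : Dat Ω} {K : IntermediateField ℂ Ω} (hK : D.BaseField K) : ℂ[X] →+* K :=
  (aeval (⟨D.b, dgal_bK hK⟩ : K)).toRingHom

theorem dgal_I {D : Dat Ω} {K : IntermediateField ℂ Ω} (hK : D.BaseField K) (p : ℂ[X]) :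
    (dgalI hK p : Ω) = aeval D.b p :=
  (aeval_algHom_apply K.val (⟨D.b, dgal_bK hK⟩ : K) p).symm

theorem dgal_theta {D : Dat Ω} {K : IntermediateField ℂ Ω} (hK : D.BaseField K) :
    ∃ θ : Algebra.adjoin ℂ {D.b, D.x} →+* ℂ[X][X],
      (∀ a, aeval D.x ((θ a).map (dgalI hK)) = (a : Ω)) ∧ θ ⟨_, dgal_bA D⟩ = C X ∧
        θ ⟨_, dgal_xA D⟩ = X ∧ ∀ c : ℂ, θ (algebraMap ℂ _ c) = C (C c) := by
  let φ : ℂ[X][X] →+* Ω := (aeval D.x : K[X] →ₐ[K] Ω).toRingHom.comp (mapRingHom (dgalI hK))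
  have hφ : ∀ p, φ p = aeval D.x (p.map (dgalI hK)) := fun p => rfl
  have hi : Function.Injective (dgalI hK) := fun p q h =>
    transcendental_iff_injective.1 hK.trb (by rw [← dgal_I hK, ← dgal_I hK, h])
  have hinj : Function.Injective φ :=
    (transcendental_iff_injective.1 hK.trx).comp (map_injective _ hi)
  have h1 : φ (C X) = D.b := by
    rw [hφ, map_C, aeval_C]
    exact (dgal_I hK X).trans (aeval_X _)
  have h2 : φ X = D.x := by rw [hφ, map_X, aeval_X]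
  have h3 : ∀ c : ℂ, φ (C (C c)) = algebraMap ℂ Ω c := fun c => by
    rw [hφ, map_C, aeval_C]
    exact (dgal_I hK (C c)).trans (aeval_C _ _)
  have h4 : ∀ a ∈ Algebra.adjoin ℂ {D.b, D.x}, a ∈ φ.range := fun a ha => by
    induction ha using Algebra.adjoin_induction with
    | mem w hw =>
      rcases hw with rfl | rfl
      exacts [⟨_, h1⟩, ⟨_, h2⟩]
    | algebraMap c => exact ⟨_, h3 c⟩
    | add _ _ _ _ hz hw => exact add_mem hz hw
    | mul _ _ _ _ hz hw => exact mul_mem hz hw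
  choose f hf using h4
  have h5 : ∀ a : Algebra.adjoin ℂ {D.b, D.x}, φ (f a a.2) = a := fun a => hf a a.2
  refine ⟨⟨⟨⟨fun a => f a a.2, hinj ?_⟩, fun a a' => hinj ?_⟩, hinj ?_, fun a a' => hinj ?_⟩,
    h5, hinj ((h5 _).trans h1.symm), hinj ((h5 _).trans h2.symm),
    fun c => hinj ((h5 _).trans (h3 c).symm)⟩
  · simp only [hf, map_one, OneMemClass.coe_one]
  · simp only [hf, map_mul, MulMemClass.coe_mul]
  · simp only [hf, map_zero, ZeroMemClass.coe_zero]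
  · simp only [hf, map_add, AddMemClass.coe_add]

theorem dgal_poly {K : IntermediateField ℂ Ω} {x z : Ω} (hx : Transcendental K x)
    (hz : z ∈ K ⊔ IntermediateField.adjoin ℂ {x})
    (hi : (aeval x : K[X] →ₐ[K] Ω).toRingHom.IsIntegralElem z) : ∃ p : K[X], aeval x p = z := by
  rw [← IntermediateField.restrictScalars_adjoin_eq_sup] at hz
  obtain ⟨f, hf⟩ := (RatFunc.algEquivOfTranscendental x hx).surjective ⟨z, hz⟩
  let ψ : RatFunc K →+* Ω := (IntermediateField.adjoin K {x}).val.toRingHom.comp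
    (RatFunc.algEquivOfTranscendental x hx : RatFunc K →+* IntermediateField.adjoin K {x})
  have h1 : ∀ p : K[X], ψ (algebraMap K[X] (RatFunc K) p) = aeval x p := fun p =>
    (congrArg Subtype.val (RatFunc.algEquivOfTranscendental_algebraMap x hx p)).trans
      (aeval_algHom_apply (IntermediateField.adjoin K {x}).val _ p).symm
  have h2 : ψ f = z := congrArg Subtype.val hf
  obtain ⟨Q, hQ, hQ0⟩ := hi
  have h3 : IsIntegral K[X] f := ⟨Q, hQ, ψ.injective (by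
    rw [hom_eval₂, h2, map_zero, ← hQ0]
    exact congrArg (fun i => eval₂ i z Q) (RingHom.ext h1))⟩
  obtain ⟨p, hp⟩ := IsIntegrallyClosed.isIntegral_iff.1 h3
  exact ⟨p, by rw [← h1, hp, h2]⟩

theorem dgal_coeff {D : Dat Ω} {K : IntermediateField ℂ Ω} (hK : D.BaseField K) {z : Ω}
    (hz : z ∈ D.RM (K ⊔ IntermediateField.adjoin ℂ {D.x})) : ∃ p : K[X], aeval D.x p = z ∧
      ∀ n, (aeval D.b : ℂ[X] →ₐ[ℂ] Ω).toRingHom.IsIntegralElem (p.coeff n : Ω) := by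
  obtain ⟨θ, hθ, -⟩ := dgal_theta hK
  obtain ⟨⟨P, hP, hP0⟩, hz⟩ := dgal_mem.1 hz
  have h0 : ((aeval D.x : K[X] →ₐ[K] Ω).toRingHom.comp (mapRingHom (dgalI hK))).comp θ
      = algebraMap _ Ω := RingHom.ext hθ
  obtain ⟨p, rfl⟩ := dgal_poly hK.trx hz ⟨(P.map θ).map (mapRingHom (dgalI hK)),
    (hP.map _).map _, by rw [eval₂_map, eval₂_map, h0, hP0]⟩
  refine ⟨p, rfl, fun n => ?_⟩
  have h1 : (mapRingHom (dgalI hK)).IsIntegralElem p := ⟨P.map θ, hP.map _,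
    transcendental_iff_injective.1 hK.trx (by
      rw [map_zero, ← hP0, ← h0, ← eval₂_map]
      exact hom_eval₂ _ _ (aeval D.x : K[X] →ₐ[K] Ω).toRingHom _)⟩
  letI : Algebra ℂ[X] K := (dgalI hK).toAlgebra
  letI : Algebra ℂ[X][X] K[X] := Polynomial.algebra ℂ[X] K
  obtain ⟨Q, hQ, hQ0⟩ := IsIntegral.coeff (R := ℂ[X]) (p := p) h1 n
  refine ⟨Q, hQ, ?_⟩
  have h2 := congrArg K.val.toRingHom hQ0
  rw [hom_eval₂, map_zero] at h2
  rw [← h2]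
  exact congrArg (fun i => eval₂ i (p.coeff n : Ω) Q) (RingHom.ext fun q => (dgal_I hK q).symm)

theorem dgal_const {D : Dat Ω} {M : IntermediateField ℂ Ω} (hbM : D.b ∈ D.RM M)
    (c : C(unitInterval, D.Spm M)) (hb : ∀ s, (c s).1 D.b = (c 0).1 D.b) {a : Ω} (ha : a ∈ M)
    (hi : (aeval D.b : ℂ[X] →ₐ[ℂ] Ω).toRingHom.IsIntegralElem a) :
    a ∈ D.RM M ∧ (c 1).1 a = (c 0).1 a := by
  obtain ⟨Q, hQ, hQ0⟩ := hi
  have h1 : ∀ (B : Subalgebra ℂ Ω) (hB : D.b ∈ B), B.val.toRingHom.comp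
      (aeval (⟨D.b, hB⟩ : B)).toRingHom = (aeval D.b : ℂ[X] →ₐ[ℂ] Ω).toRingHom := fun B hB =>
    RingHom.ext fun q => (aeval_algHom_apply B.val (⟨D.b, hB⟩ : B) q).symm
  have h2 : a ∈ D.RM M := dgal_mem.2 ⟨⟨Q.map (aeval (⟨D.b, dgal_bA D⟩ :
    Algebra.adjoin ℂ {D.b, D.x})).toRingHom, hQ.map _, by
      rw [eval₂_map, ← hQ0, ← h1 _ (dgal_bA D)]
      rfl⟩, ha⟩
  have h3 : eval₂ (aeval (⟨D.b, hbM⟩ : D.RM M)).toRingHom ⟨a, h2⟩ Q = 0 :=
    Subtype.ext ((hom_eval₂ _ _ (D.RM M).val.toRingHom _).trans (by rw [h1]; exact hQ0))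
  have h4 : ∀ s, (c s).1 a ∈ {w | IsRoot (Q.map (aeval ((c 0).1 D.b)).toRingHom) w} := fun s => by
    have h5 := congrArg (dgalHom (c s)).toRingHom h3
    rw [hom_eval₂, map_zero] at h5
    rw [Set.mem_ofPred_eq, IsRoot, eval_map, ← h5, ← hb s]
    exact congrArg (fun i => eval₂ i ((c s).1 a) Q) (RingHom.ext fun q =>
      aeval_algHom_apply (dgalHom (c s)) (⟨D.b, hbM⟩ : D.RM M) q)
  refine ⟨h2, isPreconnected_univ.constant_of_mapsTo (f := fun s => (c s).1 a)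
    (finite_setOfPred_isRoot (hQ.map _).ne_zero).isDiscrete
    ((continuous_apply a).comp (continuous_subtype_val.comp c.continuous)).continuousOn
    (fun s _ => h4 s) (Set.mem_univ 1) (Set.mem_univ 0)⟩

theorem Dat.kpart (D : Dat Ω) {K M : IntermediateField ℂ Ω} (hK : D.BaseField K)
    (hle : K ⊔ IntermediateField.adjoin ℂ {D.x} ≤ M) (c : C(unitInterval, D.Spm M))
    (hb : ∀ s, (c s).1 D.b = (c 0).1 D.b) (hx : (c 1).1 D.x = (c 0).1 D.x) :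
    ∀ z ∈ D.RM (K ⊔ IntermediateField.adjoin ℂ {D.x}), (c 1).1 z = (c 0).1 z := by
  intro z hz
  obtain ⟨hbM, hxM⟩ := dgal_bx hK hle
  obtain ⟨p, rfl, hp⟩ := dgal_coeff hK hz
  let T := (AlgHom.equalizer (dgalHom (c 1)) (dgalHom (c 0))).map (D.RM M).val
  have h1 : aeval D.x p ∈ T := by
    rw [aeval_eq_sum_range]
    refine sum_mem fun n _ => ?_
    rw [Algebra.smul_def]
    obtain ⟨h2, h3⟩ := dgal_const (dgal_le hbM hxM (dgal_bA D)) c hb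
      ((le_sup_left.trans hle) (p.coeff n).2) (hp n)
    have h4 : (p.coeff n : Ω) ∈ T := ⟨⟨_, h2⟩, h3, rfl⟩
    have h5 : D.x ∈ T := ⟨⟨_, dgal_le hbM hxM (dgal_xA D)⟩, hx, rfl⟩
    exact mul_mem h4 (pow_mem h5 n)
  obtain ⟨w, hw, hw'⟩ := h1
  rw [← hw']
  exact hw

theorem dgal_ext {A B : Type} [CommRing A] [CommRing B] [Algebra ℂ B] (j : A →+* B)
    (hj : Function.Injective j) (hi : j.IsIntegral) (χ : A →+* ℂ) (k : ℂ → A)
    (h1 : ∀ c, χ (k c) = c) (h2 : ∀ c, j (k c) = algebraMap ℂ B c) :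
    ∃ χ' : B →ₐ[ℂ] ℂ, ∀ a, χ' (j a) = χ a := by
  letI : Algebra A B := j.toAlgebra
  haveI : Algebra.IsIntegral A B := ⟨hi⟩
  haveI := RingHom.ker_isMaximal_of_surjective χ fun c => ⟨k c, h1 c⟩
  obtain ⟨Q, hQ, hQ'⟩ := Ideal.exists_ideal_over_maximal_of_isIntegral (S := B) (RingHom.ker χ)
    (((RingHom.injective_iff_ker_eq_bot _).1 hj).trans_le bot_le)
  have h3 : ∀ a, Ideal.Quotient.mk Q (j a) = algebraMap ℂ (B ⧸ Q) (χ a) := fun a => by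
    have h4 : a - k (χ a) ∈ Q.comap (algebraMap A B) := by
      rw [hQ', RingHom.mem_ker, map_sub, h1, sub_self]
    rw [← Ideal.Quotient.mk_algebraMap, ← h2, Ideal.Quotient.eq, ← map_sub]
    exact h4
  haveI : Algebra.IsIntegral ℂ (B ⧸ Q) := ⟨fun w => by
    obtain ⟨w, rfl⟩ := Ideal.Quotient.mk_surjective w
    obtain ⟨P, hP, hP0⟩ := hi w
    refine ⟨P.map χ, hP.map _, ?_⟩
    have h4 := congrArg (Ideal.Quotient.mk Q) hP0
    rw [hom_eval₂, map_zero] at h4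
    rw [eval₂_map, ← h4]
    exact congrArg (fun i => eval₂ i (Ideal.Quotient.mk Q w) P) (RingHom.ext fun a => (h3 a).symm)⟩
  let e := AlgEquiv.ofBijective (Algebra.ofId ℂ (B ⧸ Q))
    IsAlgClosed.algebraMap_bijective_of_isIntegral
  refine ⟨(e.symm : B ⧸ Q →ₐ[ℂ] ℂ).comp (Ideal.Quotient.mkₐ ℂ Q), fun a => ?_⟩
  exact e.symm_apply_eq.2 (h3 a)

theorem Dat.prj_surjective (D : Dat Ω) {K M : IntermediateField ℂ Ω} (hK : D.BaseField K)
    (hle : K ⊔ IntermediateField.adjoin ℂ {D.x} ≤ M) : Function.Surjective (D.prj M) := by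
  classical
  rintro ⟨⟨β, ξ⟩, hq⟩
  obtain ⟨hbM, hxM⟩ := dgal_bx hK hle
  obtain ⟨θ, -, h1, h2, h3⟩ := dgal_theta hK
  have hl := dgal_le hbM hxM
  obtain ⟨χ, hχ⟩ := dgal_ext (Subalgebra.inclusion hl).toRingHom
    (Subalgebra.inclusion_injective hl) (fun w => by
      obtain ⟨P, hP, hP0⟩ := (dgal_mem.1 w.2).1
      exact ⟨P, hP, Subtype.ext ((hom_eval₂ _ _ (D.RM M).val.toRingHom _).trans hP0)⟩)
    ((eval₂RingHom (evalRingHom β) ξ).comp θ) (algebraMap ℂ _) (fun c => by simp [h3])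
    fun c => rfl
  have h4 : χ ⟨_, hl (dgal_bA D)⟩ = β := (hχ ⟨_, dgal_bA D⟩).trans (by simp [h1])
  have h5 : χ ⟨_, hl (dgal_xA D)⟩ = ξ := (hχ ⟨_, dgal_xA D⟩).trans (by simp [h2])
  refine ⟨⟨fun z => if h : z ∈ D.RM M then χ ⟨z, h⟩ else 0, fun z hz w hw => ?_, fun c => ?_,
    fun z hz => dif_neg hz, ?_⟩, Subtype.ext ?_⟩
  · simp only [dif_pos hz, dif_pos hw, dif_pos (add_mem hz hw), dif_pos (mul_mem hz hw)]
    exact ⟨map_add χ ⟨z, hz⟩ ⟨w, hw⟩, map_mul χ ⟨z, hz⟩ ⟨w, hw⟩⟩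
  · simp only [dif_pos ((D.RM M).algebraMap_mem c)]
    exact χ.commutes c
  · simpa only [dif_pos (hl (dgal_bA D)), dif_pos (hl (dgal_xA D)), h4, h5] using hq
  · simp only [Dat.prj, dif_pos (hl (dgal_bA D)), dif_pos (hl (dgal_xA D)), h4, h5]

end Vale.Agent.P300
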