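import Vale.Agent.P300.DCurve
import Vale.Agent.P300.DBlow
import Vale.Agent.P300.DBlowL

/-! P300: local rings of the product of a curve with the projective line. -/

noncomputable section

namespace Vale.Agent.P300

variable {Ω : Type} [Field Ω] [Algebra ℂ Ω]

theorem dprod_loc {L : LA Ω} {T R : Subalgebra ℂ Ω} (hT : L.LocOf T) (hR : R ≤ L.O)
    (h : T ≤ dblowLoc L R hR) : L.LocOf R := by
  refine ⟨hR, fun z hz => ?_⟩
  obtain ⟨r, hr, q, hq, a1, a2⟩ := hT.2 z hz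
  obtain ⟨b, hb, a, ha, b1, b2⟩ := h hr
  obtain ⟨b', hb', a', ha', c1, c2⟩ := h hq
  refine ⟨b * a', R.mul_mem hb ha', b' * a, R.mul_mem hb' ha, ?_, ?_⟩
  · rw [← c2]
    exact (LA.Un.mul (LA.Un.mul ⟨hT.1 hq, a1⟩ ⟨hR ha', c1⟩) ⟨hR ha, b1⟩).2
  · rw [← b2, ← c2, ← a2]
    ring

theorem dprod_le_loc {L : LA Ω} {R : Subalgebra ℂ Ω} (hR : R ≤ L.O) : R ≤ dblowLoc L R hR :=
  fun x hx => ⟨x, hx, 1, R.one_mem, by rw [LA.ev_one]; exact one_ne_zero, mul_one x⟩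

theorem dprod_ext_inv {L L' : LA Ω} {x : Ω} (h : L.Ext L' x⁻¹) (h0 : L'.ev x⁻¹ ≠ 0) :
    L.Ext L' x := by
  have hU : L'.Un x := by
    have := (LA.Un.inv ⟨h.2.2.1, h0⟩).1
    rwa [inv_inv] at this
  have hR : Algebra.adjoin ℂ (insert x (L.O : Set Ω)) ≤ L'.O :=
    Algebra.adjoin_le (Set.insert_subset hU.1 h.1)
  refine ⟨h.1, h.2.1, hU.1, (dprod_loc ⟨dblowl_adj h, h.2.2.2⟩ hR (Algebra.adjoin_le ?_)).2⟩
  rintro z (rfl | hz)
  · exact ⟨1, one_mem _, x, Algebra.subset_adjoin (Set.mem_insert _ _), hU.2,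
      inv_mul_cancel₀ hU.ne_zero⟩
  · exact dprod_le_loc hR (Algebra.subset_adjoin (Set.mem_insert_of_mem _ hz))

/-- the Segre tuple -/
def dprodT {ι : Type} (t : ι → Ω) (x : Ω) (p : ι × Bool) : Ω := t p.1 * (if p.2 then x else 1)

theorem dprod_segre {ι : Type} [Fintype ι] (t : ι → Ω) (x : Ω) (y' : Zt (dprodT t x)) :
    ∃ y : Zt t, (la t y).Ext (la (dprodT t x) y') x ∨
      ((la t y).Ext (la (dprodT t x) y') x⁻¹ ∧ (la (dprodT t x) y').ev x⁻¹ = 0) := by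
  obtain ⟨⟨j, β⟩, hj⟩ := db_exists_rep y'.1
  obtain ⟨htj, hβ⟩ := mul_ne_zero_iff.1 (t_ne_of_rep y' hj)
  have hT := locOf_chA y' hj
  set L' := la (dprodT t x) y'
  have r1 : ∀ k, t k / t j ∈ L'.O := fun k => by
    have := (ratio_mem y' hj (k, β)).1
    rwa [dprodT, dprodT, mul_div_mul_right _ _ hβ] at this
  have hA : chA t j ≤ L'.O := Algebra.adjoin_le (by
    rintro _ ⟨k, rfl⟩
    exact r1 k)
  obtain ⟨y, hy, hχ⟩ := pt_of_hom t htj (L'.evHom.comp (Subalgebra.inclusion hA))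
  have hO := fun z (hz : z ∈ (la t y).O) =>
    dblow_le (locOf_chA y hy) hA (fun z hz => hχ ⟨z, hz⟩) hz
  have key : ∀ w ∈ L'.O, (∀ γ : Bool, (if γ then x else 1) / (if β then x else 1) = 1 ∨
      (if γ then x else 1) / (if β then x else 1) = w) → (la t y).Ext L' w := by
    intro w hw h
    have hle : chA (dprodT t x) (j, β) ≤ Algebra.adjoin ℂ (insert w ((la t y).O : Set Ω)) := by
      refine Algebra.adjoin_le ?_
      rintro _ ⟨p, rfl⟩
      simp only [dprodT, mul_div_mul_comm, SetLike.mem_coe]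
      refine mul_mem (Algebra.subset_adjoin (Set.mem_insert_of_mem _ (ratio_mem y hy p.1).1)) ?_
      rcases h p.2 with e | e <;> rw [e]
      · exact one_mem _
      · exact Algebra.subset_adjoin (Set.mem_insert _ _)
    refine ⟨fun z hz => (hO z hz).1, fun z hz => (hO z hz).2, hw, fun z hz => ?_⟩
    obtain ⟨r, hr, s, hs, a1, a2⟩ := hT.2 z hz
    exact ⟨r, hle hr, s, hle hs, a1, a2⟩
  refine ⟨y, ?_⟩
  cases β with
  | false =>
    refine Or.inl (key x ?_ fun γ => by cases γ <;> simp)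
    have := (ratio_mem y' hj (j, true)).1
    simpa [dprodT, mul_div_cancel_left₀ _ htj] using this
  | true =>
    have hx : x ≠ 0 := by simpa using hβ
    have h1 : (la t y).Ext L' x⁻¹ := by
      refine key x⁻¹ ?_ fun γ => by cases γ <;> simp [hx]
      have := (ratio_mem y' hj (j, false)).1
      simpa [dprodT, div_mul_cancel_left₀ htj] using this
    by_cases h0 : L'.ev x⁻¹ = 0
    · exact Or.inr ⟨h1, h0⟩
    · exact Or.inl (dprod_ext_inv h1 h0)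

section Dvr

variable {L L' : LA Ω} {K : IntermediateField ℂ Ω} {ϖ w : Ω}

theorem dprod_mx_mul {a b : Ω} (ha : a ∈ L.O) (hb : L.Mx b) : L.Mx (a * b) :=
  ⟨mul_mem ha hb.1, by rw [L.ev_mul _ ha _ hb.1, hb.2, mul_zero]⟩

theorem dprod_pos (h : L.Dvr K ϖ) {n : ℤ} (hn : 0 < n) : L.Mx (ϖ ^ n) := by
  obtain ⟨m, rfl⟩ : ∃ m : ℕ, n = ((m + 1 : ℕ) : ℤ) := ⟨(n - 1).toNat, by omega⟩
  rw [zpow_natCast, pow_succ]
  exact dprod_mx_mul (pow_mem h.2.1.1 m) h.2.1

theorem dprod_nonneg (h : L.Dvr K ϖ) {n : ℤ} (hn : 0 ≤ n) : ϖ ^ n ∈ L.O := by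
  rcases hn.eq_or_lt with rfl | hn
  · simp
  · exact (dprod_pos h hn).1

theorem dprod_sign (h : L.Dvr K ϖ) {z : Ω} {n : ℤ} (hz : L.Un (z / ϖ ^ n)) :
    (0 < n ↔ L.Mx z) ∧ (n = 0 ↔ L.Un z) ∧ (n < 0 ↔ z ∉ L.O) ∧ (n < 0 → L.Mx z⁻¹) := by
  have h0 := zpow_ne_zero n h.2.2.1
  have e : z = z / ϖ ^ n * ϖ ^ n := (div_mul_cancel₀ _ h0).symm
  have a1 : 0 < n → L.Mx z := fun hn => e ▸ dprod_mx_mul hz.1 (dprod_pos h hn)
  have a2 : n = 0 → L.Un z := fun hn => by simpa [hn] using hz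
  have a4 : n < 0 → L.Mx z⁻¹ := fun hn => by
    have := dprod_mx_mul hz.inv.1.1 (dprod_pos h (neg_pos.2 hn))
    rwa [zpow_neg, ← mul_inv, ← e] at this
  have a3 : n < 0 → z ∉ L.O := fun hn hm => by
    have hz0 : z ≠ 0 := fun hz0 => hz.ne_zero (by rw [hz0, zero_div])
    have := (dprod_mx_mul hm (a4 hn)).2
    rw [mul_inv_cancel₀ hz0, LA.ev_one] at this
    exact one_ne_zero this
  refine ⟨⟨a1, fun hm => ?_⟩, ⟨a2, fun hm => ?_⟩, ⟨a3, fun hm => ?_⟩, a4⟩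
  · rcases lt_trichotomy n 0 with hn | hn | hn
    · exact absurd hm.1 (a3 hn)
    · exact absurd hm.2 (a2 hn).2
    · exact hn
  · rcases lt_trichotomy n 0 with hn | hn | hn
    · exact absurd hm.1 (a3 hn)
    · exact hn
    · exact absurd (a1 hn).2 hm.2
  · rcases lt_trichotomy n 0 with hn | hn | hn
    · exact hn
    · exact absurd (a2 hn).1 hm
    · exact absurd (a1 hn).1 hm

theorem dprod_div (h : L.Dvr K ϖ) {z : Ω} (hz : L.Mx z) : z / ϖ ∈ L.O := by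
  by_cases h0 : z = 0
  · rw [h0, zero_div]; exact zero_mem _
  obtain ⟨n, hn⟩ := h.2.2.2 z (h.1 z hz.1) h0
  have h1 := (dprod_sign h hn).1.2 hz
  have := mul_mem hn.1 (dprod_nonneg h (n := n - 1) (by omega))
  rwa [zpow_sub_one₀ h.2.2.1, ← mul_assoc, div_mul_cancel₀ _ (zpow_ne_zero n h.2.2.1),
    ← div_eq_mul_inv] at this

theorem dprod_un (h' : L.Ext L' w) {ε : Ω} (hε : L.Un ε) : L'.Un ε :=
  ⟨h'.1 hε.1, h'.2.1 ε hε.1 ▸ hε.2⟩

theorem dprod_mx (h' : L.Ext L' w) {ε : Ω} (hε : L.Mx ε) : L'.Mx ε :=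
  ⟨h'.1 hε.1, h'.2.1 ε hε.1 ▸ hε.2⟩

theorem dprod_gen (h : L.Dvr K ϖ) (h' : L.Ext L' w) : L'.Gen ϖ (L'.ctr w) := by
  have hA := dblowl_adj h'
  have key : ∀ r ∈ Algebra.adjoin ℂ (insert w (L.O : Set Ω)),
      ∃ α ∈ L'.O, ∃ β ∈ L'.O, L'.ctr r = α * ϖ + β * L'.ctr w := by
    intro r hr
    induction hr using Algebra.adjoin_induction with
    | mem x hx =>
      rcases hx with rfl | hx
      · exact ⟨0, zero_mem _, 1, one_mem _, by ring⟩
      · refine ⟨_, h'.1 (dprod_div h (LA.mx_ctr hx)), 0, zero_mem _, ?_⟩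
        rw [div_mul_cancel₀ _ h.2.2.1, zero_mul, add_zero, LA.ctr, LA.ctr, h'.2.1 x hx]
    | algebraMap c => exact ⟨0, zero_mem _, 0, zero_mem _, by rw [LA.ctr, L'.ev_alg]; ring⟩
    | add x y hx hy ex ey =>
      obtain ⟨α, hα, β, hβ, e⟩ := ex
      obtain ⟨α', hα', β', hβ', e'⟩ := ey
      refine ⟨α + α', add_mem hα hα', β + β', add_mem hβ hβ', ?_⟩
      rw [LA.ctr] at e e'
      rw [LA.ctr, L'.ev_add _ (hA hx) _ (hA hy), map_add]
      linear_combination e + e'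
    | mul x y hx hy ex ey =>
      obtain ⟨α, hα, β, hβ, e⟩ := ex
      obtain ⟨α', hα', β', hβ', e'⟩ := ey
      have h1 := L'.O.algebraMap_mem (L'.ev x)
      refine ⟨α * y + algebraMap ℂ Ω (L'.ev x) * α', add_mem (mul_mem hα (hA hy)) (mul_mem h1 hα'),
        β * y + algebraMap ℂ Ω (L'.ev x) * β', add_mem (mul_mem hβ (hA hy)) (mul_mem h1 hβ'), ?_⟩
      rw [LA.ctr] at e e'
      rw [LA.ctr, L'.ev_mul _ (hA hx) _ (hA hy), map_mul]
      linear_combination y * e + algebraMap ℂ Ω (L'.ev x) * e'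
  refine ⟨dprod_mx h' h.2.1, LA.mx_ctr h'.2.2.1, fun z hz => ?_⟩
  obtain ⟨r, hr, s, hs, h1, h2⟩ := h'.2.2.2 z hz.1
  obtain ⟨α, hα, β, hβ, e⟩ := key r hr
  have h3 : L'.Un s := ⟨hA hs, h1⟩
  have h4 : L'.ev r = 0 := by rw [← h2, L'.ev_mul _ hz.1 _ h3.1, hz.2, zero_mul]
  rw [LA.ctr, h4, map_zero, sub_zero] at e
  refine ⟨α * s⁻¹, mul_mem hα h3.inv.1.1, β * s⁻¹, mul_mem hβ h3.inv.1.1, ?_⟩
  have h5 := h3.ne_zero
  rw [← mul_left_inj' h5, h2, e]
  field_simp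

open Polynomial in
theorem dprod_poly (h' : L.Ext L' w) {r : Ω}
    (hr : r ∈ Algebra.adjoin ℂ (insert w (L.O : Set Ω))) :
    ∃ P : L.O[X], aeval (L'.ctr w) P = r ∧ L.evHom (P.eval 0) = L'.ev r := by
  have hA := dblowl_adj h'
  induction hr using Algebra.adjoin_induction with
  | mem x hx =>
    rcases hx with rfl | hx
    · refine ⟨X + C (algebraMap ℂ L.O (L'.ev x)), ?_, by simp⟩
      rw [map_add, aeval_X, aeval_C, LA.ctr]
      exact sub_add_cancel _ _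
    · exact ⟨C ⟨x, hx⟩, aeval_C _ _, by rw [eval_C, h'.2.1 x hx]; rfl⟩
  | algebraMap c => exact ⟨C (algebraMap ℂ L.O c), aeval_C _ _, by simp [L'.ev_alg]⟩
  | add x y hx hy ex ey =>
    obtain ⟨P, a1, a2⟩ := ex
    obtain ⟨Q, b1, b2⟩ := ey
    exact ⟨P + Q, by rw [map_add, a1, b1],
      by rw [eval_add, map_add, a2, b2, L'.ev_add _ (hA hx) _ (hA hy)]⟩
  | mul x y hx hy ex ey =>
    obtain ⟨P, a1, a2⟩ := ex
    obtain ⟨Q, b1, b2⟩ := ey
    exact ⟨P * Q, by rw [map_mul, a1, b1],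
      by rw [eval_mul, map_mul, a2, b2, L'.ev_mul _ (hA hx) _ (hA hy)]⟩

open Polynomial in
theorem dprod_qreg (h : L.Dvr K ϖ) (h' : L.Ext L' w) (hw : Transcendental K w) :
    L'.QReg ϖ (L'.ctr w) := by
  intro n c hc hs i hi
  have hA := dblowl_adj h'
  choose r hr s hs' h1 h2 using fun i => h'.2.2.2 (c i) (hc i)
  obtain ⟨S, hS⟩ : ∃ S, S = ∏ j ∈ Finset.range (n + 1), s j := ⟨_, rfl⟩
  have hSU : L'.Un S := by
    rw [hS]
    exact Finset.prod_induction _ L'.Un (fun _ _ => LA.Un.mul)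
      ⟨one_mem _, by rw [LA.ev_one]; exact one_ne_zero⟩ fun j _ => ⟨hA (hs' j), h1 j⟩
  have hm : ∀ j, ∃ P : L.O[X], j ≤ n →
      aeval (L'.ctr w) P = c j * S ∧ L.evHom (P.eval 0) = L'.ev (c j * S) := by
    intro j
    by_cases hj : j ≤ n
    · have : c j * S ∈ Algebra.adjoin ℂ (insert w (L.O : Set Ω)) := by
        rw [hS, ← Finset.mul_prod_erase _ _ (Finset.mem_range.2 (Nat.lt_succ_of_le hj)),
          ← mul_assoc, h2]
        exact mul_mem (hr j) (prod_mem fun k _ => hs' k)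
      obtain ⟨P, hP⟩ := dprod_poly h' this
      exact ⟨P, fun _ => hP⟩
    · exact ⟨0, fun h => absurd h hj⟩
  choose P hP using hm
  let π : L.O := ⟨ϖ, h.2.1.1⟩
  have hv : Transcendental K (L'.ctr w) := fun ha => hw (by
    have := ha.add (isAlgebraic_algebraMap (R := K) (A := Ω) (algebraMap ℂ K (L'.ev w)))
    rwa [← IsScalarTower.algebraMap_apply, LA.ctr, sub_add_cancel] at this)
  let f : L.O →+* K := L.O.val.toRingHom.codRestrict K fun z => h.1 z z.2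
  have hf : Function.Injective f := fun a b e =>
    Subtype.ext (congrArg (fun z : K => (z : Ω)) e)
  have e0 : ∑ j ∈ Finset.range (n + 1), P j * C π ^ j * X ^ (n - j) = 0 := by
    apply map_injective f hf
    rw [Polynomial.map_zero]
    refine (injective_iff_map_eq_zero _).1 (transcendental_iff_injective.1 hv) _ ?_
    rw [aeval_def, eval₂_map, show (algebraMap K Ω).comp f = algebraMap L.O Ω from rfl,
      ← aeval_def, map_sum, ← mul_zero S, ← hs, Finset.mul_sum]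
    refine Finset.sum_congr rfl fun j hj => ?_
    rw [map_mul, map_mul, map_pow, map_pow, aeval_C, aeval_X,
      (hP j (Nat.lt_succ_iff.1 (Finset.mem_range.1 hj))).1]
    change c j * S * ϖ ^ j * _ = _
    ring
  have e1 : C π ^ n * ∑ j ∈ Finset.range (n + 1), (P j).comp (C π * X) * X ^ (n - j) = 0 := by
    have := congrArg (fun Q => Q.comp (C π * X)) e0
    simp only [sum_comp, mul_comp, pow_comp, C_comp, X_comp, zero_comp] at this
    rw [← this, Finset.mul_sum]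
    refine Finset.sum_congr rfl fun j hj => ?_
    obtain ⟨m, rfl⟩ := Nat.exists_eq_add_of_le (Nat.lt_succ_iff.1 (Finset.mem_range.1 hj))
    rw [Nat.add_sub_cancel_left]
    ring
  have hπ : (C π : L.O[X]) ≠ 0 := C_ne_zero.2 fun e => h.2.2.1 (congrArg Subtype.val e)
  have e2 := congrArg (fun Q => (Q.map (L.evHom : L.O →+* ℂ)).coeff (n - i))
    ((mul_eq_zero.1 e1).resolve_left (pow_ne_zero n hπ))
  have hπ0 : (L.evHom : L.O →+* ℂ) π = 0 := h.2.1.2
  simp only [Polynomial.map_sum, Polynomial.map_mul, Polynomial.map_pow, map_comp, map_C, map_X,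
    hπ0, map_zero, zero_mul, comp_zero, finsetSum_coeff, coeff_C_mul, coeff_X_pow,
    Polynomial.map_zero, coeff_zero, eval_zero_map] at e2
  rw [Finset.sum_eq_single i (fun j hj hji => by
    rw [if_neg (by have := Finset.mem_range.1 hj; omega), mul_zero])
    (fun hn => absurd (Finset.mem_range.2 (by omega)) hn), if_pos rfl, mul_one] at e2
  have e3 := (hP i hi).2.symm.trans e2
  rw [L'.ev_mul _ (hc i) _ hSU.1] at e3
  exact (mul_eq_zero.1 e3).resolve_right hSU.2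

/-- fractions of elements of a subalgebra -/
def dprodFrac (O : Subalgebra ℂ Ω) : IntermediateField ℂ Ω where
  carrier := {z | ∃ r ∈ O, ∃ s ∈ O, s ≠ 0 ∧ z * s = r}
  mul_mem' := by
    rintro x y ⟨r, hr, s, hs, h1, h2⟩ ⟨r', hr', s', hs', h1', h2'⟩
    exact ⟨r * r', O.mul_mem hr hr', s * s', O.mul_mem hs hs', mul_ne_zero h1 h1',
      by rw [← h2, ← h2']; ring⟩
  add_mem' := by
    rintro x y ⟨r, hr, s, hs, h1, h2⟩ ⟨r', hr', s', hs', h1', h2'⟩
    exact ⟨r * s' + s * r', O.add_mem (O.mul_mem hr hs') (O.mul_mem hs hr'), s * s',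
      O.mul_mem hs hs', mul_ne_zero h1 h1', by rw [← h2, ← h2']; ring⟩
  algebraMap_mem' c := ⟨_, O.algebraMap_mem c, 1, O.one_mem, one_ne_zero, mul_one _⟩
  inv_mem' := by
    rintro x ⟨r, hr, s, hs, h1, h2⟩
    by_cases hx : x = 0
    · exact ⟨0, O.zero_mem, 1, O.one_mem, one_ne_zero, by simp [hx]⟩
    · exact ⟨s, hs, r, hr, h2 ▸ mul_ne_zero hx h1, by rw [← h2, inv_mul_cancel_left₀ hx]⟩

theorem dprod_frac (h : L.Dvr K ϖ) (h' : L.Ext L' w) {x : Ω} (hw : w = x ∨ w = x⁻¹) :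
    L'.Frac (K ⊔ IntermediateField.adjoin ℂ {x}) := by
  have hx : x ∈ K ⊔ IntermediateField.adjoin ℂ {x} :=
    (le_sup_right : _ ≤ K ⊔ _) (IntermediateField.mem_adjoin_simple_self ℂ x)
  have hA : Algebra.adjoin ℂ (insert w (L.O : Set Ω)) ≤
      (K ⊔ IntermediateField.adjoin ℂ {x}).toSubalgebra := by
    refine Algebra.adjoin_le (Set.insert_subset ?_ fun z hz => (le_sup_left : K ≤ _) (h.1 z hz))
    rcases hw with rfl | rfl
    · exact hx
    · exact (K ⊔ IntermediateField.adjoin ℂ {x}).inv_mem hx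
  refine ⟨fun z hz => ?_, ?_⟩
  · obtain ⟨r, hr, s, hs, h1, h2⟩ := h'.2.2.2 z hz
    rw [eq_div_of_mul_eq (LA.Un.ne_zero ⟨dblowl_adj h' hs, h1⟩) h2]
    exact div_mem (hA hr : r ∈ K ⊔ _) (hA hs : s ∈ K ⊔ _)
  have hO : ∀ z ∈ L'.O, z ∈ dprodFrac L'.O := fun z hz =>
    ⟨z, hz, 1, one_mem _, one_ne_zero, mul_one z⟩
  have : K ⊔ IntermediateField.adjoin ℂ {x} ≤ dprodFrac L'.O := by
    refine sup_le (fun z hz => ?_) (IntermediateField.adjoin_simple_le_iff.2 ?_)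
    · by_cases h0 : z = 0
      · rw [h0]; exact zero_mem _
      obtain ⟨n, hn⟩ := h.2.2.2 z hz h0
      rw [← div_mul_cancel₀ z (zpow_ne_zero n h.2.2.1)]
      exact mul_mem (hO _ (h'.1 hn.1)) (zpow_mem (hO _ (h'.1 h.2.1.1)) n)
    · rcases hw with rfl | rfl
      · exact hO _ h'.2.2.1
      · simpa using inv_mem (hO _ h'.2.2.1)
  exact fun z hz => this hz

end Dvr

end Vale.Agent.P300
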