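import Vale.Agent.P300.DResD
import Vale.Agent.P300.DProdX1

/-! P300: the sections through a point of the product of a curve with the projective line. -/

noncomputable section

namespace Vale.Agent.P300

variable {Ω : Type} [Field Ω] [Algebra ℂ Ω]

theorem dprod_map_av {R S F : Type} [CommRing R] [CommRing S] [FunLike F R S] [RingHomClass F R S]
    (f : F) (i : Fin 5) (b : R) : f (av i b) = av i (f b) := by
  fin_cases i <;> simp [av]

theorem dprod_av_ev {L : LA Ω} {b : Ω} (hb : b ∈ L.O) (i : Fin 5) :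
    av i b ∈ L.O ∧ L.ev (av i b) = av i (L.ev b) := by
  have e : ((av i (⟨b, hb⟩ : L.O) : L.O) : Ω) = av i b := dprod_map_av L.O.val i _
  refine ⟨e ▸ (av i (⟨b, hb⟩ : L.O)).2, ?_⟩
  rw [← e]
  exact dprod_map_av L.evHom i (⟨b, hb⟩ : L.O)

variable {D : Dat Ω} {K : IntermediateField ℂ Ω} {L L' : LA Ω} {ϖ : Ω}

theorem dprod_b_mem (hK : D.BaseField K) : D.b ∈ K := by
  obtain ⟨T, e, -⟩ := hK.fin
  rw [e]
  exact IntermediateField.subset_adjoin _ _ (Set.mem_insert _ _)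

theorem dprod_av_mem (hK : D.BaseField K) (i : Fin 5) : av i D.b ∈ K := by
  have e : ((av i (⟨D.b, dprod_b_mem hK⟩ : K) : K) : Ω) = av i D.b := dprod_map_av K.val i _
  exact e ▸ (av i (⟨D.b, dprod_b_mem hK⟩ : K)).2

open Polynomial in
theorem dprod_av_inj (hK : D.BaseField K) {i j : Fin 5} (h : av i D.b = av j D.b) : i = j := by
  have h1 : av i (X : ℂ[X]) = av j X := transcendental_iff_injective.1 hK.trb (by
    rw [dprod_map_av, dprod_map_av, aeval_X, h])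
  have h2 := congrArg (evalRingHom (2 : ℂ)) h1
  rw [dprod_map_av, dprod_map_av, coe_evalRingHom, eval_X] at h2
  have h3 : av i (2 : ℤ) = av j 2 := by
    apply Int.cast_injective (α := ℂ)
    have e : ∀ l, ((av l (2 : ℤ) : ℤ) : ℂ) = av l (2 : ℂ) := fun l => by
      simpa using dprod_map_av (Int.castRingHom ℂ) l 2
    rw [e, e, h2]
  revert h3
  fin_cases i <;> fin_cases j <;> simp [av]

theorem dprod_zero_mem (D : Dat Ω) : (0 : ℂ) ∈ D.S := by
  by_contra h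
  have := D.hS 0 h (a₁ := 0) (a₂ := 1) (by simp [av])
  exact absurd this (by decide)

theorem dprod_rt_ne (hK : D.BaseField K) (p : D.S) : D.rt p ≠ 0 := by
  intro h
  have := D.hrt p p.2
  rw [h, zero_pow D.hE.ne', eq_comm, sub_eq_zero] at this
  exact hK.trb (this ▸ isAlgebraic_algebraMap _)

/-- points over the bad fibres and over infinity -/
def DProdBad (D : Dat Ω) (L : LA Ω) : Prop := D.b ∉ L.O ∨ L.ev D.b ∈ D.S

theorem dprod_rt_bad (hb : DProdBad D L) : ∃ p : D.S, ¬ L.Un (D.rt p) := by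
  by_cases h : D.b ∈ L.O
  · refine ⟨⟨_, hb.resolve_left (not_not.2 h)⟩, fun hU => ?_⟩
    have h1 := LA.ev_pow hU.1 D.E
    rw [D.hrt _ (hb.resolve_left (not_not.2 h))] at h1
    exact pow_ne_zero _ hU.2 (h1.symm.trans (LA.mx_ctr h).2)
  · refine ⟨⟨0, dprod_zero_mem D⟩, fun hU => h ?_⟩
    have h1 := pow_mem hU.1 D.E
    rwa [D.hrt _ (dprod_zero_mem D), map_zero, sub_zero] at h1

theorem dprod_rt_good (hK : D.BaseField K) (h : L.Dvr K ϖ) (hb : ¬ DProdBad D L) (p : D.S) :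
    L.Un (D.rt p) := by
  rw [DProdBad, not_or, not_not] at hb
  obtain ⟨n, hn⟩ := h.2.2.2 _ (hK.rt_mem p p.2) (dprod_rt_ne hK p)
  have hU : L.Un (D.rt p ^ D.E) := by
    rw [D.hrt p p.2]
    refine ⟨sub_mem hb.1 (L.O.algebraMap_mem _), ?_⟩
    rw [LA.ev_sub hb.1 (L.O.algebraMap_mem _), L.ev_alg, sub_ne_zero]
    exact fun e => hb.2 (e ▸ p.2)
  obtain ⟨a1, a2, -, a4⟩ := dprod_sign h hn
  rcases lt_trichotomy n 0 with h0 | h0 | h0
  · exfalso
    apply hU.inv.1.2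
    rw [← inv_pow, LA.ev_pow (a4 h0).1, (a4 h0).2, zero_pow D.hE.ne']
  · exact a2.1 h0
  · exfalso
    apply hU.2
    rw [LA.ev_pow (a1.1 h0).1, (a1.1 h0).2, zero_pow D.hE.ne']

theorem dprod_unr (hK : D.BaseField K) (h : L.Dvr K ϖ) (hb : ¬ DProdBad D L) :
    L.Un (L.ctr D.b / ϖ) := by
  rw [DProdBad, not_or, not_not] at hb
  obtain ⟨V, hV, hm⟩ := L.exists_val
  have hc := LA.mx_ctr hb.1
  have hc0 : L.ctr D.b ≠ 0 := fun e => hK.trb (sub_eq_zero.1 e ▸ isAlgebraic_algebraMap _)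
  obtain ⟨m, hm'⟩ := h.2.2.2 _ (h.1 _ hc.1) hc0
  have hpos := (dprod_sign h hm').1.2 hc
  obtain ⟨n, hn⟩ := hK.unr V (fun c => hV _ (L.O.algebraMap_mem c)) _ hb.2 (hm _ hc) ϖ
    (h.1 _ h.2.1.1) h.2.2.1
  have hu : V.valuation (L.ctr D.b / ϖ ^ m) = 1 := by
    refine le_antisymm ((V.valuation_le_one_iff _).2 (hV _ hm'.1)) ?_
    have h1 := (V.valuation_le_one_iff _).2 (hV _ hm'.inv.1.1)
    rwa [map_inv₀, inv_le_one₀ (zero_lt_iff.2 ((map_ne_zero _).2 hm'.ne_zero))] at h1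
  have hϖ : 0 < V.valuation ϖ := zero_lt_iff.2 ((map_ne_zero _).2 h.2.2.1)
  rw [map_div₀, map_zpow₀, div_eq_one_iff_eq (zpow_ne_zero _ hϖ.ne')] at hu
  rw [← LA.ctr, hu, ← zpow_mul] at hn
  have h1 : (1 : ℤ) = m * n :=
    zpow_right_injective₀ hϖ (hm _ h.2.1).ne ((zpow_one _).trans hn)
  have h2 : m = 1 := Int.eq_one_of_mul_eq_one_right hpos.le h1.symm
  rwa [h2, zpow_one] at hm'

theorem dprod_rt0 (hK : D.BaseField K) (h : L.Dvr K ϖ) (hb : ¬ DProdBad D L) :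
    L.Un (L.ctr (D.rt 0) / ϖ) := by
  have hU := dprod_rt_good hK h hb ⟨0, dprod_zero_mem D⟩
  obtain ⟨q, hq, e, -⟩ := dblowl_zpow hU D.E
  rw [zpow_natCast, D.hrt _ (dprod_zero_mem D), map_zero, sub_zero] at e
  have h1 := dprod_unr hK h hb
  have h2 := dprod_div h (LA.mx_ctr hU.1)
  refine ⟨h2, fun h0 => h1.2 ?_⟩
  rw [e, mul_div_assoc, L.ev_mul _ hq _ h2, h0, mul_zero]

open Classical in
/-- the sections through the point -/
structure DProdPre (D : Dat Ω) (L L' : LA Ω) (ϖ v : Ω) (J : Finset (Option (Fin 5)))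
    (α : Option (Fin 5) → Ω) (k : Fin 5 → ℤ) : Prop where
  mx : ∀ l ∈ J, L.Mx (α l)
  ne : ∀ l ∈ J, ∀ l' ∈ J, l ≠ l' → α l ≠ α l'
  hx : ∀ i, ∃ ε, L'.Un ε ∧ D.x - av i D.b = ε * ϖ ^ k i *
    (if some i ∈ J then v - α (some i) else 1) * (if none ∈ J then (v - α none)⁻¹ else 1)
  h0 : none ∈ J → some 0 ∉ J
  hb : D.b ∈ L.O → ∀ i, k i = 0
  card : ¬ DProdBad D L → J.card ≤ 1

theorem dprod_ord (hK : D.BaseField K) (h : L.Dvr K ϖ) : ∃ k : Fin 5 → ℤ, ∀ i,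
    (av i D.b ∈ L.O → k i = 0) ∧
      (av i D.b ∉ L.O → L.Un (av i D.b / ϖ ^ k i) ∧ L.Mx (av i D.b)⁻¹ ∧ av i D.b ≠ 0) := by
  have : ∀ i, ∃ n : ℤ, (av i D.b ∈ L.O → n = 0) ∧
      (av i D.b ∉ L.O → L.Un (av i D.b / ϖ ^ n) ∧ L.Mx (av i D.b)⁻¹ ∧ av i D.b ≠ 0) := by
    intro i
    by_cases hi : av i D.b ∈ L.O
    · exact ⟨0, fun _ => rfl, fun h => absurd hi h⟩
    · have h0 : av i D.b ≠ 0 := fun e => hi (e ▸ zero_mem _)
      obtain ⟨n, hn⟩ := h.2.2.2 _ (dprod_av_mem hK i) h0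
      obtain ⟨-, -, a3, a4⟩ := dprod_sign h hn
      exact ⟨n, fun h => absurd h hi, fun _ => ⟨hn, a4 (a3.2 hi), h0⟩⟩
  exact Classical.skolem.1 this

theorem dprod_one_sub {z : Ω} (hz : L.Mx z) : L.Un (1 - z) :=
  ⟨sub_mem (one_mem _) hz.1, by
    rw [LA.ev_sub (one_mem _) hz.1, LA.ev_one, hz.2, sub_zero]; exact one_ne_zero⟩

theorem dprod_neg {z : Ω} (hz : L.Un z) : L.Un (-z) :=
  ⟨neg_mem hz.1, by rw [LA.ev_neg hz.1]; exact neg_ne_zero.2 hz.2⟩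

theorem dprod_pre_fin (hK : D.BaseField K) (h : L.Dvr K ϖ) (h' : L.Ext L' D.x) :
    ∃ J α k, DProdPre D L L' ϖ (L'.ctr D.x) J α k ∧ none ∉ J ∧
      ∀ i, some i ∈ J ↔ av i D.b ∈ L.O ∧ L.ev (av i D.b) = L'.ev D.x := by
  classical
  obtain ⟨k, hk⟩ := dprod_ord hK h
  obtain ⟨J, hn, hJ⟩ : ∃ J : Finset (Option (Fin 5)), none ∉ J ∧
      ∀ i, some i ∈ J ↔ av i D.b ∈ L.O ∧ L.ev (av i D.b) = L'.ev D.x :=
    ⟨(Finset.univ.filter fun i => av i D.b ∈ L.O ∧ L.ev (av i D.b) = L'.ev D.x).image some,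
      by simp, by simp⟩
  refine ⟨J, fun l => l.elim 0 fun i => L.ctr (av i D.b), k, ⟨?_, ?_, ?_, ?_, ?_, ?_⟩, hn, hJ⟩
  · rintro (_ | i) hl
    · exact absurd hl hn
    · exact LA.mx_ctr ((hJ i).1 hl).1
  · rintro (_ | i) hl
    · exact absurd hl hn
    rintro (_ | j) hl' hne e
    · exact absurd hl' hn
    simp only [Option.elim, LA.ctr, ((hJ i).1 hl).2, ((hJ j).1 hl').2, sub_left_inj] at e
    exact hne (congrArg some (dprod_av_inj hK e))
  · intro i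
    simp only [if_neg hn, mul_one]
    by_cases hi : av i D.b ∈ L.O
    · rw [(hk i).1 hi, zpow_zero]
      by_cases hi' : some i ∈ J
      · refine ⟨1, ⟨one_mem _, by rw [LA.ev_one]; exact one_ne_zero⟩, ?_⟩
        simp only [if_pos hi', Option.elim, LA.ctr, ((hJ i).1 hi').2]
        ring
      · refine ⟨_, ⟨sub_mem h'.2.2.1 (h'.1 hi), ?_⟩, by rw [if_neg hi', mul_one, mul_one]⟩
        rw [LA.ev_sub h'.2.2.1 (h'.1 hi), h'.2.1 _ hi, sub_ne_zero]
        exact fun e => hi' ((hJ i).2 ⟨hi, e.symm⟩)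
    · obtain ⟨a1, a2, a3⟩ := (hk i).2 hi
      refine ⟨_, (dprod_neg (dprod_un h' a1)).mul
        (dprod_one_sub (dprod_mx_mul h'.2.2.1 (dprod_mx h' a2))), ?_⟩
      rw [if_neg fun e => hi ((hJ i).1 e).1]
      have := zpow_ne_zero (k i) h.2.2.1
      field_simp
      ring
  · exact fun e => absurd e hn
  · exact fun hb i => (hk i).1 (dprod_av_ev hb i).1
  · intro hb
    rw [DProdBad, not_or, not_not] at hb
    refine Finset.card_le_one.2 ?_
    rintro (_ | i) hl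
    · exact absurd hl hn
    rintro (_ | j) hl'
    · exact absurd hl' hn
    have e := ((hJ i).1 hl).2.trans ((hJ j).1 hl').2.symm
    rw [(dprod_av_ev hb.1 i).2, (dprod_av_ev hb.1 j).2] at e
    exact congrArg some (D.hS _ hb.2 e)

theorem dprod_pre_inf (hK : D.BaseField K) (h : L.Dvr K ϖ) (h' : L.Ext L' D.x⁻¹)
    (h0 : L'.ev D.x⁻¹ = 0) : ∃ J α k, DProdPre D L L' ϖ D.x⁻¹ J α k ∧ none ∈ J := by
  classical
  obtain ⟨k, hk⟩ := dprod_ord hK h
  have hx : D.x ≠ 0 := fun e => hK.trx (e ▸ isAlgebraic_zero)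
  obtain ⟨J, hn, hJ⟩ : ∃ J : Finset (Option (Fin 5)), none ∈ J ∧
      ∀ i, some i ∈ J ↔ av i D.b ∉ L.O :=
    ⟨insert none ((Finset.univ.filter fun i => av i D.b ∉ L.O).image some), by simp, by simp⟩
  refine ⟨J, fun l => l.elim 0 fun i => (av i D.b)⁻¹, k, ⟨?_, ?_, ?_, ?_, ?_, ?_⟩, hn⟩
  · rintro (_ | i) hl
    · exact ⟨zero_mem _, LA.ev_zero⟩
    · exact ((hk i).2 ((hJ i).1 hl)).2.1
  · rintro (_ | i) hl (_ | j) hl' hne
    · exact absurd rfl hne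
    · exact (inv_ne_zero ((hk j).2 ((hJ j).1 hl')).2.2).symm
    · exact inv_ne_zero ((hk i).2 ((hJ i).1 hl)).2.2
    · exact fun e => hne (congrArg some (dprod_av_inj hK (inv_injective e)))
  · intro i
    rw [if_pos hn]
    simp only [Option.elim, sub_zero, inv_inv]
    by_cases hi : av i D.b ∈ L.O
    · refine ⟨_, dprod_one_sub (dprod_mx_mul (h'.1 hi) ⟨h'.2.2.1, h0⟩), ?_⟩
      rw [(hk i).1 hi, zpow_zero, if_neg fun e => (hJ i).1 e hi]
      field_simp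
    · obtain ⟨a1, a2, a3⟩ := (hk i).2 hi
      refine ⟨_, dprod_neg (dprod_un h' a1), ?_⟩
      rw [if_pos ((hJ i).2 hi)]
      have := zpow_ne_zero (k i) h.2.2.1
      field_simp
      ring
  · intro _ e
    exact (hJ 0).1 e (by simp [av])
  · exact fun hb i => (hk i).1 (dprod_av_ev hb i).1
  · intro hb
    rw [DProdBad, not_or, not_not] at hb
    refine Finset.card_le_one.2 ?_
    rintro (_ | i) hl
    · rintro (_ | j) hl'
      · rfl
      · exact absurd (dprod_av_ev hb.1 j).1 ((hJ j).1 hl')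
    · exact absurd (dprod_av_ev hb.1 i).1 ((hJ i).1 hl)

end Vale.Agent.P300
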