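import Vale.Agent.P300.DTau

/-! P300: regular local algebras of dimension two are factorial. -/

noncomputable section

namespace Vale.Agent.P300

section DUfdAbstract

variable {A : Type} [CommRing A] [IsLocalRing A] [IsNoetherianRing A] {u v : A}

theorem dufd_normal (hv : ¬ IsUnit v) (hg : ∀ z, ¬ IsUnit z → ∃ α β, z = α * u + β * v) (x : A) :
    u ∣ x ∨ ∃ (k : ℕ) (ε : A), IsUnit ε ∧ u ∣ x - ε * v ^ k := by
  by_contra hcon
  push Not at hcon
  obtain ⟨h1, h2⟩ := hcon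
  have key : ∀ k : ℕ, ∃ b, u ∣ x - b * v ^ k := by
    intro k
    induction k with
    | zero => exact ⟨x, by simp⟩
    | succ k ih =>
      obtain ⟨b, hb⟩ := ih
      have hbu : ¬ IsUnit b := fun hb' => h2 k b hb' hb
      obtain ⟨α, β, rfl⟩ := hg b hbu
      refine ⟨β, ?_⟩
      have : x - β * v ^ (k + 1) = (x - (α * u + β * v) * v ^ k) + u * (α * v ^ k) := by ring
      rw [this]
      exact dvd_add hb (dvd_mul_right _ _)
  have hne : Ideal.span {v} ≠ (⊤ : Ideal A) := by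
    rwa [Ne, Ideal.span_singleton_eq_top]
  have hk := Ideal.iInf_pow_smul_eq_bot_of_isLocalRing (M := A ⧸ Ideal.span {u})
    (Ideal.span {v}) hne
  have hx : Ideal.Quotient.mk (Ideal.span {u}) x ∈
      ⨅ i : ℕ, (Ideal.span {v} : Ideal A) ^ i • (⊤ : Submodule A (A ⧸ Ideal.span {u})) := by
    rw [Submodule.mem_iInf]
    intro k
    obtain ⟨b, hb⟩ := key k
    have e : Ideal.Quotient.mk (Ideal.span {u}) x = v ^ k • Ideal.Quotient.mk (Ideal.span {u}) b := by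
      rw [Algebra.smul_def, Ideal.Quotient.algebraMap_eq, ← map_mul, Ideal.Quotient.eq,
        Ideal.mem_span_singleton, mul_comm]
      exact hb
    rw [e]
    exact Submodule.smul_mem_smul
      (Ideal.pow_mem_pow (Ideal.mem_span_singleton_self v) k) Submodule.mem_top
  rw [hk, Submodule.mem_bot, Ideal.Quotient.eq_zero_iff_mem, Ideal.mem_span_singleton] at hx
  exact h1 hx

theorem dufd_prime (hu0 : u ≠ 0) (hu : ¬ IsUnit u) (hv : ¬ IsUnit v)
    (hg : ∀ z, ¬ IsUnit z → ∃ α β, z = α * u + β * v) (hn : ∀ n : ℕ, ¬ u ∣ v ^ n) : Prime u := by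
  refine ⟨hu0, hu, fun x y hxy => ?_⟩
  rcases dufd_normal hv hg x with h | ⟨k, ε, hε, h⟩
  · exact Or.inl h
  rcases dufd_normal hv hg y with h' | ⟨l, ε', hε', h'⟩
  · exact Or.inr h'
  exfalso
  apply hn (k + l)
  have e : (ε * ε') * v ^ (k + l) =
      x * y - (x - ε * v ^ k) * y - (y - ε' * v ^ l) * (ε * v ^ k) := by ring
  have : u ∣ (ε * ε') * v ^ (k + l) := by
    rw [e]
    exact dvd_sub (dvd_sub hxy (dvd_mul_of_dvd_left h _)) (dvd_mul_of_dvd_left h' _)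
  exact (hε.mul hε').dvd_mul_left.1 this

theorem dufd_principal (hu : ¬ IsUnit u) (hv : ¬ IsUnit v)
    (hg : ∀ z, ¬ IsUnit z → ∃ α β, z = α * u + β * v) (P : Ideal A) (hP : P.IsPrime)
    (huP : u ∉ P) : ∃ f, P = Ideal.span {f} := by
  classical
  have key : ∃ f ∈ P, ∀ x ∈ P, ∃ c, u ∣ x - c * f := by
    by_cases hS : ∃ k : ℕ, ∃ f ∈ P, ∃ ε : A, IsUnit ε ∧ u ∣ f - ε * v ^ k
    · obtain ⟨f, hf, ε, hε, hd⟩ := Nat.find_spec hS
      refine ⟨f, hf, fun x hx => ?_⟩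
      rcases dufd_normal hv hg x with h | ⟨l, ε', hε', h⟩
      · exact ⟨0, by simpa using h⟩
      · have hle : Nat.find hS ≤ l := Nat.find_min' hS ⟨x, hx, ε', hε', h⟩
        obtain ⟨j, rfl⟩ := Nat.exists_eq_add_of_le hle
        obtain ⟨η, hη⟩ := hε.exists_left_inv
        refine ⟨ε' * η * v ^ j, ?_⟩
        have e : x - ε' * η * v ^ j * f = (x - ε' * v ^ (Nat.find hS + j)) -
            (f - ε * v ^ Nat.find hS) * (ε' * η * v ^ j) +
            (1 - η * ε) * (ε' * v ^ (Nat.find hS + j)) := by ring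
        rw [e, hη, sub_self, zero_mul, add_zero]
        exact dvd_sub h (dvd_mul_of_dvd_left hd _)
    · refine ⟨0, P.zero_mem, fun x hx => ?_⟩
      rcases dufd_normal hv hg x with h | ⟨l, ε', hε', h⟩
      · exact ⟨0, by simpa using h⟩
      · exact absurd ⟨l, x, hx, ε', hε', h⟩ hS
  obtain ⟨f, hf, hx⟩ := key
  refine ⟨f, le_antisymm ?_ ((Ideal.span_singleton_le_iff_mem _).2 hf)⟩
  refine Submodule.le_of_le_smul_of_le_jacobson_bot (I := Ideal.span {u})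
    (IsNoetherian.noetherian P) ?_ fun x hxP => ?_
  · rw [IsLocalRing.jacobson_eq_maximalIdeal _ bot_ne_top, Ideal.span_singleton_le_iff_mem]
    exact hu
  · obtain ⟨c, y, hy⟩ := hx x hxP
    have hyP : y ∈ P := by
      have : u * y ∈ P := hy ▸ P.sub_mem hxP (P.mul_mem_left c hf)
      exact (hP.mem_or_mem this).resolve_left huP
    have e : x = c * f + u • y := by rw [smul_eq_mul, ← hy]; ring
    rw [e]
    exact Submodule.add_mem_sup (Ideal.mul_mem_left _ c (Ideal.mem_span_singleton_self f))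
      (Submodule.smul_mem_smul (Ideal.mem_span_singleton_self u) hyP)

theorem dufd_ufd [IsDomain A] (hu0 : u ≠ 0) (hu : ¬ IsUnit u) (hv : ¬ IsUnit v)
    (hg : ∀ z, ¬ IsUnit z → ∃ α β, z = α * u + β * v) (hn : ∀ n : ℕ, ¬ u ∣ v ^ n) :
    UniqueFactorizationMonoid A := by
  rw [UniqueFactorizationMonoid.iff_exists_prime_mem_of_isPrime]
  intro P hP0 hP
  by_cases huP : u ∈ P
  · exact ⟨u, huP, dufd_prime hu0 hu hv hg hn⟩
  · obtain ⟨f, rfl⟩ := dufd_principal hu hv hg P hP huP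
    have hf : f ≠ 0 := by
      rintro rfl
      exact hP0 (Ideal.span_singleton_eq_bot.2 rfl)
    exact ⟨f, Ideal.mem_span_singleton_self f, (Ideal.span_singleton_prime hf).1 hP⟩

end DUfdAbstract

namespace LA

variable {Ω : Type} [Field Ω] [Algebra ℂ Ω] {L : LA Ω} {u v : Ω}

theorem isUnit_iff {z : L.O} : IsUnit z ↔ L.ev z ≠ 0 := by
  constructor
  · intro hz
    exact (hz.map L.evHom).ne_zero
  · intro hz
    have h0 : (z : Ω) ≠ 0 := Un.ne_zero ⟨z.2, hz⟩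
    exact IsUnit.of_mul_eq_one ⟨(z : Ω)⁻¹, L.inv_mem _ z.2 hz⟩
      (Subtype.ext (mul_inv_cancel₀ h0))

theorem dufd_gen (h : L.Coord u v) (z : L.O) (hz : ¬ IsUnit z) :
    ∃ α β : L.O, z = α * ⟨u, h.1.1.1⟩ + β * ⟨v, h.1.2.1.1⟩ := by
  rw [isUnit_iff, not_not] at hz
  obtain ⟨α, hα, β, hβ, e⟩ := h.1.2.2 z ⟨z.2, hz⟩
  exact ⟨⟨α, hα⟩, ⟨β, hβ⟩, Subtype.ext e⟩

theorem dufd_not_dvd (h : L.Coord u v) (n : ℕ) :
    ¬ (⟨u, h.1.1.1⟩ : L.O) ∣ (⟨v, h.1.2.1.1⟩ : L.O) ^ n := by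
  intro hd
  obtain ⟨τ, hu, hv, -⟩ := exists_tau h
  have h1 := map_dvd τ hd
  rw [map_pow, hu, hv, MvPowerSeries.X_dvd_iff] at h1
  have h2 := h1 (Finsupp.single 1 n) (by simp)
  rw [MvPowerSeries.X_pow_eq, MvPowerSeries.coeff_monomial_same] at h2
  exact one_ne_zero h2

theorem dufd_nu (h : L.Coord u v) : ¬ IsUnit (⟨u, h.1.1.1⟩ : L.O) := by
  rw [isUnit_iff, not_not]; exact h.1.1.2

theorem dufd_nv (h : L.Coord u v) : ¬ IsUnit (⟨v, h.1.2.1.1⟩ : L.O) := by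
  rw [isUnit_iff, not_not]; exact h.1.2.1.2

theorem dufd_u0 (h : L.Coord u v) : (⟨u, h.1.1.1⟩ : L.O) ≠ 0 :=
  fun e => h.ne_zero.1 (congrArg Subtype.val e)

theorem Coord.ufd [IsNoetherianRing L.O] (h : L.Coord u v) : UniqueFactorizationMonoid L.O := by
  have := L.isLocalRing
  exact dufd_ufd (dufd_u0 h) (dufd_nu h) (dufd_nv h) (dufd_gen h) (dufd_not_dvd h)

theorem Coord.prime [IsNoetherianRing L.O] (h : L.Coord u v) : Prime (⟨u, h.1.1.1⟩ : L.O) := by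
  have := L.isLocalRing
  exact dufd_prime (dufd_u0 h) (dufd_nu h) (dufd_nv h) (dufd_gen h) (dufd_not_dvd h)

theorem Coord.div_not_mem (h : L.Coord u v) : v / u ∉ L.O := by
  intro hm
  apply dufd_not_dvd h 1
  refine ⟨⟨v / u, hm⟩, Subtype.ext ?_⟩
  have := h.ne_zero.1
  simp only [pow_one, MulMemClass.mk_mul_mk]
  field_simp

theorem dufd_mon_fst (h : L.Coord u v) {φ : Ω} {e : ℤ × ℤ}
    (hφ : L.Mon u v φ e) (hm : φ ∈ L.O) : 0 ≤ e.1 := by
  by_contra hneg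
  push Not at hneg
  obtain ⟨ε, hε, rfl⟩ := hφ
  obtain ⟨a, b⟩ := e
  simp only at hneg hm
  obtain ⟨a', rfl⟩ : ∃ a' : ℕ, a = -((a' + 1 : ℕ) : ℤ) := ⟨(-a - 1).toNat, by omega⟩
  have hu := h.ne_zero.1
  have hv := h.ne_zero.2
  have hε0 := hε.ne_zero
  apply dufd_not_dvd h b.toNat
  refine ⟨⟨_, L.O.mul_mem (L.O.mul_mem (L.O.mul_mem hm hε.inv.1.1) (L.O.pow_mem h.1.1.1 a'))
    (L.O.pow_mem h.1.2.1.1 (-b).toNat)⟩, Subtype.ext ?_⟩
  have hb : v ^ b * v ^ (-b).toNat = v ^ b.toNat := by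
    rw [← zpow_natCast, ← zpow_natCast, ← zpow_add₀ hv]
    congr 1
    omega
  simp only [SubmonoidClass.coe_pow, MulMemClass.mk_mul_mk]
  rw [← hb, zpow_neg, zpow_natCast]
  field_simp
  ring

theorem dufd_mon_swap {φ : Ω} {e : ℤ × ℤ} (hφ : L.Mon u v φ e) : L.Mon v u φ e.swap := by
  obtain ⟨ε, hε, rfl⟩ := hφ
  exact ⟨ε, hε, by simp only [Prod.fst_swap, Prod.snd_swap]; ring⟩

theorem dufd_mon_mem (h : L.Coord u v) {φ : Ω} {e : ℤ × ℤ}
    (hφ : L.Mon u v φ e) : φ ∈ L.O ↔ 0 ≤ e.1 ∧ 0 ≤ e.2 := by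
  constructor
  · intro hm
    exact ⟨dufd_mon_fst h hφ hm, dufd_mon_fst h.symm (dufd_mon_swap hφ) hm⟩
  · rintro ⟨h1, h2⟩
    obtain ⟨ε, hε, rfl⟩ := hφ
    obtain ⟨a, ha⟩ := Int.eq_ofNat_of_zero_le h1
    obtain ⟨b, hb⟩ := Int.eq_ofNat_of_zero_le h2
    rw [ha, hb, zpow_natCast, zpow_natCast]
    exact L.O.mul_mem (L.O.mul_mem hε.1 (L.O.pow_mem h.1.1.1 a)) (L.O.pow_mem h.1.2.1.1 b)

theorem dufd_mon_un (h : L.Coord u v) {φ : Ω} {e : ℤ × ℤ}
    (hφ : L.Mon u v φ e) : L.Un φ ↔ e = 0 := by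
  constructor
  · intro hU
    have h1 := (dufd_mon_mem h hφ).1 hU.1
    have hφ' : L.Mon u v φ⁻¹ (-e) := by
      obtain ⟨ε, hε, rfl⟩ := hφ
      refine ⟨ε⁻¹, hε.inv.1, ?_⟩
      simp only [Prod.fst_neg, Prod.snd_neg, zpow_neg, mul_inv]
    have h2 := (dufd_mon_mem h hφ').1 hU.inv.1.1
    simp only [Prod.fst_neg, Prod.snd_neg] at h2
    ext
    · simp only [Prod.fst_zero]; omega
    · simp only [Prod.snd_zero]; omega
  · rintro rfl
    obtain ⟨ε, hε, rfl⟩ := hφ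
    simpa using hε

theorem Coord.mon_mem [IsNoetherianRing L.O] (h : L.Coord u v) {φ : Ω} {e : ℤ × ℤ}
    (hφ : L.Mon u v φ e) : (φ ∈ L.O ↔ 0 ≤ e.1 ∧ 0 ≤ e.2) ∧ (L.Un φ ↔ e = 0) :=
  ⟨dufd_mon_mem h hφ, dufd_mon_un h hφ⟩

theorem Coord.mon_unique [IsNoetherianRing L.O] (h : L.Coord u v) {φ : Ω} {e e' : ℤ × ℤ}
    (hφ : L.Mon u v φ e) (hφ' : L.Mon u v φ e') : e = e' := by
  obtain ⟨ε, hε, he⟩ := hφ
  obtain ⟨ε', hε', he'⟩ := hφ'
  have hu := h.ne_zero.1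
  have hv := h.ne_zero.2
  have hε0 := hε'.ne_zero
  have hm : L.Mon u v ε' (e - e') := by
    refine ⟨ε, hε, ?_⟩
    simp only [Prod.fst_sub, Prod.snd_sub, zpow_sub₀ hu, zpow_sub₀ hv]
    have h1 : u ^ e'.1 ≠ 0 := zpow_ne_zero _ hu
    have h2 : v ^ e'.2 ≠ 0 := zpow_ne_zero _ hv
    have h3 := he'.symm.trans he
    field_simp
    linear_combination h3
  exact sub_eq_zero.1 ((dufd_mon_un h hm).1 hε')

theorem Coord.mem_of_integral [IsNoetherianRing L.O] (h : L.Coord u v) {M : IntermediateField ℂ Ω}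
    (hM : L.Frac M) {R : Subalgebra ℂ Ω} (hR : R ≤ L.O) {z : Ω} (hz : z ∈ M)
    (hint : IsIntegral R z) : z ∈ L.O := by
  have := h.ufd
  obtain ⟨r, hr, s, hs, hs0, hzs⟩ := hM.2 z hz
  have hint' : IsIntegral L.O z :=
    IsIntegral.map_of_comp_eq (Subalgebra.inclusion hR).toRingHom (RingHom.id Ω)
      (RingHom.ext fun _ => rfl) hint
  have hinj : Function.Injective (algebraMap L.O Ω) := Subtype.val_injective
  let f : FractionRing L.O →ₐ[L.O] Ω :=
    { IsFractionRing.lift (K := FractionRing L.O) hinj with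
      commutes' := fun x => IsFractionRing.lift_algebraMap hinj x }
  have hf : f (algebraMap L.O _ ⟨r, hr⟩ / algebraMap L.O _ ⟨s, hs⟩) = z := by
    rw [map_div₀, f.commutes, f.commutes]
    change r / s = z
    rw [← hzs]
    field_simp
  rw [← hf, isIntegral_algHom_iff f f.injective, IsIntegrallyClosed.isIntegral_iff] at hint'
  obtain ⟨y, hy⟩ := hint'
  rw [← hf, ← hy, f.commutes]
  exact y.2

/-- a valuation ring of `Ω` inducing the `p`-adic valuation -/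
theorem exists_val_prime [IsNoetherianRing L.O] (h : L.Coord u v) (p : L.O) (hp : Prime p) :
    ∃ V : ValuationSubring Ω, (∀ z ∈ L.O, z ∈ V) ∧
      ∀ z : L.O, V.valuation (z : Ω) < 1 ↔ p ∣ z := by
  have _ := h
  have hP : (Ideal.span {p}).IsPrime := (Ideal.span_singleton_prime hp.ne_zero).2 hp
  have hun : ∀ y : (Ideal.span {p}).primeCompl, IsUnit (algebraMap L.O Ω y) := by
    intro y
    refine IsUnit.mk0 _ fun h0 => y.2 ?_
    have : (y : L.O) = 0 := Subtype.ext h0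
    rw [this]
    exact Ideal.zero_mem _
  let f : Localization.AtPrime (Ideal.span {p}) →+* Ω := IsLocalization.lift hun
  obtain ⟨V, hV, hloc⟩ := IsLocalRing.exists_factor_valuationRing f
  have hf : ∀ z : L.O, f (algebraMap L.O _ z) = z := fun z => IsLocalization.lift_eq hun z
  have hmem : ∀ z : L.O, (z : Ω) ∈ V := fun z => hf z ▸ hV _
  refine ⟨V, fun z hz => hmem ⟨z, hz⟩, fun z => ?_⟩
  have e : (⟨z, hmem z⟩ : V) = f.codRestrict V.toSubring hV (algebraMap L.O _ z) :=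
    Subtype.ext (hf z).symm
  have h1 := V.valuation_lt_one_iff ⟨z, hmem z⟩
  rw [← Ideal.mem_span_singleton,
    ← IsLocalization.AtPrime.to_map_mem_maximal_iff (Localization.AtPrime (Ideal.span {p}))
      (Ideal.span {p})]
  refine h1.symm.trans ?_
  rw [IsLocalRing.mem_maximalIdeal, IsLocalRing.mem_maximalIdeal, mem_nonunits_iff,
    mem_nonunits_iff, e]
  exact not_congr (isUnit_map_iff _ _)

end LA

end Vale.Agent.P300
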