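import Vale.Agent.P300.DResD
import Vale.Agent.P300.DCurve
import Vale.Agent.P300.DUfd
import Vale.Agent.P300.DProdX2

/-! P300: the product of the base curve with the projective line. -/

noncomputable section

namespace Vale.Agent.P300

variable {Ω : Type} [Field Ω] [Algebra ℂ Ω]

section Local

variable {D : Dat Ω} {K : IntermediateField ℂ Ω} {L L' : LA Ω} {ϖ v w : Ω}
  {J : Finset (Option (Fin 5))} {α : Option (Fin 5) → Ω} {k : Fin 5 → ℤ}

theorem dprod_kp (hK : D.BaseField K) (h : L.Dvr K ϖ) :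
    ∃ kp : D.S → ℤ, ∀ p : D.S, L.Un (D.rt p / ϖ ^ kp p) :=
  Classical.skolem.1 fun p : D.S => h.2.2.2 _ (hK.rt_mem p p.2) (dprod_rt_ne hK p)

theorem dprod_res (hK : D.BaseField K) (h : L.Dvr K ϖ) (h' : L.Ext L' w) (hc : L'.Coord ϖ v)
    (hP : DProdPre D L L' ϖ v J α k) (hJ : 2 ≤ J.card) : DProdBad D L ∧ ∃ n, D.Res L' n := by
  classical
  have hb : DProdBad D L := by
    by_contra hb
    have := hP.card hb
    omega
  obtain ⟨kp, hkp⟩ := dprod_kp hK h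
  have ho : ∀ q : Option (Fin 5) × Option (Fin 5), ∃ n : ℕ, q ∈ J.offDiag →
      L'.Un ((α q.1 - α q.2) / ϖ ^ n) := by
    intro q
    by_cases hq : q ∈ J.offDiag
    · obtain ⟨a1, a2, a3⟩ := Finset.mem_offDiag.1 hq
      have hm := sub_mem (hP.mx _ a1).1 (hP.mx _ a2).1
      obtain ⟨n, hn⟩ := h.2.2.2 _ (h.1 _ hm) (sub_ne_zero.2 (hP.ne _ a1 _ a2 a3))
      have h0 : 0 ≤ n := not_lt.1 fun e => (dprod_sign h hn).2.2.1.1 e hm
      obtain ⟨m, rfl⟩ := Int.eq_ofNat_of_zero_le h0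
      exact ⟨m, fun _ => dprod_un h' (by rwa [zpow_natCast] at hn)⟩
    · exact ⟨0, fun e => absurd e hq⟩
  choose o ho using ho
  refine ⟨hb, _, ϖ, v, L.O, J, α, Sum.elim kp k, o, hc, h'.1, h.2.1.1, fun z hz e => ?_,
    fun l hl => ⟨(hP.mx l hl).1, (dprod_mx h' (hP.mx l hl)).2⟩, ho, le_rfl, fun p => ?_, hP.hx,
    ?_, hJ, hP.h0⟩
  · exact dprod_div h ⟨hz, h'.2.1 z hz ▸ e⟩
  · exact ⟨_, dprod_un h' (hkp p), (div_mul_cancel₀ _ (zpow_ne_zero _ h.2.2.1)).symm⟩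
  · obtain ⟨p, hp⟩ := dprod_rt_bad hb
    exact ⟨p, fun e => hp ((dprod_sign h (hkp p)).2.1.1 e)⟩

theorem dprod_coord_unit [IsNoetherianRing L'.O] {u z : Ω} (hc : L'.Coord u ϖ)
    (hz : L'.Un (z / ϖ)) : L'.Coord u z := by
  have e : z = z / ϖ * ϖ := (div_mul_cancel₀ _ hc.ne_zero.2).symm
  refine hc.change (LA.gen_of_mod_sq hc.1 hc.1.1 (e ▸ dprod_mx_mul hz.1 hc.1.2.1) (one_mem _)
    (zero_mem _) (zero_mem _) hz.1 (by ring) (by rw [zero_mul, zero_add, ← e]) ?_)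
  rw [LA.ev_one, LA.ev_zero, zero_mul, sub_zero, one_mul]
  exact hz.2

open Classical in
theorem dprod_mono (D : Dat Ω) (ψ : D.Ix) : D.mono (Pi.single ψ 1) = D.phi ψ := by
  rw [Dat.mono, Fintype.prod_eq_single ψ fun χ hχ => by rw [Pi.single_eq_of_ne hχ, zpow_zero],
    Pi.single_eq_same, zpow_one]

theorem dprod_single [IsNoetherianRing L'.O] (hK : D.BaseField K) (h : L.Dvr K ϖ)
    (h' : L.Ext L' w) (hc : L'.Coord ϖ v) {l : Option (Fin 5)}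
    (hP : DProdPre D L L' ϖ v {l} α k) : (∃ u v e, D.InvAt L' u v e) ∧ ¬ D.IsU L' := by
  classical
  have hα := hP.mx l (Finset.mem_singleton_self l)
  have hc' : L'.Coord ϖ (v - α l) := by
    have hd := h'.1 (dprod_div h hα)
    refine hc.change (LA.gen_of_mod_sq hc.1 hc.1.1
      ⟨sub_mem hc.1.2.1.1 (h'.1 hα.1), ?_⟩ (one_mem _) (zero_mem _) (neg_mem hd) (one_mem _)
      (by ring) (by rw [neg_mul, div_mul_cancel₀ _ h.2.2.1]; ring) ?_)
    · rw [LA.ev_sub hc.1.2.1.1 (h'.1 hα.1), hc.1.2.1.2, (dprod_mx h' hα).2, sub_zero]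
    · rw [LA.ev_one, LA.ev_zero, zero_mul, sub_zero, one_mul]
      exact one_ne_zero
  obtain ⟨δ, ⟨i₀, hi₀⟩, hδ⟩ : ∃ δ : Fin 5 → ℤ, (∃ i, δ i ≠ 0) ∧
      ∀ i, L'.Mon ϖ (v - α l) (D.x - av i D.b) (k i, δ i) := by
    rcases l with _ | j
    · refine ⟨fun _ => -1, ⟨0, by decide⟩, fun i => ?_⟩
      obtain ⟨ε, hε, e⟩ := hP.hx i
      exact ⟨ε, hε, by simpa using e⟩
    · refine ⟨fun i => if i = j then 1 else 0, ⟨j, by simp⟩, fun i => ?_⟩
      obtain ⟨ε, hε, e⟩ := hP.hx i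
      refine ⟨ε, hε, ?_⟩
      by_cases hij : i = j
      · subst hij
        simpa using e
      · simpa [hij] using e
  refine ⟨?_, fun hU => hi₀ (congrArg Prod.snd ((hc'.mon_mem (hδ i₀)).2.1 (hU (Sum.inr i₀))))⟩
  by_cases hb : DProdBad D L
  · obtain ⟨kp, hkp⟩ := dprod_kp hK h
    obtain ⟨p, hp⟩ := dprod_rt_bad hb
    have hp' : kp p ≠ 0 := fun e => hp ((dprod_sign h (hkp p)).2.1.1 e)
    refine ⟨ϖ, v - α l, Sum.elim (fun p => (kp p, 0)) fun i => (k i, δ i), hc', ?_,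
      Or.inr (Or.inr ⟨Sum.inl p, Sum.inr i₀, by simpa using ⟨hp', hi₀⟩⟩)⟩
    rintro (q | i)
    · refine ⟨_, dprod_un h' (hkp q), ?_⟩
      simp only [Sum.elim_inl, zpow_zero, mul_one]
      exact (div_mul_cancel₀ _ (zpow_ne_zero _ h.2.2.1)).symm
    · exact hδ i
  · have hbO : D.b ∈ L.O := not_not.1 fun e => hb (Or.inl e)
    have hU := dprod_rt_good hK h hb ⟨0, dprod_zero_mem D⟩
    refine ⟨v - α l, ϖ, Sum.elim (fun _ => (0, 0)) fun i => (δ i, 0), hc'.symm, ?_,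
      Or.inr (Or.inl ⟨by rintro (q | i) <;> rfl, ⟨Sum.inr i₀, hi₀⟩,
        Pi.single (Sum.inl ⟨0, dprod_zero_mem D⟩) 1, ?_, ?_⟩)⟩
    · rintro (q | i)
      · exact ⟨_, dprod_un h' (dprod_rt_good hK h hb q), by simp [Dat.phi]⟩
      · have := LA.dufd_mon_swap (hδ i)
        rwa [hP.hb hbO i] at this
    · rw [dprod_mono]
      exact dprod_un h' hU
    · rw [dprod_mono]
      refine dprod_coord_unit hc'.symm ?_
      have := dprod_un h' (dprod_rt0 hK h hb)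
      rwa [LA.ctr, ← h'.2.1 _ hU.1, ← LA.ctr] at this

theorem dprod_AK_le (D : Dat Ω) (K : IntermediateField ℂ Ω) :
    D.AK K ≤ D.RM (K ⊔ IntermediateField.adjoin ℂ {D.x}) := by
  intro z hz
  have hle : Algebra.adjoin ℂ {D.b} ≤ Algebra.adjoin ℂ {D.b, D.x} :=
    Algebra.adjoin_mono (Set.singleton_subset_iff.2 (Set.mem_insert _ _))
  exact ⟨IsIntegral.map_of_comp_eq (Subalgebra.inclusion hle).toRingHom (RingHom.id Ω)
    (RingHom.ext fun _ => rfl) hz.1, (le_sup_left : K ≤ _) hz.2⟩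

theorem dprod_empty [IsNoetherianRing L'.O] (hK : D.BaseField K) (h : L.Dvr K ϖ)
    (hl : D.b ∈ L.O → L.LocOf (D.AK K)) (h' : L.Ext L' D.x) (hc : L'.Coord ϖ (L'.ctr D.x))
    (hP : DProdPre D L L' ϖ (L'.ctr D.x) ∅ α k) (hx : L'.ev D.x ≠ 0) :
    D.GoodPt (K ⊔ IntermediateField.adjoin ℂ {D.x}) L' := by
  classical
  have hF := dprod_frac h h' (Or.inl rfl)
  have hm : ∀ i, L'.Mon ϖ (L'.ctr D.x) (D.x - av i D.b) (k i, 0) := fun i => by
    obtain ⟨ε, hε, e⟩ := hP.hx i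
    exact ⟨ε, hε, by simpa using e⟩
  refine ⟨hF, ?_⟩
  by_cases hb : DProdBad D L
  · obtain ⟨kp, hkp⟩ := dprod_kp hK h
    obtain ⟨p, hp⟩ := dprod_rt_bad hb
    have hp' : kp p ≠ 0 := fun e => hp ((dprod_sign h (hkp p)).2.1.1 e)
    have hr : ∀ q : D.S, L'.Mon ϖ (L'.ctr D.x) (D.rt q) (kp q, 0) := fun q => by
      refine ⟨_, dprod_un h' (hkp q), ?_⟩
      simp only [zpow_zero, mul_one]
      exact (div_mul_cancel₀ _ (zpow_ne_zero _ h.2.2.1)).symm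
    have e0 : D.phi (Sum.inr 0) = D.x := by simp [Dat.phi, av]
    refine ⟨⟨ϖ, _, Sum.elim (fun p => (kp p, 0)) fun i => (k i, 0), hc, ?_,
      Or.inr (Or.inl ⟨by rintro (q | i) <;> rfl, ⟨Sum.inl p, hp'⟩,
        Pi.single (Sum.inr 0) 1, ?_, ?_⟩)⟩, fun hU => ?_⟩
    · rintro (q | i)
      · exact hr q
      · exact hm i
    · rw [dprod_mono, e0]
      exact ⟨h'.2.2.1, hx⟩
    · rw [dprod_mono, e0]
      exact hc
    · exact absurd (congrArg Prod.fst ((hc.mon_mem (hr p)).2.1 (hU (Sum.inl p)))) hp'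
  · have hbO : D.b ∈ L.O := not_not.1 fun e => hb (Or.inl e)
    refine ⟨⟨ϖ, _, fun _ => 0, hc, ?_, Or.inl ⟨fun _ => rfl, ?_⟩⟩, fun _ => ?_⟩
    · rintro (q | i)
      · exact ⟨_, dprod_un h' (dprod_rt_good hK h hb q), by simp [Dat.phi]⟩
      · have := hm i
        rwa [hP.hb hbO i] at this
    · refine (dprod_coord_unit hc.symm ?_).symm
      have := dprod_un h' (dprod_unr hK h hb)
      rwa [LA.ctr, ← h'.2.1 _ hbO, ← LA.ctr] at this
    · have hbx : Algebra.adjoin ℂ {D.b, D.x} ≤ L'.O :=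
        Algebra.adjoin_le (Set.insert_subset (h'.1 hbO) (Set.singleton_subset_iff.2 h'.2.2.1))
      have hR : D.RM (K ⊔ IntermediateField.adjoin ℂ {D.x}) ≤ L'.O := fun z hz =>
        hc.mem_of_integral hF hbx hz.2 hz.1
      refine dprod_loc ⟨dblowl_adj h', h'.2.2.2⟩ hR (Algebra.adjoin_le ?_)
      rintro z (rfl | hz)
      · refine dprod_le_loc hR ⟨?_, hF.1 _ h'.2.2.1⟩
        exact isIntegral_algebraMap (x := (⟨D.x, Algebra.subset_adjoin (by simp)⟩ :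
          Algebra.adjoin ℂ {D.b, D.x}))
      · obtain ⟨r, hr, s, hs, a1, a2⟩ := (hl hbO).2 z hz
        exact ⟨r, dprod_AK_le D K hr, s, dprod_AK_le D K hs,
          by rwa [h'.2.1 s ((hl hbO).1 hs)], a2⟩

theorem dprod_local [IsNoetherianRing L'.O] (hK : D.BaseField K) (h : L.Dvr K ϖ)
    (hl : D.b ∈ L.O → L.LocOf (D.AK K))
    (h' : L.Ext L' D.x ∨ (L.Ext L' D.x⁻¹ ∧ L'.ev D.x⁻¹ = 0)) :
    L'.Frac (K ⊔ IntermediateField.adjoin ℂ {D.x}) ∧
      (D.GoodPt (K ⊔ IntermediateField.adjoin ℂ {D.x}) L' ∨ (DProdBad D L ∧ (∃ n, D.Res L' n) ∧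
        ((∃ i, L.Ext L' D.x ∧ L'.ev D.x = L.ev (av i D.b)) ∨
          (L.Ext L' D.x⁻¹ ∧ L'.ev D.x⁻¹ = 0)))) := by
  rcases h' with h' | ⟨h', h0⟩
  · have hF := dprod_frac h h' (Or.inl rfl)
    have hc : L'.Coord ϖ (L'.ctr D.x) := ⟨dprod_gen h h', dprod_qreg h h' hK.trx⟩
    obtain ⟨J, α, k, hP, hn, hJ⟩ := dprod_pre_fin hK h h'
    refine ⟨hF, ?_⟩
    rcases Nat.lt_or_ge J.card 2 with h2 | h2
    · rcases (Finset.card_le_one_iff_subset_singleton.1 (Nat.lt_succ_iff.1 h2)) with ⟨l, hl'⟩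
      rcases Finset.subset_singleton_iff.1 hl' with rfl | rfl
      · refine Or.inl (dprod_empty hK h hl h' hc hP fun e => ?_)
        exact Finset.notMem_empty _ ((hJ 0).2 (by simp [av, e, LA.ev_zero]))
      · obtain ⟨a1, a2⟩ := dprod_single hK h h' hc hP
        exact Or.inl ⟨hF, a1, fun e => absurd e a2⟩
    · obtain ⟨a1, a2⟩ := dprod_res hK h h' hc hP h2
      obtain ⟨l, hl'⟩ := Finset.card_pos.1 (by omega : 0 < J.card)
      rcases l with _ | i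
      · exact absurd hl' hn
      · exact Or.inr ⟨a1, a2, Or.inl ⟨i, h', ((hJ i).1 hl').2.symm⟩⟩
  · have hF := dprod_frac h h' (Or.inr rfl)
    have hc : L'.Coord ϖ D.x⁻¹ := by
      have : L'.Coord ϖ (L'.ctr D.x⁻¹) := ⟨dprod_gen h h', dprod_qreg h h' fun ha =>
        hK.trx (IsAlgebraic.inv_iff.1 ha)⟩
      rwa [LA.ctr, h0, map_zero, sub_zero] at this
    obtain ⟨J, α, k, hP, hn⟩ := dprod_pre_inf hK h h' h0
    refine ⟨hF, ?_⟩
    rcases Nat.lt_or_ge J.card 2 with h2 | h2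
    · rcases (Finset.card_le_one_iff_subset_singleton.1 (Nat.lt_succ_iff.1 h2)) with ⟨l, hl'⟩
      rcases Finset.subset_singleton_iff.1 hl' with rfl | rfl
      · exact absurd hn (Finset.notMem_empty _)
      · obtain ⟨a1, a2⟩ := dprod_single hK h h' hc hP
        exact Or.inl ⟨hF, a1, fun e => absurd e a2⟩
    · obtain ⟨a1, a2⟩ := dprod_res hK h h' hc hP h2
      exact Or.inr ⟨a1, a2, Or.inr ⟨h', h0⟩⟩

end Local

theorem Dat.exists_prod (D : Dat Ω) (K : IntermediateField ℂ Ω) (hK : D.BaseField K) :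
    ∃ (ι : Type) (_ : Fintype ι) (t : ι → Ω), (∃ i, t i ≠ 0) ∧
      (∀ y : Zt t, (la t y).Frac (K ⊔ IntermediateField.adjoin ℂ {D.x}) ∧
        (D.GoodPt (K ⊔ IntermediateField.adjoin ℂ {D.x}) (la t y) ∨ ∃ n, D.Res (la t y) n)) ∧
      {y : Zt t | ¬ D.GoodPt (K ⊔ IntermediateField.adjoin ℂ {D.x}) (la t y)}.Finite := by
  obtain ⟨ι, _, t, ⟨i₀, hi₀⟩, hy, hf, hf'⟩ := D.exists_curve K hK
  have key : ∀ y' : Zt (dprodT t D.x), ∃ y : Zt t,
      (la _ y').Frac (K ⊔ IntermediateField.adjoin ℂ {D.x}) ∧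
      (D.GoodPt (K ⊔ IntermediateField.adjoin ℂ {D.x}) (la _ y') ∨ (DProdBad D (la t y) ∧
        (∃ n, D.Res (la _ y') n) ∧
        ((∃ i, (la t y).Ext (la _ y') D.x ∧ (la _ y').ev D.x = (la t y).ev (av i D.b)) ∨
          ((la t y).Ext (la _ y') D.x⁻¹ ∧ (la _ y').ev D.x⁻¹ = 0)))) := by
    intro y'
    obtain ⟨y, h'⟩ := dprod_segre t D.x y'
    obtain ⟨⟨ϖ, h⟩, hl⟩ := hy y
    have := la_noeth _ y'
    exact ⟨y, dprod_local hK h hl h'⟩
  refine ⟨ι × Bool, inferInstance, dprodT t D.x, ⟨(i₀, false), by simpa [dprodT] using hi₀⟩,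
    fun y' => ?_, ?_⟩
  · obtain ⟨y, a1, a2⟩ := key y'
    exact ⟨a1, a2.imp_right fun a => a.2.1⟩
  have hB : {y : Zt t | DProdBad D (la t y)}.Finite := by
    refine (hf'.union (D.S.finite_toSet.biUnion fun c _ => hf c)).subset fun y hb => ?_
    by_cases h : D.b ∈ (la t y).O
    · exact Or.inr (Set.mem_biUnion (hb.resolve_left (not_not.2 h)) ⟨h, rfl⟩)
    · exact Or.inl h
  have hS : ∀ (y : Zt t) (w : Ω) (c : ℂ),
      {y' : Zt (dprodT t D.x) | (la t y).Ext (la _ y') w ∧ (la _ y').ev w = c}.Finite :=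
    fun y w c => Set.Subsingleton.finite fun a ha b hb =>
      la_inj (ha.1.unique hb.1 (ha.2.trans hb.2.symm))
  refine (hB.biUnion fun y _ => (Set.finite_iUnion fun i : Fin 5 =>
    hS y D.x ((la t y).ev (av i D.b))).union (hS y D.x⁻¹ 0)).subset fun y' hy' => ?_
  obtain ⟨y, -, a⟩ := key y'
  obtain ⟨a1, -, a2⟩ := a.resolve_left hy'
  exact Set.mem_biUnion a1 (a2.imp_left fun ⟨i, hi⟩ => Set.mem_iUnion.2 ⟨i, hi⟩)

end Vale.Agent.P300
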