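import Vale.Agent.P300.DBasic

/-! P300: points where several sections meet. -/

noncomputable section

namespace Vale.Agent.P300

variable {Ω : Type} [Field Ω] [Algebra ℂ Ω]

open Classical in
/-- at least two of the six sections (the index `none` is the section at infinity) pass through the
point; they are graphs `v = α l` over a discrete valuation ring with uniformiser `u`, and the sum
of the contact orders is at most `n` -/
def Dat.Res (D : Dat Ω) (L : LA Ω) (n : ℕ) : Prop :=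
  ∃ (u v : Ω) (B : Subalgebra ℂ Ω) (J : Finset (Option (Fin 5))) (α : Option (Fin 5) → Ω)
    (k : D.Ix → ℤ) (o : Option (Fin 5) × Option (Fin 5) → ℕ),
    L.Coord u v ∧ B ≤ L.O ∧ u ∈ B ∧ (∀ z ∈ B, L.ev z = 0 → z / u ∈ B) ∧
    (∀ l ∈ J, α l ∈ B ∧ L.ev (α l) = 0) ∧
    (∀ q ∈ J.offDiag, L.Un ((α q.1 - α q.2) / u ^ o q)) ∧ ∑ q ∈ J.offDiag, o q ≤ n ∧
    (∀ p : D.S, ∃ ε, L.Un ε ∧ D.rt p = ε * u ^ k (Sum.inl p)) ∧
    (∀ i, ∃ ε, L.Un ε ∧ D.x - av i D.b = ε * u ^ k (Sum.inr i) *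
      (if some i ∈ J then v - α (some i) else 1) * (if none ∈ J then (v - α none)⁻¹ else 1)) ∧
    (∃ p : D.S, k (Sum.inl p) ≠ 0) ∧ 2 ≤ J.card ∧ (none ∈ J → some 0 ∉ J)

end Vale.Agent.P300
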