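import Vale.Agent.P300.DResLX1

/-! P300: effect of one blow-up on a point where sections meet. -/

noncomputable section

namespace Vale.Agent.P300

variable {Ω : Type} [Field Ω] [Algebra ℂ Ω]

/-- a monomial unit whose centred version is a coordinate, at a general point of the new curve -/
theorem dres_typ2 (D : Dat Ω) {L L' : LA Ω} [IsNoetherianRing L'.O] {u v : Ω} (huv : L.Coord u v)
    (h : L.Ext L' (v / u)) (h0 : ∀ φ, D.phi φ ≠ 0) {p : D.S} {a m : ℤ} (ha : a ≠ 0)
    {ε ε' β : Ω} (hε : L.Un ε) (hp : D.rt p = ε * u ^ a) (hε' : L.Un ε') (hβ : β ∈ L.O)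
    (hu : L'.Un (v / u - β)) (hM : dresM D (ε' * u ^ m * (v / u - β))) :
    ∃ k, L'.Un (D.mono k) ∧ L'.Coord u (L'.ctr (D.mono k)) := by
  obtain ⟨k, hk⟩ := (hM.zpow a).mul h0 ((dresM_phi D (Sum.inl p)).zpow (-m))
  have hu0 := huv.ne_zero.1
  have e : D.mono k = ε' ^ a * ε ^ (-m) * (v / u - β) ^ a := by
    have e1 : D.phi (Sum.inl p) = ε * u ^ a := hp
    have e2 : (u ^ m) ^ a * (u ^ a) ^ (-m) = 1 := by
      rw [← zpow_mul, ← zpow_mul, ← zpow_add₀ hu0, mul_neg, mul_comm a m, add_neg_cancel, zpow_zero]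
    rw [hk, e1, mul_zpow, mul_zpow, mul_zpow]
    linear_combination (ε' ^ a * ε ^ (-m) * (v / u - β) ^ a) * e2
  have h1 := (dresLg_ext huv h ((hε'.zpow a).1.mul (hε.zpow (-m)).1) (L'.ctr (v / u))).mul
    ((dresLg_sub huv h hβ hu).zpow a)
  rw [← e] at h1
  refine ⟨k, h1.1, h1.coord ?_ (huv.blow h)⟩
  rw [zero_add]
  exact mul_ne_zero (Int.cast_ne_zero.2 ha) (inv_ne_zero hu.2)

theorem Dat.res_blow (D : Dat Ω) {L : LA Ω} [IsNoetherianRing L.O] {n : ℕ} (h : D.Res L n) :
    0 < n ∧ ∃ u v, L.Coord u v ∧ ∃ C : Finset ℂ, C.card ≤ 6 ∧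
      (∀ L' : LA Ω, IsNoetherianRing L'.O → L.Ext L' (v / u) →
        (¬ D.IsU L' ∧ ∃ u' v' e, D.InvAt L' u' v' e) ∨ (L'.ev (v / u) ∈ C ∧ D.Res L' (n - 1))) ∧
      ∀ L' : LA Ω, IsNoetherianRing L'.O → L.Ext L' (u / v) → L'.ev (u / v) = 0 →
        ¬ D.IsU L' ∧ ∃ u' v' e, D.InvAt L' u' v' e := by
  classical
  obtain ⟨u, v, B, J, α, k, o, huv, hB, huB, hdiv, hα, ho, hsum, hrt, hx0, ⟨p, hp⟩, hJ, hJ0⟩ := h
  have hx : ∀ i, ∃ ε, L.Un ε ∧ D.x - av i D.b =
      ε * u ^ k (Sum.inr i) * dresG J (fun l => v - α l) i := by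
    intro i
    obtain ⟨ε, hε, e⟩ := hx0 i
    exact ⟨ε, hε, by rw [e, mul_assoc]; rfl⟩
  have hu0 := huv.ne_zero.1
  have hv0 := huv.ne_zero.2
  have hJne : J.Nonempty := Finset.card_pos.1 (by omega)
  have hβ : ∀ l ∈ J, α l / u ∈ B := fun l hl => hdiv _ (hα l hl).1 (hα l hl).2
  have ho1 : ∀ q ∈ J.offDiag, 1 ≤ o q := by
    intro q hq
    by_contra hc
    have h0 : o q = 0 := by omega
    have h1 := (ho q hq).2
    obtain ⟨q1, q2, -⟩ := Finset.mem_offDiag.1 hq
    rw [h0, pow_zero, div_one, LA.ev_sub (hB (hα _ q1).1) (hB (hα _ q2).1), (hα _ q1).2,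
      (hα _ q2).2, sub_self] at h1
    exact h1 rfl
  have hoff : ∀ J1 : Finset (Option (Fin 5)), 2 ≤ J1.card → J1.offDiag.Nonempty := by
    intro J1 h1
    obtain ⟨a, ha, b, hb, hab⟩ := Finset.one_lt_card.1 (show 1 < J1.card by omega)
    exact ⟨(a, b), Finset.mem_offDiag.2 ⟨ha, hb, hab⟩⟩
  refine ⟨?_, u, v, huv, J.image fun l => L.ev (α l / u), ?_, fun L' hN hE => ?_,
    fun L' hN hE h0 => ?_⟩
  · obtain ⟨q, hq⟩ := hoff J hJ
    have h1 := Finset.single_le_sum (f := o) (fun _ _ => Nat.zero_le _) hq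
    have h2 := ho1 q hq
    omega
  · refine Finset.card_image_le.trans ((Finset.card_le_univ J).trans ?_)
    simp
  · have hc' := huv.blow hE
    obtain ⟨c, hc⟩ : ∃ c, c = L'.ev (v / u) := ⟨_, rfl⟩
    obtain ⟨J1, hJ1⟩ : ∃ J1, J1 = J.filter fun l => L.ev (α l / u) = c := ⟨_, rfl⟩
    have hsub : J1 ⊆ J := hJ1 ▸ Finset.filter_subset _ _
    have hmem : ∀ l ∈ J, l ∈ J1 ↔ L.ev (α l / u) = c := by
      intro l hl
      rw [hJ1, Finset.mem_filter]
      exact ⟨fun h => h.2, fun h => ⟨hl, h⟩⟩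
    have hun : ∀ l ∈ J, l ∉ J1 → L'.Un (v / u - α l / u) := by
      intro l hl hl1
      refine ⟨L'.O.sub_mem hE.2.2.1 (hE.1 (hB (hβ l hl))), ?_⟩
      rw [LA.ev_sub hE.2.2.1 (hE.1 (hB (hβ l hl))), hE.2.1 _ (hB (hβ l hl)), ← hc]
      exact sub_ne_zero.2 fun e => hl1 ((hmem l hl).2 e.symm)
    have hfac : ∀ l ∈ J, v - α l = u * (v / u - α l / u) := by
      intro l _
      field_simp
    have hx1 : ∀ i, ∃ ε, L'.Un ε ∧ D.x - av i D.b =
        ε * u ^ (k (Sum.inr i) + dresd J i) * dresG J1 (fun l => v / u - α l / u) i := by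
      intro i
      obtain ⟨ε, hε, e⟩ := hx i
      obtain ⟨ε', hε', e'⟩ := dresG_split hsub hun i
      refine ⟨ε * ε', (dres_un_ext hE hε).mul hε', ?_⟩
      rw [e, dresG_mul hu0 hfac, e', zpow_add₀ hu0]
      ring
    have hrt1 : ∀ p : D.S, ∃ ε, L'.Un ε ∧ D.rt p = ε * u ^ k (Sum.inl p) := by
      intro p
      obtain ⟨ε, hε, e⟩ := hrt p
      exact ⟨ε, dres_un_ext hE hε, e⟩
    have hα1 : ∀ l ∈ J1, α l / u - algebraMap ℂ Ω c ∈ B ∧
        L.ev (α l / u - algebraMap ℂ Ω c) = 0 := by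
      intro l hl
      refine ⟨B.sub_mem (hβ l (hsub hl)) (B.algebraMap_mem c), ?_⟩
      rw [LA.ev_sub (hB (hβ l (hsub hl))) (L.O.algebraMap_mem c), L.ev_alg,
        (hmem l (hsub hl)).1 hl, sub_self]
    have hg : ∀ l, L'.ctr (v / u) - (α l / u - algebraMap ℂ Ω c) = v / u - α l / u := by
      intro l
      unfold LA.ctr
      rw [← hc]
      ring
    by_cases h2 : 2 ≤ J1.card
    · right
      have hoffsub : J1.offDiag ⊆ J.offDiag := Finset.offDiag_mono hsub
      refine ⟨?_, u, L'.ctr (v / u), B, J1, fun l => α l / u - algebraMap ℂ Ω c,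
        Sum.elim (fun p => k (Sum.inl p)) (fun i => k (Sum.inr i) + dresd J i), fun q => o q - 1,
        hc', hB.trans hE.1, huB, fun z hz hz0 => hdiv z hz (by rw [← hE.2.1 z (hB hz)]; exact hz0),
        fun l hl => ⟨(hα1 l hl).1, by rw [hE.2.1 _ (hB (hα1 l hl).1)]; exact (hα1 l hl).2⟩,
        fun q hq => ?_, ?_, hrt1, fun i => ?_, ⟨p, hp⟩, h2, fun h3 h4 => hJ0 (hsub h3) (hsub h4)⟩
      · obtain ⟨l, hl⟩ : J1.Nonempty := Finset.card_pos.1 (by omega)
        rw [← hc]
        exact Finset.mem_image.2 ⟨l, hsub hl, (hmem l (hsub hl)).1 hl⟩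
      · have h3 := dres_un_ext hE (ho q (hoffsub hq))
        obtain ⟨m, hm⟩ : ∃ m, o q = m + 1 := ⟨o q - 1, by have := ho1 q (hoffsub hq); omega⟩
        have e : (α q.1 / u - algebraMap ℂ Ω c - (α q.2 / u - algebraMap ℂ Ω c)) / u ^ (o q - 1) =
            (α q.1 - α q.2) / u ^ o q := by
          rw [hm, Nat.add_sub_cancel, pow_succ]
          field_simp
          ring
        show L'.Un ((α q.1 / u - algebraMap ℂ Ω c - (α q.2 / u - algebraMap ℂ Ω c)) /
          u ^ (o q - 1))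
        rw [e]
        exact h3
      · have h3 : ∑ q ∈ J1.offDiag, (o q - 1) < ∑ q ∈ J1.offDiag, o q :=
          Finset.sum_lt_sum_of_nonempty (hoff J1 h2) fun q hq => by
            have := ho1 q (hoffsub hq)
            omega
        have h4 : ∑ q ∈ J1.offDiag, o q ≤ ∑ q ∈ J.offDiag, o q :=
          Finset.sum_le_sum_of_subset hoffsub
        show ∑ q ∈ J1.offDiag, (o q - 1) ≤ n - 1
        omega
      · obtain ⟨ε, hε, e⟩ := hx1 i
        refine ⟨ε, hε, ?_⟩
        simp only [hg]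
        rw [e, mul_assoc _ (if some i ∈ J1 then _ else _)]
        rfl
    · left
      have key : ∀ v', L'.Coord u v' → (∀ l ∈ J1, v / u - α l / u = v') →
          ∀ φ, L'.Mon u v' (D.phi φ) (Sum.elim (fun p => (k (Sum.inl p), (0 : ℤ)))
            (fun i => (k (Sum.inr i) + dresd J i, dresd J1 i)) φ) := by
        intro v' hv' hl φ
        cases φ with
        | inl p =>
          obtain ⟨ε, hε, e⟩ := hrt1 p
          exact ⟨ε, hε, e.trans (by simp)⟩
        | inr i =>
          obtain ⟨ε, hε, e⟩ := hx1 i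
          rw [dresG_const hv'.ne_zero.2 hl] at e
          exact ⟨ε, hε, e⟩
      rcases J1.eq_empty_or_nonempty with h3 | ⟨l0, hl0⟩
      · have hm := key _ hc' (by simp [h3])
        have h0 : ∀ φ, D.phi φ ≠ 0 := by
          intro φ
          obtain ⟨ε, hε, e⟩ := hm φ
          rw [e]
          exact mul_ne_zero (mul_ne_zero hε.ne_zero (zpow_ne_zero _ hu0))
            (zpow_ne_zero _ hc'.ne_zero.2)
        refine ⟨dres_not_isU D hc' hm (φ := Sum.inl p) hp, _, _, _, hc', hm,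
          Or.inr (Or.inl ⟨?_, ⟨Sum.inl p, hp⟩, ?_⟩)⟩
        · rintro (q | i)
          · rfl
          · show dresd J1 i = 0
            rw [h3, dresd_empty]
        · obtain ⟨i, hi⟩ : ∃ i, some i ∈ J := by
            obtain ⟨a, ha, b, hb, hab⟩ := Finset.one_lt_card.1 (show 1 < J.card by omega)
            cases a with
            | some i => exact ⟨i, ha⟩
            | none =>
              cases b with
              | some i => exact ⟨i, hb⟩
              | none => exact absurd rfl hab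
          obtain ⟨εp, hεp, ep⟩ := hrt p
          obtain ⟨ε, hε, e⟩ := hx i
          have hui := hun _ hi (by simp [h3])
          by_cases hn : none ∈ J
          · obtain ⟨ε0, hε0, e0⟩ := hx 0
            have hvn : v - α none ≠ 0 := by
              rw [hfac _ hn]
              exact mul_ne_zero hu0 (hun _ hn (by simp [h3])).ne_zero
            refine dres_typ2 D huv hE h0 hp hεp ep (hε.mul hε0.inv.1) (hB (hβ _ hi)) hui
              (m := k (Sum.inr i) - k (Sum.inr 0) + 1) ?_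
            have h5 := (dresM_phi D (Sum.inr i)).mul h0 ((dresM_phi D (Sum.inr 0)).zpow (-1))
            have e5 : D.phi (Sum.inr i) * D.phi (Sum.inr 0) ^ (-1 : ℤ) = ε * ε0⁻¹ *
                u ^ (k (Sum.inr i) - k (Sum.inr 0) + 1) * (v / u - α (some i) / u) := by
              show (D.x - av i D.b) * (D.x - av 0 D.b) ^ (-1 : ℤ) = _
              rw [e, e0]
              unfold dresG
              rw [if_pos hi, if_pos hn, if_neg (hJ0 hn), zpow_add₀ hu0, zpow_sub₀ hu0, zpow_neg,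
                zpow_one, zpow_one]
              have := hε0.ne_zero
              have := zpow_ne_zero (k (Sum.inr 0)) hu0
              field_simp
            rw [← e5]
            exact h5
          · refine dres_typ2 D huv hE h0 hp hεp ep hε (hB (hβ _ hi)) hui
              (m := k (Sum.inr i) + 1) ?_
            have e5 : D.phi (Sum.inr i) =
                ε * u ^ (k (Sum.inr i) + 1) * (v / u - α (some i) / u) := by
              show D.x - av i D.b = _
              rw [e]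
              unfold dresG
              rw [if_pos hi, if_neg hn, zpow_add₀ hu0, zpow_one]
              field_simp
            rw [← e5]
            exact dresM_phi D _
      · have hone : ∀ l ∈ J1, l = l0 := fun l hl =>
          Finset.card_le_one.1 (show J1.card ≤ 1 by omega) l hl l0 hl0
        have hγ := hdiv _ (hα1 l0 hl0).1 (hα1 l0 hl0).2
        have hmx : L'.Mx (v / u - α l0 / u) := by
          refine ⟨L'.O.sub_mem hE.2.2.1 (hE.1 (hB (hβ _ (hsub hl0)))), ?_⟩
          rw [LA.ev_sub hE.2.2.1 (hE.1 (hB (hβ _ (hsub hl0)))), hE.2.1 _ (hB (hβ _ (hsub hl0))),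
            ← hc, (hmem _ (hsub hl0)).1 hl0, sub_self]
        have hc2 : L'.Coord u (v / u - α l0 / u) := by
          refine hc'.change (LA.gen_of_mod_sq hc'.1 hc'.1.1 hmx L'.O.one_mem L'.O.zero_mem
            (L'.O.neg_mem (hE.1 (hB hγ))) L'.O.one_mem (by ring) ?_ ?_)
          · rw [← hg l0]
            field_simp
            ring
          · rw [LA.ev_one, LA.ev_zero]
            simp
        have hm := key _ hc2 fun l hl => by rw [hone l hl]
        obtain ⟨i, hi⟩ := dresd_ne ⟨l0, hl0⟩ fun h3 h4 => hJ0 (hsub h3) (hsub h4)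
        refine ⟨dres_not_isU D hc2 hm (φ := Sum.inl p) hp, _, _, _, hc2, hm,
          Or.inr (Or.inr ⟨Sum.inl p, Sum.inr i, ?_⟩)⟩
        show k (Sum.inl p) * dresd J1 i - 0 * _ ≠ 0
        rw [zero_mul, sub_zero]
        exact mul_ne_zero hp hi
  · have hc' := huv.symm.blow hE
    have e0 : L'.ctr (u / v) = u / v := by
      unfold LA.ctr
      rw [h0, map_zero, sub_zero]
    rw [e0] at hc'
    have hfac : ∀ l ∈ J, v - α l = v * (1 - α l / u * (u / v)) := by
      intro l _
      field_simp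
    have hun : ∀ l ∈ J, l ∉ (∅ : Finset (Option (Fin 5))) → L'.Un (1 - α l / u * (u / v)) := by
      intro l hl _
      have h1 := hE.1 (hB (hβ l hl))
      refine ⟨L'.O.sub_mem L'.O.one_mem (L'.O.mul_mem h1 hE.2.2.1), ?_⟩
      rw [LA.ev_sub L'.O.one_mem (L'.O.mul_mem h1 hE.2.2.1), L'.ev_mul _ h1 _ hE.2.2.1, h0,
        LA.ev_one]
      simp
    have hpow : ∀ m : ℤ, u ^ m = v ^ m * (u / v) ^ m := by
      intro m
      rw [← mul_zpow, mul_div_cancel₀ _ hv0]
    have hm : ∀ φ, L'.Mon v (u / v) (D.phi φ)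
        (Sum.elim (fun p => (k (Sum.inl p), k (Sum.inl p)))
          (fun i => (k (Sum.inr i) + dresd J i, k (Sum.inr i))) φ) := by
      rintro (q | i)
      · obtain ⟨ε, hε, e⟩ := hrt q
        refine ⟨ε, dres_un_ext hE hε, e.trans ?_⟩
        rw [hpow, ← mul_assoc]
        rfl
      · obtain ⟨ε, hε, e⟩ := hx i
        obtain ⟨ε', hε', e'⟩ := dresG_split (Finset.empty_subset J) hun i
        refine ⟨ε * ε', (dres_un_ext hE hε).mul hε', e.trans ?_⟩
        rw [dresG_mul hv0 hfac, e', dresG_const (J := ∅) one_ne_zero (by simp), hpow]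
        simp only [Sum.elim_inr, zpow_add₀ hv0, one_zpow]
        ring
    obtain ⟨i, hi⟩ := dresd_ne hJne hJ0
    refine ⟨dres_not_isU D hc' hm (φ := Sum.inl p) hp, _, _, _, hc', hm,
      Or.inr (Or.inr ⟨Sum.inl p, Sum.inr i, ?_⟩)⟩
    show k (Sum.inl p) * k (Sum.inr i) - k (Sum.inl p) * (k (Sum.inr i) + dresd J i) ≠ 0
    have h3 := mul_ne_zero hp hi
    intro h4
    apply h3
    linear_combination -h4

end Vale.Agent.P300
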