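import Vale.Agent.P300.DResD
import Vale.Agent.P300.DBlowL

/-! P300: auxiliary lemmas for the blow-up of a meeting point of sections. -/

noncomputable section

namespace Vale.Agent.P300

variable {Ω : Type} [Field Ω] [Algebra ℂ Ω]

/-- the factor of `x - a i` coming from the sections through the point -/
def dresG (J : Finset (Option (Fin 5))) (g : Option (Fin 5) → Ω) (i : Fin 5) : Ω :=
  (if some i ∈ J then g (some i) else 1) * (if none ∈ J then (g none)⁻¹ else 1)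

/-- its order of vanishing -/
def dresd (J : Finset (Option (Fin 5))) (i : Fin 5) : ℤ :=
  (if some i ∈ J then 1 else 0) - (if none ∈ J then 1 else 0)

omit [Algebra ℂ Ω] in
theorem dresG_mul {J : Finset (Option (Fin 5))} {g g' : Option (Fin 5) → Ω} {s : Ω} (hs : s ≠ 0)
    (h : ∀ l ∈ J, g l = s * g' l) (i : Fin 5) : dresG J g i = s ^ dresd J i * dresG J g' i := by
  unfold dresG dresd
  by_cases h1 : some i ∈ J <;> by_cases h2 : none ∈ J
  · simp only [if_pos h1, if_pos h2, h _ h1, h _ h2, sub_self, zpow_zero, one_mul, mul_inv]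
    field_simp
  · simp only [if_pos h1, if_neg h2, h _ h1, sub_zero, zpow_one, mul_one]
  · simp only [if_neg h1, if_pos h2, h _ h2, zero_sub, zpow_neg, zpow_one, one_mul, mul_inv]
  · simp only [if_neg h1, if_neg h2, sub_self, zpow_zero, one_mul]

omit [Algebra ℂ Ω] in
theorem dresG_const {J : Finset (Option (Fin 5))} {g : Option (Fin 5) → Ω} {s : Ω} (hs : s ≠ 0)
    (h : ∀ l ∈ J, g l = s) (i : Fin 5) : dresG J g i = s ^ dresd J i := by
  rw [dresG_mul (g' := fun _ => 1) hs (fun l hl => by rw [h l hl, mul_one])]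
  unfold dresG
  simp

theorem dres_un_one (L : LA Ω) : L.Un 1 := ⟨L.O.one_mem, by rw [LA.ev_one]; exact one_ne_zero⟩

theorem dresG_split {L : LA Ω} {J J1 : Finset (Option (Fin 5))} {g : Option (Fin 5) → Ω}
    (hJ : J1 ⊆ J) (h : ∀ l ∈ J, l ∉ J1 → L.Un (g l)) (i : Fin 5) :
    ∃ ε, L.Un ε ∧ dresG J g i = ε * dresG J1 g i := by
  have a1 : ∃ ε, L.Un ε ∧ (if some i ∈ J then g (some i) else 1) =
      ε * (if some i ∈ J1 then g (some i) else 1) := by
    by_cases h1 : some i ∈ J1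
    · exact ⟨1, dres_un_one L, by rw [if_pos h1, if_pos (hJ h1), one_mul]⟩
    · by_cases h2 : some i ∈ J
      · exact ⟨_, h _ h2 h1, by rw [if_neg h1, if_pos h2, mul_one]⟩
      · exact ⟨1, dres_un_one L, by rw [if_neg h1, if_neg h2, mul_one]⟩
  have a2 : ∃ ε, L.Un ε ∧ (if none ∈ J then (g none)⁻¹ else 1) =
      ε * (if none ∈ J1 then (g none)⁻¹ else 1) := by
    by_cases h1 : none ∈ J1
    · exact ⟨1, dres_un_one L, by rw [if_pos h1, if_pos (hJ h1), one_mul]⟩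
    · by_cases h2 : none ∈ J
      · exact ⟨_, (h _ h2 h1).inv.1, by rw [if_neg h1, if_pos h2, mul_one]⟩
      · exact ⟨1, dres_un_one L, by rw [if_neg h1, if_neg h2, mul_one]⟩
  obtain ⟨ε, hε, e⟩ := a1
  obtain ⟨ε', hε', e'⟩ := a2
  refine ⟨ε * ε', hε.mul hε', ?_⟩
  unfold dresG
  rw [e, e']
  ring

theorem dresd_ne {J : Finset (Option (Fin 5))} (hJ : J.Nonempty) (h : none ∈ J → some 0 ∉ J) :
    ∃ i, dresd J i ≠ 0 := by
  by_cases h1 : none ∈ J
  · refine ⟨0, ?_⟩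
    unfold dresd
    rw [if_pos h1, if_neg (h h1)]
    decide
  · obtain ⟨l, hl⟩ := hJ
    cases l with
    | none => exact absurd hl h1
    | some i =>
      refine ⟨i, ?_⟩
      unfold dresd
      rw [if_pos hl, if_neg h1]
      decide

theorem dresd_empty (i : Fin 5) : dresd ∅ i = 0 := by
  unfold dresd
  simp

/-- `z` is a unit with logarithmic derivative `c` in the direction of `v` -/
def dresLg (L : LA Ω) (u v z : Ω) (c : ℂ) : Prop :=
  L.Un z ∧ ∃ A ∈ L.O, ∃ B ∈ L.O, L.ctr z = A * u + B * v ∧ L.ev B = c * L.ev z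

theorem dresLg.mul {L : LA Ω} {u v z z' : Ω} {c c' : ℂ} (h : dresLg L u v z c)
    (h' : dresLg L u v z' c') : dresLg L u v (z * z') (c + c') := by
  obtain ⟨hz, A, hA, B, hB, e, eB⟩ := h
  obtain ⟨hz', A', hA', B', hB', e', eB'⟩ := h'
  have hm := L.O.algebraMap_mem (L.ev z')
  refine ⟨hz.mul hz', z * A' + algebraMap ℂ Ω (L.ev z') * A,
    L.O.add_mem (L.O.mul_mem hz.1 hA') (L.O.mul_mem hm hA), z * B' + algebraMap ℂ Ω (L.ev z') * B,
    L.O.add_mem (L.O.mul_mem hz.1 hB') (L.O.mul_mem hm hB), ?_, ?_⟩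
  · unfold LA.ctr at e e' ⊢
    rw [L.ev_mul _ hz.1 _ hz'.1, map_mul]
    linear_combination z * e' + algebraMap ℂ Ω (L.ev z') * e
  · rw [L.ev_add _ (L.O.mul_mem hz.1 hB') _ (L.O.mul_mem hm hB), L.ev_mul _ hz.1 _ hB',
      L.ev_mul _ hm _ hB, L.ev_alg, L.ev_mul _ hz.1 _ hz'.1, eB, eB']
    ring

theorem dresLg.inv {L : LA Ω} {u v z : Ω} {c : ℂ} (h : dresLg L u v z c) :
    dresLg L u v z⁻¹ (-c) := by
  obtain ⟨hz, A, hA, B, hB, e, eB⟩ := h
  have hm := L.O.algebraMap_mem (-(L.ev z)⁻¹)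
  have hi := hz.inv
  have hm' := L.O.mul_mem hm hi.1.1
  refine ⟨hi.1, algebraMap ℂ Ω (-(L.ev z)⁻¹) * z⁻¹ * A, L.O.mul_mem hm' hA,
    algebraMap ℂ Ω (-(L.ev z)⁻¹) * z⁻¹ * B, L.O.mul_mem hm' hB, ?_, ?_⟩
  · unfold LA.ctr at e ⊢
    have h1 : z * z⁻¹ = 1 := mul_inv_cancel₀ hz.ne_zero
    have h2 : algebraMap ℂ Ω (L.ev z) * algebraMap ℂ Ω (L.ev z)⁻¹ = 1 := by
      rw [← map_mul, mul_inv_cancel₀ hz.2, map_one]
    rw [hi.2, map_neg]
    linear_combination (-algebraMap ℂ Ω (L.ev z)⁻¹ * z⁻¹) * e + algebraMap ℂ Ω (L.ev z)⁻¹ * h1 -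
      z⁻¹ * h2
  · rw [L.ev_mul _ hm' _ hB, L.ev_mul _ hm _ hi.1.1, L.ev_alg, hi.2, eB]
    have := hz.2
    field_simp

theorem dresLg_one (L : LA Ω) (u v : Ω) : dresLg L u v 1 0 :=
  ⟨dres_un_one L, 0, L.O.zero_mem, 0, L.O.zero_mem, by
    unfold LA.ctr
    rw [LA.ev_one, map_one]
    ring, by rw [LA.ev_zero, zero_mul]⟩

theorem dresLg.zpow {L : LA Ω} {u v z : Ω} {c : ℂ} (h : dresLg L u v z c) (a : ℤ) :
    dresLg L u v (z ^ a) (a * c) := by
  have hn : ∀ m : ℕ, dresLg L u v (z ^ m) (m * c) := by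
    intro m
    induction m with
    | zero => simpa using dresLg_one L u v
    | succ m ih =>
      have := ih.mul h
      rw [pow_succ, Nat.cast_succ, add_mul, one_mul]
      exact this
  obtain ⟨m, rfl | rfl⟩ := a.eq_nat_or_neg
  · rw [zpow_natCast, Int.cast_natCast]
    exact hn m
  · rw [zpow_neg, zpow_natCast, Int.cast_neg, Int.cast_natCast, neg_mul]
    exact (hn m).inv

theorem dresLg.coord {L : LA Ω} [IsNoetherianRing L.O] {u v z : Ω} {c : ℂ} (h : dresLg L u v z c)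
    (hc : c ≠ 0) (huv : L.Coord u v) : L.Coord u (L.ctr z) := by
  obtain ⟨hz, A, hA, B, hB, e, eB⟩ := h
  refine huv.change (LA.gen_of_mod_sq huv.1 huv.1.1 (LA.mx_ctr hz.1) L.O.one_mem L.O.zero_mem hA hB
    (by ring) e ?_)
  rw [LA.ev_one, LA.ev_zero, eB, one_mul, zero_mul, sub_zero]
  exact mul_ne_zero hc hz.2

theorem dres_un_ext {L L' : LA Ω} {w z : Ω} (h : L.Ext L' w) (hz : L.Un z) : L'.Un z :=
  ⟨h.1 hz.1, by rw [h.2.1 z hz.1]; exact hz.2⟩

/-- elements of the small ring are constant modulo `u` -/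
theorem dres_ctr_ext {L L' : LA Ω} {u v z : Ω} (huv : L.Coord u v) (h : L.Ext L' (v / u))
    (hz : z ∈ L.O) : ∃ A ∈ L'.O, L'.ctr z = A * u := by
  obtain ⟨a, ha, b, hb, e⟩ := huv.1.2.2 _ (LA.mx_ctr hz)
  refine ⟨a + b * (v / u), L'.O.add_mem (h.1 ha) (L'.O.mul_mem (h.1 hb) h.2.2.1), ?_⟩
  unfold LA.ctr at e ⊢
  rw [h.2.1 z hz, e]
  have := huv.ne_zero.1
  field_simp

theorem dresLg_ext {L L' : LA Ω} {u v z : Ω} (huv : L.Coord u v) (h : L.Ext L' (v / u))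
    (hz : L.Un z) (v' : Ω) : dresLg L' u v' z 0 := by
  obtain ⟨A, hA, e⟩ := dres_ctr_ext huv h hz.1
  exact ⟨dres_un_ext h hz, A, hA, 0, L'.O.zero_mem, by rw [e]; ring, by rw [LA.ev_zero, zero_mul]⟩

theorem dresLg_sub {L L' : LA Ω} {u v z : Ω} (huv : L.Coord u v) (h : L.Ext L' (v / u))
    (hz : z ∈ L.O) (hu : L'.Un (v / u - z)) :
    dresLg L' u (L'.ctr (v / u)) (v / u - z) (L'.ev (v / u - z))⁻¹ := by
  obtain ⟨A, hA, e⟩ := dres_ctr_ext huv h hz
  refine ⟨hu, -A, L'.O.neg_mem hA, 1, L'.O.one_mem, ?_, ?_⟩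
  · unfold LA.ctr at e ⊢
    rw [LA.ev_sub h.2.2.1 (h.1 hz), map_sub]
    linear_combination -e
  · rw [LA.ev_one, inv_mul_cancel₀ hu.2]

/-- monomials in the boundary functions -/
def dresM (D : Dat Ω) (z : Ω) : Prop := ∃ k, D.mono k = z

theorem dresM_phi (D : Dat Ω) (φ : D.Ix) : dresM D (D.phi φ) := by
  classical
  refine ⟨Pi.single φ 1, ?_⟩
  unfold Dat.mono
  rw [Finset.prod_eq_single φ]
  · simp
  · intro ψ _ hψ
    rw [Pi.single_eq_of_ne hψ, zpow_zero]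
  · intro h
    exact absurd (Finset.mem_univ _) h

theorem dresM.mul {D : Dat Ω} (h0 : ∀ φ, D.phi φ ≠ 0) {z z' : Ω} (h : dresM D z)
    (h' : dresM D z') : dresM D (z * z') := by
  obtain ⟨k, rfl⟩ := h
  obtain ⟨k', rfl⟩ := h'
  refine ⟨k + k', ?_⟩
  unfold Dat.mono
  rw [← Finset.prod_mul_distrib]
  exact Finset.prod_congr rfl fun φ _ => zpow_add₀ (h0 φ) _ _

theorem dresM.zpow {D : Dat Ω} {z : Ω} (h : dresM D z) (a : ℤ) : dresM D (z ^ a) := by
  obtain ⟨k, rfl⟩ := h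
  refine ⟨fun φ => k φ * a, ?_⟩
  unfold Dat.mono
  rw [← Finset.prod_zpow]
  exact Finset.prod_congr rfl fun φ _ => zpow_mul _ _ _

theorem dres_not_isU (D : Dat Ω) {L : LA Ω} [IsNoetherianRing L.O] {u v : Ω} {e : D.Ix → ℤ × ℤ}
    (hc : L.Coord u v) (hm : ∀ φ, L.Mon u v (D.phi φ) (e φ)) {φ : D.Ix} (hφ : (e φ).1 ≠ 0) :
    ¬ D.IsU L := fun hU => hφ (by rw [(hc.mon_mem (hm φ)).2.1 (hU φ)]; rfl)

end Vale.Agent.P300
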