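import Vale.Agent.P300.DDefs

/-! P300: descent of a Galois extension to a finitely generated subfield. -/

noncomputable section

namespace Vale.Agent.P300

variable {Ω : Type} [Field Ω] [Algebra ℂ Ω]

theorem ds_mem_fix {Γ : Type} [Group Γ] {act : Γ →* (Ω ≃ₐ[ℂ] Ω)} {H : Subgroup Γ} {z : Ω} :
    z ∈ fixIF act H ↔ ∀ γ ∈ H, act γ z = z := Iff.rfl

/-- `w` is a square root generator for the pair `H' ≤ H` -/
def dsW {Γ : Type} [Group Γ] (act : Γ →* (Ω ≃ₐ[ℂ] Ω)) (H H' : Subgroup Γ) (w : Ω) : Prop :=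
  ∃ a ∈ H, (∀ b ∈ H, Xor (b * a ∈ H') (b ∈ H')) ∧ act a w = -w ∧ w ∈ fixIF act H'

section step

variable {Γ : Type} [Group Γ] {act : Γ →* (Ω ≃ₐ[ℂ] Ω)} {H H' : Subgroup Γ} {a : Γ}

theorem ds_notMem (h : ∀ b ∈ H, Xor (b * a ∈ H') (b ∈ H')) : a ∉ H' := fun ha => by
  rcases h 1 (one_mem _) with h1 | h1
  · exact h1.2 (one_mem _)
  · exact h1.2 (by simpa using ha)

theorem ds_mul_mem (h : ∀ b ∈ H, Xor (b * a ∈ H') (b ∈ H')) {b : Γ} (hb : b ∈ H) (hb' : b ∉ H') :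
    b * a ∈ H' := by
  rcases h b hb with h1 | h1
  exacts [h1.1, (hb' h1.1).elim]

theorem ds_act_fix (hle : H' ≤ H) (ha : a ∈ H) (h : ∀ b ∈ H, Xor (b * a ∈ H') (b ∈ H')) {y : Ω}
    (hy : y ∈ fixIF act H') : act a y ∈ fixIF act H' ∧ act a (act a y) = y := by
  refine ⟨fun g hg => ?_, ?_⟩
  · have h1 := hy _ (ds_mul_mem h (mul_mem (inv_mem ha) (hle hg)) fun h2 =>
      ds_notMem h (inv_mem_iff.1 ((H'.mul_mem_cancel_right hg).1 h2)))
    conv_rhs => rw [← h1]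
    rw [← AlgEquiv.mul_apply, ← AlgEquiv.mul_apply, ← map_mul, ← map_mul, mul_assoc,
      mul_inv_cancel_left]
  · rw [← AlgEquiv.mul_apply, ← map_mul]
    exact hy _ (ds_mul_mem h ha (ds_notMem h))

theorem ds_fix_of (h : ∀ b ∈ H, Xor (b * a ∈ H') (b ∈ H')) {y : Ω} (hy : y ∈ fixIF act H')
    (ha : act a y = y) : y ∈ fixIF act H := fun b hb => by
  by_cases hb' : b ∈ H'
  · exact hy b hb'
  · have := hy _ (ds_mul_mem h hb hb')
    rwa [map_mul, AlgEquiv.mul_apply, ha] at this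

theorem ds_step (hle : H' ≤ H) {w : Ω} (h0 : w ≠ 0) (hw : dsW act H H' w)
    {L : IntermediateField ℂ Ω} (hL : ∀ γ z, act γ z ∈ L ↔ z ∈ L) (hwL : w ∈ L) :
    w ∉ L ⊓ fixIF act H ∧ w ^ 2 ∈ L ⊓ fixIF act H ∧
      L ⊓ fixIF act H' = (L ⊓ fixIF act H) ⊔ IntermediateField.adjoin ℂ {w} := by
  obtain ⟨a, ha, h, h1, h2⟩ := hw
  have : CharZero Ω := charZero_of_injective_algebraMap (algebraMap ℂ Ω).injective
  refine ⟨fun h3 => h0 ?_, ⟨pow_mem hwL 2, ds_fix_of h (pow_mem h2 2) ?_⟩, le_antisymm ?_ ?_⟩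
  · have := h3.2 a ha
    rw [h1] at this
    exact CharZero.neg_eq_self_iff.1 this
  · rw [map_pow, h1, neg_sq]
  · rintro y ⟨hy, hy'⟩
    obtain ⟨h4, h5⟩ := ds_act_fix hle ha h hy'
    have h6 := (hL a y).2 hy
    have e : y = (y + act a y) / 2 + w * ((y - act a y) / (2 * w)) := by field_simp; ring
    have m2 : ∀ K : IntermediateField ℂ Ω, (2 : Ω) ∈ K := fun K => ofNat_mem K 2
    rw [e]
    refine add_mem (le_sup_left (a := L ⊓ fixIF act H) ⟨div_mem (add_mem hy h6) (m2 _),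
      ds_fix_of h (div_mem (add_mem hy' h4) (m2 _)) ?_⟩) (mul_mem (le_sup_right
        (a := L ⊓ fixIF act H) (IntermediateField.mem_adjoin_simple_self ℂ w))
      (le_sup_left (a := L ⊓ fixIF act H) ⟨div_mem (sub_mem hy h6) (mul_mem (m2 _) hwL),
        ds_fix_of h (div_mem (sub_mem hy' h4) (mul_mem (m2 _) h2)) ?_⟩))
    · rw [map_div₀, map_add, h5, map_ofNat, add_comm]
    · rw [map_div₀, map_sub, h5, map_mul, map_ofNat, h1, mul_neg, div_neg, ← neg_div, neg_sub]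
  · exact sup_le (inf_le_inf_left _ fun y hy g hg => hy g (hle hg))
      (IntermediateField.adjoin_simple_le_iff.2 ⟨hwL, h2⟩)

end step

variable {F : Type} [Field F] [Algebra ℂ F] [Algebra F Ω] [IsScalarTower ℂ F Ω]
  [FiniteDimensional F Ω] [IsGalois F Ω]

omit [IsGalois F Ω] in
theorem ds_exists_w (H H' : Subgroup (Ω ≃ₐ[F] Ω)) : ∃ w : Ω, w ≠ 0 ∧
    (H' ≤ H → H'.relIndex H = 2 → dsW (AlgEquiv.restrictScalarsHom ℂ) H H' w) := by
  by_cases h : H' ≤ H ∧ H'.relIndex H = 2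
  · obtain ⟨a, ha, h1⟩ := Subgroup.relIndex_eq_two_iff.1 h.2
    obtain ⟨z, hz, h2⟩ : ∃ z ∈ IntermediateField.fixedField H', a z ≠ z := by
      by_contra hc
      push Not at hc
      refine ds_notMem h1 ?_
      rw [← IntermediateField.fixingSubgroup_fixedField H']
      exact (IntermediateField.mem_fixingSubgroup_iff _ _).2 hc
    have hz' : z ∈ fixIF (AlgEquiv.restrictScalarsHom ℂ) H' := fun g hg =>
      (IntermediateField.mem_fixedField_iff H' z).1 hz g hg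
    obtain ⟨h3, h4⟩ := ds_act_fix h.1 ha h1 hz'
    exact ⟨z - a z, sub_ne_zero.2 h2.symm, fun _ _ => ⟨a, ha, h1, by
      rw [map_sub, neg_sub]; exact congrArg (fun u => a z - u) h4, sub_mem hz' h3⟩⟩
  · exact ⟨1, one_ne_zero, fun h1 h2 => (h ⟨h1, h2⟩).elim⟩

theorem ds_spread (Θ : Set Ω) (hΘ : Θ.Finite) : ∃ (B C : Set Ω), C.Finite ∧
    C ⊆ Set.range (algebraMap F Ω) ∧ ∀ M : IntermediateField ℂ Ω, C ⊆ M →
      (M : Set Ω) ⊆ Set.range (algebraMap F Ω) →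
      (∀ z ∈ Θ, z ∈ M ⊔ IntermediateField.adjoin ℂ B) ∧
      (∀ (γ : Ω ≃ₐ[F] Ω) z, γ z ∈ M ⊔ IntermediateField.adjoin ℂ B ↔
        z ∈ M ⊔ IntermediateField.adjoin ℂ B) ∧
      (M ⊔ IntermediateField.adjoin ℂ B) ⊓
        fixIF (AlgEquiv.restrictScalarsHom ℂ : (Ω ≃ₐ[F] Ω) →* _) ⊤ = M ∧
      ∀ γ : Ω ≃ₐ[F] Ω, (∀ z ∈ M ⊔ IntermediateField.adjoin ℂ B, γ z = z) → γ = 1 := by
  let β := Module.finBasis F Ω
  let Θ' : Set Ω := (Θ ∪ {1}) ∪ (Set.range (fun p : _ × _ => β p.1 * β p.2) ∪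
    Set.range fun p : (Ω ≃ₐ[F] Ω) × _ => p.1 (β p.2))
  have hΘ' : Θ'.Finite := (hΘ.union (Set.finite_singleton _)).union
    ((Set.finite_range _).union (Set.finite_range _))
  refine ⟨Set.range β, Set.image2 (fun θ l => algebraMap F Ω (β.repr θ l)) Θ' Set.univ ∪
    Set.range fun l => algebraMap F Ω (Algebra.trace F Ω (β l)),
    (hΘ'.image2 _ Set.finite_univ).union (Set.finite_range _), ?_, fun M hC hM => ?_⟩
  · rintro _ (⟨_, _, _, _, rfl⟩ | ⟨_, rfl⟩) <;> exact ⟨_, rfl⟩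
  set L := M ⊔ IntermediateField.adjoin ℂ (Set.range β) with hL
  let S := Submodule.span M (Set.range β)
  have hS : ∀ θ ∈ Θ', θ ∈ S := fun θ hθ => by
    rw [← β.sum_repr θ]
    refine sum_mem fun l _ => ?_
    rw [Algebra.smul_def]
    exact S.smul_mem (⟨_, hC (Or.inl ⟨θ, hθ, l, trivial, rfl⟩)⟩ : M)
      (Submodule.subset_span ⟨l, rfl⟩)
  have hmul : S * S ≤ S := by
    rw [Submodule.span_mul_span, Submodule.span_le]
    rintro _ ⟨_, ⟨i, rfl⟩, _, ⟨j, rfl⟩, rfl⟩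
    exact hS _ (Or.inr (Or.inl ⟨(i, j), rfl⟩))
  let A : Subalgebra M Ω := S.toSubalgebra (hS 1 (Or.inl (Or.inr rfl)))
    fun _ _ h h' => hmul (Submodule.mul_mem_mul h h')
  have hA : (IntermediateField.adjoin M (Set.range β)).toSubalgebra ≤ A := by
    rw [IntermediateField.adjoin_toSubalgebra_of_isAlgebraic fun z hz =>
      (IsIntegral.of_mem_of_fg A (Submodule.fg_span (Set.finite_range β)) z
        (Submodule.subset_span hz)).isAlgebraic]
    exact Algebra.adjoin_le Submodule.subset_span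
  have hLS : ∀ z, z ∈ L ↔ z ∈ S := fun z => by
    rw [hL, ← IntermediateField.restrictScalars_adjoin_eq_sup]
    exact ⟨fun h => hA h, fun h => (Submodule.span_le (p := (IntermediateField.adjoin M
      (Set.range β)).toSubalgebra.toSubmodule)).2 (IntermediateField.subset_adjoin _ _) h⟩
  have hfix : ∀ (γ : Ω ≃ₐ[F] Ω) (m : M), γ m = m := fun γ m => by
    obtain ⟨c, hc⟩ := hM m.2
    rw [← hc, AlgEquiv.commutes]
  have hst : ∀ (γ : Ω ≃ₐ[F] Ω), ∀ z ∈ S, γ z ∈ S := fun γ z hz => by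
    induction hz using Submodule.span_induction with
    | mem _ h =>
      obtain ⟨l, rfl⟩ := h
      exact hS _ (Or.inr (Or.inr ⟨(γ, l), rfl⟩))
    | zero => simp
    | add _ _ _ _ h h' => rw [map_add]; exact add_mem h h'
    | smul m z _ h =>
      change γ (m * z) ∈ S
      rw [map_mul, hfix]
      exact S.smul_mem m h
  have htr : ∀ z ∈ S, ∑ γ : Ω ≃ₐ[F] Ω, γ z ∈ M := fun z hz => by
    induction hz using Submodule.span_induction with
    | mem _ h =>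
      obtain ⟨l, rfl⟩ := h
      rw [← trace_eq_sum_automorphisms]
      exact hC (Or.inr ⟨l, rfl⟩)
    | zero => simp
    | add _ _ _ _ h h' => simp only [map_add, Finset.sum_add_distrib]; exact add_mem h h'
    | smul m z _ h =>
      change ∑ γ : Ω ≃ₐ[F] Ω, γ (m * z) ∈ M
      simp only [map_mul, hfix, ← Finset.mul_sum]
      exact mul_mem m.2 h
  refine ⟨fun z hz => (hLS z).2 (hS z (Or.inl (Or.inl hz))), fun γ z => ?_, le_antisymm ?_ ?_,
    fun γ hγ => ?_⟩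
  · rw [hLS, hLS]
    exact ⟨fun h => by simpa using hst γ.symm _ h, hst γ z⟩
  · rintro z ⟨hz, hz'⟩
    have : CharZero Ω := charZero_of_injective_algebraMap (algebraMap ℂ Ω).injective
    have h1 := htr z ((hLS z).1 hz)
    have h3 : ∀ γ : Ω ≃ₐ[F] Ω, γ z = z := fun γ => hz' γ trivial
    simp only [h3, Finset.sum_const, nsmul_eq_mul] at h1
    have h2 := div_mem h1 (natCast_mem M (Finset.univ (α := Ω ≃ₐ[F] Ω)).card)
    rwa [mul_div_cancel_left₀ _ (Nat.cast_ne_zero.2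
      (Finset.card_pos.2 Finset.univ_nonempty).ne')] at h2
  · exact le_inf le_sup_left fun z hz γ _ => hfix γ ⟨z, hz⟩
  · refine AlgEquiv.toLinearMap_injective (β.ext fun l => ?_)
    exact hγ _ ((hLS _).2 (Submodule.subset_span ⟨l, rfl⟩))

end Vale.Agent.P300
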