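import Vale.Agent.P300.DSetupX2
import Vale.Agent.P300.DSetupX3
import Vale.Agent.P300.CThmC

/-! P300: spreading out the Galois extension over a base curve. -/

noncomputable section

namespace Vale.Agent.P300

/-- Galois data over `ℂ(b, x)`, at every level `E` of roots of the bad fibres -/
structure Setup (Ω : Type) [Field Ω] [Algebra ℂ Ω] (Γ : Type) [Group Γ] where
  b : Ω
  x : Ω
  S : Finset ℂ
  D : ℕ+ → Dat Ω
  hb : ∀ E, (D E).b = b
  hx : ∀ E, (D E).x = x
  hS : ∀ E, (D E).S = S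
  hE : ∀ E, (D E).E = E
  K : ℕ+ → IntermediateField ℂ Ω
  L : ℕ+ → IntermediateField ℂ Ω
  base : ∀ E, (D E).BaseField (K E)
  le_L : ∀ E, L 1 ≤ L E
  act : Γ →* (Ω ≃ₐ[ℂ] Ω)
  pres : ∀ E γ z, act γ z ∈ L E ↔ z ∈ L E
  top : ∀ E, L E ⊓ fixIF act ⊤ = K E ⊔ IntermediateField.adjoin ℂ {x}
  faith : ∀ γ, (∀ z ∈ L 1, act γ z = z) → γ = 1
  step : ∀ E (H H' : Subgroup Γ), H' ≤ H → H'.relIndex H = 2 →
    ∃ w, w ∉ L E ⊓ fixIF act H ∧ w ^ 2 ∈ L E ⊓ fixIF act H ∧ (D E).Unr0 w ∧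
      L E ⊓ fixIF act H' = (L E ⊓ fixIF act H) ⊔ IntermediateField.adjoin ℂ {w}
  sq : ∀ i, ∃ r ∈ L 1, r ^ 2 = x - av i b

open Polynomial Filter

theorem ds_ext {L Ω : Type} [Field L] [Field Ω] (f : L →+* Ω) (V : ValuationSubring L) :
    ∃ V' : ValuationSubring Ω, V.valuation.IsEquiv (V'.valuation.comap f) := by
  obtain ⟨A, h, hl⟩ := IsLocalRing.exists_factor_valuationRing (f.comp V.subtype)
  refine ⟨A, Valuation.isEquiv_iff_val_le_one.2 fun {z} => ?_⟩
  rw [Valuation.comap_apply, V.valuation_le_one_iff, A.valuation_le_one_iff]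
  refine ⟨fun hz => h ⟨z, hz⟩, fun hz => (V.mem_or_inv_mem z).elim id fun h1 => ?_⟩
  by_cases h0 : z = 0
  · exact h0 ▸ V.zero_mem
  obtain ⟨u, hu⟩ := (hl.1 ⟨z⁻¹, h1⟩ (isUnit_iff_exists_inv.2 ⟨⟨f z, hz⟩, Subtype.ext (by
    change f z⁻¹ * f z = 1
    rw [← map_mul, inv_mul_cancel₀ h0, map_one])⟩)).exists_right_inv
  have h2 : z⁻¹ * u = 1 := congrArg Subtype.val hu
  rw [inv_mul_eq_one₀ h0] at h2
  exact h2 ▸ u.2

section main

variable {k Ω : Type} [Field k] [Field Ω] [Algebra ℂ k] [Algebra ℂ Ω] [Algebra k Ω]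
  [IsScalarTower ℂ k Ω]

omit [Algebra ℂ k] [IsScalarTower ℂ k Ω] in
theorem ds_fin {x : Ω} {C : Set Ω} (hC : C.Finite)
    (h : ∀ c ∈ C, c ∈ IntermediateField.adjoin k {x}) :
    ∃ T : Finset k, ∀ c ∈ C, c ∈ IntermediateField.adjoin ℂ (algebraMap k Ω '' T ∪ {x}) := by
  classical
  have key : ∀ c ∈ IntermediateField.adjoin k {x},
      ∃ T : Finset k, c ∈ IntermediateField.adjoin ℂ (algebraMap k Ω '' T ∪ {x}) := by
    have mono : ∀ T T' : Finset k, T ⊆ T' →
        IntermediateField.adjoin ℂ (algebraMap k Ω '' T ∪ {x}) ≤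
          IntermediateField.adjoin ℂ (algebraMap k Ω '' T' ∪ {x}) := fun T T' h =>
      IntermediateField.adjoin.mono _ _ _ (Set.union_subset_union_left _ (Set.image_mono h))
    intro c hc
    induction hc using IntermediateField.adjoin_induction with
    | mem y hy => exact ⟨∅, IntermediateField.subset_adjoin _ _ (Or.inr hy)⟩
    | algebraMap c => exact ⟨{c}, IntermediateField.subset_adjoin _ _ (Or.inl (by simp))⟩
    | add _ _ _ _ h1 h2 =>
      obtain ⟨T, h1⟩ := h1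
      obtain ⟨T', h2⟩ := h2
      exact ⟨T ∪ T', add_mem (mono _ _ Finset.subset_union_left h1)
        (mono _ _ Finset.subset_union_right h2)⟩
    | inv _ _ h1 => exact h1.imp fun _ => inv_mem
    | mul _ _ _ _ h1 h2 =>
      obtain ⟨T, h1⟩ := h1
      obtain ⟨T', h2⟩ := h2
      exact ⟨T ∪ T', mul_mem (mono _ _ Finset.subset_union_left h1)
        (mono _ _ Finset.subset_union_right h2)⟩
  choose! T hT using key
  exact ⟨hC.toFinset.biUnion T, fun c hc => IntermediateField.adjoin.mono _ _ _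
    (Set.union_subset_union_left _ (Set.image_mono
      (Finset.subset_biUnion_of_mem T (hC.mem_toFinset.2 hc)))) (hT c (h c hc))⟩

theorem ds_trans {x : Ω} (hx : Transcendental k x) {K : IntermediateField ℂ Ω}
    (hK : K ≤ (IsScalarTower.toAlgHom ℂ k Ω).fieldRange) : Transcendental K x := fun h =>
  hx.ringHom_of_comp_eq (IsScalarTower.toAlgHom ℂ k Ω).rangeRestrict (RingHom.id Ω)
    (AlgHom.rangeRestrict_surjective _) Function.injective_id rfl
    (IsAlgebraic.tower_top_of_subalgebra_le (A := K.toSubalgebra) hK h)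

theorem ds_main {F : Type} [Field F] [Algebra ℂ F] [Algebra F Ω] [IsScalarTower ℂ F Ω]
    [IsAlgClosed k] [FiniteDimensional F Ω] [IsGalois F Ω] {b0 : k} {x : Ω} (h : DsH b0 x)
    (hF : ∀ z : Ω, z ∈ Set.range (algebraMap F Ω) ↔ z ∈ IntermediateField.adjoin k {x})
    (hr : ∀ i, ∃ r, r ^ 2 = x - av i (algebraMap k Ω b0)) : Nonempty (Setup Ω (Ω ≃ₐ[F] Ω)) := by
  classical
  choose r hr using hr
  choose w hw0 hw using ds_exists_w (F := F) (Ω := Ω)
  obtain ⟨B, C, hC, hCF, hB⟩ := ds_spread (F := F) (Set.range r ∪ Set.range (Function.uncurry w))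
    ((Set.finite_range _).union (Set.finite_range _))
  obtain ⟨T, hT⟩ := ds_fin hC fun c hc => (hF c).1 (hCF hc)
  set b := algebraMap k Ω b0 with hb
  have hev := eventually_cofinite.1 (ds_avc.and (((eventually_all_finset T).2 fun y _ =>
    h.good y).and (eventually_all.2 fun H => eventually_all.2 fun H' =>
      (h.gen0 (w H H')).and (h.gen0 (w H H')⁻¹))))
  have hS := fun t (ht : t ∉ hev.toFinset) => not_not.1 (mt hev.mem_toFinset.2 ht)
  generalize hev.toFinset = S at hS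
  choose ρ hρ using fun (E : ℕ+) (p : ℂ) =>
    IsAlgClosed.exists_pow_nat_eq (b0 - algebraMap ℂ k p) E.pos
  have hρ' : ∀ E p, algebraMap k Ω (ρ E p) ^ (E : ℕ) = b - algebraMap ℂ Ω p := fun E p => by
    rw [← map_pow, hρ, map_sub, ← IsScalarTower.algebraMap_apply]
  let D : ℕ+ → Dat Ω := fun E => ⟨b, x, S, E, E.pos, fun p => algebraMap k Ω (ρ E p),
    fun p _ => hρ' E p, fun c hc => (hS c hc).1⟩
  let TE : ℕ+ → Finset Ω := fun E => (T ∪ S.image (ρ E)).image (algebraMap k Ω)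
  let K : ℕ+ → IntermediateField ℂ Ω := fun E =>
    IntermediateField.adjoin ℂ (insert b (TE E : Set Ω))
  have hTK : ∀ E, ∀ y ∈ T ∪ S.image (ρ E), algebraMap k Ω y ∈ K E := fun E y hy =>
    IntermediateField.subset_adjoin _ _ (Or.inr (Finset.mem_image_of_mem _ hy))
  have hbK : ∀ E, b ∈ K E := fun E => IntermediateField.subset_adjoin _ _ (Or.inl rfl)
  have hKk : ∀ E, K E ≤ (IsScalarTower.toAlgHom ℂ k Ω).fieldRange := fun E => by
    rw [IntermediateField.adjoin_le_iff]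
    rintro _ (rfl | hy)
    · exact ⟨b0, rfl⟩
    · obtain ⟨y, -, rfl⟩ := Finset.mem_image.1 hy
      exact ⟨y, rfl⟩
  have hB' := fun E => hB (K E ⊔ IntermediateField.adjoin ℂ {x})
    (fun c hc => (IntermediateField.adjoin_le_iff.2 (by
      rintro _ (⟨y, hy, rfl⟩ | rfl)
      · exact le_sup_left (a := K E) (hTK E y (Finset.mem_union_left _ hy))
      · exact le_sup_right (a := K E) (IntermediateField.mem_adjoin_simple_self ℂ _)) :
      _ ≤ K E ⊔ IntermediateField.adjoin ℂ {x}) (hT c hc))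
    (fun z hz => (hF z).2 ((sup_le (fun y hy => by
      obtain ⟨c, rfl⟩ := hKk E hy
      exact (IntermediateField.adjoin k {x}).algebraMap_mem c)
      (IntermediateField.adjoin_simple_le_iff.2 (IntermediateField.mem_adjoin_simple_self k x)) :
      _ ≤ (IntermediateField.adjoin k {x}).restrictScalars ℂ) hz))
  refine ⟨⟨b, x, S, D, fun _ => rfl, fun _ => rfl, fun _ => rfl, fun _ => rfl, K,
    fun E => (K E ⊔ IntermediateField.adjoin ℂ {x}) ⊔ IntermediateField.adjoin ℂ B,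
    fun E => ⟨h.trb, ⟨TE E, rfl, fun z hz => ?_⟩, ds_trans h.hx (hKk E),
      fun p hp => hTK E _ (Finset.mem_union_right _ (Finset.mem_image_of_mem _ hp)),
      fun V hV t ht hbt z hz h0 => ds_unr ⟨hV, hbt⟩ (fun h1 => h.trb ?_) (TE E)
        (fun y hy => ?_) hz h0⟩,
    fun E => sup_le_sup_right (sup_le_sup_right ?_ _) _, AlgEquiv.restrictScalarsHom ℂ,
    fun E => (hB' E).2.1, fun E => (hB' E).2.2.1, (hB' 1).2.2.2, fun E H H' h1 h2 => ?_,
    fun i => ⟨r i, (hB' 1).1 _ (Or.inl ⟨i, rfl⟩), hr i⟩⟩⟩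
  · obtain ⟨y, -, rfl⟩ := Finset.mem_image.1 hz
    exact h.alg' y
  · rw [← hb, show b = _ from sub_eq_zero.1 h1]
    exact isAlgebraic_algebraMap t
  · obtain ⟨y, hy', rfl⟩ := Finset.mem_image.1 hy
    rcases Finset.mem_union.1 hy' with hy | hy
    · exact (hS t ht).2.1 y hy V ⟨hV, hbt⟩
    · obtain ⟨p, hp, rfl⟩ := Finset.mem_image.1 hy
      exact ds_root ⟨hV, hbt⟩ (fun e => ht (e ▸ hp)) E.pos (hρ' E p)
  · rw [IntermediateField.adjoin_le_iff]
    rintro _ (rfl | hy)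
    · exact hbK E
    · obtain ⟨y, hy', rfl⟩ := Finset.mem_image.1 hy
      rcases Finset.mem_union.1 hy' with hy | hy
      · exact hTK E y (Finset.mem_union_left _ hy)
      · obtain ⟨p, hp, rfl⟩ := Finset.mem_image.1 hy
        have := hρ' 1 p
        rw [PNat.one_coe, pow_one] at this
        rw [this]
        exact sub_mem (hbK E) ((K E).algebraMap_mem p)
  · obtain ⟨h3, h4, h5⟩ := ds_step h1 (hw0 H H') (hw H H' h1 h2) (hB' E).2.1
      ((hB' E).1 _ (Or.inr ⟨(H, H'), rfl⟩))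
    exact ⟨w H H', h3, h4, h.unr0 (D E) rfl rfl (hw0 H H') fun t ht V hV =>
      ⟨((hS t ht).2.2 H H').1 V hV, ((hS t ht).2.2 H H').2 V hV⟩, h5⟩

end main

/-- the geometric generic point of the base line -/
def dsb : KB ℂ := algebraMap ℂ[X] (KB ℂ) X

theorem dsb_aeval : (aeval dsb : ℂ[X] →ₐ[ℂ] KB ℂ).toRingHom = algebraMap ℂ[X] (KB ℂ) := by
  refine RingHom.ext fun p => ?_
  change aeval (algebraMap ℂ[X] (KB ℂ) X) p = _
  rw [aeval_algebraMap_apply, aeval_X_left_apply]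

theorem dsb_inj : Function.Injective (algebraMap ℂ[X] (KB ℂ)) := by
  rw [IsScalarTower.algebraMap_eq ℂ[X] (RatFunc ℂ) (KB ℂ)]
  exact (algebraMap (RatFunc ℂ) (KB ℂ)).injective.comp (RatFunc.algebraMap_injective ℂ)

theorem dsb_tr : Transcendental ℂ dsb :=
  transcendental_iff_injective.2 (by
    have := dsb_inj
    rw [← dsb_aeval] at this
    exact this)

theorem dsb_alg (y : KB ℂ) : ∃ P : ℂ[X][X], P ≠ 0 ∧ dsEv dsb y P = 0 := by
  obtain ⟨P, hP, e⟩ := (IsFractionRing.isAlgebraic_iff ℂ[X] (RatFunc ℂ) (KB ℂ)).2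
    (Algebra.IsAlgebraic.isAlgebraic y)
  exact ⟨P, hP, by rw [dsEv, dsb_aeval]; exact e⟩

theorem dsb_av : Function.Injective fun i => av i dsb := fun i j h =>
  ds_avX (dsb_inj (by rw [ds_av, ds_av]; exact h))

theorem ds_L {k : Type} [Field k] [Algebra ℂ k] [IsAlgClosed k] {b0 : k}
    (hb : Transcendental ℂ b0) (alg : ∀ y : k, ∃ P : ℂ[X][X], P ≠ 0 ∧ dsEv b0 y P = 0)
    (L : IntermediateField (RatFunc k) (KB k)) [FiniteDimensional (RatFunc k) L]
    [IsGalois (RatFunc k) L] (hU : Unr (fun i => av i b0) L)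
    (hr : ∀ i, ∃ r ∈ L, r ^ 2 = vx k - cst (av i b0)) :
    Nonempty (Setup L (L ≃ₐ[RatFunc k] L)) := by
  let x : L := algebraMap (RatFunc k) L RatFunc.X
  have hc : ∀ c : k, ((algebraMap k L c : L) : KB k) = cst c := fun c => rfl
  have ha : ∀ p : k[X], aeval x p = algebraMap (RatFunc k) L (algebraMap k[X] _ p) := fun p => by
    rw [aeval_algebraMap_apply, RatFunc.aeval_X_left_eq_algebraMap]
  have hF : ∀ z : L, z ∈ Set.range (algebraMap (RatFunc k) L) ↔
      z ∈ IntermediateField.adjoin k {x} := fun z => by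
    rw [IntermediateField.mem_adjoin_simple_iff]
    constructor
    · rintro ⟨f, rfl⟩
      exact ⟨f.num, f.denom, by rw [ha, ha, ← map_div₀, RatFunc.num_div_denom]⟩
    · rintro ⟨r, s, rfl⟩
      exact ⟨_, by rw [ha, ha, ← map_div₀]⟩
  have : IsScalarTower ℂ k L := IsScalarTower.of_algebraMap_eq fun c => Subtype.ext (by
    rw [hc, cst]
    change algebraMap ℂ (KB k) c = _
    rw [IsScalarTower.algebraMap_apply ℂ (RatFunc k) (KB k),
      IsScalarTower.algebraMap_apply ℂ k[X] (RatFunc k), Polynomial.algebraMap_apply,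
      RatFunc.algebraMap_C])
  refine ds_main (b0 := b0) (x := x) ⟨hb, alg, ?_, fun z => ?_, fun V hV t ht h1 z h0 => ?_⟩ hF
    fun i => ?_
  · exact (transcendental_algebraMap_iff (algebraMap (RatFunc k) L).injective).2
      (RatFunc.transcendental_X (K := k))
  · exact ((IsIntegral.of_finite (RatFunc k) z).isAlgebraic.ringHom_of_comp_eq
      ((algebraMap (RatFunc k) L).codRestrict (IntermediateField.adjoin k {x})
        fun f => (hF _).1 ⟨f, rfl⟩) (RingHom.id L) (RingHom.injective _) rfl).isIntegral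
  · obtain ⟨V', hV'⟩ := ds_ext (algebraMap L (KB k)) V
    obtain ⟨n, hn⟩ := hU V' (fun c => (V'.valuation_le_one_iff _).1
      (hV'.le_one_iff_le_one.1 ((V.valuation_le_one_iff _).2 (hV c)))) t ht
      (hV'.lt_one_iff_lt_one.1 h1) z z.2 fun h2 => h0 (Subtype.ext h2)
    refine ⟨n, ?_⟩
    rw [← map_zpow₀, hV'.eq_iff, map_zpow₀]
    exact hn
  · obtain ⟨r, h1, h2⟩ := hr i
    exact ⟨⟨r, h1⟩, Subtype.ext (by rw [← ds_av]; exact h2)⟩

theorem exists_setup (N : Subgroup F5) [N.Normal] [N.FiniteIndex] (h2 : ∀ g, ∃ n, g ^ 2 ^ n ∈ N)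
    (hΦ : ∀ g ∈ N, ∀ χ : F5 →* Multiplicative (ZMod 2), χ g = 1) :
    ∃ (Ω : Type) (_ : Field Ω) (_ : Algebra ℂ Ω) (Γ : Type) (_ : Group Γ) (_ : Finite Γ)
      (j : F5 →* Γ), Function.Surjective j ∧ j.ker = N ∧ Nonempty (Setup Ω Γ) := by
  obtain ⟨L, h3, h4, h5, h6, j, h7, h8⟩ := thmC (fun i => av i dsb) dsb_av N h2 hΦ
  exact ⟨L, inferInstance, inferInstance, _, inferInstance, inferInstance, j, h7, h8,
    ds_L dsb_tr dsb_alg L h5 h6⟩

end Vale.Agent.P300
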