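import Vale.Agent.P300.DDefs

/-! P300: valuation lemmas for the spreading out. -/

noncomputable section

namespace Vale.Agent.P300

open Polynomial Filter

section gen

variable {k Ω : Type} [Field k] [Field Ω] [Algebra k Ω] {V : ValuationSubring Ω}

/-- the valuation ring as a subalgebra -/
def dsSub (V : ValuationSubring Ω) (hV : ∀ c : k, algebraMap k Ω c ∈ V) : Subalgebra k Ω :=
  { V.toSubring with algebraMap_mem' := hV }

theorem ds_adj (hV : ∀ c : k, algebraMap k Ω c ∈ V) {s : Set Ω} (hs : ∀ y ∈ s, y ∈ V) {z : Ω}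
    (hz : z ∈ Algebra.adjoin k s) : z ∈ V :=
  (Algebra.adjoin_le (S := dsSub V hV) hs) hz

theorem ds_aeval (hV : ∀ c : k, algebraMap k Ω c ∈ V) {y : Ω} (hy : y ∈ V) (p : k[X]) :
    aeval y p ∈ V :=
  ds_adj hV (s := {y}) (by simpa) (aeval_mem_adjoin_singleton k y)

theorem ds_one {z : Ω} (h0 : z ≠ 0) (h1 : z ∈ V) (h2 : z⁻¹ ∈ V) : V.valuation z = 1 := by
  rw [← V.valuation_le_one_iff] at h1 h2
  rw [map_inv₀, inv_le_one₀ (zero_lt_iff.2 ((_root_.map_ne_zero _).2 h0))] at h2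
  exact le_antisymm h1 h2

theorem ds_inv {z : Ω} (h : V.valuation z = 1) : z⁻¹ ∈ V := by
  rw [← V.valuation_le_one_iff, map_inv₀, h, inv_one]

theorem ds_cst (hV : ∀ c : k, algebraMap k Ω c ∈ V) {c : k} (hc : c ≠ 0) :
    V.valuation (algebraMap k Ω c) = 1 :=
  ds_one ((_root_.map_ne_zero _).2 hc) (hV c) (by rw [← map_inv₀]; exact hV _)

theorem ds_small {a z : Ω} (ha : V.valuation a < 1) (hz : z ∈ V) : V.valuation (a * z) < 1 := by
  rw [map_mul]
  exact mul_lt_one_of_lt_of_le ha ((V.valuation_le_one_iff z).2 hz)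

theorem ds_add {a z : Ω} (ha : V.valuation a = 1) (hz : V.valuation z < 1) :
    V.valuation (a + z) = 1 := by
  rw [V.valuation.map_add_eq_of_lt_left (ha ▸ hz), ha]

theorem ds_add' {a z : Ω} (ha : V.valuation (a + z) = 1) (hz : V.valuation z < 1) :
    V.valuation a = 1 := by
  have := ds_add ha (z := -z) (by rwa [Valuation.map_neg])
  rwa [add_neg_cancel_right] at this

theorem ds_mem {y : Ω} {c : k} (hV : ∀ c : k, algebraMap k Ω c ∈ V)
    (h : V.valuation (y - algebraMap k Ω c) < 1) : y ∈ V := by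
  have := add_mem ((V.valuation_le_one_iff _).1 h.le) (hV c)
  rwa [sub_add_cancel] at this

theorem ds_split (y : Ω) (c : k) (p : k[X]) : aeval y p =
    algebraMap k Ω (p.eval c) + (y - algebraMap k Ω c) * aeval y (p /ₘ (X - C c)) := by
  conv_lhs => rw [← modByMonic_add_div p (X - C c), modByMonic_X_sub_C_eq_C_eval]
  simp

theorem ds_unit (hV : ∀ c : k, algebraMap k Ω c ∈ V) {y : Ω} {c : k}
    (h : V.valuation (y - algebraMap k Ω c) < 1) {p : k[X]} (hp : p.eval c ≠ 0) :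
    V.valuation (aeval y p) = 1 := by
  rw [ds_split y c p]
  exact ds_add (ds_cst hV hp) (ds_small h (ds_aeval hV (ds_mem hV h) _))

theorem ds_lin [IsAlgClosed k] (hV : ∀ c : k, algebraMap k Ω c ∈ V) {y : Ω} (hy : y ∈ V)
    (h : ∀ c : k, ¬V.valuation (y - algebraMap k Ω c) < 1) {p : k[X]} (hp : p ≠ 0) :
    V.valuation (aeval y p) = 1 := by
  rw [(IsAlgClosed.splits p).eq_prod_roots, map_mul, map_mul, aeval_C,
    ds_cst hV (leadingCoeff_ne_zero.2 hp), one_mul, map_multiset_prod, map_multiset_prod]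
  refine Multiset.prod_eq_one fun a ha => ?_
  simp only [Multiset.mem_map] at ha
  obtain ⟨_, ⟨_, ⟨c, -, rfl⟩, rfl⟩, rfl⟩ := ha
  rw [map_sub, aeval_X, aeval_C]
  exact le_antisymm ((V.valuation_le_one_iff _).2 (sub_mem hy (hV c))) (not_lt.1 (h c))

theorem ds_field [IsAlgClosed k] (hV : ∀ c : k, algebraMap k Ω c ∈ V) {y : Ω} (hy : y ∈ V)
    (h : ∀ c : k, ¬V.valuation (y - algebraMap k Ω c) < 1) {z : Ω}
    (hz : z ∈ IntermediateField.adjoin k {y}) : z ∈ V := by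
  obtain ⟨r, s, rfl⟩ := (IntermediateField.mem_adjoin_simple_iff k z).1 hz
  by_cases hs : s = 0
  · simp [hs]
  · rw [div_eq_mul_inv]
    exact mul_mem (ds_aeval hV hy r) (ds_inv (ds_lin hV hy h hs))

theorem ds_monic {f : k[X]} (hf : f.Monic) (hc : ∀ i ∈ f.support, algebraMap k Ω (f.coeff i) ∈ V)
    {z : Ω} (hz : aeval z f = 0) : z ∈ V := by
  have hl : f.map (algebraMap k Ω) ∈ lifts (algebraMap V Ω) := by
    rw [lifts_iff_coeff_lifts]
    intro i
    rw [coeff_map]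
    by_cases hi : i ∈ f.support
    · exact ⟨⟨_, hc i hi⟩, rfl⟩
    · rw [notMem_support_iff.1 hi, map_zero]
      exact ⟨0, rfl⟩
  obtain ⟨q, h1, -, h2⟩ := lifts_and_natDegree_eq_and_monic hl (hf.map _)
  have h3 : IsIntegral V z := ⟨q, h2, by rw [← eval_map, h1, eval_map_algebraMap, hz]⟩
  obtain ⟨y, rfl⟩ := IsIntegrallyClosed.isIntegral_iff.1 h3
  exact y.2

theorem ds_int (hV : ∀ c : k, algebraMap k Ω c ∈ V) {z : Ω} (hz : IsIntegral k z) : z ∈ V :=
  ds_monic (minpoly.monic hz) (fun _ _ => hV _) (minpoly.aeval k z)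

theorem ds_gen {ι : Type} {l : Filter ι} {W : ι → ValuationSubring Ω → Prop}
    (h : ∀ c : k, ∀ᶠ t in l, ∀ V, W t V → algebraMap k Ω c ∈ V) {z : Ω} (hz : IsIntegral k z) :
    ∀ᶠ t in l, ∀ V, W t V → z ∈ V := by
  filter_upwards [(eventually_all_finset (minpoly k z).support).2 fun i _ =>
    h ((minpoly k z).coeff i)] with t ht V hV
  exact ds_monic (minpoly.monic hz) (fun i hi => ht i hi V hV) (minpoly.aeval k z)

end gen

variable {Ω : Type} [Field Ω] [Algebra ℂ Ω] {V : ValuationSubring Ω}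

/-- evaluation of polynomials in two variables -/
def dsEv (b y : Ω) : ℂ[X][X] →+* Ω := eval₂RingHom (aeval b : ℂ[X] →ₐ[ℂ] Ω).toRingHom y

theorem dsEv_C (b y : Ω) (p : ℂ[X]) : dsEv b y (C p) = aeval b p := by simp [dsEv]

theorem dsEv_X (b y : Ω) : dsEv b y X = y := by simp [dsEv]

theorem ds_spec (b y : Ω) (t : ℂ) (P : ℂ[X][X]) : ∃ q ∈ Algebra.adjoin ℂ {b, y},
    dsEv b y P = aeval y (P.map (evalRingHom t)) + (b - algebraMap ℂ Ω t) * q := by
  induction P using Polynomial.induction_on' with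
  | add P Q hP hQ =>
    obtain ⟨p, hp, e⟩ := hP
    obtain ⟨q, hq, e'⟩ := hQ
    exact ⟨p + q, add_mem hp hq, by rw [map_add, e, e', Polynomial.map_add, map_add]; ring⟩
  | monomial n p =>
    refine ⟨aeval b (p /ₘ (X - C t)) * y ^ n, mul_mem (Algebra.adjoin_mono (by simp)
      (aeval_mem_adjoin_singleton ℂ b)) (pow_mem (Algebra.subset_adjoin (by simp)) n), ?_⟩
    rw [← C_mul_X_pow_eq_monomial, map_mul, map_pow, dsEv_C, dsEv_X, ds_split b t p]
    simp
    ring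

theorem ds_surj {b y z : Ω} (hz : z ∈ Algebra.adjoin ℂ {b, y}) : ∃ P, dsEv b y P = z := by
  induction hz using Algebra.adjoin_induction with
  | mem z hz =>
    rcases hz with rfl | rfl
    · exact ⟨C X, by rw [dsEv_C, aeval_X]⟩
    · exact ⟨X, dsEv_X _ _⟩
  | algebraMap c => exact ⟨C (C c), by rw [dsEv_C, aeval_C]⟩
  | add _ _ _ _ h h' =>
    obtain ⟨P, rfl⟩ := h
    obtain ⟨Q, rfl⟩ := h'
    exact ⟨P + Q, map_add _ _ _⟩
  | mul _ _ _ _ h h' =>
    obtain ⟨P, rfl⟩ := h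
    obtain ⟨Q, rfl⟩ := h'
    exact ⟨P * Q, map_mul _ _ _⟩

theorem ds_cof {p : ℂ[X]} (hp : p ≠ 0) : ∀ᶠ t in cofinite, p.eval t ≠ 0 := by
  filter_upwards [p.roots.toFinset.eventually_cofinite_notMem] with t ht h
  exact ht (Multiset.mem_toFinset.2 ((mem_roots hp).2 h))

/-- valuation rings centred at `b = t` -/
def dsW1 (b : Ω) (t : ℂ) (V : ValuationSubring Ω) : Prop :=
  (∀ c : ℂ, algebraMap ℂ Ω c ∈ V) ∧ V.valuation (b - algebraMap ℂ Ω t) < 1

/-- the Gauss extensions of the point `b = t` -/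
def dsW0 (b x : Ω) (t : ℂ) (V : ValuationSubring Ω) : Prop :=
  dsW1 b t V ∧ x ∈ V ∧ ∀ c : ℂ, ¬V.valuation (x - algebraMap ℂ Ω c) < 1

theorem ds_gen1 (b : Ω) {z : Ω} (hz : IsIntegral (IntermediateField.adjoin ℂ {b}) z) :
    ∀ᶠ t in cofinite, ∀ V, dsW1 b t V → z ∈ V := by
  refine ds_gen (fun c => ?_) hz
  obtain ⟨r, s, e⟩ := (IntermediateField.mem_adjoin_simple_iff ℂ _).1 c.2
  rw [show algebraMap _ Ω c = _ from e]
  by_cases hs : s = 0
  · simp [hs]
  · filter_upwards [ds_cof hs] with t ht V hV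
    rw [div_eq_mul_inv]
    exact mul_mem (ds_aeval hV.1 (ds_mem hV.1 hV.2) r) (ds_inv (ds_unit hV.1 hV.2 ht))

theorem ds_gen0 (b x : Ω) {z : Ω} (hz : IsIntegral (IntermediateField.adjoin ℂ {b, x}) z) :
    ∀ᶠ t in cofinite, ∀ V, dsW0 b x t V → z ∈ V := by
  refine ds_gen (fun c => ?_) hz
  obtain ⟨r, hr, s, hs, e⟩ := IntermediateField.mem_adjoin_iff_div.1 c.2
  rw [show algebraMap _ Ω c = _ from e]
  obtain ⟨P, rfl⟩ := ds_surj hs
  by_cases hP : P = 0
  · simp [hP]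
  · filter_upwards [ds_cof (leadingCoeff_ne_zero.2 hP)] with t ht V hV
    have hbx : ∀ y ∈ ({b, x} : Set Ω), y ∈ V := by
      rintro _ (rfl | rfl)
      exacts [ds_mem hV.1.1 hV.1.2, hV.2.1]
    obtain ⟨q, hq, e⟩ := ds_spec b x t P
    have h1 : P.map (evalRingHom t) ≠ 0 := fun h => ht (by
      have := congrArg (fun Q => Q.coeff P.natDegree) h
      simpa using this)
    rw [div_eq_mul_inv, e]
    exact mul_mem (ds_adj hV.1.1 hbx hr) (ds_inv (ds_add (ds_lin hV.1.1 hV.2.1 hV.2.2 h1)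
      (ds_small hV.1.2 (ds_adj hV.1.1 hbx hq))))

/-- `y` is unramified at the centre of `V` -/
def dsGood (b : Ω) (t : ℂ) (V : ValuationSubring Ω) (y : Ω) : Prop :=
  y ∈ V ∧ ∃ c : ℂ, ∃ g ∈ Algebra.adjoin ℂ {b, y}, ∃ q ∈ Algebra.adjoin ℂ {b, y},
    V.valuation g = 1 ∧ (y - algebraMap ℂ Ω c) * g = (b - algebraMap ℂ Ω t) * q

theorem ds_good {b y : Ω} {t : ℂ} (hV : dsW1 b t V) (hy : y ∈ V) {P : ℂ[X][X]}
    (h0 : dsEv b y P = 0) (h1 : V.valuation (dsEv b y (derivative P)) = 1) : dsGood b t V y := by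
  have hby : ∀ z ∈ ({b, y} : Set Ω), z ∈ V := by
    rintro _ (rfl | rfl)
    exacts [ds_mem hV.1 hV.2, hy]
  obtain ⟨q, hq, e⟩ := ds_spec b y t P
  obtain ⟨q', hq', e'⟩ := ds_spec b y t (derivative P)
  rw [← derivative_map] at e'
  set p := P.map (evalRingHom t)
  have h2 : V.valuation (aeval y (derivative p)) = 1 :=
    ds_add' (e' ▸ h1) (ds_small hV.2 (ds_adj hV.1 hby hq'))
  have e2 : aeval y p = (b - algebraMap ℂ Ω t) * -q := by linear_combination h0 - e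
  have h3 : V.valuation (aeval y p) < 1 := e2 ▸ ds_small hV.2 (neg_mem (ds_adj hV.1 hby hq))
  have hp : p ≠ 0 := fun h => by simp [h] at h2
  obtain ⟨c, hc⟩ : ∃ c : ℂ, V.valuation (y - algebraMap ℂ Ω c) < 1 := by
    by_contra h
    exact h3.ne (ds_lin hV.1 hy (not_exists.1 h) hp)
  have h4 : p.eval c = 0 := by
    by_contra h
    exact h3.ne (ds_unit hV.1 hc h)
  obtain ⟨G, hG⟩ := dvd_iff_isRoot.2 h4
  refine ⟨hy, c, aeval y G, Algebra.adjoin_mono (by simp) (aeval_mem_adjoin_singleton ℂ y), -q,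
    neg_mem hq, ?_, by rw [← e2, hG]; simp⟩
  refine ds_add' (z := (y - algebraMap ℂ Ω c) * aeval y (derivative G)) ?_
    (ds_small hc (ds_aeval hV.1 hy _))
  rw [← h2, hG]
  simp

theorem ds_unr {b : Ω} {t : ℂ} (hV : dsW1 b t V) (hb : b - algebraMap ℂ Ω t ≠ 0) (T : Finset Ω)
    (hT : ∀ y ∈ T, dsGood b t V y) {z : Ω}
    (hz : z ∈ IntermediateField.adjoin ℂ (insert b (T : Set Ω))) (h0 : z ≠ 0) :
    ∃ n : ℤ, V.valuation z = V.valuation (b - algebraMap ℂ Ω t) ^ n := by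
  choose c g hg q hq hu he using fun y : T => (hT y y.2).2
  set π := b - algebraMap ℂ Ω t with hπ
  let R := Algebra.adjoin ℂ (insert b (T : Set Ω) ∪ Set.range fun y => (g y)⁻¹)
  have hbR : b ∈ R := Algebra.subset_adjoin (by simp)
  have hTR : ∀ y : T, Algebra.adjoin ℂ {b, y.1} ≤ R := fun y => Algebra.adjoin_mono (by
    rintro _ (rfl | rfl) <;> simp)
  have hgR : ∀ y, (g y)⁻¹ ∈ R := fun y => Algebra.subset_adjoin (Or.inr ⟨y, rfl⟩)
  have hRV : ∀ z ∈ R, z ∈ V := fun z hz => ds_adj hV.1 (by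
    rintro _ ((rfl | h) | ⟨y, rfl⟩)
    exacts [ds_mem hV.1 hV.2, (hT _ h).1, ds_inv (hu y)]) hz
  have hπR : π ∈ R := sub_mem hbR (R.algebraMap_mem t)
  let A : Subalgebra ℂ Ω :=
    { carrier := {z | ∃ c : ℂ, ∃ w ∈ R, z = algebraMap ℂ Ω c + π * w}
      mul_mem' := by
        rintro _ _ ⟨c, w, hw, rfl⟩ ⟨c', w', hw', rfl⟩
        exact ⟨c * c', algebraMap ℂ Ω c * w' + w * algebraMap ℂ Ω c' + π * w * w',
          add_mem (add_mem (mul_mem (R.algebraMap_mem c) hw') (mul_mem hw (R.algebraMap_mem c')))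
            (mul_mem (mul_mem hπR hw) hw'), by rw [map_mul]; ring⟩
      add_mem' := by
        rintro _ _ ⟨c, w, hw, rfl⟩ ⟨c', w', hw', rfl⟩
        exact ⟨c + c', w + w', add_mem hw hw', by rw [map_add]; ring⟩
      algebraMap_mem' := fun c => ⟨c, 0, zero_mem _, by simp⟩ }
  have hbA : b ∈ A := ⟨t, 1, one_mem _, by rw [hπ]; ring⟩
  have hg0 : ∀ y, g y ≠ 0 := fun y h => by simpa [h] using hu y
  have hyA : ∀ y : T, y.1 ∈ A := fun y => ⟨c y, q y * (g y)⁻¹, mul_mem (hTR y (hq y)) (hgR y), by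
    rw [← mul_assoc, ← he y, mul_inv_cancel_right₀ (hg0 y)]; ring⟩
  have hc0 : ∀ (c : ℂ) (w), w ∈ R → c = 0 → V.valuation (algebraMap ℂ Ω c + π * w) ≠ 1 := by
    rintro _ w hw rfl
    rw [map_zero, zero_add]
    exact (ds_small hV.2 (hRV w hw)).ne
  have hRA : R ≤ A := Algebra.adjoin_le (by
    rintro _ ((rfl | h) | ⟨y, rfl⟩)
    · exact hbA
    · exact hyA ⟨_, h⟩
    · obtain ⟨c', w, hw, e⟩ : g y ∈ A := Algebra.adjoin_le (S := A) (by
        rintro _ (rfl | rfl)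
        exacts [hbA, hyA y]) (hg y)
      have h1 : algebraMap ℂ Ω c' ≠ 0 := (_root_.map_ne_zero _).2 fun h => hc0 c' w hw h (e ▸ hu y)
      refine ⟨c'⁻¹, -(w * (g y)⁻¹ * algebraMap ℂ Ω c'⁻¹), neg_mem (mul_mem (mul_mem hw (hgR y))
        (R.algebraMap_mem _)), ?_⟩
      have h2 := hg0 y
      rw [map_inv₀]
      field_simp
      rw [e]; ring)
  have : IsNoetherianRing R := isNoetherianRing_of_fg (Subalgebra.fg_def.2
    ⟨_, (T.finite_toSet.insert b).union (Set.finite_range _), rfl⟩)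
  have key : ∀ z ∈ R, z ≠ 0 → ∃ n : ℕ, V.valuation z = V.valuation π ^ n := fun z hz h0 => by
    have hn : ¬IsUnit (⟨π, hπR⟩ : R) := fun h => by
      obtain ⟨w, hw⟩ := h.exists_right_inv
      have := ds_small hV.2 (hRV _ w.2)
      rw [show π * w = 1 from congrArg Subtype.val hw, map_one] at this
      exact lt_irrefl _ this
    obtain ⟨n, a, h1, h2⟩ := WfDvdMonoid.max_power_factor' (a₀ := (⟨z, hz⟩ : R))
      (fun h => h0 (congrArg Subtype.val h)) hn
    obtain ⟨c', w, hw, e⟩ := hRA a.2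
    have h3 : c' ≠ 0 := fun h => h1 ⟨⟨w, hw⟩, Subtype.ext (by
      rw [e, h, map_zero, zero_add]; rfl)⟩
    refine ⟨n, ?_⟩
    rw [show z = π ^ n * a from congrArg Subtype.val h2, map_mul, map_pow, e,
      ds_add (ds_cst hV.1 h3) (ds_small hV.2 (hRV w hw)), mul_one]
  obtain ⟨r, hr, s, hs, rfl⟩ := IntermediateField.mem_adjoin_iff_div.1 hz
  rw [ne_eq, div_eq_zero_iff, not_or] at h0
  obtain ⟨n, hn⟩ := key r (Algebra.adjoin_mono Set.subset_union_left hr) h0.1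
  obtain ⟨m, hm⟩ := key s (Algebra.adjoin_mono Set.subset_union_left hs) h0.2
  exact ⟨n - m, by
    rw [map_div₀, hn, hm, zpow_sub₀ ((_root_.map_ne_zero _).2 hb), zpow_natCast, zpow_natCast]⟩

end Vale.Agent.P300
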