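import Vale.Agent.P300.DSetupX1

/-! P300: generic unramifiedness over the base curve. -/

noncomputable section

namespace Vale.Agent.P300

open Polynomial Filter

theorem ds_av {R R' F : Type} [CommRing R] [CommRing R'] [FunLike F R R'] [RingHomClass F R R']
    (f : F) (i : Fin 5) (b : R) : f (av i b) = av i (f b) := by
  fin_cases i <;> simp [av]

theorem ds_avX : Function.Injective fun i => av i (X : ℂ[X]) := fun i j h => by
  have h1 := congrArg (evalRingHom 2) h
  simp only [ds_av, coe_evalRingHom, eval_X] at h1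
  fin_cases i <;> fin_cases j <;> first | rfl | (exfalso; norm_num [av] at h1)

theorem ds_avc : ∀ᶠ c in cofinite, Function.Injective fun i => av i (c : ℂ) := by
  have h : ∀ i j : Fin 5, ∀ᶠ c in cofinite, av i (c : ℂ) = av j c → i = j := fun i j => by
    by_cases hij : i = j
    · exact Eventually.of_forall fun _ _ => hij
    · filter_upwards [ds_cof (sub_ne_zero.2 (ds_avX.ne hij))] with c hc h
      refine (hc ?_).elim
      rw [← coe_evalRingHom, map_sub, ds_av, ds_av, coe_evalRingHom, eval_X, h, sub_self]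
  filter_upwards [eventually_all.2 fun i => eventually_all.2 (h i)] with c hc i j h
  exact hc i j h

theorem ds_root {Ω : Type} [Field Ω] [Algebra ℂ Ω] {V : ValuationSubring Ω} {b y : Ω} {t p : ℂ}
    (hV : dsW1 b t V) (htp : t ≠ p) {E : ℕ} (hE : 0 < E) (hy : y ^ E = b - algebraMap ℂ Ω p) :
    dsGood b t V y := by
  have h1 : V.valuation y = 1 := by
    rw [← pow_eq_one_iff_left hE.ne', ← map_pow, hy]
    have := ds_unit hV.1 hV.2 (p := X - C p) (by simpa using sub_ne_zero.2 htp)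
    rwa [map_sub, aeval_X, aeval_C] at this
  refine ds_good hV ((V.valuation_le_one_iff _).1 h1.le) (P := X ^ E - C (X - C p)) ?_ ?_
  · rw [map_sub, map_pow, dsEv_X, dsEv_C, hy]; simp
  · rw [derivative_sub, derivative_C, sub_zero, derivative_X_pow, map_mul, map_mul, map_pow,
      map_pow, dsEv_X, dsEv_C, h1, one_pow, mul_one, map_natCast, ← map_natCast (algebraMap ℂ Ω)]
    exact ds_cst hV.1 (Nat.cast_ne_zero.2 hE.ne')

variable {k Ω : Type} [Field k] [Field Ω] [Algebra ℂ k] [Algebra ℂ Ω] [Algebra k Ω]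
  [IsScalarTower ℂ k Ω]

theorem dsEv_map (b y : k) (P : ℂ[X][X]) :
    algebraMap k Ω (dsEv b y P) = dsEv (algebraMap k Ω b) (algebraMap k Ω y) P := by
  have : (algebraMap k Ω).comp (dsEv b y) = dsEv (algebraMap k Ω b) (algebraMap k Ω y) := by
    refine Polynomial.ringHom_ext (fun p => ?_) ?_
    · rw [RingHom.comp_apply, dsEv_C, dsEv_C, aeval_algebraMap_apply]
    · rw [RingHom.comp_apply, dsEv_X, dsEv_X]
  exact congrArg (fun f => f P) this

/-- the hypotheses on the geometric generic fibre -/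
structure DsH (b0 : k) (x : Ω) : Prop where
  hb : Transcendental ℂ b0
  alg : ∀ y : k, ∃ P : ℂ[X][X], P ≠ 0 ∧ dsEv b0 y P = 0
  hx : Transcendental k x
  int : ∀ z : Ω, IsIntegral (IntermediateField.adjoin k {x}) z
  unr : ∀ V : ValuationSubring Ω, (∀ c : k, algebraMap k Ω c ∈ V) → ∀ t : k,
    (∀ i, t ≠ av i b0) → V.valuation (x - algebraMap k Ω t) < 1 → ∀ z, z ≠ 0 →
      ∃ n : ℤ, V.valuation z = V.valuation (x - algebraMap k Ω t) ^ n

namespace DsH

variable {b0 : k} {x : Ω} (h : DsH b0 x)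
include h

theorem trb : Transcendental ℂ (algebraMap k Ω b0) :=
  (transcendental_algebraMap_iff (algebraMap k Ω).injective).2 h.hb

theorem alg' (y : k) :
    IsAlgebraic (Algebra.adjoin ℂ {algebraMap k Ω b0}) (algebraMap k Ω y) := by
  obtain ⟨P, hP, e⟩ := h.alg y
  let b : Algebra.adjoin ℂ {algebraMap k Ω b0} := ⟨_, Algebra.self_mem_adjoin_singleton _ _⟩
  have hb : Transcendental ℂ b := (transcendental_algebraMap_iff Subtype.val_injective).1 h.trb
  refine ⟨P.map (aeval b : ℂ[X] →ₐ[ℂ] _).toRingHom,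
    (Polynomial.map_ne_zero_iff (transcendental_iff_injective.1 hb)).2 hP, ?_⟩
  have e2 : (algebraMap _ Ω).comp (aeval b : ℂ[X] →ₐ[ℂ] _).toRingHom =
      (aeval (algebraMap k Ω b0) : ℂ[X] →ₐ[ℂ] Ω).toRingHom := RingHom.ext fun p =>
    (aeval_algebraMap_apply Ω b p).symm
  rw [aeval_def, eval₂_map, e2]
  exact (dsEv_map b0 y P).symm.trans (by rw [e, map_zero])

theorem int1 {M : IntermediateField ℂ Ω} (hM : algebraMap k Ω b0 ∈ M) (y : k) :
    IsIntegral M (algebraMap k Ω y) :=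
  IsAlgebraic.isIntegral (K := M) ((h.alg' y).tower_top_of_subalgebra_le (B := M.toSubalgebra)
    (Algebra.adjoin_le (by simpa)))

theorem gen0 (z : Ω) : ∀ᶠ t in cofinite, ∀ V, dsW0 (algebraMap k Ω b0) x t V → z ∈ V := by
  refine ds_gen (fun c => ds_gen0 _ _ ?_) (h.int z)
  obtain ⟨c, hc⟩ := c
  change IsIntegral _ c
  induction hc using IntermediateField.adjoin_induction with
  | mem y hy =>
    exact isIntegral_algebraMap (x := (⟨y, IntermediateField.subset_adjoin _ _ (Or.inr hy)⟩ :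
      IntermediateField.adjoin ℂ {algebraMap k Ω b0, x}))
  | algebraMap c => exact h.int1 (IntermediateField.subset_adjoin _ _ (by simp)) c
  | add _ _ _ _ h1 h2 => exact h1.add h2
  | inv _ _ h1 => exact h1.inv
  | mul _ _ _ _ h1 h2 => exact h1.mul h2

omit [Algebra ℂ Ω] [IsScalarTower ℂ k Ω] in
theorem sep (y : k) : ∃ P, dsEv b0 y P = 0 ∧ dsEv b0 y (derivative P) ≠ 0 := by
  obtain ⟨P, hP, e⟩ := h.alg y
  induction hn : P.natDegree using Nat.strong_induction_on generalizing P with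
  | _ n ih =>
    by_cases h1 : dsEv b0 y (derivative P) = 0
    · have h2 : P.natDegree ≠ 0 := fun h2 => by
        rw [eq_C_of_natDegree_eq_zero h2, dsEv_C] at e
        rw [eq_C_of_natDegree_eq_zero h2, transcendental_iff.1 h.hb _ e] at hP
        exact hP C_0
      exact ih _ (hn ▸ natDegree_derivative_lt h2) _
        (fun h3 => h2 (derivative_eq_zero.1 h3)) h1 rfl
    · exact ⟨P, e, h1⟩

theorem good (y : k) : ∀ᶠ t in cofinite, ∀ V, dsW1 (algebraMap k Ω b0) t V →
    dsGood (algebraMap k Ω b0) t V (algebraMap k Ω y) := by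
  obtain ⟨P, e, h1⟩ := h.sep y
  have hm := IntermediateField.mem_adjoin_simple_self ℂ (algebraMap k Ω b0)
  filter_upwards [ds_gen1 _ (h.int1 hm y), ds_gen1 _ (h.int1 hm (dsEv b0 y (derivative P))),
    ds_gen1 _ (h.int1 hm (dsEv b0 y (derivative P))⁻¹)] with t h2 h3 h4 V hV
  refine ds_good hV (h2 V hV) (P := P) (by rw [← dsEv_map, e, map_zero]) ?_
  rw [← dsEv_map]
  exact ds_one ((_root_.map_ne_zero _).2 h1) (h3 V hV) (map_inv₀ (algebraMap k Ω) _ ▸ h4 V hV)

theorem exists_val {V : ValuationSubring Ω} (hk : ∀ c : k, algebraMap k Ω c ∈ V) {t : k}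
    (ht : V.valuation (x - algebraMap k Ω t) < 1) :
    ∃ u ∈ IntermediateField.adjoin ℂ {algebraMap k Ω b0, x}, u ≠ 0 ∧
      V.valuation u = V.valuation (x - algebraMap k Ω t) := by
  obtain ⟨P, e, h1⟩ := h.sep t
  let p : k[X] := P.map (aeval b0 : ℂ[X] →ₐ[ℂ] k).toRingHom
  have hp : ∀ Q : ℂ[X][X], (Q.map (aeval b0 : ℂ[X] →ₐ[ℂ] k).toRingHom).eval t = dsEv b0 t Q :=
    fun Q => eval_map _ _
  obtain ⟨G, hG⟩ := dvd_iff_isRoot.2 (show p.IsRoot t from (hp P).trans e)
  have h2 : G.eval t ≠ 0 := by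
    rw [← hp, ← derivative_map] at h1
    change (derivative p).eval t ≠ 0 at h1
    simpa [hG] using h1
  have h3 : V.valuation (aeval x p) = V.valuation (x - algebraMap k Ω t) := by
    rw [hG, map_mul, map_mul, ds_unit hk ht h2, mul_one]; simp
  refine ⟨aeval x p, ?_, fun h4 => ?_, h3⟩
  · rw [aeval_eq_sum_range]
    refine sum_mem fun i _ => ?_
    rw [Algebra.smul_def, coeff_map]
    refine mul_mem ?_ (pow_mem (IntermediateField.subset_adjoin _ _ (by simp)) _)
    change algebraMap k Ω (aeval b0 _) ∈ _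
    rw [← aeval_algebraMap_apply]
    exact IntermediateField.algebra_adjoin_le_adjoin _ _
      (Algebra.adjoin_mono (by simp) (aeval_mem_adjoin_singleton ℂ _))
  · rw [transcendental_iff.1 h.hx p h4] at hG
    rcases mul_eq_zero.1 hG.symm with h5 | h5
    · exact X_sub_C_ne_zero t h5
    · simp [h5] at h2

theorem unr0 [IsAlgClosed k] (D : Dat Ω) (hb : D.b = algebraMap k Ω b0) (hx : D.x = x) {w : Ω}
    (hw : w ≠ 0) (hS : ∀ t ∉ D.S, ∀ V, dsW0 (algebraMap k Ω b0) x t V → w ∈ V ∧ w⁻¹ ∈ V) :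
    D.Unr0 w := by
  intro V hV hbV hxV hp ha hn
  rw [hb] at hbV hp
  rw [hx] at hxV
  rw [hb, hx] at ha hn ⊢
  by_cases h1 : ∃ t : ℂ, V.valuation (algebraMap k Ω b0 - algebraMap ℂ Ω t) < 1
  · obtain ⟨t, ht⟩ := h1
    obtain ⟨h2, h3⟩ := hS t (fun h => ht.ne (hp t h)) V
      ⟨⟨hV, ht⟩, hxV, fun c hc => hn ⟨t, c, ht, hc⟩⟩
    exact ⟨1, one_mem _, one_ne_zero, by rw [ds_one hw h2 h3, map_one]⟩
  have hk : ∀ c : k, algebraMap k Ω c ∈ V := fun c =>
    ds_int (fun y => ds_field hV hbV (not_exists.1 h1) y.2)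
      (h.int1 (IntermediateField.mem_adjoin_simple_self ℂ _) c)
  by_cases h2 : ∃ t : k, V.valuation (x - algebraMap k Ω t) < 1
  · obtain ⟨t, ht⟩ := h2
    obtain ⟨n, hn⟩ := h.unr V hk t (fun i hi => ht.ne (by rw [hi, ds_av]; exact ha i)) ht w hw
    obtain ⟨u, h3, h4, h5⟩ := h.exists_val hk ht
    exact ⟨u ^ n, zpow_mem h3 n, zpow_ne_zero n h4, by rw [hn, map_zpow₀, h5]⟩
  · have h3 : ∀ z, z ∈ V := fun z =>
      ds_int (fun y => ds_field hk hxV (not_exists.1 h2) y.2) (h.int z)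
    exact ⟨1, one_mem _, one_ne_zero, by rw [ds_one hw (h3 _) (h3 _), map_one]⟩

end DsH

end Vale.Agent.P300
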