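import Vale.Agent.P300.DTop
import Vale.Agent.P300.DTau
import Vale.Agent.P300.DChartX2

/-! P300: a model with regular local rings satisfies the Jacobian criterion. -/

noncomputable section

namespace Vale.Agent.P300

open MvPolynomial

variable {Ω : Type} [Field Ω] [Algebra ℂ Ω] {ι : Type} [Fintype ι]

theorem isProjAlg_Zt (t : ι → Ω) : IsProjAlg (Zt t) :=
  ⟨_, fun _ hP => hP.1, rfl⟩

theorem isSmoothProj_Zt (t : ι → Ω) (h : ∀ y : Zt t, ∃ u v, (la t y).Coord u v) :
    IsSmoothProj (Zt t) := by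
  classical
  rintro v ⟨hv0, hv⟩
  obtain ⟨j, hj⟩ : ∃ j, v j ≠ 0 := Function.ne_iff.1 hv0
  have hj' := (dca_mk j ⟨v, hv0⟩).2.2 hj
  have htj := t_ne_of_rep ⟨_, hv⟩ hj'
  have hA := dc_aff ⟨_, hv⟩ hj'
  rw [(dca_mk j ⟨v, hv0⟩).1] at hA
  obtain ⟨u, u', hc⟩ := h ⟨_, hv⟩
  obtain ⟨U, V, G, hf⟩ := hA.exists_fr hc.1.1 hc.1.2.1
  obtain ⟨c, f, f1, f2, f3⟩ := dc_pick (fun i => v i / v j)
    {P : MvPolynomial ι ℂ | (∃ d, P.IsHomogeneous d) ∧ aeval t P = 0}
  choose d hd using fun k => (f1 k).1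
  obtain ⟨g, g1, g2⟩ := dc_krull hA hf hc
    (Ideal.span (Set.range fun o : Option (Fin c) => o.elim (X j - 1) f))
    (dc_span_van fun o => by
      cases o with
      | none => simp [htj]
      | some k => rw [Option.elim_some, db_ratio (hd k), (f1 k).2, mul_zero])
    fun ξ hξ P hP => by
      have b1 : ξ j = 0 := by
        have b2 := hξ _ (Ideal.subset_span ⟨none, rfl⟩)
        simp only [Option.elim_none] at b2
        rw [map_sub, dcg_X, ← C_1, dcg_C, sub_zero, single_dotProduct, one_mul] at b2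
        exact b2
      obtain ⟨Q, q1, q2, q3⟩ := dc_homog (a := fun i => v i / v j) htj (div_self hj) b1 hP
      rw [← q3]
      exact f3 ξ (fun k => hξ _ (Ideal.subset_span ⟨some k, rfl⟩)) Q ⟨q1, q2⟩
  refine ⟨c, f, fun k => (f1 k).1, ?_, ?_, ?_⟩
  · rintro k w ⟨hw0, hw⟩
    obtain ⟨e, he, b1⟩ := db_rep_mk ⟨w, hw0⟩
    have b2 := hw (f k) (f1 k)
    rw [b1, db_scale_eval (hd k)] at b2
    exact (mul_eq_zero.1 b2).resolve_left (pow_ne_zero _ he)
  · have b1 := f2.units_smul fun k => Units.mk0 (v j ^ (d k - 1)) (pow_ne_zero _ hj)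
    have b3 : (fun k i => eval v (pderiv i (f k))) =
        (fun k => Units.mk0 (v j ^ (d k - 1)) (pow_ne_zero _ hj)) •
          fun k => dcg (fun i => v i / v j) (f k) := by
      ext k i
      have b2 := db_scale_eval ((hd k).pderiv (i := i)) (v j) fun i => v i / v j
      simp only [mul_div_cancel₀ _ hj] at b2
      exact b2
    rw [b3]
    exact b1
  · have b1 : ContinuousAt (fun w : ι → ℂ => eval (fun i => w i / w j) g) v :=
      g.continuous_eval.continuousAt.comp (continuousAt_pi.2 fun i =>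
        (continuous_apply i).continuousAt.div (continuous_apply j).continuousAt hj)
    filter_upwards [b1.eventually_ne g1, (continuous_apply j).continuousAt.eventually_ne hj]
      with w w1 w2 w3
    have hw0 : w ≠ 0 := fun e => w2 (by rw [e]; rfl)
    obtain ⟨y, y1, y2⟩ := dc_pt htj (w := fun i => w i / w j) fun P hP => by
      have b2 := dc_span_van (w := fun i => w i / w j) (fun o => by
        cases o with
        | none => simp [w2]
        | some k =>
          rw [Option.elim_some, db_ratio (hd k)]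
          exact mul_eq_zero_of_right _ (w3 k)) _ (g2 P hP)
      rw [map_mul] at b2
      exact (mul_eq_zero.1 b2).resolve_left w1
    refine ⟨hw0, ?_⟩
    rw [dca_inj ((dca_mk j ⟨w, hw0⟩).2.2 w2) y1 ((dca_mk j ⟨w, hw0⟩).1.trans y2.symm)]
    exact y.2

end Vale.Agent.P300
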