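import Vale.Agent.P300.DBasic

/-! P300: a character of a subalgebra has a centre on a projective model. -/

noncomputable section

namespace Vale.Agent.P300

open MvPolynomial

theorem DSpm_char {B ι : Type} [CommRing B] [Algebra ℂ B] [Fintype ι] (s : ι → B) (P : Ideal B)
    (hP : P ≠ ⊤) (h : ∀ z : B, ∃ F : MvPolynomial ι ℂ, z - aeval s F ∈ P) :
    ∃ ψ : B →ₐ[ℂ] ℂ, ∀ z ∈ P, ψ z = 0 := by
  obtain ⟨m, hm, hle⟩ := P.exists_le_maximal hP
  let := Ideal.Quotient.field m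
  have h1 : Algebra.FiniteType ℂ (B ⧸ m) :=
    Algebra.FiniteType.of_surjective ((Ideal.Quotient.mkₐ ℂ m).comp (aeval s)) fun z => by
      obtain ⟨z, rfl⟩ := Ideal.Quotient.mk_surjective z
      obtain ⟨F, hF⟩ := h z
      exact ⟨F, (Ideal.Quotient.eq.2 (hle hF)).symm⟩
  have h2 := finite_of_finite_type_of_isJacobsonRing ℂ (B ⧸ m)
  have h3 : Function.Bijective (Algebra.ofId ℂ (B ⧸ m)) :=
    IsAlgClosed.algebraMap_bijective_of_isIntegral
  refine ⟨(AlgEquiv.ofBijective _ h3).symm.toAlgHom.comp (Ideal.Quotient.mkₐ ℂ m), fun z hz => ?_⟩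
  have h4 : Ideal.Quotient.mkₐ ℂ m z = 0 := Ideal.Quotient.eq_zero_iff_mem.2 (hle hz)
  rw [AlgHom.comp_apply, h4, map_zero]

variable {Ω : Type} [Field Ω] [Algebra ℂ Ω] {ι : Type}

theorem DSpm_val_const {V : ValuationSubring Ω} (hC : ∀ c : ℂ, algebraMap ℂ Ω c ∈ V) {c : ℂ}
    (hc : c ≠ 0) : V.valuation (algebraMap ℂ Ω c) = 1 := by
  have h1 := (V.valuation_le_one_iff _).2 (hC c)
  have h2 := (V.valuation_le_one_iff _).2 (hC c⁻¹)
  have h3 : V.valuation (algebraMap ℂ Ω c) ≠ 0 := by simpa using hc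
  rw [map_inv₀, map_inv₀, inv_le_one₀ (zero_lt_iff.2 h3)] at h2
  exact le_antisymm h1 h2

theorem DSpm_val_one {V : ValuationSubring Ω} (hC : ∀ c : ℂ, algebraMap ℂ Ω c ∈ V) {c : ℂ}
    (hc : c ≠ 0) {z : Ω} (h : V.valuation (z - algebraMap ℂ Ω c) < 1) : V.valuation z = 1 := by
  rw [← DSpm_val_const hC hc] at h ⊢
  exact V.valuation.map_eq_of_sub_lt h

theorem DSpm_ker (B : Subalgebra ℂ Ω) (ψ : B →ₐ[ℂ] ℂ) : ∃ V : ValuationSubring Ω,
    (∀ z ∈ B, z ∈ V) ∧ ∀ z : B, V.valuation (z - algebraMap ℂ Ω (ψ z)) < 1 := by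
  let I : Ideal B.toSubring := RingHom.ker (R := B.toSubring) ψ.toRingHom
  obtain ⟨V, h1, h2⟩ := Ideal.image_subset_nonunits_valuationSubring I (RingHom.ker_ne_top _)
  refine ⟨V, fun z hz => h1 hz, fun z => V.mem_nonunits_iff.1
    (h2 ⟨(z - algebraMap ℂ B (ψ z) : B), ?_, rfl⟩)⟩
  change ψ (z - algebraMap ℂ B (ψ z)) = 0
  rw [map_sub, ψ.commutes]
  exact sub_self _

/-- the sum of a subalgebra of a valuation ring and of the maximal ideal -/
def DSpm_alg (V : ValuationSubring Ω) (A : Subalgebra ℂ Ω) (hA : ∀ z ∈ A, z ∈ V) :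
    Subalgebra ℂ Ω where
  carrier := {z | ∃ a ∈ A, V.valuation (z - a) < 1}
  mul_mem' := by
    rintro z w ⟨a, ha, h1⟩ ⟨b, hb, h2⟩
    refine ⟨a * b, A.mul_mem ha hb, ?_⟩
    have e : z * w - a * b = (z - a) * (w - b) + (a * (w - b) + (z - a) * b) := by ring
    rw [e]
    refine V.valuation.map_add_lt ?_ (V.valuation.map_add_lt ?_ ?_) <;> rw [map_mul]
    · exact (mul_le_of_le_one_left' h1.le).trans_lt h2
    · exact (mul_le_of_le_one_left' ((V.valuation_le_one_iff _).2 (hA a ha))).trans_lt h2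
    · exact (mul_le_of_le_one_right' ((V.valuation_le_one_iff _).2 (hA b hb))).trans_lt h1
  add_mem' := by
    rintro z w ⟨a, ha, h1⟩ ⟨b, hb, h2⟩
    refine ⟨a + b, A.add_mem ha hb, ?_⟩
    rw [add_sub_add_comm]
    exact V.valuation.map_add_lt h1 h2
  algebraMap_mem' := fun c => ⟨_, A.algebraMap_mem c, by simp⟩

theorem DSpm_place [Fintype ι] (R : Subalgebra ℂ Ω) (χ : R →ₐ[ℂ] ℂ) (t : ι → Ω)
    (ht : ∃ i, t i ≠ 0) : ∃ (y : Zt t) (V : ValuationSubring Ω), (∀ z ∈ (la t y).O, z ∈ V) ∧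
      (∀ z, (la t y).Mx z → V.valuation z < 1) ∧
      ∀ r : R, V.valuation (r - algebraMap ℂ Ω (χ r)) < 1 := by
  obtain ⟨V0, hR, hχ⟩ := DSpm_ker R χ
  obtain ⟨i0, hi0⟩ := ht
  have : Nonempty ι := ⟨i0⟩
  obtain ⟨j, hj⟩ := Finite.exists_max fun i => V0.valuation (t i)
  have hv : 0 < V0.valuation (t j) := (zero_lt_iff.2 (by simpa using hi0)).trans_le (hj i0)
  have hj0 : t j ≠ 0 := fun h => by simp [h] at hv
  have hA : ∀ z ∈ chA t j, z ∈ V0 := fun z hz =>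
    Algebra.adjoin_le (S := ⟨V0.toSubring.toSubsemiring, fun c => hR _ (R.algebraMap_mem c)⟩)
      (Set.range_subset_iff.2 fun i => (V0.valuation_le_one_iff _).1 (by
        rw [map_div₀, div_le_one₀ hv]
        exact hj i)) hz
  have hAB : chA t j ≤ DSpm_alg V0 _ hA := fun z hz => ⟨z, hz, by simp⟩
  have hBV : ∀ z : DSpm_alg V0 _ hA, V0.valuation z ≤ 1 := fun z => by
    obtain ⟨a, ha, h1⟩ := z.2
    rw [← sub_add_cancel z.1 a]
    exact V0.valuation.map_add_le h1.le ((V0.valuation_le_one_iff _).2 (hA a ha))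
  let P : Ideal (DSpm_alg V0 _ hA) :=
    { carrier := {z | V0.valuation z < 1}
      add_mem' := fun h1 h2 => V0.valuation.map_add_lt h1 h2
      zero_mem' := by simp
      smul_mem' := fun c z h1 => by
        change V0.valuation (c.1 * z.1) < 1
        rw [map_mul]
        exact (mul_le_of_le_one_left' (hBV c)).trans_lt h1 }
  let s : ι → DSpm_alg V0 _ hA := fun i => ⟨t i / t j, hAB (Algebra.subset_adjoin ⟨i, rfl⟩)⟩
  obtain ⟨ψ, hψ⟩ := DSpm_char s P (by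
    rw [Ideal.ne_top_iff_one]
    change ¬ V0.valuation 1 < 1
    simp) fun z => by
      obtain ⟨a, ha, h1⟩ := z.2
      rw [chA, Algebra.adjoin_range_eq_range_aeval] at ha
      obtain ⟨F, rfl⟩ := ha
      refine ⟨F, ?_⟩
      change V0.valuation (z.1 - (DSpm_alg V0 _ hA).val (aeval s F)) < 1
      rw [comp_aeval_apply]
      exact h1
  obtain ⟨y, hy, hev⟩ := pt_of_hom t hj0 (ψ.comp (Subalgebra.inclusion hAB))
  obtain ⟨V, hB, hV⟩ := DSpm_ker _ ψ
  have hC : ∀ c : ℂ, algebraMap ℂ Ω c ∈ V := fun c => hB _ (Subalgebra.algebraMap_mem _ c)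
  have key : ∀ z ∈ (la t y).O, ∃ r ∈ chA t j, V.valuation z = V.valuation r ∧
      ((la t y).ev z = 0 → (la t y).ev r = 0) := fun z hz => by
    obtain ⟨r, hr, s, hs, h1, h2⟩ := (locOf_chA y hy).2 z hz
    refine ⟨r, hr, ?_, fun h3 => ?_⟩
    · have h3 := hV ⟨s, hAB hs⟩
      rw [show ψ ⟨s, hAB hs⟩ = (la t y).ev s from (hev ⟨s, hs⟩).symm] at h3
      rw [← h2, map_mul, DSpm_val_one hC h1 h3, mul_one]
    · rw [← h2, (la t y).ev_mul _ hz _ ((locOf_chA y hy).1 hs), h3, zero_mul]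
  refine ⟨y, V, fun z hz => ?_, fun z hz => ?_, fun r => ?_⟩
  · obtain ⟨r, hr, h1, -⟩ := key z hz
    rw [← V.valuation_le_one_iff, h1, V.valuation_le_one_iff]
    exact hB _ (hAB hr)
  · obtain ⟨r, hr, h1, h2⟩ := key z hz.1
    have h3 := hV ⟨r, hAB hr⟩
    rw [show ψ ⟨r, hAB hr⟩ = (la t y).ev r from (hev ⟨r, hr⟩).symm, h2 hz.2, map_zero,
      sub_zero] at h3
    rwa [h1]
  · have h1 : r.1 - algebraMap ℂ Ω (χ r) ∈ DSpm_alg V0 _ hA :=
      ⟨0, zero_mem _, by simpa using hχ r⟩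
    have h2 := hV ⟨_, h1⟩
    rwa [hψ ⟨_, h1⟩ (hχ r), map_zero, sub_zero] at h2

end Vale.Agent.P300
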