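import Vale.Agent.P300.EChart
import Vale.Agent.P300.TU0
import Vale.Agent.P300.DSpmX1

/-! P300: the open part of a good model is the space of characters, and a finite covering. -/

noncomputable section

namespace Vale.Agent.P300

open Topology Filter

theorem DSpm_map_av {A B : Type} [CommRing A] [CommRing B] (f : A →+* B) (i : Fin 5) (b : A) :
    f (av i b) = av i (f b) := by
  fin_cases i <;> simp [av]

theorem DSpm_cont_av (i : Fin 5) : Continuous fun b : ℂ => av i b := by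
  fin_cases i <;> simp only [av] <;> simp <;> fun_prop

theorem DSpm_zpow {α : Type} {l : Filter α} [l.NeBot] {f : α → ℂ} {N : ℤ} {c : ℂ}
    (hf : Tendsto f l (𝓝 0)) (h : Tendsto (fun a => f a ^ N) l (𝓝 c)) (hc : c ≠ 0) : N = 0 := by
  obtain ⟨n, rfl | rfl⟩ := N.eq_nat_or_neg
  · by_contra hn
    have h1 := hf.pow n
    rw [zero_pow (by simpa using hn)] at h1
    simp only [zpow_natCast] at h
    exact hc (tendsto_nhds_unique h h1)
  · by_contra hn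
    have h1 := hf.pow n
    rw [zero_pow (by simpa using hn)] at h1
    have h2 := h.inv₀ hc
    simp only [zpow_neg, inv_inv, zpow_natCast] at h2
    exact inv_ne_zero hc (tendsto_nhds_unique h2 h1)

variable {Ω : Type} [Field Ω] [Algebra ℂ Ω] {ι : Type} [Fintype ι]

theorem DSpm_isU_of_val {D : Dat Ω} {L : LA Ω} {u v : Ω} {e : D.Ix → ℤ × ℤ}
    (h : D.InvAt L u v e) {V : ValuationSubring Ω} (h1 : ∀ z ∈ L.O, z ∈ V)
    (h2 : ∀ z, L.Mx z → V.valuation z < 1) (h3 : ∀ φ, V.valuation (D.phi φ) = 1) : D.IsU L := by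
  have hC : ∀ c : ℂ, algebraMap ℂ Ω c ∈ V := fun c => h1 _ (L.O.algebraMap_mem c)
  have hu0 : 0 < V.valuation u := zero_lt_iff.2 (by simpa using h.1.ne_zero.1)
  have hv0 : 0 < V.valuation v := zero_lt_iff.2 (by simpa using h.1.ne_zero.2)
  have h4 : ∀ φ, V.valuation u ^ (e φ).1 * V.valuation v ^ (e φ).2 = 1 := fun φ => by
    obtain ⟨ε, hε, h5⟩ := h.2.1 φ
    have h6 := h3 φ
    rwa [h5, map_mul, map_mul, map_zpow₀, map_zpow₀,
      DSpm_val_one hC hε.2 (h2 _ (LA.mx_ctr hε.1)), one_mul] at h6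
  have h7 : ∀ N : ℤ, V.valuation u ^ N = 1 → N = 0 := fun N hN =>
    (zpow_eq_one_iff_right₀ hu0.le (h2 u h.1.1.1).ne).1 hN
  rcases h.2.2 with ⟨h0, -⟩ | ⟨h0, ⟨φ, hφ⟩, -⟩ | ⟨φ, φ', hφ⟩
  · intro φ
    obtain ⟨ε, hε, h5⟩ := h.2.1 φ
    simpa [h5, h0 φ] using hε
  · exact absurd (h7 _ (by simpa [h0 φ] using h4 φ)) hφ
  · refine absurd (h7 _ ?_) hφ
    have h8 := congrArg (· ^ (e φ').2) (h4 φ)
    have h9 := congrArg (· ^ (e φ).2) (h4 φ')
    simp only [mul_zpow, ← zpow_mul, one_zpow] at h8 h9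
    rw [mul_comm (e φ').2, ← h8] at h9
    rw [zpow_sub₀ hu0.ne', mul_comm (e φ).2,
      mul_right_cancel₀ (zpow_ne_zero _ hv0.ne') h9, div_self (zpow_ne_zero _ hu0.ne')]

theorem DSpm_mem_RM {D : Dat Ω} {M : IntermediateField ℂ Ω} {z : Ω} (hz : z ∈ M)
    (h : z ∈ Algebra.adjoin ℂ {D.b, D.x}) : z ∈ D.RM M :=
  ⟨isIntegral_algebraMap (x := (⟨z, h⟩ : Algebra.adjoin ℂ {D.b, D.x})), hz⟩

theorem DSpm_b_mem {D : Dat Ω} {M : IntermediateField ℂ Ω} (hb : D.b ∈ M) : D.b ∈ D.RM M :=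
  DSpm_mem_RM hb (Algebra.subset_adjoin (by simp))

theorem DSpm_x_mem {D : Dat Ω} {M : IntermediateField ℂ Ω} (hx : D.x ∈ M) : D.x ∈ D.RM M :=
  DSpm_mem_RM hx (Algebra.subset_adjoin (by simp))

theorem DSpm_rt_mem {D : Dat Ω} {M : IntermediateField ℂ Ω} {p : ℂ} (hp : p ∈ D.S)
    (hrt : D.rt p ∈ M) : D.rt p ∈ D.RM M := by
  refine ⟨IsIntegral.of_pow D.hE ?_, hrt⟩
  rw [D.hrt p hp]
  exact isIntegral_algebraMap (x := (⟨_, Subalgebra.sub_mem _
    (Algebra.subset_adjoin (by simp)) (Subalgebra.algebraMap_mem _ p)⟩ :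
      Algebra.adjoin ℂ {D.b, D.x}))

/-- a character as an algebra homomorphism -/
def DSpm_hom {D : Dat Ω} {M : IntermediateField ℂ Ω} (χ : D.Spm M) : D.RM M →ₐ[ℂ] ℂ where
  toFun z := χ.1 z
  map_one' := by simpa using χ.2.2.1 1
  map_mul' z w := (χ.2.1 _ z.2 _ w.2).2
  map_zero' := by simpa using χ.2.2.1 0
  map_add' z w := (χ.2.1 _ z.2 _ w.2).1
  commutes' c := χ.2.2.1 c

theorem DSpm_surj {D : Dat Ω} {M : IntermediateField ℂ Ω} {t : ι → Ω} (hG : D.Good M t)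
    (hb : D.b ∈ M) (hx : D.x ∈ M) (hrt : ∀ p ∈ D.S, D.rt p ∈ M) (χ : D.Spm M) :
    ∃ y : Zt t, D.IsU (la t y) ∧ ∀ z ∈ D.RM M, (la t y).ev z = χ.1 z := by
  obtain ⟨y, V, h1, h2, h3⟩ := DSpm_place (D.RM M) (DSpm_hom χ) t hG.1
  have hC : ∀ c : ℂ, algebraMap ℂ Ω c ∈ V := fun c => h1 _ (Subalgebra.algebraMap_mem _ c)
  obtain ⟨-, ⟨u, v, e, hi⟩, hl⟩ := hG.2 y
  have hU : D.IsU (la t y) := by
    refine DSpm_isU_of_val hi h1 h2 ?_
    rintro (p | i)
    · refine DSpm_val_one hC (fun h0 => χ.2.2.2.2.1 ?_) (h3 ⟨_, DSpm_rt_mem p.2 (hrt _ p.2)⟩)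
      have h4 : (⟨_, DSpm_rt_mem p.2 (hrt _ p.2)⟩ : D.RM M) ^ D.E =
          ⟨_, DSpm_b_mem hb⟩ - algebraMap ℂ _ p.1 := Subtype.ext (D.hrt _ p.2)
      have h5 := congrArg (DSpm_hom χ) h4
      rw [map_pow, h0, zero_pow D.hE.ne', map_sub, AlgHom.commutes, eq_comm, sub_eq_zero] at h5
      rw [show χ.1 D.b = p.1 from h5]
      exact p.2
    · have h4 := h3 (⟨_, DSpm_x_mem hx⟩ - av i ⟨_, DSpm_b_mem hb⟩)
      have h5 : ((⟨_, DSpm_x_mem hx⟩ - av i ⟨_, DSpm_b_mem hb⟩ : D.RM M) : Ω) =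
          D.phi (Sum.inr i) := congrArg (D.x - ·) (DSpm_map_av (D.RM M).val.toRingHom i _)
      rw [h5] at h4
      refine DSpm_val_one hC ?_ h4
      rw [map_sub, sub_ne_zero]
      exact (χ.2.2.2.2.2 i).trans_eq (DSpm_map_av (DSpm_hom χ).toRingHom i ⟨_, DSpm_b_mem hb⟩).symm
  refine ⟨y, hU, fun z hz => ?_⟩
  by_contra h4
  have h5 := V.valuation.map_sub_lt (h3 ⟨z, hz⟩) (h2 _ (LA.mx_ctr ((hl hU).1 hz)))
  rw [LA.ctr, sub_sub_sub_cancel_left, ← map_sub,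
    DSpm_val_const hC (c := _ - DSpm_hom χ ⟨z, hz⟩) (sub_ne_zero.2 h4)] at h5
  exact h5.false

open Classical in
theorem Dat.Good.exists_homeo {D : Dat Ω} {M : IntermediateField ℂ Ω} {t : ι → Ω} (hG : D.Good M t)
    (hb : D.b ∈ M) (hx : D.x ∈ M) (hrt : ∀ p ∈ D.S, D.rt p ∈ M) :
    ∃ h : {y : Zt t | D.IsU (la t y)} ≃ₜ D.Spm M,
      ∀ y, ∀ z ∈ D.RM M, (h y).1 z = (la t y.1).ev z := by
  have hl : ∀ y : {y : Zt t | D.IsU (la t y)}, (la t y.1).LocOf (D.RM M) := fun y =>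
    (hG.2 y.1).2.2 y.2
  let f : {y : Zt t | D.IsU (la t y)} → D.Spm M := fun y =>
    ⟨fun z => if z ∈ D.RM M then (la t y.1).ev z else 0, fun z hz w hw => by
      simp only [if_pos hz, if_pos hw, if_pos (add_mem hz hw), if_pos (mul_mem hz hw)]
      exact ⟨(la t y.1).ev_add _ ((hl y).1 hz) _ ((hl y).1 hw),
        (la t y.1).ev_mul _ ((hl y).1 hz) _ ((hl y).1 hw)⟩,
      fun c => by simp only [if_pos ((D.RM M).algebraMap_mem c), (la t y.1).ev_alg],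
      fun z hz => if_neg hz, by
      simp only [if_pos (DSpm_b_mem hb), if_pos (DSpm_x_mem hx)]
      exact (Dat.IsU.mem y.2).2.2.1⟩
  have hf : ∀ y, ∀ z ∈ D.RM M, (f y).1 z = (la t y.1).ev z := fun y z hz => if_pos hz
  have hbij : Function.Bijective f := by
    refine ⟨fun y y' h => Subtype.ext (la_inj (LA.eq_of_locOf (hl y) (hl y') fun z hz => ?_)),
      fun χ => ?_⟩
    · rw [← hf y z hz, h, hf y' z hz]
    · obtain ⟨y, hU, h⟩ := DSpm_surj hG hb hx hrt χ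
      refine ⟨⟨y, hU⟩, Subtype.ext (funext fun z => ?_)⟩
      by_cases hz : z ∈ D.RM M
      · rw [hf _ z hz, h z hz]
      · rw [(f _).2.2.2.1 z hz, χ.2.2.2.1 z hz]
  let E := Equiv.ofBijective f hbij
  have hE : ∀ χ, ∀ z ∈ D.RM M, (la t (E.symm χ).1).ev z = χ.1 z := fun χ z hz => by
    rw [← hf _ z hz]
    exact congrArg (fun χ : D.Spm M => χ.1 z) (E.apply_symm_apply χ)
  refine ⟨⟨E, ?_, ?_⟩, hf⟩
  · refine Continuous.subtype_mk (continuous_pi fun z => ?_) _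
    by_cases hz : z ∈ D.RM M
    · simp only [if_pos hz]
      exact (continuousOn_ev t z).comp_continuous continuous_subtype_val fun y => (hl y).1 hz
    · simp only [if_neg hz]
      exact continuous_const
  · refine continuous_iff_continuousAt.2 fun χ0 => tendsto_subtype_rng.2 ?_
    obtain ⟨j, hj⟩ := db_exists_rep (E.symm χ0).1.1
    choose r hr s hs h1 h2 using fun i => (hl (E.symm χ0)).2 _ (ratio_mem _ hj i).1
    have hc : ∀ z, Continuous fun χ : D.Spm M => χ.1 z := fun z =>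
      (continuous_apply z).comp continuous_subtype_val
    have h3 : ∀ i, χ0.1 (s i) ≠ 0 := fun i => by
      rw [← hE χ0 _ (hs i)]
      exact h1 i
    have key : ∀ χ : D.Spm M, (∀ i, χ.1 (s i) ≠ 0) → (E.symm χ).1.1.rep j ≠ 0 ∧
        ∀ i, (E.symm χ).1.1.rep i / (E.symm χ).1.1.rep j = χ.1 (r i) / χ.1 (s i) := by
      intro χ hχ
      have h4 : ∀ i, t i / t j ∈ (la t (E.symm χ).1).O := fun i => by
        have h5 : (la t (E.symm χ).1).Un (s i) :=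
          ⟨(hl _).1 (hs i), by rw [hE χ _ (hs i)]; exact hχ i⟩
        rw [(eq_mul_inv_iff_mul_eq₀ h5.ne_zero).2 (h2 i)]
        exact mul_mem ((hl _).1 (hr i)) h5.inv.1.1
      have h5 := rep_ne_of_ratio _ (t_ne_of_rep _ hj) h4
      refine ⟨h5, fun i => ?_⟩
      rw [← (ratio_mem _ h5 i).2, eq_div_iff (hχ i), ← hE χ _ (hs i), ← hE χ _ (hr i), ← h2 i,
        (la t _).ev_mul _ (h4 i) _ ((hl _).1 (hs i))]
    have h4 : ∀ᶠ χ in 𝓝 χ0, ∀ i, χ.1 (s i) ≠ 0 :=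
      eventually_all.2 fun i => (hc (s i)).continuousAt.eventually_ne (h3 i)
    refine tendsto_of_ratio t (fun χ => (E.symm χ).1) (E.symm χ0).1 hj (h4.mono fun χ hχ => (key χ hχ).1) fun i => ?_
    rw [(key χ0 h3).2 i]
    exact (((hc (r i)).tendsto χ0).div ((hc (s i)).tendsto χ0) (h3 i)).congr'
      (h4.mono fun χ hχ => ((key χ hχ).2 i).symm)

/-- the projection of the open part of a good model -/
def Dat.prU (D : Dat Ω) (t : ι → Ω) (y : {y : Zt t | D.IsU (la t y)}) : U0 D.S :=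
  ⟨((la t y.1).ev D.b, (la t y.1).ev D.x), (Dat.IsU.mem y.2).2.2.1⟩

theorem DSpm_cont (D : Dat Ω) (t : ι → Ω) : Continuous (D.prU t) :=
  (((continuousOn_ev t D.b).comp_continuous continuous_subtype_val
    fun y => (Dat.IsU.mem y.2).1).prodMk ((continuousOn_ev t D.x).comp_continuous
      continuous_subtype_val fun y => (Dat.IsU.mem y.2).2.1)).subtype_mk _

theorem DSpm_local {D : Dat Ω} {M : IntermediateField ℂ Ω} {t : ι → Ω} (hG : D.Good M t) :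
    IsLocalHomeomorph (D.prU t) := by
  refine IsLocalHomeomorph.of_comp ?_ (isOpen_U0 D.S).isOpenEmbedding_subtypeVal.isLocalHomeomorph
    (DSpm_cont D t)
  have h1 : IsLocalHomeomorphOn (fun y : Zt t => ((la t y).ev D.b, (la t y).ev D.x))
      {y | D.IsU (la t y)} := by
    refine IsLocalHomeomorphOn.mk _ _ fun y hy => ?_
    obtain ⟨ch, hch⟩ := exists_achart t y (hG.coord_of_isU hy) ((isOpen_isU D t).mem_nhds hy)
    refine ⟨ch.κ.transHomeomorph (Homeomorph.addRight ((la t y).ev D.b, (la t y).ev D.x)),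
      ch.mem, fun y' hy' => ?_⟩
    have h2 := Dat.IsU.mem (hch hy')
    change _ = ch.κ y' + _
    rw [ch.kap y' hy', LA.ctr, LA.ctr, LA.ev_sub h2.1 (Subalgebra.algebraMap_mem _ _),
      LA.ev_sub h2.2.1 (Subalgebra.algebraMap_mem _ _), LA.ev_alg, LA.ev_alg]
    simp
  exact isLocalHomeomorph_iff_isLocalHomeomorphOn_univ.2 (h1.comp
    (isOpen_isU D t).isOpenEmbedding_subtypeVal.isLocalHomeomorph.isLocalHomeomorphOn
      fun y _ => y.2)

theorem DSpm_limit {D : Dat Ω} {M : IntermediateField ℂ Ω} {t : ι → Ω} (hG : D.Good M t)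
    {l : Filter {y : Zt t | D.IsU (la t y)}} [l.NeBot] {q : U0 D.S}
    (hq : Tendsto (D.prU t) l (𝓝 q)) {y : Zt t} (hy : Tendsto Subtype.val l (𝓝 y)) :
    D.IsU (la t y) := by
  obtain ⟨ch, -⟩ := exists_chart hG y univ_mem
  have hs : ∀ᶠ a in l, a.1 ∈ ch.A.κ.source := hy (ch.A.κ.open_source.mem_nhds ch.A.mem)
  have hκ : Tendsto (fun a : {y : Zt t | D.IsU (la t y)} => ch.A.κ a.1) l (𝓝 0) :=
    ch.A.ctr ▸ (ch.A.κ.continuousAt ch.A.mem).tendsto.comp hy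
  have hq' := tendsto_subtype_rng.1 hq
  have h1 : ∀ φ, ∃ c ≠ 0, Tendsto (fun a : {y : Zt t | D.IsU (la t y)} =>
      (la t a.1).ev (D.phi φ) ^ D.E) l (𝓝 c) := by
    rintro (p | i)
    · refine ⟨q.1.1 - p, sub_ne_zero.2 fun h => q.2.1 (h ▸ p.2),
        (hq'.fst_nhds.sub_const p.1).congr fun a => ((Dat.IsU.mem a.2).2.2.2.1 p).symm⟩
    · refine ⟨_, pow_ne_zero D.E (sub_ne_zero.2 (q.2.2 i)), Tendsto.pow
        ((hq'.snd_nhds.sub (((DSpm_cont_av i).tendsto _).comp hq'.fst_nhds)).congr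
          fun a => ((Dat.IsU.mem a.2).2.2.2.2 i).symm) _⟩
  have h2 : ∀ φ, ∃ c ≠ 0, Tendsto (fun a : {y : Zt t | D.IsU (la t y)} =>
      ((ch.A.κ a.1).1 ^ (ch.e φ).1 * (ch.A.κ a.1).2 ^ (ch.e φ).2) ^ D.E) l (𝓝 c) := fun φ => by
    obtain ⟨c, hc, h3⟩ := h1 φ
    have h4 := ch.un y ch.A.mem φ
    have h5 := (((continuousOn_ev t (ch.ε φ)).continuousAt
      ((isOpen_reg t _).mem_nhds h4.1)).tendsto.comp hy).pow D.E
    refine ⟨_, div_ne_zero hc (pow_ne_zero _ h4.2), (h3.div h5 (pow_ne_zero _ h4.2)).congr' ?_⟩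
    filter_upwards [hs] with a ha
    rw [Pi.div_apply, ch.ev_phi ha a.2, mul_assoc, mul_pow, Function.comp_apply,
      mul_div_cancel_left₀ _ (pow_ne_zero _ (ch.un _ ha φ).2)]
  have hE : (D.E : ℤ) ≠ 0 := by exact_mod_cast D.hE.ne'
  rcases ch.inv.2.2 with ⟨h0, -⟩ | ⟨h0, ⟨φ, hφ⟩, -⟩ | ⟨φ, φ', hφ⟩
  · rw [ch.isU_iff ch.A.mem]
    simp [h0]
  · obtain ⟨c, hc, h3⟩ := h2 φ
    simp only [h0 φ, zpow_zero, mul_one, ← zpow_natCast, ← zpow_mul] at h3
    exact absurd (DSpm_zpow hκ.fst_nhds h3 hc) (mul_ne_zero hφ hE)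
  · obtain ⟨c, hc, h3⟩ := h2 φ
    obtain ⟨c', hc', h4⟩ := h2 φ'
    have h5 := (h3.zpow₀ (ch.e φ').2 (Or.inl hc)).div (h4.zpow₀ (ch.e φ).2 (Or.inl hc'))
      (zpow_ne_zero _ hc')
    have e1 : ∃ ψ, (ch.e ψ).1 ≠ 0 := by
      by_contra h6
      push Not at h6
      simp [h6] at hφ
    have e2 : ∃ ψ, (ch.e ψ).2 ≠ 0 := by
      by_contra h6
      push Not at h6
      simp [h6] at hφ
    refine absurd (DSpm_zpow hκ.fst_nhds (h5.congr' ?_)
      (div_ne_zero (zpow_ne_zero _ hc) (zpow_ne_zero _ hc'))) (mul_ne_zero hφ hE)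
    filter_upwards [hs] with a ha
    obtain ⟨h6, h7⟩ := (ch.isU_iff ha).1 a.2
    have h8 := h6 e1
    have h9 := h7 e2
    simp only [Pi.div_apply, ← zpow_natCast, mul_zpow, ← zpow_mul]
    rw [mul_div_mul_comm, ← zpow_sub₀ h8, ← zpow_sub₀ h9,
      show (ch.e φ).2 * D.E * (ch.e φ').2 - (ch.e φ').2 * D.E * (ch.e φ).2 = 0 by ring,
      zpow_zero, mul_one]
    exact congrArg _ (by ring)

theorem Dat.Good.covering_prU {D : Dat Ω} {M : IntermediateField ℂ Ω} {t : ι → Ω}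
    (hG : D.Good M t) : IsCoveringMap (D.prU t) ∧ ∀ q, (D.prU t ⁻¹' {q}).Finite := by
  have := Zt.t2 t
  have := Zt.compact t
  have hp : IsProperMap (D.prU t) := by
    refine isProperMap_iff_ultrafilter_of_t2.2 ⟨DSpm_cont D t, fun 𝒰 q hq => ?_⟩
    obtain ⟨y, -, hy⟩ := isCompact_univ.ultrafilter_le_nhds (𝒰.map Subtype.val) (by simp)
    exact ⟨⟨y, DSpm_limit hG hq hy⟩, tendsto_subtype_rng.2 hy⟩
  have hl := DSpm_local hG
  have hf : ∀ q, (D.prU t ⁻¹' {q}).Finite := fun q =>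
    (hp.isCompact_preimage isCompact_singleton).finite
      (hl.isLocalHomeomorphOn.isDiscrete_of_image
        ((Set.finite_singleton q).subset (Set.image_preimage_subset _ _)).isDiscrete)
  exact ⟨isCoveringMap_iff_isCoveringMapOn_univ.2
    (hp.isClosedMap.isCoveringMapOn_of_isLocalHomeomorphOn (fun q _ => hf q)
      hl.isLocalHomeomorphOn), hf⟩

theorem Dat.Good.covering_prj {D : Dat Ω} {M : IntermediateField ℂ Ω} {t : ι → Ω} (hG : D.Good M t)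
    (hb : D.b ∈ M) (hx : D.x ∈ M) (hrt : ∀ p ∈ D.S, D.rt p ∈ M) :
    IsCoveringMap (D.prj M) ∧ ∀ q, (D.prj M ⁻¹' {q}).Finite := by
  obtain ⟨h, hh⟩ := hG.exists_homeo hb hx hrt
  obtain ⟨h1, h2⟩ := hG.covering_prU
  have e : D.prj M = D.prU t ∘ h.symm := by
    funext χ
    obtain ⟨y, rfl⟩ := h.surjective χ
    rw [Function.comp_apply, h.symm_apply_apply]
    exact Subtype.ext (Prod.ext (hh y _ (DSpm_b_mem hb)) (hh y _ (DSpm_x_mem hx)))
  rw [e]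
  exact ⟨h1.comp_homeomorph h.symm, fun q =>
    Set.Finite.preimage (f := h.symm) h.symm.injective.injOn (h2 q)⟩

end Vale.Agent.P300
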