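import Vale.Agent.P300.DCovL
import Vale.Agent.P300.DCov
import Vale.Agent.P300.DBlowL
import Vale.Agent.P300.DBlow

/-! P300: good models of unramified quadratic extensions. -/

noncomputable section

namespace Vale.Agent.P300

variable {Ω : Type} [Field Ω] [Algebra ℂ Ω]

theorem dstep_par {A : Type} [CommRing A] [IsDomain A] {U V E a F : A} (hU : Prime U)
    (hUV : ¬ U ∣ V) (hE : IsUnit E) (h : E * U * V = a ^ 2 * F) : U ∣ F := by
  have h1 : U ∣ a ^ 2 * F := ⟨E * V, by rw [← h]; ring⟩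
  refine (hU.dvd_or_dvd h1).resolve_left fun h2 => hUV ?_
  obtain ⟨b, rfl⟩ := hU.dvd_of_dvd_pow h2
  refine hE.dvd_mul_left.1 ⟨b ^ 2 * F, mul_left_cancel₀ hU.ne_zero ?_⟩
  linear_combination h

/-- a crossing of two branch curves is not in normal form -/
theorem dstep_not_br {L : LA Ω} [IsNoetherianRing L.O] {M : IntermediateField ℂ Ω}
    (hM : L.Frac M) {w h h' u v ε : Ω} (hc : L.Coord u v) (hε : L.Un ε) (hh : h ∈ M) (h0 : h ≠ 0)
    (e : w ^ 2 = h ^ 2 * (ε * u * v)) : ¬ L.Br M w h' := by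
  intro hB
  have e1 : (h⁻¹ * w) ^ 2 = ε * u * v := by
    rw [mul_pow, e, ← mul_assoc, ← mul_pow, inv_mul_cancel₀ h0, one_pow, one_mul]
  have hu := hc.1.1.1
  have hv := hc.1.2.1.1
  have ha := dcov_mem hM hB (M.inv_mem hh) (e1 ▸ L.O.mul_mem (L.O.mul_mem hε.1 hu) hv)
  have n1 : ¬ (⟨u, hu⟩ : L.O) ∣ ⟨v, hv⟩ := by simpa using LA.dufd_not_dvd hc 1
  have n2 : ¬ (⟨v, hv⟩ : L.O) ∣ ⟨u, hu⟩ := by simpa using LA.dufd_not_dvd hc.symm 1
  have key : ∀ F : L.O, w ^ 2 = h' ^ 2 * F → (⟨u, hu⟩ : L.O) ∣ F ∧ (⟨v, hv⟩ : L.O) ∣ F := by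
    intro F hF
    have e2 : ε * u * v = (h⁻¹ * h') ^ 2 * F := by
      rw [← e1, mul_pow, hF]
      ring
    exact ⟨dstep_par (E := ⟨ε, hε.1⟩) (a := ⟨_, ha⟩) hc.prime n1 (LA.db_isUnit hε.2)
      (Subtype.ext e2), dstep_par (E := ⟨ε, hε.1⟩) (a := ⟨_, ha⟩) hc.symm.prime n2
      (LA.db_isUnit hε.2) (Subtype.ext ((mul_right_comm ε v u).trans e2))⟩
  obtain ⟨-, -, u', v', ε', hc', hε', e' | e'⟩ := hB
  · exact hc.prime.not_isUnit (isUnit_of_dvd_unit (key ⟨ε', hε'.1⟩ e').1 (LA.db_isUnit hε'.2))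
  · obtain ⟨k1, k2⟩ := key (⟨ε', hε'.1⟩ * ⟨u', hc'.1.1.1⟩) e'
    have hE : IsUnit (⟨ε', hε'.1⟩ : L.O) := LA.db_isUnit hε'.2
    rw [hE.dvd_mul_left] at k1 k2
    exact n1 ((hc.prime.associated_of_dvd hc'.prime k1).trans
      (hc.symm.prime.associated_of_dvd hc'.prime k2).symm).dvd

theorem dstep_br {L : LA Ω} {M : IntermediateField ℂ Ω} {w h u v ε : Ω} {i j : ℕ}
    (hc : L.Coord u v) (hε : L.Un ε) (hij : i + j ≤ 1) (hh : h ∈ M) (h0 : h ≠ 0)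
    (e : w ^ 2 = h ^ 2 * (ε * u ^ i * v ^ j)) : L.Br M w h := by
  obtain ⟨rfl, rfl⟩ | ⟨rfl, rfl⟩ | ⟨rfl, rfl⟩ :
    (i = 0 ∧ j = 0) ∨ (i = 1 ∧ j = 0) ∨ (i = 0 ∧ j = 1) := by omega
  · exact ⟨hh, h0, u, v, ε, hc, hε, Or.inl (by simpa using e)⟩
  · exact ⟨hh, h0, u, v, ε, hc, hε, Or.inr (by simpa using e)⟩
  · exact ⟨hh, h0, v, u, ε, hc.symm, hε, Or.inr (by simpa using e)⟩

theorem dstep_un_pow {L : LA Ω} {z : Ω} (hz : L.Un z) (n : ℕ) : L.Un (z ^ n) := by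
  have := (hz.zpow n).1
  rwa [zpow_natCast] at this

/-- the set of bad points is finite -/
theorem dstep_finite (D : Dat Ω) {M : IntermediateField ℂ Ω} (hb : D.b ∈ M) (hx : D.x ∈ M)
    {ι : Type} [Fintype ι] (t : ι → Ω) (hG : D.Good M t) {w : Ω} (hw0 : w ≠ 0) (hw : w ^ 2 ∈ M)
    (hU : D.Unr0 w) : {y : Zt t | ¬ ∃ h, (la t y).Br M w h}.Finite := by
  have key : ∀ y : Zt t, ∀ᶠ y' in nhds y, y' ≠ y → ∃ h, (la t y').Br M w h := by
    intro y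
    have := la_noeth t y
    obtain ⟨hF, ⟨u, v, e, hI⟩, -⟩ := hG.2 y
    obtain ⟨h, hh, h0, ε, hε, i, j, hi, hj, ew, -⟩ := D.exists_factor hF hb hx hI hw hw0 hU
    obtain ⟨ch, hch⟩ := exists_achart t y hI.1 ((isOpen_un t ε).mem_nhds hε)
    filter_upwards [ch.κ.open_source.mem_nhds ch.mem] with y' hy' hne
    refine ⟨h, ?_⟩
    by_cases h1 : (la t y').ev v = 0
    · have h2 : (la t y').ev u ≠ 0 := fun h2 => hne (ch.κ.injOn hy' ch.mem (by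
        rw [ch.kap y' hy', ch.ctr, h1, h2]
        rfl))
      exact dcov_br (ch.coord y' hy').symm (ch.reg y' hy').2
        (LA.Un.mul (hch hy') (dstep_un_pow ⟨(ch.reg y' hy').1, h2⟩ i)) hj hh h0 ew
    · exact dcov_br (ch.coord y' hy') (ch.reg y' hy').1
        (LA.Un.mul (hch hy') (dstep_un_pow ⟨(ch.reg y' hy').2, h1⟩ j)) hi hh h0
        (by rw [ew, mul_right_comm ε])
  have := Zt.compact t
  obtain ⟨T, hT⟩ := CompactSpace.elim_nhds_subcover _ key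
  refine T.finite_toSet.subset fun y hy => ?_
  have h3 : y ∈ ⋃ l ∈ T, {y' : Zt t | y' ≠ l → ∃ h, (la t y').Br M w h} := hT ▸ Set.mem_univ y
  obtain ⟨l, hl, h4⟩ := Set.mem_iUnion₂.1 h3
  by_contra hn
  exact hy (h4 fun e => hn (e ▸ hl))

/-- the case without bad points -/
theorem dstep_base (D : Dat Ω) {M : IntermediateField ℂ Ω} (hb : D.b ∈ M) (hx : D.x ∈ M)
    {ι : Type} [Fintype ι] (t : ι → Ω) (hG : D.Good M t) {w : Ω} (hwM : w ∉ M) (hw : w ^ 2 ∈ M)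
    (hU : D.Unr0 w) (hB : ∀ y : Zt t, ∃ h, (la t y).Br M w h) :
    ∃ (κ : Type) (_ : Fintype κ) (t' : κ → Ω),
      D.Good (M ⊔ IntermediateField.adjoin ℂ {w}) t' := by
  have hw0 : w ≠ 0 := fun h => hwM (h ▸ M.zero_mem)
  obtain ⟨κ, _, t', h1, h2⟩ := exists_cover t M hG.1 (fun y => (hG.2 y).1) hB
  refine ⟨κ, inferInstance, t', h1, fun y' => ?_⟩
  obtain ⟨y, hy⟩ := h2 y'
  have := la_noeth t y
  have := la_noeth t' y'
  obtain ⟨hF, ⟨u, v, e, hI⟩, hcan⟩ := hG.2 y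
  obtain ⟨h, hh, h0, ε, hε, i, j, hi, hj, ew, hi', hj'⟩ := D.exists_factor hF hb hx hI hw hw0 hU
  have hij : i + j ≤ 1 := by
    by_contra hn
    obtain ⟨rfl, rfl⟩ : i = 1 ∧ j = 1 := by omega
    obtain ⟨h', hh'⟩ := hB y
    exact dstep_not_br hF hI.1 hε hh h0 (by simpa using ew) hh'
  exact D.goodPt_cover hF hb hx hI hcan hwM hh h0 hε hij ew hi' hj'
    (hy h (dstep_br hI.1 hε hij hh h0 ew))

/-- new points of the blow-up of a crossing -/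
theorem dstep_new (D : Dat Ω) {M : IntermediateField ℂ Ω} {L L' : LA Ω}
    [IsNoetherianRing L.O] [IsNoetherianRing L'.O] {u v : Ω} {e : D.Ix → ℤ × ℤ} (hF : L.Frac M)
    (hc : L.Coord u v) (hm : ∀ φ, L.Mon u v (D.phi φ) (e φ))
    (h2 : ∃ φ φ', (e φ).1 * (e φ').2 - (e φ).2 * (e φ').1 ≠ 0) (h' : L.Ext L' (v / u))
    {w h ε : Ω} (hε : L.Un ε) (hh : h ∈ M) (h0 : h ≠ 0) (ew : w ^ 2 = h ^ 2 * (ε * u * v)) :
    D.GoodPt M L' ∧ ∃ g, L'.Br M w g := by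
  obtain ⟨a1, a2, a3⟩ := D.goodPt_blow hF hc hm h2 h'
  have hu := hc.ne_zero.1
  refine ⟨⟨a1, ⟨_, _, _, a3⟩, fun hh => absurd hh a2⟩, h * u, ?_⟩
  refine dcov_br (i := 1) (ε := ε) (hc.blow h').symm h'.2.2.1
    ⟨h'.1 hε.1, by rw [h'.2.1 ε hε.1]; exact hε.2⟩ le_rfl (M.mul_mem hh (hF.1 u hc.1.1.1))
    (mul_ne_zero h0 hu) ?_
  rw [ew]
  field_simp

theorem dstep_ind (D : Dat Ω) {M : IntermediateField ℂ Ω} (hb : D.b ∈ M) (hx : D.x ∈ M)
    {w : Ω} (hwM : w ∉ M) (hw : w ^ 2 ∈ M) (hU : D.Unr0 w) (n : ℕ) :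
    ∀ {ι : Type} [Fintype ι] (t : ι → Ω), D.Good M t →
      {y : Zt t | ¬ ∃ h, (la t y).Br M w h}.ncard < n →
      ∃ (κ : Type) (_ : Fintype κ) (t' : κ → Ω),
        D.Good (M ⊔ IntermediateField.adjoin ℂ {w}) t' := by
  have hw0 : w ≠ 0 := fun h => hwM (h ▸ M.zero_mem)
  induction n with
  | zero => exact fun t _ h => absurd h (Nat.not_lt_zero _)
  | succ n ih =>
    intro ι _ t hG hn
    by_cases hB : ∀ y : Zt t, ∃ h, (la t y).Br M w h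
    · exact dstep_base D hb hx t hG hwM hw hU hB
    obtain ⟨y₀, hy₀⟩ := not_forall.1 hB
    have := la_noeth t y₀
    obtain ⟨hF, ⟨u, v, e, hI⟩, -⟩ := hG.2 y₀
    obtain ⟨h, hh, h0, ε, hε, i, j, hi, hj, ew, hi', hj'⟩ := D.exists_factor hF hb hx hI hw hw0 hU
    obtain ⟨rfl, rfl⟩ : i = 1 ∧ j = 1 := by
      by_contra hne
      exact hy₀ ⟨h, dstep_br hI.1 hε (by omega) hh h0 ew⟩
    rw [pow_one, pow_one] at ew
    have h2 : ∃ φ φ', (e φ).1 * (e φ').2 - (e φ).2 * (e φ').1 ≠ 0 := by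
      obtain ⟨φ, hφ⟩ := hj' rfl
      rcases hI.2.2 with a | a | a
      · exact absurd (by rw [a.1 φ]; rfl) hφ
      · exact absurd (a.1 φ) hφ
      · exact a
    obtain ⟨t', h3, h4⟩ := exists_blowup t y₀ hI.1
    have key : ∀ y' : Zt t', (∃ y : Zt t, y ≠ y₀ ∧ la t' y' = la t y) ∨
        (D.GoodPt M (la t' y') ∧ ∃ g, (la t' y').Br M w g) := by
      intro y'
      have := la_noeth t' y'
      rcases h4 y' with a | a | ⟨a, -⟩
      · exact Or.inl a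
      · exact Or.inr (dstep_new D hF hI.1 hI.2.1 h2 a hε hh h0 ew)
      · refine Or.inr (dstep_new D (e := fun φ => (e φ).swap) hF hI.1.symm
          (fun φ => LA.dufd_mon_swap (hI.2.1 φ)) ?_ a hε hh h0 (by rw [ew, mul_right_comm ε]))
        obtain ⟨φ, φ', b⟩ := h2
        exact ⟨φ, φ', fun c => b (by
          simp only [Prod.fst_swap, Prod.snd_swap] at c
          linear_combination -c)⟩
    refine ih t' ⟨h3, fun y' => ?_⟩ ?_
    · rcases key y' with ⟨y, -, a⟩ | a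
      · rw [a]
        exact hG.2 y
      · exact a.1
    · have hfin := dstep_finite D hb hx t hG hw0 hw hU
      have : Nonempty (Zt t) := ⟨y₀⟩
      have h5 : ∀ y' ∈ {y : Zt t' | ¬ ∃ h, (la t' y).Br M w h},
          ∃ y : Zt t, y ≠ y₀ ∧ la t' y' = la t y := fun y' hy' =>
        (key y').resolve_right fun a => hy' a.2
      choose! f hf1 hf2 using h5
      have h6 := Set.ncard_le_ncard_of_injOn f
        (t := {y : Zt t | ¬ ∃ h, (la t y).Br M w h} \ {y₀})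
        (fun y' hy' => ⟨by rw [Set.mem_ofPred_eq, ← hf2 y' hy']; exact hy', hf1 y' hy'⟩)
        (fun a ha b hb hab => la_inj (by rw [hf2 a ha, hf2 b hb, hab])) hfin.sdiff
      have h7 := Set.ncard_sdiff_singleton_lt_of_mem (show y₀ ∈
        {y : Zt t | ¬ ∃ h, (la t y).Br M w h} from hy₀) hfin
      omega

theorem Dat.step (D : Dat Ω) {M : IntermediateField ℂ Ω} (hb : D.b ∈ M) (hx : D.x ∈ M)
    {ι : Type} [Fintype ι] (t : ι → Ω) (hG : D.Good M t) {w : Ω} (hwM : w ∉ M) (hw : w ^ 2 ∈ M)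
    (hU : D.Unr0 w) : ∃ (κ : Type) (_ : Fintype κ) (t' : κ → Ω),
      D.Good (M ⊔ IntermediateField.adjoin ℂ {w}) t' :=
  dstep_ind D hb hx hwM hw hU _ t hG (Nat.lt_succ_self _)

end Vale.Agent.P300
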