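import Vale.Agent.P300.DProd
import Vale.Agent.P300.DResL
import Vale.Agent.P300.DStep

/-! P300: good models of towers of quadratic extensions. -/

noncomputable section

namespace Vale.Agent.P300

variable {Ω : Type} [Field Ω] [Algebra ℂ Ω]

theorem dtower_ind (D : Dat Ω) (M : IntermediateField ℂ Ω) (N : ℕ) :
    ∀ T : List (LA Ω × ℕ), (T.map fun q => 7 ^ q.2).sum < N →
      ∀ (ι : Type) [Fintype ι] (t : ι → Ω), (∃ i, t i ≠ 0) →
        (∀ y : Zt t, (la t y).Frac M ∧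
          (D.GoodPt M (la t y) ∨ ∃ n, (la t y, n) ∈ T ∧ D.Res (la t y) n)) →
        ∃ (κ : Type) (_ : Fintype κ) (t' : κ → Ω), D.Good M t' := by
  induction N with
  | zero => exact fun T hT => absurd hT (Nat.not_lt_zero _)
  | succ N ih =>
    intro T hT ι _ t ht h
    rcases T with _ | ⟨⟨L0, n0⟩, T⟩
    · refine ⟨ι, inferInstance, t, ht, fun y => ?_⟩
      rcases (h y).2 with h1 | ⟨n, h1, _⟩
      · exact h1
      · exact absurd h1 List.not_mem_nil
    simp only [List.map_cons, List.sum_cons] at hT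
    by_cases hex : ∃ y0 : Zt t, la t y0 = L0 ∧ D.Res (la t y0) n0
    swap
    · have h7 : 0 < 7 ^ n0 := by positivity
      refine ih T (by omega) ι t ht fun y => ⟨(h y).1, ?_⟩
      rcases (h y).2 with h1 | ⟨n, h1, h2⟩
      · exact Or.inl h1
      · rcases List.mem_cons.1 h1 with h3 | h3
        · obtain ⟨h4, h5⟩ := Prod.mk.inj h3
          exact absurd ⟨y, h4, h5 ▸ h2⟩ hex
        · exact Or.inr ⟨n, h3, h2⟩
    obtain ⟨y0, hy0, hres⟩ := hex
    have := la_noeth t y0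
    obtain ⟨hn0, u, v, huv, C, hC, hb1, hb2⟩ := D.res_blow hres
    obtain ⟨t', ht', hbl⟩ := exists_blowup t y0 huv
    have hch : ∀ c : ℂ, ∃ Lc : LA Ω, ∀ L' : LA Ω, (la t y0).Ext L' (v / u) → L'.ev (v / u) = c →
        L' = Lc := by
      intro c
      by_cases hc : ∃ L' : LA Ω, (la t y0).Ext L' (v / u) ∧ L'.ev (v / u) = c
      · obtain ⟨L1, h1, h2⟩ := hc
        exact ⟨L1, fun L' h3 h4 => LA.Ext.unique h3 h1 (h4.trans h2.symm)⟩
      · exact ⟨L0, fun L' h3 h4 => absurd ⟨L', h3, h4⟩ hc⟩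
    choose Lc hLc using hch
    have hF := (h y0).1
    have hu : u ∈ M := hF.1 u huv.1.1.1
    have hv : v ∈ M := hF.1 v huv.1.2.1.1
    refine ih (T ++ C.toList.map fun c => (Lc c, n0 - 1)) ?_ (ι × ι) t' ht' fun y' => ?_
    · obtain ⟨m, rfl⟩ := Nat.exists_eq_succ_of_ne_zero hn0.ne'
      have e1 : ((C.toList.map fun c => (Lc c, m.succ - 1)).map fun q => 7 ^ q.2).sum =
          C.card * 7 ^ m := by
        simp [Function.comp_def]
      have e2 : C.card * 7 ^ m ≤ 6 * 7 ^ m := Nat.mul_le_mul_right _ hC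
      have e3 : 0 < 7 ^ m := by positivity
      rw [List.map_append, List.sum_append, e1]
      rw [Nat.succ_eq_add_one, pow_succ] at hT
      omega
    · rcases hbl y' with ⟨y, hy, e⟩ | h1 | ⟨h1, h2⟩
      · rw [e]
        refine ⟨(h y).1, ?_⟩
        rcases (h y).2 with h3 | ⟨n, h3, h4⟩
        · exact Or.inl h3
        · rcases List.mem_cons.1 h3 with h5 | h5
          · exact absurd (la_inj ((Prod.mk.inj h5).1.trans hy0.symm)) hy
          · exact Or.inr ⟨n, List.mem_append_left _ h5, h4⟩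
      · have hF' := hF.ext (M.div_mem hv hu) h1
        refine ⟨hF', ?_⟩
        rcases hb1 _ (la_noeth t' y') h1 with ⟨h3, h4⟩ | ⟨h3, h4⟩
        · exact Or.inl ⟨hF', h4, fun h5 => absurd h5 h3⟩
        · refine Or.inr ⟨n0 - 1, List.mem_append_right _ (List.mem_map.2
            ⟨_, Finset.mem_toList.2 h3, ?_⟩), h4⟩
          rw [← hLc _ _ h1 rfl]
      · have hF' := hF.ext (M.div_mem hu hv) h1
        obtain ⟨h3, h4⟩ := hb2 _ (la_noeth t' y') h1 h2
        exact ⟨hF', Or.inl ⟨hF', h4, fun h5 => absurd h5 h3⟩⟩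

theorem Dat.exists_base (D : Dat Ω) (K : IntermediateField ℂ Ω) (hK : D.BaseField K) :
    ∃ (ι : Type) (_ : Fintype ι) (t : ι → Ω), D.Good (K ⊔ IntermediateField.adjoin ℂ {D.x}) t := by
  obtain ⟨ι, _, t, ht, h, hfin⟩ := D.exists_prod K hK
  have h1 : ∀ y : Zt t, ∃ n, ¬ D.GoodPt (K ⊔ IntermediateField.adjoin ℂ {D.x}) (la t y) →
      D.Res (la t y) n := by
    intro y
    rcases (h y).2 with h2 | ⟨n, h2⟩
    · exact ⟨0, fun h3 => absurd h2 h3⟩
    · exact ⟨n, fun _ => h2⟩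
  choose n hn using h1
  refine dtower_ind D _ _ (hfin.toFinset.toList.map fun y => (la t y, n y)) (Nat.lt_succ_self _)
    ι t ht fun y => ⟨(h y).1, ?_⟩
  by_cases h2 : D.GoodPt (K ⊔ IntermediateField.adjoin ℂ {D.x}) (la t y)
  · exact Or.inl h2
  · exact Or.inr ⟨n y, List.mem_map.2 ⟨y, Finset.mem_toList.2 (hfin.mem_toFinset.2 h2), rfl⟩,
      hn y h2⟩

theorem Dat.exists_model (D : Dat Ω) (K : IntermediateField ℂ Ω) (hK : D.BaseField K) (r : ℕ)
    (M : ℕ → IntermediateField ℂ Ω) (h0 : M 0 = K ⊔ IntermediateField.adjoin ℂ {D.x})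
    (hstep : ∀ i < r, ∃ w, w ∉ M i ∧ w ^ 2 ∈ M i ∧ D.Unr0 w ∧
      M (i + 1) = M i ⊔ IntermediateField.adjoin ℂ {w}) :
    ∃ (N : ℕ) (t : Fin (N + 1) → Ω), D.Good (M r) t := by
  have hbK : D.b ∈ K := by
    obtain ⟨T, hT, _⟩ := hK.fin
    rw [hT]
    exact IntermediateField.subset_adjoin _ _ (Set.mem_insert _ _)
  have key : ∀ j, j ≤ r → D.b ∈ M j ∧ D.x ∈ M j ∧
      ∃ (ι : Type) (_ : Fintype ι) (t : ι → Ω), D.Good (M j) t := by
    intro j
    induction j with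
    | zero =>
      intro _
      rw [h0]
      exact ⟨(le_sup_left : K ≤ _) hbK,
        (le_sup_right : IntermediateField.adjoin ℂ {D.x} ≤ _)
          (IntermediateField.subset_adjoin _ _ (Set.mem_singleton _)), D.exists_base K hK⟩
    | succ j ih =>
      intro hj
      obtain ⟨hb, hx, ι, _, t, hG⟩ := ih (by omega)
      obtain ⟨w, hw1, hw2, hw3, hw4⟩ := hstep j (by omega)
      rw [hw4]
      exact ⟨(le_sup_left : M j ≤ _) hb, (le_sup_left : M j ≤ _) hx,
        D.step hb hx t hG hw1 hw2 hw3⟩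
  obtain ⟨_, _, ι, _, t, ⟨i, hi⟩, hG⟩ := key r le_rfl
  have hpos : Fintype.card ι ≠ 0 := (Fintype.card_pos_iff.2 ⟨i⟩).ne'
  obtain ⟨N, hN⟩ := Nat.exists_eq_succ_of_ne_zero hpos
  have e : Fin (N + 1) ≃ ι := (Fintype.equivFinOfCardEq hN).symm
  refine ⟨N, t ∘ e, ⟨e.symm i, by simpa using hi⟩, fun y => ?_⟩
  obtain ⟨y', hy'⟩ := exists_la_reindex t e y
  rw [hy']
  exact hG y'

end Vale.Agent.P300
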