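import Vale.Agent.P300.DChart
import Vale.Agent.P300.DUfd

/-! P300: normal crossing charts. -/

noncomputable section

namespace Vale.Agent.P300

open Topology

variable {Ω : Type} [Field Ω] [Algebra ℂ Ω] {ι : Type} [Fintype ι]

/-- an analytic chart in which all boundary functions are units times monomials -/
structure Chart (D : Dat Ω) (t : ι → Ω) (y : Zt t) where
  u : Ω
  v : Ω
  e : D.Ix → ℤ × ℤ
  ε : D.Ix → Ω
  inv : D.InvAt (la t y) u v e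
  A : AChart t y u v
  un : ∀ y' ∈ A.κ.source, ∀ φ, (la t y').Un (ε φ)
  mon : ∀ φ, D.phi φ = ε φ * u ^ (e φ).1 * v ^ (e φ).2

theorem exists_chart {D : Dat Ω} {M : IntermediateField ℂ Ω} {t : ι → Ω} (hG : D.Good M t)
    (y : Zt t) {Nb : Set (Zt t)} (hNb : Nb ∈ 𝓝 y) : ∃ ch : Chart D t y, ch.A.κ.source ⊆ Nb := by
  obtain ⟨_, ⟨u, v, e, hinv⟩, _⟩ := hG.2 y
  choose ε hε1 hε2 using hinv.2.1
  have h1 : ∀ᶠ y' in 𝓝 y, ∀ φ, (la t y').Un (ε φ) :=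
    Filter.eventually_all.2 fun φ => (isOpen_un t (ε φ)).mem_nhds (hε1 φ)
  obtain ⟨A, hA⟩ := exists_achart t y hinv.1 (Filter.inter_mem hNb h1)
  exact ⟨⟨u, v, e, ε, hinv, A, fun y' hy' => (hA hy').2, hε2⟩, fun y' hy' => (hA hy').1⟩

theorem echart_ctr {L : LA Ω} {u : Ω} (hu : u ∈ L.O) (a : ℤ) :
    ∃ ε, L.Un ε ∧ u ^ a = ε * L.ctr u ^ (if L.ev u = 0 then a else 0) := by
  by_cases h : L.ev u = 0
  · refine ⟨1, ⟨L.O.one_mem, by rw [LA.ev_one]; exact one_ne_zero⟩, ?_⟩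
    rw [if_pos h, LA.ctr, h, map_zero, sub_zero, one_mul]
  · exact ⟨u ^ a, (LA.Un.zpow ⟨hu, h⟩ a).1, by rw [if_neg h, zpow_zero, mul_one]⟩

theorem echart_mon {D : Dat Ω} {t : ι → Ω} {y : Zt t} (ch : Chart D t y) {y' : Zt t}
    (hy' : y' ∈ ch.A.κ.source) {z ε : Ω} {a b : ℤ} (hε : (la t y').Un ε)
    (hz : z = ε * ch.u ^ a * ch.v ^ b) :
    (z ∈ (la t y').O ↔ ((ch.A.κ y').1 = 0 → 0 ≤ a) ∧ ((ch.A.κ y').2 = 0 → 0 ≤ b)) ∧
      ((la t y').Un z ↔ ((ch.A.κ y').1 = 0 → a = 0) ∧ ((ch.A.κ y').2 = 0 → b = 0)) := by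
  have := la_noeth t y'
  obtain ⟨ε1, h1, e1⟩ := echart_ctr (ch.A.reg y' hy').1 a
  obtain ⟨ε2, h2, e2⟩ := echart_ctr (ch.A.reg y' hy').2 b
  have h3 := (ch.A.coord y' hy').mon_mem (φ := z)
    (e := (if (la t y').ev ch.u = 0 then a else 0, if (la t y').ev ch.v = 0 then b else 0))
    ⟨ε * ε1 * ε2, (hε.mul h1).mul h2, by rw [hz, e1, e2]; ring⟩
  rw [h3.1, h3.2, ch.A.kap y' hy', Prod.mk_eq_zero]
  by_cases hu : (la t y').ev ch.u = 0 <;> by_cases hv : (la t y').ev ch.v = 0 <;> simp [hu, hv]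

omit [Algebra ℂ Ω] in
theorem echart_zpow_sum {κ : Type} (s : Finset κ) {u : Ω} (hu : u ≠ 0) (f : κ → ℤ) :
    ∏ i ∈ s, u ^ f i = u ^ ∑ i ∈ s, f i := by
  classical
  induction s using Finset.induction_on with
  | empty => simp
  | insert a s ha ih => rw [Finset.prod_insert ha, Finset.sum_insert ha, ih, zpow_add₀ hu]

theorem echart_mono {D : Dat Ω} {t : ι → Ω} {y : Zt t} (ch : Chart D t y) {y' : Zt t}
    (hy' : y' ∈ ch.A.κ.source) (k : D.Ix → ℤ) : ∃ ε, (la t y').Un ε ∧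
      D.mono k = ε * ch.u ^ (∑ φ, k φ * (ch.e φ).1) * ch.v ^ ∑ φ, k φ * (ch.e φ).2 := by
  refine ⟨∏ φ, ch.ε φ ^ k φ, Finset.prod_induction _ (la t y').Un (fun _ _ => LA.Un.mul)
    ⟨(la t y').O.one_mem, by rw [LA.ev_one]; exact one_ne_zero⟩
    fun φ _ => ((ch.un y' hy' φ).zpow _).1, ?_⟩
  rw [← echart_zpow_sum _ ch.inv.1.ne_zero.1, ← echart_zpow_sum _ ch.inv.1.ne_zero.2,
    ← Finset.prod_mul_distrib, ← Finset.prod_mul_distrib]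
  refine Finset.prod_congr rfl fun φ _ => ?_
  rw [ch.mon φ, mul_zpow, mul_zpow, ← zpow_mul, ← zpow_mul, mul_comm (ch.e φ).1,
    mul_comm (ch.e φ).2]

/-- a monomial in the boundary functions is a unit at a point of the chart iff the exponents of the
coordinates vanishing there are zero -/
theorem Chart.un_mono_iff {D : Dat Ω} {t : ι → Ω} {y : Zt t} (ch : Chart D t y) {y' : Zt t}
    (hy' : y' ∈ ch.A.κ.source) (k : D.Ix → ℤ) :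
    (la t y').Un (D.mono k) ↔ ((ch.A.κ y').1 = 0 → ∑ φ, k φ * (ch.e φ).1 = 0) ∧
      ((ch.A.κ y').2 = 0 → ∑ φ, k φ * (ch.e φ).2 = 0) := by
  obtain ⟨ε, h1, h2⟩ := echart_mono ch hy' k
  exact (echart_mon ch hy' h1 h2).2

/-- regularity and vanishing of a monomial at a point of the chart -/
theorem Chart.mx_mono_iff {D : Dat Ω} {t : ι → Ω} {y : Zt t} (ch : Chart D t y) {y' : Zt t}
    (hy' : y' ∈ ch.A.κ.source) (k : D.Ix → ℤ) :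
    D.mono k ∈ (la t y').O ↔ ((ch.A.κ y').1 = 0 → 0 ≤ ∑ φ, k φ * (ch.e φ).1) ∧
      ((ch.A.κ y').2 = 0 → 0 ≤ ∑ φ, k φ * (ch.e φ).2) := by
  obtain ⟨ε, h1, h2⟩ := echart_mono ch hy' k
  exact (echart_mon ch hy' h1 h2).1

theorem Chart.isU_iff {D : Dat Ω} {t : ι → Ω} {y : Zt t} (ch : Chart D t y) {y' : Zt t}
    (hy' : y' ∈ ch.A.κ.source) :
    D.IsU (la t y') ↔ ((∃ φ, (ch.e φ).1 ≠ 0) → (ch.A.κ y').1 ≠ 0) ∧
      ((∃ φ, (ch.e φ).2 ≠ 0) → (ch.A.κ y').2 ≠ 0) := by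
  have h1 := fun φ => (echart_mon ch hy' (ch.un y' hy' φ) (ch.mon φ)).2
  constructor
  · intro h
    exact ⟨fun ⟨φ, h2⟩ h3 => h2 (((h1 φ).1 (h φ)).1 h3),
      fun ⟨φ, h2⟩ h3 => h2 (((h1 φ).1 (h φ)).2 h3)⟩
  · intro h φ
    exact (h1 φ).2 ⟨fun h3 => by_contra fun h2 => h.1 ⟨φ, h2⟩ h3,
      fun h3 => by_contra fun h2 => h.2 ⟨φ, h2⟩ h3⟩

theorem echart_zpow {L : LA Ω} {u : Ω} (hu : u ∈ L.O) {a : ℤ} (h : a ≠ 0 → L.ev u ≠ 0) :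
    u ^ a ∈ L.O ∧ L.ev (u ^ a) = L.ev u ^ a := by
  by_cases ha : a = 0
  · rw [ha, zpow_zero, zpow_zero]
    exact ⟨L.O.one_mem, LA.ev_one⟩
  · have := LA.Un.zpow ⟨hu, h ha⟩ a
    exact ⟨this.1.1, this.2⟩

/-- values of the boundary functions where both coordinates are nonzero -/
theorem Chart.ev_phi {D : Dat Ω} {t : ι → Ω} {y : Zt t} (ch : Chart D t y) {y' : Zt t}
    (hy' : y' ∈ ch.A.κ.source) (hU : D.IsU (la t y')) (φ : D.Ix) :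
    (la t y').ev (D.phi φ) =
      (la t y').ev (ch.ε φ) * (ch.A.κ y').1 ^ (ch.e φ).1 * (ch.A.κ y').2 ^ (ch.e φ).2 := by
  have h0 := (ch.isU_iff hy').1 hU
  rw [ch.A.kap y' hy'] at h0 ⊢
  have h1 := echart_zpow (ch.A.reg y' hy').1 fun h : (ch.e φ).1 ≠ 0 => h0.1 ⟨φ, h⟩
  have h2 := echart_zpow (ch.A.reg y' hy').2 fun h : (ch.e φ).2 ≠ 0 => h0.2 ⟨φ, h⟩
  have h3 := (ch.un y' hy' φ).1
  rw [ch.mon φ, (la t y').ev_mul _ ((la t y').O.mul_mem h3 h1.1) _ h2.1,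
    (la t y').ev_mul _ h3 _ h1.1, h1.2, h2.2]

theorem echart_av {L : LA Ω} {b : Ω} (hb : b ∈ L.O) (i : Fin 5) :
    av i b ∈ L.O ∧ L.ev (av i b) = av i (L.ev b) := by
  fin_cases i
  · exact ⟨L.O.zero_mem, LA.ev_zero⟩
  · exact ⟨L.O.pow_mem hb 2, LA.ev_pow hb 2⟩
  · exact ⟨hb, rfl⟩
  · exact ⟨L.O.one_mem, LA.ev_one⟩
  · refine ⟨L.O.add_mem L.O.one_mem hb, ?_⟩
    have := L.ev_add 1 L.O.one_mem b hb
    rw [LA.ev_one] at this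
    exact this

theorem Dat.IsU.mem {D : Dat Ω} {L : LA Ω} (h : D.IsU L) :
    D.b ∈ L.O ∧ D.x ∈ L.O ∧ (L.ev D.b, L.ev D.x) ∈ U0 D.S ∧
      (∀ p : D.S, L.ev (D.rt p) ^ D.E = L.ev D.b - p) ∧
      ∀ i, L.ev (D.x - av i D.b) = L.ev D.x - av i (L.ev D.b) := by
  have hx : D.x ∈ L.O := by
    have h1 : D.x - 0 ∈ L.O := (h (Sum.inr 0)).1
    rwa [sub_zero] at h1
  have h0 : (0 : ℂ) ∈ D.S := by
    by_contra h1
    have h2 : (0 : Fin 5) = 2 := D.hS 0 h1 rfl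
    exact absurd h2 (by decide)
  have hb : D.b ∈ L.O := by
    have h1 : D.rt 0 ∈ L.O := (h (Sum.inl ⟨0, h0⟩)).1
    have h2 := D.hrt 0 h0
    rw [map_zero, sub_zero] at h2
    rw [← h2]
    exact L.O.pow_mem h1 _
  have h3 : ∀ p : D.S, L.ev (D.rt p) ^ D.E = L.ev D.b - p := by
    intro p
    have h1 : D.rt p ∈ L.O := (h (Sum.inl p)).1
    rw [← LA.ev_pow h1, D.hrt p p.2, LA.ev_sub hb (L.O.algebraMap_mem _), L.ev_alg]
  have h4 : ∀ i, L.ev (D.x - av i D.b) = L.ev D.x - av i (L.ev D.b) := fun i => by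
    rw [LA.ev_sub hx (echart_av hb i).1, (echart_av hb i).2]
  refine ⟨hb, hx, ⟨fun h5 => ?_, fun i h5 => ?_⟩, h3, h4⟩
  · have h6 := h3 ⟨_, h5⟩
    rw [sub_self] at h6
    exact (h (Sum.inl ⟨_, h5⟩)).2 (pow_eq_zero_iff D.hE.ne' |>.1 h6)
  · have h6 := h4 i
    rw [sub_eq_zero.2 h5] at h6
    exact (h (Sum.inr i)).2 h6

theorem Dat.Good.coord_of_isU {D : Dat Ω} {M : IntermediateField ℂ Ω} {t : ι → Ω} (hG : D.Good M t)
    {y : Zt t} (h : D.IsU (la t y)) : (la t y).Coord ((la t y).ctr D.b) ((la t y).ctr D.x) := by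
  have := la_noeth t y
  obtain ⟨_, ⟨u, v, e, h1, h2, h3⟩, _⟩ := hG.2 y
  have h4 : ∀ φ, e φ = 0 := fun φ => (h1.mon_mem (h2 φ)).2.1 (h φ)
  rcases h3 with h3 | ⟨_, ⟨φ, h3⟩, _⟩ | ⟨φ, φ', h3⟩
  · exact h3.2
  · exact absurd (by rw [h4 φ]; rfl) h3
  · exact absurd (by rw [h4 φ]; simp) h3

theorem isOpen_isU (D : Dat Ω) (t : ι → Ω) : IsOpen {y : Zt t | D.IsU (la t y)} := by
  unfold Dat.IsU
  rw [Set.ofPred_forall]
  exact isOpen_iInter_of_finite fun φ => isOpen_un t _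

theorem Dat.Good.dense_isU {D : Dat Ω} {M : IntermediateField ℂ Ω} {t : ι → Ω} (hG : D.Good M t) :
    Dense {y : Zt t | D.IsU (la t y)} := by
  refine dense_iff_inter_open.2 fun U hU ⟨y, hy⟩ => ?_
  obtain ⟨ch, hch⟩ := exists_chart hG y (hU.mem_nhds hy)
  have hρ := ch.A.hρ
  have h0 : ((ch.A.ρ / 2 : ℝ) : ℂ) ≠ 0 := Complex.ofReal_ne_zero.2 (by positivity)
  have h1 : (((ch.A.ρ / 2 : ℝ) : ℂ), ((ch.A.ρ / 2 : ℝ) : ℂ)) ∈ ch.A.κ.target := by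
    rw [ch.A.tgt, mem_ball_zero_iff, Prod.norm_mk, max_self, Complex.norm_real, Real.norm_eq_abs,
      abs_of_pos (by positivity)]
    linarith
  have h2 := ch.A.κ.map_target h1
  refine ⟨_, hch h2, (ch.isU_iff h2).2 ?_⟩
  rw [ch.A.κ.right_inv h1]
  exact ⟨fun _ => h0, fun _ => h0⟩

end Vale.Agent.P300
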