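import Mathlib

/-! P300: general facts on covering maps. -/

noncomputable section

namespace Vale.Agent.P300

variable {W Z X : Type} [TopologicalSpace W] [TopologicalSpace Z] [TopologicalSpace X]

/-- disjoint open sheets over an open set give an evenly covered point -/
theorem EComp_of_sections {q : Z → X} (hq : Continuous q) {x : X} {O : Set X} (hO : IsOpen O)
    (hx : x ∈ O) {J : Type} (s : J → X → Z) (h1 : ∀ j, ContinuousOn (s j) O)
    (h2 : ∀ j, ∀ x' ∈ O, q (s j x') = x') (h3 : ∀ j, IsOpen (s j '' O))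
    (h4 : ∀ z, q z ∈ O → ∃ j, s j (q z) = z)
    (h5 : ∀ j j', ∀ x' ∈ O, s j x' = s j' x' → j = j') :
    IsEvenlyCovered q x (q ⁻¹' {x}) := by
  let _ : TopologicalSpace J := ⊥
  have hd : DiscreteTopology J := ⟨rfl⟩
  choose ix hix using h4
  have hc : Continuous fun e : q ⁻¹' O => ix e.1 e.2 := by
    refine continuous_discrete_rng.2 fun j => ?_
    have he : (fun e : q ⁻¹' O => ix e.1 e.2) ⁻¹' {j} = Subtype.val ⁻¹' (s j '' O) := by
      ext e
      constructor
      · intro h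
        have h' : ix e.1 e.2 = j := h
        exact ⟨q e.1, e.2, by rw [← h', hix]⟩
      · rintro ⟨x', hx', h⟩
        have h6 : q e.1 = x' := by rw [← h, h2 j x' hx']
        refine h5 _ _ (q e.1) e.2 ?_
        rw [hix, h6, h]
    rw [he]
    exact (h3 j).preimage continuous_subtype_val
  let H : q ⁻¹' O ≃ₜ O × J :=
    { toFun := fun e => (⟨q e.1, e.2⟩, ix e.1 e.2)
      invFun := fun p => ⟨s p.2 p.1.1, by
        rw [Set.mem_preimage, h2 _ _ p.1.2]; exact p.1.2⟩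
      left_inv := fun e => Subtype.ext (hix e.1 e.2)
      right_inv := fun p => by
        refine Prod.ext (Subtype.ext (h2 _ _ p.1.2)) ?_
        refine h5 _ _ p.1.1 p.1.2 ?_
        have h6 := hix (s p.2 p.1.1) (by rw [h2 _ _ p.1.2]; exact p.1.2)
        simpa only [h2 _ _ p.1.2] using h6
      continuous_toFun := ((hq.comp continuous_subtype_val).subtype_mk _).prodMk hc
      continuous_invFun := by
        refine Continuous.subtype_mk (continuous_prod_of_discrete_right.2 fun j => ?_) _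
        exact (h1 j).domRestrict }
  have h : IsEvenlyCovered q x J := ⟨hd, O, hx, hO, hO.preimage hq, H, fun _ => rfl⟩
  exact h.to_isEvenlyCovered_preimage

theorem EComp_sections {q : Z → X} (hq : IsCoveringMap q) (x : X) :
    ∃ O : Set X, IsOpen O ∧ x ∈ O ∧ ∃ s : q ⁻¹' {x} → X → Z, (∀ z, ContinuousOn (s z) O) ∧
      (∀ z, s z x = z) ∧ (∀ z, ∀ x' ∈ O, q (s z x') = x') ∧ (∀ z, IsOpen (s z '' O)) ∧
      (∀ z', q z' ∈ O → ∃ z, s z (q z') = z') ∧
      ∀ z z', ∀ x' ∈ O, s z x' = s z' x' → z = z' := by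
  classical
  obtain ⟨hd, U, hx, hU, hfU, H, hH⟩ := hq x
  have hz : ∀ z : q ⁻¹' {x}, z.1 ∈ q ⁻¹' U := fun z => by
    have h : q z.1 = x := z.2
    rw [Set.mem_preimage, h]; exact hx
  have hq' : ∀ p, q (H.symm p).1 = p.1.1 := fun p => by rw [← hH, H.apply_symm_apply]
  have hz1 : ∀ z : q ⁻¹' {x}, (H ⟨z.1, hz z⟩).1 = ⟨x, hx⟩ := fun z =>
    Subtype.ext ((hH _).trans z.2)
  let s : q ⁻¹' {x} → X → Z := fun z x' =>
    if h : x' ∈ U then (H.symm (⟨x', h⟩, (H ⟨z.1, hz z⟩).2)).1 else z.1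
  have hs : ∀ z x' (h : x' ∈ U), s z x' = (H.symm (⟨x', h⟩, (H ⟨z.1, hz z⟩).2)).1 :=
    fun z x' h => dif_pos h
  refine ⟨U, hU, hx, s, fun z => ?_, fun z => ?_, fun z x' h => ?_, fun z => ?_, fun z' h => ?_,
    fun z z' x' h he => ?_⟩
  · rw [continuousOn_iff_continuous_domRestrict]
    have h : Continuous fun x' : U => (H.symm (x', (H ⟨z.1, hz z⟩).2)).1 := by fun_prop
    exact h.congr fun x' => (hs z x'.1 x'.2).symm
  · rw [hs z x hx, ← hz1 z]
    exact congrArg Subtype.val (H.symm_apply_apply _)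
  · rw [hs z x' h, hq']
  · have he : s z '' U = Subtype.val '' (H ⁻¹' (Prod.snd ⁻¹' {(H ⟨z.1, hz z⟩).2})) := by
      ext w
      constructor
      · rintro ⟨x', h, rfl⟩
        refine ⟨_, ?_, (hs z x' h).symm⟩
        rw [Set.mem_preimage, H.apply_symm_apply]
        rfl
      · rintro ⟨e, he, rfl⟩
        have he' : (H e).2 = (H ⟨z.1, hz z⟩).2 := he
        refine ⟨(H e).1.1, (H e).1.2, ?_⟩
        rw [hs z _ (H e).1.2, ← he']
        exact congrArg Subtype.val (H.symm_apply_apply _)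
    rw [he]
    exact hfU.isOpenMap_subtype_val _
      (((isOpen_discrete _).preimage continuous_snd).preimage H.continuous)
  · refine ⟨⟨(H.symm (⟨x, hx⟩, (H ⟨z', h⟩).2)).1, hq' _⟩, ?_⟩
    rw [hs _ _ h]
    have h1 : (⟨q z', h⟩ : U) = (H ⟨z', h⟩).1 := Subtype.ext (hH ⟨z', h⟩).symm
    simp only [Subtype.coe_eta, H.apply_symm_apply]
    rw [h1]
    exact congrArg Subtype.val (H.symm_apply_apply _)
  · rw [hs z x' h, hs z' x' h] at he
    have h1 := congrArg Prod.snd (H.symm.injective (Subtype.ext he))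
    have h2 : H ⟨z.1, hz z⟩ = H ⟨z'.1, hz z'⟩ := Prod.ext ((hz1 z).trans (hz1 z').symm) h1
    have h3 := congrArg Subtype.val (H.injective h2)
    exact Subtype.ext h3

theorem EComp_open {q : Z → X} (hq : Continuous q) {O O' : Set X} (hO' : IsOpen O') (h : O' ⊆ O)
    {s : X → Z} (h2 : ∀ x' ∈ O, q (s x') = x') (h3 : IsOpen (s '' O)) : IsOpen (s '' O') := by
  have he : s '' O' = s '' O ∩ q ⁻¹' O' := by
    ext z
    constructor
    · rintro ⟨x', hx', rfl⟩
      exact ⟨⟨x', h hx', rfl⟩, by rw [Set.mem_preimage, h2 _ (h hx')]; exact hx'⟩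
    · rintro ⟨⟨x', hx', rfl⟩, hz⟩
      rw [Set.mem_preimage, h2 _ hx'] at hz
      exact ⟨x', hz, rfl⟩
  rw [he]
  exact h3.inter (hO'.preimage hq)

theorem covering_comp {p : W → Z} {q : Z → X} (hp : IsCoveringMap p) (hq : IsCoveringMap q)
    (hf : ∀ x, (q ⁻¹' {x}).Finite) : IsCoveringMap (q ∘ p) := by
  intro x
  obtain ⟨O, hO, hx, s, s1, s2, s3, s4, s5, s6⟩ := EComp_sections hq x
  choose V hV hzV t t1 t2 t3 t4 t5 t6 using fun z : q ⁻¹' {x} => EComp_sections hp z.1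
  have := (hf x).to_subtype
  let O' : Set X := O ∩ ⋂ z, O ∩ s z ⁻¹' V z
  have hO' : IsOpen O' :=
    hO.inter (isOpen_iInter_of_finite fun z => (s1 z).isOpen_inter_preimage hO (hV z))
  have hsub : O' ⊆ O := Set.inter_subset_left
  have hmap : ∀ z, ∀ x' ∈ O', s z x' ∈ V z := fun z x' h => (Set.mem_iInter.1 h.2 z).2
  refine EComp_of_sections (hq.continuous.comp hp.continuous) hO'
    ⟨hx, Set.mem_iInter.2 fun z => ⟨hx, ?_⟩⟩ (J := Σ z : q ⁻¹' {x}, p ⁻¹' {z.1})
    (fun j x' => t j.1 j.2 (s j.1 x')) (fun j => ?_) (fun j x' h => ?_) (fun j => ?_)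
    (fun w h => ?_) ?_
  · rw [Set.mem_preimage, s2]; exact hzV z
  · exact (t1 j.1 j.2).comp ((s1 j.1).mono hsub) (hmap j.1)
  · change q (p (t j.1 j.2 (s j.1 x'))) = x'
    rw [t3 _ _ _ (hmap _ _ h), s3 _ _ (hsub h)]
  · rw [← Set.image_image (t j.1 j.2) (s j.1)]
    refine EComp_open hp.continuous (EComp_open hq.continuous hO' hsub (s3 _) (s4 _)) ?_
      (t3 _ _) (t4 _ _)
    rintro _ ⟨x', h, rfl⟩
    exact hmap _ _ h
  · obtain ⟨z, hz⟩ := s5 (p w) (hsub h)
    obtain ⟨w', hw'⟩ := t5 z w (by rw [← hz]; exact hmap _ _ h)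
    refine ⟨⟨z, w'⟩, ?_⟩
    change t z w' (s z (q (p w))) = w
    rw [hz, hw']
  · rintro ⟨z, w⟩ ⟨z', w'⟩ x' h he
    have h1 := congrArg p he
    simp only [] at h1 he
    rw [t3 _ _ _ (hmap _ _ h), t3 _ _ _ (hmap _ _ h)] at h1
    obtain rfl := s6 _ _ _ (hsub h) h1
    obtain rfl := t6 _ _ _ _ (hmap _ _ h) he
    rfl

theorem covering_clopen [LocallyConnectedSpace X] {q : Z → X} (hq : IsCoveringMap q) {A : Set Z}
    (hA : IsClopen A) : IsCoveringMap fun a : A => q a := by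
  classical
  intro x
  obtain ⟨O, hO, hx, s, s1, s2, s3, s4, s5, s6⟩ := EComp_sections hq x
  obtain ⟨O', hsub, hO', hx', hc⟩ :=
    locallyConnectedSpace_iff_subsets_isOpen_isConnected.1 ‹_› x O (hO.mem_nhds hx)
  have key : ∀ z, ∀ y ∈ O', ∀ y' ∈ O', s z y ∈ A → s z y' ∈ A := fun z y hy y' hy' h =>
    (hc.isPreconnected.image _ ((s1 z).mono hsub)).subset_isClopen hA ⟨_, ⟨y, hy, rfl⟩, h⟩
      ⟨y', hy', rfl⟩
  let J : Type := {z : q ⁻¹' {x} // z.1 ∈ A}
  have hJ : ∀ j : J, ∀ y ∈ O', s j.1 y ∈ A := fun j y hy =>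
    key _ x hx' y hy (by rw [s2]; exact j.2)
  let t : J → X → A := fun j y => if h : s j.1 y ∈ A then ⟨s j.1 y, h⟩ else ⟨j.1.1, j.2⟩
  have ht : ∀ j : J, ∀ y ∈ O', (t j y).1 = s j.1 y := fun j y hy =>
    congrArg Subtype.val (dif_pos (hJ j y hy))
  refine EComp_of_sections (hq.continuous.comp continuous_subtype_val) hO' hx' t (fun j => ?_)
    (fun j y hy => ?_) (fun j => ?_) (fun a h => ?_) (fun j j' y hy he => ?_)
  · rw [Topology.IsInducing.subtypeVal.continuousOn_iff]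
    exact ((s1 j.1).mono hsub).congr (ht j)
  · change q (t j y).1 = y
    rw [ht j y hy, s3 _ _ (hsub hy)]
  · have he : t j '' O' = Subtype.val ⁻¹' (s j.1 '' O') := by
      ext a
      constructor
      · rintro ⟨y, hy, rfl⟩
        exact ⟨y, hy, (ht j y hy).symm⟩
      · rintro ⟨y, hy, h⟩
        exact ⟨y, hy, Subtype.ext ((ht j y hy).trans h)⟩
    rw [he]
    exact (EComp_open hq.continuous hO' hsub (s3 _) (s4 _)).preimage continuous_subtype_val
  · obtain ⟨z, hz⟩ := s5 a.1 (hsub h)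
    have h1 : z.1 ∈ A := by
      rw [← s2 z]
      exact key z (q a.1) h x hx' (by rw [hz]; exact a.2)
    exact ⟨⟨z, h1⟩, Subtype.ext ((ht _ _ h).trans hz)⟩
  · refine Subtype.ext (s6 _ _ y (hsub hy) ?_)
    rw [← ht j y hy, ← ht j' y hy, he]

theorem covering_compact [CompactSpace X] [T2Space X] {q : Z → X} (hq : IsCoveringMap q)
    (hf : ∀ x, (q ⁻¹' {x}).Finite) : CompactSpace Z ∧ T2Space Z := by
  refine ⟨⟨?_⟩, ⟨fun z z' h => ?_⟩⟩
  · choose O hO hx s s1 s2 s3 s4 s5 s6 using EComp_sections hq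
    choose K hK hKO hKc using fun x => local_compact_nhds ((hO x).mem_nhds (hx x))
    obtain ⟨F, hF⟩ := CompactSpace.elim_nhds_subcover K hK
    have he : (Set.univ : Set Z) = ⋃ x ∈ F, ⋃ z, s x z '' K x := by
      refine (Set.eq_univ_of_forall fun z => ?_).symm
      have h1 : q z ∈ ⋃ x ∈ F, K x := by rw [hF]; trivial
      obtain ⟨x, hxF, h2⟩ := Set.mem_iUnion₂.1 h1
      obtain ⟨z', hz'⟩ := s5 x z (hKO x h2)
      exact Set.mem_iUnion₂.2 ⟨x, hxF, Set.mem_iUnion.2 ⟨z', q z, h2, hz'⟩⟩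
    rw [he]
    refine F.isCompact_biUnion fun x _ => ?_
    have := (hf x).to_subtype
    exact isCompact_iUnion fun z => (hKc x).image_of_continuousOn ((s1 x z).mono (hKO x))
  · by_cases he : q z = q z'
    · exact hq.isSeparatedMap z z' he h
    · exact separated_by_continuous hq.continuous he

/-- local sections through the points of a fibre -/
theorem covering_sections {q : Z → X} (hq : IsCoveringMap q) (x : X) :
    ∃ O : Set X, IsOpen O ∧ x ∈ O ∧ ∃ s : q ⁻¹' {x} → X → Z, (∀ z, ContinuousOn (s z) O) ∧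
      (∀ z, s z x = z) ∧ (∀ z, ∀ x' ∈ O, q (s z x') = x') ∧ (∀ z, IsOpen (s z '' O)) ∧
      (∀ z', q z' ∈ O → ∃ z, s z (q z') = z') ∧
      ∀ z z', ∀ x' ∈ O, s z x' = s z' x' → z = z' :=
  EComp_sections hq x

end Vale.Agent.P300
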