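import Vale.Agent.P300.TMono
import Vale.Agent.P300.EComp

/-! P300: neighbourhoods of the punctures, and Liouville's theorem on finite coverings. -/

noncomputable section

namespace Vale.Agent.P300

open unitInterval Set Filter Topology

theorem econst_sheet {W Y : Type} [TopologicalSpace W] [TopologicalSpace Y] {p : W → Y}
    (hp : IsCoveringMap p) {O : Set Y} {sg : Y → W} (hsg : ContinuousOn sg O)
    (hs : ∀ y ∈ O, p (sg y) = y) (Γ : C(I, W)) (hΓ : ∀ s, p (Γ s) ∈ O)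
    (h0 : sg (p (Γ 0)) = Γ 0) (t : I) : Γ t = sg (p (Γ t)) := by
  have hc : Continuous fun s => sg (p (Γ s)) :=
    hsg.comp_continuous (hp.continuous.comp Γ.continuous) hΓ
  have h := hp.eq_of_comp_eq Γ.continuous hc (funext fun s => (hs _ (hΓ s)).symm) 0 h0.symm
  exact congrFun h t

theorem econst_punct {W Y : Type} [TopologicalSpace W] [TopologicalSpace Y] [T2Space Y]
    [CompactSpace Y] {p : W → Y} (hp : IsCoveringMap p) (Z : Set Y) (ξ : Z → Pl ![(0 : ℂ), 1])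
    (hξ : Continuous ξ) (B : Set Y) (hB : B.Finite) (hcl : closure Z ⊆ Z ∪ B) :
    ∃ K : Set ℂ, IsCompact K ∧ K ⊆ Pl ![(0 : ℂ), 1] ∧
      (∀ (Γ : C(I, W)) (h : ∀ s, p (Γ s) ∈ Z), (∀ s, (ξ ⟨_, h s⟩ : ℂ) ∉ K) → p (Γ 1) = p (Γ 0) →
        Γ 1 = Γ 0) ∧
      ∀ (g : W → ℂ), Continuous g → ∀ w0, ∃ M : ℝ, ∀ (Γ : C(I, W)) (h : ∀ s, p (Γ s) ∈ Z),
        (∀ s, (ξ ⟨_, h s⟩ : ℂ) ∉ K) → Γ 0 = w0 → ‖g (Γ 1)‖ ≤ M := by
  choose O hO hyO sg hsgc _ hsgp _ hsgs _ using covering_sections hp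
  obtain ⟨U, hU, hUd⟩ := hB.t2_separation
  have h1 : ∀ y, ∃ u, IsOpen u ∧ {y} ⊆ u ∧ closure u ⊆ O y ∩ U y := fun y =>
    normal_exists_closure_subset isClosed_singleton ((hO y).inter (hU y).2)
      (singleton_subset_iff.2 ⟨hyO y, (hU y).1⟩)
  choose O1 hO1 hy1 hc1 using h1
  have hV : IsOpen (⋃ y ∈ B, O1 y) := isOpen_biUnion fun y _ => hO1 y
  have hS : IsCompact (closure Z \ ⋃ y ∈ B, O1 y) := isClosed_closure.isCompact.diff hV
  have hSZ : (closure Z \ ⋃ y ∈ B, O1 y) ⊆ Z := by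
    intro y hy
    rcases hcl hy.1 with h | h
    · exact h
    · exact absurd (mem_biUnion h (hy1 y rfl)) hy.2
  have hS' : IsCompact (Subtype.val ⁻¹' (closure Z \ ⋃ y ∈ B, O1 y) : Set Z) := by
    rw [Subtype.isCompact_iff, Subtype.image_preimage_coe, inter_eq_right.2 hSZ]
    exact hS
  have key : ∀ (Γ : C(I, W)) (h : ∀ s, p (Γ s) ∈ Z),
      (∀ s, (ξ ⟨_, h s⟩ : ℂ) ∉ (fun z : Z => (ξ z : ℂ)) ''
        (Subtype.val ⁻¹' (closure Z \ ⋃ y ∈ B, O1 y))) →
      ∀ y ∈ B, p (Γ 0) ∈ O1 y → ∀ s, p (Γ s) ∈ O1 y := by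
    intro Γ h hK y hy h0 s
    have hin : ∀ s, p (Γ s) ∈ ⋃ y ∈ B, O1 y := by
      intro s
      by_contra hn
      exact hK s ⟨⟨_, h s⟩, ⟨subset_closure (h s), hn⟩, rfl⟩
    have hpre : IsPreconnected (range fun s => p (Γ s)) :=
      isPreconnected_range (hp.continuous.comp Γ.continuous)
    have hv : IsOpen (⋃ y' ∈ B \ {y}, O1 y') := isOpen_biUnion fun y _ => hO1 y
    refine hpre.subset_left_of_subset_union (hO1 y) hv ?_ ?_
      ⟨p (Γ 0), mem_range_self (f := fun s => p (Γ s)) 0, h0⟩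
      (mem_range_self (f := fun s => p (Γ s)) s)
    · rw [Set.disjoint_left]
      intro x hx hx'
      obtain ⟨y', hy', hx'⟩ := mem_iUnion₂.1 hx'
      exact Set.disjoint_left.1 (hUd hy hy'.1 (Ne.symm hy'.2))
        (hc1 y (subset_closure hx)).2 (hc1 y' (subset_closure hx')).2
    · rintro _ ⟨t, rfl⟩
      obtain ⟨y', hy', hx'⟩ := mem_iUnion₂.1 (hin t)
      by_cases e : y' = y
      · left
        rw [← e]
        exact hx'
      · right
        exact mem_biUnion (show y' ∈ B \ {y} from ⟨hy', e⟩) hx'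
  have key0 : ∀ (Γ : C(I, W)) (h : ∀ s, p (Γ s) ∈ Z),
      (∀ s, (ξ ⟨_, h s⟩ : ℂ) ∉ (fun z : Z => (ξ z : ℂ)) ''
        (Subtype.val ⁻¹' (closure Z \ ⋃ y ∈ B, O1 y))) → ∃ y ∈ B, p (Γ 0) ∈ O1 y := by
    intro Γ h hK
    by_contra hn
    refine hK 0 ⟨⟨_, h 0⟩, ⟨subset_closure (h 0), fun hm => hn ?_⟩, rfl⟩
    obtain ⟨y, hy, hx⟩ := mem_iUnion₂.1 hm
    exact ⟨y, hy, hx⟩
  refine ⟨(fun z : Z => (ξ z : ℂ)) '' (Subtype.val ⁻¹' (closure Z \ ⋃ y ∈ B, O1 y)),
    hS'.image (continuous_subtype_val.comp hξ), ?_, ?_, ?_⟩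
  · rintro _ ⟨z, -, rfl⟩
    exact (ξ z).2
  · intro Γ h hK h01
    obtain ⟨y, hy, h0⟩ := key0 Γ h hK
    have hO' : ∀ s, p (Γ s) ∈ O y := fun s => (hc1 y (subset_closure (key Γ h hK y hy h0 s))).1
    obtain ⟨z, hz⟩ := hsgs y (Γ 0) (hO' 0)
    rw [econst_sheet hp (hsgc y z) (hsgp y z) Γ hO' hz 1, h01, hz]
  · intro g hg w0
    by_cases hw : ∃ y ∈ B, p w0 ∈ O1 y
    · obtain ⟨y, hy, h0⟩ := hw
      obtain ⟨z, hz⟩ := hsgs y w0 (hc1 y (subset_closure h0)).1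
      obtain ⟨M, hM⟩ := (isClosed_closure (s := O1 y)).isCompact.exists_bound_of_continuousOn
        (hg.comp_continuousOn ((hsgc y z).mono fun x hx => (hc1 y hx).1))
      refine ⟨M, fun Γ h hK e => ?_⟩
      subst e
      have hin := key Γ h hK y hy h0
      have hO' : ∀ s, p (Γ s) ∈ O y := fun s => (hc1 y (subset_closure (hin s))).1
      rw [econst_sheet hp (hsgc y z) (hsgp y z) Γ hO' hz 1]
      exact hM _ (subset_closure (hin 1))
    · refine ⟨0, fun Γ h hK e => ?_⟩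
      subst e
      exact absurd (key0 Γ h hK) hw

theorem econst_mem {z : ℂ} : z ∈ Pl ![(0 : ℂ), 1] ↔ z ≠ 0 ∧ z ≠ 1 := by
  simp [Pl, Fin.forall_fin_two]

theorem econst_liouville {F : ℂ → ℂ} (hd : DifferentiableOn ℂ F (Pl ![(0 : ℂ), 1])) {M : ℝ}
    (hb : ∀ z ∈ Pl ![(0 : ℂ), 1], ‖F z‖ ≤ M) {z w : ℂ} (hz : z ∈ Pl ![(0 : ℂ), 1])
    (hw : w ∈ Pl ![(0 : ℂ), 1]) : F z = F w := by
  have e1 : ({1}ᶜ : Set ℂ) \ {0} = Pl ![(0 : ℂ), 1] := by
    ext x
    rw [econst_mem]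
    simp [and_comm]
  have h1 := Complex.differentiableOn_update_limUnder_of_bddAbove (f := F) (s := {1}ᶜ) (c := 0)
    (isOpen_compl_singleton.mem_nhds (by simp)) (by rw [e1]; exact hd)
    ⟨M, by rw [e1]; rintro _ ⟨x, hx, rfl⟩; exact hb x hx⟩
  set a := limUnder (𝓝[≠] (0 : ℂ)) F
  set F1 := Function.update F 0 a with hF1
  have b1 : ∀ x, x ≠ 1 → ‖F1 x‖ ≤ max M ‖a‖ := by
    intro x hx
    by_cases h0 : x = 0
    · subst h0
      simp [hF1]
    · rw [hF1, Function.update_of_ne h0]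
      exact le_trans (hb x (econst_mem.2 ⟨h0, hx⟩)) (le_max_left _ _)
  have h2 := Complex.differentiableOn_update_limUnder_of_bddAbove (f := F1) (s := univ) (c := 1)
    univ_mem (by rw [← compl_eq_univ_sdiff]; exact h1)
    ⟨max M ‖a‖, by rintro _ ⟨x, hx, rfl⟩; exact b1 x hx.2⟩
  set b := limUnder (𝓝[≠] (1 : ℂ)) F1
  set F2 := Function.update F1 1 b with hF2
  have h3 : Differentiable ℂ F2 := differentiableOn_univ.1 h2
  have h4 : Bornology.IsBounded (range F2) := by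
    refine (isBounded_iff_forall_norm_le).2 ⟨max (max M ‖a‖) ‖b‖, ?_⟩
    rintro _ ⟨x, rfl⟩
    by_cases h0 : x = 1
    · subst h0
      simp [hF2]
    · rw [hF2, Function.update_of_ne h0]
      exact le_trans (b1 x h0) (le_max_left _ _)
  have h5 : ∀ x ∈ Pl ![(0 : ℂ), 1], F2 x = F x := by
    intro x hx
    rw [econst_mem] at hx
    rw [hF2, Function.update_of_ne hx.2, hF1, Function.update_of_ne hx.1]
  rw [← h5 z hz, ← h5 w hw]
  exact h3.apply_eq_apply_of_bounded h4 z w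

theorem econst_retr {X : Set ℂ} (x : X) :
    ∃ r : ℂ → X, ContinuousOn r X ∧ ∀ y : X, r y = y := by
  classical
  refine ⟨fun w => if h : w ∈ X then ⟨w, h⟩ else x, ?_, fun y => by simp [y.2]⟩
  rw [IsInducing.subtypeVal.continuousOn_iff]
  refine continuousOn_id.congr fun w hw => ?_
  simp [hw]

theorem econst_finite {A : Type} [TopologicalSpace A] (q : A → Pl ![(0 : ℂ), 1])
    (hq : IsCoveringMap q) (hf : ∀ x, (q ⁻¹' {x}).Finite) (g : A → ℂ) (hg : Continuous g)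
    (hol : ∀ (D : Set ℂ) (φ : ℂ → A), IsOpen D → ContinuousOn φ D → (∀ z ∈ D, (q (φ z) : ℂ) = z) →
      DifferentiableOn ℂ (fun z => g (φ z)) D)
    (hb : ∃ M, ∀ a, ‖g a‖ ≤ M) (γ : C(I, A)) : g (γ 1) = g (γ 0) := by
  classical
  obtain ⟨M, hM⟩ := hb
  obtain ⟨r, hr, hr'⟩ := econst_retr (q (γ 0))
  have : PathConnectedSpace (Pl ![(0 : ℂ), 1]) :=
    isPathConnected_iff_pathConnectedSpace.1 (isPathConnected_Pl _)
  have loc : ∀ x, ∃ O : Set (Pl ![(0 : ℂ), 1]), IsOpen O ∧ x ∈ O ∧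
      ∃ s : q ⁻¹' {x} → Pl ![(0 : ℂ), 1] → A, (∀ z, ContinuousOn (s z) O) ∧
        (∀ z, ∀ x' ∈ O, q (s z x') = x') ∧ ∀ x' ∈ O, Function.Injective (fun z => s z x') ∧
          range (fun z => s z x') = q ⁻¹' {x'} := by
    intro x
    obtain ⟨O, h1, h2, s, h3, -, h5, -, h7, h8⟩ := covering_sections hq x
    refine ⟨O, h1, h2, s, h3, h5, fun x' hx' => ⟨fun z z' h => h8 z z' x' hx' h, ?_⟩⟩
    ext a
    constructor
    · rintro ⟨z, rfl⟩
      exact h5 z x' hx'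
    · intro ha
      have e : q a = x' := ha
      subst e
      exact h7 a hx'
  have hn : IsLocallyConstant fun x => (q ⁻¹' {x}).ncard := by
    rw [IsLocallyConstant.iff_exists_open]
    intro x
    obtain ⟨O, h1, h2, s, -, -, h5⟩ := loc x
    refine ⟨O, h1, h2, fun x' hx' => ?_⟩
    rw [← (h5 x' hx').2, ncard_range_of_injective (h5 x' hx').1, Nat.card_coe_set_eq]
  have main : ∀ (c : ℂ) (x x' : Pl ![(0 : ℂ), 1]),
      ∏ a ∈ (hf x).toFinset, (c - g a) = ∏ a ∈ (hf x').toFinset, (c - g a) := by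
    intro c x x'
    have hd : DifferentiableOn ℂ (fun w => ∏ a ∈ (hf (r w)).toFinset, (c - g a))
        (Pl ![(0 : ℂ), 1]) := by
      intro w hw
      obtain ⟨O, h1, h2, s, h3, h4, h5⟩ := loc ⟨w, hw⟩
      have : Fintype (q ⁻¹' {(⟨w, hw⟩ : Pl ![(0 : ℂ), 1])}) := (hf _).fintype
      have hD : IsOpen (Subtype.val '' O) := (isOpen_Pl _).isOpenMap_subtype_val O h1
      have hmap : MapsTo r (Subtype.val '' O) O := by
        rintro _ ⟨y, hy, rfl⟩
        rw [hr']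
        exact hy
      have hsub : Subtype.val '' O ⊆ Pl ![(0 : ℂ), 1] := by
        rintro _ ⟨y, -, rfl⟩
        exact y.2
      have h6 : DifferentiableOn ℂ (fun w => ∏ z, (c - g (s z (r w)))) (Subtype.val '' O) := by
        refine DifferentiableOn.fun_finsetProd fun z _ => (differentiableOn_const c).sub ?_
        refine hol _ (fun w => s z (r w)) hD ((h3 z).comp (hr.mono hsub) hmap) ?_
        rintro _ ⟨y, hy, rfl⟩
        rw [hr', h4 z y hy]
      have h7 : DifferentiableOn ℂ (fun w => ∏ a ∈ (hf (r w)).toFinset, (c - g a))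
          (Subtype.val '' O) := by
        refine h6.congr fun w' hw' => ?_
        obtain ⟨i1, i2⟩ := h5 _ (hmap hw')
        have e : (hf (r w')).toFinset = Finset.univ.image fun z => s z (r w') := by
          ext a
          rw [Set.Finite.mem_toFinset, ← i2]
          simp
        rw [e, Finset.prod_image fun z _ z' _ h => i1 h]
      exact (h7.differentiableAt (hD.mem_nhds ⟨_, h2, rfl⟩)).differentiableWithinAt
    have hbd : ∀ w ∈ Pl ![(0 : ℂ), 1], ‖∏ a ∈ (hf (r w)).toFinset, (c - g a)‖ ≤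
        (‖c‖ + M) ^ (q ⁻¹' {x}).ncard := by
      intro w _
      rw [← hn.apply_eq_of_preconnectedSpace (r w) x, ncard_eq_toFinset_card _ (hf (r w)),
        norm_prod, ← Finset.prod_const]
      exact Finset.prod_le_prod (fun a _ => norm_nonneg _) fun a _ =>
        le_trans (norm_sub_le _ _) (by linarith [hM a])
    have h := econst_liouville hd hbd x.2 x'.2
    simpa only [hr'] using h
  have hT : (g '' (q ⁻¹' {q (γ 0)})).Finite := (hf _).image g
  refine isPreconnected_univ.constant_of_mapsTo hT.isDiscrete (f := fun s => g (γ s))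
    (hg.comp γ.continuous).continuousOn (fun s _ => ?_) (mem_univ 1) (mem_univ 0)
  have h0 : ∏ a ∈ (hf (q (γ s))).toFinset, (g (γ s) - g a) = 0 :=
    Finset.prod_eq_zero (i := γ s) (by simp) (sub_self _)
  rw [main _ _ (q (γ 0)), Finset.prod_eq_zero_iff] at h0
  obtain ⟨a, ha, e⟩ := h0
  exact ⟨a, (Set.Finite.mem_toFinset _).1 ha, (sub_eq_zero.1 e).symm⟩

end Vale.Agent.P300
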