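import Vale.Agent.P300.TMono

/-! P300: classes of round circles. -/

noncomputable section

namespace Vale.Agent.P300

open unitInterval

variable {G : Type} [Group G] {n : ℕ}

theorem TCirc_conj {Z : Type} [TopologicalSpace Z] (μ : Mono Z G) (H : I × I → Z)
    (hH : Continuous H) (hl : ∀ s, H (1, s) = H (0, s)) (b t : C(I, Z))
    (hb : ∀ s, b s = H (s, 0)) (ht : ∀ s, t s = H (s, 1)) : IsConj (μ.m b) (μ.m t) := by
  have h := μ.conj_of_free H hH hl b ⟨fun s => H (0, s), by fun_prop⟩ t hb (fun _ => rfl) ht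
  exact (isConj_iff.2 ⟨_, h.symm⟩).symm

theorem TCirc_ne {x c w : ℂ} (h : ‖x - c‖ ≠ ‖w‖) (s : ℝ) : c + w * ex s ≠ x := by
  rintro rfl
  rw [add_sub_cancel_left, norm_mul, norm_ex, mul_one] at h
  exact h rfl

theorem TCirc_ex_one : ex ((1 : I) : ℝ) = ex ((0 : I) : ℝ) := by
  have h := ex_add_one 0
  rw [zero_add] at h
  exact h

theorem TCirc_polar (w : ℂ) : ∃ θ : ℝ, w = (‖w‖ : ℂ) * ex θ := by
  by_cases hw : w = 0
  · exact ⟨0, by simp [hw]⟩
  · have h0 : (‖w‖ : ℂ) ≠ 0 := by simpa using hw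
    obtain ⟨θ, hθ⟩ := exists_ex (w := w / (‖w‖ : ℂ)) (by
      rw [norm_div, Complex.norm_real, norm_norm, div_self (norm_ne_zero_iff.2 hw)])
    exact ⟨θ, by rw [← hθ, mul_div_cancel₀ _ h0]⟩

/-- a circle in the punctured plane avoids the punctures -/
theorem TCirc_avoid {a : Fin n → ℂ} {γ : C(I, Pl a)} {c w : ℂ}
    (h : ∀ s : I, (γ s : ℂ) = c + w * ex s) (i : Fin n) : ‖a i - c‖ ≠ ‖w‖ := by
  intro h1
  obtain ⟨θ, hθ⟩ := TCirc_polar (a i - c)
  obtain ⟨φ, hφ⟩ := TCirc_polar w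
  have h2 : ex (Int.fract (θ - φ)) = ex (θ - φ) := by
    conv_rhs => rw [← Int.floor_add_fract (θ - φ), ex_add, ex_int, one_mul]
  refine (γ ⟨Int.fract (θ - φ), Int.fract_nonneg _, (Int.fract_lt_one _).le⟩).2 i ?_
  rw [h]
  show c + w * ex (Int.fract (θ - φ)) = a i
  rw [h2, hφ, mul_assoc, ← ex_add, add_sub_cancel, ← h1, ← hθ, add_sub_cancel]

theorem TCirc_free {a : Fin n → ℂ} (μ : Mono (Pl a) G) (c w : I → ℂ) (hc : Continuous c)
    (hw : Continuous w) (h : ∀ s i, ‖a i - c s‖ ≠ ‖w s‖) (γ0 γ1 : C(I, Pl a))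
    (h0 : ∀ s : I, (γ0 s : ℂ) = c 0 + w 0 * ex s) (h1 : ∀ s : I, (γ1 s : ℂ) = c 1 + w 1 * ex s) :
    IsConj (μ.m γ0) (μ.m γ1) := by
  have he := continuous_ex
  refine TCirc_conj μ (fun p => ⟨c p.2 + w p.2 * ex p.1, fun i => TCirc_ne (h p.2 i) _⟩)
    (Continuous.subtype_mk (by fun_prop) _) (fun s => Subtype.ext ?_) γ0 γ1
    (fun s => Subtype.ext (h0 s)) fun s => Subtype.ext (h1 s)
  show c s + w s * ex ((1 : I) : ℝ) = c s + w s * ex ((0 : I) : ℝ)
  rw [TCirc_ex_one]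

theorem exists_circ {a : Fin n → ℂ} {c w : ℂ} (h : ∀ i, ‖a i - c‖ ≠ ‖w‖) :
    ∃ γ : C(I, Pl a), ∀ s : I, (γ s : ℂ) = c + w * ex s := by
  have he := continuous_ex
  exact ⟨⟨fun s => ⟨c + w * ex s, fun i => TCirc_ne (h i) _⟩,
    Continuous.subtype_mk (by fun_prop) _⟩, fun _ => rfl⟩

theorem circ_empty {a : Fin n → ℂ} (μ : Mono (Pl a) G) {γ : C(I, Pl a)}
    (h : IsCirc a ∅ fun s => γ s) : μ.m γ = 1 := by
  obtain ⟨c, w, h1, h2⟩ := h
  have h3 : ∀ i, ‖w‖ < ‖a i - c‖ := fun i =>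
    lt_of_le_of_ne (not_lt.1 fun h => (h2 i).2 h) (TCirc_avoid h1 i).symm
  have h4 : ∀ (s : I) i, ‖a i - c‖ ≠ ‖((1 - (s : ℝ) : ℝ) : ℂ) * w‖ := by
    intro s i
    refine ne_of_gt (lt_of_le_of_lt ?_ (h3 i))
    rw [norm_mul, Complex.norm_real, Real.norm_eq_abs, abs_of_nonneg (one_minus_nonneg s)]
    exact mul_le_of_le_one_left (norm_nonneg _) (one_minus_le_one s)
  obtain ⟨γ1, h5⟩ := exists_circ (h4 1)
  have h6 := TCirc_free μ (fun _ => c) (fun s => ((1 - (s : ℝ) : ℝ) : ℂ) * w) continuous_const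
    (by fun_prop) h4 γ γ1 (fun s => by simpa using h1 s) h5
  rw [μ.m_const γ1 fun s => Subtype.ext (by simp [h5])] at h6
  exact isConj_one_left.1 h6

theorem TCirc_pencil (x c c' : ℂ) (l : ℝ) :
    ‖x - (((1 - l : ℝ) : ℂ) * c + (l : ℂ) * c')‖ ^ 2 =
      (1 - l) * ‖x - c‖ ^ 2 + l * ‖x - c'‖ ^ 2 - l * (1 - l) * ‖c - c'‖ ^ 2 := by
  simp only [Complex.sq_norm, Complex.normSq_apply, Complex.sub_re, Complex.sub_im,
    Complex.add_re, Complex.add_im, Complex.re_ofReal_mul, Complex.im_ofReal_mul]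
  ring

theorem TCirc_comb {l u v : ℝ} (h0 : 0 ≤ l) (h1 : l ≤ 1) (hu : 0 < u) (hv : 0 < v) :
    0 < (1 - l) * u + l * v := by
  rcases h0.eq_or_lt with rfl | h2
  · simpa using hu
  · exact add_pos_of_nonneg_of_pos (mul_nonneg (by linarith) hu.le) (mul_pos h2 hv)

/-- two circles enclosing the same points are freely homotopic -/
theorem circ_conj {a : Fin n → ℂ} (μ : Mono (Pl a) G) {J : Set (Fin n)} {γ γ' : C(I, Pl a)}
    (h : IsCirc a J fun s => γ s) (h' : IsCirc a J fun s => γ' s) : IsConj (μ.m γ) (μ.m γ') := by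
  rcases J.eq_empty_or_nonempty with rfl | ⟨j, hj⟩
  · rw [circ_empty μ h, circ_empty μ h']
  obtain ⟨c, w, h1, h2⟩ := h
  obtain ⟨c', w', h1', h2'⟩ := h'
  obtain ⟨θ, hθ⟩ := TCirc_polar w
  obtain ⟨θ', hθ'⟩ := TCirc_polar w'
  have he := continuous_ex
  have hin : ∀ (s : I) i, i ∈ J → ‖a i - (((1 - s : ℝ) : ℂ) * c + ((s : ℝ) : ℂ) * c')‖ ^ 2 <
      (1 - s) * ‖w‖ ^ 2 + s * ‖w'‖ ^ 2 - s * (1 - s) * ‖c - c'‖ ^ 2 := by
    intro s i hi
    have h3 := pow_lt_pow_left₀ ((h2 i).1 hi) (norm_nonneg _) two_ne_zero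
    have h4 := pow_lt_pow_left₀ ((h2' i).1 hi) (norm_nonneg _) two_ne_zero
    have h5 := TCirc_comb s.2.1 s.2.2 (sub_pos.2 h3) (sub_pos.2 h4)
    rw [TCirc_pencil]
    linarith
  have hout : ∀ (s : I) i, i ∉ J →
      (1 - s) * ‖w‖ ^ 2 + s * ‖w'‖ ^ 2 - s * (1 - s) * ‖c - c'‖ ^ 2 <
        ‖a i - (((1 - s : ℝ) : ℂ) * c + ((s : ℝ) : ℂ) * c')‖ ^ 2 := by
    intro s i hi
    have h3 := pow_lt_pow_left₀ (lt_of_le_of_ne (not_lt.1 fun h => hi ((h2 i).2 h))
      (TCirc_avoid h1 i).symm) (norm_nonneg _) two_ne_zero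
    have h4 := pow_lt_pow_left₀ (lt_of_le_of_ne (not_lt.1 fun h => hi ((h2' i).2 h))
      (TCirc_avoid h1' i).symm) (norm_nonneg _) two_ne_zero
    have h5 := TCirc_comb s.2.1 s.2.2 (sub_pos.2 h3) (sub_pos.2 h4)
    rw [TCirc_pencil]
    linarith
  refine TCirc_free μ (fun s => ((1 - s : ℝ) : ℂ) * c + ((s : ℝ) : ℂ) * c')
    (fun s => ((√((1 - s) * ‖w‖ ^ 2 + s * ‖w'‖ ^ 2 - s * (1 - s) * ‖c - c'‖ ^ 2) : ℝ) : ℂ) *
      ex ((1 - s) * θ + s * θ')) (by fun_prop) (by fun_prop) ?_ γ γ' ?_ ?_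
  · intro s i h3
    have h4 := (sq_nonneg _).trans (hin s j hj).le
    rw [norm_mul, norm_ex, mul_one, Complex.norm_real, Real.norm_eq_abs,
      abs_of_nonneg (Real.sqrt_nonneg _)] at h3
    have h5 := congrArg (· ^ 2) h3
    simp only [Real.sq_sqrt h4] at h5
    by_cases hi : i ∈ J
    · exact (hin s i hi).ne h5
    · exact (hout s i hi).ne' h5
  · intro s
    refine (h1 s).trans ?_
    simp [← hθ]
  · intro s
    refine (h1' s).trans ?_
    simp [← hθ']

theorem exists_circ_one {a : Fin n → ℂ} (ha : Function.Injective a) (i : Fin n) :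
    ∃ γ : C(I, Pl a), IsCirc a {i} fun s => γ s := by
  have h1 : ∀ᶠ r : ℝ in nhdsWithin 0 (Set.Ioi 0), ∀ j, j ≠ i → r < ‖a j - a i‖ := by
    refine Filter.Eventually.filter_mono nhdsWithin_le_nhds (Filter.eventually_all.2 fun j => ?_)
    by_cases hj : j = i
    · exact Filter.Eventually.of_forall fun _ h => absurd hj h
    · exact (gt_mem_nhds (norm_pos_iff.2 (sub_ne_zero.2 (ha.ne hj)))).mono fun _ h _ => h
  obtain ⟨r, h2, h3⟩ := (h1.and self_mem_nhdsWithin).exists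
  have h4 : ‖(r : ℂ)‖ = r := by rw [Complex.norm_real, Real.norm_eq_abs, abs_of_pos h3]
  obtain ⟨γ, hγ⟩ := exists_circ (a := a) (c := a i) (w := r) fun j => by
    rw [h4]
    by_cases hj : j = i
    · rw [hj, sub_self, norm_zero]
      exact ne_of_lt h3
    · exact (h2 j hj).ne'
  refine ⟨γ, a i, r, hγ, fun j => ?_⟩
  rw [h4]
  constructor
  · rintro rfl
    rw [sub_self, norm_zero]
    exact h3
  · intro h5
    by_contra hj
    exact lt_asymm h5 (h2 j hj)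

theorem exists_circ_all (a : Fin n → ℂ) : ∃ γ : C(I, Pl a), IsCirc a Set.univ fun s => γ s := by
  have h1 : ∀ i, ‖a i - 0‖ < ‖((∑ j, ‖a j‖ + 1 : ℝ) : ℂ)‖ := by
    intro i
    have h2 : ‖a i‖ ≤ ∑ j, ‖a j‖ :=
      Finset.single_le_sum (f := fun j => ‖a j‖) (fun _ _ => norm_nonneg _) (Finset.mem_univ i)
    rw [sub_zero, Complex.norm_real, Real.norm_eq_abs]
    exact lt_of_lt_of_le (by linarith) (le_abs_self _)
  obtain ⟨γ, hγ⟩ := exists_circ fun i => (h1 i).ne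
  exact ⟨γ, _, _, hγ, fun i => iff_of_true trivial (h1 i)⟩

/-- a continuous family of circles in a family of punctured planes -/
theorem circ_fam {a : I → Fin n → ℂ} (μ : Mono (Fam a) G) (c w : I → ℂ) (hc : Continuous c)
    (hw : Continuous w) (h : ∀ s i, ‖a s i - c s‖ ≠ ‖w s‖) (γ0 : C(I, Pl (a 0)))
    (γ1 : C(I, Pl (a 1))) (h0 : ∀ s : I, (γ0 s : ℂ) = c 0 + w 0 * ex s)
    (h1 : ∀ s : I, (γ1 s : ℂ) = c 1 + w 1 * ex s) :
    IsConj (μ.m ((fib a 0).comp γ0)) (μ.m ((fib a 1).comp γ1)) := by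
  have he := continuous_ex
  refine TCirc_conj μ (fun p => ⟨(p.2, c p.2 + w p.2 * ex p.1), fun i => TCirc_ne (h p.2 i) _⟩)
    (Continuous.subtype_mk (by fun_prop) _) (fun s => Subtype.ext ?_) _ _
    (fun s => Subtype.ext (Prod.ext rfl (h0 s))) fun s => Subtype.ext (Prod.ext rfl (h1 s))
  show (s, c s + w s * ex ((1 : I) : ℝ)) = (s, c s + w s * ex ((0 : I) : ℝ))
  rw [TCirc_ex_one]

theorem TCirc_rank : 1 < Module.rank ℝ ℂ := by
  rw [Complex.rank_real_complex]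
  exact Cardinal.one_lt_two

theorem TCirc_ball {F : Set ℂ} (hF : F.Finite) : IsPathConnected ({z : ℂ | ‖z‖ < 1} \ F) := by
  let φ : ℂ → ℂ := fun z => (Homeomorph.unitBall z : ℂ)
  have h1 : Function.Injective φ := Subtype.val_injective.comp Homeomorph.unitBall.injective
  have h2 := ((hF.preimage h1.injOn).countable.isPathConnected_compl_of_one_lt_rank
    TCirc_rank).image (f := φ) (continuous_subtype_val.comp Homeomorph.unitBall.continuous)
  have e : φ '' (φ ⁻¹' F)ᶜ = {z : ℂ | ‖z‖ < 1} \ F := by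
    ext z
    constructor
    · rintro ⟨y, hy, rfl⟩
      exact ⟨mem_ball_zero_iff.1 (Homeomorph.unitBall y).2, hy⟩
    · rintro ⟨h3, h4⟩
      obtain ⟨y, hy⟩ := Homeomorph.unitBall.surjective ⟨z, mem_ball_zero_iff.2 h3⟩
      have h5 : φ y = z := congrArg Subtype.val hy
      exact ⟨y, fun h => h4 (h5 ▸ h), h5⟩
  rwa [e] at h2

theorem TCirc_ext {F : Set ℂ} (hF : F.Finite) : IsPathConnected ({z : ℂ | 1 < ‖z‖} \ F) := by
  have h1 := (TCirc_ball ((hF.preimage (f := fun z : ℂ => z⁻¹) inv_injective.injOn).insert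
    0)).image' (f := fun z : ℂ => z⁻¹)
    (continuousOn_inv₀.mono fun z hz h => hz.2 (Or.inl h))
  have e : (fun z : ℂ => z⁻¹) '' ({z : ℂ | ‖z‖ < 1} \ insert 0 ((fun z : ℂ => z⁻¹) ⁻¹' F)) =
      {z : ℂ | 1 < ‖z‖} \ F := by
    ext z
    constructor
    · rintro ⟨y, ⟨h2, h3⟩, rfl⟩
      refine ⟨?_, fun h => h3 (Or.inr h)⟩
      show 1 < ‖y⁻¹‖
      rw [norm_inv]
      exact (one_lt_inv₀ (norm_pos_iff.2 fun h => h3 (Or.inl h))).2 h2
    · rintro ⟨h2, h3⟩
      have h4 : 1 < ‖z‖ := h2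
      refine ⟨z⁻¹, ⟨?_, ?_⟩, inv_inv z⟩
      · show ‖z⁻¹‖ < 1
        rw [norm_inv]
        exact inv_lt_one_of_one_lt₀ h4
      · rintro (h | h)
        · rw [inv_eq_zero.1 h, norm_zero] at h4
          linarith
        · exact h3 (by simpa using h)
  rwa [e] at h1

/-- configurations of points in prescribed regions -/
def TCircConf (D : Fin n → Set ℂ) : Set (Fin n → ℂ) :=
  {b | Function.Injective b ∧ ∀ i, b i ∈ D i}

theorem TCirc_move {D : Fin n → Set ℂ} (hD : ∀ i F, F.Finite → IsPathConnected (D i \ F))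
    {b : Fin n → ℂ} (hb : b ∈ TCircConf D) (i : Fin n) {z : ℂ} (hz : z ∈ D i)
    (hz' : ∀ j, z ≠ b j) : JoinedIn (TCircConf D) b (Function.update b i z) := by
  have h1 := (hD i (b '' {j | j ≠ i}) (Set.toFinite _)).joinedIn (b i)
    ⟨hb.2 i, fun ⟨j, hj, h⟩ => hj (hb.1 h)⟩ z ⟨hz, fun ⟨j, _, h⟩ => hz' j h.symm⟩
  have h2 := h1.map (f := fun y => Function.update b i y) (continuous_const.update i continuous_id)
  rw [Function.update_eq_self] at h2
  refine h2.mono ?_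
  rintro _ ⟨y, ⟨h3, h4⟩, rfl⟩
  beta_reduce
  refine ⟨fun j k hjk => ?_, fun j => ?_⟩
  · by_cases hj : j = i <;> by_cases hk : k = i
    · rw [hj, hk]
    · subst hj
      rw [Function.update_self, Function.update_of_ne hk] at hjk
      exact absurd ⟨k, hk, hjk.symm⟩ h4
    · subst hk
      rw [Function.update_self, Function.update_of_ne hj] at hjk
      exact absurd ⟨j, hj, hjk⟩ h4
    · rw [Function.update_of_ne hj, Function.update_of_ne hk] at hjk
      exact hb.1 hjk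
  · by_cases hj : j = i
    · subst hj
      rwa [Function.update_self]
    · rw [Function.update_of_ne hj]
      exact hb.2 j

theorem TCirc_moves {D : Fin n → Set ℂ} (hD : ∀ i F, F.Finite → IsPathConnected (D i \ F))
    {b' : Fin n → ℂ} (hb' : b' ∈ TCircConf D) (S : Finset (Fin n)) : ∀ b ∈ TCircConf D,
      (∀ i, i ∉ S → b i = b' i) → (∀ i ∈ S, ∀ j, b' i ≠ b j) → JoinedIn (TCircConf D) b b' := by
  induction S using Finset.induction_on with
  | empty =>
    intro b hb h1 _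
    rw [← funext fun i => h1 i (Finset.notMem_empty i)]
    exact JoinedIn.refl hb
  | insert i S hi ih =>
    intro b hb h1 h2
    have h3 := TCirc_move hD hb i (hb'.2 i) (h2 i (Finset.mem_insert_self _ _))
    refine h3.trans (ih _ h3.target_mem (fun j hj => ?_) fun k hk j => ?_)
    · by_cases hji : j = i
      · subst hji
        rw [Function.update_self]
      · rw [Function.update_of_ne hji]
        exact h1 j fun h => (Finset.mem_insert.1 h).elim hji hj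
    · by_cases hji : j = i
      · subst hji
        rw [Function.update_self]
        exact hb'.1.ne fun h => hi (h ▸ hk)
      · rw [Function.update_of_ne hji]
        exact h2 k (Finset.mem_insert_of_mem hk) j

theorem TCirc_joined {D : Fin n → Set ℂ} (hD : ∀ i F, F.Finite → IsPathConnected (D i \ F))
    (hO : ∀ i, IsOpen (D i)) {b b' : Fin n → ℂ} (hb : b ∈ TCircConf D) (hb' : b' ∈ TCircConf D) :
    JoinedIn (TCircConf D) b b' := by
  have h1 : ∀ᶠ δ : ℂ in nhds 0, ∀ i, b i + δ ∈ D i := by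
    refine Filter.eventually_all.2 fun i => ?_
    refine ((hO i).preimage (f := fun δ : ℂ => b i + δ) (by fun_prop)).mem_nhds ?_
    simpa using hb.2 i
  obtain ⟨δ, h2, h3⟩ := (infinite_of_mem_nhds (0 : ℂ) h1).exists_notMem_finite
    ((Set.finite_range fun p : Fin n × Fin n => b p.2 - b p.1).union
      (Set.finite_range fun p : Fin n × Fin n => b' p.2 - b p.1))
  have h4 : (fun i => b i + δ) ∈ TCircConf D :=
    ⟨fun i j h => hb.1 (add_right_cancel h), h2⟩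
  refine (TCirc_moves hD h4 Finset.univ b hb (fun i hi => absurd (Finset.mem_univ i) hi)
    fun i _ j h => h3 (Or.inl ⟨(i, j), ?_⟩)).trans
    (TCirc_moves hD h4 Finset.univ b' hb' (fun i hi => absurd (Finset.mem_univ i) hi)
      fun i _ j h => h3 (Or.inr ⟨(i, j), ?_⟩)).symm
  · exact (eq_sub_of_add_eq' h).symm
  · exact (eq_sub_of_add_eq' h).symm

/-- configurations together with a circle -/
def TCircAdm (n : ℕ) : Set ((Fin n → ℂ) × ℂ × ℂ) :=
  {p | Function.Injective p.1 ∧ ∀ i, ‖p.1 i - p.2.1‖ ≠ ‖p.2.2‖}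

theorem TCirc_norm {a : Fin n → ℂ} (ha : Function.Injective a) {c w : ℂ} (hw : w ≠ 0)
    (h : ∀ i, ‖a i - c‖ ≠ ‖w‖) :
    JoinedIn (TCircAdm n) (a, c, w) (fun i => (a i - c) / w, 0, 1) := by
  have h1 := (isPathConnected_univ.prod
    (isPathConnected_compl_singleton_of_one_lt_rank TCirc_rank (0 : ℂ))).joinedIn (c, w)
    ⟨trivial, hw⟩ ((0 : ℂ), (1 : ℂ)) ⟨trivial, one_ne_zero⟩
  have h2 := h1.map (f := fun q : ℂ × ℂ => (fun i => (a i - c) / w * q.2 + q.1, q.1, q.2))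
    (by fun_prop)
  simp only [div_mul_cancel₀ _ hw, sub_add_cancel, mul_one, add_zero] at h2
  refine h2.mono ?_
  rintro _ ⟨q, ⟨-, hq⟩, rfl⟩
  have hq' : q.2 ≠ 0 := hq
  refine ⟨fun i j hij => ha ?_, fun i h3 => h i ?_⟩
  · have h3 := mul_right_cancel₀ hq' (add_right_cancel hij)
    exact sub_left_injective ((div_left_inj' hw).1 h3)
  · simp only [add_sub_cancel_right, norm_mul, norm_div] at h3
    have h4 := mul_right_cancel₀ (norm_ne_zero_iff.2 hq') (h3.trans (one_mul _).symm)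
    exact (div_eq_one_iff_eq (norm_ne_zero_iff.2 hw)).1 h4

/-- configurations together with a circle enclosing `J` can be joined -/
theorem exists_conf_path {a a' : Fin n → ℂ} (ha : Function.Injective a)
    (ha' : Function.Injective a') {c w c' w' : ℂ} (hw : w ≠ 0) (hw' : w' ≠ 0)
    (h : ∀ i, ‖a i - c‖ ≠ ‖w‖) (h' : ∀ i, ‖a' i - c'‖ ≠ ‖w'‖)
    (hJ : ∀ i, ‖a i - c‖ < ‖w‖ ↔ ‖a' i - c'‖ < ‖w'‖) :
    ∃ (A : I → Fin n → ℂ) (cc ww : I → ℂ), Continuous A ∧ Continuous cc ∧ Continuous ww ∧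
      (∀ s, Function.Injective (A s)) ∧ A 0 = a ∧ A 1 = a' ∧ cc 0 = c ∧ cc 1 = c' ∧ ww 0 = w ∧
      ww 1 = w' ∧ ∀ s i, ‖A s i - cc s‖ ≠ ‖ww s‖ := by
  let D : Fin n → Set ℂ := fun i => if ‖a i - c‖ < ‖w‖ then {z | ‖z‖ < 1} else {z | 1 < ‖z‖}
  have hmem : ∀ {a1 : Fin n → ℂ} {c1 w1 : ℂ}, Function.Injective a1 → w1 ≠ 0 →
      (∀ i, ‖a1 i - c1‖ ≠ ‖w1‖) → (∀ i, ‖a i - c‖ < ‖w‖ ↔ ‖a1 i - c1‖ < ‖w1‖) →
      (fun i => (a1 i - c1) / w1) ∈ TCircConf D := by
    intro a1 c1 w1 h1 h2 h3 h4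
    refine ⟨fun i j hij => h1 (sub_left_injective ((div_left_inj' h2).1 hij)), fun i => ?_⟩
    have h5 := norm_pos_iff.2 h2
    simp only [D]
    split_ifs with h6
    · show ‖(a1 i - c1) / w1‖ < 1
      rw [norm_div, div_lt_one h5]
      exact (h4 i).1 h6
    · show 1 < ‖(a1 i - c1) / w1‖
      rw [norm_div, one_lt_div h5]
      exact lt_of_le_of_ne (not_lt.1 fun h7 => h6 ((h4 i).2 h7)) (h3 i).symm
  have h1 := TCirc_joined (D := D) (fun i F hF => by
      simp only [D]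
      split_ifs
      · exact TCirc_ball hF
      · exact TCirc_ext hF)
    (fun i => by
      simp only [D]
      split_ifs
      · exact isOpen_lt continuous_norm continuous_const
      · exact isOpen_lt continuous_const continuous_norm)
    (hmem ha hw h fun _ => Iff.rfl) (hmem ha' hw' h' hJ)
  have h2 := (h1.map (f := fun b : Fin n → ℂ => (b, (0 : ℂ), (1 : ℂ))) (by fun_prop)).mono
    (V := TCircAdm n) (by
      rintro _ ⟨b, hb, rfl⟩
      refine ⟨hb.1, fun i => ?_⟩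
      have h3 := hb.2 i
      simp only [D] at h3
      simp only [sub_zero, norm_one]
      split_ifs at h3
      · exact ne_of_lt h3
      · exact ne_of_gt h3)
  obtain ⟨γ, hγ⟩ := ((TCirc_norm ha hw h).trans h2).trans (TCirc_norm ha' hw' h').symm
  have hc := γ.continuous
  exact ⟨fun s => (γ s).1, fun s => (γ s).2.1, fun s => (γ s).2.2, by fun_prop, by fun_prop,
    by fun_prop, fun s => (hγ s).1, by simp, by simp, by simp, by simp, by simp, by simp,
    fun s => (hγ s).2⟩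

end Vale.Agent.P300
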