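import Vale.Agent.P300.TUniv
import Vale.Agent.P300.TCirc
import Vale.Agent.P300.EConstX1

/-! P300: monodromy of coverings of the twice punctured plane. -/

noncomputable section

namespace Vale.Agent.P300

open unitInterval Set Filter Topology

section general

variable {X T G : Type} [TopologicalSpace X] [TopologicalSpace T] [Group G]

/-- `θ` is the monodromy action on the fibre over `x0` -/
def EConstSpec (μ : Mono X G) (q : T → X) (x0 : X) (θ : G →* Equiv.Perm (q ⁻¹' {x0})) : Prop :=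
  ∀ (Γ : C(I, T)) (γ : C(I, X)), (∀ s, q (Γ s) = γ s) →
    ∀ (h0 : q (Γ 0) = x0) (h1 : q (Γ 1) = x0), θ (μ.m γ) ⟨Γ 1, h1⟩ = ⟨Γ 0, h0⟩

theorem EConstSpec.app {μ : Mono X G} {q : T → X} {x0 : X} {θ : G →* Equiv.Perm (q ⁻¹' {x0})}
    (hθ : EConstSpec μ q x0 θ) (Γ : C(I, T)) (γ : C(I, X)) (h : ∀ s, q (Γ s) = γ s)
    (e0 e1 : q ⁻¹' {x0}) (h0 : Γ 0 = e0) (h1 : Γ 1 = e1) : θ (μ.m γ) e1 = e0 := by
  obtain ⟨e0, a0⟩ := e0
  obtain ⟨e1, a1⟩ := e1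
  simp only at h0 h1
  subst h0 h1
  exact hθ Γ γ h a0 a1

theorem econst_lift {q : T → X} (hq : IsCoveringMap q) (γ : C(I, X)) (e : T) (h : γ 0 = q e) :
    ∃ Γ : C(I, T), (∀ s, q (Γ s) = γ s) ∧ Γ 0 = e := by
  obtain ⟨Γ, h1, h2⟩ := hq.exists_path_lifts γ e h
  exact ⟨Γ, fun s => congrFun h1 s, h2⟩

theorem econst_lpc [LocallyPathConnectedSpace X] {q : T → X} (hq : IsLocalHomeomorph q) :
    LocallyPathConnectedSpace T := by
  let _ : ChartedSpace X T :=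
    { atlas := univ
      chartAt := fun x => (hq x).choose
      mem_chart_source := fun x => (hq x).choose_spec.1
      chart_mem_atlas := fun _ => mem_univ _ }
  exact ChartedSpace.locallyPathConnectedSpace X T

theorem econst_path [PathConnectedSpace X] (x y : X) : ∃ δ : C(I, X), δ 0 = x ∧ δ 1 = y :=
  ⟨(PathConnectedSpace.somePath x y).toContinuousMap, (PathConnectedSpace.somePath x y).source,
    (PathConnectedSpace.somePath x y).target⟩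

theorem econst_triv [PathConnectedSpace X] {q : T → X} (hq : IsCoveringMap q) {μ : Mono X G}
    {x0 : X} {θ : G →* Equiv.Perm (q ⁻¹' {x0})} (hθ : EConstSpec μ q x0 θ) (γ : C(I, X))
    (hcl : ∀ Γ : C(I, T), (∀ s, q (Γ s) = γ s) → Γ 1 = Γ 0) : θ (μ.m γ) = 1 := by
  obtain ⟨δ, d0, d1⟩ := econst_path x0 (γ 0)
  have key : θ (μ.m δ * μ.m γ * (μ.m δ)⁻¹) = 1 := by
    ext1 e
    obtain ⟨Δ, a1, a2⟩ := econst_lift hq δ e.1 (d0.trans e.2.symm)
    obtain ⟨Γ, b1, b2⟩ := econst_lift hq γ (Δ 1) (d1.symm.trans (a1 1).symm)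
    have c1 : rev Δ 0 = cat Δ Γ b2 1 := by rw [rev_zero, cat_one, hcl Γ b1, b2]
    let Q : C(T, X) := ⟨q, hq.continuous⟩
    have e1 : Q.comp Δ = δ := ContinuousMap.ext a1
    have e2 : Q.comp Γ = γ := ContinuousMap.ext b1
    have e3 : μ.m (Q.comp (cat (cat Δ Γ b2) (rev Δ) c1)) = μ.m δ * μ.m γ * (μ.m δ)⁻¹ := by
      rw [comp_cat, μ.m_cat, comp_cat, μ.m_cat, comp_rev, μ.m_rev, e1, e2]
    have f0 : cat (cat Δ Γ b2) (rev Δ) c1 0 = e.1 := by rw [cat_zero, cat_zero, a2]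
    have f1 : cat (cat Δ Γ b2) (rev Δ) c1 1 = e.1 := by rw [cat_one, rev_one, a2]
    have h := hθ.app (cat (cat Δ Γ b2) (rev Δ) c1) (Q.comp (cat (cat Δ Γ b2) (rev Δ) c1))
      (fun _ => rfl) e e f0 f1
    rw [e3] at h
    exact h
  rw [map_mul, map_mul, map_inv, conj_eq_one_iff] at key
  exact key

theorem econst_orbit [PathConnectedSpace X] {q : T → X} (hq : IsCoveringMap q) {μ : Mono X G}
    (e0 : T) {θ : G →* Equiv.Perm (q ⁻¹' {q e0})} (hθ : EConstSpec μ q (q e0) θ)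
    (hfin : (range θ).Finite) (x : X) :
    ((fun a : pathComponent e0 => q a) ⁻¹' {x}).Finite := by
  have h0 : {a | a ∈ pathComponent e0 ∧ q a = q e0}.Finite := by
    refine (hfin.image fun τ => (τ⁻¹ ⟨e0, rfl⟩ : q ⁻¹' {q e0}).1).subset ?_
    rintro a ⟨⟨Γ⟩, ha⟩
    let Q : C(T, X) := ⟨q, hq.continuous⟩
    have h := hθ.app Γ.toContinuousMap (Q.comp Γ.toContinuousMap) (fun _ => rfl)
      ⟨e0, rfl⟩ ⟨a, ha⟩ Γ.source Γ.target
    refine ⟨_, ⟨μ.m (Q.comp Γ.toContinuousMap), rfl⟩, ?_⟩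
    exact congrArg Subtype.val (Equiv.Perm.inv_eq_iff_eq.2 h.symm)
  obtain ⟨δ, d0, d1⟩ := econst_path x (q e0)
  have hne : Nonempty C(I, T) := ⟨.const I e0⟩
  have h1 : ∀ a, q a = x → ∃ Γ : C(I, T), (∀ s, q (Γ s) = δ s) ∧ Γ 0 = a :=
    fun a ha => econst_lift hq δ a (d0.trans ha.symm)
  choose! L l1 l2 using h1
  have h2 : {a | a ∈ pathComponent e0 ∧ q a = x}.Finite := by
    refine Set.Finite.of_injOn (f := fun a => L a 1) ?_ ?_ h0
    · rintro a ⟨ha, hx⟩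
      refine ⟨Joined.trans ha ⟨⟨L a, l2 a hx, rfl⟩⟩, ?_⟩
      rw [l1 a hx, d1]
    · rintro a ⟨-, hx⟩ a' ⟨-, hx'⟩ h
      have := hq.eq_of_comp_eq (L a).continuous (L a').continuous
        (funext fun s => (l1 a hx s).trans (l1 a' hx' s).symm) 1 h
      rw [← l2 a hx, ← l2 a' hx', this]
  exact (h2.preimage Subtype.val_injective.injOn).subset fun a ha => ⟨a.2, ha⟩

end general

theorem econst_region {A : Type} [TopologicalSpace A] {X : Set ℂ} {q : A → X}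
    (hq : IsCoveringMap q) (hf : ∀ x, (q ⁻¹' {x}).Finite) (g : A → ℂ) {D : Set ℂ}
    (hD : IsPathConnected D) (hDX : D ⊆ X)
    (hB : ∀ a0 : A, ∃ M : ℝ, ∀ Γ : C(I, A), (∀ s, (q (Γ s) : ℂ) ∈ D) → Γ 0 = a0 → ‖g (Γ 1)‖ ≤ M) :
    ∃ M : ℝ, ∀ a, (q a : ℂ) ∈ D → ‖g a‖ ≤ M := by
  choose M hM using hB
  obtain ⟨b, hb⟩ := hD.nonempty
  obtain ⟨M0, hM0⟩ := ((hf ⟨b, hDX hb⟩).image M).bddAbove
  refine ⟨M0, fun a ha => ?_⟩
  obtain ⟨γ, hγ⟩ := hD.joinedIn _ ha _ hb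
  let δ : C(I, X) := ⟨fun s => ⟨γ s, hDX (hγ s)⟩, γ.continuous.subtype_mk _⟩
  obtain ⟨Γ, h1, h2⟩ := econst_lift hq δ a (Subtype.ext γ.source)
  have h3 := hM (Γ 1) (rev Γ) (fun s => by
    show (q (Γ (symm s)) : ℂ) ∈ D
    rw [h1]
    exact hγ _) (rev_zero Γ)
  rw [rev_one, h2] at h3
  refine le_trans h3 (hM0 ⟨Γ 1, ?_, rfl⟩)
  show q (Γ 1) = _
  rw [h1]
  exact Subtype.ext γ.target

theorem econst_pow {T Z G : Type} [TopologicalSpace T] [TopologicalSpace Z] [Group G]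
    {X : Set ℂ} [PathConnectedSpace X] {pr : T → Z} (hpr : Continuous pr) {ξ : Z → X}
    (hξ : IsCoveringMap ξ) (hf : ∀ x, (ξ ⁻¹' {x}).Finite) (hq : IsCoveringMap (ξ ∘ pr))
    {μ : Mono X G} (hμ : IsUniv μ) {x0 : X} {θ : G →* Equiv.Perm ((ξ ∘ pr) ⁻¹' {x0})}
    (hθ : EConstSpec μ (ξ ∘ pr) x0 θ) {K : Set ℂ}
    (hT : ∀ Γ : C(I, T), (∀ s, (ξ (pr (Γ s)) : ℂ) ∉ K) → pr (Γ 1) = pr (Γ 0) → Γ 1 = Γ 0)
    {c w : ℂ} (hP : ∀ s : ℝ, c + w * ex s ∈ X) (hK : ∀ s : ℝ, c + w * ex s ∉ K) {x : G}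
    (hx : ∀ γ : C(I, X), (∀ s : I, (γ s : ℂ) = c + w * ex s) → IsConj x (μ.m γ)) :
    (∃ N : ℕ, 0 < N ∧ θ x ^ N = 1) ∧ ∀ n : ℤ,
      (∀ Γ : C(I, Z), (∀ s : I, (ξ (Γ s) : ℂ) = c + w * ex (n * s)) → Γ 1 = Γ 0) →
        θ x ^ n = 1 := by
  let Ψ : ℝ → X := fun s => ⟨c + w * ex s, hP s⟩
  have hΨ : Continuous Ψ :=
    (continuous_const.add (continuous_const.mul continuous_ex)).subtype_mk _
  have hper : ∀ s, Ψ (s + 1) = Ψ s := fun s => Subtype.ext (by simp only [Ψ, ex_add_one])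
  let γ1 : C(I, X) := ⟨fun s => Ψ s, hΨ.comp continuous_subtype_val⟩
  let γ : ℤ → C(I, X) := fun n =>
    ⟨fun s => Ψ (n * s), hΨ.comp (continuous_const.mul continuous_subtype_val)⟩
  have hm : ∀ n, μ.m (γ n) = μ.m γ1 ^ n := fun n =>
    μ.m_per Ψ hΨ hper n γ1 (γ n) (fun _ => rfl) fun _ => rfl
  have h2 : ∀ n : ℤ,
      (∀ Γ : C(I, Z), (∀ s : I, (ξ (Γ s) : ℂ) = c + w * ex (n * s)) → Γ 1 = Γ 0) →
        θ x ^ n = 1 := by
    intro n hn
    have h3 : θ (μ.m (γ n)) = 1 := by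
      refine econst_triv hq hθ (γ n) fun Γ hΓ => hT Γ (fun s => ?_) ?_
      · have e : ξ (pr (Γ s)) = γ n s := hΓ s
        rw [e]
        exact hK _
      · exact hn ((⟨pr, hpr⟩ : C(T, Z)).comp Γ) fun s => congrArg Subtype.val (hΓ s)
    obtain ⟨u, hu⟩ := isConj_iff.1 (hx γ1 fun _ => rfl)
    rw [hm, ← hu, conj_zpow, map_mul, map_mul, map_inv, conj_eq_one_iff, map_zpow] at h3
    exact h3
  refine ⟨?_, h2⟩
  obtain ⟨θ', hθ'⟩ := hμ.monodromy hξ (Ψ 0)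
  have : Finite (ξ ⁻¹' {Ψ 0}) := hf _
  refine ⟨Nat.card (Equiv.Perm (ξ ⁻¹' {Ψ 0})), Nat.card_pos, ?_⟩
  rw [← zpow_natCast]
  refine h2 _ fun Γ hΓ => ?_
  have a0 : ξ (Γ 0) = Ψ 0 := Subtype.ext (by rw [hΓ]; simp [Ψ])
  have a1 : ξ (Γ 1) = Ψ 0 := Subtype.ext (by
    rw [hΓ, Icc.coe_one, mul_one, ex_int]; simp [Ψ, ex_zero])
  have h3 := hθ' Γ (γ _) (fun s => Subtype.ext (hΓ s)) a0 a1
  rw [hm, map_zpow, zpow_natCast, pow_card_eq_one'] at h3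
  exact congrArg Subtype.val h3

theorem econst_disc (c : ℂ) {r : ℝ} (hr : 0 < r) :
    IsPathConnected {z : ℂ | z ≠ c ∧ ‖z - c‖ < r} := by
  have h := (TCirc_ball (finite_singleton (0 : ℂ))).image (f := fun z => c + (r : ℂ) * z)
    (by fun_prop)
  have hr' : (r : ℂ) ≠ 0 := by exact_mod_cast hr.ne'
  have e : (fun z => c + (r : ℂ) * z) '' ({z : ℂ | ‖z‖ < 1} \ {0}) =
      {z : ℂ | z ≠ c ∧ ‖z - c‖ < r} := by
    ext z
    constructor
    · rintro ⟨y, ⟨h1, h2⟩, rfl⟩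
      have h3 : ‖y‖ < 1 := h1
      have h4 : y ≠ 0 := h2
      refine ⟨by simp [hr', h4], ?_⟩
      rw [add_sub_cancel_left, norm_mul, Complex.norm_real, Real.norm_eq_abs, abs_of_pos hr]
      nlinarith
    · rintro ⟨h1, h2⟩
      refine ⟨(z - c) / r, ⟨?_, ?_⟩, ?_⟩
      · show ‖(z - c) / r‖ < 1
        rw [norm_div, Complex.norm_real, Real.norm_eq_abs, abs_of_pos hr, div_lt_one hr]
        exact h2
      · exact div_ne_zero (sub_ne_zero.2 h1) hr'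
      · simp only
        field_simp
        ring
  rwa [e] at h

theorem econst_ext {r : ℝ} (hr : 0 < r) : IsPathConnected {z : ℂ | r < ‖z‖} := by
  have h := (TCirc_ext finite_empty).image (f := fun z => (r : ℂ) * z) (by fun_prop)
  have hr' : (r : ℂ) ≠ 0 := by exact_mod_cast hr.ne'
  have e : (fun z => (r : ℂ) * z) '' ({z : ℂ | 1 < ‖z‖} \ ∅) = {z : ℂ | r < ‖z‖} := by
    ext z
    constructor
    · rintro ⟨y, ⟨h1, -⟩, rfl⟩
      have h3 : 1 < ‖y‖ := h1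
      show r < ‖(r : ℂ) * y‖
      rw [norm_mul, Complex.norm_real, Real.norm_eq_abs, abs_of_pos hr]
      nlinarith
    · intro h1
      refine ⟨z / r, ⟨?_, fun h => h⟩, ?_⟩
      · show 1 < ‖z / r‖
        rw [norm_div, Complex.norm_real, Real.norm_eq_abs, abs_of_pos hr, one_lt_div hr]
        exact h1
      · simp only
        field_simp
  rwa [e] at h

/-- a compact subset of the twice punctured plane stays away from the punctures -/
theorem econst_radii {K : Set ℂ} (hK : IsCompact K) (hP : K ⊆ Pl ![(0 : ℂ), 1]) :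
    ∃ r R : ℝ, 0 < r ∧ r < 1 ∧ 1 < R ∧ ∀ z ∈ K, r ≤ ‖z - 0‖ ∧ r ≤ ‖z - 1‖ ∧ ‖z‖ ≤ R := by
  obtain ⟨r0, h0, a0⟩ := Metric.isOpen_iff.1 hK.isClosed.isOpen_compl 0
    (fun h => (econst_mem.1 (hP h)).1 rfl)
  obtain ⟨r1, h1, a1⟩ := Metric.isOpen_iff.1 hK.isClosed.isOpen_compl 1
    (fun h => (econst_mem.1 (hP h)).2 rfl)
  obtain ⟨R, hR⟩ := isBounded_iff_forall_norm_le.1 hK.isBounded
  refine ⟨min (min r0 r1) (1 / 2), max R 2, by positivity,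
    lt_of_le_of_lt (min_le_right _ _) (by norm_num), lt_of_lt_of_le (by norm_num) (le_max_right _ _),
    fun z hz => ⟨?_, ?_, le_trans (hR z hz) (le_max_left _ _)⟩⟩
  · by_contra h
    refine a0 (mem_ball_iff_norm.2 (lt_of_lt_of_le (not_le.1 h) ?_)) hz
    exact le_trans (min_le_left _ _) (min_le_left _ _)
  · by_contra h
    refine a1 (mem_ball_iff_norm.2 (lt_of_lt_of_le (not_le.1 h) ?_)) hz
    exact le_trans (min_le_left _ _) (min_le_right _ _)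

theorem econst_cyclic {Y : Type} (θ : FreeGroup (Fin 2) →* Equiv.Perm Y) {N : ℕ} (hN : 0 < N)
    (h0 : θ (FreeGroup.of 0) ^ N = 1) (h1 : θ (FreeGroup.of 1) = 1) : (range θ).Finite := by
  have hf : IsOfFinOrder (θ (FreeGroup.of 0)) := isOfFinOrder_iff_pow_eq_one.2 ⟨N, hN, h0⟩
  refine hf.finite_zpowers.subset ?_
  rintro _ ⟨g, rfl⟩
  have h : (⊤ : Subgroup (FreeGroup (Fin 2))) ≤
      (Subgroup.zpowers (θ (FreeGroup.of 0))).comap θ := by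
    rw [← FreeGroup.closure_range_of, Subgroup.closure_le]
    rintro _ ⟨i, rfl⟩
    fin_cases i
    · exact Subgroup.mem_zpowers _
    · show θ (FreeGroup.of 1) ∈ Subgroup.zpowers _
      rw [h1]
      exact one_mem _
  exact h (Subgroup.mem_top g)

end Vale.Agent.P300
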