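import Vale.Agent.P300.TMono

/-! P300: universal groupoid homomorphisms and monodromy of coverings. -/

noncomputable section

namespace Vale.Agent.P300

open unitInterval

variable {Z : Type} [TopologicalSpace Z] {G G' : Type} [Group G] [Group G']

/-- the class of a path closed up by reference paths -/
def tunivCls {z0 : Z} (ref : ∀ z, Path.Homotopic.Quotient z0 z) {x y : Z} (p : Path x y) :
    FundamentalGroup Z z0 :=
  (ref x).trans ((Path.Homotopic.Quotient.mk p).trans (ref y).symm)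

theorem tunivCls_congr {z0 : Z} (ref : ∀ z, Path.Homotopic.Quotient z0 z) {x y x' y' : Z}
    (p : Path x y) (p' : Path x' y') (hx : x = x') (hy : y = y')
    (h : p.toContinuousMap.HomotopicRel p'.toContinuousMap {0, 1}) :
    tunivCls ref p = tunivCls ref p' := by
  subst hx hy
  unfold tunivCls
  rw [Path.Homotopic.Quotient.eq.2 h]

theorem tunivCls_trans {z0 : Z} (ref : ∀ z, Path.Homotopic.Quotient z0 z) {x y z : Z}
    (p : Path x y) (q : Path y z) :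
    tunivCls ref (p.trans q) = tunivCls ref q * tunivCls ref p := by
  rw [FundamentalGroup.mul_def]
  unfold tunivCls
  rw [Path.Homotopic.Quotient.mk_trans]
  simp only [Path.Homotopic.Quotient.trans_assoc]
  rw [← Path.Homotopic.Quotient.trans_assoc (ref y).symm, Path.Homotopic.Quotient.symm_trans,
    Path.Homotopic.Quotient.refl_trans]

theorem tunivCls_mk {z0 : Z} (ref : ∀ z, Path.Homotopic.Quotient z0 z) {x y : Z} (p : Path x y) :
    Path.Homotopic.Quotient.mk p =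
      (ref x).symm.trans (Path.Homotopic.Quotient.trans (tunivCls ref p) (ref y)) := by
  unfold tunivCls
  simp only [Path.Homotopic.Quotient.trans_assoc]
  rw [← Path.Homotopic.Quotient.trans_assoc (ref x).symm, Path.Homotopic.Quotient.symm_trans,
    Path.Homotopic.Quotient.refl_trans, Path.Homotopic.Quotient.symm_trans,
    Path.Homotopic.Quotient.trans_refl]

theorem tunivCls_path {z0 : Z} (ref : ∀ z, Path.Homotopic.Quotient z0 z) {x y : Z} (p : Path x y) :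
    tunivCls ref (⟨p.toContinuousMap, rfl, rfl⟩ : Path _ _) = tunivCls ref p :=
  tunivCls_congr ref _ p p.source p.target (ContinuousMap.HomotopicRel.refl _)

/-- the tautological homomorphism to the fundamental group -/
def tunivMono {z0 : Z} (ref : ∀ z, Path.Homotopic.Quotient z0 z) :
    Mono Z (FundamentalGroup Z z0) where
  m γ := (tunivCls ref (⟨γ, rfl, rfl⟩ : Path (γ 0) (γ 1)))⁻¹
  trans p q := by
    rw [tunivCls_path, tunivCls_path, tunivCls_path, tunivCls_trans, mul_inv_rev]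
  htpy γ γ' h := by
    rw [tunivCls_congr ref (⟨γ, rfl, rfl⟩ : Path (γ 0) (γ 1)) (⟨γ', rfl, rfl⟩ : Path (γ' 0) (γ' 1))
      (h.fst_eq_snd (by simp)) (h.fst_eq_snd (by simp)) h]

theorem tunivMono_path {z0 : Z} (ref : ∀ z, Path.Homotopic.Quotient z0 z) {x y : Z}
    (p : Path x y) : (tunivMono ref).m p.toContinuousMap = (tunivCls ref p)⁻¹ :=
  congrArg Inv.inv (tunivCls_path ref p)

theorem tunivMono_inj {z0 : Z} (ref : ∀ z, Path.Homotopic.Quotient z0 z) (γ γ' : C(I, Z))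
    (h0 : γ 0 = γ' 0) (h1 : γ 1 = γ' 1) (h : (tunivMono ref).m γ = (tunivMono ref).m γ') :
    γ.HomotopicRel γ' {0, 1} := by
  have h2 : tunivCls ref (⟨γ, rfl, rfl⟩ : Path (γ 0) (γ 1)) =
      tunivCls ref (⟨γ', h0.symm, h1.symm⟩ : Path (γ 0) (γ 1)) :=
    inv_injective (h.trans (tunivMono_path ref (⟨γ', h0.symm, h1.symm⟩ : Path (γ 0) (γ 1))))
  have h3 : Path.Homotopic.Quotient.mk (⟨γ, rfl, rfl⟩ : Path (γ 0) (γ 1)) =
      Path.Homotopic.Quotient.mk (⟨γ', h0.symm, h1.symm⟩ : Path (γ 0) (γ 1)) := by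
    rw [tunivCls_mk ref, tunivCls_mk ref, h2]
  exact Path.Homotopic.Quotient.eq.1 h3

theorem tunivMono_univ {z0 : Z} (ref : ∀ z, Path.Homotopic.Quotient z0 z) :
    IsUniv (tunivMono ref) := by
  refine ⟨fun z g => ?_, fun γ h h1 G _ μ => ?_⟩
  · obtain ⟨p, hp⟩ := Path.Homotopic.Quotient.mk_surjective
      ((ref z).symm.trans (Path.Homotopic.Quotient.trans (g⁻¹ : FundamentalGroup Z z0) (ref z)))
    refine ⟨p.toContinuousMap, p.source, p.target, ?_⟩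
    rw [tunivMono_path, inv_eq_iff_eq_inv]
    unfold tunivCls
    rw [hp]
    simp only [Path.Homotopic.Quotient.trans_assoc]
    rw [← Path.Homotopic.Quotient.trans_assoc (ref z), Path.Homotopic.Quotient.trans_symm,
      Path.Homotopic.Quotient.refl_trans, Path.Homotopic.Quotient.trans_refl]
  · have h2 := tunivMono_inj ref γ (ContinuousMap.const I (γ 0)) rfl h
      (h1.trans ((tunivMono ref).m_const _ fun _ => rfl).symm)
    rw [μ.htpy _ _ h2]
    exact μ.m_const _ fun _ => rfl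

theorem exists_univ (Z : Type) [TopologicalSpace Z] [PathConnectedSpace Z] :
    ∃ (P : Type) (_ : Group P) (μ : Mono Z P), IsUniv μ ∧ ∀ γ γ' : C(I, Z), γ 0 = γ' 0 →
      γ 1 = γ' 1 → μ.m γ = μ.m γ' → γ.HomotopicRel γ' {0, 1} := by
  obtain ⟨z0⟩ := PathConnectedSpace.nonempty (X := Z)
  exact ⟨_, _, tunivMono fun z => Path.Homotopic.Quotient.mk (PathConnectedSpace.somePath z0 z),
    tunivMono_univ _, tunivMono_inj _⟩

theorem IsUniv.tuniv_key {μ : Mono Z G} (h : IsUniv μ) (μ' : Mono Z G') (γ γ' : C(I, Z))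
    (h0 : γ 0 = γ' 0) (h1 : γ 1 = γ' 1) (he : μ.m γ = μ.m γ') : μ'.m γ = μ'.m γ' := by
  have h2 : rev γ' 0 = γ 1 := (rev_zero γ').trans h1.symm
  have h3 := h.faith (cat γ (rev γ') h2) (by rw [cat_one, cat_zero, rev_one, h0])
    (by rw [μ.m_cat, μ.m_rev, he, mul_inv_cancel]) G' μ'
  rwa [μ'.m_cat, μ'.m_rev, mul_inv_eq_one] at h3

theorem IsUniv.lift [PathConnectedSpace Z] {μ : Mono Z G} (h : IsUniv μ) (μ' : Mono Z G') (z0 : Z) :
    ∃ (κ : G →* G') (e : Z → G'), e z0 = 1 ∧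
      ∀ γ : C(I, Z), μ'.m γ = e (γ 0) * κ (μ.m γ) * (e (γ 1))⁻¹ := by
  choose L h0 h1 hL using h.full z0
  have key : ∀ γ : C(I, Z), γ 0 = z0 → γ 1 = z0 → μ'.m (L (μ.m γ)) = μ'.m γ := fun γ a b =>
    h.tuniv_key μ' _ _ ((h0 _).trans a.symm) ((h1 _).trans b.symm) (hL _)
  have hmul : ∀ g g', μ'.m (L (g * g')) = μ'.m (L g) * μ'.m (L g') := by
    intro g g'
    have h2 := key (cat (L g) (L g') ((h0 g').trans (h1 g).symm)) ((cat_zero ..).trans (h0 g))
      ((cat_one ..).trans (h1 g'))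
    rwa [μ.m_cat, μ'.m_cat, hL, hL] at h2
  obtain ⟨δ, d0, d1⟩ : ∃ δ : Z → C(I, Z), (∀ z, δ z 0 = z0) ∧ ∀ z, δ z 1 = z :=
    ⟨fun z => (PathConnectedSpace.somePath z0 z).toContinuousMap,
      fun z => (PathConnectedSpace.somePath z0 z).source,
      fun z => (PathConnectedSpace.somePath z0 z).target⟩
  obtain ⟨κ, hκ⟩ : ∃ κ : G →* G', ∀ g, κ g = μ'.m (L g) :=
    ⟨MonoidHom.mk' (fun g => μ'.m (L g)) hmul, fun _ => rfl⟩
  refine ⟨κ, fun z => (μ'.m (δ z))⁻¹ * κ (μ.m (δ z)), ?_, fun γ => ?_⟩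
  · show (μ'.m (δ z0))⁻¹ * κ (μ.m (δ z0)) = 1
    rw [hκ, key _ (d0 z0) (d1 z0), inv_mul_cancel]
  · have a1 : γ 0 = δ (γ 0) 1 := (d1 _).symm
    have a2 : rev (δ (γ 1)) 0 = cat (δ (γ 0)) γ a1 1 := by rw [rev_zero, cat_one, d1]
    have h2 := key (cat (cat (δ (γ 0)) γ a1) (rev (δ (γ 1))) a2)
      (by rw [cat_zero, cat_zero, d0]) (by rw [cat_one, rev_one, d0])
    rw [← hκ, μ.m_cat, μ.m_cat, μ'.m_cat, μ'.m_cat, μ.m_rev, μ'.m_rev, map_mul, map_mul,
      map_inv] at h2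
    show μ'.m γ = (μ'.m (δ (γ 0)))⁻¹ * κ (μ.m (δ (γ 0))) * κ (μ.m γ) *
      ((μ'.m (δ (γ 1)))⁻¹ * κ (μ.m (δ (γ 1))))⁻¹
    calc μ'.m γ = (μ'.m (δ (γ 0)))⁻¹ * (μ'.m (δ (γ 0)) * μ'.m γ * (μ'.m (δ (γ 1)))⁻¹) *
          μ'.m (δ (γ 1)) := by group
      _ = _ := by rw [← h2]; group

theorem IsUniv.gauge {μ : Mono Z G} (h : IsUniv μ) (e : Z → G) : IsUniv (μ.gauge e) := by
  refine ⟨fun z g => ?_, fun γ h0 h1 => h.faith γ h0 ?_⟩
  · obtain ⟨γ, a, b, c⟩ := h.full z ((e z)⁻¹ * g * e z)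
    refine ⟨γ, a, b, ?_⟩
    show e (γ 0) * μ.m γ * (e (γ 1))⁻¹ = g
    rw [a, b, c]
    group
  · have h2 : e (γ 0) * μ.m γ * (e (γ 1))⁻¹ = 1 := h1
    rwa [h0, mul_inv_eq_one, mul_eq_left] at h2

theorem IsUniv.map {μ : Mono Z G} (h : IsUniv μ) (κ : G ≃* G') : IsUniv (μ.map κ.toMonoidHom) := by
  refine ⟨fun z g => ?_, fun γ h0 h1 => h.faith γ h0 ?_⟩
  · obtain ⟨γ, a, b, c⟩ := h.full z (κ.symm g)
    refine ⟨γ, a, b, ?_⟩
    show κ (μ.m γ) = g
    rw [c, κ.apply_symm_apply]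
  · exact κ.map_eq_one_iff.1 h1

theorem IsUniv.comap {Z' : Type} [TopologicalSpace Z'] {μ : Mono Z G} (h : IsUniv μ) (f : Z' ≃ₜ Z) :
    IsUniv (μ.comap (f : C(Z', Z))) := by
  refine ⟨fun z g => ?_, fun γ h0 h1 G'' _ μ' => ?_⟩
  · obtain ⟨γ, a, b, c⟩ := h.full (f z) g
    refine ⟨(f.symm : C(Z, Z')).comp γ, ?_, ?_, ?_⟩
    · exact f.symm_apply_eq.2 a
    · exact f.symm_apply_eq.2 b
    · rw [← c]
      exact congrArg μ.m (ContinuousMap.ext fun s => f.apply_symm_apply _)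
  · have h2 := h.faith ((f : C(Z', Z)).comp γ) (congrArg f h0) h1 G''
      (μ'.comap (f.symm : C(Z, Z')))
    rw [← h2]
    exact congrArg μ'.m (ContinuousMap.ext fun s => (f.symm_apply_apply _).symm)

/-- two universal homomorphisms differ by an isomorphism and a gauge -/
theorem IsUniv.equiv [PathConnectedSpace Z] {μ : Mono Z G} (h : IsUniv μ) {μ' : Mono Z G'}
    (h' : IsUniv μ') (z0 : Z) : ∃ (κ : G ≃* G') (e : Z → G'), e z0 = 1 ∧
      ∀ γ : C(I, Z), μ'.m γ = e (γ 0) * κ (μ.m γ) * (e (γ 1))⁻¹ := by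
  obtain ⟨κ, e, he, hκ⟩ := h.lift μ' z0
  obtain ⟨κ', e', he', hκ'⟩ := h'.lift μ z0
  have k1 : ∀ γ : C(I, Z), γ 0 = z0 → γ 1 = z0 → μ'.m γ = κ (μ.m γ) := fun γ a b => by
    rw [hκ, a, b, he, one_mul, inv_one, mul_one]
  have k2 : ∀ γ : C(I, Z), γ 0 = z0 → γ 1 = z0 → μ.m γ = κ' (μ'.m γ) := fun γ a b => by
    rw [hκ', a, b, he', one_mul, inv_one, mul_one]
  refine ⟨κ.toMulEquiv κ' (MonoidHom.ext fun g => ?_) (MonoidHom.ext fun g => ?_), e, he, hκ⟩
  · obtain ⟨γ, a, b, rfl⟩ := h.full z0 g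
    show κ' (κ (μ.m γ)) = μ.m γ
    rw [← k1 γ a b, ← k2 γ a b]
  · obtain ⟨γ, a, b, rfl⟩ := h'.full z0 g
    show κ (κ' (μ'.m γ)) = μ'.m γ
    rw [← k2 γ a b, ← k1 γ a b]

/-- monodromy of a covering as an action of the universal group on a fibre -/
theorem IsUniv.monodromy [PathConnectedSpace Z] {μ : Mono Z G} (h : IsUniv μ) {T : Type}
    [TopologicalSpace T] {q : T → Z} (hq : IsCoveringMap q) (z0 : Z) :
    ∃ θ : G →* Equiv.Perm (q ⁻¹' {z0}), ∀ (Γ : C(I, T)) (γ : C(I, Z)), (∀ s, q (Γ s) = γ s) →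
      ∀ (h0 : q (Γ 0) = z0) (h1 : q (Γ 1) = z0), θ (μ.m γ) ⟨Γ 1, h1⟩ = ⟨Γ 0, h0⟩ := by
  obtain ⟨ref, href⟩ : ∃ ref : ∀ z, Path.Homotopic.Quotient z0 z,
      ref z0 = Path.Homotopic.Quotient.refl z0 :=
    ⟨fun z => (Path.Homotopic.Quotient.mk (PathConnectedSpace.somePath z0 z0)).symm.trans
      (Path.Homotopic.Quotient.mk (PathConnectedSpace.somePath z0 z)),
      Path.Homotopic.Quotient.symm_trans _⟩
  obtain ⟨κ, e, he, hκ⟩ := h.lift (tunivMono ref) z0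
  refine ⟨(hq.monodromyPerm z0).comp κ, fun Γ γ hΓ h0 h1 => ?_⟩
  have a : γ 0 = z0 := (hΓ 0).symm.trans h0
  have b : γ 1 = z0 := (hΓ 1).symm.trans h1
  have h2 := hκ γ
  rw [a, b, he, one_mul, inv_one, mul_one] at h2
  have h3 : tunivCls ref (⟨γ, a, b⟩ : Path z0 z0) =
      Path.Homotopic.Quotient.mk (⟨γ, a, b⟩ : Path z0 z0) := by
    unfold tunivCls
    rw [href, Path.Homotopic.Quotient.refl_trans]
    have h4 := Path.Homotopic.Quotient.trans_symm (Path.Homotopic.Quotient.refl z0)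
    rw [Path.Homotopic.Quotient.refl_trans] at h4
    rw [h4, Path.Homotopic.Quotient.trans_refl]
  have h4 : κ (μ.m γ) = (tunivCls ref (⟨γ, a, b⟩ : Path z0 z0))⁻¹ :=
    h2.symm.trans (tunivMono_path ref (⟨γ, a, b⟩ : Path z0 z0))
  rw [MonoidHom.comp_apply, h4, map_inv, Equiv.Perm.inv_eq_iff_eq, h3]
  have h5 : Γ = hq.liftPath γ (Γ 0) (hΓ 0).symm :=
    (hq.eq_liftPath_iff' _).2 ⟨funext hΓ, rfl⟩
  exact Subtype.ext (DFunLike.congr_fun h5 1)

theorem tuniv_cov : IsCoveringMap fun z : ℂ =>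
    (⟨Complex.exp z, z.exp_ne_zero⟩ : {z : ℂ | z ≠ 0}) := Complex.isCoveringMap_exp

theorem tuniv_log (γ : C(I, {z : ℂ | z ≠ 0})) {w : ℂ} (hw : Complex.exp w = γ 0) :
    ∃ l : C(I, ℂ), l 0 = w ∧ ∀ s, Complex.exp (l s) = γ s :=
  ⟨tuniv_cov.liftPath γ w (Subtype.ext hw.symm), tuniv_cov.liftPath_zero ..,
    fun s => congrArg Subtype.val (congrFun (tuniv_cov.liftPath_lifts γ w _) s)⟩

theorem tuniv_diff (γ γ' : C(I, {z : ℂ | z ≠ 0})) (h : γ.HomotopicRel γ' {0, 1}) (l l' : C(I, ℂ))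
    (hl : ∀ s, Complex.exp (l s) = γ s) (hl' : ∀ s, Complex.exp (l' s) = γ' s) :
    l 1 - l 0 = l' 1 - l' 0 := by
  have h0 : γ 0 = γ' 0 := h.fst_eq_snd (by simp)
  have a : γ 0 = ⟨Complex.exp (l 0), (l 0).exp_ne_zero⟩ := Subtype.ext (hl 0).symm
  have h1 : l = tuniv_cov.liftPath γ (l 0) a :=
    (tuniv_cov.eq_liftPath_iff' _).2 ⟨funext fun s => Subtype.ext (hl s), rfl⟩
  have h2 : l' + ContinuousMap.const I (l 0 - l' 0) =
      tuniv_cov.liftPath γ' (l 0) (h0.symm.trans a) := by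
    refine (tuniv_cov.eq_liftPath_iff' _).2 ⟨funext fun s => Subtype.ext ?_, ?_⟩
    · show Complex.exp (l' s + (l 0 - l' 0)) = γ' s
      rw [Complex.exp_add, Complex.exp_sub, hl, hl', hl', h0, div_self (γ' 0).2, mul_one]
    · show l' 0 + (l 0 - l' 0) = l 0
      ring
  have h3 := tuniv_cov.liftPath_apply_one_eq_of_homotopicRel h (l 0) a (h0.symm.trans a)
  rw [← h1, ← h2] at h3
  have h4 : l 1 = l' 1 + (l 0 - l' 0) := h3
  rw [h4]
  ring

/-- winding: the variation of the logarithm along a path avoiding the origin -/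
theorem exists_wind : ∃ ν : Mono {z : ℂ | z ≠ 0} (Multiplicative ℂ),
    (∀ γ : C(I, {z : ℂ | z ≠ 0}), ∃ l : C(I, ℂ), ∀ s, Complex.exp (l s) = γ s) ∧
    ∀ (γ : C(I, {z : ℂ | z ≠ 0})) (l : C(I, ℂ)), (∀ s, Complex.exp (l s) = γ s) →
      ν.m γ = Multiplicative.ofAdd (l 1 - l 0) := by
  have hex : ∀ γ : C(I, {z : ℂ | z ≠ 0}), ∃ l : C(I, ℂ), ∀ s, Complex.exp (l s) = γ s := fun γ =>
    (tuniv_log γ (Complex.exp_log (γ 0).2)).imp fun _ h => h.2
  choose L hL using hex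
  refine ⟨⟨fun γ => Multiplicative.ofAdd (L γ 1 - L γ 0), fun p q => ?_, fun γ γ' h => ?_⟩,
    fun γ => ⟨L γ, hL γ⟩, fun γ l hl => ?_⟩
  · obtain ⟨l, l0, hl⟩ := tuniv_log q.toContinuousMap (w := L p.toContinuousMap 1)
      ((hL _ 1).trans (congrArg Subtype.val (p.target.trans q.source.symm)))
    have h1 := tuniv_diff _ _ (ContinuousMap.HomotopicRel.refl _) (L q.toContinuousMap) l (hL _) hl
    have h2 := tuniv_diff _ _ (ContinuousMap.HomotopicRel.refl _) (L (p.trans q).toContinuousMap)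
      (cat (L p.toContinuousMap) l l0) (hL _) fun s => by
        show Complex.exp (Path.trans _ _ s) = ((p.trans q s : {z : ℂ | z ≠ 0}) : ℂ)
        rw [Path.trans_apply, Path.trans_apply]
        split_ifs
        · exact hL _ _
        · exact hl _
    rw [cat_one, cat_zero] at h2
    rw [← ofAdd_add, h1, h2, l0]
    congr 1
    ring
  · rw [tuniv_diff γ γ' h _ _ (hL γ) (hL γ')]
  · exact congrArg Multiplicative.ofAdd
      (tuniv_diff γ γ (ContinuousMap.HomotopicRel.refl _) _ _ (hL γ) hl)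

end Vale.Agent.P300
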