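import Vale.Agent.P300.TBasis
import Vale.Agent.P300.TUniv
import Vale.Agent.P300.EComp
import Vale.Agent.P300.EConstX2

/-! P300: holomorphic functions are constant on the lifts of a rational curve with small
monodromy. -/

noncomputable section

namespace Vale.Agent.P300

open unitInterval

/-- lifts of small circles around `c`, run `n` times, are closed -/
def Light {Z : Type} [TopologicalSpace Z] (ξ : Z → ℂ) (c : ℂ) (n : ℤ) : Prop :=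
  ∃ ρ : ℝ, 0 < ρ ∧ ∀ w : ℂ, ‖w‖ < ρ → ∀ γ : C(I, Z),
    (∀ s : I, ξ (γ s) = c + w * ex (n * s)) → γ 1 = γ 0

/-- lifts of large circles, run `n` times, are closed -/
def LightInf {Z : Type} [TopologicalSpace Z] (ξ : Z → ℂ) (n : ℤ) : Prop :=
  ∃ R : ℝ, ∀ w : ℂ, R < ‖w‖ → ∀ γ : C(I, Z), (∀ s : I, ξ (γ s) = w * ex (n * s)) → γ 1 = γ 0

/-- the monodromy group is a quotient of a dihedral or a cyclic group -/
def Small {Z : Type} [TopologicalSpace Z] (ξ : Z → ℂ) : Prop :=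
  (Light ξ 0 2 ∧ Light ξ 1 2) ∨ (Light ξ 0 2 ∧ LightInf ξ 2) ∨ (Light ξ 1 2 ∧ LightInf ξ 2) ∨
    Light ξ 1 1

/-- near the punctures, loops lift to closed loops and continuous functions are bounded -/
theorem punct_nbhd {W Y : Type} [TopologicalSpace W] [TopologicalSpace Y] [T2Space Y]
    [CompactSpace Y] {p : W → Y} (hp : IsCoveringMap p) (Z : Set Y) (ξ : Z → Pl ![(0 : ℂ), 1])
    (hξ : Continuous ξ) (B : Set Y) (hB : B.Finite) (hcl : closure Z ⊆ Z ∪ B) :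
    ∃ K : Set ℂ, IsCompact K ∧ K ⊆ Pl ![(0 : ℂ), 1] ∧
      (∀ (Γ : C(I, W)) (h : ∀ s, p (Γ s) ∈ Z), (∀ s, (ξ ⟨_, h s⟩ : ℂ) ∉ K) → p (Γ 1) = p (Γ 0) →
        Γ 1 = Γ 0) ∧
      ∀ (g : W → ℂ), Continuous g → ∀ w0, ∃ M : ℝ, ∀ (Γ : C(I, W)) (h : ∀ s, p (Γ s) ∈ Z),
        (∀ s, (ξ ⟨_, h s⟩ : ℂ) ∉ K) → Γ 0 = w0 → ‖g (Γ 1)‖ ≤ M := by
  exact econst_punct hp Z ξ hξ B hB hcl

/-- a finite covering of the twice punctured plane carries no bounded holomorphic functions -/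
theorem const_of_finite {A : Type} [TopologicalSpace A] (q : A → Pl ![(0 : ℂ), 1])
    (hq : IsCoveringMap q) (hf : ∀ x, (q ⁻¹' {x}).Finite) (g : A → ℂ) (hg : Continuous g)
    (hol : ∀ (D : Set ℂ) (φ : ℂ → A), IsOpen D → ContinuousOn φ D → (∀ z ∈ D, (q (φ z) : ℂ) = z) →
      DifferentiableOn ℂ (fun z => g (φ z)) D)
    (hb : ∃ M, ∀ a, ‖g a‖ ≤ M) (γ : C(I, A)) : g (γ 1) = g (γ 0) := by
  exact econst_finite q hq hf g hg hol hb γ

theorem econst_near {K : Set ℂ} {r R : ℝ} (hr1 : r < 1)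
    (hrad : ∀ z ∈ K, r ≤ ‖z - 0‖ ∧ r ≤ ‖z - 1‖ ∧ ‖z‖ ≤ R) (i : Fin 2) {z : ℂ}
    (h1 : z ≠ ![(0 : ℂ), 1] i) (h2 : ‖z - ![(0 : ℂ), 1] i‖ < r) :
    z ∈ Pl ![(0 : ℂ), 1] ∧ z ∉ K := by
  fin_cases i
  · refine ⟨econst_mem.2 ⟨h1, ?_⟩, fun h => absurd (hrad z h).1 (not_le.2 h2)⟩
    rintro rfl
    simp at h2
    linarith
  · refine ⟨econst_mem.2 ⟨?_, h1⟩, fun h => absurd (hrad z h).2.1 (not_le.2 h2)⟩
    rintro rfl
    simp at h2
    linarith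

theorem econst_far {K : Set ℂ} {r R : ℝ} (hR : 1 < R)
    (hrad : ∀ z ∈ K, r ≤ ‖z - 0‖ ∧ r ≤ ‖z - 1‖ ∧ ‖z‖ ≤ R) {z : ℂ} (h : R < ‖z‖) :
    z ∈ Pl ![(0 : ℂ), 1] ∧ z ∉ K := by
  refine ⟨econst_mem.2 ⟨?_, ?_⟩, fun h' => absurd (hrad z h').2.2 (not_le.2 h)⟩
  · rintro rfl
    simp at h
    linarith
  · rintro rfl
    simp at h
    linarith

theorem econst_norm {ρ : ℝ} (h : 0 < ρ) (s : ℝ) : ‖(ρ : ℂ) * ex s‖ = ρ := by
  rw [norm_mul, norm_ex, mul_one, Complex.norm_real, Real.norm_eq_abs, abs_of_pos h]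

/-- the monodromy group is finite -/
theorem econst_range {T Z : Type} [TopologicalSpace T] [TopologicalSpace Z]
    [PathConnectedSpace (Pl ![(0 : ℂ), 1])] {pr : T → Z} (hpr : Continuous pr)
    {ξ : Z → Pl ![(0 : ℂ), 1]} (hξ : IsCoveringMap ξ) (hf : ∀ x, (ξ ⁻¹' {x}).Finite)
    (hq : IsCoveringMap (ξ ∘ pr)) (hs : Small fun y => (ξ y : ℂ)) {K : Set ℂ} {r R : ℝ}
    (hr : 0 < r) (hr1 : r < 1) (hR : 1 < R)
    (hrad : ∀ z ∈ K, r ≤ ‖z - 0‖ ∧ r ≤ ‖z - 1‖ ∧ ‖z‖ ≤ R)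
    (hT : ∀ Γ : C(I, T), (∀ s, (ξ (pr (Γ s)) : ℂ) ∉ K) → pr (Γ 1) = pr (Γ 0) → Γ 1 = Γ 0)
    (x0 : Pl ![(0 : ℂ), 1]) :
    ∃ (μ : Mono (Pl ![(0 : ℂ), 1]) (FreeGroup (Fin 2)))
      (θ : FreeGroup (Fin 2) →* Equiv.Perm ((ξ ∘ pr) ⁻¹' {x0})),
      EConstSpec μ (ξ ∘ pr) x0 θ ∧ (Set.range θ).Finite := by
  obtain ⟨μ, hμ, hone, hall⟩ := exists_basis_two
  obtain ⟨θ, hθ⟩ := hμ.monodromy hq x0
  refine ⟨μ, θ, hθ, ?_⟩
  have P : ∀ i : Fin 2, (∃ N : ℕ, 0 < N ∧ θ (FreeGroup.of i) ^ N = 1) ∧ ∀ n : ℤ,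
      Light (fun y => (ξ y : ℂ)) (![(0 : ℂ), 1] i) n → θ (FreeGroup.of i) ^ n = 1 := by
    intro i
    have near : ∀ ρ : ℝ, 0 < ρ → ρ < r → ∀ s : ℝ,
        ![(0 : ℂ), 1] i + ρ * ex s ∈ Pl ![(0 : ℂ), 1] ∧ ![(0 : ℂ), 1] i + ρ * ex s ∉ K := by
      intro ρ h0 h1 s
      have e := econst_norm h0 s
      refine econst_near hr1 hrad i ?_ (by rw [add_sub_cancel_left, e]; exact h1)
      intro h
      rw [add_eq_left.1 h, norm_zero] at e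
      linarith
    have circ : ∀ ρ : ℝ, 0 < ρ → ρ < r → ∀ γ : C(I, Pl ![(0 : ℂ), 1]),
        (∀ s : I, (γ s : ℂ) = ![(0 : ℂ), 1] i + ρ * ex s) → IsConj (FreeGroup.of i) (μ.m γ) := by
      intro ρ h0 h1 γ hγ
      refine hone i γ ⟨_, _, hγ, fun j => ?_⟩
      rw [Complex.norm_real, Real.norm_eq_abs, abs_of_pos h0]
      have h2 : ¬ (1 < ρ) := by linarith
      fin_cases i <;> fin_cases j <;> simp [h0, h2]
    have step := fun (ρ : ℝ) (h0 : 0 < ρ) (h1 : ρ < r) =>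
      econst_pow hpr hξ hf hq hμ hθ hT (fun s => (near ρ h0 h1 s).1) (fun s => (near ρ h0 h1 s).2)
        (circ ρ h0 h1)
    refine ⟨(step (r / 2) (by linarith) (by linarith)).1, ?_⟩
    rintro n ⟨ρ, h0, hρ⟩
    have h1 : 0 < min r ρ / 2 := by positivity
    refine (step (min r ρ / 2) h1 (by linarith [min_le_left r ρ])).2 n (hρ _ ?_)
    rw [Complex.norm_real, Real.norm_eq_abs, abs_of_pos h1]
    linarith [min_le_right r ρ]
  have Q : (∃ N : ℕ, 0 < N ∧ θ (FreeGroup.of 0 * FreeGroup.of 1) ^ N = 1) ∧ ∀ n : ℤ,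
      LightInf (fun y => (ξ y : ℂ)) n → θ (FreeGroup.of 0 * FreeGroup.of 1) ^ n = 1 := by
    have far : ∀ ρ : ℝ, R < ρ → ∀ s : ℝ,
        (0 : ℂ) + ρ * ex s ∈ Pl ![(0 : ℂ), 1] ∧ (0 : ℂ) + ρ * ex s ∉ K := by
      intro ρ h1 s
      refine econst_far hR hrad ?_
      rw [zero_add, econst_norm (by linarith)]
      exact h1
    have circ : ∀ ρ : ℝ, R < ρ → ∀ γ : C(I, Pl ![(0 : ℂ), 1]),
        (∀ s : I, (γ s : ℂ) = 0 + ρ * ex s) →
          IsConj (FreeGroup.of 0 * FreeGroup.of 1) (μ.m γ) := by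
      intro ρ h1 γ hγ
      refine hall γ ⟨_, _, hγ, fun j => ?_⟩
      have h0 : 0 < ρ := by linarith
      have h2 : 1 < ρ := by linarith
      rw [Complex.norm_real, Real.norm_eq_abs, abs_of_pos h0]
      fin_cases j <;> simp [h0, h2]
    have step := fun (ρ : ℝ) (h1 : R < ρ) =>
      econst_pow hpr hξ hf hq hμ hθ hT (fun s => (far ρ h1 s).1) (fun s => (far ρ h1 s).2)
        (circ ρ h1)
    refine ⟨(step (R + 1) (by linarith)).1, ?_⟩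
    rintro n ⟨ρ, hρ⟩
    have h1 : R < max R ρ + 1 := by linarith [le_max_left R ρ]
    refine (step (max R ρ + 1) h1).2 n fun Γ hΓ => hρ ((max R ρ + 1 : ℝ) : ℂ) ?_ Γ fun s => ?_
    · rw [Complex.norm_real, Real.norm_eq_abs, abs_of_pos (by linarith)]
      linarith [le_max_right R ρ]
    · exact (hΓ s).trans (zero_add _)
  obtain ⟨N0, a0, b0⟩ := (P 0).1
  obtain ⟨N1, a1, b1⟩ := (P 1).1
  obtain ⟨N2, a2, b2⟩ := Q.1
  have two : ∀ τ : Equiv.Perm ((ξ ∘ pr) ⁻¹' {x0}), τ ^ (2 : ℤ) = 1 → τ ^ 2 = 1 :=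
    fun τ h => (zpow_ofNat τ 2).symm.trans h
  have fin := finite_orbit_two θ (N0 * N1 * N2) (by positivity)
    (by rw [mul_assoc, pow_mul, b0, one_pow])
    (by rw [mul_comm N0, mul_assoc, pow_mul, b1, one_pow])
    (by rw [mul_comm, pow_mul, b2, one_pow])
  rcases hs with h | h | h | h
  · exact fin (Or.inl ⟨two _ ((P 0).2 2 h.1), two _ ((P 1).2 2 h.2)⟩)
  · exact fin (Or.inr (Or.inl ⟨two _ ((P 0).2 2 h.1), two _ (Q.2 2 h.2)⟩))
  · exact fin (Or.inr (Or.inr ⟨two _ ((P 1).2 2 h.1), two _ (Q.2 2 h.2)⟩))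
  · exact econst_cyclic θ a0 b0 ((zpow_one _).symm.trans ((P 1).2 1 h))

/-- boundedness on a finite covering from boundedness near the punctures -/
theorem econst_bdd {A : Type} [TopologicalSpace A] {q : A → Pl ![(0 : ℂ), 1]}
    (hq : IsCoveringMap q) (hf : ∀ x, (q ⁻¹' {x}).Finite) {g : A → ℂ} (hg : Continuous g)
    {K : Set ℂ} {r R : ℝ} (hr : 0 < r) (hr1 : r < 1) (hR : 1 < R)
    (hrad : ∀ z ∈ K, r ≤ ‖z - 0‖ ∧ r ≤ ‖z - 1‖ ∧ ‖z‖ ≤ R)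
    (hB : ∀ a0 : A, ∃ M : ℝ, ∀ Γ : C(I, A), (∀ s, (q (Γ s) : ℂ) ∉ K) → Γ 0 = a0 →
      ‖g (Γ 1)‖ ≤ M) : ∃ M, ∀ a, ‖g a‖ ≤ M := by
  have reg : ∀ D : Set ℂ, IsPathConnected D → (∀ z ∈ D, z ∈ Pl ![(0 : ℂ), 1] ∧ z ∉ K) →
      ∃ M : ℝ, ∀ a, (q a : ℂ) ∈ D → ‖g a‖ ≤ M := by
    intro D hD h
    refine econst_region hq hf g hD (fun z hz => (h z hz).1) fun a0 => ?_
    obtain ⟨M, hM⟩ := hB a0
    exact ⟨M, fun Γ hΓ => hM Γ fun s => (h _ (hΓ s)).2⟩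
  obtain ⟨M0, h0⟩ := reg _ (econst_disc 0 hr) fun z hz => econst_near hr1 hrad 0 hz.1 hz.2
  obtain ⟨M1, h1⟩ := reg _ (econst_disc 1 hr) fun z hz => econst_near hr1 hrad 1 hz.1 hz.2
  obtain ⟨M2, h2⟩ := reg _ (econst_ext (by linarith : 0 < R)) fun z hz => econst_far hR hrad hz
  let K' : Set ℂ := {z | r ≤ ‖z - 0‖ ∧ r ≤ ‖z - 1‖ ∧ ‖z‖ ≤ R}
  have c1 : IsCompact K' := by
    refine Metric.isCompact_of_isClosed_isBounded ?_
      (isBounded_iff_forall_norm_le.2 ⟨R, fun z hz => hz.2.2⟩)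
    have d0 : IsClosed {z : ℂ | r ≤ ‖z - 0‖} := isClosed_le continuous_const (by fun_prop)
    have d1 : IsClosed {z : ℂ | r ≤ ‖z - 1‖} := isClosed_le continuous_const (by fun_prop)
    have d2 : IsClosed {z : ℂ | ‖z‖ ≤ R} := isClosed_le (by fun_prop) continuous_const
    exact d0.inter (d1.inter d2)
  have c2 : K' ⊆ Pl ![(0 : ℂ), 1] := by
    intro z hz
    refine econst_mem.2 ⟨?_, ?_⟩
    · rintro rfl
      have := hz.1
      simp at this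
      linarith
    · rintro rfl
      have := hz.2.1
      simp at this
      linarith
  have c3 : IsCompact (Subtype.val ⁻¹' K' : Set (Pl ![(0 : ℂ), 1])) := by
    rw [Subtype.isCompact_iff, Subtype.image_preimage_coe, Set.inter_eq_right.2 c2]
    exact c1
  have c4 : CompactSpace (Subtype.val ⁻¹' K' : Set (Pl ![(0 : ℂ), 1])) :=
    isCompact_iff_compactSpace.1 c3
  have c5 := (covering_compact (hq.restrictPreimage (Subtype.val ⁻¹' K')) fun x =>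
    ((hf x.1).preimage Subtype.val_injective.injOn).subset
      fun a ha => congrArg Subtype.val ha).1
  obtain ⟨M3, h3⟩ := (isCompact_univ (X := q ⁻¹' (Subtype.val ⁻¹' K'))).exists_bound_of_continuousOn
    (hg.comp continuous_subtype_val).continuousOn
  refine ⟨max (max M0 M1) (max M2 M3), fun a => ?_⟩
  have hm := econst_mem.1 (q a).2
  by_cases k0 : ‖(q a : ℂ) - 0‖ < r
  · exact le_trans (h0 a ⟨hm.1, k0⟩) (le_max_of_le_left (le_max_left _ _))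
  by_cases k1 : ‖(q a : ℂ) - 1‖ < r
  · exact le_trans (h1 a ⟨hm.2, k1⟩) (le_max_of_le_left (le_max_right _ _))
  by_cases k2 : R < ‖(q a : ℂ)‖
  · exact le_trans (h2 a k2) (le_max_of_le_right (le_max_left _ _))
  exact le_trans (h3 ⟨a, not_lt.1 k0, not_lt.1 k1, not_lt.1 k2⟩ (Set.mem_univ _))
    (le_max_of_le_right (le_max_right _ _))

theorem const_on_stratum {W Y : Type} [TopologicalSpace W] [TopologicalSpace Y] [T2Space Y]
    [CompactSpace Y] {p : W → Y} (hp : IsCoveringMap p) (Z : Set Y) (ξ : Z → Pl ![(0 : ℂ), 1])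
    (hξ : IsCoveringMap ξ) (hf : ∀ x, (ξ ⁻¹' {x}).Finite) (B : Set Y) (hB : B.Finite)
    (hcl : closure Z ⊆ Z ∪ B) (hs : Small fun y => (ξ y : ℂ)) (g : W → ℂ) (hg : Continuous g)
    (hol : ∀ (D : Set ℂ) (φ : ℂ → W), IsOpen D → ContinuousOn φ D →
      (∀ z ∈ D, ∃ h : p (φ z) ∈ Z, (ξ ⟨_, h⟩ : ℂ) = z) → DifferentiableOn ℂ (fun z => g (φ z)) D)
    (γ : C(I, W)) (hγ : ∀ s, p (γ s) ∈ Z) : g (γ 1) = g (γ 0) := by
  have i1 : PathConnectedSpace (Pl ![(0 : ℂ), 1]) :=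
    isPathConnected_iff_pathConnectedSpace.1 (isPathConnected_Pl _)
  have i2 : LocallyPathConnectedSpace (Pl ![(0 : ℂ), 1]) :=
    (isOpen_Pl _).locallyPathConnectedSpace
  obtain ⟨K, hK, hKP, hcl1, hbd⟩ := punct_nbhd hp Z ξ hξ.continuous B hB hcl
  obtain ⟨r, R, hr, hr1, hR, hrad⟩ := econst_radii hK hKP
  have hpr : IsCoveringMap (Z.restrictPreimage p) := hp.restrictPreimage Z
  have hq : IsCoveringMap (ξ ∘ Z.restrictPreimage p) := covering_comp hpr hξ hf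
  let γ' : C(I, p ⁻¹' Z) := ⟨fun s => ⟨γ s, hγ s⟩, γ.continuous.subtype_mk _⟩
  have hT : ∀ Γ : C(I, p ⁻¹' Z), (∀ s, (ξ (Z.restrictPreimage p (Γ s)) : ℂ) ∉ K) →
      Z.restrictPreimage p (Γ 1) = Z.restrictPreimage p (Γ 0) → Γ 1 = Γ 0 := fun Γ h1 h2 =>
    Subtype.ext (hcl1 ((⟨Subtype.val, continuous_subtype_val⟩ : C(p ⁻¹' Z, W)).comp Γ)
      (fun s => (Γ s).2) h1 (congrArg Subtype.val h2))
  obtain ⟨μ, θ, hθ, hfin⟩ := econst_range hpr.continuous hξ hf hq hs hr hr1 hR hrad hT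
    ((ξ ∘ Z.restrictPreimage p) (γ' 0))
  have hfA := econst_orbit hq (γ' 0) hθ hfin
  have i3 : LocallyPathConnectedSpace (p ⁻¹' Z) := econst_lpc hq.isLocalHomeomorph
  have hqA := covering_clopen hq (IsClopen.pathComponent (γ' 0))
  let ι : C(pathComponent (γ' 0), W) :=
    ⟨fun a => a.1.1, continuous_subtype_val.comp continuous_subtype_val⟩
  have i4 : PathConnectedSpace I := isPathConnected_iff_pathConnectedSpace.1
    ((convex_Icc (0 : ℝ) 1).isPathConnected ⟨0, le_rfl, zero_le_one⟩)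
  have hmem : ∀ s, γ' s ∈ pathComponent (γ' 0) := fun s =>
    (isPathConnected_range γ'.continuous).subset_pathComponent ⟨0, rfl⟩ ⟨s, rfl⟩
  refine const_of_finite _ hqA hfA (fun a => g (ι a)) (hg.comp ι.continuous) ?_ ?_
    ⟨fun s => ⟨γ' s, hmem s⟩, γ'.continuous.subtype_mk _⟩
  · intro D φ hD hφ h
    exact hol D (fun z => ι (φ z)) hD (ι.continuous.comp_continuousOn hφ)
      fun z hz => ⟨(φ z).1.2, h z hz⟩
  · refine econst_bdd hqA hfA (hg.comp ι.continuous) hr hr1 hR hrad fun a0 => ?_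
    obtain ⟨M, hM⟩ := hbd g hg (ι a0)
    exact ⟨M, fun Γ h1 h2 => hM (ι.comp Γ) (fun s => (Γ s).1.2) h1 (congrArg ι h2)⟩

end Vale.Agent.P300
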