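import Vale.Agent.P300.ETriv
import Vale.Agent.P300.EComp

/-! P300: the special fibre has infinite image in the fundamental group. -/

noncomputable section

namespace Vale.Agent.P300

open unitInterval Topology

section top

variable {T Y W : Type} [TopologicalSpace T] [TopologicalSpace Y] [TopologicalSpace W]

theorem efinal_loc {q : T → Y} (hq : IsCoveringMap q) {B : Set Y}
    (hloc : ∀ y ∈ B, ∀ Nb ∈ 𝓝 y, ∃ O, IsOpen O ∧ y ∈ O ∧ O ⊆ Nb ∧ IsPathConnected (O ∩ B))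
    {x : T} (hx : q x ∈ B) : ∀ᶠ x' in 𝓝 x, q x' ∈ B → JoinedIn (q ⁻¹' B) x x' := by
  obtain ⟨O, hO, hxO, s, hs1, hs2, hs3, hs4, -, -⟩ := covering_sections hq (q x)
  obtain ⟨O', hO', hxO', hsub, hpc⟩ := hloc _ hx O (hO.mem_nhds hxO)
  have hz : s ⟨x, rfl⟩ (q x) = x := hs2 ⟨x, rfl⟩
  have h1 : IsPathConnected (s ⟨x, rfl⟩ '' (O' ∩ B)) :=
    hpc.image' ((hs1 _).mono fun y hy => hsub hy.1)
  have h2 : s ⟨x, rfl⟩ '' (O' ∩ B) ⊆ q ⁻¹' B := by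
    rintro _ ⟨y, hy, rfl⟩
    rw [Set.mem_preimage, hs3 _ y (hsub hy.1)]
    exact hy.2
  filter_upwards [(hs4 ⟨x, rfl⟩).mem_nhds ⟨q x, hxO, hz⟩,
    (hO'.preimage hq.continuous).mem_nhds hxO'] with x' h3 h4 h5
  obtain ⟨y, hy, rfl⟩ := h3
  rw [Set.mem_preimage, hs3 _ y hy] at h4
  rw [hs3 _ y hy] at h5
  exact (h1.joinedIn x ⟨q x, ⟨hxO', hx⟩, hz⟩ _ ⟨y, ⟨h4, h5⟩, rfl⟩).mono h2

theorem efinal_sep [CompactSpace T] [T2Space T] {q : T → Y} (hq : IsCoveringMap q) {B : Set Y}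
    (hB : IsClosed B)
    (hloc : ∀ y ∈ B, ∀ Nb ∈ 𝓝 y, ∃ O, IsOpen O ∧ y ∈ O ∧ O ⊆ Nb ∧ IsPathConnected (O ∩ B))
    {x1 : T} (hx1 : q x1 ∈ B) : ∃ O1 O2 : Set T, IsOpen O1 ∧ IsOpen O2 ∧ Disjoint O1 O2 ∧
      x1 ∈ O1 ∧ q ⁻¹' B ⊆ O1 ∪ O2 ∧ ∀ x ∈ O1, q x ∈ B → JoinedIn (q ⁻¹' B) x1 x := by
  have hc : IsClosed (q ⁻¹' B) := hB.preimage hq.continuous
  have h1 : IsClosed {x | JoinedIn (q ⁻¹' B) x1 x} := by
    refine isClosed_of_closure_subset fun x hx => ?_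
    have hxB : q x ∈ B := closure_minimal (fun a ha => JoinedIn.target_mem ha) hc hx
    obtain ⟨a, ha1, ha2⟩ := mem_closure_iff_nhds.1 hx _ (efinal_loc hq hloc hxB)
    have ha3 : JoinedIn (q ⁻¹' B) x1 a := ha2
    have ha4 : a ∈ q ⁻¹' B := ha3.target_mem
    exact ha3.trans (ha1 ha4).symm
  have h2 : IsClosed {x | q x ∈ B ∧ ¬ JoinedIn (q ⁻¹' B) x1 x} := by
    refine isClosed_of_closure_subset fun x hx => ?_
    have hxB : q x ∈ B := closure_minimal (fun a ha => ha.1) hc hx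
    obtain ⟨a, ha1, ha2⟩ := mem_closure_iff_nhds.1 hx _ (efinal_loc hq hloc hxB)
    exact ⟨hxB, fun h => ha2.2 (h.trans (ha1 ha2.1))⟩
  obtain ⟨O1, O2, hO1, hO2, h3, h4, h5⟩ := normal_separation h1 h2
    (Set.disjoint_left.2 fun x hx hx' => hx'.2 hx)
  refine ⟨O1, O2, hO1, hO2, h5, h3 (JoinedIn.refl hx1), fun x hx => ?_, fun x hx hxB => ?_⟩
  · by_cases h : JoinedIn (q ⁻¹' B) x1 x
    · exact Or.inl (h3 h)
    · exact Or.inr (h4 ⟨hx, h⟩)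
  · by_contra h
    exact Set.disjoint_left.1 h5 hx (h4 ⟨hxB, h⟩)

theorem efinal_stay {B F : Set Y} (hF : IsClosed F)
    (ho : ∀ y ∈ F, ∀ᶠ y' in 𝓝 y, y' ∈ B → y' ∈ F) (c : C(I, Y)) (hc : ∀ s, c s ∈ B)
    (h0 : c 0 ∈ F) (s : I) : c s ∈ F := by
  have h1 : IsClopen (c ⁻¹' F) := by
    refine ⟨hF.preimage c.continuous, isOpen_iff_mem_nhds.2 fun s hs => ?_⟩
    filter_upwards [c.continuous.continuousAt.eventually (ho _ hs)] with s' hs'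
    exact hs' (hc s')
  have h2 := h1.eq_univ ⟨0, h0⟩
  exact (h2.symm ▸ Set.mem_univ s : s ∈ c ⁻¹' F)

theorem efinal_end {q : T → Y} (hq : IsCoveringMap q) (Γ Γ' : C(I, T)) (c c' : C(I, Y))
    (h : ∀ s, q (Γ s) = c s) (h' : ∀ s, q (Γ' s) = c' s) (h0 : Γ' 0 = Γ 0)
    (hh : c.HomotopicRel c' {0, 1}) : Γ 1 = Γ' 1 := by
  have e0 : c 0 = q (Γ 0) := (h 0).symm
  have e0' : c' 0 = q (Γ 0) := by rw [← h0]; exact (h' 0).symm
  have e1 : Γ = hq.liftPath c (Γ 0) e0 := (hq.eq_liftPath_iff' e0).2 ⟨funext h, rfl⟩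
  have e2 : Γ' = hq.liftPath c' (Γ 0) e0' := (hq.eq_liftPath_iff' e0').2 ⟨funext h', h0⟩
  have e3 := hq.liftPath_apply_one_eq_of_homotopicRel hh (Γ 0) e0 e0'
  rw [← e1, ← e2] at e3
  exact e3

theorem efinal_inj [SimplyConnectedSpace W] {q : T → Y} (hq : IsCoveringMap q) {p : W → Y}
    (hp : IsCoveringMap p) {B F : Set Y} (hF : IsClosed F)
    (ho : ∀ y ∈ F, ∀ᶠ y' in 𝓝 y, y' ∈ B → y' ∈ F) {w1 : W} (hw1 : p w1 ∈ F) {x1 : T}
    (hx1 : q x1 = p w1) :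
    ∃ ψ : {x | q x = p w1 ∧ JoinedIn (q ⁻¹' B) x1 x} →
      {w | p w = p w1 ∧ ∃ γ : C(I, W), γ 0 = w1 ∧ γ 1 = w ∧ ∀ s, p (γ s) ∈ F},
      Function.Injective ψ := by
  have key : ∀ x : {x | q x = p w1 ∧ JoinedIn (q ⁻¹' B) x1 x}, ∃ (Γ : C(I, T)) (γ : C(I, W)),
      Γ 0 = x1 ∧ Γ 1 = x ∧ γ 0 = w1 ∧ (∀ s, q (Γ s) = p (γ s)) ∧ ∀ s, p (γ s) ∈ F := by
    rintro ⟨x, hx, P, hP⟩
    let c : C(I, Y) := (⟨q, hq.continuous⟩ : C(T, Y)).comp P.toContinuousMap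
    have hc0 : c 0 = p w1 := by
      show q (P 0) = p w1
      rw [P.source, hx1]
    obtain ⟨γ, h1, h2⟩ := hp.exists_path_lifts c w1 hc0
    have h3 : ∀ s, q (P s) = p (γ s) := fun s => (congrFun h1 s).symm
    refine ⟨P.toContinuousMap, γ, P.source, P.target, h2, h3, fun s => ?_⟩
    rw [← h3]
    exact efinal_stay hF ho c hP (hc0 ▸ hw1) s
  choose Γ γ h1 h2 h3 h4 h5 using key
  refine ⟨fun x => ⟨γ x 1, ?_, γ x, h3 x, rfl, h5 x⟩, fun x x' h => ?_⟩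
  · rw [← h4, h2]; exact x.2.1
  · have e : γ x 1 = γ x' 1 := congrArg Subtype.val h
    have hh := SimplyConnectedSpace.paths_homotopic (⟨γ x, h3 x, rfl⟩ : Path w1 (γ x 1))
      (⟨γ x', h3 x', e.symm⟩ : Path w1 (γ x 1))
    have hh' := ContinuousMap.HomotopicRel.comp_continuousMap hh (⟨p, hp.continuous⟩ : C(W, Y))
    refine Subtype.ext ?_
    rw [← h2, ← h2]
    exact efinal_end hq (Γ x) (Γ x') _ _ (h4 x) (h4 x') (by rw [h1, h1]) hh'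

theorem efinal_sheet {q : T → Y} (hq : IsCoveringMap q) (y1 : Y) (hf : (q ⁻¹' {y1}).Finite)
    {O1 O2 : Set T} (hO1 : IsOpen O1) (hO2 : IsOpen O2) (hd : Disjoint O1 O2)
    (hsub : q ⁻¹' {y1} ⊆ O1 ∪ O2) {x1 : T} (hx1 : q x1 = y1) (hx1' : x1 ∈ O1) :
    ∀ᶠ y in 𝓝 y1, ∃ x2 ∈ O1, q x2 = y ∧ ∃ τ : T → T, (∀ x ∈ O1, q x = y → τ x ∈ O1 ∧ q (τ x) = y1) ∧
      ∀ x x', q x = y → q x' = y → τ x = τ x' → x = x' := by
  obtain ⟨O, hO, hyO, s, hs1, hs2, hs3, -, hs5, -⟩ := covering_sections hq y1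
  have hc : ∀ z, ContinuousAt (s z) y1 := fun z => (hs1 z).continuousAt (hO.mem_nhds hyO)
  have : Finite (q ⁻¹' {y1}) := hf
  have h1 : ∀ᶠ y in 𝓝 y1, ∀ z : q ⁻¹' {y1}, z.1 ∈ O2 → s z y ∈ O2 := by
    refine Filter.eventually_all.2 fun z => ?_
    by_cases hz : z.1 ∈ O2
    · filter_upwards [(hc z).eventually (hO2.mem_nhds (by rw [hs2]; exact hz))] with y hy _
      exact hy
    · exact Filter.Eventually.of_forall fun _ h => absurd h hz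
  have h2 : ∀ᶠ y in 𝓝 y1, s ⟨x1, hx1⟩ y ∈ O1 :=
    (hc _).eventually (hO1.mem_nhds (by rw [hs2]; exact hx1'))
  filter_upwards [h1, h2, hO.mem_nhds hyO] with y h3 h4 h5
  have h6 : ∀ x : T, ∃ z : q ⁻¹' {y1}, q x = y → s z y = x := by
    intro x
    by_cases hx : q x = y
    · obtain ⟨z, hz⟩ := hs5 x (hx ▸ h5)
      exact ⟨z, fun _ => by rw [← hx]; exact hz⟩
    · exact ⟨⟨x1, hx1⟩, fun h => absurd h hx⟩
  choose τ hτ using h6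
  refine ⟨_, h4, hs3 _ y h5, fun x => (τ x).1, fun x hx hxy => ⟨?_, (τ x).2⟩,
    fun x x' hx hx' h => ?_⟩
  · rcases hsub (τ x).2 with h | h
    · exact h
    · have h7 := h3 _ h
      rw [hτ x hxy] at h7
      exact absurd h7 (Set.disjoint_left.1 hd hx)
  · rw [← hτ x hx, ← hτ x' hx', Subtype.ext h]

theorem efinal_tube [CompactSpace T] [T2Space Y] {q : T → Y} (hq : Continuous q) {O : Set T}
    (hO : IsOpen O) : IsOpen {y | ∀ x, q x = y → x ∈ O} := by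
  have h1 : IsClosed (q '' Oᶜ) := (hO.isClosed_compl.isCompact.image hq).isClosed
  have e : {y | ∀ x, q x = y → x ∈ O} = (q '' Oᶜ)ᶜ := by
    ext y
    constructor
    · rintro h ⟨x, hx, e⟩
      exact hx (h x e)
    · intro h x e
      by_contra hx
      exact h ⟨x, hx, e⟩
  rw [e]
  exact h1.isOpen_compl

theorem efinal_path {O1 O2 : Set T} (hO1 : IsOpen O1) (hO2 : IsOpen O2) (hd : Disjoint O1 O2)
    (Γ : C(I, T)) (h : ∀ s, Γ s ∈ O1 ∪ O2) (h0 : Γ 0 ∈ O1) : Γ 1 ∈ O1 :=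
  (isPreconnected_range Γ.continuous).subset_left_of_subset_union hO1 hO2 hd
    (Set.range_subset_iff.2 h) ⟨Γ 0, ⟨0, rfl⟩, h0⟩ ⟨1, rfl⟩

theorem efinal_cat {a a' b b' : C(I, Y)} (h : b 0 = a 1) (h' : b' 0 = a' 1) (e1 : a = a')
    (e2 : b = b') : cat a b h = cat a' b' h' := by
  subst e1 e2
  rfl

theorem efinal_cat_rev {U : Type} [TopologicalSpace U] (q : C(T, Y)) (v : C(U, Y))
    (Γ Γ' : C(I, T)) (γ γ' : C(I, U)) (h : ∀ s, q (Γ s) = v (γ s)) (h' : ∀ s, q (Γ' s) = v (γ' s))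
    (e : rev Γ' 0 = Γ 1) (e' : rev γ' 0 = γ 1) (s : I) :
    q (cat Γ (rev Γ') e s) = v (cat γ (rev γ') e' s) := by
  have h1 := comp_cat q Γ (rev Γ') e
  have h2 := comp_cat v γ (rev γ') e'
  have h3 := efinal_cat (a := q.comp Γ) (a' := v.comp γ) (b := q.comp (rev Γ'))
    (b' := v.comp (rev γ')) (congrArg q e) (congrArg v e') (ContinuousMap.ext h)
    (ContinuousMap.ext fun s => h' (unitInterval.symm s))
  exact congrFun (congrArg DFunLike.coe (h1.trans (h3.trans h2.symm))) s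

end top

theorem efinal_count {G S : Type} [Group G] [Finite S] (F' V : Subgroup G) (φ : F' → S)
    (h : ∀ f f' : F', φ f = φ f' → (f : G) * (f' : G)⁻¹ ∈ V) : V.relIndex F' ≤ Nat.card S := by
  refine Nat.card_le_card_of_injective
    (fun c : F' ⧸ V.subgroupOf F' => φ (Quotient.out c)⁻¹) fun c c' e => ?_
  have h1 := h _ _ e
  rw [← Quotient.out_eq c, ← Quotient.out_eq c']
  refine QuotientGroup.eq.2 ?_
  rw [Subgroup.mem_subgroupOf]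
  simpa using h1

variable {Ω : Type} [Field Ω] [Algebra ℂ Ω] {ι : Type} [Fintype ι]
variable {D : Dat Ω} {M : IntermediateField ℂ Ω} {t : ι → Ω}

theorem efinal_loop (hG : D.Good M t) {y0 : D.UY t}
    {ε : ℝ} {C : Finset F5} {P : Type} [Group P] {μ : Mono (U0 D.S) P} {Dt : TData P}
    (hT : TFacts C ε (D.prU t y0) μ Dt) {H : Subgroup P} (hH : hG.Stab y0 μ H)
    (δ : C(I, D.UY t)) (h0 : δ 0 = y0) {g : F5} (hg : Dt.ι g ∈ H) :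
    ∃ γ : C(I, D.UY t), γ 0 = δ 1 ∧ γ 1 = δ 1 ∧
      (∀ s, (la t (γ s).1).ev D.b = (la t (δ 1).1).ev D.b) ∧
      μ.m (hG.prC.comp δ) * μ.m (hG.prC.comp γ) * (μ.m (hG.prC.comp δ))⁻¹ = Dt.ι g := by
  obtain ⟨c, h1, h2, h3, h4⟩ := hT.fibre (hG.prC.comp δ) (congrArg (D.prU t) h0) g
  obtain ⟨γ, h5, h6⟩ := hG.covering_prU.1.exists_path_lifts c (δ 1) h1
  have e : hG.prC.comp γ = c := ContinuousMap.ext fun s => congrFun h5 s
  have h7 : ∀ s, D.prU t (γ s) = c s := fun s => congrFun h5 s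
  refine ⟨γ, h6, ?_, fun s => ?_, by rw [e]; exact h4⟩
  · rw [← h6]
    refine hG.closes hH δ γ h0 h6 (by rw [h7, h7, h1, h2]) ?_
    rw [e, h4]
    exact hg
  · have h8 := h3 s
    rw [← h7] at h8
    exact h8

theorem Dat.Good.infinite_fibre (hG : D.Good M t) (hpc : IsPreconnected (D.UY t)) {y0 : D.UY t}
    {ε : ℝ} (hε : 0 < ε) {C : Finset F5} {P : Type} [Group P] {μ : Mono (U0 D.S) P} {Dt : TData P}
    (hT : TFacts C ε (D.prU t y0) μ Dt) (hu : (D.prU t y0).1.2 = Rr (D.prU t y0).1.1)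
    {H : Subgroup P} (hH : hG.Stab y0 μ H) (F' : Subgroup F5) (k1 : ∀ g ∈ F', Dt.ι g ∈ H)
    (hk : ∀ n : ℕ, ∃ (Hk : Subgroup P) (V : Subgroup F5), Hk.FiniteIndex ∧ n ≤ V.relIndex F' ∧
      (∀ g, Dt.ι g ∈ Hk → g ∈ V) ∧ ∀ ω ∈ H, Dt.Good C D.E ω → ω ∈ Hk)
    {W : Type} [TopologicalSpace W] [SimplyConnectedSpace W] {p : W → Zt t} (hp : IsCoveringMap p)
    (w1 : W) (hw1 : p w1 ∈ D.F0 t y0 ε) :
    {w | p w = p w1 ∧ ∃ γ : C(I, W), γ 0 = w1 ∧ γ 1 = w ∧ ∀ s, p (γ s) ∈ D.F0 t y0 ε}.Infinite := by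
  intro hfin
  have := hfin.to_subtype
  obtain ⟨Hk, V, hHk, hn, hV, hgood⟩ := hk (Nat.card
    {w | p w = p w1 ∧ ∃ γ : C(I, W), γ 0 = w1 ∧ γ 1 = w ∧ ∀ s, p (γ s) ∈ D.F0 t y0 ε} + 1)
  obtain ⟨T, _, q, hq, hsurj, hf, hmon⟩ := hG.exists_ext hpc hT hu hH Hk hgood
  have := Zt.t2 t
  have := Zt.compact t
  obtain ⟨_, _⟩ := covering_compact hq hf
  obtain ⟨x1, hx1⟩ := hsurj (p w1)
  have hB : p w1 ∈ D.B0 t := hw1.1
  obtain ⟨O1, O2, hO1, hO2, hd, hx1O, hsub, hjoin⟩ := efinal_sep hq hG.isClosed_B0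
    (fun y hy Nb hNb => hG.loc_B0 hy hNb) (x1 := x1) (by rw [hx1]; exact hB)
  obtain ⟨ψ, hψ⟩ := efinal_inj hq hp (B := D.B0 t) (hG.isClosed_F0 y0 ε)
    (fun y hy => hG.F0_open hε hy) hw1 hx1
  obtain ⟨r, hr, hsm⟩ := hG.small_b (efinal_tube hq.continuous (hO1.union hO2))
    (fun y hy x hx => hsub (by rw [Set.mem_preimage, hx]; exact hy))
  have e1 := efinal_sheet hq (p w1) (hf _) hO1 hO2 hd
    (fun x hx => hsub (by rw [Set.mem_preimage, show q x = p w1 from hx]; exact hB)) hx1 hx1O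
  have e2 : ∀ᶠ y in 𝓝 (p w1), ‖(la t y).ev D.b‖ < r := by
    have h1 : ContinuousAt (fun y : Zt t => (la t y).ev D.b) (p w1) :=
      (continuousOn_ev t D.b).continuousAt ((isOpen_reg t D.b).mem_nhds hB.1)
    refine h1.norm.eventually (gt_mem_nhds ?_)
    show ‖(la t (p w1)).ev D.b‖ < r
    rw [hB.2, norm_zero]
    exact hr
  obtain ⟨O, hO, hCp⟩ := hG.F0_nhds hε hw1
  obtain ⟨y2, ⟨⟨⟨x2, hx2O, hx2, τ, hτ1, hτ2⟩, hb2⟩, hy2O⟩, hy2U⟩ :=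
    mem_closure_iff_nhds.1 (hG.dense_isU (p w1)) _ ((e1.and e2).and hO)
  obtain ⟨δ, hδ0, hδ1, -⟩ := hCp ⟨y2, hy2U⟩ hy2O
  have key : ∀ f : F', ∃ (γ : C(I, D.UY t)) (Γ : C(I, T)), γ 0 = δ 1 ∧ γ 1 = δ 1 ∧
      μ.m (hG.prC.comp δ) * μ.m (hG.prC.comp γ) * (μ.m (hG.prC.comp δ))⁻¹ = Dt.ι f ∧
      (∀ s, q (Γ s) = γ s) ∧ Γ 0 = x2 ∧ Γ 1 ∈ O1 := by
    intro f
    obtain ⟨γ, h1, h2, h3, h4⟩ := efinal_loop hG hT hH δ hδ0 (k1 f f.2)
    obtain ⟨Γ, h5, h6⟩ := hq.exists_path_lifts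
      ((⟨Subtype.val, continuous_subtype_val⟩ : C(D.UY t, Zt t)).comp γ) x2
      (by
        show (γ 0).1 = q x2
        rw [h1, hδ1, hx2])
    have h7 : ∀ s, q (Γ s) = γ s := fun s => congrFun h5 s
    refine ⟨γ, Γ, h1, h2, h4, h7, h6, efinal_path hO1 hO2 hd Γ (fun s => ?_) (h6 ▸ hx2O)⟩
    refine hsm (γ s).1 (Dat.IsU.mem (γ s).2).1 ?_ _ (h7 s)
    rw [h3 s, hδ1]
    exact hb2
  choose γ Γ g0 g1 gm gq gs ge using key
  have gy : ∀ f, q (Γ f 1) = y2 := fun f => by rw [gq, g1, hδ1]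
  have hle := efinal_count F' V (fun f => ψ ⟨τ (Γ f 1), (hτ1 _ (ge f) (gy f)).2,
    hjoin _ (hτ1 _ (ge f) (gy f)).1 (by rw [(hτ1 _ (ge f) (gy f)).2]; exact hB)⟩)
    (fun f f' h => by
      have h1 : Γ f 1 = Γ f' 1 := hτ2 _ _ (gy f) (gy f') (congrArg Subtype.val (hψ h))
      have h2 : rev (Γ f') 0 = Γ f 1 := by rw [rev_zero, h1]
      have h3 : rev (γ f') 0 = γ f 1 := by rw [rev_zero, g1, g1]
      have h4 := hmon (cat (Γ f) (rev (Γ f')) h2) (cat (γ f) (rev (γ f')) h3) δ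
        (efinal_cat_rev ⟨q, hq.continuous⟩ ⟨Subtype.val, continuous_subtype_val⟩ _ _ _ _
          (gq f) (gq f') h2 h3)
        (by rw [cat_one, cat_zero, rev_one, gs, gs]) hδ0 (by rw [cat_zero, g0])
      rw [comp_cat, μ.m_cat, comp_rev, μ.m_rev] at h4
      refine hV _ ?_
      rw [map_mul, map_inv, ← gm f, ← gm f']
      simpa only [mul_inv_rev, inv_inv, mul_assoc, inv_mul_cancel_left] using h4)
  omega

end Vale.Agent.P300
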