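import Vale.Agent.P300.ELight

/-! P300: holomorphic functions on a covering are locally constant over the special fibre. -/

noncomputable section

namespace Vale.Agent.P300

open unitInterval Topology

variable {Ω : Type} [Field Ω] [Algebra ℂ Ω] {ι : Type} [Fintype ι]
variable {D : Dat Ω} {M : IntermediateField ℂ Ω} {t : ι → Ω}

theorem EHol_str (hG : D.Good M t) {y0 : D.UY t} {ε : ℝ} (hε : 0 < ε) (hL : D.HL t y0 ε)
    {W : Type} [TopologicalSpace W] {p : W → Zt t} (hp : IsCoveringMap p) {g : W → ℂ}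
    (hg : IsHolo (Zt t) p g) {ξ : Ω} (hξ : D.Adm ξ) (γ : C(I, W))
    (hγ : ∀ s, p (γ s) ∈ D.Str t ξ ∩ D.F0 t y0 ε) : g (γ 1) = g (γ 0) := by
  have := Zt.t2 t
  have := Zt.compact t
  have : LocallyConnectedSpace (Pl ![(0 : ℂ), 1]) := (isOpen_Pl _).locallyConnectedSpace
  obtain ⟨h1, h2, B, hB, hcl⟩ := hG.str_cover hξ
  have hA : IsClopen {y : D.Str t ξ | y.1 ∈ D.F0 t y0 ε} :=
    ⟨(hG.isClosed_F0 y0 ε).preimage continuous_subtype_val, isOpen_iff_mem_nhds.2 fun y hy => by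
      filter_upwards [continuous_subtype_val.continuousAt.eventually (hG.F0_open hε hy)]
        with y' h using h y'.2.1⟩
  let e : (D.Str t ξ ∩ D.F0 t y0 ε : Set (Zt t)) ≃ₜ {y : D.Str t ξ | y.1 ∈ D.F0 t y0 ε} :=
    { toFun := fun y => ⟨⟨y.1, y.2.1⟩, y.2.2⟩
      invFun := fun y => ⟨y.1.1, y.1.2, y.2⟩
      left_inv := fun _ => rfl
      right_inv := fun _ => rfl
      continuous_toFun := (continuous_subtype_val.subtype_mk _).subtype_mk _
      continuous_invFun := (continuous_subtype_val.comp continuous_subtype_val).subtype_mk _ }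
  refine const_on_stratum hp _ (D.xiM t ξ _ Set.inter_subset_left)
    ((covering_clopen h1 hA).comp_homeomorph e) (fun x => ?_) B hB ?_ (hG.small hε hL hξ) g hg.1
    (fun U φ hU hφ h => hG.str_hol hξ hp.continuous hg U φ hU hφ fun z hz => ?_) γ hγ
  · refine Set.Finite.of_finite_image (f := fun y => (⟨y.1, y.2.1⟩ : D.Str t ξ))
      ((h2 x).subset ?_) fun a _ b _ hab => Subtype.ext (congrArg (fun y : D.Str t ξ => y.1) hab)
    rintro _ ⟨y, hy, rfl⟩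
    exact hy
  · intro y hy
    rcases hcl (closure_mono Set.inter_subset_left hy) with h | h
    · exact Or.inl ⟨h, closure_minimal Set.inter_subset_right (hG.isClosed_F0 y0 ε) hy⟩
    · exact Or.inr h
  · obtain ⟨h3, h4⟩ := h z hz
    exact ⟨h3.1, h4⟩

theorem EHol_sm (hG : D.Good M t) {y0 : D.UY t} {ε : ℝ} (hε : 0 < ε) (hL : D.HL t y0 ε)
    {W : Type} [TopologicalSpace W] {p : W → Zt t} (hp : IsCoveringMap p) {g : W → ℂ}
    (hg : IsHolo (Zt t) p g) {O : Set (Zt t)} (hO : IsOpen O) {τ : Zt t → W}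
    (hτ : ContinuousOn τ O) (hpτ : ∀ x ∈ O, p (τ x) = x) {y : Zt t} (hy : y ∈ O)
    (hF : y ∈ D.F0 t y0 ε) (hs : D.Sm (la t y)) :
    ∀ᶠ y' in 𝓝 y, y' ∈ D.B0 t → g (τ y') = g (τ y) := by
  have := la_noeth t y
  obtain ⟨ξ, hξ, h1, h2, h3⟩ := hs.exists_adm hF.1
  have hc : ContinuousAt (fun y : Zt t => (la t y).ev ξ) y :=
    (continuousOn_ev t ξ).continuousAt ((isOpen_reg t ξ).mem_nhds h1)
  have hN : ∀ᶠ y' in 𝓝 y, y' ∈ O ∧ (y' ∈ D.B0 t → y' ∈ D.Str t ξ ∩ D.F0 t y0 ε) := by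
    filter_upwards [hO.mem_nhds hy, hG.F0_open hε hF, (isOpen_reg t ξ).mem_nhds h1,
      hc.eventually_ne h2, hc.eventually_ne h3] with y' a b c d e
    exact ⟨a, fun h => ⟨⟨h, c, d, e⟩, b h⟩⟩
  obtain ⟨O', hO', hy', hsub, hpc⟩ := hG.loc_B0 hF.1 hN
  filter_upwards [hO'.mem_nhds hy'] with y' h4 h5
  obtain ⟨δ, hδ⟩ := hpc.joinedIn y ⟨hy', hF.1⟩ y' ⟨h4, h5⟩
  have h6 := EHol_str hG hε hL hp hg hξ
    ⟨fun s => τ (δ s), hτ.comp_continuous δ.continuous fun s => (hsub (hδ s).1).1⟩ fun s => by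
      show p (τ (δ s)) ∈ _
      rw [hpτ _ (hsub (hδ s).1).1]
      exact (hsub (hδ s).1).2 (hδ s).2
  simpa using h6

theorem EHol_loc (hG : D.Good M t) {y0 : D.UY t} {ε : ℝ} (hε : 0 < ε) (hL : D.HL t y0 ε)
    {W : Type} [TopologicalSpace W] {p : W → Zt t} (hp : IsCoveringMap p) {g : W → ℂ}
    (hg : IsHolo (Zt t) p g) {O : Set (Zt t)} (hO : IsOpen O) {τ : Zt t → W}
    (hτ : ContinuousOn τ O) (hpτ : ∀ x ∈ O, p (τ x) = x) {y : Zt t} (hy : y ∈ O)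
    (hF : y ∈ D.F0 t y0 ε) : ∀ᶠ y' in 𝓝 y, y' ∈ D.B0 t → g (τ y') = g (τ y) := by
  obtain ⟨ch, hch⟩ := exists_chart hG y (Filter.inter_mem (hO.mem_nhds hy) (hG.F0_open hε hF))
  obtain ⟨O', hO', hy', hsub, hpc⟩ := hG.loc_B0 hF.1 (ch.A.κ.open_source.mem_nhds ch.A.mem)
  filter_upwards [hO'.mem_nhds hy'] with y1 h4 h5
  by_contra hne
  have : PreconnectedSpace (O' ∩ D.B0 t : Set (Zt t)) :=
    Subtype.preconnectedSpace hpc.isConnected.isPreconnected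
  have hc : Continuous fun x : (O' ∩ D.B0 t : Set (Zt t)) => g (τ x.1) :=
    hg.1.comp (hτ.comp_continuous continuous_subtype_val fun x => (hch (hsub x.2.1)).1)
  have hcl : IsClopen {x : (O' ∩ D.B0 t : Set (Zt t)) | g (τ x.1) = g (τ y1)} := by
    refine ⟨isClosed_eq hc continuous_const, isOpen_iff_mem_nhds.2 fun x hx => ?_⟩
    have hx' : g (τ x.1) = g (τ y1) := hx
    have hxy : x.1 ≠ y := fun h => hne (by rw [← hx', h])
    have h6 := EHol_sm hG hε hL hp hg hO hτ hpτ (hch (hsub x.2.1)).1 ((hch (hsub x.2.1)).2 x.2.2)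
      (ch.sm (hsub x.2.1) hxy)
    filter_upwards [continuous_subtype_val.continuousAt.eventually h6] with x' h7
    exact (h7 x'.2.2).trans hx'
  have h8 := hcl.eq_univ ⟨⟨y1, h4, h5⟩, rfl⟩
  have h9 : (⟨y, hy', hF.1⟩ : (O' ∩ D.B0 t : Set (Zt t))) ∈
      {x : (O' ∩ D.B0 t : Set (Zt t)) | g (τ x.1) = g (τ y1)} := h8 ▸ Set.mem_univ _
  exact hne (Eq.symm h9)

theorem Dat.Good.const_F0 (hG : D.Good M t) {y0 : D.UY t} {ε : ℝ} (hε : 0 < ε) (hL : D.HL t y0 ε)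
    {W : Type} [TopologicalSpace W] {p : W → Zt t} (hp : IsCoveringMap p) {g : W → ℂ}
    (hg : IsHolo (Zt t) p g) (γ : C(I, W)) (hγ : ∀ s, p (γ s) ∈ D.F0 t y0 ε) :
    g (γ 1) = g (γ 0) := by
  refine IsLocallyConstant.apply_eq_of_preconnectedSpace (f := fun s => g (γ s))
    ((IsLocallyConstant.iff_eventually_eq _).2 fun s0 => ?_) 1 0
  obtain ⟨O, hO, hy, τ, h1, h2, h3, h4, -, -⟩ := covering_sections hp (p (γ s0))
  have h5 := EHol_loc hG hε hL hp hg hO (h1 ⟨γ s0, rfl⟩) (h3 ⟨γ s0, rfl⟩) hy (hγ s0)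
  rw [h2] at h5
  have h6 : ∀ᶠ s in 𝓝 s0, γ s ∈ τ ⟨γ s0, rfl⟩ '' O :=
    γ.continuous.continuousAt.eventually ((h4 _).mem_nhds ⟨_, hy, h2 _⟩)
  filter_upwards [(hp.continuous.comp γ.continuous).continuousAt.eventually h5, h6]
    with s h7 ⟨x, hx, h8⟩
  have h9 : p (γ s) = x := by rw [← h8, h3 _ x hx]
  have h10 := h7 (hγ s).1
  simp only [Function.comp_apply, h9, h8] at h10
  exact h10

theorem Dat.Good.hl (hG : D.Good M t) {y0 : D.UY t} {ε : ℝ} {C : Finset F5} {P : Type} [Group P]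
    {μ : Mono (U0 D.S) P} {Dt : TData P} (hT : TFacts C ε (D.prU t y0) μ Dt) {H : Subgroup P}
    (hH : hG.Stab y0 μ H) (hsq : ∀ g ∈ SqN, Dt.ι g ∈ H) : D.HL t y0 ε := by
  intro γ ⟨δ, d0, d1, d2⟩ c w J h1 h2 h3
  have hmem : ∀ s : ℝ, ((D.prU t (γ 0)).1.1, c + w * ex s) ∈ U0 D.S := by
    intro s
    have h4 := Int.fract_nonneg s
    have h5 := Int.fract_lt_one s
    have h6 := (D.prU t (γ ⟨Int.fract s / 2, by linarith, by linarith⟩)).2
    rw [h1] at h6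
    have h7 : ex (2 * (Int.fract s / 2)) = ex s := by
      rw [mul_div_cancel₀ _ two_ne_zero]
      conv_rhs => rw [← Int.fract_add_floor s, ex_add, ex_int, mul_one]
    rwa [h7] at h6
  let Ψ : ℝ → U0 D.S := fun s => ⟨_, hmem s⟩
  have hΨ : Continuous Ψ :=
    (continuous_const.prodMk (continuous_const.add (continuous_const.mul continuous_ex))).subtype_mk _
  let γ1 : C(I, U0 D.S) := ⟨fun s => Ψ s, hΨ.comp continuous_subtype_val⟩
  have hm := μ.m_per Ψ hΨ (fun s => Subtype.ext (by simp only [Ψ, ex_add_one])) 2 γ1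
    (hG.prC.comp γ) (fun _ => rfl) fun s => Subtype.ext (by exact_mod_cast h1 s)
  have h00 := h1 0
  have h11 := h1 1
  simp only [Set.Icc.coe_zero, Set.Icc.coe_one, mul_zero, mul_one, ex_zero] at h00 h11
  have e2 : ex 2 = 1 := by exact_mod_cast ex_int 2
  rw [e2, mul_one] at h11
  obtain ⟨g, -, g1, g2, g3, g4⟩ := hT.circ (hG.prC.comp δ) γ1 (congrArg (D.prU t) d0)
    (Subtype.ext (by
      show ((D.prU t (γ 0)).1.1, c + w * ex 0) = (D.prU t (δ 1)).1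
      rw [d1, ex_zero, mul_one]
      exact h00.symm)) J ⟨fun _ => rfl, c, w, fun _ => rfl, h2⟩
  have hg : g ^ 2 ∈ SqN := by
    refine Subgroup.conjugatesOfSet_subset_normalClosure (Group.mem_conjugatesOfSet_iff.2 ?_)
    rcases h3 with ⟨i, hi⟩ | h | h
    · exact ⟨_, Or.inr ⟨i, rfl⟩, (g2 i hi).pow 2⟩
    · exact ⟨_, Or.inl (Or.inl rfl), (g4 h d2).pow 2⟩
    · exact ⟨_, Or.inl (Or.inr rfl), (g3 h).pow 2⟩
  refine hG.closes hH δ γ d0 d1.symm (Subtype.ext (h11.trans h00.symm)) ?_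
  have h8 := hsq _ hg
  rw [map_pow, ← g1, conj_pow] at h8
  rw [hm, zpow_ofNat]
  exact h8

end Vale.Agent.P300
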