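import Vale.Agent.P300.TUniv
import Vale.Agent.P300.DSetup
import Vale.Agent.P300.DGal

/-! P300: monodromy of coverings is equivariant; square roots on spaces of characters. -/

noncomputable section

namespace Vale.Agent.P300

open unitInterval Topology

section cov

variable {Z T T' : Type} [TopologicalSpace Z] [TopologicalSpace T] [TopologicalSpace T']
  {P : Type} [Group P]

/-- `θ` is the monodromy of the covering `q` -/
def EKeyMon (μ : Mono Z P) (q : T → Z) (z0 : Z) (θ : P →* Equiv.Perm (q ⁻¹' {z0})) : Prop :=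
  ∀ (Γ : C(I, T)) (γ : C(I, Z)), (∀ s, q (Γ s) = γ s) →
    ∀ (h0 : q (Γ 0) = z0) (h1 : q (Γ 1) = z0), θ (μ.m γ) ⟨Γ 1, h1⟩ = ⟨Γ 0, h0⟩

theorem EKey_lift {μ : Mono Z P} {q : T → Z} (hq : IsCoveringMap q) {z0 : Z}
    {θ : P →* Equiv.Perm (q ⁻¹' {z0})} (hθ : EKeyMon μ q z0 θ) (γ : C(I, Z)) (h0 : γ 0 = z0)
    (h1 : γ 1 = z0) (a : q ⁻¹' {z0}) :
    ∃ Γ : C(I, T), (∀ s, q (Γ s) = γ s) ∧ Γ 0 = (θ (μ.m γ) a).1 ∧ Γ 1 = a.1 := by
  have e : γ 0 = q (θ (μ.m γ) a).1 := h0.trans (θ (μ.m γ) a).2.symm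
  have l1 : ∀ s, q (hq.liftPath γ _ e s) = γ s := congrFun (hq.liftPath_lifts γ _ e)
  have l0 := hq.liftPath_zero γ _ e
  refine ⟨hq.liftPath γ _ e, l1, l0, ?_⟩
  have h := hθ _ γ l1 ((l1 0).trans h0) ((l1 1).trans h1)
  have h2 : (⟨hq.liftPath γ _ e 0, (l1 0).trans h0⟩ : q ⁻¹' {z0}) = θ (μ.m γ) a := Subtype.ext l0
  exact congrArg Subtype.val ((θ (μ.m γ)).injective (h.trans h2))

theorem EKey_equiv {μ : Mono Z P} (hμ : IsUniv μ) {q : T → Z} (hq : IsCoveringMap q) {q' : T' → Z}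
    {z0 : Z} {θ : P →* Equiv.Perm (q ⁻¹' {z0})} (hθ : EKeyMon μ q z0 θ)
    {θ' : P →* Equiv.Perm (q' ⁻¹' {z0})} (hθ' : EKeyMon μ q' z0 θ') (f : C(T, T'))
    (hf : ∀ x, q' (f x) = q x) (ω : P) (a : q ⁻¹' {z0}) (a' : q' ⁻¹' {z0}) (ha : a'.1 = f a.1) :
    (θ' ω a').1 = f (θ ω a).1 := by
  obtain ⟨γ, h0, h1, rfl⟩ := hμ.full z0 ω
  obtain ⟨Γ, l, l0, l1⟩ := EKey_lift hq hθ γ h0 h1 a
  have m : ∀ s, q' (f.comp Γ s) = γ s := fun s => (hf _).trans (l s)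
  have h := hθ' (f.comp Γ) γ m ((m 0).trans h0) ((m 1).trans h1)
  have h2 : a' = ⟨f.comp Γ 1, (m 1).trans h1⟩ := Subtype.ext (ha.trans (congrArg f l1.symm))
  rw [h2, h]
  exact congrArg f l0

end cov

variable {Ω : Type} [Field Ω] [Algebra ℂ Ω]

theorem EKey_ext {D : Dat Ω} {M : IntermediateField ℂ Ω} {χ χ' : D.Spm M}
    (h : ∀ z ∈ D.RM M, χ.1 z = χ'.1 z) : χ = χ' := by
  refine Subtype.ext (funext fun z => ?_)
  by_cases hz : z ∈ D.RM M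
  · exact h z hz
  · rw [χ.2.2.2.1 z hz, χ'.2.2.2.1 z hz]

theorem EKey_root {D : Dat Ω} {M : IntermediateField ℂ Ω} (hb : D.b ∈ M) (hx : D.x ∈ M) {i : Fin 5}
    {r : Ω} (hr : r ∈ M) (h : r ^ 2 = D.x - av i D.b) :
    r ∈ D.RM M ∧ ∀ χ : D.Spm M, χ.1 r ^ 2 = χ.1 D.x - av i (χ.1 D.b) ∧ χ.1 (-r) = -χ.1 r := by
  have e : ((⟨D.x, dgal_xA D⟩ - av i ⟨D.b, dgal_bA D⟩ : Algebra.adjoin ℂ {D.b, D.x}) : Ω)
      = D.x - av i D.b := by
    have k := ds_av (Algebra.adjoin ℂ {D.b, D.x}).val i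
      (⟨D.b, dgal_bA D⟩ : Algebra.adjoin ℂ {D.b, D.x})
    exact congrArg (D.x - ·) k
  have h1 : r ∈ D.RM M := by
    refine dgal_mem.2 ⟨IsIntegral.of_pow two_pos ?_, hr⟩
    rw [h, ← e]
    exact isIntegral_algebraMap (R := Algebra.adjoin ℂ {D.b, D.x}) (A := Ω)
      (x := ⟨D.x, dgal_xA D⟩ - av i ⟨D.b, dgal_bA D⟩)
  refine ⟨h1, fun χ => ⟨?_, map_neg (dgalHom χ) ⟨r, h1⟩⟩⟩
  have h2 : (⟨r, h1⟩ : D.RM M) ^ 2 = ⟨D.x, DSpm_x_mem hx⟩ - av i ⟨D.b, DSpm_b_mem hb⟩ := by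
    have k := ds_av (D.RM M).val i (⟨D.b, DSpm_b_mem hb⟩ : D.RM M)
    exact Subtype.ext (h.trans (congrArg (D.x - ·) k).symm)
  have h3 := congrArg (dgalHom χ) h2
  rw [map_pow, map_sub, ds_av] at h3
  exact h3

theorem EKey_char {Γ : Type} [Group Γ] (act : Γ →* (Ω ≃ₐ[ℂ] Ω)) {r : Ω} (h0 : r ≠ 0)
    (h : ∀ γ, act γ r ^ 2 = r ^ 2) :
    ∃ ψ : Γ →* Multiplicative (ZMod 2), ∀ γ, ψ γ = 1 ↔ act γ r = r := by
  classical
  haveI : CharZero Ω := charZero_of_injective_algebraMap (algebraMap ℂ Ω).injective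
  have hn : -r ≠ r := fun e => h0 (by
    have : (2 : Ω) * r = 0 := by linear_combination -e
    exact (mul_eq_zero.1 this).resolve_left two_ne_zero)
  have h1 : ∀ γ, act γ r = r ∨ act γ r = -r := fun γ => sq_eq_sq_iff_eq_or_eq_neg.1 (h γ)
  refine ⟨MonoidHom.mk' (fun g => if act g r = r then 1 else Multiplicative.ofAdd 1) fun a b => ?_,
    fun γ => ?_⟩
  · simp only [map_mul, AlgEquiv.mul_apply]
    rcases h1 a with ha | ha <;> rcases h1 b with hb | hb <;>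
      simp only [ha, hb, map_neg, neg_neg, hn, if_true, if_false] <;> decide
  · by_cases hg : act γ r = r
    · simp [hg]
    · simp only [MonoidHom.mk'_apply, hg, if_false, iff_false]
      decide

end Vale.Agent.P300
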