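import Vale.Agent.P300.ELoc
import Vale.Agent.P300.DSetup
import Vale.Agent.P300.DGal
import Vale.Agent.P300.DConn
import Vale.Agent.P300.DTower
import Vale.Agent.P300.EKeyX1

/-! P300: comparison of the Galois group with the topological monodromy. -/

noncomputable section

namespace Vale.Agent.P300

open unitInterval Topology

variable {Ω : Type} [Field Ω] [Algebra ℂ Ω] {Γ : Type} [Group Γ]

/-- the data at level `E`, with `b, x, S` independent of the level by definition -/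
def Setup.dat (St : Setup Ω Γ) (E : ℕ+) : Dat Ω where
  b := St.b
  x := St.x
  S := St.S
  E := E
  hE := E.2
  rt := (St.D E).rt
  hrt p hp := by
    have h := (St.D E).hrt p (by rwa [St.hS])
    rwa [St.hE, St.hb] at h
  hS c hc := (St.D E).hS c (by rwa [St.hS])

/-- stabiliser of a point -/
def EKeyStab {P X : Type} [Group P] (θ : P →* Equiv.Perm X) (a : X) : Subgroup P :=
  (MulAction.stabilizer (Equiv.Perm X) a).comap θ

theorem EKey_dat_ext {D D' : Dat Ω} (h1 : D.b = D'.b) (h2 : D.x = D'.x) (h3 : D.S = D'.S)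
    (h4 : D.E = D'.E) (h5 : D.rt = D'.rt) : D = D' := by
  obtain ⟨b, x, S, E, hE, rt, hrt, hS⟩ := D
  obtain ⟨b', x', S', E', hE', rt', hrt', hS'⟩ := D'
  dsimp only at h1 h2 h3 h4 h5
  subst h1 h2 h3 h4 h5
  rfl

theorem Setup.dat_eq (St : Setup Ω Γ) (E : ℕ+) : St.dat E = St.D E :=
  EKey_dat_ext (St.hb E).symm (St.hx E).symm (St.hS E).symm (St.hE E).symm rfl

theorem EKey_base (St : Setup Ω Γ) (E : ℕ+) : (St.dat E).BaseField (St.K E) := by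
  rw [St.dat_eq]
  exact St.base E

theorem EKey_le (St : Setup Ω Γ) (E : ℕ+) (H : Subgroup Γ) :
    St.K E ⊔ IntermediateField.adjoin ℂ {(St.dat E).x} ≤ St.L E ⊓ fixIF St.act H := by
  refine (St.top E).ge.trans (inf_le_inf_left _ fun z hz γ _ => hz γ (Subgroup.mem_top γ))

theorem EKey_mem (St : Setup Ω Γ) (E : ℕ+) (H : Subgroup Γ) :
    (St.dat E).b ∈ St.L E ⊓ fixIF St.act H ∧ (St.dat E).x ∈ St.L E ⊓ fixIF St.act H ∧
      ∀ p ∈ (St.dat E).S, (St.dat E).rt p ∈ St.L E ⊓ fixIF St.act H :=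
  ⟨(dgal_bx (EKey_base St E) (EKey_le St E H)).1, (dgal_bx (EKey_base St E) (EKey_le St E H)).2,
    fun p hp => EKey_le St E H (le_sup_left (a := St.K E) ((EKey_base St E).rt_mem p hp))⟩

theorem EKey_bot (St : Setup Ω Γ) (E : ℕ+) : St.L E ⊓ fixIF St.act ⊥ = St.L E :=
  inf_eq_left.2 fun z _ γ hγ => by
    rw [Subgroup.mem_bot.1 hγ, map_one]
    rfl

/-- every fixed field of a subgroup has a good model -/
theorem Setup.exists_good (St : Setup Ω Γ) [Finite Γ] (h2 : IsPGroup 2 Γ) (E : ℕ+)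
    (H : Subgroup Γ) : ∃ (N : ℕ) (t : Fin (N + 1) → Ω), (St.dat E).Good (St.L E ⊓ fixIF St.act H) t := by
  obtain ⟨r, c, c0, cr, hc⟩ := exists_chain h2 H
  have h := (St.dat E).exists_model (St.K E) (EKey_base St E) r
    (fun i => St.L E ⊓ fixIF St.act (c i)) (by rw [c0]; exact St.top E) fun i hi => by
      rw [St.dat_eq]
      exact St.step E (c i) (c (i + 1)) (hc i hi).1 (hc i hi).2
  rwa [cr] at h

theorem EKey_cov (St : Setup Ω Γ) [Finite Γ] (h2 : IsPGroup 2 Γ) (E : ℕ+) :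
    (IsCoveringMap ((St.dat E).prj (St.L E)) ∧ ∀ q, ((St.dat E).prj (St.L E) ⁻¹' {q}).Finite) ∧
    ∀ (γ : Γ) (χ : (St.dat E).Spm (St.L E)),
      (∀ z ∈ (St.dat E).RM (St.L E), χ.1 (St.act γ z) = χ.1 z) → ∀ z ∈ St.L E, St.act γ z = z := by
  obtain ⟨N, t, hG⟩ := St.exists_good h2 E ⊥
  have h := EKey_mem St E ⊥
  have h' := EKey_mem St E ⊤
  rw [EKey_bot] at hG h
  exact ⟨hG.covering_prj h.1 h.2.1 h.2.2, fun γ χ hχ => hG.free h.1 h.2.1 h.2.2 (St.act γ)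
    (h'.1.2 γ (Subgroup.mem_top γ)) (h'.2.1.2 γ (Subgroup.mem_top γ)) (St.pres E γ) χ hχ⟩

/-- the Galois action on the characters and the comparison homomorphism -/
theorem EKey_th (St : Setup Ω Γ) [Finite Γ] (h2 : IsPGroup 2 Γ) (j : F5 →* Γ)
    (hj : Function.Surjective j) {C : Finset F5} {ε : ℝ} {u0 : U0 St.S}
    {P : Type} [Group P] {μ : Mono (U0 St.S) P} (hμ : IsUniv μ) {Dt : TData P}
    (hT : TFacts C ε u0 μ Dt) (E : ℕ+)
    {Θ : P →* Equiv.Perm ((St.dat E).prj (St.L E) ⁻¹' {u0})}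
    (hΘ : EKeyMon μ ((St.dat E).prj (St.L E)) u0 Θ) (χ0 : (St.dat E).prj (St.L E) ⁻¹' {u0})
    (hfree : ∀ (γ : Γ) (χ : (St.dat E).Spm (St.L E)),
      (∀ z ∈ (St.dat E).RM (St.L E), χ.1 (St.act γ z) = χ.1 z) → γ = 1) :
    ∃ th : F5 →* Γ, Function.Surjective th ∧
      (∀ g z, (Θ (Dt.ι g) χ0).1.1 z = χ0.1.1 (St.act (th g) z)) ∧
      ∀ ω γ, (∀ z, (Θ ω χ0).1.1 z = χ0.1.1 (St.act γ z)) →
        ∀ g z, (Θ (Dt.ι g * ω) χ0).1.1 z = χ0.1.1 (St.act (th g * γ) z) := by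
  have hm := EKey_mem St E ⊤
  have ab : ∀ γ, St.act γ (St.dat E).b = (St.dat E).b := fun γ => hm.1.2 γ (Subgroup.mem_top γ)
  have ax : ∀ γ, St.act γ (St.dat E).x = (St.dat E).x := fun γ => hm.2.1.2 γ (Subgroup.mem_top γ)
  have cov := (EKey_cov St h2 E).1.1
  choose r hr using fun γ => (St.dat E).exists_smul (St.act γ) (ab γ) (ax γ) (St.pres E γ)
  have rp : ∀ γ χ, (St.dat E).prj (St.L E) (r γ χ) = (St.dat E).prj (St.L E) χ := fun γ χ =>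
    Subtype.ext (Prod.ext ((hr γ χ _).trans (congrArg χ.1 (ab γ)))
      ((hr γ χ _).trans (congrArg χ.1 (ax γ))))
  have out : ∀ (γ : Γ) (χ χ' : (St.dat E).Spm (St.L E)),
      (∀ z ∈ (St.dat E).RM (St.L E), χ'.1 z = χ.1 (St.act γ z)) →
      ∀ z, χ'.1 z = χ.1 (St.act γ z) := fun γ χ χ' h z => by
    rw [← hr, EKey_ext (χ := χ') (χ' := r γ χ) fun z hz => (h z hz).trans (hr γ χ z).symm]
  have loop : ∀ g, ∃ γ : C(I, U0 St.S), γ 0 = u0 ∧ γ 1 = u0 ∧ (∀ s, (γ s).1.1 = u0.1.1) ∧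
      μ.m γ = Dt.ι g := fun g => by
    obtain ⟨γ, g0, g1, g2, g3⟩ := hT.fibre (ContinuousMap.const I u0) rfl g
    rw [μ.m_const _ fun _ => rfl, one_mul, inv_one, mul_one] at g3
    exact ⟨γ, g0, g1, g2, g3⟩
  have ex : ∀ g, ∃ γ : Γ, ∀ z, (Θ (Dt.ι g) χ0).1.1 z = χ0.1.1 (St.act γ z) := fun g => by
    obtain ⟨γ, g0, g1, g2, g3⟩ := loop g
    obtain ⟨c, l, l0, l1⟩ := EKey_lift cov hΘ γ g0 g1 χ0
    have lb : ∀ s, (c s).1 (St.dat E).b = u0.1.1 := fun s =>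
      (congrArg (fun q : U0 St.S => q.1.1) (l s)).trans (g2 s)
    have lx : ∀ s, (c s).1 (St.dat E).x = (γ s).1.2 := fun s =>
      congrArg (fun q : U0 St.S => q.1.2) (l s)
    have k := (St.dat E).kpart (EKey_base St E) ((EKey_le St E ⊤).trans inf_le_left) c
      (fun s => (lb s).trans (lb 0).symm) (by rw [lx, lx, g0, g1])
    obtain ⟨a, -, ha⟩ := (St.dat E).trans St.act ab ax (St.pres E) ⊤ (c 1) (c 0) fun z hz =>
      (k z (by rw [St.top E] at hz; exact hz)).symm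
    rw [l0, l1, g3] at ha
    exact ⟨a, out a _ _ ha⟩
  choose th hth using ex
  have comm : ∀ ω γ, (∀ z, (Θ ω χ0).1.1 z = χ0.1.1 (St.act γ z)) →
      ∀ g z, (Θ (Dt.ι g * ω) χ0).1.1 z = χ0.1.1 (St.act (th g * γ) z) := fun ω γ h g z => by
    have e : (Θ (Dt.ι g) (Θ ω χ0)).1 = r γ (Θ (Dt.ι g) χ0).1 :=
      EKey_equiv hμ cov hΘ hΘ (r γ) (rp γ) (Dt.ι g) χ0 (Θ ω χ0)
        (Subtype.ext (funext fun z => (h z).trans (hr γ _ z).symm))
    rw [map_mul, Equiv.Perm.mul_apply, e, hr, hth, map_mul, AlgEquiv.mul_apply]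
  have inj : ∀ γ γ' : Γ, (∀ z, χ0.1.1 (St.act γ z) = χ0.1.1 (St.act γ' z)) → γ = γ' :=
    fun γ γ' h => mul_inv_eq_one.1 (hfree (γ * γ'⁻¹) χ0.1 fun z _ => by
      rw [map_mul, AlgEquiv.mul_apply, h, ← AlgEquiv.mul_apply, ← map_mul, mul_inv_cancel, map_one,
        AlgEquiv.one_apply])
  have hom : ∀ g g', th (g * g') = th g * th g' := fun g g' => inj _ _ fun z => by
    rw [← hth, map_mul]
    exact comm _ _ (hth g') g z
  refine ⟨MonoidHom.mk' th hom, ?_, hth, comm⟩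
  choose ρ hρ1 hρ2 using St.sq
  have hm' := EKey_mem St E ⊥
  rw [EKey_bot] at hm'
  have rt := fun i => EKey_root (D := St.dat E) hm'.1 hm'.2.1 (St.le_L E (hρ1 i)) (hρ2 i)
  have e0 : ∀ i, χ0.1.1 (ρ i) ≠ 0 := fun i h => by
    have h1 := ((rt i).2 χ0.1).1
    rw [h, zero_pow two_ne_zero] at h1
    exact χ0.1.2.2.2.2.2 i (sub_eq_zero.1 h1.symm)
  have sq2 : ∀ i γ, St.act γ (ρ i) ^ 2 = ρ i ^ 2 := fun i γ => by
    rw [← map_pow, hρ2, map_sub, ds_av]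
    exact congrArg₂ (fun a b => a - av i b) (ax γ) (ab γ)
  have n0 : ∀ i, ρ i ≠ 0 := fun i h => e0 i (by
    rw [h]
    exact map_zero (dgalHom χ0.1))
  choose ψ hψ using fun i => EKey_char St.act (n0 i) (sq2 i)
  refine surj_of_mod_two h2 j _ hj ψ fun i k => ?_
  obtain ⟨γ, g0, g1, g2, g3⟩ := loop (xx k)
  obtain ⟨c, l, l0, l1⟩ := EKey_lift cov hΘ γ g0 g1 χ0
  have lb : ∀ s, (c s).1 (St.dat E).b = u0.1.1 := fun s =>
    (congrArg (fun q : U0 St.S => q.1.1) (l s)).trans (g2 s)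
  have lx : ∀ s, (c s).1 (St.dat E).x = (γ s).1.2 := fun s =>
    congrArg (fun q : U0 St.S => q.1.2) (l s)
  have k1 := hT.root k γ g0 g1 g2 g3 i ⟨fun s => (c s).1 (ρ i),
    (continuous_apply (ρ i)).comp (continuous_subtype_val.comp c.continuous)⟩ fun s => by
      rw [← lb s, ← lx s]
      exact ((rt i).2 (c s)).1
  rw [hψ, ← k1]
  change St.act (th (xx k)) (ρ i) = ρ i ↔ (c 1).1 (ρ i) = (c 0).1 (ρ i)
  rw [l0, l1, g3, hth]
  refine ⟨fun h => by rw [h], fun h => ?_⟩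
  rcases sq_eq_sq_iff_eq_or_eq_neg.1 (sq2 i (th (xx k))) with h1 | h1
  · exact h1
  · rw [h1, ((rt i).2 χ0.1).2] at h
    exact absurd (by linear_combination h / 2) (e0 i)

theorem Setup.key (St : Setup Ω Γ) [Finite Γ] (j : F5 →* Γ) (hj : Function.Surjective j)
    (h2 : ∀ g, ∃ n, g ^ 2 ^ n ∈ j.ker) (hfull : ∀ e : F5 →* F5, ∀ g ∈ j.ker, e g ∈ j.ker)
    (F' : Subgroup F5) [F'.Normal] (hN : j.ker ≤ F') {C : Finset F5} {ε : ℝ} {u0 : U0 St.S}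
    {P : Type} [Group P] {μ : Mono (U0 St.S) P} (hμ : IsUniv μ) {Dt : TData P}
    (hT : TFacts C ε u0 μ Dt) :
    ∃ (E : ℕ+) (M : IntermediateField ℂ Ω) (N : ℕ) (t : Fin (N + 1) → Ω)
      (hG : (St.dat E).Good M t) (y0 : (St.dat E).UY t) (H : Subgroup P),
      IsPreconnected ((St.dat E).UY t) ∧ (St.dat E).prU t y0 = u0 ∧ hG.Stab y0 μ H ∧
      ∃ (Q : Type) (_ : Group Q) (_ : Finite Q) (θ : P →* Q), (∀ q : Q, q ^ (E : ℕ) = 1) ∧
        (∀ g, Dt.ι g ∈ H ↔ g ∈ F') ∧ (∀ g, θ (Dt.ι g) = 1 → g ∈ F') ∧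
        ∀ ω ∈ H, ∀ f, θ ((Dt.ι f)⁻¹ * ω) = 1 → (Dt.ι f)⁻¹ * ω ∈ H := by
  have hp : IsPGroup 2 Γ := fun γ => by
    obtain ⟨g, rfl⟩ := hj γ
    obtain ⟨n, hn⟩ := h2 g
    exact ⟨n, by rw [← map_pow]; exact hn⟩
  haveI : PathConnectedSpace (U0 St.S) :=
    isPathConnected_iff_pathConnectedSpace.1 (isPathConnected_U0 St.S)
  obtain ⟨⟨c1, f1⟩, fr1⟩ := EKey_cov St hp 1
  obtain ⟨θ, hθ⟩ := hμ.monodromy c1 u0
  haveI : Finite ((St.dat 1).prj (St.L 1) ⁻¹' {u0}) := f1 u0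
  have hfin : Finite (Equiv.Perm ((St.dat 1).prj (St.L 1) ⁻¹' {u0})) := inferInstance
  let E : ℕ+ := ⟨Nat.card (Equiv.Perm ((St.dat 1).prj (St.L 1) ⁻¹' {u0})), Nat.card_pos⟩
  have cE := (EKey_cov St hp E).1.1
  obtain ⟨Θ, hΘ⟩ := hμ.monodromy cE u0
  obtain ⟨χ0, hχ0⟩ := (St.dat E).prj_surjective (EKey_base St E)
    ((EKey_le St E ⊤).trans inf_le_left) u0
  have hm := EKey_mem St E ⊤
  have ab : ∀ γ, St.act γ (St.dat E).b = (St.dat E).b := fun γ => hm.1.2 γ (Subgroup.mem_top γ)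
  have ax : ∀ γ, St.act γ (St.dat E).x = (St.dat E).x := fun γ => hm.2.1.2 γ (Subgroup.mem_top γ)
  have m1 := EKey_mem St 1 ⊥
  rw [EKey_bot] at m1
  obtain ⟨r1, hr1⟩ : ∃ r : C((St.dat E).Spm (St.L E), (St.dat 1).Spm (St.L 1)),
      ∀ χ, ∀ z ∈ (St.dat 1).RM (St.L 1), (r χ).1 z = χ.1 z :=
    (St.dat E).exists_res (St.le_L E) m1.1 m1.2.1
  have p1 : ∀ χ, (St.dat 1).prj (St.L 1) (r1 χ) = (St.dat E).prj (St.L E) χ := fun χ =>
    Subtype.ext (Prod.ext (hr1 χ _ (DSpm_b_mem m1.1)) (hr1 χ _ (DSpm_x_mem m1.2.1)))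
  have free1 : ∀ (γ : Γ) (χ : (St.dat E).Spm (St.L E)),
      (∀ z ∈ (St.dat 1).RM (St.L 1), χ.1 (St.act γ z) = χ.1 z) → γ = 1 := fun γ χ h =>
    St.faith γ (fr1 γ (r1 χ) fun z hz => by
      rw [hr1 χ _ ((dgal_iff (D := St.dat 1) (St.act γ) (ab γ) (ax γ) (St.pres 1 γ) z).2 hz),
        hr1 χ z hz, h z hz])
  obtain ⟨th, ths, hth, comm⟩ := EKey_th St hp j hj hμ hT E hΘ ⟨χ0, hχ0⟩ fun γ χ h =>
    free1 γ χ fun z hz => h z (dgal_mono (D := St.dat E) (St.le_L E) hz)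
  have hker : th.ker = j.ker := ker_eq_of_full j th hj ths hfull
  have triv : ∀ ω γ, (∀ z, (Θ ω ⟨χ0, hχ0⟩).1.1 z = χ0.1 (St.act γ z)) → θ ω = 1 → γ = 1 :=
    fun ω γ h h1 => free1 γ χ0 fun z hz => by
      have e := EKey_equiv hμ cE hΘ hθ r1 p1 ω ⟨χ0, hχ0⟩ ⟨r1 χ0, (p1 χ0).trans hχ0⟩ rfl
      rw [h1] at e
      rw [← h, ← hr1 _ z hz, ← e]
      exact hr1 χ0 z hz
  obtain ⟨N, t, hG⟩ := St.exists_good hp E (F'.map th)
  have mM := EKey_mem St E (F'.map th)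
  obtain ⟨h, hh⟩ := hG.exists_homeo mM.1 mM.2.1 mM.2.2
  obtain ⟨rM, hrM⟩ := (St.dat E).exists_res (M := St.L E) inf_le_left mM.1 mM.2.1
  obtain ⟨ΘM, hΘM⟩ := hμ.monodromy hG.covering_prU.1 u0
  let f : C((St.dat E).Spm (St.L E), (St.dat E).UY t) := (h.symm : C(_, _)).comp rM
  have hf : ∀ χ, h (f χ) = rM χ := fun χ => h.apply_symm_apply (rM χ)
  have pM : ∀ χ, (St.dat E).prU t (f χ) = (St.dat E).prj (St.L E) χ := fun χ =>
    Subtype.ext (Prod.ext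
      ((hh _ _ (DSpm_b_mem mM.1)).symm.trans (hf χ ▸ hrM χ _ (DSpm_b_mem mM.1)))
      ((hh _ _ (DSpm_x_mem mM.2.1)).symm.trans (hf χ ▸ hrM χ _ (DSpm_x_mem mM.2.1))))
  let y0 : (St.dat E).prU t ⁻¹' {u0} := ⟨f χ0, (pM χ0).trans hχ0⟩
  let H : Subgroup P := EKeyStab ΘM y0
  have mH : ∀ ω, ω ∈ H ↔ ΘM ω y0 = y0 := fun ω => Iff.rfl
  have hH : ∀ ω, ω ∈ H ↔ ∃ γ ∈ F'.map th, ∀ z, (Θ ω ⟨χ0, hχ0⟩).1.1 z = χ0.1 (St.act γ z) := by
    intro ω
    have e : (ΘM ω y0).1 = f (Θ ω ⟨χ0, hχ0⟩).1 :=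
      EKey_equiv hμ cE hΘ hΘM f pM ω ⟨χ0, hχ0⟩ y0 rfl
    have e2 : ω ∈ H ↔ rM (Θ ω ⟨χ0, hχ0⟩).1 = rM χ0 := by
      rw [← hf, ← hf, ← e]
      exact (mH ω).trans (Subtype.ext_iff.trans h.injective.eq_iff.symm)
    rw [e2]
    constructor
    · intro k
      obtain ⟨γ, g1, g2⟩ := (St.dat E).trans St.act ab ax (St.pres E) (F'.map th) χ0
        (Θ ω ⟨χ0, hχ0⟩).1 fun z hz => by rw [← hrM _ z hz, k, hrM _ z hz]
      refine ⟨γ, g1, fun z => ?_⟩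
      by_cases hz : z ∈ (St.dat E).RM (St.L E)
      · exact g2 z hz
      · rw [(Θ ω ⟨χ0, hχ0⟩).1.2.2.2.1 z hz, χ0.2.2.2.1 _
          (mt (dgal_iff (St.act γ) (ab γ) (ax γ) (St.pres E γ) z).1 hz)]
    · rintro ⟨γ, g1, g2⟩
      refine EKey_ext fun z hz => ?_
      rw [hrM _ z hz, hrM _ z hz, g2, (dgal_mem.1 hz).2.2 γ g1]
  refine ⟨E, _, N, t, hG, y0.1, H, hG.preconnected (EKey_base St E) (EKey_le St E _), y0.2,
    fun γ g0 g1 => ?_, _, inferInstance, by exact hfin, θ, fun q => pow_card_eq_one', fun g => ?_,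
    fun g hg => hN (hker ▸ triv _ _ (hth g) hg), fun ω hω g hg => ?_⟩
  · have k0 : (St.dat E).prU t (γ 0) = u0 := g0 ▸ y0.2
    have k2 : (⟨γ 0, k0⟩ : (St.dat E).prU t ⁻¹' {u0}) = y0 := Subtype.ext g0
    have k := (hΘM γ (hG.prC.comp γ) (fun _ => rfl) k0 (g1.trans y0.2)).trans k2
    rw [mH]
    exact ⟨fun a => congrArg Subtype.val ((ΘM _).injective (k.trans a.symm)),
      fun a => (congrArg _ (Subtype.ext a.symm)).trans k⟩
  · rw [hH]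
    constructor
    · rintro ⟨γ, ⟨g', g1, rfl⟩, g2⟩
      have k : th (g * g'⁻¹) = 1 := free1 _ χ0 fun z _ => by
        rw [map_mul, map_mul, AlgEquiv.mul_apply]
        refine ((hth g _).symm.trans (g2 _)).trans ?_
        rw [← AlgEquiv.mul_apply, ← map_mul, ← map_mul, mul_inv_cancel, map_one, map_one,
          AlgEquiv.one_apply]
      have k2 : g * g'⁻¹ ∈ F' := hN (hker ▸ k)
      exact (F'.mul_mem_cancel_right (F'.inv_mem g1)).1 k2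
    · exact fun hg => ⟨th g, Subgroup.mem_map_of_mem th hg, hth g⟩
  · obtain ⟨γ, -, g2⟩ := (hH ω).1 hω
    rw [← map_inv] at hg ⊢
    have k := comm ω γ g2 g⁻¹
    rw [triv _ _ k hg] at k
    exact (hH _).2 ⟨1, one_mem _, k⟩

end Vale.Agent.P300
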