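import Vale.Agent.P300.EStrT

/-! P300: monodromy of the strata around the light punctures has order at most two. -/

noncomputable section

namespace Vale.Agent.P300

open unitInterval Topology

theorem ELight_core {Y : Type} [TopologicalSpace Y] (Ψ : OpenPartialHomeomorph Y (ℂ × ℂ)) {y : Y}
    (hy : y ∈ Ψ.source) (h0 : Ψ y = 0) (bf ff : Y → ℂ) (m m' j n : ℤ) (hm : 0 < m) (hj : j ≠ 0)
    (hb : ∀ x ∈ Ψ.source, (Ψ x).1 ≠ 0 → (Ψ x).2 ≠ 0 → bf x = (Ψ x).1 ^ m * (Ψ x).2 ^ m')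
    (hf : ∀ x ∈ Ψ.source, (Ψ x).2 ≠ 0 → ff x = (Ψ x).2 ^ j) :
    ∃ O, IsOpen O ∧ y ∈ O ∧ O ⊆ Ψ.source ∧ ∀ (w : ℂ) (β : ℝ), w ≠ 0 → 0 < β →
      (∀ δ : C(I, Y), (∀ s, δ s ∈ Ψ.source ∧ (Ψ (δ s)).1 ≠ 0 ∧ (Ψ (δ s)).2 ≠ 0) →
        ‖bf (δ 0)‖ < β → (∀ s : I, bf (δ s) = bf (δ 0) ∧ ff (δ s) = w * ex (n * s)) →
        δ 1 = δ 0) →
      ∀ γ : C(I, Y), (∀ s : I, γ s ∈ O ∧ (Ψ (γ s)).1 = 0 ∧ (Ψ (γ s)).2 ≠ 0 ∧
        ff (γ s) = w * ex (n * s)) → γ 1 = γ 0 := by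
  obtain ⟨r, hr, hball⟩ := Metric.isOpen_iff.1 Ψ.open_target 0 (h0 ▸ Ψ.map_source hy)
  refine ⟨Ψ.source ∩ Ψ ⁻¹' Metric.ball 0 r, Ψ.isOpen_inter_preimage Metric.isOpen_ball,
    ⟨hy, by rw [Set.mem_preimage, h0]; exact Metric.mem_ball_self hr⟩, Set.inter_subset_left,
    fun w β hw hβ h γ hγ => ?_⟩
  have hex : ∀ r : ℝ, ex r ≠ 0 := fun r => Complex.exp_ne_zero _
  have hc : Continuous fun s => Ψ (γ s) :=
    Ψ.continuousOn.comp_continuous γ.continuous fun s => (hγ s).1.1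
  have hV := root_circ ⟨fun s => (Ψ (γ s)).2, hc.snd⟩ j n hj w hw fun s =>
    (hf _ (hγ s).1.1 (hγ s).2.2.1).symm.trans (hγ s).2.2.2
  simp only [ContinuousMap.coe_mk] at hV
  obtain ⟨v1, hv1⟩ : ∃ v1, v1 = (Ψ (γ 0)).2 := ⟨_, rfl⟩
  have v0 : v1 ≠ 0 := hv1 ▸ (hγ 0).2.2.1
  have vr : ‖v1‖ < r := by
    have h1 := mem_ball_zero_iff.1 (hγ 0).1.2
    exact hv1 ▸ (norm_snd_le _).trans_lt h1
  have vj : v1 ^ j = w := by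
    rw [hv1, ← hf _ (hγ 0).1.1 (hγ 0).2.2.1, (hγ 0).2.2.2]
    simp [ex_zero]
  -- a small first coordinate
  obtain ⟨u1, u0, ur, ub⟩ : ∃ u1 : ℂ, u1 ≠ 0 ∧ ‖u1‖ < r ∧ ‖u1 ^ m * v1 ^ m'‖ < β := by
    lift m to ℕ using hm.le
    have hm' : m ≠ 0 := by omega
    have t1 : ContinuousAt (fun u : ℂ => ‖u ^ (m : ℤ) * v1 ^ m'‖) 0 := by
      simp only [zpow_natCast]
      fun_prop
    have t2 : ∀ᶠ u : ℂ in 𝓝 0, ‖u ^ (m : ℤ) * v1 ^ m'‖ < β :=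
      t1.eventually_lt continuousAt_const (by simpa [hm'] using hβ)
    have t3 : ∀ᶠ u : ℂ in 𝓝 0, ‖u‖ < r :=
      continuous_norm.continuousAt.eventually_lt continuousAt_const (by simpa using hr)
    obtain ⟨u, hu⟩ := (((t3.and t2).filter_mono nhdsWithin_le_nhds).and
      (self_mem_nhdsWithin (a := (0 : ℂ)) (s := {0}ᶜ))).exists
    exact ⟨u, hu.2, hu.1.1, hu.1.2⟩
  have hj' : (j : ℝ) ≠ 0 := Int.cast_ne_zero.2 hj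
  have hm' : (m : ℝ) ≠ 0 := Int.cast_ne_zero.2 hm.ne'
  let c : I → ℂ × ℂ := fun s => (u1 * ex (-(n * m' * s / (j * m))), v1 * ex (n * s / j))
  have cc : Continuous c :=
    (continuous_const.mul (continuous_ex.comp (by fun_prop))).prodMk
      (continuous_const.mul (continuous_ex.comp (by fun_prop)))
  have ct : ∀ s, c s ∈ Ψ.target := fun s => hball (by
    rw [mem_ball_zero_iff, Prod.norm_mk, norm_mul, norm_mul, norm_ex, norm_ex, mul_one, mul_one]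
    exact max_lt ur vr)
  let δ : C(I, Y) := ⟨fun s => Ψ.symm (c s), Ψ.continuousOn_symm.comp_continuous cc ct⟩
  have d1 : ∀ s, Ψ (δ s) = c s := fun s => Ψ.right_inv (ct s)
  have d2 : ∀ s, δ s ∈ Ψ.source ∧ (Ψ (δ s)).1 ≠ 0 ∧ (Ψ (δ s)).2 ≠ 0 := fun s =>
    ⟨Ψ.map_target (ct s), by rw [d1]; exact mul_ne_zero u0 (hex _),
      by rw [d1]; exact mul_ne_zero v0 (hex _)⟩
  have d3 : ∀ s, bf (δ s) = u1 ^ m * v1 ^ m' := fun s => by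
    rw [hb _ (d2 s).1 (d2 s).2.1 (d2 s).2.2, d1]
    have e1 : ex (m * -(n * m' * s / (j * m))) * ex (m' * (n * s / j)) = 1 := by
      rw [← ex_add, ← ex_zero]
      congr 1
      field_simp
      ring
    simp only [c, mul_zpow, ex_zpow]
    linear_combination (u1 ^ m * v1 ^ m') * e1
  have d4 := h δ d2 (by rw [d3]; exact ub) fun s => ⟨by rw [d3, d3], by
    rw [hf _ (d2 s).1 (d2 s).2.2, d1]
    simp only [c, mul_zpow, ex_zpow, vj]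
    congr 2
    field_simp⟩
  have d5 : v1 * ex (n * (1 : I) / j) = v1 := by
    have h1 := congrArg (fun x => (Ψ x).2) d4
    simp only [d1, c] at h1
    rw [h1]
    simp [ex_zero]
  refine Ψ.injOn (hγ 1).1.1 (hγ 0).1.1 (Prod.ext ?_ ?_)
  · rw [(hγ 1).2.1, (hγ 0).2.1]
  · rw [hV 1, ← hv1, d5]

theorem ELight_mid {Y : Type} [TopologicalSpace Y] (κ : OpenPartialHomeomorph Y (ℂ × ℂ)) {y : Y}
    (hy : y ∈ κ.source) (h0 : κ y = 0) (bf ff eb ef : Y → ℂ) (m m' j n : ℤ) (hm : 0 < m)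
    (hj : j ≠ 0) (ab : AnalyticAt ℂ (fun η => eb (κ.symm η)) 0)
    (af : AnalyticAt ℂ (fun η => ef (κ.symm η)) 0) (b0 : eb y ≠ 0) (f0 : ef y ≠ 0)
    (hb : ∀ x ∈ κ.source, (κ x).1 ≠ 0 → (κ x).2 ≠ 0 → bf x = eb x * (κ x).1 ^ m * (κ x).2 ^ m')
    (hf : ∀ x ∈ κ.source, (κ x).2 ≠ 0 → ff x = ef x * (κ x).2 ^ j) :
    ∃ O, IsOpen O ∧ y ∈ O ∧ O ⊆ κ.source ∧ ∀ (w : ℂ) (β : ℝ), w ≠ 0 → 0 < β →
      (∀ δ : C(I, Y), (∀ s, δ s ∈ κ.source ∧ (κ (δ s)).1 ≠ 0 ∧ (κ (δ s)).2 ≠ 0) →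
        ‖bf (δ 0)‖ < β → (∀ s : I, bf (δ s) = bf (δ 0) ∧ ff (δ s) = w * ex (n * s)) →
        δ 1 = δ 0) →
      ∀ γ : C(I, Y), (∀ s : I, γ s ∈ O ∧ (κ (γ s)).1 = 0 ∧ (κ (γ s)).2 ≠ 0 ∧
        ff (γ s) = w * ex (n * s)) → γ 1 = γ 0 := by
  have hy0 : κ.symm 0 = y := by rw [← h0, κ.left_inv hy]
  obtain ⟨Φ, hΦ0, hΦ⟩ := exists_normal _ _ ab af (by simpa [hy0] using b0)
    (by simpa [hy0] using f0) m m' j hm.ne' hj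
  have hs : ∀ x, x ∈ (κ.trans Φ).source ↔ x ∈ κ.source ∧ κ x ∈ Φ.source := fun x => by
    rw [OpenPartialHomeomorph.trans_source]
    rfl
  have key : ∀ x ∈ (κ.trans Φ).source, ∃ α β : ℂ, α ≠ 0 ∧ β ≠ 0 ∧
      κ.trans Φ x = (α * (κ x).1, β * (κ x).2) ∧ α ^ m * β ^ m' = eb x ∧ β ^ j = ef x := by
    intro x hx
    obtain ⟨α, β, h1, h2, h3, h4, h5⟩ := hΦ _ ((hs x).1 hx).2
    rw [κ.left_inv ((hs x).1 hx).1] at h4 h5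
    exact ⟨α, β, h1, h2, h3, h4, h5⟩
  have hy' : y ∈ (κ.trans Φ).source := (hs y).2 ⟨hy, h0 ▸ hΦ0⟩
  have z1 : ∀ x ∈ (κ.trans Φ).source, ((κ.trans Φ x).1 = 0 ↔ (κ x).1 = 0) ∧
      ((κ.trans Φ x).2 = 0 ↔ (κ x).2 = 0) := fun x hx => by
    obtain ⟨α, β, h1, h2, h3, -⟩ := key x hx
    rw [h3]
    simp [h1, h2]
  obtain ⟨O, o1, o2, o3, o4⟩ := ELight_core (κ.trans Φ) hy'
    (Prod.ext ((z1 y hy').1.2 (by rw [h0]; rfl)) ((z1 y hy').2.2 (by rw [h0]; rfl))) bf ff m m' j n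
    hm hj (fun x hx h1 h2 => by
      obtain ⟨α, β, -, -, h3, h4, -⟩ := key x hx
      rw [hb x ((hs x).1 hx).1 (fun h => h1 ((z1 x hx).1.2 h)) (fun h => h2 ((z1 x hx).2.2 h)),
        h3, ← h4, mul_zpow, mul_zpow]
      ring)
    (fun x hx h2 => by
      obtain ⟨α, β, -, -, h3, -, h5⟩ := key x hx
      rw [hf x ((hs x).1 hx).1 (fun h => h2 ((z1 x hx).2.2 h)), h3, ← h5, mul_zpow])
  refine ⟨O, o1, o2, fun x hx => ((hs x).1 (o3 hx)).1, fun w β hw hβ h γ hγ =>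
    o4 w β hw hβ (fun δ hδ => h δ fun s => ?_) γ fun s => ?_⟩
  · exact ⟨((hs _).1 (hδ s).1).1, fun e => (hδ s).2.1 ((z1 _ (hδ s).1).1.2 e),
      fun e => (hδ s).2.2 ((z1 _ (hδ s).1).2.2 e)⟩
  · exact ⟨(hγ s).1, (z1 _ (o3 (hγ s).1)).1.2 (hγ s).2.1,
      fun e => (hγ s).2.2.1 ((z1 _ (o3 (hγ s).1)).2.1 e), (hγ s).2.2.2⟩


variable {Ω : Type} [Field Ω] [Algebra ℂ Ω] {ι : Type} [Fintype ι]

/-- lifts of doubled light circles in the fibres near the special fibre are closed -/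
def Dat.HL (D : Dat Ω) (t : ι → Ω) (y0 : D.UY t) (ε : ℝ) : Prop :=
  ∀ γ : C(I, D.UY t), γ 0 ∈ D.Cp t y0 ε → ∀ (c w : ℂ) (J : Set (Fin 5)),
    (∀ s : I, (D.prU t (γ s)).1 = ((D.prU t (γ 0)).1.1, c + w * ex (2 * s))) →
    (∀ i, i ∈ J ↔ ‖av i (D.prU t (γ 0)).1.1 - c‖ < ‖w‖) →
    ((∃ i, J = {i}) ∨ J = {0, 1, 2} ∨ J = Set.univ) → γ 1 = γ 0

variable {D : Dat Ω} {M : IntermediateField ℂ Ω} {t : ι → Ω}

theorem ELight_mono {y : Zt t} (ch : Chart D t y) (k : D.Ix → ℤ) :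
    ∃ (e : Ω) (a b : ℤ), (∀ y' ∈ ch.A.κ.source, (la t y').Un e) ∧
      D.mono k = e * ch.u ^ a * ch.v ^ b := by
  obtain ⟨e, -, h2⟩ := echart_mono ch ch.A.mem k
  refine ⟨e, _, _, fun y' hy' => ?_, h2⟩
  obtain ⟨e', h3, h4⟩ := echart_mono ch hy' k
  have h5 := h2.symm.trans h4
  have hu := ch.inv.1.ne_zero.1
  have hv := ch.inv.1.ne_zero.2
  rw [mul_left_inj' (zpow_ne_zero _ hv), mul_left_inj' (zpow_ne_zero _ hu)] at h5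
  exact h5 ▸ h3

theorem ELight_ev {y : Zt t} (ch : Chart D t y) {y' : Zt t} (hy' : y' ∈ ch.A.κ.source) {z e : Ω}
    {a b : ℤ} (he : (la t y').Un e) (hz : z = e * ch.u ^ a * ch.v ^ b)
    (h1 : a ≠ 0 → (ch.A.κ y').1 ≠ 0) (h2 : b ≠ 0 → (ch.A.κ y').2 ≠ 0) :
    (la t y').ev z = (la t y').ev e * (ch.A.κ y').1 ^ a * (ch.A.κ y').2 ^ b := by
  rw [ch.A.kap y' hy'] at h1 h2 ⊢
  have h3 := echart_zpow (ch.A.reg y' hy').1 h1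
  have h4 := echart_zpow (ch.A.reg y' hy').2 h2
  rw [hz, (la t y').ev_mul _ ((la t y').O.mul_mem he.1 h3.1) _ h4.1,
    (la t y').ev_mul _ he.1 _ h3.1, h3.2, h4.2]

theorem ELight_loc (hG : D.Good M t) {y0 : D.UY t} {ε : ℝ} (hε : 0 < ε) (k : D.Ix → ℤ) (n : ℤ)
    {y : Zt t} (hy : y ∈ D.F0 t y0 ε) (hnu : ¬ (la t y).Un (D.mono k)) :
    ∃ O, IsOpen O ∧ y ∈ O ∧ ∀ (w : ℂ) (β : ℝ), w ≠ 0 → 0 < β →
      (∀ γ : C(I, D.UY t), γ 0 ∈ D.Cp t y0 ε → ‖(D.prU t (γ 0)).1.1‖ < β →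
        (∀ s : I, (D.prU t (γ s)).1.1 = (D.prU t (γ 0)).1.1 ∧
          (la t (γ s).1).ev (D.mono k) = w * ex (n * s)) → γ 1 = γ 0) →
      ∀ γ : C(I, Zt t), (∀ s : I, γ s ∈ O ∧ γ s ∈ D.B0 t ∧ (la t (γ s)).Un (D.mono k) ∧
        (la t (γ s)).ev (D.mono k) = w * ex (n * s)) → γ 1 = γ 0 := by
  obtain ⟨Nb, hNb, hC⟩ := hG.F0_nhds hε hy
  obtain ⟨ch, hch⟩ := exists_chart hG y hNb
  obtain ⟨kb, hkb⟩ := Dat.b_mono (D := D)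
  obtain ⟨eb, m1, m2, ub, hb⟩ := ELight_mono ch kb
  rw [← hkb] at hb
  obtain ⟨ef, j1, j2, uf, hf⟩ := ELight_mono ch k
  have b1 := fun y' hy' => echart_mon ch hy' (ub y' hy') hb
  have f1 := fun y' hy' => echart_mon ch hy' (uf y' hy') hf
  have hj : ¬ (j1 = 0 ∧ j2 = 0) := fun h =>
    hnu ((f1 y ch.A.mem).2.2 ⟨fun _ => h.1, fun _ => h.2⟩)
  have hy0 : ch.A.κ.symm 0 = y := by rw [← ch.A.ctr, ch.A.κ.left_inv ch.A.mem]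
  have t0 : (0 : ℂ × ℂ) ∈ ch.A.κ.target := ch.A.ctr ▸ ch.A.κ.map_source ch.A.mem
  have ab := ch.A.ana eb 0 t0 (by rw [hy0]; exact (ub y ch.A.mem).1)
  have af := ch.A.ana ef 0 t0 (by rw [hy0]; exact (uf y ch.A.mem).1)
  have tr : ∀ (w : ℂ) (β : ℝ), (∀ γ : C(I, D.UY t), γ 0 ∈ D.Cp t y0 ε →
      ‖(D.prU t (γ 0)).1.1‖ < β → (∀ s : I, (D.prU t (γ s)).1.1 = (D.prU t (γ 0)).1.1 ∧
        (la t (γ s).1).ev (D.mono k) = w * ex (n * s)) → γ 1 = γ 0) →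
      ∀ δ : C(I, Zt t), (∀ s, δ s ∈ ch.A.κ.source ∧ (ch.A.κ (δ s)).1 ≠ 0 ∧
        (ch.A.κ (δ s)).2 ≠ 0) → ‖(la t (δ 0)).ev D.b‖ < β →
        (∀ s : I, (la t (δ s)).ev D.b = (la t (δ 0)).ev D.b ∧
          (la t (δ s)).ev (D.mono k) = w * ex (n * s)) → δ 1 = δ 0 := by
    intro w β h δ h1 h2 h3
    have h4 : ∀ s, δ s ∈ D.UY t := fun s =>
      (ch.isU_iff (h1 s).1).2 ⟨fun _ => (h1 s).2.1, fun _ => (h1 s).2.2⟩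
    exact congrArg Subtype.val (h ⟨fun s => ⟨δ s, h4 s⟩, δ.continuous.subtype_mk _⟩
      (hC _ (hch (h1 0).1)) h2 h3)
  have pt : ∀ x ∈ ch.A.κ.source, x ∈ D.B0 t → (la t x).Un (D.mono k) →
      (j1 = 0 ∧ 0 < m1 ∧ (ch.A.κ x).1 = 0 ∧ (ch.A.κ x).2 ≠ 0) ∨
      (j2 = 0 ∧ 0 < m2 ∧ (ch.A.κ x).2 = 0 ∧ (ch.A.κ x).1 ≠ 0) := by
    intro x hx h1 h2
    have h3 := (f1 x hx).2.1 h2
    have h4 := (b1 x hx).1.1 h1.1
    have h5 : ¬ (((ch.A.κ x).1 = 0 → m1 = 0) ∧ ((ch.A.κ x).2 = 0 → m2 = 0)) :=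
      fun h => ((b1 x hx).2.2 h).2 h1.2
    by_cases e1 : (ch.A.κ x).1 = 0
    · have e2 : (ch.A.κ x).2 ≠ 0 := fun e2 => hj ⟨h3.1 e1, h3.2 e2⟩
      exact Or.inl ⟨h3.1 e1, lt_of_le_of_ne (h4.1 e1)
        fun e => h5 ⟨fun _ => e.symm, fun h => absurd h e2⟩, e1, e2⟩
    · have e2 : (ch.A.κ x).2 = 0 := by
        by_contra e2
        exact h5 ⟨fun h => absurd h e1, fun h => absurd h e2⟩
      exact Or.inr ⟨h3.2 e2, lt_of_le_of_ne (h4.2 e2)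
        fun e => h5 ⟨fun h => absurd h e1, fun _ => e.symm⟩, e2, e1⟩
  by_cases c1 : j1 = 0 ∧ 0 < m1
  · have j0 : j2 ≠ 0 := fun h => hj ⟨c1.1, h⟩
    obtain ⟨O, o1, o2, o3, o4⟩ := ELight_mid ch.A.κ ch.A.mem ch.A.ctr
      (fun x => (la t x).ev D.b) (fun x => (la t x).ev (D.mono k)) (fun x => (la t x).ev eb)
      (fun x => (la t x).ev ef) m1 m2 j2 n c1.2 j0 ab af (ub y ch.A.mem).2 (uf y ch.A.mem).2
      (fun x hx h1 h2 => ELight_ev ch hx (ub x hx) hb (fun _ => h1) fun _ => h2)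
      (fun x hx h2 => by
        have h3 := ELight_ev ch hx (uf x hx) hf (fun h => absurd c1.1 h) fun _ => h2
        rwa [c1.1, zpow_zero, mul_one] at h3)
    refine ⟨O, o1, o2, fun w β hw hβ h γ hγ => o4 w β hw hβ (tr w β h) γ fun s => ?_⟩
    rcases pt _ (o3 (hγ s).1) (hγ s).2.1 (hγ s).2.2.1 with h1 | h1
    · exact ⟨(hγ s).1, h1.2.2.1, h1.2.2.2, (hγ s).2.2.2⟩
    · exact absurd h1.1 j0
  by_cases c2 : j2 = 0 ∧ 0 < m2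
  · have j0 : j1 ≠ 0 := fun h => hj ⟨h, c2.1⟩
    have sw : AnalyticAt ℂ (fun η : ℂ × ℂ => (η.2, η.1)) 0 := analyticAt_snd.prod analyticAt_fst
    obtain ⟨O, o1, o2, o3, o4⟩ := ELight_mid (ch.A.κ.transHomeomorph (Homeomorph.prodComm ℂ ℂ))
      ch.A.mem (congrArg Prod.swap ch.A.ctr)
      (fun x => (la t x).ev D.b) (fun x => (la t x).ev (D.mono k)) (fun x => (la t x).ev eb)
      (fun x => (la t x).ev ef) m2 m1 j1 n c2.2 j0 (AnalyticAt.comp_of_eq ab sw rfl)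
      (AnalyticAt.comp_of_eq af sw rfl) (ub y ch.A.mem).2 (uf y ch.A.mem).2
      (fun x hx h1 h2 => (ELight_ev ch hx (ub x hx) hb (fun _ => h2) fun _ => h1).trans
        (mul_right_comm _ _ _))
      (fun x hx h2 => by
        have h3 := ELight_ev ch hx (uf x hx) hf (fun _ => h2) fun h => absurd c2.1 h
        rwa [c2.1, zpow_zero, mul_one] at h3)
    refine ⟨O, o1, o2, fun w β hw hβ h γ hγ => o4 w β hw hβ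
      (fun δ hδ => tr w β h δ fun s => ⟨(hδ s).1, (hδ s).2.2, (hδ s).2.1⟩) γ fun s => ?_⟩
    rcases pt _ (o3 (hγ s).1) (hγ s).2.1 (hγ s).2.2.1 with h1 | h1
    · exact absurd h1.1 j0
    · exact ⟨(hγ s).1, h1.2.2.1, h1.2.2.2, (hγ s).2.2.2⟩
  refine ⟨_, ch.A.κ.open_source, ch.A.mem, fun w β _ _ _ γ hγ => ?_⟩
  rcases pt _ (hγ 0).1 (hγ 0).2.1 (hγ 0).2.2.1 with h1 | h1
  · exact absurd ⟨h1.1, h1.2.1⟩ c1
  · exact absurd ⟨h1.1, h1.2.1⟩ c2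

theorem ELight_sep {Y : Type} [TopologicalSpace Y] [T2Space Y] [CompactSpace Y] {Z B : Set Y}
    (hB : B.Finite) (f : Y → ℂ) (hf : ContinuousOn f (closure Z \ B))
    (h0 : ∀ y ∈ closure Z \ B, f y ≠ 0) (O : Y → Set Y) (hO : ∀ y ∈ B, IsOpen (O y) ∧ y ∈ O y) :
    ∃ ρ : ℝ, 0 < ρ ∧ ∀ γ : C(I, Y), (∀ s, γ s ∈ Z ∧ ‖f (γ s)‖ < ρ) →
      ∃ y ∈ B, ∀ s, γ s ∈ O y := by
  obtain ⟨U, hU, hd⟩ := hB.t2_separation
  have o1 : ∀ y ∈ B, IsOpen (O y ∩ U y) := fun y hy => (hO y hy).1.inter (hU y).2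
  have o2 : IsOpen (⋃ y ∈ B, O y ∩ U y) := isOpen_biUnion o1
  have hK : IsCompact (closure Z \ ⋃ y ∈ B, O y ∩ U y) := isClosed_closure.isCompact.diff o2
  have sub : (closure Z \ ⋃ y ∈ B, O y ∩ U y) ⊆ closure Z \ B := fun x hx =>
    ⟨hx.1, fun h => hx.2 (Set.mem_biUnion h ⟨(hO x h).2, (hU x).1⟩)⟩
  obtain ⟨ρ, hρ, h1⟩ := hK.exists_forall_le' (f := fun x => ‖f x‖) (hf.mono sub).norm (a := 0)
    fun x hx => norm_pos_iff.2 (h0 x (sub hx))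
  refine ⟨ρ, hρ, fun γ hγ => ?_⟩
  have h2 : ∀ s, γ s ∈ ⋃ y ∈ B, O y ∩ U y := fun s => by
    by_contra h
    exact (h1 _ ⟨subset_closure (hγ s).1, h⟩).not_gt (hγ s).2
  obtain ⟨y, hy, h3⟩ := Set.mem_iUnion₂.1 (h2 0)
  refine ⟨y, hy, fun s => ?_⟩
  refine (IsPreconnected.subset_left_of_subset_union (s := Set.range γ) (o1 y hy)
    (isOpen_biUnion fun y' (hy' : y' ∈ B \ {y}) => o1 y' hy'.1) ?_ ?_ ⟨γ 0, ⟨0, rfl⟩, h3⟩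
    (isPreconnected_range γ.continuous) ⟨s, rfl⟩).1
  · rw [Set.disjoint_iUnion₂_right]
    exact fun y' hy' => (hd hy hy'.1 fun e => hy'.2 e.symm).mono Set.inter_subset_right
      Set.inter_subset_right
  · rintro _ ⟨s', rfl⟩
    obtain ⟨y', hy', h5⟩ := Set.mem_iUnion₂.1 (h2 s')
    by_cases e : y' = y
    · exact Or.inl (e ▸ h5)
    · exact Or.inr (Set.mem_biUnion (show y' ∈ B \ {y} from ⟨hy', e⟩) h5)

theorem Dat.Good.light_gen (hG : D.Good M t) {y0 : D.UY t} {ε : ℝ} (hε : 0 < ε) (k : D.Ix → ℤ)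
    (Z : Set (Zt t)) (hZ : Z ⊆ D.F0 t y0 ε) (B : Set (Zt t)) (hB : B.Finite)
    (hcl : closure Z ⊆ Z ∪ B) (hun : ∀ y ∈ Z, (la t y).Un (D.mono k)) (n : ℤ)
    (h : ∃ ρ : ℝ, 0 < ρ ∧ ∀ w : ℂ, w ≠ 0 → ‖w‖ < ρ → ∃ β : ℝ, 0 < β ∧ ∀ γ : C(I, D.UY t),
      γ 0 ∈ D.Cp t y0 ε → ‖(D.prU t (γ 0)).1.1‖ < β →
      (∀ s : I, (D.prU t (γ s)).1.1 = (D.prU t (γ 0)).1.1 ∧
        (la t (γ s).1).ev (D.mono k) = w * ex (n * s)) → γ 1 = γ 0) :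
    Light (fun y : Z => (la t y.1).ev (D.mono k)) 0 n := by
  have := Zt.t2 t
  have := Zt.compact t
  obtain ⟨ρ0, hρ0, h⟩ := h
  have hcF : closure Z ⊆ D.F0 t y0 ε := closure_minimal hZ (hG.isClosed_F0 y0 ε)
  have hB' : {y | y ∈ closure Z ∧ ¬ (la t y).Un (D.mono k)}.Finite :=
    hB.subset fun y hy => (hcl hy.1).resolve_left fun h1 => hy.2 (hun y h1)
  have hu : ∀ y ∈ closure Z \ {y | y ∈ closure Z ∧ ¬ (la t y).Un (D.mono k)},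
      (la t y).Un (D.mono k) := fun y hy => by_contra fun h1 => hy.2 ⟨hy.1, h1⟩
  choose! O o1 o2 o3 using fun y (hy : y ∈ {y | y ∈ closure Z ∧ ¬ (la t y).Un (D.mono k)}) =>
    ELight_loc hG hε k n (hcF hy.1) hy.2
  obtain ⟨ρ1, hρ1, h1⟩ := ELight_sep hB' (fun y => (la t y).ev (D.mono k))
    ((continuousOn_ev t _).mono fun y hy => (hu y hy).1) (fun y hy => (hu y hy).2) O
    fun y hy => ⟨o1 y hy, o2 y hy⟩
  refine ⟨min ρ0 ρ1, lt_min hρ0 hρ1, fun w hw γ hγ => ?_⟩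
  simp only [zero_add] at hγ
  have hw0 : w ≠ 0 := fun e => (hun _ (γ 0).2).2 (by rw [hγ 0, e, zero_mul])
  obtain ⟨β, hβ, h2⟩ := h w hw0 (hw.trans_le (min_le_left _ _))
  let γ' : C(I, Zt t) := ⟨fun s => (γ s).1, continuous_subtype_val.comp γ.continuous⟩
  obtain ⟨y, hy, h3⟩ := h1 γ' fun s => ⟨(γ s).2, by
    change ‖(la t (γ s).1).ev (D.mono k)‖ < ρ1
    rw [hγ s, norm_mul, norm_ex, mul_one]
    exact hw.trans_le (min_le_right _ _)⟩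
  exact Subtype.ext (o3 y hy w β hw0 hβ h2 γ' fun s =>
    ⟨h3 s, (hZ (γ s).2).1, hun _ (γ s).2, hγ s⟩)


theorem ELight_N (B : ℂ) : ‖av 0 B‖ = 0 ∧ ‖av 1 B‖ = ‖B‖ ^ 2 ∧ ‖av 2 B‖ = ‖B‖ ∧ ‖av 3 B‖ = 1 ∧
    1 - ‖B‖ ≤ ‖av 4 B‖ ∧ ‖av 4 B‖ ≤ 1 + ‖B‖ ∧ ‖av 3 B - av 4 B‖ = ‖B‖ ∧
    ‖av 4 B - av 3 B‖ = ‖B‖ := by
  have h1 : ‖(1 : ℂ)‖ - ‖B‖ ≤ ‖1 + B‖ := norm_sub_le_norm_add 1 B
  have h2 := norm_add_le 1 B
  rw [norm_one] at h1 h2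
  refine ⟨norm_zero, norm_pow B 2, rfl, norm_one, h1, h2, ?_, ?_⟩
  · change ‖1 - (1 + B)‖ = _
    rw [sub_add_cancel_left, norm_neg]
  · change ‖1 + B - 1‖ = _
    rw [add_sub_cancel_left]

theorem ELight_one {B : ℂ} (hB : ‖B‖ ≤ 1 / 4) (a : Fin 5) {R : ℝ} (h0 : 0 < R)
    (h : R ≤ ‖B‖ ^ 2 / 2 ∨ (a ≠ 0 ∧ a ≠ 1 ∧ R ≤ ‖B‖ / 2)) (l : Fin 5) :
    l ∈ ({a} : Set (Fin 5)) ↔ ‖av l B - av a B‖ < R := by
  refine ⟨fun e => by rw [Set.mem_singleton_iff.1 e, sub_self, norm_zero]; exact h0, fun e => ?_⟩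
  by_contra hl
  have h1 := norm_sub_norm_le (av l B) (av a B)
  have h2 := norm_sub_norm_le (av a B) (av l B)
  rw [norm_sub_rev] at h2
  obtain ⟨n0, n1, n2, n3, n4, -, n5, n6⟩ := ELight_N B
  have h3 : ‖B‖ ^ 2 ≤ ‖B‖ / 4 := by nlinarith [norm_nonneg B]
  have h4 : R ≤ ‖B‖ / 2 := by
    rcases h with h | h
    · linarith [norm_nonneg B]
    · exact h.2.2
  have h5 : a = 0 ∨ a = 1 → R ≤ ‖B‖ ^ 2 / 2 := fun e =>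
    h.resolve_right fun h' => e.elim h'.1 h'.2.1
  have h6 := sq_nonneg ‖B‖
  have h7 := norm_nonneg B
  have c : ∀ i : Fin 5, i = 0 ∨ i = 1 ∨ i = 2 ∨ i = 3 ∨ i = 4 := by decide
  rcases c l with rfl | rfl | rfl | rfl | rfl <;> rcases c a with rfl | rfl | rfl | rfl | rfl <;>
    first
    | exact hl rfl
    | linarith
    | linarith [h5 (Or.inl rfl)]
    | linarith [h5 (Or.inr rfl)]

theorem ELight_three {B : ℂ} {R : ℝ} (h1 : ‖B‖ < R) (h2 : R ≤ 1 / 2) (l : Fin 5) :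
    l ∈ ({0, 1, 2} : Set (Fin 5)) ↔ ‖av l B - av 0 B‖ < R := by
  obtain ⟨n0, n1, n2, n3, n4, -⟩ := ELight_N B
  have h3 : ‖B‖ ^ 2 ≤ ‖B‖ := by nlinarith [norm_nonneg B]
  have h7 := norm_nonneg B
  have e : av l B - av 0 B = av l B := sub_zero _
  rw [e]
  have c : ∀ i : Fin 5, i = 0 ∨ i = 1 ∨ i = 2 ∨ i = 3 ∨ i = 4 := by decide
  rcases c l with rfl | rfl | rfl | rfl | rfl
  · exact ⟨fun _ => by linarith, fun _ => by simp⟩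
  · exact ⟨fun _ => by linarith, fun _ => by simp⟩
  · exact ⟨fun _ => by linarith, fun _ => by simp⟩
  · exact ⟨fun h => by simp at h, fun _ => by linarith⟩
  · exact ⟨fun h => by simp at h, fun _ => by linarith⟩

theorem ELight_all {B : ℂ} {R : ℝ} (h1 : ‖B‖ ≤ 1 / 4) (h2 : 2 ≤ R) (l : Fin 5) :
    l ∈ (Set.univ : Set (Fin 5)) ↔ ‖av l B - av 0 B‖ < R := by
  obtain ⟨n0, n1, n2, n3, -, n4, -⟩ := ELight_N B
  have h3 : ‖B‖ ^ 2 ≤ ‖B‖ := by nlinarith [norm_nonneg B]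
  have e : av l B - av 0 B = av l B := sub_zero _
  rw [e]
  refine ⟨fun _ => ?_, fun _ => trivial⟩
  have c : ∀ i : Fin 5, i = 0 ∨ i = 1 ∨ i = 2 ∨ i = 3 ∨ i = 4 := by decide
  rcases c l with rfl | rfl | rfl | rfl | rfl <;> linarith

omit [Fintype ι] in
theorem ELight_b (y : D.UY t) : (la t y.1).Un D.b :=
  ⟨(Dat.IsU.mem y.2).1, fun h => (Dat.IsU.mem y.2).2.2.1.1 (by
    change (la t y.1).ev D.b ∈ D.S
    rw [h]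
    exact eloc_zero D)⟩

omit [Fintype ι] in
theorem ELight_xi (y : D.UY t) (k : Fin 4) : (la t y.1).Un (D.xiV k) ∧
    (D.prU t y).1.2 = av (vtx k).1 (D.prU t y).1.1 +
      (D.prU t y).1.1 ^ (vtx k).2.2 * (la t y.1).ev (D.xiV k) := by
  have h1 := (ELight_b y).zpow (-((vtx k).2.2 : ℤ))
  have h2 : (la t y.1).Un (D.x - av (vtx k).1 D.b) := y.2 (Sum.inr (vtx k).1)
  have h3 : D.xiV k = (D.x - av (vtx k).1 D.b) * D.b ^ (-((vtx k).2.2 : ℤ)) := by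
    rw [Dat.xiV, zpow_neg, zpow_natCast, div_eq_mul_inv]
  refine ⟨h3 ▸ h2.mul h1.1, ?_⟩
  rw [h3, (la t y.1).ev_mul _ h2.1 _ h1.1.1, h1.2, (Dat.IsU.mem y.2).2.2.2.2, zpow_neg,
    zpow_natCast]
  have h4 := pow_ne_zero (vtx k).2.2 (ELight_b y).2
  change (la t y.1).ev D.x = av (vtx k).1 ((la t y.1).ev D.b) + (la t y.1).ev D.b ^ (vtx k).2.2 * _
  field_simp
  ring

theorem ELight_av (k : Fin 4) (B : ℂ) :
    av (vtx k).2.1 B = av (vtx k).1 B + B ^ (vtx k).2.2 := by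
  fin_cases k <;> simp [vtx, av]

theorem ELight_wrap (hG : D.Good M t) {y0 : D.UY t} {ε : ℝ} (hε : 0 < ε) (hL : D.HL t y0 ε)
    (k : Fin 4) {f : Ω} (hf : ∃ n, f = D.mono n) (hun : ∀ y ∈ D.Str t (D.xiV k), (la t y).Un f)
    (n : ℤ) (a : Fin 5) (g : ℂ → ℂ) (J : Set (Fin 5))
    (hJ : (∃ i, J = {i}) ∨ J = {0, 1, 2} ∨ J = Set.univ)
    (hx : ∀ (y : D.UY t) (w : ℂ) (s : ℝ), (la t y.1).ev f = w * ex (n * s) →
      (D.prU t y).1.2 = av a (D.prU t y).1.1 + (D.prU t y).1.1 ^ (vtx k).2.2 * g w * ex (2 * s))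
    (hn : ∀ w : ℂ, w ≠ 0 → ‖w‖ < 1 / 2 → ∃ β : ℝ, 0 < β ∧ ∀ B : ℂ, B ≠ 0 → ‖B‖ < β →
      ∀ l, l ∈ J ↔ ‖av l B - av a B‖ < ‖B‖ ^ (vtx k).2.2 * ‖g w‖) :
    Light (fun y : (D.Str t (D.xiV k) ∩ D.F0 t y0 ε : Set (Zt t)) => (la t y.1).ev f) 0 n := by
  obtain ⟨m, rfl⟩ := hf
  obtain ⟨-, -, B, hB, hcl⟩ := hG.str_cover (Or.inl ⟨k, rfl⟩)
  refine hG.light_gen hε m _ Set.inter_subset_right B hB (fun y hy => ?_)
    (fun y hy => hun y hy.1) n ⟨1 / 2, one_half_pos, fun w h0 h1 => ?_⟩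
  · rcases hcl (closure_mono Set.inter_subset_left hy) with h | h
    · exact Or.inl ⟨h, closure_minimal Set.inter_subset_right (hG.isClosed_F0 y0 ε) hy⟩
    · exact Or.inr h
  · obtain ⟨β, hβ, h2⟩ := hn w h0 h1
    refine ⟨β, hβ, fun γ g0 g1 g2 => hL γ g0 (av a (D.prU t (γ 0)).1.1)
      ((D.prU t (γ 0)).1.1 ^ (vtx k).2.2 * g w) J (fun s => Prod.ext (g2 s).1 ?_) (fun l => ?_) hJ⟩
    · rw [hx _ w s (g2 s).2, (g2 s).1]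
    · rw [norm_mul, norm_pow]
      exact h2 _ (ELight_b (γ 0)).2 g1 l

theorem ELight_zero (hG : D.Good M t) {y0 : D.UY t} {ε : ℝ} (hε : 0 < ε) (hL : D.HL t y0 ε)
    (k : Fin 4) (J : Set (Fin 5)) (hJ : (∃ i, J = {i}) ∨ J = {0, 1, 2} ∨ J = Set.univ)
    (hn : ∀ w : ℂ, w ≠ 0 → ‖w‖ < 1 / 2 → ∃ β : ℝ, 0 < β ∧ ∀ B : ℂ, B ≠ 0 → ‖B‖ < β →
      ∀ l, l ∈ J ↔ ‖av l B - av (vtx k).1 B‖ < ‖B‖ ^ (vtx k).2.2 * ‖w‖) :
    Light (fun y : (D.Str t (D.xiV k) ∩ D.F0 t y0 ε : Set (Zt t)) =>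
      (la t y.1).ev (D.xiV k)) 0 2 :=
  ELight_wrap hG hε hL k (Dat.xiV_mono (ELight_b y0).ne_zero k).1
    (fun y hy => ⟨hy.2.1, hy.2.2.1⟩) 2 _ id J hJ (fun y w s h => by
      rw [(ELight_xi y k).2, h, mul_assoc]
      simp) hn

theorem ELight_unit (hG : D.Good M t) {y0 : D.UY t} {ε : ℝ} (hε : 0 < ε) (hL : D.HL t y0 ε)
    (k : Fin 4) (J : Set (Fin 5)) (hJ : (∃ i, J = {i}) ∨ J = {0, 1, 2} ∨ J = Set.univ)
    (hn : ∀ w : ℂ, w ≠ 0 → ‖w‖ < 1 / 2 → ∃ β : ℝ, 0 < β ∧ ∀ B : ℂ, B ≠ 0 → ‖B‖ < β →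
      ∀ l, l ∈ J ↔ ‖av l B - av (vtx k).2.1 B‖ < ‖B‖ ^ (vtx k).2.2 * ‖w‖) :
    Light (fun y : (D.Str t (D.xiV k) ∩ D.F0 t y0 ε : Set (Zt t)) =>
      (la t y.1).ev (D.xiV k)) 1 2 := by
  have e : ∀ y : Zt t, D.xiV k ∈ (la t y).O →
      (la t y).ev (D.xiV k - 1) = (la t y).ev (D.xiV k) - 1 := fun y hy => by
    rw [LA.ev_sub hy (la t y).O.one_mem, LA.ev_one]
  obtain ⟨ρ, hρ, h⟩ := ELight_wrap hG hε hL k (Dat.xiV_mono (ELight_b y0).ne_zero k).2.1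
    (fun y hy => ⟨(la t y).O.sub_mem hy.2.1 (la t y).O.one_mem, by
      rw [e y hy.2.1]
      exact sub_ne_zero.2 hy.2.2.2⟩) 2 _ id J hJ (fun y w s h => by
      rw [e _ (ELight_xi y k).1.1, sub_eq_iff_eq_add] at h
      rw [(ELight_xi y k).2, h, ELight_av]
      simp only [id, Int.cast_ofNat]
      ring) hn
  refine ⟨ρ, hρ, fun w hw γ hγ => h w hw γ fun s => ?_⟩
  have h1 := hγ s
  beta_reduce at h1 ⊢
  rw [e _ (γ s).2.1.2.1, h1]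
  ring

theorem ELight_inf (hG : D.Good M t) {y0 : D.UY t} {ε : ℝ} (hε : 0 < ε) (hL : D.HL t y0 ε)
    (k : Fin 4) (J : Set (Fin 5)) (hJ : (∃ i, J = {i}) ∨ J = {0, 1, 2} ∨ J = Set.univ)
    (hn : ∀ w : ℂ, w ≠ 0 → ‖w‖ < 1 / 2 → ∃ β : ℝ, 0 < β ∧ ∀ B : ℂ, B ≠ 0 → ‖B‖ < β →
      ∀ l, l ∈ J ↔ ‖av l B - av (vtx k).1 B‖ < ‖B‖ ^ (vtx k).2.2 * ‖w⁻¹‖) :
    LightInf (fun y : (D.Str t (D.xiV k) ∩ D.F0 t y0 ε : Set (Zt t)) =>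
      (la t y.1).ev (D.xiV k)) 2 := by
  have e : ∀ s : ℝ, ex (((-2 : ℤ) : ℝ) * s) = (ex (2 * s))⁻¹ := fun s =>
    eq_inv_of_mul_eq_one_left (by
      rw [← ex_add, ← ex_zero]
      congr 1
      push_cast
      ring)
  obtain ⟨ρ, hρ, h⟩ := ELight_wrap hG hε hL k (Dat.xiV_mono (ELight_b y0).ne_zero k).2.2
    (fun y hy => (LA.Un.inv ⟨hy.2.1, hy.2.2.1⟩).1) (-2) _ (fun w => w⁻¹) J hJ (fun y w s h => by
      rw [(ELight_xi y k).1.inv.2, e, inv_eq_iff_eq_inv, mul_inv, inv_inv] at h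
      rw [(ELight_xi y k).2, h, mul_assoc]) hn
  refine ⟨ρ⁻¹, fun w hw γ hγ => h w⁻¹ ?_ γ fun s => ?_⟩
  · rw [norm_inv]
    exact inv_lt_of_inv_lt₀ hρ hw
  · have h1 := hγ s
    beta_reduce at h1 ⊢
    rw [(LA.Un.inv ⟨(γ s).2.1.2.1, (γ s).2.1.2.2.1⟩).2, h1, e, zero_add, mul_inv]
    simp

theorem Dat.Good.small (hG : D.Good M t) {y0 : D.UY t} {ε : ℝ} (hε : 0 < ε) (hL : D.HL t y0 ε)
    {ξ : Ω} (hξ : D.Adm ξ) :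
    Small fun y : (D.Str t ξ ∩ D.F0 t y0 ε : Set (Zt t)) => (la t y.1).ev ξ := by
  rcases hξ with ⟨k, rfl⟩ | hξ
  swap
  · exact Or.inr (Or.inr (Or.inr (hG.light_edge hξ _ Set.inter_subset_left)))
  have two : ∀ (a : Fin 5) (w : ℂ), w ≠ 0 → ‖w‖ < 1 / 2 → ∃ β : ℝ, 0 < β ∧ ∀ B : ℂ, B ≠ 0 →
      ‖B‖ < β → ∀ l, l ∈ ({a} : Set (Fin 5)) ↔ ‖av l B - av a B‖ < ‖B‖ ^ 2 * ‖w‖ :=
    fun a w h0 h1 => ⟨1 / 4, by norm_num, fun B h2 h3 => ELight_one h3.le a (by positivity)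
      (Or.inl (by nlinarith [sq_nonneg ‖B‖]))⟩
  have one : ∀ (a : Fin 5), a ≠ 0 → a ≠ 1 → ∀ w : ℂ, w ≠ 0 → ‖w‖ < 1 / 2 → ∃ β : ℝ, 0 < β ∧
      ∀ B : ℂ, B ≠ 0 → ‖B‖ < β → ∀ l, l ∈ ({a} : Set (Fin 5)) ↔
        ‖av l B - av a B‖ < ‖B‖ ^ 1 * ‖w‖ :=
    fun a a0 a1 w h0 h1 => ⟨1 / 4, by norm_num, fun B h2 h3 => ELight_one h3.le a (by positivity)
      (Or.inr ⟨a0, a1, by nlinarith [norm_nonneg B]⟩)⟩
  have c : ∀ i : Fin 4, i = 0 ∨ i = 1 ∨ i = 2 ∨ i = 3 := by decide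
  rcases c k with rfl | rfl | rfl | rfl
  · exact Or.inl ⟨ELight_zero hG hε hL 0 {0} (Or.inl ⟨_, rfl⟩) (two 0),
      ELight_unit hG hε hL 0 {1} (Or.inl ⟨_, rfl⟩) (two 1)⟩
  · refine Or.inr (Or.inr (Or.inl ⟨ELight_unit hG hε hL 1 {2} (Or.inl ⟨_, rfl⟩)
      (one 2 (by decide) (by decide)), ELight_inf hG hε hL 1 {0, 1, 2} (Or.inr (Or.inl rfl))
        fun w h0 h1 => ⟨‖w‖ / 2, by positivity, fun B h2 h3 => ELight_three ?_ ?_⟩⟩))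
    · change ‖B‖ < ‖B‖ ^ 1 * ‖w⁻¹‖
      rw [pow_one, norm_inv, ← div_eq_mul_inv, lt_div_iff₀ (norm_pos_iff.2 h0)]
      nlinarith [norm_pos_iff.2 h2]
    · change ‖B‖ ^ 1 * ‖w⁻¹‖ ≤ 1 / 2
      rw [pow_one, norm_inv, ← div_eq_mul_inv, div_le_iff₀ (norm_pos_iff.2 h0)]
      linarith
  · refine Or.inr (Or.inl ⟨ELight_zero hG hε hL 2 {0, 1, 2} (Or.inr (Or.inl rfl))
      fun w h0 h1 => ⟨‖w‖, norm_pos_iff.2 h0, fun B h2 h3 => ELight_three ?_ ?_⟩,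
      ELight_inf hG hε hL 2 Set.univ (Or.inr (Or.inr rfl))
        fun w h0 h1 => ⟨1 / 4, by norm_num, fun B h2 h3 => ELight_all h3.le ?_⟩⟩)
    · change ‖B‖ < ‖B‖ ^ 0 * ‖w‖
      rwa [pow_zero, one_mul]
    · change ‖B‖ ^ 0 * ‖w‖ ≤ 1 / 2
      rw [pow_zero, one_mul]
      exact h1.le
    · change 2 ≤ ‖B‖ ^ 0 * ‖w⁻¹‖
      rw [pow_zero, one_mul, norm_inv, ← one_div, le_div_iff₀ (norm_pos_iff.2 h0)]
      linarith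
  · exact Or.inl ⟨ELight_zero hG hε hL 3 {3} (Or.inl ⟨_, rfl⟩) (one 3 (by decide) (by decide)),
      ELight_unit hG hε hL 3 {4} (Or.inl ⟨_, rfl⟩) (one 4 (by decide) (by decide))⟩

end Vale.Agent.P300
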