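import Vale.Agent.P300.TUniv

/-! P300: punctured bidiscs and monomial normal forms. -/

noncomputable section

namespace Vale.Agent.P300

open unitInterval

/-- the bidisc with some of the axes removed -/
def PD (ρ : ℝ) (A B : Prop) : Set (ℂ × ℂ) :=
  {η | η ∈ Metric.ball (0 : ℂ × ℂ) ρ ∧ (A → η.1 ≠ 0) ∧ (B → η.2 ≠ 0)}

theorem EPD_mem {ρ : ℝ} {A B : Prop} (η : ℂ × ℂ) : η ∈ PD ρ A B ↔
    (‖η.1‖ < ρ ∧ (A → η.1 ≠ 0)) ∧ (‖η.2‖ < ρ ∧ (B → η.2 ≠ 0)) := by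
  simp only [PD, Set.mem_ofPred_eq, mem_ball_zero_iff, Prod.norm_def, max_lt_iff]
  tauto

/-- universal cover of a disc or of a punctured disc -/
theorem EPD_cover (ρ : ℝ) (A : Prop) : ∃ (f : ℂ → ℂ) (X : Set ℂ) (T : ℂ), Continuous f ∧
    Convex ℝ X ∧ (∀ x ∈ X, ‖f x‖ < ρ ∧ (A → f x ≠ 0)) ∧ (∀ x ∈ X, ∀ r : ℝ, x + r * T ∈ X) ∧
    (∀ x, f (x + T) = f x) ∧
    (∀ c : I → ℂ, Continuous c → (∀ s, ‖c s‖ < ρ ∧ (A → c s ≠ 0)) →
      ∃ l : I → ℂ, Continuous l ∧ ∀ s, l s ∈ X ∧ f (l s) = c s) ∧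
    (∀ x y, f y = f x → ∃ k : ℤ, y = x + k * T) ∧ (¬ A → T = 0) ∧
    (A → ∀ x (r : ℝ), f (x + r * T) = f x * ex r) := by
  by_cases hA : A
  · refine ⟨Complex.exp, {x | Real.exp x.re < ρ}, 2 * Real.pi * Complex.I,
      Complex.continuous_exp, ?_, ?_, ?_, ?_, ?_, ?_, fun h => absurd hA h, ?_⟩
    · intro x hx y hy a b ha hb hab
      have hx' : Real.exp x.re < ρ := hx
      have hy' : Real.exp y.re < ρ := hy
      have h1 : (a • x + b • y).re ≤ max x.re y.re := by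
        have h2 := le_max_left x.re y.re
        have h3 := le_max_right x.re y.re
        have h4 : (a • x + b • y).re = a * x.re + b * y.re := by simp
        have h5 : max x.re y.re = a * max x.re y.re + b * max x.re y.re := by
          rw [← add_mul, hab, one_mul]
        rw [h4, h5]
        exact add_le_add (mul_le_mul_of_nonneg_left h2 ha) (mul_le_mul_of_nonneg_left h3 hb)
      show Real.exp (a • x + b • y).re < ρ
      refine (Real.exp_le_exp.2 h1).trans_lt ?_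
      rcases max_choice x.re y.re with h | h
      · rwa [h]
      · rwa [h]
    · intro x hx
      exact ⟨by rwa [Complex.norm_exp], fun _ => x.exp_ne_zero⟩
    · intro x hx r
      have h1 : (x + r * (2 * Real.pi * Complex.I)).re = x.re := by simp
      show Real.exp (x + r * (2 * Real.pi * Complex.I)).re < ρ
      rw [h1]
      exact hx
    · exact fun x => Complex.exp_periodic x
    · intro c hc h
      obtain ⟨l, -, hl⟩ := tuniv_log ⟨fun s => ⟨c s, (h s).2 hA⟩, hc.subtype_mk _⟩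
        (Complex.exp_log ((h 0).2 hA))
      refine ⟨l, l.continuous, fun s => ⟨?_, hl s⟩⟩
      have h1 : Complex.exp (l s) = c s := hl s
      show Real.exp (l s).re < ρ
      rw [← Complex.norm_exp, h1]
      exact (h s).1
    · exact fun x y h => Complex.exp_eq_exp_iff_exists_int.1 h
    · intro _ x r
      rw [Complex.exp_add, ex, mul_comm (r : ℂ)]
  · refine ⟨id, Metric.ball 0 ρ, 0, continuous_id, convex_ball _ _, ?_, ?_, ?_, ?_, ?_,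
      fun _ => rfl, fun h => absurd h hA⟩
    · exact fun x hx => ⟨mem_ball_zero_iff.1 hx, fun h => absurd h hA⟩
    · intro x hx r
      rwa [mul_zero, add_zero]
    · exact fun x => add_zero x
    · exact fun c hc h => ⟨c, hc, fun s => ⟨mem_ball_zero_iff.2 (h s).1, rfl⟩⟩
    · intro x y h
      exact ⟨0, by rw [mul_zero, add_zero]; exact h⟩

theorem isPathConnected_PD {ρ : ℝ} (hρ : 0 < ρ) (A B : Prop) : IsPathConnected (PD ρ A B) := by
  obtain ⟨f, X, T, hf, hX, hfX, -, -, hl, -⟩ := EPD_cover ρ A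
  obtain ⟨g, Y, U, hg, hY, hgY, -, -, hm, -⟩ := EPD_cover ρ B
  have surj : ∀ η ∈ PD ρ A B, ∃ v ∈ X ×ˢ Y, (f v.1, g v.2) = η := by
    intro η hη
    obtain ⟨h1, h2⟩ := (EPD_mem η).1 hη
    obtain ⟨l, -, hl'⟩ := hl (fun _ => η.1) continuous_const fun _ => h1
    obtain ⟨m, -, hm'⟩ := hm (fun _ => η.2) continuous_const fun _ => h2
    exact ⟨(l 0, m 0), ⟨(hl' 0).1, (hm' 0).1⟩, Prod.ext (hl' 0).2 (hm' 0).2⟩
  have e : PD ρ A B = (fun v : ℂ × ℂ => (f v.1, g v.2)) '' (X ×ˢ Y) := by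
    refine Set.Subset.antisymm surj ?_
    rintro _ ⟨v, hv, rfl⟩
    exact (EPD_mem _).2 ⟨hfX _ hv.1, hgY _ hv.2⟩
  have h0 : ‖((ρ / 2 : ℝ) : ℂ)‖ < ρ ∧ ((ρ / 2 : ℝ) : ℂ) ≠ 0 := by
    constructor
    · rw [Complex.norm_real, Real.norm_of_nonneg (by linarith)]
      linarith
    · exact Complex.ofReal_ne_zero.2 (by linarith)
  obtain ⟨v, hv, -⟩ := surj (((ρ / 2 : ℝ) : ℂ), ((ρ / 2 : ℝ) : ℂ))
    ((EPD_mem _).2 ⟨⟨h0.1, fun _ => h0.2⟩, ⟨h0.1, fun _ => h0.2⟩⟩)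
  rw [e]
  exact ((hX.prod hY).isPathConnected ⟨v, hv⟩).image (by fun_prop)

/-- invariance of the potential under a deck translation which fixes it at one point -/
theorem EPD_transl {Z G : Type} [TopologicalSpace Z] [Group G] (ν : Mono Z G) {X : Set (ℂ × ℂ)}
    (hX : Convex ℝ X) (F : ℂ × ℂ → Z) (hF : ContinuousOn F X) (e : ℂ × ℂ → G)
    (he : ∀ (γ : C(I, Z)) (c : I → ℂ × ℂ), Continuous c → (∀ s, c s ∈ X) →
      (∀ s, γ s = F (c s)) → ν.m γ = (e (c 0))⁻¹ * e (c 1))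
    (T : ℂ × ℂ) (hT : ∀ x ∈ X, ∀ r : ℝ, x + r • T ∈ X) (hFT : ∀ x ∈ X, F (x + T) = F x)
    (h0 : ∃ x ∈ X, e (x + T) = e x) (y : ℂ × ℂ) (hy : y ∈ X) (k : ℤ) :
    e (y + (k : ℝ) • T) = e y := by
  obtain ⟨x, hx, h0⟩ := h0
  have one : ∀ y ∈ X, e (y + T) = e y := by
    intro y hy
    have hc : Continuous fun s : I => x + (s : ℝ) • (y - x) := by fun_prop
    have hcX : ∀ s : I, x + (s : ℝ) • (y - x) ∈ X := fun s => hX.add_smul_sub_mem hx hy s.2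
    have h1 := he ⟨fun s => F (x + (s : ℝ) • (y - x)), hF.comp_continuous hc hcX⟩ _ hc hcX
      fun _ => rfl
    have h2 := he ⟨fun s => F (x + (s : ℝ) • (y - x)), hF.comp_continuous hc hcX⟩
      (fun s => x + (s : ℝ) • (y - x) + T) (by fun_prop) (fun s => by
        have h3 := hT _ (hcX s) 1
        rwa [one_smul] at h3) fun s => (hFT _ (hcX s)).symm
    rw [h1] at h2
    simp only [Set.Icc.coe_zero, Set.Icc.coe_one, zero_smul, add_zero, one_smul,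
      add_sub_cancel] at h2
    rw [h0] at h2
    exact (mul_left_cancel h2).symm
  have h1 := Mono.TMono_pow (fun k : ℤ => e (y + (k : ℝ) • T)) 1 (fun k => by
    have h2 := one _ (hT y hy k)
    rw [mul_one, ← h2, Int.cast_add, Int.cast_one, add_smul, one_smul, add_assoc]) k
  simpa using h1

theorem PD_triv {ρ : ℝ} {A B : Prop} {G : Type} [Group G] (ν : Mono (PD ρ A B) G)
    (h1 : A → ∃ (γ : C(I, PD ρ A B)) (w v : ℂ), (∀ s : I, (γ s).1 = (w * ex s, v)) ∧ ν.m γ = 1)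
    (h2 : B → ∃ (γ : C(I, PD ρ A B)) (w u : ℂ), (∀ s : I, (γ s).1 = (u, w * ex s)) ∧ ν.m γ = 1)
    (γ : C(I, PD ρ A B)) (hγ : γ 1 = γ 0) : ν.m γ = 1 := by
  classical
  obtain ⟨f, X, T, hf, hX, hfX, hXT, hfT, hl, hfk, hT0, hfA⟩ := EPD_cover ρ A
  obtain ⟨g, Y, U, hg, hY, hgY, hYU, hgU, hm, hgk, hU0, hgB⟩ := EPD_cover ρ B
  obtain ⟨F, hF⟩ : ∃ F : ℂ × ℂ → PD ρ A B, ∀ v ∈ X ×ˢ Y, (F v).1 = (f v.1, g v.2) :=
    ⟨fun v => if h : v ∈ X ×ˢ Y then ⟨(f v.1, g v.2), (EPD_mem _).2 ⟨hfX _ h.1, hgY _ h.2⟩⟩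
      else γ 0, fun v hv => by simp only [dif_pos hv]⟩
  have hFc : ContinuousOn F (X ×ˢ Y) := by
    rw [Topology.IsInducing.subtypeVal.continuousOn_iff]
    exact ContinuousOn.congr (f := fun v : ℂ × ℂ => (f v.1, g v.2)) (by fun_prop) hF
  obtain ⟨e, he⟩ := ν.cobdry_convex (hX.prod hY) F hFc
  have lift : ∀ δ : C(I, PD ρ A B), ∃ l m : I → ℂ, Continuous l ∧ Continuous m ∧
      ∀ s, l s ∈ X ∧ m s ∈ Y ∧ f (l s) = (δ s).1.1 ∧ g (m s) = (δ s).1.2 := by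
    intro δ
    obtain ⟨l, a1, a2⟩ := hl (fun s => (δ s).1.1) (by fun_prop)
      fun s => ((EPD_mem _).1 (δ s).2).1
    obtain ⟨m, b1, b2⟩ := hm (fun s => (δ s).1.2) (by fun_prop)
      fun s => ((EPD_mem _).1 (δ s).2).2
    exact ⟨l, m, a1, b1, fun s => ⟨(a2 s).1, (b2 s).1, (a2 s).2, (b2 s).2⟩⟩
  have m1 : ∀ x ∈ X ×ˢ Y, ∀ r : ℝ, x + r • ((T, 0) : ℂ × ℂ) ∈ X ×ˢ Y := by
    intro x hx r
    refine ⟨?_, ?_⟩
    · simpa using hXT _ hx.1 r
    · simpa using hx.2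
  have m2 : ∀ x ∈ X ×ˢ Y, ∀ r : ℝ, x + r • ((0, U) : ℂ × ℂ) ∈ X ×ˢ Y := by
    intro x hx r
    refine ⟨?_, ?_⟩
    · simpa using hx.1
    · simpa using hYU _ hx.2 r
  obtain ⟨l, m, hlc, hmc, hlm⟩ := lift γ
  have t1 := EPD_transl ν (hX.prod hY) F hFc e he (T, 0) m1 (fun x hx => by
    have h3 := m1 x hx 1
    rw [one_smul] at h3
    apply Subtype.ext
    rw [hF _ h3, hF _ hx]
    simp [hfT]) (by
    by_cases hA : A
    · obtain ⟨δ, w, v, hδ, hδ1⟩ := h1 hA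
      obtain ⟨l', m', -, -, h3⟩ := lift δ
      obtain ⟨a1, a2, a3, a4⟩ := h3 0
      rw [hδ 0] at a3 a4
      simp only [Set.Icc.coe_zero, ex_zero, mul_one] at a3 a4
      have hx : (l' 0, m' 0) ∈ X ×ˢ Y := ⟨a1, a2⟩
      refine ⟨_, hx, ?_⟩
      have h4 := he δ (fun s => (l' 0, m' 0) + (s : ℝ) • ((T, 0) : ℂ × ℂ)) (by fun_prop)
        (fun s => m1 _ hx s) (fun s => by
          apply Subtype.ext
          rw [hF _ (m1 _ hx s), hδ s]
          simp [hfA hA, a3, a4])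
      simp only [Set.Icc.coe_zero, Set.Icc.coe_one, zero_smul, add_zero, one_smul] at h4
      rw [hδ1] at h4
      exact (inv_mul_eq_one.1 h4.symm).symm
    · refine ⟨(l 0, m 0), ⟨(hlm 0).1, (hlm 0).2.1⟩, ?_⟩
      simp [hT0 hA])
  have t2 := EPD_transl ν (hX.prod hY) F hFc e he (0, U) m2 (fun x hx => by
    have h3 := m2 x hx 1
    rw [one_smul] at h3
    apply Subtype.ext
    rw [hF _ h3, hF _ hx]
    simp [hgU]) (by
    by_cases hB : B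
    · obtain ⟨δ, w, v, hδ, hδ1⟩ := h2 hB
      obtain ⟨l', m', -, -, h3⟩ := lift δ
      obtain ⟨a1, a2, a3, a4⟩ := h3 0
      rw [hδ 0] at a3 a4
      simp only [Set.Icc.coe_zero, ex_zero, mul_one] at a3 a4
      have hx : (l' 0, m' 0) ∈ X ×ˢ Y := ⟨a1, a2⟩
      refine ⟨_, hx, ?_⟩
      have h4 := he δ (fun s => (l' 0, m' 0) + (s : ℝ) • ((0, U) : ℂ × ℂ)) (by fun_prop)
        (fun s => m2 _ hx s) (fun s => by
          apply Subtype.ext
          rw [hF _ (m2 _ hx s), hδ s]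
          simp [hgB hB, a3, a4])
      simp only [Set.Icc.coe_zero, Set.Icc.coe_one, zero_smul, add_zero, one_smul] at h4
      rw [hδ1] at h4
      exact (inv_mul_eq_one.1 h4.symm).symm
    · refine ⟨(l 0, m 0), ⟨(hlm 0).1, (hlm 0).2.1⟩, ?_⟩
      simp [hU0 hB])
  obtain ⟨k, hk⟩ := hfk (l 0) (l 1) (by rw [(hlm 1).2.2.1, (hlm 0).2.2.1, hγ])
  obtain ⟨k', hk'⟩ := hgk (m 0) (m 1) (by rw [(hlm 1).2.2.2, (hlm 0).2.2.2, hγ])
  have hx : (l 0, m 0) ∈ X ×ˢ Y := ⟨(hlm 0).1, (hlm 0).2.1⟩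
  have h3 := he γ (fun s => (l s, m s)) (by fun_prop) (fun s => ⟨(hlm s).1, (hlm s).2.1⟩)
    (fun s => by
      apply Subtype.ext
      rw [hF _ ⟨(hlm s).1, (hlm s).2.1⟩, (hlm s).2.2.1, (hlm s).2.2.2])
  have h4 : (l 1, m 1) = (l 0, m 0) + (k : ℝ) • ((T, 0) : ℂ × ℂ) + (k' : ℝ) • ((0, U) : ℂ × ℂ) := by
    rw [hk, hk']
    simp
  rw [h3, h4, t2 _ (m1 _ hx k), t1 _ hx, inv_mul_cancel]

/-- analytic roots of units -/
theorem EPD_root (u : ℂ × ℂ → ℂ) (hu : AnalyticAt ℂ u 0) (hu0 : u 0 ≠ 0) (j : ℤ) (hj : j ≠ 0) :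
    ∃ β : ℂ × ℂ → ℂ, AnalyticAt ℂ β 0 ∧ (∀ η, β η ≠ 0) ∧ ∀ η, u η ≠ 0 → β η ^ j = u η := by
  refine ⟨fun η => Complex.exp ((Complex.log (u 0) + Complex.log (u η / u 0)) / j), ?_,
    fun η => Complex.exp_ne_zero _, fun η h => ?_⟩
  · have h1 : AnalyticAt ℂ (fun η => Complex.log (u η / u 0)) 0 :=
      AnalyticAt.clog hu.div_const (by rw [div_self hu0]; exact Complex.one_mem_slitPlane)
    exact AnalyticAt.cexp' (analyticAt_const.add h1).div_const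
  · have hj' : (j : ℂ) ≠ 0 := Int.cast_ne_zero.2 hj
    rw [← Complex.exp_int_mul, mul_div_cancel₀ _ hj', Complex.exp_add, Complex.exp_log hu0,
      Complex.exp_log (div_ne_zero h hu0), mul_div_cancel₀ _ hu0]

/-- units can be absorbed into the coordinates -/
theorem exists_normal (f g : ℂ × ℂ → ℂ) (hf : AnalyticAt ℂ f 0) (hg : AnalyticAt ℂ g 0)
    (hf0 : f 0 ≠ 0) (hg0 : g 0 ≠ 0) (m m' j : ℤ) (hm : m ≠ 0) (hj : j ≠ 0) :
    ∃ Φ : OpenPartialHomeomorph (ℂ × ℂ) (ℂ × ℂ), 0 ∈ Φ.source ∧ ∀ η ∈ Φ.source, ∃ α β : ℂ,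
      α ≠ 0 ∧ β ≠ 0 ∧ Φ η = (α * η.1, β * η.2) ∧ α ^ m * β ^ m' = f η ∧ β ^ j = g η := by
  obtain ⟨β, hβ, hβ0, hβj⟩ := EPD_root g hg hg0 j hj
  obtain ⟨α, hα, hα0, hαm⟩ := EPD_root (fun η => f η * β η ^ (-m'))
    (hf.mul (hβ.zpow (hβ0 0))) (mul_ne_zero hf0 (zpow_ne_zero _ (hβ0 0))) m hm
  obtain ⟨L, hL⟩ : ∃ L : (ℂ × ℂ) ≃L[ℂ] (ℂ × ℂ), ∀ η, L η = (α 0 * η.1, β 0 * η.2) :=
    ⟨(ContinuousLinearEquiv.unitsEquivAut ℂ (Units.mk0 (α 0) (hα0 0))).prodCongr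
      (ContinuousLinearEquiv.unitsEquivAut ℂ (Units.mk0 (β 0) (hβ0 0))), fun η => by
        simp [mul_comm]⟩
  have d1 := hα.hasStrictFDerivAt.mul (hasStrictFDerivAt_fst (𝕜 := ℂ) (p := (0 : ℂ × ℂ)))
  have d2 := hβ.hasStrictFDerivAt.mul (hasStrictFDerivAt_snd (𝕜 := ℂ) (p := (0 : ℂ × ℂ)))
  have hd : HasStrictFDerivAt (fun η : ℂ × ℂ => (α η * η.1, β η * η.2))
      (L : (ℂ × ℂ) →L[ℂ] (ℂ × ℂ)) 0 := by
    refine (d1.prodMk d2).congr_fderiv ?_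
    refine ContinuousLinearMap.ext fun η => ?_
    simp [hL]
  have hS : {η | f η ≠ 0 ∧ g η ≠ 0} ∈ nhds (0 : ℂ × ℂ) :=
    (hf.continuousAt.eventually_ne hf0).and (hg.continuousAt.eventually_ne hg0)
  obtain ⟨O, hO, hOo, hO0⟩ := mem_nhds_iff.1 hS
  refine ⟨(hd.toOpenPartialHomeomorph _).restrOpen O hOo,
    ⟨hd.mem_toOpenPartialHomeomorph_source, hO0⟩, fun η hη => ?_⟩
  obtain ⟨h1, h2⟩ := hO hη.2
  refine ⟨α η, β η, hα0 η, hβ0 η, rfl, ?_, hβj η h2⟩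
  rw [hαm η (mul_ne_zero h1 (zpow_ne_zero _ (hβ0 η))), mul_assoc, ← zpow_add₀ (hβ0 η),
    neg_add_cancel, zpow_zero, mul_one]

/-- continuous roots of a circle -/
theorem root_circ (h : C(I, ℂ)) (j n : ℤ) (hj : j ≠ 0) (w : ℂ) (hw : w ≠ 0)
    (hh : ∀ s : I, h s ^ j = w * ex (n * s)) (s : I) : h s = h 0 * ex (n * s / j) := by
  have hex : ∀ r : ℝ, ex r ≠ 0 := fun r => Complex.exp_ne_zero _
  have h0 : h 0 ^ j = w := by
    rw [hh 0]
    simp [ex_zero]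
  have h0' : h 0 ≠ 0 := by
    intro e
    rw [e, zero_zpow _ hj] at h0
    exact hw h0.symm
  have hj' : (j : ℝ) ≠ 0 := Int.cast_ne_zero.2 hj
  have hc : Continuous fun s : I => h s / (h 0 * ex (n * s / j)) :=
    h.continuous.div (continuous_const.mul (continuous_ex.comp (by fun_prop)))
      fun s => mul_ne_zero h0' (hex _)
  have hfin : {z : ℂ | z ^ j = 1}.Finite := by
    refine (Polynomial.nthRoots j.natAbs (1 : ℂ)).toFinset.finite_toSet.subset fun z hz => ?_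
    rw [Finset.mem_coe, Multiset.mem_toFinset,
      Polynomial.mem_nthRoots (Int.natAbs_pos.2 hj)]
    have hz' : z ^ j = 1 := hz
    rcases Int.natAbs_eq j with e | e
    · rw [e, zpow_natCast] at hz'
      exact hz'
    · rw [e, zpow_neg, zpow_natCast, inv_eq_one] at hz'
      exact hz'
  have h1 := isPreconnected_univ.constant_of_mapsTo hfin.isDiscrete hc.continuousOn
    (fun s _ => by
      show (h s / (h 0 * ex (n * s / j))) ^ j = 1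
      rw [div_zpow, mul_zpow, ex_zpow, mul_div_cancel₀ _ hj', h0, hh s,
        div_self (mul_ne_zero hw (hex _))]) (Set.mem_univ s) (Set.mem_univ 0)
  simp only [Set.Icc.coe_zero, mul_zero, zero_div, ex_zero, mul_one, div_self h0'] at h1
  exact (div_eq_one_iff_eq (mul_ne_zero h0' (hex _))).1 h1

end Vale.Agent.P300
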