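import Vale.Agent.P300.DSpm
import Vale.Agent.P300.EPD

/-! P300: local structure of a good model and of its special fibre. -/

noncomputable section

namespace Vale.Agent.P300

open unitInterval Topology

variable {Ω : Type} [Field Ω] [Algebra ℂ Ω] {ι : Type} [Fintype ι]

/-- the open part -/
abbrev Dat.UY (D : Dat Ω) (t : ι → Ω) : Set (Zt t) := {y : Zt t | D.IsU (la t y)}

/-- the fibre over the origin -/
def Dat.B0 (D : Dat Ω) (t : ι → Ω) : Set (Zt t) := {y | (la t y).Mx D.b}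

/-- points joined to the base point over the disc of radius `ε` -/
def Dat.Cp (D : Dat Ω) (t : ι → Ω) (y0 : D.UY t) (ε : ℝ) : Set (D.UY t) :=
  {y | ∃ γ : C(I, D.UY t), γ 0 = y0 ∧ γ 1 = y ∧ ∀ s, ‖(D.prU t (γ s)).1.1‖ < ε}

/-- the special fibre -/
def Dat.F0 (D : Dat Ω) (t : ι → Ω) (y0 : D.UY t) (ε : ℝ) : Set (Zt t) :=
  D.B0 t ∩ closure (Subtype.val '' D.Cp t y0 ε)

variable {D : Dat Ω} {M : IntermediateField ℂ Ω} {t : ι → Ω}

/-- the projection as a continuous map -/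
def Dat.Good.prC (hG : D.Good M t) : C(D.UY t, U0 D.S) := ⟨D.prU t, hG.covering_prU.1.continuous⟩

/-- `H` is the stabiliser of the base point -/
def Dat.Good.Stab (hG : D.Good M t) (y0 : D.UY t) {P : Type} [Group P] (μ : Mono (U0 D.S) P)
    (H : Subgroup P) : Prop :=
  ∀ γ : C(I, D.UY t), γ 0 = y0 → D.prU t (γ 1) = D.prU t y0 →
    (μ.m (hG.prC.comp γ) ∈ H ↔ γ 1 = y0)

theorem Dat.Good.closes (hG : D.Good M t) {y0 : D.UY t} {P : Type} [Group P]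
    {μ : Mono (U0 D.S) P} {H : Subgroup P} (hH : hG.Stab y0 μ H) (δ γ : C(I, D.UY t))
    (h0 : δ 0 = y0) (h1 : γ 0 = δ 1) (hc : D.prU t (γ 1) = D.prU t (γ 0))
    (h : μ.m (hG.prC.comp δ) * μ.m (hG.prC.comp γ) * (μ.m (hG.prC.comp δ))⁻¹ ∈ H) :
    γ 1 = γ 0 := by
  have cov := hG.covering_prU.1
  have e0 : rev (hG.prC.comp δ) 0 = D.prU t (γ 1) := by
    rw [rev_zero, hc, h1]
    rfl
  have l1 := cov.liftPath_lifts (rev (hG.prC.comp δ)) (γ 1) e0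
  have l2 := cov.liftPath_zero (rev (hG.prC.comp δ)) (γ 1) e0
  generalize cov.liftPath (rev (hG.prC.comp δ)) (γ 1) e0 = l at l1 l2
  have l3 : hG.prC.comp l = rev (hG.prC.comp δ) := ContinuousMap.ext fun s => congrFun l1 s
  have l4 : l 0 = cat δ γ h1 1 := by rw [cat_one, l2]
  have l5 := (hH (cat (cat δ γ h1) l l4) (by rw [cat_zero, cat_zero, h0]) (by
    rw [cat_one, ← h0]
    exact (congrFun l1 1).trans (rev_one _))).1 (by
      rw [comp_cat, μ.m_cat, comp_cat, μ.m_cat, l3, μ.m_rev]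
      exact h)
  rw [cat_one] at l5
  have l6 : ⇑(rev l) = ⇑δ := cov.eq_of_comp_eq (rev l).continuous δ.continuous
    (funext fun s => (congrFun l1 (unitInterval.symm s)).trans (by simp [rev, Dat.Good.prC])) 0
    (by rw [rev_zero, l5, h0])
  rw [← l2, ← rev_one l, l6, h1]

theorem eloc_two {L : LA Ω} {u v z : Ω} (h : L.Coord u v) {a c : ℤ × ℤ} (h1 : L.Mon u v z a)
    (h2 : L.Mon u v (z - 1) c) (ha : 0 < a.1) (ha' : a.2 < 0) : False := by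
  have hu := h.ne_zero.1
  have hv := h.ne_zero.2
  have one : L.Un 1 := ⟨L.O.one_mem, by rw [LA.ev_one]; exact one_ne_zero⟩
  have mul : ∀ {w : Ω} {e : ℤ × ℤ} (i j : ℤ), L.Mon u v w e →
      L.Mon u v (w * u ^ i * v ^ j) (e.1 + i, e.2 + j) := by
    rintro w e i j ⟨ε, hε, rfl⟩
    exact ⟨ε, hε, by simp only [zpow_add₀ hu, zpow_add₀ hv]; ring⟩
  have h0 : L.Mon u v 1 0 := ⟨1, one, by simp⟩
  have mem : ∀ {w : Ω} {e : ℤ × ℤ}, L.Mon u v w e → ∀ i j : ℤ,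
      (w * u ^ i * v ^ j ∈ L.O ↔ 0 ≤ e.1 + i ∧ 0 ≤ e.2 + j) := fun hw i j =>
    LA.dufd_mon_mem h (mul i j hw)
  have id : ∀ i j : ℤ, (z - 1) * u ^ i * v ^ j = z * u ^ i * v ^ j - 1 * u ^ i * v ^ j :=
    fun i j => by ring
  have a1 := (mem h1 0 (-a.2)).2 ⟨by omega, by omega⟩
  have a2 := (mem h0 0 (-a.2)).2 ⟨by simp, by simpa using ha'.le⟩
  obtain ⟨c1, c2⟩ := (mem h2 0 (-a.2)).1 (by rw [id]; exact L.O.sub_mem a1 a2)
  by_cases k1 : 0 < c.1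
  · have b1 := L.O.sub_mem ((mem h1 (-1) (-a.2)).2 ⟨by omega, by omega⟩)
      ((mem h2 (-1) (-a.2)).2 ⟨by omega, c2⟩)
    rw [id, sub_sub_cancel] at b1
    simpa using ((mem h0 _ _).1 b1).1
  by_cases k2 : 0 < c.2 + -a.2
  · have b1 := L.O.add_mem ((mem h2 0 (-a.2 - 1)).2 ⟨c1, by omega⟩)
      ((mem h0 0 (-a.2 - 1)).2 ⟨by simp, by simp only [Prod.snd_zero]; omega⟩)
    rw [id, sub_add_cancel] at b1
    have := ((mem h1 _ _).1 b1).2
    omega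
  have b1 := ((LA.dufd_mon_un h (mul 0 (-a.2) h2)).2 (Prod.ext (by simp only [Prod.fst_zero]; omega)
    (by simp only [Prod.snd_zero]; omega))).2
  have b2 : L.ev (z * u ^ (0 : ℤ) * v ^ (-a.2)) = 0 := by
    by_contra b3
    have := congrArg Prod.fst ((LA.dufd_mon_un h (mul 0 (-a.2) h1)).1 ⟨a1, b3⟩)
    simp only [Prod.fst_zero] at this
    omega
  have b3 : L.ev (1 * u ^ (0 : ℤ) * v ^ (-a.2)) = 0 := by
    by_contra b4
    have := congrArg Prod.snd ((LA.dufd_mon_un h (mul 0 (-a.2) h0)).1 ⟨a2, b4⟩)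
    simp only [Prod.snd_zero] at this
    omega
  rw [id, LA.ev_sub a1 a2, b2, b3, sub_zero] at b1
  exact b1 rfl

theorem eloc_zero (D : Dat Ω) : (0 : ℂ) ∈ D.S := by
  by_contra h1
  have h2 : (0 : Fin 5) = 2 := D.hS 0 h1 rfl
  exact absurd h2 (by decide)

theorem eloc_one (D : Dat Ω) : (1 : ℂ) ∈ D.S := by
  by_contra h1
  have h2 : (2 : Fin 5) = 3 := D.hS 1 h1 rfl
  exact absurd h2 (by decide)

theorem eloc_pow {L : LA Ω} {u v z : Ω} {e : ℤ × ℤ} (h : L.Mon u v z e) (n : ℤ) :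
    L.Mon u v (z ^ n) (e.1 * n, e.2 * n) := by
  obtain ⟨ε, hε, rfl⟩ := h
  exact ⟨ε ^ n, (hε.zpow n).1, by simp only [mul_zpow, zpow_mul]⟩

theorem eloc_b (D : Dat Ω) : D.b = D.phi (Sum.inl ⟨0, eloc_zero D⟩) ^ (D.E : ℤ) := by
  have h := D.hrt 0 (eloc_zero D)
  rw [map_zero, sub_zero] at h
  rw [zpow_natCast]
  exact h.symm

theorem Dat.InvAt.b_or_inv {L : LA Ω} [IsNoetherianRing L.O] {u v : Ω} {e : D.Ix → ℤ × ℤ}
    (h : D.InvAt L u v e) : D.b ∈ L.O ∨ D.b⁻¹ ∈ L.O := by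
  have h1 := eloc_pow (h.2.1 (Sum.inl ⟨0, eloc_zero D⟩)) D.E
  rw [← eloc_b] at h1
  have h2 := eloc_pow (h.2.1 (Sum.inl ⟨1, eloc_one D⟩)) D.E
  have h3 : D.phi (Sum.inl ⟨1, eloc_one D⟩) ^ (D.E : ℤ) = D.b - 1 := by
    rw [zpow_natCast, ← map_one (algebraMap ℂ Ω)]
    exact D.hrt 1 (eloc_one D)
  rw [h3] at h2
  have h4 := eloc_pow h1 (-1)
  rw [zpow_neg_one] at h4
  rw [LA.dufd_mon_mem h.1 h1, LA.dufd_mon_mem h.1 h4]
  have h5 := eloc_two h.1 h1 h2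
  have h6 := eloc_two h.1.symm (LA.dufd_mon_swap h1) (LA.dufd_mon_swap h2)
  simp only [Prod.fst_swap, Prod.snd_swap, imp_false] at h5 h6 ⊢
  omega

theorem Dat.Good.isClosed_le (hG : D.Good M t) (r : ℝ) :
    IsClosed {y : Zt t | D.b ∈ (la t y).O ∧ ‖(la t y).ev D.b‖ ≤ r} := by
  refine isOpen_compl_iff.1 (isOpen_iff_mem_nhds.2 fun y hy => ?_)
  by_cases hb : D.b ∈ (la t y).O
  · have h1 := ((continuousOn_ev t D.b).continuousAt ((isOpen_reg t _).mem_nhds hb)).norm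
    filter_upwards [continuousAt_const.eventually_lt h1 (not_le.1 fun h => hy ⟨hb, h⟩)]
      with y' h2 h3 using h3.2.not_gt h2
  · have := la_noeth t y
    obtain ⟨-, ⟨u, v, e, hi⟩, -⟩ := hG.2 y
    have h1 := hi.b_or_inv.resolve_left hb
    have h2 : (la t y).ev D.b⁻¹ = 0 := by
      by_contra h3
      exact hb (inv_inv D.b ▸ (la t y).inv_mem _ h1 h3)
    have h3 : D.b ≠ 0 := fun h => hb (h ▸ (la t y).O.zero_mem)
    have h4 := ((continuousOn_ev t D.b⁻¹).continuousAt ((isOpen_reg t _).mem_nhds h1)).norm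
    filter_upwards [(isOpen_reg t _).mem_nhds h1, (continuousAt_const.mul h4 : ContinuousAt
      (fun y' => r * ‖(la t y').ev D.b⁻¹‖) y).eventually_lt
        (continuousAt_const (y := (1 : ℝ))) (by simp [h2])] with y' h5 h6 h7
    have h8 := congrArg norm ((la t y').ev_mul _ h7.1 _ h5)
    rw [mul_inv_cancel₀ h3, LA.ev_one, norm_one, norm_mul] at h8
    exact (h8.le.trans (mul_le_mul_of_nonneg_right h7.2 (norm_nonneg _))).not_gt h6

theorem Dat.Good.isClosed_B0 (hG : D.Good M t) : IsClosed (D.B0 t) := by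
  have h := hG.isClosed_le 0
  simp only [norm_le_zero_iff] at h
  exact h

theorem eloc_lim (hG : D.Good M t) {C : Set (Zt t)} (hC : IsClosed C)
    (h : ∀ r : ℝ, 0 < r → ∃ y ∈ C, D.b ∈ (la t y).O ∧ ‖(la t y).ev D.b‖ ≤ r) :
    ∃ y ∈ C, y ∈ D.B0 t := by
  have := Zt.compact t
  obtain ⟨y, hy⟩ := IsCompact.nonempty_iInter_of_sequence_nonempty_isCompact_isClosed
    (fun n : ℕ => C ∩ {y : Zt t | D.b ∈ (la t y).O ∧ ‖(la t y).ev D.b‖ ≤ 1 / ((n : ℝ) + 1)})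
    (fun n y hy => ⟨hy.1, hy.2.1, hy.2.2.trans (Nat.one_div_le_one_div n.le_succ)⟩)
    (fun n => h _ Nat.one_div_pos_of_nat) (hC.inter (hG.isClosed_le _)).isCompact
    fun n => hC.inter (hG.isClosed_le _)
  rw [Set.mem_iInter] at hy
  exact ⟨y, (hy 0).1, (hy 0).2.1, norm_le_zero_iff.1
    (ge_of_tendsto' tendsto_one_div_add_atTop_nhds_zero_nat fun n => (hy n).2.2)⟩

theorem eloc_image {X Y : Type} [TopologicalSpace X] [TopologicalSpace Y]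
    (κ : OpenPartialHomeomorph X Y) {T : Set Y} {W : Set X} (hT : T ⊆ κ.target)
    (h : ∀ x ∈ κ.source, x ∈ W ↔ κ x ∈ T) (hp : IsPathConnected T) :
    IsPathConnected (κ.source ∩ W) := by
  have h1 : κ.source ∩ W = κ.symm '' T := by
    ext x
    constructor
    · exact fun hx => ⟨κ x, (h x hx.1).1 hx.2, κ.left_inv hx.1⟩
    · rintro ⟨η, hη, rfl⟩
      exact ⟨κ.map_target (hT hη), (h _ (κ.map_target (hT hη))).2 (by rwa [κ.right_inv (hT hη)])⟩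
  rw [h1]
  exact hp.image' (κ.continuousOn_symm.mono hT)

theorem Dat.Good.small_b (hG : D.Good M t) {O : Set (Zt t)} (hO : IsOpen O) (h : D.B0 t ⊆ O) :
    ∃ r : ℝ, 0 < r ∧ ∀ y : Zt t, D.b ∈ (la t y).O → ‖(la t y).ev D.b‖ < r → y ∈ O := by
  by_contra h1
  push Not at h1
  obtain ⟨y, h2, h3⟩ := eloc_lim hG hO.isClosed_compl fun r hr => by
    obtain ⟨y, h2, h3, h4⟩ := h1 r hr
    exact ⟨y, h4, h2, h3.le⟩
  exact h2 (h h3)

theorem Dat.Good.loc_pc (hG : D.Good M t) (y : Zt t) {Nb : Set (Zt t)} (hNb : Nb ∈ 𝓝 y) :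
    ∃ O, IsOpen O ∧ y ∈ O ∧ O ⊆ Nb ∧ IsPathConnected (O ∩ D.UY t) := by
  obtain ⟨ch, hch⟩ := exists_chart hG y hNb
  refine ⟨_, ch.A.κ.open_source, ch.A.mem, hch, eloc_image ch.A.κ
    (T := PD ch.A.ρ (∃ φ, (ch.e φ).1 ≠ 0) (∃ φ, (ch.e φ).2 ≠ 0)) (fun η hη => ch.A.tgt ▸ hη.1)
    (fun x hx => (ch.isU_iff hx).trans ?_) (isPathConnected_PD ch.A.hρ _ _)⟩
  exact ⟨fun h => ⟨ch.A.tgt ▸ ch.A.κ.map_source hx, h⟩, fun h => h.2⟩

theorem Dat.Good.loc_sc (hG : D.Good M t) (y : Zt t) {Nb : Set (Zt t)} (hNb : Nb ∈ 𝓝 y) :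
    ∃ O, IsOpen O ∧ y ∈ O ∧ O ⊆ Nb ∧ IsSimplyConnected O := by
  obtain ⟨ch, hch⟩ := exists_chart hG y hNb
  refine ⟨_, ch.A.κ.open_source, ch.A.mem, hch, ?_⟩
  have : ContractibleSpace ch.A.κ.target := by
    rw [ch.A.tgt]
    exact (convex_ball _ _).contractibleSpace (Metric.nonempty_ball.2 ch.A.hρ)
  exact ch.A.κ.toHomeomorphSourceTarget.toHomotopyEquiv.simplyConnectedSpace

theorem Dat.Good.loc_B0 (hG : D.Good M t) {y : Zt t} (hy : y ∈ D.B0 t) {Nb : Set (Zt t)}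
    (hNb : Nb ∈ 𝓝 y) : ∃ O, IsOpen O ∧ y ∈ O ∧ O ⊆ Nb ∧ IsPathConnected (O ∩ D.B0 t) := by
  obtain ⟨ch, hch⟩ := exists_chart hG y hNb
  obtain ⟨ε, a, b, hε, hb⟩ : ∃ (ε : Ω) (a b : ℤ), (∀ y' ∈ ch.A.κ.source, (la t y').Un ε) ∧
      D.b = ε * ch.u ^ a * ch.v ^ b :=
    ⟨_, _, _, fun y' hy' => ((ch.un y' hy' _).zpow D.E).1, by
      rw [eloc_b, ch.mon, mul_zpow, mul_zpow, ← zpow_mul, ← zpow_mul]⟩
  have h1 := fun y' hy' => echart_mon ch hy' (hε y' hy') hb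
  have h2 := (h1 y ch.A.mem).1.1 hy.1
  rw [ch.A.ctr] at h2
  have h3 : ∀ x ∈ ch.A.κ.source, x ∈ D.B0 t ↔ ch.A.κ x ∈ {η : ℂ × ℂ | η ∈ Metric.ball 0 ch.A.ρ ∧
      ¬ ((η.1 = 0 → a = 0) ∧ (η.2 = 0 → b = 0))} := fun x hx => by
    have h4 := (h1 x hx).1.2 ⟨fun _ => h2.1 rfl, fun _ => h2.2 rfl⟩
    rw [Set.mem_ofPred_eq, ← (h1 x hx).2]
    exact ⟨fun h => ⟨ch.A.tgt ▸ ch.A.κ.map_source hx, fun h' => h'.2 h.2⟩,
      fun h => ⟨h4, by_contra fun h' => h.2 ⟨h4, h'⟩⟩⟩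
  refine ⟨_, ch.A.κ.open_source, ch.A.mem, hch, eloc_image ch.A.κ (fun η hη => ch.A.tgt ▸ hη.1) h3
    (StarConvex.isPathConnected (a := 0) (fun η hη r s hr hs hrs => ⟨?_, fun h => hη.2 ?_⟩)
      (ch.A.ctr ▸ (h3 y ch.A.mem).1 hy))⟩
  · exact convex_ball _ _ (Metric.mem_ball_self ch.A.hρ) hη.1 hr hs hrs
  · exact ⟨fun h' => h.1 (by simp [h']), fun h' => h.2 (by simp [h'])⟩

theorem Dat.Good.pc_UY (hG : D.Good M t) (h : IsPreconnected (D.UY t)) (y0 : D.UY t) :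
    PathConnectedSpace (D.UY t) ∧ PathConnectedSpace (Zt t) := by
  have : LocallyPathConnectedSpace (Zt t) := ⟨fun y => ⟨fun Nb => ⟨fun hNb => by
    obtain ⟨O, h1, h2, h3, h4⟩ := hG.loc_sc y hNb
    exact ⟨O, ⟨h1.mem_nhds h2, h4.isPathConnected⟩, h3⟩,
      fun ⟨O, h1, h2⟩ => Filter.mem_of_superset h1.1 h2⟩⟩⟩
  have h1 : IsConnected (D.UY t) := ⟨⟨_, y0.2⟩, h⟩
  refine ⟨isPathConnected_iff_pathConnectedSpace.1
    ((isOpen_isU D t).isConnected_iff_isPathConnected.1 h1),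
    pathConnectedSpace_iff_connectedSpace.2 (connectedSpace_iff_univ.2 ?_)⟩
  rw [← hG.dense_isU.closure_eq]
  exact h1.closure

theorem Dat.Good.F0_nhds (hG : D.Good M t) {y0 : D.UY t} {ε : ℝ} (hε : 0 < ε) {y : Zt t}
    (hy : y ∈ D.F0 t y0 ε) : ∃ O ∈ 𝓝 y, ∀ y' : D.UY t, y'.1 ∈ O → y' ∈ D.Cp t y0 ε := by
  have h1 := ((continuousOn_ev t D.b).continuousAt ((isOpen_reg t _).mem_nhds hy.1.1)).norm
  obtain ⟨O, hO, h2, h3, h4⟩ := hG.loc_pc y (h1.eventually_lt (continuousAt_const (y := ε))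
    (by rw [hy.1.2, norm_zero]; exact hε))
  obtain ⟨_, h5, y1, ⟨γ, g0, g1, g2⟩, rfl⟩ := mem_closure_iff.1 hy.2 O hO h2
  refine ⟨O, hO.mem_nhds h2, fun y' hy' => ?_⟩
  obtain ⟨p, hp⟩ := h4.joinedIn y1.1 ⟨h5, y1.2⟩ y'.1 ⟨hy', y'.2⟩
  let γ' : C(I, D.UY t) := ⟨fun s => ⟨p s, (hp s).2⟩, p.continuous.subtype_mk _⟩
  have h6 : γ' 0 = γ 1 := g1 ▸ Subtype.ext p.source
  refine ⟨cat γ γ' h6, (cat_zero _ _ _).trans g0, (cat_one _ _ _).trans (Subtype.ext p.target),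
    fun s => ?_⟩
  rcases cat_mem γ γ' h6 s with ⟨s', h7⟩ | ⟨s', h7⟩
  · rw [h7]
    exact g2 s'
  · rw [h7]
    exact h3 (hp s').1

theorem Dat.Good.F0_open (hG : D.Good M t) {y0 : D.UY t} {ε : ℝ} (hε : 0 < ε) {y : Zt t}
    (hy : y ∈ D.F0 t y0 ε) : ∀ᶠ y' in 𝓝 y, y' ∈ D.B0 t → y' ∈ D.F0 t y0 ε := by
  obtain ⟨O, hO, h⟩ := hG.F0_nhds hε hy
  filter_upwards [interior_mem_nhds.2 hO] with y' h1 h2
  refine ⟨h2, closure_mono ?_ (hG.dense_isU.open_subset_closure_inter isOpen_interior h1)⟩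
  exact fun x hx => ⟨⟨x, hx.2⟩, h _ (interior_subset hx.1), rfl⟩

theorem Dat.Good.isClosed_F0 (hG : D.Good M t) (y0 : D.UY t) (ε : ℝ) :
    IsClosed (D.F0 t y0 ε) := by
  exact hG.isClosed_B0.inter isClosed_closure

theorem Dat.Good.F0_nonempty (hG : D.Good M t) {y0 : D.UY t} {ε : ℝ}
    (hS : ∀ p ∈ D.S, ‖p‖ < ε → p = 0) (hb : ‖(D.prU t y0).1.1‖ < ε)
    (hu : (D.prU t y0).1.2 = Rr (D.prU t y0).1.1) : (D.F0 t y0 ε).Nonempty := by
  have cov := hG.covering_prU.1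
  have hε : 0 < ε := (norm_nonneg _).trans_lt hb
  have h0 : (D.prU t y0).1.1 ≠ 0 := fun h => (D.prU t y0).2.1 (h ▸ eloc_zero D)
  obtain ⟨y, h1, h2⟩ := eloc_lim hG (isClosed_closure (s := Subtype.val '' D.Cp t y0 ε))
    fun r hr => by
      have l0 : 0 < min 1 (r / ε) := lt_min one_pos (div_pos hr hε)
      have l1 : min 1 (r / ε) ≤ 1 := min_le_left _ _
      have l2 : min 1 (r / ε) * ε ≤ r := (le_div_iff₀ hε).1 (min_le_right _ _)
      generalize min 1 (r / ε) = l at l0 l1 l2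
      let c : I → ℂ := fun s => ((1 - s + s * l : ℝ) : ℂ) * (D.prU t y0).1.1
      have hc : Continuous c := by fun_prop
      have c1 : ∀ s : I, 0 < 1 - s + s * l ∧ 1 - s + s * l ≤ 1 := fun s =>
        ⟨by nlinarith [s.2.1, s.2.2], by nlinarith [s.2.1, s.2.2]⟩
      have c2 : ∀ s : I, ‖c s‖ = (1 - s + s * l) * ‖(D.prU t y0).1.1‖ := fun s => by
        rw [norm_mul, Complex.norm_real, Real.norm_of_nonneg (c1 s).1.le]
      have c3 : ∀ s, ‖c s‖ < ε := fun s => by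
        rw [c2]
        exact (mul_le_of_le_one_left (norm_nonneg _) (c1 s).2).trans_lt hb
      have c4 : ∀ s, c s ∉ D.S := fun s h =>
        mul_ne_zero (Complex.ofReal_ne_zero.2 (c1 s).1.ne') h0 (hS _ h (c3 s))
      let β : C(I, U0 D.S) := ⟨fun s => ⟨(c s, (Rr (c s) : ℂ)), sec_mem (c4 s)⟩,
        (hc.prodMk (Complex.continuous_ofReal.comp (continuous_Rr.comp hc))).subtype_mk _⟩
      have c5 : c 0 = (D.prU t y0).1.1 := by simp [c]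
      have e0 : β 0 = D.prU t y0 := Subtype.ext (Prod.ext c5 (by
        change (Rr (c 0) : ℂ) = _
        rw [c5, hu]))
      have e1 : ∀ s, (D.prU t (cov.liftPath β y0 e0 s)).1.1 = c s := fun s =>
        congrArg (fun q : U0 D.S => q.1.1) (congrFun (cov.liftPath_lifts β y0 e0) s)
      refine ⟨_, subset_closure ⟨cov.liftPath β y0 e0 1, ⟨_, cov.liftPath_zero β y0 e0, rfl,
        fun s => by rw [e1]; exact c3 s⟩, rfl⟩, (Dat.IsU.mem (cov.liftPath β y0 e0 1).2).1, ?_⟩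
      refine (congrArg norm (e1 1)).trans_le ?_
      rw [c2, Set.Icc.coe_one, sub_self, zero_add, one_mul]
      exact (mul_le_mul_of_nonneg_left hb.le l0.le).trans l2
  exact ⟨y, h2, h1⟩

end Vale.Agent.P300
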