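import Vale.Agent.P300.GMisc

/-! P300: the finite index subgroups defining the tower of coverings. -/

namespace Vale.Agent.P300

theorem GHK_pres {P : Type} [Group P] (D : TData P) (F' : Subgroup F5) {Q : Type} [Group Q]
    (θ : P →* Q) (k2 : ∀ g, θ (D.ι g) = 1 → g ∈ F') {σ : P} (hθ : θ σ = 1) {α : MulAut F5}
    (hα : ∀ g, σ * D.ι g * σ⁻¹ = D.ι (α g)) (g : F5) : α g ∈ F' ↔ g ∈ F' := by
  have h1 : α g * g⁻¹ ∈ F' := by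
    refine k2 _ ?_
    rw [map_mul, ← hα, map_mul, map_mul, map_mul, map_inv θ σ, hθ, one_mul, inv_one, mul_one,
      ← map_mul, ← map_mul, mul_inv_cancel, map_one, map_one]
  constructor
  · intro h
    have h2 := mul_mem (inv_mem h1) h
    rwa [mul_inv_rev, inv_inv, inv_mul_cancel_right] at h2
  · intro h
    have h2 := mul_mem h1 h
    rwa [inv_mul_cancel_right] at h2

/-- the subgroup of the tower -/
def GHKSub {P : Type} [Group P] (D : TData P) (V : Subgroup F5) {Q : Type} [Group Q]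
    (θ : P →* Q) (hA : ∀ σ ∈ D.Sec, θ σ = 1 → ∀ f ∈ V, ∃ f' ∈ V, σ * D.ι f = D.ι f' * σ) :
    Subgroup P where
  carrier := {γ | ∃ f ∈ V, ∃ σ ∈ D.Sec, θ σ = 1 ∧ γ = D.ι f * σ}
  mul_mem' := by
    rintro _ _ ⟨f, hf, σ, hσ, hθ, rfl⟩ ⟨g, hg, τ, hτ, hθ', rfl⟩
    obtain ⟨g', hg', h⟩ := hA σ hσ hθ g hg
    refine ⟨f * g', mul_mem hf hg', σ * τ, mul_mem hσ hτ, by rw [map_mul, hθ, hθ', one_mul], ?_⟩
    rw [map_mul, mul_assoc, ← mul_assoc σ, h, mul_assoc, mul_assoc]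
  one_mem' := ⟨1, one_mem _, 1, one_mem _, map_one _, by rw [map_one, one_mul]⟩
  inv_mem' := by
    rintro _ ⟨f, hf, σ, hσ, hθ, rfl⟩
    have hθ' : θ σ⁻¹ = 1 := by rw [map_inv, hθ, inv_one]
    obtain ⟨g', hg', h⟩ := hA σ⁻¹ (inv_mem hσ) hθ' f⁻¹ (inv_mem hf)
    exact ⟨g', hg', σ⁻¹, inv_mem hσ, hθ', by rw [mul_inv_rev, ← map_inv, h]⟩

theorem GHK_finite {P : Type} [Group P] (D : TData P) (V : Subgroup F5) [V.FiniteIndex]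
    {Q : Type} [Group Q] [Finite Q] (θ : P →* Q) (Hk : Subgroup P)
    (hH : ∀ f ∈ V, ∀ σ ∈ D.Sec, θ σ = 1 → D.ι f * σ ∈ Hk) : Hk.FiniteIndex := by
  classical
  have hr : ∀ q : Q, ∃ r ∈ D.Sec, (∃ σ ∈ D.Sec, θ σ = q) → θ r = q := by
    intro q
    by_cases h : ∃ σ ∈ D.Sec, θ σ = q
    · obtain ⟨σ, hσ, hq⟩ := h
      exact ⟨σ, hσ, fun _ => hq⟩
    · exact ⟨1, one_mem _, fun h' => (h h').elim⟩
  choose r hr1 hr2 using hr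
  have hfin : Finite (P ⧸ Hk) := by
    refine Finite.of_surjective
      (fun x : Q × (F5 ⧸ V) => ((r x.1 * D.ι x.2.out : P) : P ⧸ Hk)) fun c => ?_
    obtain ⟨γ, rfl⟩ := QuotientGroup.mk_surjective c
    obtain ⟨f, σ, hσ, hγ⟩ := D.dec γ⁻¹
    have hτ : (r (θ σ⁻¹))⁻¹ * σ⁻¹ ∈ D.Sec := mul_mem (inv_mem (hr1 _)) (inv_mem hσ)
    have hθτ : θ ((r (θ σ⁻¹))⁻¹ * σ⁻¹) = 1 := by
      rw [map_mul, map_inv θ (r _), hr2 _ ⟨σ⁻¹, inv_mem hσ, rfl⟩, inv_mul_cancel]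
    obtain ⟨α, -, hα⟩ := D.art _ hτ
    refine ⟨(θ σ⁻¹, ((α f⁻¹ : F5) : F5 ⧸ V)), QuotientGroup.eq.2 ?_⟩
    have hv : ((α f⁻¹ : F5) : F5 ⧸ V).out⁻¹ * α f⁻¹ ∈ V := by
      rw [← QuotientGroup.eq, QuotientGroup.out_eq']
    have h1 := hH _ hv _ hτ hθτ
    have h2 : γ = σ⁻¹ * D.ι f⁻¹ := by rw [map_inv, ← mul_inv_rev, ← hγ, inv_inv]
    rw [map_mul, ← hα] at h1
    rw [h2]
    refine Set.mem_of_eq_of_mem ?_ h1
    simp only [map_inv]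
    group
  exact Subgroup.finiteIndex_of_finite_quotient

theorem exists_HK {P : Type} [Group P] (D : TData P) (C : Finset F5) (F' V : Subgroup F5)
    [F'.Normal] [V.Normal] [V.FiniteIndex] (hVF : V ≤ F') (h2 : ∀ g, ∃ n, g ^ 2 ^ n ∈ V)
    (hC : ∀ g ∈ Orb C, ∀ j : ℤ, g ^ j ∈ F' → g ^ j ∈ V)
    (hinv : ∀ β : MulAut F5, IsArtin β → (∀ g, β g ∈ F' ↔ g ∈ F') → ∀ g ∈ V, β g ∈ V)
    {Q : Type} [Group Q] [Finite Q] (θ : P →* Q) (E : ℕ) (hE : ∀ q : Q, q ^ E = 1)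
    (H : Subgroup P) (k1 : ∀ g, D.ι g ∈ H ↔ g ∈ F') (k2 : ∀ g, θ (D.ι g) = 1 → g ∈ F')
    (k3 : ∀ ω ∈ H, ∀ f, θ ((D.ι f)⁻¹ * ω) = 1 → (D.ι f)⁻¹ * ω ∈ H) :
    ∃ Hk : Subgroup P, Hk.FiniteIndex ∧ (∀ g, D.ι g ∈ Hk ↔ g ∈ V) ∧
      ∀ ω ∈ H, D.Good C E ω → ω ∈ Hk := by
  have hA : ∀ σ ∈ D.Sec, θ σ = 1 → ∀ f ∈ V, ∃ f' ∈ V, σ * D.ι f = D.ι f' * σ := by
    intro σ hσ hθ f hf
    obtain ⟨α, hα, hαc⟩ := D.art σ hσ
    exact ⟨α f, hinv α hα (GHK_pres D F' θ k2 hθ hαc) f hf, by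
      rw [← hαc, inv_mul_cancel_right]⟩
  have hP : PowE C E ≤ V := by
    refine Subgroup.normalClosure_le_normal ?_
    rintro _ ⟨g, hg, rfl⟩
    have h1 : g ^ E ∈ F' := k2 _ (by rw [map_pow, map_pow, hE])
    have h3 := hC g hg E (by rwa [zpow_natCast])
    rwa [zpow_natCast] at h3
  refine ⟨GHKSub D V θ hA, GHK_finite D V θ _ fun f hf σ hσ hθ => ⟨f, hf, σ, hσ, hθ, rfl⟩,
    fun g => ⟨?_, fun hg => ⟨g, hg, 1, one_mem _, map_one _, (mul_one _).symm⟩⟩, ?_⟩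
  · rintro ⟨f, hf, σ, hσ, -, h⟩
    have h1 : D.ι (f⁻¹ * g) ∈ D.Sec := by
      rw [map_mul, h, map_inv, inv_mul_cancel_left]
      exact hσ
    rw [← inv_mul_eq_one.1 (D.uniq _ h1)]
    exact hf
  · rintro ω hω ⟨ϖ, g, hg, k, e, he, σ, hσ, hy, hωe⟩
    obtain ⟨f0, σ0, hσ0, rfl⟩ := D.dec ϖ
    obtain ⟨α0, hα0, hα0c⟩ := D.art σ0 hσ0
    have hτ : σ0 * σ ^ E * σ0⁻¹ ∈ D.Sec := mul_mem (mul_mem hσ0 (pow_mem hσ E)) (inv_mem hσ0)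
    have hθτ : θ (σ0 * σ ^ E * σ0⁻¹) = 1 := by
      rw [map_mul, map_mul, map_pow, hE, mul_one, map_inv, mul_inv_cancel]
    obtain ⟨α, hα, hαc⟩ := D.art _ hτ
    have hfix : α f0 * f0⁻¹ ∈ V := by
      refine frattini_fix V h2 α.toMonoidHom (hinv α hα (GHK_pres D F' θ k2 hθτ hαc))
        (fun i => ?_) f0
      obtain ⟨y, hy1, e', he', hy2⟩ := hy i
      refine ⟨α0 y, (hα0.1 i).trans (α0.toMonoidHom.map_isConj hy1), ?_⟩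
      have h1 : α (α0 y) = α0 (e' * y) := by
        apply D.inj
        rw [← hαc, ← hα0c, ← hα0c, ← hy2]
        group
      change α (α0 y) * (α0 y)⁻¹ ∈ V
      rw [h1, map_mul, mul_inv_cancel_right]
      exact hP (PowE_artin he' hα0)
    have hω2 : ω = D.ι (f0 * (α0 g ^ k * α0 e) * (α f0)⁻¹) * (σ0 * σ ^ E * σ0⁻¹) := by
      rw [← map_zpow, ← map_mul α0, map_mul, map_mul, map_inv, ← hαc, ← hα0c, hωe]
      group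
    have h3 : (D.ι (f0 * (α0 g ^ k * α0 e) * (α f0)⁻¹))⁻¹ * ω = σ0 * σ ^ E * σ0⁻¹ := by
      rw [inv_mul_eq_iff_eq_mul]
      exact hω2
    have hτH : σ0 * σ ^ E * σ0⁻¹ ∈ H := by
      rw [← h3]
      exact k3 ω hω _ (by rw [h3, hθτ])
    have hfF : f0 * (α0 g ^ k * α0 e) * (α f0)⁻¹ ∈ F' := by
      rw [← k1, ← mul_inv_eq_iff_eq_mul.2 hω2]
      exact mul_mem hω (inv_mem hτH)
    have hrest : f0 * α0 e * f0⁻¹ * (α f0 * f0⁻¹)⁻¹ ∈ V :=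
      mul_mem (Subgroup.Normal.conj_mem inferInstance _ (hP (PowE_artin he hα0)) f0)
        (inv_mem hfix)
    have hdec : f0 * (α0 g ^ k * α0 e) * (α f0)⁻¹ =
        f0 * α0 g ^ k * f0⁻¹ * (f0 * α0 e * f0⁻¹ * (α f0 * f0⁻¹)⁻¹) := by group
    have hG : α0 g ^ k ∈ F' := by
      rw [hdec] at hfF
      have h4 := (Subgroup.mul_mem_cancel_right F' (hVF hrest)).1 hfF
      have h5 := Subgroup.Normal.conj_mem (inferInstance : F'.Normal) _ h4 f0⁻¹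
      rwa [show f0⁻¹ * (f0 * α0 g ^ k * f0⁻¹) * f0⁻¹⁻¹ = α0 g ^ k by group] at h5
    refine ⟨_, ?_, _, hτ, hθτ, hω2⟩
    rw [hdec]
    exact mul_mem (Subgroup.Normal.conj_mem inferInstance _ (hC _ (Orb_artin hg hα0) k hG) f0)
      hrest

end Vale.Agent.P300
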