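import Vale.Agent.P300.GFil

/-! P300: the braid group acts on the even part of the free product of five groups of order two,
which is free of rank four. -/

namespace Vale.Agent.P300

theorem sig_mem_Br (k : Fin 4) : sig k ∈ Br := Subgroup.subset_closure ⟨k, rfl⟩

/-- the group of order two -/
abbrev GActM : Type := Multiplicative (ZMod 2)

/-- its generator -/
def GActG : GActM := Multiplicative.ofAdd 1

theorem GAct_cases : ∀ z : GActM, z = 1 ∨ z = GActG := by decide

theorem GAct_ne : GActG ≠ 1 := by decide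

theorem GAct_sq : GActG * GActG = 1 := by decide

/-- the homomorphism defined by an involution -/
def GActHom {H : Type} [Group H] (t : H) (h : t * t = 1) : GActM →* H :=
  MonoidHom.mk' (fun z => if z = 1 then 1 else t) (by
    intro a b
    rcases GAct_cases a with rfl | rfl <;> rcases GAct_cases b with rfl | rfl <;>
      simp [GAct_ne, GAct_sq, h])

theorem GActHom_gen {H : Type} [Group H] (t : H) (h : t * t = 1) : GActHom t h GActG = t := by
  change (if GActG = 1 then 1 else t) = t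
  rw [if_neg GAct_ne]

theorem GAct_iota_of (i : Fin 4) : iota4 (FreeGroup.of i) = (FreeGroup.of i)⁻¹ :=
  FreeGroup.lift_apply_of

theorem GAct_iota_comp : iota4.comp iota4 = MonoidHom.id F4 := by
  ext i
  simp [GAct_iota_of]

/-- inversion of the generators as an automorphism -/
def GActI : MulAut F4 := MonoidHom.toMulEquiv iota4 iota4 GAct_iota_comp GAct_iota_comp

theorem GActI_apply (y : F4) : GActI y = iota4 y := rfl

theorem GActI_sq : GActI * GActI = 1 :=
  MulEquiv.ext fun y => DFunLike.congr_fun GAct_iota_comp y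

/-- the action of the group of order two -/
def GActPhi : GActM →* MulAut F4 := GActHom GActI GActI_sq

theorem GActPhi_gen (y : F4) : GActPhi GActG y = iota4 y := by
  rw [GActPhi, GActHom_gen, GActI_apply]

/-- the free product of five groups of order two -/
abbrev GActW : Type := F4 ⋊[GActPhi] GActM

/-- the quotient map -/
def GActPsi : F5 →* GActW := FreeGroup.lift
  (Fin.cases (SemidirectProduct.inr GActG)
    fun i => SemidirectProduct.inl (FreeGroup.of i) * SemidirectProduct.inr GActG)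

theorem GActPsi_zero : GActPsi (xx 0) = SemidirectProduct.inr GActG := lift_xx _ _

theorem GActPsi_succ (i : Fin 4) : GActPsi (xx i.succ) =
    SemidirectProduct.inl (FreeGroup.of i) * SemidirectProduct.inr GActG := lift_xx _ _

theorem GAct_par_xx (i : Fin 5) : par (xx i) = GActG := lift_xx _ _

theorem GAct_right (g : F5) : (GActPsi g).right = par g := by
  have h : SemidirectProduct.rightHom.comp GActPsi = par := by
    refine FreeGroup.ext_hom _ _ fun i => ?_
    change SemidirectProduct.rightHom (GActPsi (xx i)) = par (xx i)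
    rw [GAct_par_xx]
    refine Fin.cases ?_ (fun j => ?_) i
    · rw [GActPsi_zero, SemidirectProduct.rightHom_inr]
    · rw [GActPsi_succ, map_mul, SemidirectProduct.rightHom_inl, SemidirectProduct.rightHom_inr,
        one_mul]
  exact DFunLike.congr_fun h g

theorem GAct_inr_sq :
    (SemidirectProduct.inr GActG : GActW) * SemidirectProduct.inr GActG = 1 := by
  rw [← map_mul, GAct_sq, map_one]

theorem GActPsi_sq (i : Fin 5) : GActPsi (xx i) * GActPsi (xx i) = 1 := by
  refine Fin.cases ?_ (fun j => ?_) i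
  · rw [GActPsi_zero, GAct_inr_sq]
  · have h := SemidirectProduct.inl_aut (φ := GActPhi) GActG (FreeGroup.of j)
    rw [GActPhi_gen, GAct_iota_of, inv_eq_of_mul_eq_one_right GAct_sq] at h
    rw [GActPsi_succ, mul_assoc, ← mul_assoc (SemidirectProduct.inr GActG), ← h, ← map_mul,
      mul_inv_cancel, map_one]

/-- the universal property -/
theorem GAct_desc {H : Type} [Group H] (f : F5 →* H) (hf : ∀ i, f (xx i) * f (xx i) = 1) :
    ∃ d : GActW →* H, ∀ g, d (GActPsi g) = f g := by
  have hinv : ∀ i, (f (xx i))⁻¹ = f (xx i) := fun i => inv_eq_of_mul_eq_one_right (hf i)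
  let d : GActW →* H := SemidirectProduct.lift
    (FreeGroup.lift fun i : Fin 4 => f (xx i.succ) * f (xx 0)) (GActHom (f (xx 0)) (hf 0)) (by
      intro z
      rcases GAct_cases z with rfl | rfl
      · ext i
        simp
      · ext i
        simp [GActPhi, GActHom_gen, GActI_apply, GAct_iota_of, hinv, mul_assoc, hf])
  have h : d.comp GActPsi = f := by
    refine FreeGroup.ext_hom _ _ fun i => ?_
    change d (GActPsi (xx i)) = f (xx i)
    refine Fin.cases ?_ (fun j => ?_) i
    · rw [GActPsi_zero, SemidirectProduct.lift_inr, GActHom_gen]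
    · rw [GActPsi_succ, map_mul, SemidirectProduct.lift_inl, SemidirectProduct.lift_inr,
        GActHom_gen, FreeGroup.lift_apply_of, mul_assoc, hf, mul_one]
  exact ⟨d, fun g => DFunLike.congr_fun h g⟩

/-- compatibility with the quotient map -/
def GActOk (β : MulAut F5) : Prop := ∀ g h, GActPsi g = GActPsi h → GActPsi (β g) = GActPsi (β h)

theorem GAct_ok_of (β : MulAut F5) (h : ∀ i, GActPsi (β (xx i)) * GActPsi (β (xx i)) = 1) :
    GActOk β := by
  obtain ⟨d, hd⟩ := GAct_desc (GActPsi.comp β.toMonoidHom) h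
  intro g h hgh
  have h1 : d (GActPsi g) = GActPsi (β g) := hd g
  have h2 : d (GActPsi h) = GActPsi (β h) := hd h
  rw [← h1, ← h2, hgh]

theorem GAct_conj_sq {H : Type} [Group H] (a b : H) (hb : b * b = 1) :
    a * b * a⁻¹ * (a * b * a⁻¹) = 1 := by
  rw [show a * b * a⁻¹ * (a * b * a⁻¹) = a * (b * b) * a⁻¹ by group, hb, mul_one, mul_inv_cancel]

theorem GAct_ok_sig (k : Fin 4) : GActOk (sig k) := by
  refine GAct_ok_of _ fun i => ?_
  rw [sig_xx, sigF]
  split_ifs
  · rw [map_mul, map_mul, map_inv]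
    exact GAct_conj_sq _ _ (GActPsi_sq _)
  · exact GActPsi_sq _
  · exact GActPsi_sq _

theorem GAct_ok_sig_inv (k : Fin 4) : GActOk (sig k)⁻¹ := by
  refine GAct_ok_of _ fun i => ?_
  rw [sig_inv_xx, sigI]
  split_ifs
  · exact GActPsi_sq _
  · rw [map_mul, map_mul, map_inv]
    have := GAct_conj_sq (GActPsi (xx k.succ))⁻¹ _ (GActPsi_sq k.castSucc)
    rwa [inv_inv] at this
  · exact GActPsi_sq _

theorem GAct_par_sig (k : Fin 4) (g : F5) : par (sig k g) = par g := by
  have h : par.comp (sig k).toMonoidHom = par := by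
    refine FreeGroup.ext_hom _ _ fun i => ?_
    change par (sig k (xx i)) = par (xx i)
    rw [sig_xx, sigF]
    split_ifs
    · rw [map_mul, map_mul, map_inv, GAct_par_xx, GAct_par_xx, GAct_par_xx,
        mul_inv_cancel_right]
    · rw [GAct_par_xx, GAct_par_xx]
    · rfl
  exact DFunLike.congr_fun h g

theorem GAct_br {β : MulAut F5} (hβ : β ∈ Br) :
    GActOk β ∧ GActOk β⁻¹ ∧ ∀ g, par (β g) = par g := by
  induction hβ using Subgroup.closure_induction with
  | mem x hx =>
    obtain ⟨k, rfl⟩ := hx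
    exact ⟨GAct_ok_sig k, GAct_ok_sig_inv k, GAct_par_sig k⟩
  | one => exact ⟨fun _ _ h => h, by rw [inv_one]; exact fun _ _ h => h, fun _ => rfl⟩
  | mul x y _ _ hx hy =>
    refine ⟨fun g h hgh => hx.1 _ _ (hy.1 _ _ hgh), ?_, fun g => ?_⟩
    · rw [mul_inv_rev]
      exact fun g h hgh => hy.2.1 _ _ (hx.2.1 _ _ hgh)
    · rw [MulAut.mul_apply, hx.2.2, hy.2.2]
  | inv x _ hx =>
    refine ⟨hx.2.1, by rw [inv_inv]; exact hx.1, fun g => ?_⟩
    rw [← hx.2.2 (x⁻¹ g), MulAut.apply_inv_self]

/-- the section -/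
def GActS : F4 →* F5 := FreeGroup.lift fun i => xx i.succ * xx 0

theorem GActPsi_S (y : F4) : GActPsi (GActS y) = SemidirectProduct.inl y := by
  have h : GActPsi.comp GActS = SemidirectProduct.inl := by
    refine FreeGroup.ext_hom _ _ fun i => ?_
    rw [MonoidHom.comp_apply, GActS, FreeGroup.lift_apply_of, map_mul, GActPsi_succ, GActPsi_zero,
      mul_assoc, GAct_inr_sq, mul_one]
  exact DFunLike.congr_fun h y

theorem GAct_par_S (y : F4) : par (GActS y) = 1 := by
  rw [← GAct_right, GActPsi_S, SemidirectProduct.right_inl]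

theorem GAct_psi_even (g h : F5) (hg : par g = 1) :
    (GActPsi (g * h)).left = (GActPsi g).left * (GActPsi h).left := by
  rw [map_mul, SemidirectProduct.mul_left, GAct_right, hg, map_one, MulAut.one_apply]

theorem GAct_psi_odd (g h : F5) (hg : par g ≠ 1) :
    (GActPsi (g * h)).left = (GActPsi g).left * iota4 (GActPsi h).left := by
  rw [map_mul, SemidirectProduct.mul_left, GAct_right, (GAct_cases _).resolve_left hg,
    GActPhi_gen]

/-- the induced endomorphism of the even part -/
def GActA (β : Br) : F4 →* F4 :=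
  MonoidHom.mk' (fun y => (GActPsi (β.1 (GActS y))).left) fun y z => by
    rw [map_mul, map_mul, GAct_psi_even _ _ (by rw [(GAct_br β.2).2.2, GAct_par_S])]

theorem GActA_apply (β : Br) (y : F4) : GActA β y = (GActPsi (β.1 (GActS y))).left := rfl

theorem GActA_psi (β : Br) (g : F5) (hg : par g = 1) :
    (GActPsi (β.1 g)).left = GActA β (GActPsi g).left := by
  have h : GActPsi g = GActPsi (GActS (GActPsi g).left) := by
    rw [GActPsi_S]
    refine SemidirectProduct.ext rfl ?_
    rw [GAct_right, hg, SemidirectProduct.right_inl]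
  rw [GActA_apply, ← (GAct_br β.2).1 _ _ h]

theorem GActA_mul (β γ : Br) (y : F4) : GActA (β * γ) y = GActA β (GActA γ y) := by
  rw [GActA_apply γ, ← GActA_psi β _ (by rw [(GAct_br γ.2).2.2, GAct_par_S])]
  rfl

theorem GActA_one (y : F4) : GActA 1 y = y := by
  change (GActPsi (GActS y)).left = y
  rw [GActPsi_S, SemidirectProduct.left_inl]

/-- the action -/
def GActAct : Br →* MulAut F4 :=
  MonoidHom.mk' (fun β => MonoidHom.toMulEquiv (GActA β) (GActA β⁻¹)
    (MonoidHom.ext fun y => by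
      rw [MonoidHom.comp_apply, ← GActA_mul, inv_mul_cancel, GActA_one, MonoidHom.id_apply])
    (MonoidHom.ext fun y => by
      rw [MonoidHom.comp_apply, ← GActA_mul, mul_inv_cancel, GActA_one, MonoidHom.id_apply]))
    fun β γ => MulEquiv.ext fun y => GActA_mul β γ y

theorem GActAct_apply (β : Br) (y : F4) : GActAct β y = GActA β y := rfl

theorem GAct_inv_xx (i : Fin 5) : (GActPsi (xx i))⁻¹ = GActPsi (xx i) :=
  inv_eq_of_mul_eq_one_right (GActPsi_sq i)

theorem GAct_pair (i : Fin 4) :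
    GActPsi (xx i.succ) * GActPsi (xx 0) = SemidirectProduct.inl (FreeGroup.of i) := by
  rw [GActPsi_succ, GActPsi_zero, mul_assoc, GAct_inr_sq, mul_one]

theorem GAct_sig_zero : sig 0 (xx 0) = xx 0 * xx (Fin.succ 0) * (xx 0)⁻¹ := by
  rw [sig_xx, sigF, if_pos (by decide)]
  rfl

theorem GAct_gen_zero :
    GActAct ⟨sig 0, sig_mem_Br 0⟩ (FreeGroup.of 0) = FreeGroup.of 0 := by
  have h1 : sig 0 (xx (Fin.succ 0)) = xx 0 := by
    rw [sig_xx, sigF, if_neg (by decide), if_pos rfl]
    rfl
  rw [GActAct_apply, GActA_apply, GActS, FreeGroup.lift_apply_of, map_mul, h1, GAct_sig_zero,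
    map_mul, map_mul, map_mul, map_inv, GAct_inv_xx, ← mul_assoc, ← mul_assoc, GActPsi_sq,
    one_mul, GAct_pair, SemidirectProduct.left_inl]

theorem GAct_gen_ne {i : Fin 4} (hi : i ≠ 0) :
    GActAct ⟨sig 0, sig_mem_Br 0⟩ (FreeGroup.of i) = FreeGroup.of i * FreeGroup.of 0 := by
  have h1 : sig 0 (xx i.succ) = xx i.succ := by
    rw [sig_xx, sigF, if_neg (show ¬i.succ = Fin.castSucc 0 from Fin.succ_ne_zero i),
      if_neg fun h => hi (Fin.succ_injective _ h)]
  rw [GActAct_apply, GActA_apply, GActS, FreeGroup.lift_apply_of, map_mul, h1, GAct_sig_zero,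
    map_mul, map_mul, map_mul, map_inv, GAct_inv_xx, mul_assoc, ← mul_assoc (GActPsi (xx i.succ)),
    GAct_pair, GAct_pair, ← map_mul, SemidirectProduct.left_inl]

theorem GAct_pow (a : MulAut F4) (h0 : a (FreeGroup.of 0) = FreeGroup.of 0)
    (h1 : ∀ i : Fin 4, i ≠ 0 → a (FreeGroup.of i) = FreeGroup.of i * FreeGroup.of 0) (m : ℕ) :
    (a ^ m) (FreeGroup.of 0) = FreeGroup.of 0 ∧
      ∀ i : Fin 4, i ≠ 0 → (a ^ m) (FreeGroup.of i) = FreeGroup.of i * FreeGroup.of 0 ^ m := by
  induction m with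
  | zero => simp
  | succ m ih =>
    refine ⟨by rw [pow_succ, MulAut.mul_apply, h0, ih.1], fun i hi => ?_⟩
    rw [pow_succ, MulAut.mul_apply, h1 i hi, map_mul, ih.1, ih.2 i hi, pow_succ, mul_assoc]

theorem GAct_raise (α : MulAut F4) (D : Subgroup F4) (hD : D.Normal)
    (h : ∀ i, α (FreeGroup.of i) * (FreeGroup.of i)⁻¹ ∈ D) (y : F4) : α y * y⁻¹ ∈ D := by
  induction y using FreeGroup.induction_on with
  | C1 => simp only [map_one, inv_one, mul_one, one_mem]
  | of i => exact h i
  | inv_of i hi =>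
    have h1 := hD.conj_mem _ (inv_mem hi) (FreeGroup.of i)⁻¹
    have h2 : α (FreeGroup.of i)⁻¹ * (FreeGroup.of i)⁻¹⁻¹ = (FreeGroup.of i)⁻¹ *
        (α (FreeGroup.of i) * (FreeGroup.of i)⁻¹)⁻¹ * (FreeGroup.of i)⁻¹⁻¹ := by
      rw [map_inv]; group
    rw [h2]
    exact h1
  | mul y z hy hz =>
    have h1 := mul_mem hy (hD.conj_mem _ hz y)
    have h2 : α (y * z) * (y * z)⁻¹ = α y * y⁻¹ * (y * (α z * z⁻¹) * y⁻¹) := by
      rw [map_mul]; group
    rw [h2]
    exact h1

theorem GAct_final (e : ℕ) (y : F4) : (GActAct ⟨sig 0, sig_mem_Br 0⟩ ^ 2 ^ e) y * y⁻¹ ∈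
    DSub (∅ : Set (GA F4)) (2 ^ e) := by
  obtain ⟨h0, h1⟩ := GAct_pow _ GAct_gen_zero (fun i hi => GAct_gen_ne hi) (2 ^ e)
  refine GAct_raise _ _ (DSub_normal _ _) (fun i => ?_) y
  by_cases hi : i = 0
  · rw [hi, h0, mul_inv_cancel]
    exact one_mem _
  · rw [h1 i hi]
    exact (DSub_normal _ _).conj_mem _ (Submodule.mem_sup_right (pow_sub_one_mem _ e)) _

theorem exists_act : ∃ (ψ : F5 → F4) (act : Br →* MulAut F4),
    (∀ g h, par g = 1 → ψ (g * h) = ψ g * ψ h) ∧
    (∀ g h, par g ≠ 1 → ψ (g * h) = ψ g * iota4 (ψ h)) ∧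
    ψ (xx 0) = 1 ∧ (∀ i : Fin 4, ψ (xx i.succ) = FreeGroup.of i) ∧
    (∀ β : Br, ∀ g, par (β.1 g) = par g) ∧
    (∀ β : Br, ∀ g, par g = 1 → ψ (β.1 g) = act β (ψ g)) ∧
    (∀ y : F4, (act ⟨sig 0, sig_mem_Br 0⟩ ^ 2) y * y⁻¹ ∈ DSub (∅ : Set (GA F4)) 2) ∧
    (∀ y : F4, (act ⟨sig 0, sig_mem_Br 0⟩ ^ 4) y * y⁻¹ ∈ DSub (∅ : Set (GA F4)) 4) := by
  refine ⟨fun g => (GActPsi g).left, GActAct, GAct_psi_even, GAct_psi_odd, ?_, fun i => ?_,
    fun β => (GAct_br β.2).2.2, GActA_psi, fun y => ?_, fun y => ?_⟩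
  · simp only [GActPsi_zero, SemidirectProduct.left_inr]
  · simp only [GActPsi_succ, SemidirectProduct.mul_left, SemidirectProduct.left_inl,
      SemidirectProduct.left_inr, map_one, mul_one]
  · have h := GAct_final 1 y
    rwa [pow_one] at h
  · have h := GAct_final 2 y
    rwa [show (2 : ℕ) ^ 2 = 4 from rfl] at h

end Vale.Agent.P300
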