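import Vale.Agent.P300.GDefs

/-! P300: combing of the braid group. -/

namespace Vale.Agent.P300

section Abstract

variable {G : Type} [Group G]

/-- descending product `s (i+m-1) * ... * s i` -/
def GDecomp_rr (s : ℕ → G) (i : ℕ) : ℕ → G
  | 0 => 1
  | m + 1 => s (i + m) * GDecomp_rr s i m

/-- braid relations among the first `N` elements -/
structure GDecomp_Braid (s : ℕ → G) (N : ℕ) : Prop where
  hb : ∀ k, k + 1 < N → s k * s (k + 1) * s k = s (k + 1) * s k * s (k + 1)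
  hc : ∀ k l, k + 1 < l → l < N → s k * s l = s l * s k

theorem GDecomp_rr_succ (s : ℕ → G) (i m : ℕ) :
    GDecomp_rr s i (m + 1) = GDecomp_rr s (i + 1) m * s i := by
  induction m with
  | zero => simp [GDecomp_rr]
  | succ m ih =>
    rw [GDecomp_rr, ih, GDecomp_rr, mul_assoc, show i + (m + 1) = i + 1 + m by ring]

variable {s : ℕ → G} {N : ℕ}

theorem GDecomp_comm_low (h : GDecomp_Braid s N) {k i m : ℕ} (hk : k + 1 < i) (hm : i + m ≤ N) :
    s k * GDecomp_rr s i m = GDecomp_rr s i m * s k := by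
  induction m with
  | zero => simp [GDecomp_rr]
  | succ m ih =>
    rw [GDecomp_rr, ← mul_assoc, h.hc k (i + m) (by omega) (by omega), mul_assoc, ih (by omega),
      mul_assoc]

theorem GDecomp_comm_high (h : GDecomp_Braid s N) {l i m : ℕ} (hl : i + m < l) (hN : l < N) :
    s l * GDecomp_rr s i m = GDecomp_rr s i m * s l := by
  induction m with
  | zero => simp [GDecomp_rr]
  | succ m ih =>
    rw [GDecomp_rr, ← mul_assoc, ← h.hc (i + m) l (by omega) hN, mul_assoc, ih (by omega),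
      mul_assoc]

theorem GDecomp_shift (h : GDecomp_Braid s N) {k i m : ℕ} (hi : i ≤ k) (hk : k + 1 < i + m)
    (hm : i + m ≤ N) : GDecomp_rr s i m * s (k + 1) = s k * GDecomp_rr s i m := by
  induction m with
  | zero => omega
  | succ m ih =>
    rcases Nat.lt_or_ge (k + 1) (i + m) with h1 | h1
    · rw [GDecomp_rr, mul_assoc, ih h1 (by omega), ← mul_assoc,
        ← h.hc k (i + m) h1 (by omega), mul_assoc]
    · obtain ⟨m', rfl⟩ : ∃ m', m = m' + 1 := ⟨m - 1, by omega⟩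
      have e : k = i + m' := by omega
      subst e
      have e2 := GDecomp_comm_high h (l := i + m' + 1) (i := i) (m := m') (by omega) (by omega)
      have e3 := h.hb (i + m') (by omega)
      rw [GDecomp_rr, GDecomp_rr, ← add_assoc]
      calc s (i + m' + 1) * (s (i + m') * GDecomp_rr s i m') * s (i + m' + 1)
          = s (i + m' + 1) * s (i + m') * (GDecomp_rr s i m' * s (i + m' + 1)) := by group
        _ = (s (i + m' + 1) * s (i + m') * s (i + m' + 1)) * GDecomp_rr s i m' := by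
            rw [← e2]; group
        _ = _ := by rw [← e3]; group

/-- generators of the free kernel at level `n` -/
def GDecomp_A (s : ℕ → G) (n i : ℕ) : G :=
  GDecomp_rr s (i + 1) (n - i) * s i ^ 2 * (GDecomp_rr s (i + 1) (n - i))⁻¹

/-- the free kernel at level `n` -/
def GDecomp_U (s : ℕ → G) (n : ℕ) : Subgroup G :=
  Subgroup.closure {g | ∃ i ≤ n, g = GDecomp_A s n i}

/-- the subgroup generated by the first `n` elements -/
def GDecomp_B (s : ℕ → G) (n : ℕ) : Subgroup G := Subgroup.closure {g | ∃ k < n, g = s k}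

theorem GDecomp_A_mem (s : ℕ → G) {n i : ℕ} (hi : i ≤ n) : GDecomp_A s n i ∈ GDecomp_U s n :=
  Subgroup.subset_closure ⟨i, hi, rfl⟩

theorem GDecomp_s_mem (s : ℕ → G) {n k : ℕ} (hk : k < n) : s k ∈ GDecomp_B s n :=
  Subgroup.subset_closure ⟨k, hk, rfl⟩

theorem GDecomp_A_down (h : GDecomp_Braid s N) {n i : ℕ} (hn : n < N) (hi : i < n) :
    (s i)⁻¹ * GDecomp_A s n (i + 1) * s i = GDecomp_A s n i := by
  obtain ⟨m, rfl⟩ : ∃ m, n = i + 1 + m := ⟨n - (i + 1), by omega⟩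
  unfold GDecomp_A
  rw [show i + 1 + m - (i + 1) = m by omega, show i + 1 + m - i = m + 1 by omega,
    GDecomp_rr_succ]
  have e1 := GDecomp_comm_low h (k := i) (i := i + 1 + 1) (m := m) (by omega) (by omega)
  have e2 := h.hb i (by omega)
  set r := GDecomp_rr s (i + 1 + 1) m
  set a := s i
  set b := s (i + 1)
  have e3 : a⁻¹ * r = r * a⁻¹ := by
    calc a⁻¹ * r = a⁻¹ * (r * a) * a⁻¹ := by group
      _ = r * a⁻¹ := by rw [← e1]; group
  have e4 : r⁻¹ * a = a * r⁻¹ := by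
    calc r⁻¹ * a = r⁻¹ * (a * r) * r⁻¹ := by group
      _ = a * r⁻¹ := by rw [e1]; group
  have e5 : a⁻¹ * b * a = b * a * b⁻¹ := by
    calc a⁻¹ * b * a = a⁻¹ * (b * a * b) * b⁻¹ := by group
      _ = b * a * b⁻¹ := by rw [← e2]; group
  calc a⁻¹ * (r * b ^ 2 * r⁻¹) * a = (a⁻¹ * r) * b ^ 2 * (r⁻¹ * a) := by group
    _ = r * ((a⁻¹ * b * a) * (a⁻¹ * b * a)) * r⁻¹ := by rw [e3, e4, pow_two]; group
    _ = r * b * a ^ 2 * (r * b)⁻¹ := by rw [e5, pow_two]; group

theorem GDecomp_A_up (h : GDecomp_Braid s N) {n i : ℕ} (hn : n < N) (hi : i < n) :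
    s i * GDecomp_A s n (i + 1) * (s i)⁻¹ =
      (GDecomp_A s n (i + 1))⁻¹ * GDecomp_A s n i * GDecomp_A s n (i + 1) := by
  obtain ⟨m, rfl⟩ : ∃ m, n = i + 1 + m := ⟨n - (i + 1), by omega⟩
  unfold GDecomp_A
  rw [show i + 1 + m - (i + 1) = m by omega, show i + 1 + m - i = m + 1 by omega,
    GDecomp_rr_succ]
  have e1 := GDecomp_comm_low h (k := i) (i := i + 1 + 1) (m := m) (by omega) (by omega)
  have e2 := h.hb i (by omega)
  set r := GDecomp_rr s (i + 1 + 1) m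
  set a := s i
  set b := s (i + 1)
  have e4 : r⁻¹ * a⁻¹ = a⁻¹ * r⁻¹ := by
    rw [← mul_inv_rev, ← mul_inv_rev, e1]
  have e5 : a * b * a⁻¹ = b⁻¹ * a * b := by
    calc a * b * a⁻¹ = b⁻¹ * (b * a * b) * a⁻¹ := by group
      _ = b⁻¹ * a * b := by rw [← e2]; group
  calc a * (r * b ^ 2 * r⁻¹) * a⁻¹ = (a * r) * b ^ 2 * (r⁻¹ * a⁻¹) := by group
    _ = r * ((a * b * a⁻¹) * (a * b * a⁻¹)) * r⁻¹ := by rw [e1, e4, pow_two]; group
    _ = _ := by rw [e5, pow_two, pow_two]; group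

theorem GDecomp_A_comm (h : GDecomp_Braid s N) {n i k : ℕ} (hn : n < N) (hi : i ≤ n) (hk : k < n)
    (h1 : k ≠ i) (h2 : k + 1 ≠ i) : s k * GDecomp_A s n i = GDecomp_A s n i * s k := by
  unfold GDecomp_A
  set r := GDecomp_rr s (i + 1) (n - i) with hr
  rcases Nat.lt_or_ge k i with hki | hki
  · have e1 : s k * r = r * s k := GDecomp_comm_low h (by omega) (by omega)
    have e2 : s k * s i = s i * s k := h.hc k i (by omega) (by omega)
    have c1 : Commute (s k) r := e1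
    have c2 : Commute (s k) (s i) := e2
    exact (c1.mul_right (c2.pow_right 2)).mul_right c1.inv_right
  · have e1 : r * s (k + 1) = s k * r := GDecomp_shift h (by omega) (by omega) (by omega)
    have e2 : s i * s (k + 1) = s (k + 1) * s i := h.hc i (k + 1) (by omega) (by omega)
    have c2 : Commute (s i) (s (k + 1)) := e2
    have e3 := (c2.pow_left 2).eq
    calc s k * (r * s i ^ 2 * r⁻¹) = (s k * r) * s i ^ 2 * r⁻¹ := by group
      _ = r * (s (k + 1) * s i ^ 2) * r⁻¹ := by rw [← e1]; group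
      _ = r * s i ^ 2 * r⁻¹ * (r * s (k + 1)) * r⁻¹ := by rw [← e3]; group
      _ = _ := by rw [e1]; group

theorem GDecomp_conj_gen (h : GDecomp_Braid s N) {n i k : ℕ} (hn : n < N) (hi : i ≤ n)
    (hk : k < n) : s k * GDecomp_A s n i * (s k)⁻¹ ∈ GDecomp_U s n ∧
      (s k)⁻¹ * GDecomp_A s n i * (s k)⁻¹⁻¹ ∈ GDecomp_U s n := by
  rw [inv_inv]
  by_cases h1 : k = i
  · subst h1
    have e1 := GDecomp_A_down h hn hk
    have e2 := GDecomp_A_up h hn hk
    have m1 := GDecomp_A_mem s hi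
    have m2 := GDecomp_A_mem s (n := n) (i := k + 1) hk
    set A := GDecomp_A s n k
    set A' := GDecomp_A s n (k + 1)
    constructor
    · have : s k * A * (s k)⁻¹ = A' := by rw [← e1]; group
      rw [this]; exact m2
    · have e3 : A' = A⁻¹ * ((s k)⁻¹ * A * s k) * A := by
        calc A' = (s k)⁻¹ * (s k * A' * (s k)⁻¹) * s k := by group
          _ = ((s k)⁻¹ * A' * s k)⁻¹ * ((s k)⁻¹ * A * s k) * ((s k)⁻¹ * A' * s k) := by
              rw [e2]; group
          _ = _ := by rw [e1]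
      have : (s k)⁻¹ * A * s k = A * A' * A⁻¹ := by
        calc (s k)⁻¹ * A * s k = A * (A⁻¹ * ((s k)⁻¹ * A * s k) * A) * A⁻¹ := by group
          _ = _ := by rw [← e3]
      rw [this]
      exact mul_mem (mul_mem m1 m2) (inv_mem m1)
  by_cases h2 : k + 1 = i
  · subst h2
    have m1 := GDecomp_A_mem s (n := n) (i := k) hk.le
    have m2 := GDecomp_A_mem s hi
    rw [GDecomp_A_down h hn hk, GDecomp_A_up h hn hk]
    exact ⟨mul_mem (mul_mem (inv_mem m2) m1) m2, m1⟩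
  have e := GDecomp_A_comm h hn hi hk h1 h2
  have m1 := GDecomp_A_mem s hi
  constructor
  · rw [e, mul_inv_cancel_right]; exact m1
  · rw [mul_assoc, ← e, inv_mul_cancel_left]; exact m1

theorem GDecomp_conj_of (s : ℕ → G) (n : ℕ) (g : G)
    (hg : ∀ i ≤ n, g * GDecomp_A s n i * g⁻¹ ∈ GDecomp_U s n) :
    ∀ u ∈ GDecomp_U s n, g * u * g⁻¹ ∈ GDecomp_U s n := by
  intro u hu
  have : GDecomp_U s n ≤ (GDecomp_U s n).comap (MulAut.conj g).toMonoidHom := by
    refine (Subgroup.closure_le _).2 ?_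
    rintro _ ⟨i, hi, rfl⟩
    exact hg i hi
  exact this hu

theorem GDecomp_norm (h : GDecomp_Braid s N) {n : ℕ} (hn : n < N) :
    ∀ g ∈ GDecomp_B s n, ∀ u ∈ GDecomp_U s n, g * u * g⁻¹ ∈ GDecomp_U s n := by
  intro g hg
  refine Subgroup.closure_induction'' (p := fun g _ => ∀ u ∈ GDecomp_U s n,
    g * u * g⁻¹ ∈ GDecomp_U s n) ?_ ?_ ?_ ?_ hg
  · rintro _ ⟨k, hk, rfl⟩
    exact GDecomp_conj_of s n _ fun i hi => (GDecomp_conj_gen h hn hi hk).1
  · rintro _ ⟨k, hk, rfl⟩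
    exact GDecomp_conj_of s n _ fun i hi => (GDecomp_conj_gen h hn hi hk).2
  · intro u hu; simpa using hu
  · intro x y _ _ hx hy u hu
    have := hx _ (hy u hu)
    have e : x * y * u * (x * y)⁻¹ = x * (y * u * y⁻¹) * x⁻¹ := by group
    rw [e]; exact this

theorem GDecomp_mul (h : GDecomp_Braid s N) {n i k : ℕ} (hn : n < N) (hi : i ≤ n + 1)
    (hk : k < n + 1) :
    (∃ u ∈ GDecomp_U s n, ∃ b ∈ GDecomp_B s n, ∃ j ≤ n + 1,
      GDecomp_rr s i (n + 1 - i) * s k = u * b * GDecomp_rr s j (n + 1 - j)) ∧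
    (∃ u ∈ GDecomp_U s n, ∃ b ∈ GDecomp_B s n, ∃ j ≤ n + 1,
      GDecomp_rr s i (n + 1 - i) * (s k)⁻¹ = u * b * GDecomp_rr s j (n + 1 - j)) := by
  have key : GDecomp_rr s k (n + 1 - k) = GDecomp_rr s (k + 1) (n - k) * s k := by
    rw [show n + 1 - k = (n - k) + 1 by omega, GDecomp_rr_succ]
  have key2 : n + 1 - (k + 1) = n - k := by omega
  by_cases h1 : k = i
  · subst h1
    refine ⟨⟨_, GDecomp_A_mem s (n := n) (i := k) (by omega), 1, one_mem _, k + 1, by omega, ?_⟩,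
      ⟨1, one_mem _, 1, one_mem _, k + 1, by omega, ?_⟩⟩
    · rw [key, key2, GDecomp_A, pow_two]; group
    · rw [key, key2]; group
  by_cases h2 : k + 1 = i
  · subst h2
    refine ⟨⟨1, one_mem _, 1, one_mem _, k, by omega, ?_⟩,
      ⟨_, inv_mem (GDecomp_A_mem s (n := n) (i := k) (by omega)), 1, one_mem _, k, by omega, ?_⟩⟩
    · rw [key, key2]; group
    · rw [key, key2, GDecomp_A, pow_two]; group
  obtain ⟨l, hl, e⟩ : ∃ l < n, GDecomp_rr s i (n + 1 - i) * s k =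
      s l * GDecomp_rr s i (n + 1 - i) := by
    rcases Nat.lt_or_ge k i with hki | hki
    · exact ⟨k, by omega, (GDecomp_comm_low h (by omega) (by omega)).symm⟩
    · obtain ⟨l, rfl⟩ : ∃ l, k = l + 1 := ⟨k - 1, by omega⟩
      exact ⟨l, by omega, GDecomp_shift h (by omega) (by omega) (by omega)⟩
  refine ⟨⟨1, one_mem _, _, GDecomp_s_mem s hl, i, hi, by rw [e, one_mul]⟩,
    ⟨1, one_mem _, _, inv_mem (GDecomp_s_mem s hl), i, hi, ?_⟩⟩
  calc GDecomp_rr s i (n + 1 - i) * (s k)⁻¹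
      = (s l)⁻¹ * (s l * GDecomp_rr s i (n + 1 - i)) * (s k)⁻¹ := by group
    _ = _ := by rw [← e]; group

theorem GDecomp_step (h : GDecomp_Braid s N) {n : ℕ} (hn : n < N) :
    ∀ β ∈ GDecomp_B s (n + 1), ∃ u ∈ GDecomp_U s n, ∃ b ∈ GDecomp_B s n, ∃ j ≤ n + 1,
      β = u * b * GDecomp_rr s j (n + 1 - j) := by
  intro β hβ
  have aux : ∀ u ∈ GDecomp_U s n, ∀ b ∈ GDecomp_B s n, ∀ r x : G,
      (∃ u' ∈ GDecomp_U s n, ∃ b' ∈ GDecomp_B s n, ∃ j ≤ n + 1,
        r * x = u' * b' * GDecomp_rr s j (n + 1 - j)) →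
      ∃ u' ∈ GDecomp_U s n, ∃ b' ∈ GDecomp_B s n, ∃ j ≤ n + 1,
        u * b * r * x = u' * b' * GDecomp_rr s j (n + 1 - j) := by
    rintro u hu b hb r x ⟨u', hu', b', hb', j, hj, e⟩
    refine ⟨u * (b * u' * b⁻¹), mul_mem hu (GDecomp_norm h hn b hb u' hu'), b * b',
      mul_mem hb hb', j, hj, ?_⟩
    rw [mul_assoc (u * b), e]; group
  refine Subgroup.closure_induction_right (p := fun β _ => ∃ u ∈ GDecomp_U s n,
    ∃ b ∈ GDecomp_B s n, ∃ j ≤ n + 1, β = u * b * GDecomp_rr s j (n + 1 - j)) ?_ ?_ ?_ hβ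
  · exact ⟨1, one_mem _, 1, one_mem _, n + 1, le_rfl, by simp [GDecomp_rr]⟩
  · rintro _ _ _ ⟨k, hk, rfl⟩ ⟨u, hu, b, hb, j, hj, rfl⟩
    exact aux u hu b hb _ _ (GDecomp_mul h hn hj hk).1
  · rintro _ _ _ ⟨k, hk, rfl⟩ ⟨u, hu, b, hb, j, hj, rfl⟩
    exact aux u hu b hb _ _ (GDecomp_mul h hn hj hk).2

theorem GDecomp_rr_mem (s : ℕ → G) (H : Subgroup G) (hs : ∀ k, s k ∈ H) (i m : ℕ) :
    GDecomp_rr s i m ∈ H := by
  induction m with
  | zero => exact one_mem _
  | succ m ih => exact mul_mem (hs _) ih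

theorem GDecomp_conj0 (h : GDecomp_Braid s N) (H : Subgroup G) (hs : ∀ k, s k ∈ H) (k : ℕ)
    (hk : k < N) : ∃ γ ∈ H, s k = γ * s 0 * γ⁻¹ := by
  induction k with
  | zero => exact ⟨1, one_mem _, by group⟩
  | succ k ih =>
    obtain ⟨γ, hγ, e⟩ := ih (by omega)
    have e1 := GDecomp_shift h (k := k) (i := 0) (m := N) (by omega) (by omega) (by omega)
    have hr := GDecomp_rr_mem s H hs 0 N
    refine ⟨(GDecomp_rr s 0 N)⁻¹ * γ, mul_mem (inv_mem hr) hγ, ?_⟩
    calc s (k + 1) = (GDecomp_rr s 0 N)⁻¹ * (GDecomp_rr s 0 N * s (k + 1)) := by group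
      _ = _ := by rw [e1, e]; group

end Abstract

/-- the Artin generators indexed by natural numbers -/
noncomputable def GDecomp_s (k : ℕ) : MulAut F5 := if h : k < 4 then sig ⟨k, h⟩ else 1

theorem GDecomp_ext {f g : MulAut F5} (h : ∀ i, f (xx i) = g (xx i)) : f = g := by
  apply MulEquiv.toMonoidHom_injective
  exact FreeGroup.ext_hom _ _ h

theorem GDecomp_braid : GDecomp_Braid GDecomp_s 4 := by
  constructor
  · intro k hk
    have : k = 0 ∨ k = 1 ∨ k = 2 := by omega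
    rcases this with rfl | rfl | rfl <;> apply GDecomp_ext <;> intro i <;> fin_cases i <;>
      simp [GDecomp_s, sig_xx, sigF, mul_assoc]
  · intro k l hk hl
    have : (k = 0 ∧ l = 2) ∨ (k = 0 ∧ l = 3) ∨ (k = 1 ∧ l = 3) := by omega
    rcases this with ⟨rfl, rfl⟩ | ⟨rfl, rfl⟩ | ⟨rfl, rfl⟩ <;> apply GDecomp_ext <;> intro i <;>
      fin_cases i <;> simp [GDecomp_s, sig_xx, sigF, mul_assoc]

theorem GDecomp_s_Br (k : ℕ) : GDecomp_s k ∈ Br := by
  unfold GDecomp_s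
  split_ifs with h
  · exact Subgroup.subset_closure ⟨_, rfl⟩
  · exact one_mem _

theorem decomp : ∃ (T : Fin 4 → Fin 4 → MulAut F5) (R : Finset (MulAut F5)),
    (∀ j i, ∃ γ ∈ Br, T j i = γ * sig 0 ^ 2 * γ⁻¹) ∧ (∀ r ∈ R, r ∈ Br) ∧
    ∀ β ∈ Br, ∃ u : Fin 4 → MulAut F5, (∀ j, u j ∈ Subgroup.closure (Set.range (T j))) ∧
      ∃ r ∈ R, β = u 0 * u 1 * u 2 * u 3 * r := by
  classical
  have hb := GDecomp_braid
  set s := GDecomp_s with hs
  have hr := GDecomp_rr_mem s Br GDecomp_s_Br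
  refine ⟨fun j i => GDecomp_A s (3 - j) (min i (3 - j)),
    (Finset.range 5 ×ˢ Finset.range 5 ×ˢ Finset.range 5 ×ˢ Finset.range 5).image fun p =>
      GDecomp_rr s p.1 (1 - p.1) * GDecomp_rr s p.2.1 (2 - p.2.1) *
        GDecomp_rr s p.2.2.1 (3 - p.2.2.1) * GDecomp_rr s p.2.2.2 (4 - p.2.2.2), ?_, ?_, ?_⟩
  · intro j i
    obtain ⟨γ, hγ, e⟩ := GDecomp_conj0 hb Br GDecomp_s_Br (min i (3 - j)) (by omega)
    have e0 : s 0 = sig 0 := by simp [hs, GDecomp_s]
    refine ⟨_, mul_mem (hr (min (i : ℕ) (3 - j) + 1) (3 - j - min (i : ℕ) (3 - j))) hγ, ?_⟩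
    simp only [GDecomp_A]
    rw [e, e0, pow_two, pow_two]; group
  · intro r h
    obtain ⟨p, -, rfl⟩ := Finset.mem_image.1 h
    exact mul_mem (mul_mem (mul_mem (hr _ _) (hr _ _)) (hr _ _)) (hr _ _)
  · intro β hβ
    have h4 : β ∈ GDecomp_B s (3 + 1) := by
      refine (Subgroup.closure_le _).2 ?_ hβ
      rintro _ ⟨k, rfl⟩
      have : sig k = s k := by simp [hs, GDecomp_s]
      rw [this]
      exact GDecomp_s_mem s k.2
    obtain ⟨u0, m0, b3, h3, j4, k4, rfl⟩ := GDecomp_step hb (n := 3) (by omega) β h4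
    obtain ⟨u1, m1, b2, h2, j3, k3, rfl⟩ := GDecomp_step hb (n := 2) (by omega) b3 h3
    obtain ⟨u2, m2, b1, h1, j2, k2, rfl⟩ := GDecomp_step hb (n := 1) (by omega) b2 h2
    obtain ⟨u3, m3, b0, h0, j1, k1, rfl⟩ := GDecomp_step hb (n := 0) (by omega) b1 h1
    have e0 : b0 = 1 := by
      have : GDecomp_B s 0 ≤ ⊥ := (Subgroup.closure_le _).2 (by rintro _ ⟨k, hk, -⟩; omega)
      exact this h0
    subst e0
    have hU : ∀ j : Fin 4, GDecomp_U s (3 - j) ≤ Subgroup.closure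
        (Set.range fun i : Fin 4 => GDecomp_A s (3 - j) (min i (3 - j))) := by
      intro j
      refine Subgroup.closure_mono ?_
      rintro _ ⟨i, hi, rfl⟩
      exact ⟨⟨i, by omega⟩, by simp only [min_eq_left hi]⟩
    refine ⟨![u0, u1, u2, u3], ?_, _, Finset.mem_image.2 ⟨(j1, j2, j3, j4), ?_, rfl⟩, ?_⟩
    · intro j
      apply hU j
      fin_cases j
      · exact m0
      · exact m1
      · exact m2
      · exact m3
    · simp only [Finset.mem_product, Finset.mem_range]; omega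
    · simp only [Matrix.cons_val_zero, Matrix.cons_val_one, Matrix.cons_val]
      group

end Vale.Agent.P300
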