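import Vale.Agent.P300.GFil

/-! P300: the Golod-Shafarevich inequality for the mod 2 group algebra of the free group of rank 4. -/

namespace Vale.Agent.P300

open MonoidAlgebra

/-- the generators of the augmentation ideal -/
noncomputable def GGSxi (i : Fin 4) : GA F4 := of (ZMod 2) F4 (FreeGroup.of i) - 1

theorem GGS_cocycle : ∃ δ : F4 → Fin 4 → GA F4,
    (∀ g h, δ (g * h) = of (ZMod 2) F4 g • δ h + δ g) ∧
    ∀ j, δ (FreeGroup.of j) = Pi.single j 1 := by
  have hinv : ∀ g : F4, of (ZMod 2) F4 g⁻¹ * of (ZMod 2) F4 g = 1 := fun g => by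
    rw [← map_mul, inv_mul_cancel, map_one]
  have hinv' : ∀ g : F4, of (ZMod 2) F4 g * of (ZMod 2) F4 g⁻¹ = 1 := fun g => by
    rw [← map_mul, mul_inv_cancel, map_one]
  let e : Fin 4 → Equiv.Perm (Fin 4 → GA F4) := fun j =>
    { toFun := fun v => of (ZMod 2) F4 (FreeGroup.of j) • v + Pi.single j 1
      invFun := fun v => of (ZMod 2) F4 (FreeGroup.of j)⁻¹ • (v - Pi.single j 1)
      left_inv := fun v => by simp only [add_sub_cancel_right, smul_smul, hinv, one_smul]
      right_inv := fun v => by simp only [smul_smul, hinv', one_smul, sub_add_cancel] }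
  have key : ∀ (g : F4) (v : Fin 4 → GA F4),
      FreeGroup.lift e g v = of (ZMod 2) F4 g • v + FreeGroup.lift e g 0 := by
    intro g
    induction g using FreeGroup.induction_on with
    | C1 => intro v; simp only [map_one, one_smul, Equiv.Perm.one_apply, add_zero]
    | of j =>
      intro v
      rw [FreeGroup.lift_apply_of]
      change _ • v + _ = _ • v + (_ • (0 : Fin 4 → GA F4) + _)
      rw [smul_zero, zero_add]
    | inv_of j _ =>
      intro v
      rw [map_inv, FreeGroup.lift_apply_of]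
      change of (ZMod 2) F4 (FreeGroup.of j)⁻¹ • (v - Pi.single j 1) =
        _ • v + of (ZMod 2) F4 (FreeGroup.of j)⁻¹ • ((0 : Fin 4 → GA F4) - Pi.single j 1)
      rw [← smul_add, zero_sub, sub_eq_add_neg]
    | mul g h ihg ihh =>
      intro v
      rw [map_mul, map_mul, Equiv.Perm.mul_apply, Equiv.Perm.mul_apply, ihh v, ihg,
        ihg (FreeGroup.lift e h 0), smul_add, smul_smul, add_assoc]
  refine ⟨fun g => FreeGroup.lift e g 0, fun g h => ?_, fun j => ?_⟩
  · beta_reduce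
    rw [map_mul, Equiv.Perm.mul_apply, key]
  · beta_reduce
    rw [FreeGroup.lift_apply_of]
    change of (ZMod 2) F4 (FreeGroup.of j) • (0 : Fin 4 → GA F4) + _ = _
    rw [smul_zero, zero_add]

theorem GGS_fox : ∃ (ε : GA F4 →ₐ[ZMod 2] ZMod 2) (D : GA F4 →ₗ[ZMod 2] Fin 4 → GA F4),
    (∀ g, ε (of (ZMod 2) F4 g) = 1) ∧ (∀ a, a = ε a • 1 + ∑ i, D a i * GGSxi i) ∧
    ∀ a j, D (a * GGSxi j) = Pi.single j a := by
  obtain ⟨δ, h1, h2⟩ := GGS_cocycle
  obtain ⟨D, hD⟩ : ∃ D : GA F4 →ₗ[ZMod 2] Fin 4 → GA F4, ∀ g, D (of (ZMod 2) F4 g) = δ g :=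
    ⟨(MonoidAlgebra.basis F4 (ZMod 2)).constr (ZMod 2) δ, fun g =>
      (MonoidAlgebra.basis F4 (ZMod 2)).constr_basis (ZMod 2) δ g⟩
  have hε : ∀ g, MonoidAlgebra.lift (ZMod 2) (ZMod 2) F4 1 (of (ZMod 2) F4 g) = 1 := fun g => by
    rw [MonoidAlgebra.lift_of, MonoidHom.one_apply]
  have hm : ∀ g h, ∑ i, δ (g * h) i * GGSxi i =
      of (ZMod 2) F4 g * ∑ i, δ h i * GGSxi i + ∑ i, δ g i * GGSxi i := by
    intro g h
    simp only [h1, Pi.add_apply, Pi.smul_apply, smul_eq_mul, add_mul, Finset.sum_add_distrib,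
      Finset.mul_sum, mul_assoc]
  have h0 : δ 1 = 0 := by
    have := h1 1 1
    rw [mul_one, map_one, one_smul] at this
    exact left_eq_add.1 this
  have hg : ∀ g, ∑ i, δ g i * GGSxi i = of (ZMod 2) F4 g - 1 := by
    intro g
    induction g using FreeGroup.induction_on with
    | C1 => simp only [h0, map_one, sub_self, Pi.zero_apply, zero_mul, Finset.sum_const_zero]
    | of j =>
      rw [h2, Finset.sum_eq_single j (fun i _ hi => by rw [Pi.single_eq_of_ne hi, zero_mul])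
        (by simp), Pi.single_eq_same, one_mul, GGSxi]
    | inv_of j ih =>
      have := hm (FreeGroup.of j)⁻¹ (FreeGroup.of j)
      rw [inv_mul_cancel, h0, ih, mul_sub, ← map_mul, inv_mul_cancel, map_one, mul_one] at this
      simp only [Pi.zero_apply, zero_mul, Finset.sum_const_zero] at this
      rw [eq_neg_of_add_eq_zero_right this.symm, neg_sub]
    | mul g h ihg ihh => rw [hm, ihg, ihh, mul_sub, mul_one, map_mul, sub_add_sub_cancel]
  refine ⟨MonoidAlgebra.lift (ZMod 2) (ZMod 2) F4 1, D, hε, fun a => ?_, fun a j => ?_⟩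
  · induction a using MonoidAlgebra.induction_on with
    | of g => rw [hε, hD, hg, one_smul, add_sub_cancel]
    | add x y hx hy =>
      simp only [map_add, add_smul, Pi.add_apply, add_mul, Finset.sum_add_distrib]
      conv_lhs => rw [hx, hy]
      abel
    | smul r x hx =>
      simp only [map_smul, Pi.smul_apply, smul_mul_assoc, ← Finset.smul_sum, smul_assoc,
        ← smul_add]
      rw [← hx]
  · induction a using MonoidAlgebra.induction_on with
    | of g =>
      rw [GGSxi, mul_sub, mul_one, ← map_mul, map_sub, hD, hD, h1, h2, add_sub_cancel_right,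
        ← Pi.single_smul, smul_eq_mul, mul_one]
    | add x y hx hy => rw [add_mul, map_add, hx, hy, Pi.single_add]
    | smul r x hx => rw [smul_mul_assoc, map_smul, hx, Pi.single_smul]

theorem GGS_xi_mem (i : Fin 4) : GGSxi i ∈ fil F4 1 := of_sub_one_mem _

theorem GGS_mul_mem {S : Set (GA F4)} {m n : ℕ} {a b : GA F4} (ha : a ∈ idl S ⊔ fil F4 m)
    (hb : b ∈ fil F4 n) : a * b ∈ idl S ⊔ fil F4 (m + n) := by
  obtain ⟨x, hx, y, hy, rfl⟩ := Submodule.mem_sup.1 ha
  rw [add_mul]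
  exact Submodule.add_mem_sup (idl_mul_right b hx) (fil_mul hy hb)

theorem GGS_finite (S : Set (GA F4)) (m : ℕ) :
    Module.Finite (ZMod 2) (GA F4 ⧸ (idl S ⊔ fil F4 m)) :=
  have := finite_quot_fil (G := F4) m
  Module.Finite.of_surjective (Submodule.factor (le_sup_right : fil F4 m ≤ idl S ⊔ fil F4 m))
    (Submodule.factor_surjective _)

theorem GGS_step (s : ℕ → Finset (GA F4)) (hs : ∀ d, ∀ f ∈ s d, f ∈ fil F4 d) (h0 : s 0 = ∅)
    (I : ℕ → Submodule (ZMod 2) (GA F4)) (hI : ∀ m, I m = idl (⋃ d, (s d : Set (GA F4))) ⊔ fil F4 m) :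
    (1 : GA F4) ∉ I 1 ∧ ∀ m, 4 * Module.finrank (ZMod 2) (GA F4 ⧸ I m) ≤
      ∑ d ∈ Finset.range (m + 2), (s d).card * Module.finrank (ZMod 2) (GA F4 ⧸ I (m + 1 - d)) +
        Module.finrank (ZMod 2) (GA F4 ⧸ I (m + 1)) := by
  obtain ⟨ε, D, hε, h1, h2⟩ := GGS_fox
  have hφ : ∀ b : Fin 4 → GA F4, D (∑ i, b i * GGSxi i) = b := fun b => by
    simp only [map_sum, h2, Finset.univ_sum_single]
  have hε1 : ∀ z ∈ fil F4 1, ε z = 0 := by
    intro z hz
    rw [fil_succ 0] at hz
    refine Submodule.span_induction (fun z hz => ?_) (map_zero _) (fun x y _ _ hx hy => ?_)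
      (fun r x _ hx => ?_) hz
    · obtain ⟨a, -, g, rfl⟩ := hz
      rw [map_mul, map_sub, hε, map_one, sub_self, mul_zero]
    · rw [map_add, hx, hy, add_zero]
    · rw [map_smul, hx, smul_zero]
  have hmul : ∀ a, ∀ z ∈ fil F4 1, D (a * z) = a • D z := by
    intro a z hz
    conv_lhs => rw [h1 z, hε1 z hz, zero_smul, zero_add, Finset.mul_sum]
    simp only [← mul_assoc]
    exact hφ _
  have hfil : ∀ n, ∀ z ∈ fil F4 (n + 1), ∀ i, D z i ∈ fil F4 n := by
    intro n z hz i
    rw [fil_succ] at hz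
    refine Submodule.span_induction (fun z hz => ?_) (by simp) (fun x y _ _ hx hy => ?_)
      (fun r x _ hx => ?_) hz
    · obtain ⟨a, ha, g, rfl⟩ := hz
      rw [hmul a _ (of_sub_one_mem g)]
      exact fil_mul (n := 0) ha (by rw [fil_zero]; trivial)
    · rw [map_add]
      exact add_mem hx hy
    · rw [map_smul]
      exact Submodule.smul_mem _ r hx
  have hd1 : ∀ d, ∀ f ∈ s d, 1 ≤ d := fun d f hf => Nat.one_le_iff_ne_zero.2 (by
    rintro rfl
    simp [h0] at hf)
  have htop : ∀ a : GA F4, a ∈ fil F4 0 := fun a => by rw [fil_zero]; trivial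
  refine ⟨fun h => ?_, fun m => ?_⟩
  · have : I 1 ≤ fil F4 1 := by
      rw [hI]
      refine sup_le (Submodule.span_le.2 ?_) le_rfl
      rintro _ ⟨a, b, f, hf, rfl⟩
      obtain ⟨d, hd⟩ := Set.mem_iUnion.1 hf
      have b1 : f ∈ fil F4 1 := fil_anti (hd1 d f hd) (hs d f hd)
      have b2 := fil_mul (fil_mul (htop a) b1) (htop b)
      rwa [zero_add, add_zero] at b2
    simpa using hε1 1 (this h)
  have hfin : ∀ m, Module.Finite (ZMod 2) (GA F4 ⧸ I m) := fun m => hI m ▸ GGS_finite _ m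
  have a1 : ∀ i, I m ≤ (I (m + 1)).comap (LinearMap.mulRight (ZMod 2) (GGSxi i)) := by
    intro i a ha
    rw [hI] at ha
    rw [Submodule.mem_comap, hI]
    exact GGS_mul_mem ha (GGS_xi_mem i)
  have a2 : ∀ (x : Σ d : Fin (m + 2), s d) (i : Fin 4),
      I (m + 1 - x.1) ≤ (I m).comap (LinearMap.mulRight (ZMod 2) (D x.2 i)) := by
    intro x i a ha
    rw [hI] at ha
    rw [Submodule.mem_comap, hI]
    have b1 := hd1 _ _ x.2.2
    have b2 := x.1.2
    have b3 : D x.2 i ∈ fil F4 (x.1 - 1) :=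
      hfil _ _ (by rw [Nat.sub_add_cancel b1]; exact hs _ _ x.2.2) i
    have := GGS_mul_mem ha b3
    rwa [show m + 1 - x.1 + (x.1 - 1) = m by omega] at this
  let Φ : (Fin 4 → GA F4 ⧸ I m) →ₗ[ZMod 2] GA F4 ⧸ I (m + 1) :=
    ∑ i, (Submodule.mapQ _ _ _ (a1 i)).comp (LinearMap.proj i)
  let Ψ : (∀ x : Σ d : Fin (m + 2), s d, GA F4 ⧸ I (m + 1 - x.1)) →ₗ[ZMod 2]
      (Fin 4 → GA F4 ⧸ I m) :=
    ∑ x, (LinearMap.pi fun i => Submodule.mapQ _ _ _ (a2 x i)).comp (LinearMap.proj x)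
  let π : (Fin 4 → GA F4) →ₗ[ZMod 2] (Fin 4 → GA F4 ⧸ I m) :=
    LinearMap.pi fun i => (I m).mkQ.comp (LinearMap.proj i)
  have hz : ∀ b : Fin 4 → GA F4, (∀ i, b i ∈ I m) → π b ∈ LinearMap.range Ψ := by
    intro b hb
    have : π b = 0 := funext fun i => (Submodule.Quotient.mk_eq_zero _).2 (hb i)
    rw [this]
    exact zero_mem _
  have hF : ∀ z ∈ fil F4 (m + 1), π (D z) ∈ LinearMap.range Ψ := fun z h =>
    hz _ fun i => hI m ▸ Submodule.mem_sup_right (hfil m z h i)
  have hK : I (m + 1) ≤ ((LinearMap.range Ψ).comap π).comap D := by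
    rw [hI]
    refine sup_le (Submodule.span_le.2 ?_) hF
    rintro _ ⟨a, b, f, hf, rfl⟩
    change π (D (a * f * b)) ∈ LinearMap.range Ψ
    have e : a * f * b = ε b • (a * f) + ∑ i, (a * f * D b i) * GGSxi i := by
      conv_lhs => rw [h1 b]
      simp only [mul_add, mul_smul_comm, mul_one, Finset.mul_sum, mul_assoc]
    rw [e, map_add, map_add, map_smul, map_smul, hφ]
    refine add_mem (Submodule.smul_mem _ _ ?_) (hz _ fun i => hI m ▸ Submodule.mem_sup_left
      (idl_mul_right _ (idl_mul_left _ (mem_idl hf))))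
    obtain ⟨d, hd⟩ := Set.mem_iUnion.1 hf
    rcases lt_or_ge d (m + 2) with h | h
    · classical
      refine ⟨Pi.single ⟨⟨d, h⟩, f, hd⟩ (Submodule.Quotient.mk a), ?_⟩
      rw [hmul a f (fil_anti (hd1 d f hd) (hs d f hd))]
      simp only [Ψ, LinearMap.sum_apply, LinearMap.comp_apply, LinearMap.proj_apply]
      rw [Finset.sum_eq_single ⟨⟨d, h⟩, f, hd⟩
        (fun x _ hx => by rw [Pi.single_eq_of_ne hx, map_zero]) (by simp), Pi.single_eq_same]
      rfl
    · refine hF _ ?_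
      have := fil_mul (m := 0) (htop a) (fil_anti (show m + 1 ≤ d by omega) (hs d f hd))
      rwa [zero_add] at this
  have hker : LinearMap.ker Φ ≤ LinearMap.range Ψ := by
    intro q hq
    choose b hb using fun i => Submodule.Quotient.mk_surjective (I m) (q i)
    have e1 : q = π b := funext fun i => (hb i).symm
    have e2 : Φ (π b) = (I (m + 1)).mkQ (∑ i, b i * GGSxi i) := by
      simp only [Φ, LinearMap.sum_apply, map_sum]
      rfl
    rw [LinearMap.mem_ker, e1, e2, Submodule.mkQ_apply, Submodule.Quotient.mk_eq_zero] at hq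
    have := hK hq
    rw [Submodule.mem_comap, hφ] at this
    exact e1 ▸ this
  have c1 := Φ.finrank_range_add_finrank_ker
  have c2 := Submodule.finrank_mono hker
  have c3 := Ψ.finrank_range_le
  have c4 := Submodule.finrank_le (LinearMap.range Φ)
  rw [Module.finrank_pi_fintype] at c1 c3
  rw [Fintype.sum_sigma] at c3
  simp only [Finset.sum_const, Finset.card_univ, Fintype.card_fin, smul_eq_mul] at c1
  replace c3 := c3.trans (le_of_eq (Finset.sum_congr rfl fun (d : Fin (m + 2)) _ =>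
    (show ∑ _x : s d, Module.finrank (ZMod 2) (GA F4 ⧸ I (m + 1 - d)) =
      (s d).card * Module.finrank (ZMod 2) (GA F4 ⧸ I (m + 1 - d)) by
        rw [Finset.sum_const, Finset.card_univ, Fintype.card_coe, smul_eq_mul])))
  rw [← Fin.sum_univ_eq_sum_range
    (fun d => (s d).card * Module.finrank (ZMod 2) (GA F4 ⧸ I (m + 1 - d)))]
  omega

theorem golod (s : ℕ → Finset (GA F4)) (hs : ∀ d, ∀ f ∈ s d, f ∈ fil F4 d) (h0 : s 0 = ∅)
    (t : ℝ) (ht0 : 0 < t) (ht1 : t < 1) (hsum : Summable fun d => ((s d).card : ℝ) * t ^ d)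
    (hneg : 1 - 4 * t + ∑' d, ((s d).card : ℝ) * t ^ d < 0) (n : ℕ) :
    ∃ m, n ≤ Module.finrank (ZMod 2) (GA F4 ⧸ (idl (⋃ d, (s d : Set (GA F4))) ⊔ fil F4 m)) := by
  by_contra hc
  push Not at hc
  obtain ⟨h1, h2⟩ := GGS_step s hs h0 _ fun _ => rfl
  obtain ⟨c, hc'⟩ : ∃ c : ℕ → ℕ, c = fun m =>
      Module.finrank (ZMod 2) (GA F4 ⧸ (idl (⋃ d, (s d : Set (GA F4))) ⊔ fil F4 m)) := ⟨_, rfl⟩
  have h3 : 1 ≤ c 1 := by
    have := GGS_finite (⋃ d, (s d : Set (GA F4))) 1
    have : Nontrivial (GA F4 ⧸ (idl (⋃ d, (s d : Set (GA F4))) ⊔ fil F4 1)) :=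
      Submodule.Quotient.nontrivial_iff.2 fun h => h1 (by rw [h]; trivial)
    rw [hc']
    exact Module.finrank_pos
  have h4 : ∀ m, 4 * c m ≤ ∑ d ∈ Finset.range (m + 2), (s d).card * c (m + 1 - d) + c (m + 1) := by
    rw [hc']
    exact h2
  have h5 : ∀ m, (c m : ℝ) ≤ n := fun m => by
    rw [hc']
    exact_mod_cast (hc m).le
  obtain ⟨H, hH⟩ : ∃ H, H = ∑' d, ((s d).card : ℝ) * t ^ d := ⟨_, rfl⟩
  rw [← hH] at hneg
  have key : ∀ N : ℕ, (4 * t - 1 - H) * t ≤ 4 * t * n * t ^ (N + 1) := by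
    intro N
    obtain ⟨C, hC⟩ : ∃ C, C = ∑ k ∈ Finset.range (N + 2), (c k : ℝ) * t ^ k := ⟨_, rfl⟩
    have hCt : t ≤ C := by
      have : (1 : ℝ) ≤ c 1 := by exact_mod_cast h3
      refine le_trans (by nlinarith : t ≤ (c 1 : ℝ) * t ^ 1) ?_
      rw [hC]
      exact Finset.single_le_sum (f := fun k => (c k : ℝ) * t ^ k) (fun k _ => by positivity)
        (Finset.mem_range.2 (by omega))
    have e1 : ∑ M ∈ Finset.range (N + 2), ∑ d ∈ Finset.range (M + 1),
        ((s d).card : ℝ) * t ^ d * (c (M - d) * t ^ (M - d)) ≤ H * C := by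
      rw [Finset.sum_range_diag_flip (N + 2)
        fun d k => ((s d).card : ℝ) * t ^ d * (c k * t ^ k)]
      calc _ ≤ ∑ d ∈ Finset.range (N + 2), ((s d).card : ℝ) * t ^ d * C := by
            refine Finset.sum_le_sum fun d _ => ?_
            rw [← Finset.mul_sum, hC]
            exact mul_le_mul_of_nonneg_left (Finset.sum_le_sum_of_subset_of_nonneg
              (Finset.range_subset_range.2 (Nat.sub_le _ _)) fun k _ _ => by positivity)
              (by positivity)
        _ ≤ _ := by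
            rw [← Finset.sum_mul, hH]
            exact mul_le_mul_of_nonneg_right (hsum.sum_le_tsum _ fun d _ => by positivity)
              (ht0.le.trans hCt)
    have e2 : ∀ m, 4 * t * (c m * t ^ m) ≤ ∑ d ∈ Finset.range (m + 1 + 1),
        ((s d).card : ℝ) * t ^ d * (c (m + 1 - d) * t ^ (m + 1 - d)) + c (m + 1) * t ^ (m + 1) := by
      intro m
      have b1 : (4 * c m : ℝ) ≤ ∑ d ∈ Finset.range (m + 2), ((s d).card : ℝ) * c (m + 1 - d) +
          c (m + 1) := by exact_mod_cast h4 m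
      have b2 := mul_le_mul_of_nonneg_right b1 (pow_pos ht0 (m + 1)).le
      rw [add_mul, Finset.sum_mul] at b2
      have b3 : ∑ d ∈ Finset.range (m + 1 + 1),
          ((s d).card : ℝ) * t ^ d * (c (m + 1 - d) * t ^ (m + 1 - d)) =
          ∑ d ∈ Finset.range (m + 2), ((s d).card : ℝ) * c (m + 1 - d) * t ^ (m + 1) := by
        refine Finset.sum_congr rfl fun d hd => ?_
        rw [← pow_mul_pow_sub t (Nat.lt_succ_iff.1 (Finset.mem_range.1 hd))]
        ring
      rw [b3]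
      calc _ = 4 * c m * t ^ (m + 1) := by ring
        _ ≤ _ := b2
    have e3 := Finset.sum_le_sum fun m (_ : m ∈ Finset.range (N + 1)) => e2 m
    rw [Finset.sum_add_distrib, ← Finset.mul_sum] at e3
    rw [Finset.sum_range_succ'] at e1
    have e4 := hC
    rw [Finset.sum_range_succ'] at e4
    rw [Finset.sum_range_succ] at hC
    have e5 : 0 ≤ ∑ d ∈ Finset.range (0 + 1),
        ((s d).card : ℝ) * t ^ d * (c (0 - d) * t ^ (0 - d)) := by positivity
    have e6 : 0 ≤ (c 0 : ℝ) * t ^ 0 := by positivity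
    have e7 := mul_le_mul_of_nonneg_right (h5 (N + 1)) (pow_pos ht0 (N + 1)).le
    have e8 := mul_le_mul_of_nonneg_left hCt (by linarith : 0 ≤ 4 * t - 1 - H)
    have e9 := mul_le_mul_of_nonneg_left e7 (by linarith : 0 ≤ 4 * t)
    have e10 : 4 * t * C = 4 * t * ∑ k ∈ Finset.range (N + 1), (c k : ℝ) * t ^ k +
        4 * t * (c (N + 1) * t ^ (N + 1)) := by rw [hC]; ring
    linarith
  have lim : Filter.Tendsto (fun N : ℕ => 4 * t * n * t ^ (N + 1)) Filter.atTop
      (nhds (4 * t * n * 0)) :=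
    ((tendsto_pow_atTop_nhds_zero_of_lt_one ht0.le ht1).comp
      (Filter.tendsto_add_atTop_nat 1)).const_mul _
  have := ge_of_tendsto' lim key
  nlinarith

end Vale.Agent.P300
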