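import Mathlib

/-! P300: dimension count for orbits of filtered operators in characteristic two. -/

namespace Vale.Agent.P300

section

variable {M : Type} [AddCommGroup M] [Module (ZMod 2) M]

/-- the total weight of a family of vectors with levels -/
noncomputable def GSpan_pot (S : Multiset (M × ℕ)) : ℝ :=
  (S.map fun p => (297 / 1000 : ℝ) ^ p.2).sum

/-- the span of a family of vectors together with a subspace -/
def GSpan_W (N : Submodule (ZMod 2) M) (S : Multiset (M × ℕ)) : Submodule (ZMod 2) M :=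
  Submodule.span (ZMod 2) {x | ∃ p ∈ S, p.1 = x} ⊔ N

omit [AddCommGroup M] [Module (ZMod 2) M] in
theorem GSpan_pot_add (S S' : Multiset (M × ℕ)) :
    GSpan_pot (S + S') = GSpan_pot S + GSpan_pot S' := by
  simp [GSpan_pot]

omit [AddCommGroup M] [Module (ZMod 2) M] in
theorem GSpan_pot_cons (p : M × ℕ) (S : Multiset (M × ℕ)) :
    GSpan_pot (p ::ₘ S) = (297 / 1000 : ℝ) ^ p.2 + GSpan_pot S := by
  simp [GSpan_pot]

omit [AddCommGroup M] [Module (ZMod 2) M] in
theorem GSpan_pot_sum (S : Fin 4 → Multiset (M × ℕ)) :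
    GSpan_pot (∑ i, S i) = ∑ i, GSpan_pot (S i) := by
  simp only [Fin.sum_univ_four, GSpan_pot_add]

theorem GSpan_W_mono (N : Submodule (ZMod 2) M) {S S' : Multiset (M × ℕ)} (h : S ⊆ S') :
    GSpan_W N S ≤ GSpan_W N S' := by
  refine sup_le_sup_right (Submodule.span_mono ?_) _
  rintro _ ⟨p, hp, e⟩
  exact ⟨p, h hp, e⟩

theorem GSpan_mem_W (N : Submodule (ZMod 2) M) {S : Multiset (M × ℕ)} {p : M × ℕ} (h : p ∈ S) :
    p.1 ∈ GSpan_W N S :=
  Submodule.mem_sup_left (Submodule.subset_span ⟨p, h, rfl⟩)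

/-- families with correct levels whose span is stable -/
def GSpan_Inv (fl : ℕ → Submodule (ZMod 2) M) (T : Fin 4 → (M ≃ₗ[ZMod 2] M)) (d : ℕ)
    (S : Multiset (M × ℕ)) : Prop :=
  (∀ p ∈ S, p.1 ∈ fl p.2) ∧ ∀ i, ∀ p ∈ S, T i p.1 - p.1 ∈ GSpan_W (fl d) S

/-- a vector lies in a stable span of small weight -/
def GSpan_Good (fl : ℕ → Submodule (ZMod 2) M) (T : Fin 4 → (M ≃ₗ[ZMod 2] M)) (d : ℕ)
    (w : M) (c : ℝ) : Prop :=
  ∃ S, GSpan_Inv fl T d S ∧ GSpan_pot S ≤ c ∧ w ∈ GSpan_W (fl d) S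

variable {fl : ℕ → Submodule (ZMod 2) M} {T : Fin 4 → (M ≃ₗ[ZMod 2] M)} {d : ℕ}

theorem GSpan_comb {w : M} {n : ℕ} (hw : w ∈ fl n) {c : Fin 4 → ℝ}
    (h : ∀ i, GSpan_Good fl T d (T i w - w) (c i)) {b : ℝ}
    (hb : (297 / 1000 : ℝ) ^ n + ∑ i, c i ≤ b) : GSpan_Good fl T d w b := by
  choose S h1 h2 h3 using h
  have hs : ∀ i, S i ⊆ (w, n) ::ₘ ∑ i, S i := fun i p hp =>
    Multiset.mem_cons_of_mem (Multiset.mem_sum.2 ⟨i, Finset.mem_univ i, hp⟩)
  refine ⟨(w, n) ::ₘ ∑ i, S i, ⟨fun p hp => ?_, fun i p hp => ?_⟩, ?_,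
    GSpan_mem_W _ (p := (w, n)) (Multiset.mem_cons_self _ _)⟩
  · rcases Multiset.mem_cons.1 hp with rfl | hp
    · exact hw
    · obtain ⟨j, -, hj⟩ := Multiset.mem_sum.1 hp
      exact (h1 j).1 p hj
  · rcases Multiset.mem_cons.1 hp with rfl | hp
    · exact GSpan_W_mono _ (hs i) (h3 i)
    · obtain ⟨j, -, hj⟩ := Multiset.mem_sum.1 hp
      exact GSpan_W_mono _ (hs j) ((h1 j).2 i p hj)
  · rw [GSpan_pot_cons, GSpan_pot_sum]
    exact (add_le_add le_rfl (Finset.sum_le_sum fun i _ => h2 i)).trans hb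

theorem GSpan_good (ha : Antitone fl) (h1 : ∀ i n, ∀ v ∈ fl n, T i v - v ∈ fl (n + 1))
    (h3 : ∀ i n, ∀ v ∈ fl n, T i (T i v) - v ∈ fl (n + 3)) (r : ℕ) :
    ∀ n, d ≤ n + r → ∀ w ∈ fl n, GSpan_Good fl T d w (358 * (297 / 1000 : ℝ) ^ n) ∧
      ∀ i, T i w - w ∈ fl (n + 2) → GSpan_Good fl T d w (300 * (297 / 1000 : ℝ) ^ n) := by
  induction r with
  | zero =>
    intro n hn w hw
    have h : ∀ c : ℝ, 0 ≤ c → GSpan_Good fl T d w c := fun c hc =>
      ⟨0, ⟨fun p hp => absurd hp (Multiset.notMem_zero p),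
        fun i p hp => absurd hp (Multiset.notMem_zero p)⟩, by simpa [GSpan_pot] using hc,
        Submodule.mem_sup_right (ha hn hw)⟩
    exact ⟨h _ (by positivity), fun _ _ => h _ (by positivity)⟩
  | succ r ih =>
    intro n hn w hw
    have hB : ∀ i, GSpan_Good fl T d (T i w - w) (300 * (297 / 1000 : ℝ) ^ (n + 1)) := fun i => by
      refine (ih (n + 1) (by omega) _ (h1 i n w hw)).2 i ?_
      have e : T i (T i w - w) - (T i w - w) = T i (T i w) - w := by
        have e1 := ZModModule.add_self (T i w - w)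
        rw [map_sub, ← sub_eq_zero, ← neg_eq_zero, ← e1]
        abel
      rw [e]
      exact h3 i n w hw
    have hp : 0 < (297 / 1000 : ℝ) ^ n := by positivity
    refine ⟨GSpan_comb hw hB ?_, fun i hi => ?_⟩
    · simp only [Finset.sum_const, Finset.card_univ, Fintype.card_fin, nsmul_eq_mul, pow_succ]
      push_cast
      linarith
    · refine GSpan_comb hw (c := Function.update (fun _ => 300 * (297 / 1000 : ℝ) ^ (n + 1)) i
        (358 * (297 / 1000 : ℝ) ^ (n + 2))) (fun j => ?_) ?_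
      · by_cases hj : j = i
        · rw [hj, Function.update_self]
          exact (ih (n + 2) (by omega) _ hi).1
        · rw [Function.update_of_ne hj]
          exact hB j
      · rw [Finset.sum_update_of_mem (Finset.mem_univ i), Finset.sum_const,
          Finset.card_sdiff_of_subset (Finset.subset_univ _)]
        simp only [Finset.card_univ, Fintype.card_fin, Finset.card_singleton, nsmul_eq_mul,
          pow_succ]
        push_cast
        linarith

theorem GSpan_stage1 (ha : Antitone fl) (h1 : ∀ i n, ∀ v ∈ fl n, T i v - v ∈ fl (n + 1))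
    (h3 : ∀ i n, ∀ v ∈ fl n, T i (T i v) - v ∈ fl (n + 3)) (S : Multiset (M × ℕ)) :
    (∀ p ∈ S, p.1 ∈ fl p.2) → ∃ S', GSpan_Inv fl T d S' ∧ GSpan_pot S' ≤ 358 * GSpan_pot S ∧
      ∀ p ∈ S, p.1 ∈ GSpan_W (fl d) S' := by
  induction S using Multiset.induction_on with
  | empty =>
    exact fun _ => ⟨0, ⟨fun p hp => absurd hp (Multiset.notMem_zero p),
      fun i p hp => absurd hp (Multiset.notMem_zero p)⟩, by simp [GSpan_pot],
      fun p hp => absurd hp (Multiset.notMem_zero p)⟩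
  | cons q S ih =>
    intro h
    obtain ⟨A, a1, a2, a3⟩ := ih fun p hp => h p (Multiset.mem_cons_of_mem hp)
    obtain ⟨B, b1, b2, b3⟩ :=
      (GSpan_good (d := d) ha h1 h3 d q.2 (by omega) q.1 (h q (Multiset.mem_cons_self _ _))).1
    have hA : A ⊆ A + B := Multiset.subset_of_le (Multiset.le_add_right _ _)
    have hB : B ⊆ A + B := Multiset.subset_of_le (Multiset.le_add_left _ _)
    refine ⟨A + B, ⟨fun p hp => ?_, fun i p hp => ?_⟩, ?_, fun p hp => ?_⟩
    · rcases Multiset.mem_add.1 hp with hp | hp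
      · exact a1.1 p hp
      · exact b1.1 p hp
    · rcases Multiset.mem_add.1 hp with hp | hp
      · exact GSpan_W_mono _ hA (a1.2 i p hp)
      · exact GSpan_W_mono _ hB (b1.2 i p hp)
    · rw [GSpan_pot_add, GSpan_pot_cons]
      linarith
    · rcases Multiset.mem_cons.1 hp with rfl | hp
      · exact GSpan_W_mono _ hB b3
      · exact GSpan_W_mono _ hA (a3 p hp)

theorem GSpan_inv_tau (ha : Antitone fl) (h1 : ∀ i n, ∀ v ∈ fl n, T i v - v ∈ fl (n + 1))
    {S : Multiset (M × ℕ)} (hS : GSpan_Inv fl T d S) (i : Fin 4) :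
    ∀ x ∈ GSpan_W (fl d) S, T i x - x ∈ GSpan_W (fl d) S := by
  have h : GSpan_W (fl d) S ≤
      (GSpan_W (fl d) S).comap ((T i : M →ₗ[ZMod 2] M) - LinearMap.id) := by
    refine sup_le (Submodule.span_le.2 ?_) fun x hx => ?_
    · rintro _ ⟨p, hp, rfl⟩
      exact hS.2 i p hp
    · exact Submodule.mem_sup_right (ha (Nat.le_succ d) (h1 i d x hx))
  exact fun x hx => h hx

theorem GSpan_inv_symm (ha : Antitone fl) (h1 : ∀ i n, ∀ v ∈ fl n, T i v - v ∈ fl (n + 1))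
    (h4 : ∀ i n, ∀ v ∈ fl n, (T i).symm v ∈ fl n)
    {S : Multiset (M × ℕ)} (hS : GSpan_Inv fl T d S) (i : Fin 4) (r : ℕ) :
    ∀ n, d ≤ n + r → ∀ x ∈ fl n, x ∈ GSpan_W (fl d) S → (T i).symm x ∈ GSpan_W (fl d) S := by
  induction r with
  | zero => exact fun n hn x hx _ => Submodule.mem_sup_right (h4 i d x (ha hn hx))
  | succ r ih =>
    intro n hn x hx hW
    have h := ih (n + 1) (by omega) _ (h1 i n x hx) (GSpan_inv_tau ha h1 hS i x hW)
    rw [map_sub, LinearEquiv.symm_apply_apply] at h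
    simpa using sub_mem hW h

theorem GSpan_stage (ha : Antitone fl) (h0 : fl 0 = ⊤)
    (h1 : ∀ i n, ∀ v ∈ fl n, T i v - v ∈ fl (n + 1))
    (h3 : ∀ i n, ∀ v ∈ fl n, T i (T i v) - v ∈ fl (n + 3))
    (h4 : ∀ i n, ∀ v ∈ fl n, (T i).symm v ∈ fl n) (d : ℕ) (S : Multiset (M × ℕ))
    (hS : ∀ p ∈ S, p.1 ∈ fl p.2) : ∃ S' : Multiset (M × ℕ), (∀ p ∈ S', p.1 ∈ fl p.2) ∧
      GSpan_pot S' ≤ 358 * GSpan_pot S ∧ ∀ u ∈ Subgroup.closure (Set.range T),
        ∀ x ∈ GSpan_W (fl d) S, u x ∈ GSpan_W (fl d) S' := by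
  obtain ⟨S', a1, a2, a3⟩ := GSpan_stage1 (d := d) ha h1 h3 S hS
  have hle : GSpan_W (fl d) S ≤ GSpan_W (fl d) S' := by
    refine sup_le (Submodule.span_le.2 ?_) le_sup_right
    rintro _ ⟨p, hp, rfl⟩
    exact a3 p hp
  refine ⟨S', a1.1, a2, fun u hu x hx => ?_⟩
  have key : ∀ y ∈ GSpan_W (fl d) S', u y ∈ GSpan_W (fl d) S' := by
    induction hu using Subgroup.closure_induction'' with
    | mem u hu =>
      obtain ⟨i, rfl⟩ := hu
      intro y hy
      simpa using add_mem (GSpan_inv_tau ha h1 a1 i y hy) hy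
    | inv_mem u hu =>
      obtain ⟨i, rfl⟩ := hu
      intro y hy
      exact GSpan_inv_symm ha h1 h4 a1 i d 0 (by omega) y (by rw [h0]; trivial) hy
    | one => exact fun y hy => hy
    | mul u v _ _ hu hv => exact fun y hy => hu _ (hv y hy)
  exact key x (hle hx)

theorem GSpan_count (ha : Antitone fl) (d : ℕ) (S : Multiset (M × ℕ))
    (hS : ∀ p ∈ S, p.1 ∈ fl p.2) : ∃ s : Finset M, (s.card : ℝ) * (297 / 1000) ^ d ≤ GSpan_pot S ∧
      GSpan_W (fl d) S ≤ Submodule.span (ZMod 2) (s : Set M) ⊔ fl d := by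
  classical
  induction S using Multiset.induction_on with
  | empty =>
    refine ⟨∅, by simp [GSpan_pot], sup_le (Submodule.span_le.2 ?_) le_sup_right⟩
    rintro _ ⟨p, hp, rfl⟩
    exact absurd hp (Multiset.notMem_zero p)
  | cons q S ih =>
    obtain ⟨s, a1, a2⟩ := ih fun p hp => hS p (Multiset.mem_cons_of_mem hp)
    have hq : 0 < (297 / 1000 : ℝ) ^ q.2 := by positivity
    rcases le_total d q.2 with h | h
    · refine ⟨s, by rw [GSpan_pot_cons]; linarith, sup_le (Submodule.span_le.2 ?_) le_sup_right⟩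
      rintro _ ⟨p, hp, rfl⟩
      rcases Multiset.mem_cons.1 hp with rfl | hp
      · exact Submodule.mem_sup_right (ha h (hS p (Multiset.mem_cons_self _ _)))
      · exact a2 (GSpan_mem_W _ hp)
    · refine ⟨insert q.1 s, ?_, sup_le (Submodule.span_le.2 ?_) le_sup_right⟩
      · have e1 : ((insert q.1 s).card : ℝ) ≤ s.card + 1 := by
          exact_mod_cast Finset.card_insert_le _ _
        have e2 : (297 / 1000 : ℝ) ^ d ≤ (297 / 1000 : ℝ) ^ q.2 :=
          pow_le_pow_of_le_one (by norm_num) (by norm_num) h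
        have e3 := mul_le_mul_of_nonneg_right e1 (by positivity : 0 ≤ (297 / 1000 : ℝ) ^ d)
        rw [GSpan_pot_cons]
        linarith
      · rintro _ ⟨p, hp, rfl⟩
        rcases Multiset.mem_cons.1 hp with rfl | hp
        · exact Submodule.mem_sup_left (Submodule.subset_span (by simp))
        · have e1 : Submodule.span (ZMod 2) (s : Set M) ⊔ fl d ≤
              Submodule.span (ZMod 2) ((insert q.1 s : Finset M) : Set M) ⊔ fl d :=
            sup_le_sup_right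
              (Submodule.span_mono (Finset.coe_subset.2 (Finset.subset_insert _ _))) _
          exact e1 (a2 (GSpan_mem_W _ hp))

end

theorem span_bound : ∃ C : ℝ, 0 < C ∧ ∀ (M : Type) [AddCommGroup M] [Module (ZMod 2) M]
    (fl : ℕ → Submodule (ZMod 2) M) (T : Fin 4 → Fin 4 → (M ≃ₗ[ZMod 2] M)),
    Antitone fl → fl 0 = ⊤ →
    (∀ j i n, ∀ v ∈ fl n, T j i v - v ∈ fl (n + 1)) →
    (∀ j i n, ∀ v ∈ fl n, T j i (T j i v) - v ∈ fl (n + 3)) →
    (∀ j i n, ∀ v ∈ fl n, (T j i).symm v ∈ fl n) →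
    ∀ e, ∀ v ∈ fl e, ∀ d, ∃ s : Finset M, (s.card : ℝ) ≤ C * (1000 / 297) ^ (d - e) ∧
      ∀ u : Fin 4 → (M ≃ₗ[ZMod 2] M), (∀ j, u j ∈ Subgroup.closure (Set.range (T j))) →
        u 0 (u 1 (u 2 (u 3 v))) ∈ Submodule.span (ZMod 2) (s : Set M) ⊔ fl d := by
  refine ⟨358 ^ 4, by positivity, fun M _ _ fl T ha h0 h1 h3 h4 e v hv d => ?_⟩
  have st := fun j => GSpan_stage ha h0 (h1 j) (h3 j) (h4 j) d
  obtain ⟨S3, a3, b3, c3⟩ := st 3 {(v, e)} fun p hp => by
    rw [Multiset.mem_singleton.1 hp]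
    exact hv
  obtain ⟨S2, a2, b2, c2⟩ := st 2 S3 a3
  obtain ⟨S1, a1, b1, c1⟩ := st 1 S2 a2
  obtain ⟨S0, a0, b0, c0⟩ := st 0 S1 a1
  obtain ⟨s, hs, hW⟩ := GSpan_count ha d S0 a0
  refine ⟨s, ?_, fun u hu => hW (c0 _ (hu 0) _ (c1 _ (hu 1) _ (c2 _ (hu 2) _ (c3 _ (hu 3) _
    (GSpan_mem_W _ (p := (v, e)) (Multiset.mem_singleton_self _))))))⟩
  have e1 : GSpan_pot ({(v, e)} : Multiset (M × ℕ)) = (297 / 1000 : ℝ) ^ e := by
    simp [GSpan_pot]
  have e2 : (297 / 1000 : ℝ) ^ e ≤ (1000 / 297) ^ (d - e) * (297 / 1000) ^ d := by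
    have e3 : (297 / 1000 : ℝ) ^ e = (1000 / 297) ^ (d - e) * (297 / 1000) ^ (d - e + e) := by
      rw [pow_add, ← mul_assoc, ← mul_pow]
      norm_num
    rw [e3]
    exact mul_le_mul_of_nonneg_left
      (pow_le_pow_of_le_one (by norm_num) (by norm_num) (by omega)) (by positivity)
  refine le_of_mul_le_mul_right ?_ (by positivity : 0 < (297 / 1000 : ℝ) ^ d)
  rw [mul_assoc]
  linarith

end Vale.Agent.P300
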