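import Vale.Agent.P300.GFil

/-! P300: the crossed homomorphism to the free group of rank four, and filtered linear algebra. -/

namespace Vale.Agent.P300

open MonoidAlgebra

/-- the crossed homomorphism -/
structure GThmAPsi (ψ : F5 → F4) : Prop where
  ev : ∀ g h, par g = 1 → ψ (g * h) = ψ g * ψ h
  od : ∀ g h, par g ≠ 1 → ψ (g * h) = ψ g * iota4 (ψ h)
  x0 : ψ (xx 0) = 1
  xs : ∀ i : Fin 4, ψ (xx i.succ) = FreeGroup.of i

theorem GThmA_iota_of (i : Fin 4) : iota4 (FreeGroup.of i) = (FreeGroup.of i)⁻¹ :=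
  FreeGroup.lift_apply_of

theorem GThmA_iota_comp : iota4.comp iota4 = MonoidHom.id F4 := by
  ext i
  simp [GThmA_iota_of]

/-- the involution as an automorphism -/
noncomputable def GThmAio : MulAut F4 :=
  MonoidHom.toMulEquiv iota4 iota4 GThmA_iota_comp GThmA_iota_comp

theorem GThmA_par_xx (i : Fin 5) : par (xx i) = Multiplicative.ofAdd 1 := lift_xx _ _

theorem GThmA_par_sq (g : F5) : par (g ^ 2) = 1 := by
  rw [map_pow]
  generalize par g = a
  revert a
  decide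

theorem GThmA_par_odd {g h : F5} (hg : par g ≠ 1) (hh : par h ≠ 1) : par (g * h⁻¹) = 1 := by
  rw [map_mul, map_inv]
  generalize par g = a at hg ⊢
  generalize par h = b at hh ⊢
  revert a b
  decide

theorem GThmA_par_conj (g h : F5) : par (g * h * g⁻¹) = par h := by
  rw [map_mul, map_mul, map_inv, mul_inv_cancel_comm]

theorem GThmA_comm (y : F4) : y * iota4 y ∈ commutator F4 := by
  have h : (Abelianization.of (G := F4)).comp iota4 = invMonoidHom.comp Abelianization.of := by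
    ext i
    simp [GThmA_iota_of]
  have h2 : Abelianization.of (iota4 y) = (Abelianization.of y)⁻¹ := DFunLike.congr_fun h y
  rw [← Abelianization.ker_of, MonoidHom.mem_ker, map_mul, h2, mul_inv_cancel]

namespace GThmAPsi

variable {ψ : F5 → F4} (h : GThmAPsi ψ)
include h

theorem one : ψ 1 = 1 := by
  have := h.ev 1 1 (map_one _)
  rw [mul_one] at this
  exact left_eq_mul.1 this

/-- the restriction to the even part -/
noncomputable def hom : par.ker →* F4 :=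
  MonoidHom.mk' (fun g => ψ g) fun a b => h.ev a b a.2

/-- the even elements whose image lies in `N` -/
noncomputable def Ev (N : Subgroup F4) : Subgroup F5 := (N.comap h.hom).map par.ker.subtype

theorem mem_Ev {N : Subgroup F4} {g : F5} : g ∈ h.Ev N ↔ par g = 1 ∧ ψ g ∈ N :=
  ⟨fun ⟨a, ha, e⟩ => e ▸ ⟨a.2, ha⟩, fun hg => ⟨⟨g, hg.1⟩, hg.2, rfl⟩⟩

theorem zpow {g : F5} (hg : par g = 1) (j : ℤ) : ψ (g ^ j) = ψ g ^ j :=
  map_zpow h.hom ⟨g, hg⟩ j

theorem pow {g : F5} (hg : par g = 1) (j : ℕ) : ψ (g ^ j) = ψ g ^ j :=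
  map_pow h.hom ⟨g, hg⟩ j

theorem conj_ev {g : F5} (hg : par g = 1) {k : F5} (hk : par k = 1) :
    ψ (g * k * g⁻¹) = ψ g * ψ k * (ψ g)⁻¹ := by
  have e := h.ev g g⁻¹ hg
  rw [mul_inv_cancel, h.one] at e
  rw [mul_assoc, h.ev _ _ hg, h.ev _ _ hk, ← mul_assoc, eq_inv_of_mul_eq_one_right e.symm]

theorem conj_od {g : F5} (hg : par g ≠ 1) {k : F5} (hk : par k = 1) :
    ψ (g * k * g⁻¹) = ψ g * iota4 (ψ k) * (ψ g)⁻¹ := by
  have e := h.od g g⁻¹ hg
  rw [mul_inv_cancel, h.one] at e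
  rw [mul_assoc, h.od _ _ hg, h.ev _ _ hk, map_mul, ← mul_assoc,
    eq_inv_of_mul_eq_one_right e.symm]

theorem surj : Function.Surjective h.hom := by
  rw [← MonoidHom.range_eq_top, eq_top_iff, ← FreeGroup.closure_range_of, Subgroup.closure_le]
  rintro _ ⟨i, rfl⟩
  have hx : ∀ i, par (xx i) ≠ 1 := fun i => by rw [GThmA_par_xx]; decide
  have e := h.od (xx 0) (xx 0)⁻¹ (hx 0)
  rw [mul_inv_cancel, h.one, h.x0, one_mul] at e
  refine ⟨⟨xx i.succ * (xx 0)⁻¹, GThmA_par_odd (hx _) (hx _)⟩, ?_⟩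
  change ψ _ = _
  rw [h.od _ _ (hx _), ← e, mul_one, h.xs]

theorem index (N : Subgroup F4) : (h.Ev N).index = N.index * par.ker.index := by
  rw [Ev, Subgroup.index_map_subtype, Subgroup.index_comap_of_surjective _ h.surj]

theorem finiteIndex (N : Subgroup F4) [N.FiniteIndex] : (h.Ev N).FiniteIndex :=
  ⟨by
    rw [h.index]
    exact mul_ne_zero Subgroup.FiniteIndex.index_ne_zero Subgroup.FiniteIndex.index_ne_zero⟩

theorem normal {N : Subgroup F4} (hN : N.Normal) (hι : ∀ y ∈ N, iota4 y ∈ N) : (h.Ev N).Normal := by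
  refine ⟨fun k hk g => ?_⟩
  obtain ⟨h1, h2⟩ := h.mem_Ev.1 hk
  refine h.mem_Ev.2 ⟨by rw [GThmA_par_conj, h1], ?_⟩
  by_cases hg : par g = 1
  · rw [h.conj_ev hg h1]
    exact hN.conj_mem _ h2 _
  · rw [h.conj_od hg h1]
    exact hN.conj_mem _ (hι _ h2) _

theorem pow_mem (S : Set (GA F4)) (n : ℕ) (g : F5) : g ^ 2 ^ (n + 1) ∈ h.Ev (DSub S n) := by
  rw [pow_succ', pow_mul]
  refine h.mem_Ev.2 ⟨by rw [map_pow, GThmA_par_sq, one_pow], ?_⟩
  rw [h.pow (GThmA_par_sq g)]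
  exact pow_mem_DSub S n _

theorem sq_od {d : F5} (hd : par d ≠ 1) : ψ (d ^ 2) = ψ d * iota4 (ψ d) := by
  rw [sq, h.od _ _ hd]

theorem sq_xx (i : Fin 5) : ψ (xx i ^ 2) = 1 := by
  rw [h.sq_od (by rw [GThmA_par_xx]; decide)]
  induction i using Fin.cases with
  | zero => rw [h.x0, map_one, mul_one]
  | succ i => rw [h.xs, GThmA_iota_of, mul_inv_cancel]

theorem iota_sq {d : F5} (hd : par d ≠ 1) : ∃ w, iota4 (ψ (d ^ 2)) = w * ψ (d ^ 2) * w⁻¹ := by
  have hx : par (xx 0) ≠ 1 := by rw [GThmA_par_xx]; decide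
  have e1 := h.conj_od hx (GThmA_par_sq d)
  have e2 := h.conj_ev (GThmA_par_odd hx hd) (GThmA_par_sq d)
  rw [h.x0, one_mul, inv_one, mul_one] at e1
  refine ⟨_, e1.symm.trans (Eq.trans ?_ e2)⟩
  congr 1
  group

end GThmAPsi

theorem GThmA_DSub_map {G : Type} [Group G] (α : MulAut G) {S : Set (GA G)} {n : ℕ}
    (hS : ∀ f ∈ S, lin α f ∈ idl S) {y : G} (hy : y ∈ DSub S n) : α y ∈ DSub S n := by
  rw [mem_DSub] at hy ⊢
  rw [← lin_of, ← lin_one α, ← map_sub]
  have : idl S ⊔ fil G n ≤ (idl S ⊔ fil G n).comap (lin α).toLinearMap := by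
    refine sup_le (Submodule.span_le.2 ?_) fun a ha => Submodule.mem_sup_right (lin_mem_fil α ha)
    rintro _ ⟨a, b, f, hf, rfl⟩
    refine Submodule.mem_sup_left ?_
    change lin α (a * f * b) ∈ idl S
    rw [lin_mul, lin_mul]
    exact idl_mul_right _ (idl_mul_left _ (hS f hf))
  exact this hy

theorem GThmA_idl_mono {G : Type} [Group G] {S S' : Set (GA G)} (h : S ⊆ S') : idl S ≤ idl S' :=
  Submodule.span_mono fun _ ⟨a, b, f, hf, e⟩ => ⟨a, b, f, h hf, e⟩

theorem GThmA_DSub_mono {G : Type} [Group G] {S S' : Set (GA G)} (h : S ⊆ S') {m n : ℕ}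
    (hmn : m ≤ n) : DSub S n ≤ DSub S' m := fun _ hy =>
  mem_DSub.2 (sup_le_sup (GThmA_idl_mono h) (fil_anti hmn) (mem_DSub.1 hy))

theorem GThmA_order {G : Type} [Group G] (N : Subgroup G) [N.Normal] {y : G} {M : ℕ}
    (hM : y ^ 2 ^ M ∈ N) {j : ℤ} (hj : y ^ j ∈ N) :
    ∃ a : ℕ, y ^ 2 ^ a ∈ N ∧ ∃ k : ℤ, y ^ j = (y ^ 2 ^ a) ^ k := by
  rw [← QuotientGroup.eq_one_iff, QuotientGroup.mk_pow, ← orderOf_dvd_iff_pow_eq_one,
    Nat.dvd_prime_pow Nat.prime_two] at hM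
  obtain ⟨a, -, ha⟩ := hM
  rw [← QuotientGroup.eq_one_iff, QuotientGroup.mk_zpow, ← orderOf_dvd_iff_zpow_eq_one, ha] at hj
  obtain ⟨k, rfl⟩ := hj
  refine ⟨a, ?_, k, by rw [zpow_mul, zpow_natCast]⟩
  rw [← QuotientGroup.eq_one_iff, QuotientGroup.mk_pow, ← ha, pow_orderOf_eq_one]

theorem GThmA_basis {K A : Type} [Field K] [AddCommGroup A] [Module K A] (X Y : Submodule K A)
    (t : Finset A) (h : X ≤ Submodule.span K (t : Set A) ⊔ Y) :
    ∃ s : Finset A, (s : Set A) ⊆ X ∧ s.card ≤ t.card ∧ X ≤ Submodule.span K (s : Set A) ⊔ Y := by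
  classical
  have h1 : X.map Y.mkQ ≤ Submodule.span K (t.image Y.mkQ : Set (A ⧸ Y)) := by
    refine (Submodule.map_mono h).trans ?_
    rw [Submodule.map_sup, Submodule.mkQ_map_self, sup_bot_eq, Submodule.map_span,
      Finset.coe_image]
  have h2 : Submodule.span K (X.map Y.mkQ : Set (A ⧸ Y)) = X.map Y.mkQ := Submodule.span_eq _
  have : Module.Finite K (Submodule.span K (X.map Y.mkQ : Set (A ⧸ Y))) := by
    rw [h2]
    exact Submodule.finiteDimensional_of_le h1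
  obtain ⟨u, hu, hc, hs, -⟩ :=
    Submodule.exists_finset_span_eq_linearIndepOn K (X.map Y.mkQ : Set (A ⧸ Y))
  rw [h2] at hc hs
  choose f hf hf' using fun q : u => hu q.2
  refine ⟨Finset.univ.image f, ?_, ?_, fun x hx => ?_⟩
  · intro x hx
    obtain ⟨q, -, rfl⟩ := Finset.mem_image.1 hx
    exact hf q
  · refine Finset.card_image_le.trans ?_
    rw [Finset.card_univ, Fintype.card_coe, hc]
    exact (Submodule.finrank_mono h1).trans
      ((finrank_span_finset_le_card _).trans Finset.card_image_le)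
  · have h3 : X.map Y.mkQ ≤ (Submodule.span K (Finset.univ.image f : Set A)).map Y.mkQ := by
      rw [← hs, Submodule.span_le]
      intro q hq
      exact ⟨f ⟨q, hq⟩, Submodule.subset_span (by simp), hf' ⟨q, hq⟩⟩
    rw [Submodule.map_le_iff_le_comap, Submodule.comap_map_mkQ, sup_comm] at h3
    exact h3 hx

theorem GThmA_chain {K A : Type} [Field K] [AddCommGroup A] [Module K A]
    (fl : ℕ → Submodule K A) (J : Submodule K A) (Z : Set A) (t : ℕ → Finset A)
    (ht : ∀ d, Z ⊆ (Submodule.span K (t d : Set A) ⊔ fl d : Submodule K A)) :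
    ∃ s : ℕ → Finset A, (∀ d, (s d).card ≤ (t (d + 1)).card ∧ ∀ f ∈ s d, f ∈ fl d) ∧
      ∀ (M : ℕ) (J' : Submodule K A), J ≤ J' → (∀ d, M ≤ d → (s d : Set A) ⊆ J') →
        (Z ⊆ (J ⊔ fl M : Submodule K A)) → ∀ m, Z ⊆ (J' ⊔ fl (M + m) : Submodule K A) := by
  have hP : ∀ d, (Submodule.span K Z ⊔ J) ⊓ fl d ≤
      Submodule.span K (t (d + 1) : Set A) ⊔ (J ⊔ fl (d + 1)) := fun d =>
    inf_le_left.trans (sup_le ((Submodule.span_le.2 (ht (d + 1))).trans
      (sup_le_sup_left le_sup_right _)) (le_sup_of_le_right le_sup_left))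
  choose s h1 h2 h3 using fun d => GThmA_basis _ _ _ (hP d)
  refine ⟨s, fun d => ⟨h2 d, fun f hf => (h1 d hf).2⟩, fun M J' hJ hs hZ m => ?_⟩
  have key : ∀ m, Submodule.span K Z ⊔ J ≤ J' ⊔ (Submodule.span K Z ⊔ J) ⊓ fl (M + m) := by
    intro m
    induction m with
    | zero =>
      refine sup_le (fun z hz => ?_) (le_sup_of_le_left hJ)
      obtain ⟨j, hj, f, hf, e⟩ := Submodule.mem_sup.1 (Submodule.span_le.2 hZ hz)
      refine e ▸ Submodule.add_mem_sup (hJ hj) ⟨?_, hf⟩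
      rw [eq_sub_of_add_eq' e]
      exact sub_mem (Submodule.mem_sup_left hz) (Submodule.mem_sup_right hj)
    | succ m ih =>
      refine ih.trans (sup_le le_sup_left fun z hz => ?_)
      obtain ⟨σ, hσ, w, hw, e⟩ := Submodule.mem_sup.1 (h3 _ hz)
      obtain ⟨j, hj, f, hf, rfl⟩ := Submodule.mem_sup.1 hw
      rw [← add_assoc] at e
      refine e ▸ Submodule.add_mem_sup
        (add_mem (Submodule.span_le.2 (hs _ (Nat.le_add_right _ _)) hσ) (hJ hj)) ⟨?_, hf⟩
      rw [eq_sub_of_add_eq' e]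
      exact sub_mem hz.1 (add_mem (Submodule.span_le.2 (h1 _) hσ).1 (Submodule.mem_sup_right hj))
  exact fun z hz => (key m).trans (sup_le_sup_left inf_le_right _)
    (Submodule.mem_sup_left (Submodule.subset_span hz))

end Vale.Agent.P300
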