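import Vale.Agent.P300.GArtin
import Vale.Agent.P300.GDecomp
import Vale.Agent.P300.GSpan
import Vale.Agent.P300.GGS
import Vale.Agent.P300.GAct
import Vale.Agent.P300.GMisc
import Vale.Agent.P300.GThmAX1

/-! P300: the main group-theoretic theorem. -/

namespace Vale.Agent.P300

open MonoidAlgebra

theorem GThmA_empty {G : Type} [Group G] (α : MulAut G) {n : ℕ} {y : G}
    (hy : y ∈ DSub (∅ : Set (GA G)) n) : α y ∈ DSub (∅ : Set (GA G)) n :=
  GThmA_DSub_map α (fun _ hf => hf.elim) hy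

theorem GThmA_raise {G : Type} [Group G] (γ σ : MulAut G) {n : ℕ}
    (h : ∀ y, σ y * y⁻¹ ∈ DSub (∅ : Set (GA G)) n) (y : G) :
    (γ * σ * γ⁻¹) y * y⁻¹ ∈ DSub (∅ : Set (GA G)) n := by
  have := GThmA_empty γ (h (γ⁻¹ y))
  rwa [map_mul, map_inv, MulAut.apply_inv_self] at this

theorem GThmA_orbit (act : Br →* MulAut F4)
    (h2 : ∀ y : F4, (act ⟨sig 0, sig_mem_Br 0⟩ ^ 2) y * y⁻¹ ∈ DSub (∅ : Set (GA F4)) 2)
    (h4 : ∀ y : F4, (act ⟨sig 0, sig_mem_Br 0⟩ ^ 4) y * y⁻¹ ∈ DSub (∅ : Set (GA F4)) 4)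
    (E : Finset (MulAut F4)) (Y : Finset F4) :
    ∃ (K : ℝ) (t : ℕ → Finset (GA F4)), (∀ d, ((t d).card : ℝ) ≤ K * (d * (1000 / 297) ^ d)) ∧
      ∀ d, ∀ ε ∈ E, ∀ β : Br, ∀ y ∈ Y, ∀ a : ℕ, of (ZMod 2) F4 (ε (act β (y ^ 2 ^ a))) - 1 ∈
        Submodule.span (ZMod 2) (t d : Set (GA F4)) ⊔ fil F4 d := by
  classical
  obtain ⟨T, R, hT, hR, hdec⟩ := decomp
  obtain ⟨C, hC, hsp⟩ := span_bound
  choose γ hγ hTγ using hT
  obtain ⟨T', hT', hT''⟩ : ∃ T' : Fin 4 → Fin 4 → Br, (∀ j i, (T' j i).1 = T j i) ∧ ∀ j i,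
      T' j i = ⟨γ j i, hγ j i⟩ * ⟨sig 0, sig_mem_Br 0⟩ ^ 2 * (⟨γ j i, hγ j i⟩ : Br)⁻¹ :=
    ⟨_, fun j i => (hTγ j i).symm, fun _ _ => rfl⟩
  let L : Br →* (GA F4 ≃ₗ[ZMod 2] GA F4) :=
    (MonoidHom.mk' lin fun α β => LinearEquiv.ext (lin_comp α β)).comp act
  have hL : ∀ β, L β = lin (act β) := fun _ => rfl
  have hsp' := hsp (GA F4) (fil F4) (fun j i => L (T' j i)) fil_anti fil_zero
    (fun j i n v hv => by
      refine lin_raise _ 1 (fun y => ?_) hv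
      rw [hT'', map_mul, map_mul, map_inv, map_pow]
      exact GThmA_raise _ _ h2 y)
    (fun j i n v hv => by
      rw [hL, ← lin_comp]
      refine lin_raise _ 3 (fun y => ?_) hv
      rw [hT'', map_mul, map_mul, map_inv, map_pow, ← sq, conj_pow, ← pow_mul]
      exact GThmA_raise _ _ h4 y)
    (fun j i n v hv => by
      rw [hL, lin_symm]
      exact lin_mem_fil _ hv)
  choose s hs1 hs2 using fun (y : F4) (a d : ℕ) => hsp' _ _ (pow_sub_one_mem y a) d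
  refine ⟨C * (E.card * ((R.subtype (· ∈ Br)).card * Y.card)), fun d =>
    (E ×ˢ R.subtype (· ∈ Br) ×ˢ Y ×ˢ Finset.range d).biUnion fun x =>
      (s (act x.2.1 x.2.2.1) x.2.2.2 d).image (lin x.1), fun d => ?_,
    fun d ε hε β y hy a => ?_⟩
  · refine (Nat.cast_le.2 Finset.card_biUnion_le).trans ?_
    rw [Nat.cast_sum]
    refine (Finset.sum_le_card_nsmul _ _ (C * (1000 / 297) ^ d) fun x _ => ?_).trans (le_of_eq ?_)
    · refine (Nat.cast_le.2 Finset.card_image_le).trans ((hs1 _ _ _).trans ?_)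
      exact mul_le_mul_of_nonneg_left (pow_le_pow_right₀ (by norm_num) (Nat.sub_le _ _)) hC.le
    · simp only [Finset.card_product, Finset.card_range, nsmul_eq_mul, Nat.cast_mul]
      ring
  rcases le_or_gt d a with h | h
  · rw [map_pow, map_pow]
    exact Submodule.mem_sup_right (fil_anti (h.trans Nat.lt_two_pow_self.le) (pow_sub_one_mem _ a))
  obtain ⟨u, hu, r, hr, e⟩ := hdec β.1 β.2
  have hu' : ∀ j, ∃ v ∈ Subgroup.closure (Set.range (T' j)), (v : MulAut F5) = u j := by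
    intro j
    have : Subgroup.closure (Set.range (T j)) =
        (Subgroup.closure (Set.range (T' j))).map Br.subtype := by
      rw [MonoidHom.map_closure, ← Set.range_comp]
      exact congrArg (fun g => Subgroup.closure (Set.range g)) (funext fun i => (hT' j i).symm)
    exact Subgroup.mem_map.1 (this ▸ hu j)
  choose v hv hvu using hu'
  have e2 : β = v 0 * v 1 * v 2 * v 3 * ⟨r, hR r hr⟩ := Subtype.ext (by simp [e, hvu])
  have h5 := hs2 (act ⟨r, hR r hr⟩ y) a d (fun j => L (v j)) fun j => by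
    have := Subgroup.mem_map_of_mem L (hv j)
    rwa [MonoidHom.map_closure, ← Set.range_comp] at this
  have e3 : of (ZMod 2) F4 (ε (act β (y ^ 2 ^ a))) - 1 = lin ε (L (v 0) (L (v 1) (L (v 2) (L (v 3)
      (of (ZMod 2) F4 (act ⟨r, hR r hr⟩ y ^ 2 ^ a) - 1))))) := by
    simp only [hL, map_sub, lin_of, lin_one]
    rw [e2, map_mul, map_mul, map_mul, map_mul, ← map_pow]
    rfl
  obtain ⟨p, hp, q, hq, e4⟩ := Submodule.mem_sup.1 h5
  rw [e3, ← e4, map_add]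
  refine Submodule.add_mem_sup ?_ (lin_mem_fil _ hq)
  have := Submodule.mem_map_of_mem (f := (lin ε).toLinearMap) hp
  rw [Submodule.map_span] at this
  refine Submodule.span_mono ?_ this
  rintro _ ⟨w, hw, rfl⟩
  refine Finset.mem_biUnion.2 ⟨(ε, ⟨r, hR r hr⟩, y, a), ?_, Finset.mem_image_of_mem _ hw⟩
  simp [hε, hr, hy, h]

theorem GThmA_tail (K : ℝ) : ∃ b : ℕ → ℝ, ∃ M : ℕ,
    (∀ d, K * ((d + 1 : ℕ) * (1000 / 297) ^ (d + 1)) * (295 / 1000) ^ d = b d) ∧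
    Summable (fun d => if M ≤ d then b d else 0) ∧
    ∑' d, (if M ≤ d then b d else 0) < 5 / 1000 := by
  have hb : Summable fun d : ℕ =>
      K * ((d + 1 : ℕ) * (1000 / 297 : ℝ) ^ (d + 1)) * (295 / 1000) ^ d := by
    have h1 := (summable_nat_add_iff 1).2
      (summable_pow_mul_geometric_of_norm_lt_one 1 (r := (295 / 297 : ℝ)) (by
        rw [Real.norm_eq_abs, abs_of_pos] <;> norm_num))
    refine (h1.mul_left (K * (1000 / 295))).congr fun d => ?_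
    rw [show (295 / 297 : ℝ) = 1000 / 297 * (295 / 1000) by norm_num, mul_pow]
    ring
  obtain ⟨M, hM⟩ := ((tendsto_sum_nat_add fun d : ℕ => K * ((d + 1 : ℕ) *
    (1000 / 297 : ℝ) ^ (d + 1)) * (295 / 1000) ^ d).eventually
    (gt_mem_nhds (show (0 : ℝ) < 5 / 1000 by norm_num))).exists
  generalize hb' : (fun d : ℕ => K * ((d + 1 : ℕ) * (1000 / 297 : ℝ) ^ (d + 1)) *
    (295 / 1000) ^ d) = b at hb
  have hs : Summable fun d => if M ≤ d then b d else 0 := by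
    rw [← summable_nat_add_iff M]
    simpa using (summable_nat_add_iff M).2 hb
  refine ⟨b, M, fun d => congrFun hb' d, hs, ?_⟩
  rw [← hs.sum_add_tsum_nat_add M, Finset.sum_eq_zero fun d hd =>
    if_neg (not_le.2 (Finset.mem_range.1 hd)), zero_add]
  simp only [Nat.le_add_left, if_true, ← hb']
  exact hM

theorem thmA (C : Finset F5) : ∃ F' : Subgroup F5, F'.Normal ∧ F'.FiniteIndex ∧
    (∀ g, ∃ n, g ^ 2 ^ n ∈ F') ∧ SqN ≤ F' ∧
    ∀ n : ℕ, ∃ V : Subgroup F5, V.Normal ∧ V.FiniteIndex ∧ V ≤ F' ∧ (∀ g, ∃ n, g ^ 2 ^ n ∈ V) ∧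
      n ≤ V.relIndex F' ∧ (∀ g ∈ Orb C, ∀ j : ℤ, g ^ j ∈ F' → g ^ j ∈ V) ∧
      ∀ β : MulAut F5, IsArtin β → (∀ g, β g ∈ F' ↔ g ∈ F') → ∀ g ∈ V, β g ∈ V := by
  classical
  obtain ⟨ψ, act, e1, e2, e3, e4, hpar, hact, h2, h4⟩ := exists_act
  have h : GThmAPsi ψ := ⟨e1, e2, e3, e4⟩
  obtain ⟨K, t, ht1, ht2⟩ :=
    GThmA_orbit act h2 h4 {1, GThmAio} ((C ∪ C.image (· ^ 2)).image ψ)
  obtain ⟨b, M, hb, hbs, hbt⟩ := GThmA_tail K
  obtain ⟨s0, hs0⟩ : ∃ s0 : Finset (GA F4), s0 =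
      {of (ZMod 2) F4 (ψ (d3 ^ 2)) - 1, of (ZMod 2) F4 (ψ (d5 ^ 2)) - 1} := ⟨_, rfl⟩
  have hs0' : ∀ f ∈ s0, ∃ d, par d ≠ 1 ∧ f = of (ZMod 2) F4 (ψ (d ^ 2)) - 1 := by
    intro f hf
    rw [hs0, Finset.mem_insert, Finset.mem_singleton] at hf
    rcases hf with rfl | rfl
    · exact ⟨_, by simp only [d3, map_mul, GThmA_par_xx]; decide, rfl⟩
    · exact ⟨_, by simp only [d5, map_mul, GThmA_par_xx]; decide, rfl⟩
  have hι : ∀ y ∈ DSub (s0 : Set (GA F4)) (M + 1), GThmAio y ∈ DSub (s0 : Set (GA F4)) (M + 1) := by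
    intro y hy
    refine GThmA_DSub_map _ (fun f hf => ?_) hy
    obtain ⟨d, hd, rfl⟩ := hs0' f hf
    obtain ⟨w, hw⟩ := h.iota_sq hd
    have : lin GThmAio (of (ZMod 2) F4 (ψ (d ^ 2)) - 1) =
        of (ZMod 2) F4 w * (of (ZMod 2) F4 (ψ (d ^ 2)) - 1) * of (ZMod 2) F4 w⁻¹ := by
      rw [map_sub, lin_of, lin_one, mul_sub, sub_mul, mul_one, ← map_mul, ← map_mul, ← map_mul,
        mul_inv_cancel, map_one, ← hw]
      rfl
    rw [this]
    exact idl_mul_right _ (idl_mul_left _ (mem_idl hf))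
  have hN := DSub_normal (s0 : Set (GA F4)) (M + 1)
  have hF := h.normal hN hι
  have hfi : ∀ S n, (h.Ev (DSub S n)).FiniteIndex := fun S n =>
    have := DSub_finiteIndex S n
    h.finiteIndex _
  refine ⟨h.Ev (DSub (s0 : Set (GA F4)) (M + 1)), hF, hfi _ _, fun g => ⟨_, h.pow_mem _ _ g⟩,
    Subgroup.normalClosure_le_normal ?_, fun n => ?_⟩
  · rintro g ((rfl | rfl) | ⟨i, rfl⟩)
    · exact h.mem_Ev.2 ⟨GThmA_par_sq _, mem_DSub.2 (Submodule.mem_sup_left (mem_idl (by simp [hs0])))⟩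
    · exact h.mem_Ev.2 ⟨GThmA_par_sq _, mem_DSub.2 (Submodule.mem_sup_left (mem_idl (by simp [hs0])))⟩
    · exact h.mem_Ev.2 ⟨GThmA_par_sq _, by rw [h.sq_xx]; exact one_mem _⟩
  obtain ⟨s, hs1, hs2⟩ := GThmA_chain (fil F4) (idl (s0 : Set (GA F4)))
    {z | z ∈ idl (s0 : Set (GA F4)) ⊔ fil F4 (M + 1) ∧
      ∀ d, z ∈ Submodule.span (ZMod 2) (t d : Set (GA F4)) ⊔ fil F4 d} t fun d z hz => hz.2 d
  obtain ⟨s', hs'⟩ : ∃ s' : ℕ → Finset (GA F4), s' = fun d =>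
      (if d = 2 then s0 else ∅) ∪ (if M + 1 ≤ d then s d else ∅) := ⟨_, rfl⟩
  have hb0 : ∀ d, ((s d).card : ℝ) * (295 / 1000) ^ d ≤ b d := fun d => by
    rw [← hb]
    exact mul_le_mul_of_nonneg_right ((Nat.cast_le.2 (hs1 d).1).trans (ht1 _)) (by positivity)
  have hcard : ∀ d, ((s' d).card : ℝ) * (295 / 1000) ^ d ≤
      (if d = 2 then 2 * (295 / 1000) ^ 2 else 0) + if M ≤ d then b d else 0 := by
    intro d
    rw [hs']
    refine (mul_le_mul_of_nonneg_right (Nat.cast_le.2 (Finset.card_union_le _ _))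
      (by positivity)).trans ?_
    rw [Nat.cast_add, add_mul]
    refine add_le_add ?_ ?_
    · split_ifs with hd
      · rw [hd, hs0]
        exact mul_le_mul_of_nonneg_right (by exact_mod_cast Finset.card_le_two) (by positivity)
      · simp
    · split_ifs with h1 h2 h2
      · exact hb0 d
      · omega
      · simpa using le_trans (by positivity) (hb0 d)
      · simp
  have hsum0 : HasSum (fun d : ℕ => if d = 2 then 2 * (295 / 1000 : ℝ) ^ 2 else 0) _ :=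
    hasSum_ite_eq 2 _
  have hsum := Summable.of_nonneg_of_le (fun d => by positivity) hcard (hsum0.summable.add hbs)
  obtain ⟨m, hm⟩ := golod s' (fun d f hf => by
      rw [hs', Finset.mem_union] at hf
      rcases hf with hf | hf <;> split_ifs at hf with hd
      · obtain ⟨d', hd', rfl⟩ := hs0' f hf
        rw [hd, h.sq_od hd']
        exact commutator_sub_one_mem (GThmA_comm _)
      · simp at hf
      · exact (hs1 d).2 f hf
      · simp at hf) (by simp [hs']) (295 / 1000) (by norm_num) (by norm_num) hsum (by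
      have := hsum.tsum_le_tsum hcard (hsum0.summable.add hbs)
      rw [hsum0.summable.tsum_add hbs, hsum0.tsum_eq] at this
      linarith) (n * (h.Ev (DSub (s0 : Set (GA F4)) (M + 1))).index)
  obtain ⟨S, hS⟩ : ∃ S, S = ⋃ d, (s' d : Set (GA F4)) := ⟨_, rfl⟩
  rw [← hS] at hm
  have hS0 : (s0 : Set (GA F4)) ⊆ S := fun f hf =>
    hS ▸ Set.mem_iUnion.2 ⟨2, by simp [hs', Finset.mem_coe.1 hf]⟩
  have hZ := hs2 (M + 1) (idl S) (GThmA_idl_mono hS0) (fun d hd f hf => mem_idl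
    (hS ▸ Set.mem_iUnion.2 ⟨d, by
      rw [hs']
      exact Finset.mem_union_right _ (by rwa [if_pos hd])⟩)) (fun z hz => hz.1) m
  have hbr : ∀ β : MulAut F5, IsArtin β → β ∈ Br := by
    intro β hβ
    obtain ⟨γ, hγ, e⟩ := artin β.toMonoidHom (fun i => ⟨i, hβ.1 i⟩) hβ.2
    exact (MulEquiv.ext e : γ = β) ▸ hγ
  have hkey : ∀ (β : Br) (w k : F5) (j : ℤ), k ∈ C ∪ C.image (· ^ 2) → par k = 1 →
      ψ (w * β.1 k * w⁻¹) ^ j ∈ DSub (s0 : Set (GA F4)) (M + 1) →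
      ψ (w * β.1 k * w⁻¹) ^ j ∈ DSub S m := by
    intro β w k j hk hk1 hj
    obtain ⟨ε, hε, e⟩ : ∃ ε ∈ ({1, GThmAio} : Finset (MulAut F4)),
        ψ (w * β.1 k * w⁻¹) = ψ w * ε (act β (ψ k)) * (ψ w)⁻¹ := by
      rw [← hact β k hk1]
      by_cases hw : par w = 1
      · exact ⟨1, by simp, h.conj_ev hw ((hpar β k).trans hk1)⟩
      · exact ⟨GThmAio, by simp, h.conj_od hw ((hpar β k).trans hk1)⟩
    obtain ⟨a, ha, i, hi⟩ := GThmA_order _ (pow_mem_DSub _ (M + 1) _) hj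
    rw [hi]
    refine zpow_mem ?_ i
    rw [e, conj_pow, ← map_pow, ← map_pow] at ha ⊢
    refine (DSub_normal S m).conj_mem _ (mem_DSub.2 ?_) _
    have ha' := hN.conj_mem _ ha (ψ w)⁻¹
    simp only [mul_assoc, inv_mul_cancel_left, inv_inv, inv_mul_cancel, mul_one] at ha'
    exact sup_le_sup_left (fil_anti (Nat.le_add_left m (M + 1))) _ (hZ ⟨mem_DSub.1 ha',
      fun d => ht2 d ε hε β _ (Finset.mem_image_of_mem ψ hk) a⟩)
  obtain ⟨Rel, hRel⟩ : ∃ Rel : Set F5, ∀ x, x ∈ Rel ↔ ∃ g ∈ Orb C, ∃ j : ℤ, x = g ^ j ∧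
      x ∈ h.Ev (DSub (s0 : Set (GA F4)) (M + 1)) := ⟨Set.ofPred _, fun _ => Iff.rfl⟩
  have hR1 : Rel ⊆ h.Ev (DSub S m) := by
    intro x hx
    obtain ⟨g, ⟨β, hβ, c, hc, hg⟩, j, rfl, hj⟩ := (hRel x).1 hx
    obtain ⟨w, rfl⟩ := isConj_iff.1 hg
    obtain ⟨p1, p2⟩ := h.mem_Ev.1 hj
    refine h.mem_Ev.2 ⟨p1, ?_⟩
    have p3 : par (w * β c * w⁻¹) = par c := (GThmA_par_conj _ _).trans (hpar ⟨β, hbr β hβ⟩ c)
    by_cases hc1 : par c = 1
    · rw [h.zpow (p3.trans hc1)] at p2 ⊢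
      exact hkey ⟨β, hbr β hβ⟩ w c j (Finset.mem_union_left _ hc) hc1 p2
    · obtain ⟨i, rfl | rfl⟩ := Int.even_or_odd' j
      · rw [zpow_mul, zpow_ofNat, h.zpow (GThmA_par_sq _), conj_pow, ← map_pow] at p2 ⊢
        exact hkey ⟨β, hbr β hβ⟩ w (c ^ 2) i
          (Finset.mem_union_right _ (Finset.mem_image_of_mem _ hc)) (GThmA_par_sq _) p2
      · rw [zpow_add, zpow_mul, zpow_ofNat, zpow_one, map_mul, map_zpow, GThmA_par_sq, one_zpow,
          one_mul, p3] at p1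
        exact absurd p1 hc1
  have hR2 : Group.conjugatesOfSet Rel ⊆ Rel := by
    intro x hx
    obtain ⟨y, hy, hxy⟩ := Group.mem_conjugatesOfSet_iff.1 hx
    obtain ⟨w, rfl⟩ := isConj_iff.1 hxy
    obtain ⟨g, hg, j, rfl, hj⟩ := (hRel y).1 hy
    exact (hRel _).2 ⟨w * g * w⁻¹, Orb_conj hg (isConj_iff.2 ⟨w, rfl⟩), j, conj_zpow.symm,
      hF.conj_mem _ hj w⟩
  have hE := h.normal (DSub_normal (∅ : Set (GA F4)) (M + 1 + m))
    fun y hy => GThmA_empty GThmAio hy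
  have hmono : ∀ {N N' : Subgroup F4}, N ≤ N' → h.Ev N ≤ h.Ev N' := fun hN g hg =>
    h.mem_Ev.2 ⟨(h.mem_Ev.1 hg).1, hN (h.mem_Ev.1 hg).2⟩
  have hVF : Subgroup.normalClosure Rel ⊔ h.Ev (DSub (∅ : Set (GA F4)) (M + 1 + m)) ≤
      h.Ev (DSub (s0 : Set (GA F4)) (M + 1)) :=
    sup_le (Subgroup.normalClosure_le_normal fun x hx => by
      obtain ⟨g, -, j, -, hj⟩ := (hRel x).1 hx
      exact hj) (hmono (GThmA_DSub_mono (Set.empty_subset _) (Nat.le_add_right _ _)))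
  have hVS : Subgroup.normalClosure Rel ⊔ h.Ev (DSub (∅ : Set (GA F4)) (M + 1 + m)) ≤
      h.Ev (DSub S m) :=
    sup_le ((Subgroup.closure_le _).2 (hR2.trans hR1))
      (hmono (GThmA_DSub_mono (Set.empty_subset _) (Nat.le_add_left _ _)))
  have hVi : (Subgroup.normalClosure Rel ⊔
      h.Ev (DSub (∅ : Set (GA F4)) (M + 1 + m))).FiniteIndex :=
    have := hfi ∅ (M + 1 + m)
    Subgroup.finiteIndex_of_le le_sup_right
  refine ⟨_, inferInstance, hVi, hVF, fun g => ⟨_, Subgroup.mem_sup_right (h.pow_mem _ _ g)⟩, ?_,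
    fun g hg j hj => Subgroup.mem_sup_left
      (Subgroup.subset_normalClosure ((hRel _).2 ⟨g, hg, j, rfl, hj⟩)), fun β hβ hβF => ?_⟩
  · refine Nat.le_of_mul_le_mul_right ?_ (Nat.pos_of_ne_zero (hfi s0 (M + 1)).index_ne_zero)
    rw [Subgroup.relIndex_mul_index hVF]
    refine hm.trans ((finrank_le_index S m).trans (le_trans ?_
      (Nat.le_of_dvd (Nat.pos_of_ne_zero hVi.index_ne_zero) (Subgroup.index_dvd_of_le hVS))))
    rw [h.index]
    exact Nat.le_mul_of_pos_right _ (Nat.pos_of_ne_zero Subgroup.FiniteIndex.index_ne_zero)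
  · have : Subgroup.normalClosure Rel ⊔ h.Ev (DSub (∅ : Set (GA F4)) (M + 1 + m)) ≤
        (Subgroup.normalClosure Rel ⊔
          h.Ev (DSub (∅ : Set (GA F4)) (M + 1 + m))).comap β.toMonoidHom := by
      refine sup_le ((Subgroup.closure_le _).2 fun x hx => ?_) fun x hx => ?_
      · obtain ⟨g, hg, j, rfl, hj⟩ := (hRel x).1 (hR2 hx)
        exact Subgroup.mem_sup_left (Subgroup.subset_normalClosure ((hRel _).2
          ⟨β g, Orb_artin hg hβ, j, map_zpow β g j, (hβF _).2 hj⟩))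
      · obtain ⟨p1, p2⟩ := h.mem_Ev.1 hx
        refine Subgroup.mem_sup_right (h.mem_Ev.2 ⟨(hpar ⟨β, hbr β hβ⟩ x).trans p1, ?_⟩)
        exact (hact ⟨β, hbr β hβ⟩ x p1).symm ▸ GThmA_empty _ p2
    exact fun g hg => this hg

end Vale.Agent.P300
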