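import Vale.Agent.P300.TMark

/-! P300: the fundamental group of the family of punctured planes. -/

noncomputable section

namespace Vale.Agent.P300

open unitInterval

/-- a fibre loop at the base point homotopic to a loop in the section is trivial -/
theorem fibre_null {S : Finset ℂ} (hS : ∀ c : ℂ, c ∉ S → Function.Injective fun i => av i c)
    (b0 : ℂ) (γ : C(I, Pl fun i => av i b0)) (γ' β : C(I, U0 S))
    (hγ : ∀ s, (γ' s).1 = (b0, (γ s : ℂ))) (hβ : ∀ s, (β s).1.2 = Rr (β s).1.1)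
    (h : γ'.HomotopicRel β {0, 1}) : Null γ := by
  obtain ⟨H⟩ := h
  let B : I × I → ℂ := fun p => (H p).1.1
  have hB : Continuous B := by fun_prop
  have hB0 : ∀ s, B (0, s) = b0 := fun s => by simp only [B, H.apply_zero, hγ]
  obtain ⟨h, k, -, hk, e1, e2, e3, e4⟩ := exists_isotopy (κ := Option (Fin 5))
    (fun p o => o.elim (Rr (B p) : ℂ) fun i => av i (B p))
    (by
      rintro (_ | i)
      exacts [Complex.continuous_ofReal.comp (continuous_Rr.comp hB), (tu0_cont_av i).comp hB])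
    (by
      rintro p (_ | i) (_ | j) e
      exacts [rfl, ((sec_mem (H p).2.1).2 j e).elim, ((sec_mem (H p).2.1).2 i e.symm).elim,
        congrArg some (hS _ (H p).2.1 e)])
  have hb0 : b0 ∉ S := hB0 0 ▸ (H (0, 0)).2.1
  let K : I × I → Pl fun i => av i b0 := fun p => ⟨k ((p.2, p.1), (H (p.2, p.1)).1.2), fun i e => by
    have h1 := e4 p.2 p.1 (some i)
    simp only [Option.elim, hB0] at h1
    rw [← show k _ = av i b0 from e, e2] at h1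
    exact (H (p.2, p.1)).2.2 i h1⟩
  let z0 : Pl fun i => av i b0 := ⟨Rr b0, (sec_mem hb0).2⟩
  have hz : ∀ s t, (H (t, s)).1.2 = Rr (B (t, s)) → z0 = K (s, t) := fun s t e => by
    have h1 := e4 t s none
    simp only [Option.elim, hB0] at h1
    exact Subtype.ext (show _ = k (_, _) by rw [e, ← h1, e1])
  have hs : ∀ t, ∀ s ∈ ({0, 1} : Set I), z0 = K (s, t) := fun t s hs => hz s t (by
    simp only [B, H.eq_snd t hs, hβ])
  intro G _ μ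
  have h1 := μ.sq K (Continuous.subtype_mk (by fun_prop) _) γ (.const _ z0) (.const _ z0)
    (.const _ z0) (fun s => Subtype.ext (show _ = k (_, _) by
      rw [H.apply_zero, hγ, ← e3 s (γ s), e1, e3])) (fun t => hs t 1 (by simp))
    (fun t => hs t 0 (by simp)) (fun s => hz s 1 (by simp only [B, H.apply_one, hβ]))
  rwa [μ.m_const (.const _ z0) fun _ => rfl, mul_one, mul_one] at h1

variable {S : Finset ℂ}

/-- inclusion of a fibre -/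
def tcInc {b : ℂ} (hb : b ∉ S) : C(Pl fun i => av i b, U0 S) :=
  ⟨fun z => ⟨(b, z.1), hb, z.2⟩, by fun_prop⟩

/-- a path in a fibre as a path in the punctured plane -/
def tcLft {b : ℂ} (γ : C(I, U0 S)) (h : ∀ s, (γ s).1.1 = b) : C(I, Pl fun i => av i b) :=
  ⟨fun s => ⟨(γ s).1.2, fun i => h s ▸ (γ s).2.2 i⟩, by fun_prop⟩

theorem tc_inc_lft {b : ℂ} (hb : b ∉ S) (γ : C(I, U0 S)) (h : ∀ s, (γ s).1.1 = b) :
    (tcInc hb).comp (tcLft γ h) = γ :=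
  ContinuousMap.ext fun s => Subtype.ext (Prod.ext (h s).symm rfl)

/-- the section over the base path of `δ` -/
def tcSec (δ : C(I, U0 S)) : C(I, U0 S) :=
  ⟨fun s => ⟨((δ s).1.1, Rr (δ s).1.1), sec_mem (δ s).2.1⟩, by
    have := continuous_Rr
    fun_prop⟩

theorem tc_half {b : ℂ} (hb : ‖b‖ < 1 / 10) (i : Fin 5) :
    ‖av i b - 0‖ ≠ ‖(1 / 2 : ℂ)‖ ∧ (i ∈ ({0, 1, 2} : Set (Fin 5)) ↔ ‖av i b - 0‖ < ‖(1 / 2 : ℂ)‖) := by
  have h0 := norm_nonneg b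
  have h1 : ‖b‖ ^ 2 < 1 / 2 := by nlinarith
  have h2 : 1 / 2 < ‖1 + b‖ := by
    have := norm_sub_le (1 + b) b
    rw [add_sub_cancel_right, norm_one] at this
    linarith
  have h3 : ‖(1 / 2 : ℂ)‖ = 1 / 2 := by simp
  rw [h3, sub_zero]
  fin_cases i
  · simp [av]
  · simpa [av] using ⟨by simpa using h1.ne, by simpa using h1⟩
  · have : ‖b‖ < 1 / 2 := by linarith
    simpa [av] using ⟨by simpa using this.ne, by simpa using this⟩
  · norm_num [av]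
    decide
  · simpa [av] using ⟨by simpa using h2.ne', by simpa using h2.le⟩

theorem tc_trans (hS : ∀ c : ℂ, c ∉ S → Function.Injective fun i => av i c) {P : Type} [Group P]
    (μ : Mono (U0 S) P) (ι : F5 →* P) (δ : C(I, U0 S)) {b b1 : ℂ} (h0 : (δ 0).1.1 = b)
    (h1 : (δ 1).1.1 = b1) (hb : b ∉ S) (hb1 : b1 ∉ S) (μ0 : Mono (Pl fun i => av i b) F5)
    (hm : IsMark _ μ0)
    (h3 : ∀ γ : C(I, Pl fun i => av i b), IsCirc (fun i => av i b) {0, 1, 2} (fun s => γ s) →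
      IsConj d3 (μ0.m γ))
    (hι : ∀ γ : C(I, Pl fun i => av i b), tcInc hb (γ 0) = δ 0 → tcInc hb (γ 1) = δ 0 →
      μ.m ((tcInc hb).comp γ) = ι (μ0.m γ)) :
    ∃ (μ1 : Mono (Pl fun i => av i b1) F5) (κ : F5), IsMark _ μ1 ∧
      (∀ γ : C(I, Pl fun i => av i b1), tcInc hb1 (γ 0) = δ 1 → γ 1 = γ 0 →
        μ.m δ * μ.m ((tcInc hb1).comp γ) * (μ.m δ)⁻¹ = ι (κ * μ1.m γ * κ⁻¹)) ∧
      (∀ δ' : C(I, U0 S), (∀ s, (δ' s).1.1 = (δ s).1.1) → δ' 0 = δ 0 → δ' 1 = δ 1 →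
        ∃ f, μ.m δ = ι f * μ.m δ') ∧
      ((∀ s, ‖(δ s).1.1‖ < 1 / 10) → ∀ γ : C(I, Pl fun i => av i b1),
        IsCirc (fun i => av i b1) {0, 1, 2} (fun s => γ s) → IsConj d3 (μ1.m γ)) := by
  subst h0 h1
  let a : I → Fin 5 → ℂ := fun s i => av i (δ s).1.1
  obtain ⟨k, k0, k1, k2⟩ := transport a
    (continuous_pi fun i => (tu0_cont_av i).comp (by fun_prop)) (fun s => hS _ (δ s).2.1) μ0 hm
  let Φ : C(Fam a, U0 S) := ⟨fun w => ⟨((δ w.1.1).1.1, w.1.2), (δ w.1.1).2.1, w.2⟩, by fun_prop⟩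
  let L : ∀ δ' : C(I, U0 S), (∀ s, (δ' s).1.1 = (δ s).1.1) → C(I, Fam a) := fun δ' h =>
    ⟨fun s => ⟨(s, (δ' s).1.2), fun i => by simpa only [a, ← h] using (δ' s).2.2 i⟩, by fun_prop⟩
  have hL : ∀ δ' h, Φ.comp (L δ' h) = δ' := fun δ' h =>
    ContinuousMap.ext fun s => Subtype.ext (Prod.ext (h s).symm rfl)
  let z0 : Pl (a 0) := ⟨(δ 0).1.2, (δ 0).2.2⟩
  have key : ∀ Γ : C(I, Fam a), Γ 0 = fib a 0 z0 → Γ 1 = fib a 0 z0 →
      (μ.comap Φ).m Γ = ι ((μ0.comap k).m Γ) := fun Γ e0 e1 => by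
    rw [k2 P _ Γ (by rw [e0]; rfl) (by rw [e1]; rfl)]
    exact hι (k.comp Γ) (by rw [ContinuousMap.comp_apply, e0, k0]; rfl)
      (by rw [ContinuousMap.comp_apply, e1, k0]; rfl)
  have hδ : (μ.comap Φ).m (L δ fun _ => rfl) = μ.m δ := congrArg μ.m (hL δ fun _ => rfl)
  refine ⟨μ0.comap (k.comp (fib a 1)), (μ0.comap k).m (L δ fun _ => rfl), k1 1,
    fun γ e0 e1 => ?_, fun δ' h e0 e1 => ?_, fun h γ hγ => ?_⟩
  · have e2 : fib a 1 (γ 0) = L δ (fun _ => rfl) 1 :=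
      Subtype.ext (Prod.ext rfl (congrArg (fun u : U0 S => u.1.2) e0))
    have := key (cat (cat (L δ fun _ => rfl) ((fib a 1).comp γ) e2) (rev (L δ fun _ => rfl))
      (by rw [rev_zero, cat_one, ContinuousMap.comp_apply, e1, e2]))
      (by rw [cat_zero, cat_zero]; rfl) (by rw [cat_one, rev_one]; rfl)
    simp only [Mono.m_cat, Mono.m_rev, hδ] at this
    exact this
  · have := key (cat (L δ fun _ => rfl) (rev (L δ' h)) (by
      rw [rev_zero]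
      exact Subtype.ext (Prod.ext rfl (congrArg (fun u : U0 S => u.1.2) e1))))
      (by rw [cat_zero]; rfl) (by
        rw [cat_one, rev_one]
        exact Subtype.ext (Prod.ext rfl (congrArg (fun u : U0 S => u.1.2) e0)))
    have hδ' : (μ.comap Φ).m (L δ' h) = μ.m δ' := congrArg μ.m (hL δ' h)
    rw [Mono.m_cat, Mono.m_rev, hδ, hδ'] at this
    exact ⟨_, mul_inv_eq_iff_eq_mul.1 this⟩
  · obtain ⟨γ0, g0⟩ := exists_circ (a := a 0) fun i => (tc_half (h 0) i).1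
    obtain ⟨γ1, g1⟩ := exists_circ (a := a 1) fun i => (tc_half (h 1) i).1
    have h4 := circ_fam (μ0.comap k) (fun _ => 0) (fun _ => 1 / 2) continuous_const
      continuous_const (fun s i => (tc_half (h s) i).1) γ0 γ1 g0 g1
    have h5 : (μ0.comap k).m ((fib a 0).comp γ0) = μ0.m γ0 :=
      congrArg μ0.m (ContinuousMap.ext fun s => k0 _)
    rw [h5] at h4
    exact ((h3 γ0 ⟨0, 1 / 2, g0, fun i => (tc_half (h 0) i).2⟩).trans h4).trans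
      (circ_conj (μ0.comap (k.comp (fib a 1))) ⟨0, 1 / 2, g1, fun i => (tc_half (h 1) i).2⟩ hγ)

/-- values of the loops in the section -/
def tcSub (u0 : U0 S) (hu : u0.1.2 = Rr u0.1.1) {P : Type} [Group P] (μ : Mono (U0 S) P) :
    Subgroup P where
  carrier := {g | ∃ γ : C(I, U0 S), γ 0 = u0 ∧ γ 1 = u0 ∧ (∀ s, (γ s).1.2 = Rr (γ s).1.1) ∧
    μ.m γ = g}
  one_mem' := ⟨.const _ u0, rfl, rfl, fun _ => hu, μ.m_const _ fun _ => rfl⟩
  mul_mem' := by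
    rintro _ _ ⟨γ, h0, h1, h2, rfl⟩ ⟨γ', h0', h1', h2', rfl⟩
    refine ⟨cat γ γ' (h0'.trans h1.symm), by rw [cat_zero, h0], by rw [cat_one, h1'], fun s => ?_,
      μ.m_cat _ _ _⟩
    rcases cat_mem γ γ' (h0'.trans h1.symm) s with ⟨t, e⟩ | ⟨t, e⟩ <;> rw [e]
    exacts [h2 t, h2' t]
  inv_mem' := by
    rintro _ ⟨γ, h0, h1, h2, rfl⟩
    exact ⟨rev γ, by rw [rev_zero, h1], by rw [rev_one, h0], fun s => h2 _, μ.m_rev _⟩

theorem tc_mark {b0 : ℝ} (h0 : 0 < b0) (h1 : b0 < 1 / 10) :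
    ∃ (μ0 : Mono (Pl fun i => av i (b0 : ℂ)) F5) (c0 : C(I, Pl fun i => av i (b0 : ℂ))),
      IsMark _ μ0 ∧ (∀ γ : C(I, Pl fun i => av i (b0 : ℂ)),
        IsCirc (fun i => av i (b0 : ℂ)) {0, 1, 2} (fun s => γ s) → IsConj d3 (μ0.m γ)) ∧ (∀ s : I, (c0 s : ℂ) = Rr b0 * ex s) ∧ μ0.m c0 = d5 := by
  obtain ⟨μ1, m1, m2⟩ := exists_mark_real (fun i => av i (b0 : ℂ))
    (fun i => by fin_cases i <;> simp [av, sq]) (Fin.strictMono_iff_lt_succ.2 fun i => by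
      fin_cases i <;> simp [av, sq] <;> nlinarith)
  have hR : ∀ i, ‖av i (b0 : ℂ) - 0‖ < ‖(Rr b0 : ℂ)‖ := fun i => by
    rw [sub_zero, Complex.norm_real, Real.norm_eq_abs]
    linarith [norm_av_le i b0, le_abs_self (Rr b0)]
  obtain ⟨c0, hc⟩ := exists_circ fun i => (hR i).ne
  obtain ⟨g, hg⟩ := isConj_iff.1 (m1.all c0 ⟨0, _, hc, fun i => by simpa using hR i⟩)
  refine ⟨μ1.gauge fun _ => g⁻¹, c0, m1.gauge _, fun γ hγ => (m2 γ hγ).trans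
    (isConj_iff.2 ⟨g⁻¹, rfl⟩), fun s => by rw [hc, zero_add], ?_⟩
  change g⁻¹ * μ1.m c0 * g⁻¹⁻¹ = d5
  rw [← hg]
  group

theorem tc_comm {P : Type} [Group P] (μ : Mono (U0 S) P) (δ c : C(I, U0 S))
    (hδ : ∀ s, (δ s).1.2 = Rr (δ s).1.1) (h1 : δ 1 = δ 0)
    (hc : ∀ s : I, (c s).1 = ((δ 0).1.1, Rr (δ 0).1.1 * ex s)) : μ.m δ * μ.m c = μ.m c * μ.m δ := by
  have h2 := continuous_Rr
  have h3 := continuous_ex
  have h4 : ex 1 = 1 := by simpa using ex_int 1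
  have h5 : ∀ p : I × I, ((δ p.1).1.1, Rr (δ p.1).1.1 * ex p.2) ∈ U0 S := fun p =>
    ⟨(δ p.1).2.1, fun i e => by
      have h5 := congrArg norm e
      rw [norm_mul, norm_ex, mul_one, Complex.norm_real, Real.norm_eq_abs] at h5
      linarith [norm_av_le i (δ p.1).1.1, le_abs_self (Rr (δ p.1).1.1)]⟩
  refine μ.sq (fun p => ⟨_, h5 p⟩) (by fun_prop) δ c c δ (fun s => Subtype.ext (Prod.ext rfl ?_))
    (fun s => Subtype.ext ((hc s).trans (by simp only [h1]))) (fun s => Subtype.ext (hc s))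
    fun s => Subtype.ext (Prod.ext rfl ?_)
  · simp [hδ, ex_zero]
  · simp [hδ, h4]

theorem exists_tdata : ∃ C : Finset F5, ∀ (S : Finset ℂ),
    (∀ c : ℂ, c ∉ S → Function.Injective fun i => av i c) → ∀ ε : ℝ, ε ≤ 1 / 10 →
    ∀ (u0 : U0 S) (b0 : ℝ), 0 < b0 → b0 < ε → u0.1 = ((b0 : ℂ), (Rr b0 : ℂ)) →
    ∀ (P : Type) [Group P] (μ : Mono (U0 S) P), IsUniv μ →
      ∃ D : TData P, TFacts C ε u0 μ D := by
  obtain ⟨C, hC⟩ := exists_orb
  refine ⟨C, fun S hS ε hε u0 b0 h0 h1 hu P _ μ hμ => ?_⟩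
  have hu1 : u0.1.1 = b0 := congrArg Prod.fst hu
  have hu2 : u0.1.2 = Rr u0.1.1 := by rw [hu]
  have hb : (b0 : ℂ) ∉ S := hu1 ▸ u0.2.1
  obtain ⟨μ0, c0, hm, h3, hc, hd⟩ := tc_mark h0 (h1.trans_le hε)
  let z0 : Pl fun i => av i (b0 : ℂ) := ⟨Rr b0, (sec_mem hb).2⟩
  have hz : ∀ z, tcInc hb z = u0 ↔ z = z0 := fun z =>
    ⟨fun h => Subtype.ext (congrArg Prod.snd ((congrArg Subtype.val h).trans hu)),
      fun h => h ▸ Subtype.ext hu.symm⟩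
  have := isPathConnected_iff_pathConnectedSpace.1 (isPathConnected_Pl fun i => av i (b0 : ℂ))
  obtain ⟨ι, e, he, hι'⟩ := hm.univ.lift (μ.comap (tcInc hb)) z0
  have hι : ∀ γ : C(I, Pl fun i => av i (b0 : ℂ)), γ 0 = z0 → γ 1 = z0 →
      μ.m ((tcInc hb).comp γ) = ι (μ0.m γ) := fun γ e0 e1 => by
    have := hι' γ
    rwa [e0, e1, he, one_mul, inv_one, mul_one] at this
  have tr := fun (δ : C(I, U0 S)) (hδ : δ 0 = u0) {b1 : ℂ} (e1 : (δ 1).1.1 = b1) (hb1 : b1 ∉ S) =>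
    tc_trans hS μ ι δ (hδ ▸ hu1) e1 hb hb1 μ0 hm h3 fun γ e0 e1 =>
      hι γ ((hz _).1 (e0.trans hδ)) ((hz _).1 (e1.trans hδ))
  have uniq : ∀ f, ι f ∈ tcSub u0 hu2 μ → f = 1 := by
    rintro f ⟨β, e0, e1, hβ, e⟩
    obtain ⟨γ, g0, g1, rfl⟩ := hm.univ.full z0 f
    have := isPathConnected_iff_pathConnectedSpace.1 (isPathConnected_U0 S)
    obtain ⟨Q, _, ν, -, hν⟩ := exists_univ (U0 S)
    have a0 : (tcInc hb).comp γ 0 = β 0 := ((hz _).2 g0).trans e0.symm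
    have a1 : (tcInc hb).comp γ 1 = β 1 := ((hz _).2 g1).trans e1.symm
    have h4 := hμ.faith (cat ((tcInc hb).comp γ) (rev β) (by rw [rev_zero, a1]))
      (by rw [cat_one, cat_zero, rev_one, a0])
      (by rw [Mono.m_cat, Mono.m_rev, hι γ g0 g1, e, mul_inv_cancel]) Q ν
    rw [Mono.m_cat, Mono.m_rev, mul_inv_eq_one] at h4
    exact fibre_null hS b0 γ _ β (fun _ => rfl) hβ (hν _ _ a0 a1 h4) F5 μ0
  have inj : Function.Injective ι :=
    (injective_iff_map_eq_one ι).2 fun f hf => uniq f (hf ▸ one_mem _)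
  refine ⟨⟨ι, tcSub u0 hu2 μ, inj, fun g => ?_, uniq, ?_⟩, fun δ hδ g => ?_,
    fun k γ e0 e1 hγ hk i r hr => ?_, fun γ e0 e1 hγ => ⟨γ, e0, e1, hγ, rfl⟩,
    fun δ γ hδ e0 J hJ => ?_⟩
  · obtain ⟨δ, e0, e1, rfl⟩ := hμ.full u0 g
    obtain ⟨_, _, -, -, h4, -⟩ := tr δ e0 rfl (δ 1).2.1
    have a2 : ∀ s, δ s = u0 → tcSec δ s = δ s := fun s e => Subtype.ext (Prod.ext rfl
      (show (Rr (δ s).1.1 : ℂ) = _ by rw [e, hu2]))
    have a0 := a2 0 e0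
    have a1 := a2 1 e1
    obtain ⟨f, hf⟩ := h4 (tcSec δ) (fun _ => rfl) a0 a1
    exact ⟨f, _, ⟨tcSec δ, a0.trans e0, a1.trans e1, fun _ => rfl, rfl⟩, hf⟩
  · rintro _ ⟨δ, e0, e1, hδ, rfl⟩
    obtain ⟨μ1, κ, m1, h4, -⟩ := tr δ e0 (e1 ▸ hu1) hb
    obtain ⟨α, e', hα, h5⟩ := hm.compare (hS _ hb) m1
    have h6 : ∀ g, μ.m δ * ι g * (μ.m δ)⁻¹ = ι ((MulAut.conj (κ * e' z0) * α) g) := fun g => by
      obtain ⟨γ, g0, g1, rfl⟩ := hm.univ.full z0 g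
      rw [← hι γ g0 g1, h4 γ (((hz _).2 g0).trans e1.symm) (g1.trans g0.symm), h5, g0, g1]
      simp [mul_assoc]
    refine ⟨_, ⟨fun i => (hα.1 i).trans (isConj_iff.2 ⟨κ * e' z0, rfl⟩), inj ?_⟩, h6⟩
    have h7 : ex 1 = 1 := by simpa using ex_int 1
    rw [← h6, ← hd, ← hι c0 (Subtype.ext (by simp [hc, ex_zero, z0]))
      (Subtype.ext (by simp [hc, h7, z0])), mul_inv_eq_iff_eq_mul]
    refine tc_comm μ δ _ hδ (e1.trans e0.symm) fun s => ?_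
    rw [e0, hu1, ← hc]
    rfl
  · obtain ⟨μ1, κ, m1, h4, -⟩ := tr δ hδ rfl (δ 1).2.1
    obtain ⟨γ, g0, g1, e⟩ := m1.univ.full ⟨(δ 1).1.2, (δ 1).2.2⟩ (κ⁻¹ * g * κ)
    have a0 : tcInc (δ 1).2.1 (γ 0) = δ 1 := by rw [g0]; rfl
    refine ⟨(tcInc (δ 1).2.1).comp γ, a0, by rw [ContinuousMap.comp_apply, g1]; rfl,
      fun _ => rfl, ?_⟩
    rw [h4 γ a0 (g1.trans g0.symm), e]
    simp [mul_assoc]
  · have hγ' : ∀ s, (γ s).1.1 = b0 := fun s => (hγ s).trans hu1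
    have h4 := fun s => congrArg (fun f : C(I, U0 S) => f s) (tc_inc_lft hb γ hγ')
    have g0 := (hz _).1 ((h4 0).trans e0)
    have g1 := (hz _).1 ((h4 1).trans e1)
    have h5 := hι _ g0 g1
    rw [tc_inc_lft, hk] at h5
    exact hm.root (hS _ hb) k _ (g1.trans g0.symm) (inj h5).symm i r fun s => by
      rw [hr s, hu1]; rfl
  · obtain ⟨μ1, κ, m1, h4, -, h5⟩ := tr δ hδ (e0 ▸ rfl : (δ 1).1.1 = (γ 0).1.1) (γ 0).2.1
    have h6 : IsCirc _ J fun s => tcLft γ hJ.1 s := hJ.2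
    have h7 := h4 (tcLft γ hJ.1) e0 (by
      obtain ⟨c, w, h7, -⟩ := h6
      have h8 : ex 1 = 1 := by simpa using ex_int 1
      exact Subtype.ext (by simp [h7, h8, ex_zero]))
    rw [tc_inc_lft] at h7
    have h8 : IsConj (μ1.m (tcLft γ hJ.1)) (κ * μ1.m (tcLft γ hJ.1) * κ⁻¹) := isConj_iff.2 ⟨κ, rfl⟩
    exact ⟨_, Orb_conj (hC _ (hS _ (γ 0).2.1) μ1 m1 J _ h6) h8, h7,
      fun i hi => (m1.one i _ (hi ▸ h6)).trans h8, fun hi => (m1.all _ (hi ▸ h6)).trans h8,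
      fun hi h9 => (h5 (fun s => (h9 s).trans_le hε) _ (hi ▸ h6)).trans h8⟩

end Vale.Agent.P300
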