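import Vale.Agent.P300.EKey
import Vale.Agent.P300.EFinal
import Vale.Agent.P300.EHol
import Vale.Agent.P300.TCore
import Vale.Agent.P300.GThmA
import Vale.Agent.P300.GHK
import Vale.Agent.P300.DSmooth

/-! P300: the counterexample. -/

noncomputable section

namespace Vale.Agent.P300

open unitInterval Topology

theorem emain_eps (S : Finset ℂ) :
    ∃ ε : ℝ, 0 < ε ∧ ε ≤ 1 / 10 ∧ ∀ p ∈ S, ‖p‖ < ε → p = 0 := by
  classical
  have h : ∀ᶠ ε : ℝ in 𝓝 0, ε ≤ 1 / 10 ∧ ∀ p ∈ S, p ≠ 0 → ε ≤ ‖p‖ := by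
    refine (eventually_le_nhds (by norm_num)).and ?_
    rw [Filter.eventually_all_finset]
    intro p _
    by_cases hp : p = 0
    · exact Filter.Eventually.of_forall fun _ h => absurd hp h
    · exact (eventually_le_nhds (norm_pos_iff.2 hp)).mono fun _ h _ => h
  obtain ⟨ε, h1, h2⟩ := ((h.filter_mono nhdsWithin_le_nhds).and
    (self_mem_nhdsWithin (s := Set.Ioi (0 : ℝ)))).exists
  refine ⟨ε, h2, h1.1, fun p hp hlt => ?_⟩
  by_contra h0
  exact absurd (h1.2 p hp h0) (not_le.2 hlt)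

theorem emain_not_convex {ι : Type} [Fintype ι] {X : Set (PSp ι)} [T1Space X] {W : Type}
    [TopologicalSpace W] {p : W → X} (hp : IsCoveringMap p) (w1 : W) (A : Set W)
    (hA : A.Infinite) (h1 : ∀ w ∈ A, p w = p w1) (h2 : ∀ w ∈ A, ∀ g, IsHolo X p g → g w = g w1) :
    ¬ IsHolConvex X p := by
  intro h
  have hK := h {w1} isCompact_singleton (Set.singleton_nonempty _)
  have hc := hK.inter_right ((isClosed_singleton (x := p w1)).preimage hp.continuous)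
  have hd : IsDiscrete (p ⁻¹' {p w1}) := ⟨(hp (p w1)).discreteTopology_fiber⟩
  refine hA ((hc.finite (hd.mono Set.inter_subset_right)).subset fun w hw => ⟨fun g hg => ?_, h1 w hw⟩)
  rw [Set.image_singleton, csSup_singleton, h2 w hw g hg]

theorem counterexample : ∃ (N : ℕ) (X : Set (PSp (Fin (N + 1)))), IsProjAlg X ∧ IsSmoothProj X ∧
    IsConnected X ∧ ∃ (W : Type) (_ : TopologicalSpace W) (p : W → X), IsCoveringMap p ∧
      Function.Surjective p ∧ SimplyConnectedSpace W ∧ ¬ IsHolConvex X p := by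
  obtain ⟨C, hC⟩ := exists_tdata
  obtain ⟨F', hn, hfi, h2, hsq, hV⟩ := thmA C
  obtain ⟨N, hNn, hNf, hNF, hN2, hNΦ, hNfull⟩ := exists_N F' h2
  obtain ⟨Ω, _, _, Γ, _, _, j, hj, hker, ⟨St⟩⟩ := exists_setup N hN2 hNΦ
  subst hker
  obtain ⟨ε, hε, hε1, hεS⟩ := emain_eps St.S
  have hS : ∀ c : ℂ, c ∉ St.S → Function.Injective fun i => av i c := (St.dat 1).hS
  have hb0 : ((ε / 2 : ℝ) : ℂ) ∉ St.S := fun h => by
    have h1 := hεS _ h (by rw [Complex.norm_real, Real.norm_eq_abs, abs_of_pos (by linarith)]; linarith)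
    have h2 : ε / 2 = 0 := by exact_mod_cast h1
    linarith
  have hpcU : PathConnectedSpace (U0 St.S) :=
    isPathConnected_iff_pathConnectedSpace.1 (isPathConnected_U0 St.S)
  obtain ⟨P, _, μ, hμ, -⟩ := exists_univ (U0 St.S)
  obtain ⟨Dt, hT⟩ := hC St.S hS ε hε1 ⟨_, sec_mem hb0⟩ (ε / 2) (by linarith) (by linarith) rfl P μ hμ
  obtain ⟨E, M, n, t, hG, y0, H, hpc, hy0, hH, Q, _, _, θ, hE, k1, k2, k3⟩ :=
    St.key j hj hN2 hNfull F' hNF hμ hT
  have hT' : TFacts C ε ((St.dat E).prU t y0) μ Dt := by rw [hy0]; exact hT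
  have hu : ((St.dat E).prU t y0).1.2 = Rr ((St.dat E).prU t y0).1.1 := by rw [hy0]
  have hb : ‖((St.dat E).prU t y0).1.1‖ < ε := by
    rw [hy0]
    change ‖((ε / 2 : ℝ) : ℂ)‖ < ε
    rw [Complex.norm_real, Real.norm_eq_abs, abs_of_pos (by linarith)]
    linarith
  have hpcY := (hG.pc_UY hpc y0).2
  obtain ⟨W, _, p, hp, hps, hW⟩ := exists_universal_cover (Zt t) fun y Nb hNb => hG.loc_sc y hNb
  refine ⟨n, Zt t, isProjAlg_Zt t, isSmoothProj_Zt t fun y => ?_,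
    (isPathConnected_iff_pathConnectedSpace.2 hpcY).isConnected, W, inferInstance, p, hp, hps, hW, ?_⟩
  · obtain ⟨u, v, e, h⟩ := (hG.2 y).2.1
    exact ⟨u, v, h.1⟩
  obtain ⟨y1, hy1⟩ := hG.F0_nonempty hεS hb hu
  obtain ⟨w1, rfl⟩ := hps y1
  have hL := hG.hl hT' hH fun g hg => (k1 g).2 (hsq hg)
  have hinf := hG.infinite_fibre hpc hε hT' hu hH F' (fun g hg => (k1 g).2 hg) (fun m => by
    obtain ⟨V, hVn, hVf, hVF, hV2, hVm, hVC, hVinv⟩ := hV m
    obtain ⟨Hk, hk1, hk2, hk3⟩ := exists_HK Dt C F' V hVF hV2 hVC hVinv θ E hE H k1 k2 k3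
    exact ⟨Hk, V, hk1, hVm, fun g hg => (hk2 g).1 hg, hk3⟩) hp w1 hy1
  have := Zt.t2 t
  refine emain_not_convex hp w1 _ hinf (fun w hw => hw.1) fun w hw g hg => ?_
  obtain ⟨-, γ, h0, h1, hγ⟩ := hw
  rw [← h0, ← h1]
  exact hG.const_F0 hε hL hp hg γ hγ

end Vale.Agent.P300
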