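import Vale.Agent.P300.TCoc
import Vale.Agent.P300.TUniv

/-! P300: extension of coverings and existence of universal covers. -/

noncomputable section

namespace Vale.Agent.P300

open unitInterval Topology

theorem EMrx_pc {Y : Type} [TopologicalSpace Y] {U O : Set Y} (h : IsPathConnected (O ∩ U)) :
    IsPathConnected (Subtype.val ⁻¹' O : Set U) := by
  have h1 := h.preimage_coe (U := U) Set.inter_subset_right
  have h2 : (Subtype.val ⁻¹' (O ∩ U) : Set U) = Subtype.val ⁻¹' O := by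
    ext u
    exact ⟨fun h => h.1, fun h => ⟨h, u.2⟩⟩
  rwa [h2] at h1

theorem exists_ext {Y : Type} [TopologicalSpace Y] (U : Set Y) (hU : IsOpen U) {G : Type} [Group G]
    (ν : Mono U G)
    (hloc : ∀ y, ∀ Nb ∈ 𝓝 y, ∃ O, IsOpen O ∧ y ∈ O ∧ O ⊆ Nb ∧ IsPathConnected (O ∩ U))
    (htriv : ∀ y, ∃ O ∈ 𝓝 y, ∀ γ : C(I, U), (∀ s, (γ s : Y) ∈ O) → γ 1 = γ 0 → ν.m γ = 1) :
    ∃ (T : Type) (_ : TopologicalSpace T) (q : T → Y) (lab : T → G), IsCoveringMap q ∧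
      (∀ y, Set.BijOn lab (q ⁻¹' {y}) Set.univ) ∧
      ∀ (Γ : C(I, T)) (γ : C(I, U)), (∀ s, q (Γ s) = γ s) → lab (Γ 1) = lab (Γ 0) * ν.m γ := by
  classical
  have _ := hU
  choose Ot hOt ht using htriv
  choose O hO hy hsub hpc using fun y => hloc y (Ot y) (hOt y)
  choose e he using fun y => ν.cobdry_on (EMrx_pc (hpc y)) fun γ hγ h =>
    ht y γ (fun s => hsub y (hγ s)) h
  have dense : ∀ y, ∀ P : Y → Prop, (∀ᶠ y' in 𝓝 y, P y') → ∃ u : U, P u.1 := fun y P hP => by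
    obtain ⟨O1, -, -, h1, h2⟩ := hloc y _ hP
    obtain ⟨u, hu⟩ := h2.nonempty
    exact ⟨⟨u, hu.2⟩, h1 hu.1⟩
  have hg : ∀ a b y, ∃ c : G, y ∈ O a ∩ O b →
      ∀ᶠ y' in 𝓝 y, ∀ h : y' ∈ U, e a ⟨y', h⟩ * (e b ⟨y', h⟩)⁻¹ = c := by
    intro a b y
    by_cases hab : y ∈ O a ∩ O b
    · obtain ⟨O1, h0, h0', h1, h2⟩ := hloc y _ (((hO a).inter (hO b)).mem_nhds hab)
      obtain ⟨u, hu, hj⟩ := EMrx_pc h2
      refine ⟨e a u * (e b u)⁻¹, fun _ => ?_⟩
      filter_upwards [h0.mem_nhds h0'] with y' hy' h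
      obtain ⟨p, hp⟩ := hj (y := ⟨y', h⟩) hy'
      have ha := he a p.toContinuousMap fun s => (h1 (hp s)).1
      have hb := he b p.toContinuousMap fun s => (h1 (hp s)).2
      have p0 : p.toContinuousMap 0 = u := p.source
      have p1 : p.toContinuousMap 1 = ⟨y', h⟩ := p.target
      rw [p0, p1] at ha hb
      rw [eq_inv_mul_iff_mul_eq] at ha hb
      rw [← ha, ← hb]
      group
    · exact ⟨1, fun h => (hab h).elim⟩
  choose g hg using hg
  obtain ⟨μ, eb, h1, h2, T, _, q, lab, hq, hbij, hlab⟩ := exists_of_cocycle O hO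
    (fun y => ⟨y, hy y⟩) g (fun a b y hab => by
      filter_upwards [(hg a b y hab).eventually_nhds, ((hO a).inter (hO b)).mem_nhds hab]
        with y' h h'
      obtain ⟨u, hu, hu'⟩ := dense y' _ (h.and (hg a b y' h'))
      rw [← hu u.2, ← hu' u.2])
    (fun a b c y h => by
      obtain ⟨u, hu, hu', hu''⟩ := dense y _ ((hg a b y h.1).and ((hg b c y ⟨h.1.2, h.2⟩).and
        (hg a c y ⟨h.1.1, h.2⟩)))
      rw [← hu u.2, ← hu' u.2, ← hu'' u.2]
      group)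
  let c : U → G := fun u => (eb u.1 u.1)⁻¹ * e u.1 u
  have hc : ∀ a (u : U), u.1 ∈ O a → e a u = eb a u.1 * c u := fun a u h => by
    have h3 := (hg a u.1 u.1 ⟨h, hy _⟩).self_of_nhds u.2
    rw [h2 a u.1 u.1 ⟨h, hy _⟩, ← h3]
    simp only [c, Subtype.coe_eta]
    group
  let ι : C(U, Y) := ⟨Subtype.val, continuous_subtype_val⟩
  have hν : ∀ γ, ν.m γ = (c (γ 0))⁻¹ * μ.m (ι.comp γ) * ((c (γ 1))⁻¹)⁻¹ := by
    refine ν.eq_of_local ((μ.comap ι).gauge fun u => (c u)⁻¹) fun u =>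
      ⟨Subtype.val ⁻¹' O u.1, ((hO _).preimage continuous_subtype_val).mem_nhds (hy _),
        fun γ hγ => ?_⟩
    change ν.m γ = (c (γ 0))⁻¹ * μ.m (ι.comp γ) * ((c (γ 1))⁻¹)⁻¹
    rw [he _ γ hγ, h1 u.1 (ι.comp γ) hγ, hc _ _ (hγ 0), hc _ _ (hγ 1)]
    change _ = (c (γ 0))⁻¹ * ((eb u.1 (γ 0).1)⁻¹ * eb u.1 (γ 1).1) * ((c (γ 1))⁻¹)⁻¹
    group
  let c' : Y → G := fun y => if h : y ∈ U then c ⟨y, h⟩ else 1
  have hc' : ∀ u : U, c' u.1 = c u := fun u => dif_pos u.2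
  refine ⟨T, inferInstance, q, fun t => lab t * c' (q t), hq, fun y => ⟨fun _ _ => trivial,
    fun t ht t' ht' h => ?_, fun v _ => ?_⟩, fun Γ γ hΓ => ?_⟩
  · have a : q t = y := ht
    have b : q t' = y := ht'
    simp only [a, b] at h
    exact (hbij y).injOn ht ht' (mul_right_cancel h)
  · obtain ⟨t, ht, h⟩ := (hbij y).surjOn (Set.mem_univ (v * (c' y)⁻¹))
    have a : q t = y := ht
    refine ⟨t, ht, ?_⟩
    simp only [a, h, inv_mul_cancel_right]
  · simp only [hΓ, hc']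
    rw [hlab Γ (ι.comp γ) hΓ, hν]
    group

theorem exists_universal_cover (Y : Type) [TopologicalSpace Y] [PathConnectedSpace Y]
    (hloc : ∀ y : Y, ∀ Nb ∈ 𝓝 y, ∃ O, IsOpen O ∧ y ∈ O ∧ O ⊆ Nb ∧ IsSimplyConnected O) :
    ∃ (W : Type) (_ : TopologicalSpace W) (p : W → Y), IsCoveringMap p ∧ Function.Surjective p ∧
      SimplyConnectedSpace W := by
  obtain ⟨P, _, μ, hμ, hinj⟩ := exists_univ Y
  let ι : C((Set.univ : Set Y), Y) := ⟨Subtype.val, continuous_subtype_val⟩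
  obtain ⟨T, _, q, lab, hq, hbij, hlab⟩ := exists_ext Set.univ isOpen_univ (μ.comap ι)
    (fun y Nb h => by
      obtain ⟨O, h1, h2, h3, h4⟩ := hloc y Nb h
      exact ⟨O, h1, h2, h3, by rw [Set.inter_univ]; exact h4.isPathConnected⟩)
    (fun y => by
      obtain ⟨O, h1, h2, -, h4⟩ := hloc y _ Filter.univ_mem
      have := h4.simplyConnectedSpace
      obtain ⟨e, he⟩ := (μ.comap (⟨Subtype.val, continuous_subtype_val⟩ : C(O, Y))).cobdry
      refine ⟨O, h1.mem_nhds h2, fun γ hγ h => ?_⟩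
      have h5 := he ⟨fun s => ⟨(γ s).1, hγ s⟩, by fun_prop⟩
      simp only [ContinuousMap.coe_mk, h, inv_mul_cancel] at h5
      exact h5)
  have hlab' : ∀ (Γ : C(I, T)) (γ : C(I, Y)), (∀ s, q (Γ s) = γ s) →
      lab (Γ 1) = lab (Γ 0) * μ.m γ := fun Γ γ h =>
    hlab Γ ⟨fun s => ⟨γ s, trivial⟩, by fun_prop⟩ h
  have hs : Function.Surjective q := fun y => by
    obtain ⟨t, ht, -⟩ := (hbij y).surjOn (Set.mem_univ 1)
    exact ⟨t, ht⟩
  refine ⟨T, inferInstance, q, hq, hs, simply_connected_iff_loops_nullhomotopic.2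
    ⟨⟨?_, fun t t' => ?_⟩, fun t Γ => ?_⟩⟩
  · obtain ⟨y⟩ := PathConnectedSpace.nonempty (X := Y)
    exact ⟨(hs y).choose⟩
  · let δ := (PathConnectedSpace.somePath (q t) (q t')).toContinuousMap
    have d0 : δ 0 = q t := (PathConnectedSpace.somePath (q t) (q t')).source
    have d1 : δ 1 = q t' := (PathConnectedSpace.somePath (q t) (q t')).target
    obtain ⟨γ, g0, g1, hγ⟩ := hμ.full (q t') ((lab t * μ.m δ)⁻¹ * lab t')
    have h0 : cat δ γ (g0.trans d1.symm) 0 = q t := (cat_zero ..).trans d0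
    have hl : ∀ s, q (hq.liftPath _ t h0 s) = cat δ γ (g0.trans d1.symm) s := fun s =>
      congrFun (hq.liftPath_lifts _ t h0) s
    have h1 := hlab' _ _ hl
    rw [hq.liftPath_zero, μ.m_cat, hγ, ← mul_assoc, mul_inv_cancel_left] at h1
    have h2 : hq.liftPath _ t h0 1 = t' :=
      (hbij (q t')).injOn ((hl 1).trans ((cat_one ..).trans g1)) rfl h1
    exact ⟨⟨hq.liftPath _ t h0, hq.liftPath_zero .., h2⟩⟩
  · let Q : C(T, Y) := ⟨q, hq.continuous⟩
    have G0 : Γ.toContinuousMap 0 = t := Γ.source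
    have G1 : Γ.toContinuousMap 1 = t := Γ.target
    have h1 := hlab' Γ.toContinuousMap (Q.comp Γ.toContinuousMap) fun _ => rfl
    rw [G0, G1, left_eq_mul] at h1
    refine (hq.homotopicRel_iff_comp ⟨0, .inl rfl, G0⟩).2 (hinj _ _ (congrArg q G0)
      (congrArg q G1) ?_)
    rw [h1]
    exact (μ.m_const _ fun _ => rfl).symm

end Vale.Agent.P300
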