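import Vale.Agent.P300.EStrA
import Vale.Agent.P300.ELoc
import Vale.Agent.P300.EConst

/-! P300: the strata of the special fibre are finite coverings of the twice punctured plane. -/

noncomputable section

namespace Vale.Agent.P300

open unitInterval Topology Filter

variable {Ω : Type} [Field Ω] [Algebra ℂ Ω] {ι : Type} [Fintype ι]

/-- the stratum attached to a coordinate -/
def Dat.Str (D : Dat Ω) (t : ι → Ω) (ξ : Ω) : Set (Zt t) :=
  {y | (la t y).Mx D.b ∧ ξ ∈ (la t y).O ∧ (la t y).ev ξ ≠ 0 ∧ (la t y).ev ξ ≠ 1}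

/-- the coordinate as a map to the twice punctured plane -/
def Dat.xiM (D : Dat Ω) (t : ι → Ω) (ξ : Ω) (Z : Set (Zt t)) (hZ : Z ⊆ D.Str t ξ) (y : Z) :
    Pl ![(0 : ℂ), 1] :=
  ⟨(la t y.1).ev ξ, fun i => by
    fin_cases i
    · exact (hZ y.2).2.2.1
    · exact (hZ y.2).2.2.2⟩

variable {D : Dat Ω} {M : IntermediateField ℂ Ω} {t : ι → Ω}

/-- points of a chart other than the centre are smooth points of the boundary -/
theorem Chart.sm {y : Zt t} (ch : Chart D t y) {y' : Zt t} (hy' : y' ∈ ch.A.κ.source)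
    (hne : y' ≠ y) : D.Sm (la t y') := by
  have h0 : ch.A.κ y' ≠ 0 := fun e => hne (ch.A.κ.injOn hy' ch.A.mem (e.trans ch.A.ctr.symm))
  rw [ch.A.kap y' hy'] at h0
  have key : ∀ φ, (la t y').Mon ((la t y').ctr ch.u) ((la t y').ctr ch.v) (D.phi φ)
      (if (la t y').ev ch.u = 0 then (ch.e φ).1 else 0,
        if (la t y').ev ch.v = 0 then (ch.e φ).2 else 0) := fun φ => by
    obtain ⟨ε1, h1, e1⟩ := echart_ctr (ch.A.reg y' hy').1 (ch.e φ).1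
    obtain ⟨ε2, h2, e2⟩ := echart_ctr (ch.A.reg y' hy').2 (ch.e φ).2
    exact ⟨ch.ε φ * ε1 * ε2, ((ch.un y' hy' φ).mul h1).mul h2, by rw [ch.mon φ, e1, e2]; ring⟩
  by_cases hv : (la t y').ev ch.v = 0
  · have hu : (la t y').ev ch.u ≠ 0 := fun e => h0 (Prod.ext e hv)
    refine ⟨_, _, (ch.A.coord y' hy').symm, fun φ => ⟨(ch.e φ).2, ?_⟩⟩
    have := LA.dufd_mon_swap (key φ)
    rwa [if_neg hu, if_pos hv] at this
  · refine ⟨_, _, ch.A.coord y' hy', fun φ => ?_⟩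
    have := key φ
    rw [if_neg hv] at this
    exact ⟨_, this⟩

theorem estrt_finite {N : Set (Zt t)} (h : ∀ y, ∀ᶠ y' in 𝓝 y, y' ∈ N → y' = y) : N.Finite := by
  have := Zt.compact t
  obtain ⟨T, -, hT⟩ := isCompact_univ.elim_nhds_subcover (fun y => {y' | y' ∈ N → y' = y})
    fun y _ => h y
  refine T.finite_toSet.subset fun y hy => ?_
  obtain ⟨z, hz, h1⟩ := Set.mem_iUnion₂.1 (hT (Set.mem_univ y))
  rw [h1 hy]
  exact hz

theorem Dat.Good.finite_not_sm (hG : D.Good M t) : {y : Zt t | ¬ D.Sm (la t y)}.Finite := by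
  refine estrt_finite fun y => ?_
  obtain ⟨ch, -⟩ := exists_chart hG y univ_mem
  filter_upwards [ch.A.κ.open_source.mem_nhds ch.A.mem] with y' hy' h
  exact by_contra fun hne => h (ch.sm hy' hne)

/-- a limit point in which a monomial keeps a nonzero finite value -/
theorem Dat.Good.un_of_limit (hG : D.Good M t) (k : D.Ix → ℤ) {y : Zt t} {K : Set ℂ}
    (hK : IsCompact K) (h0 : (0 : ℂ) ∉ K)
    (hy : y ∈ closure {y' | y' ∈ D.B0 t ∧ D.mono k ∈ (la t y').O ∧ (la t y').ev (D.mono k) ∈ K}) :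
    (la t y).Un (D.mono k) := by
  obtain ⟨ch, -⟩ := exists_chart hG y univ_mem
  obtain ⟨ε, hε, he⟩ := echart_mono ch ch.A.mem k
  set S := {y' | y' ∈ D.B0 t ∧ D.mono k ∈ (la t y').O ∧ (la t y').ev (D.mono k) ∈ K} with hS
  have := mem_closure_iff_nhdsWithin_neBot.1 hy
  let U := Ultrafilter.of (𝓝[S] y)
  have hU : (U : Filter (Zt t)) ≤ 𝓝[S] y := Ultrafilter.of_le _
  have hUy : (U : Filter (Zt t)) ≤ 𝓝 y := hU.trans nhdsWithin_le_nhds
  have h1 : ∀ᶠ y' in (U : Filter (Zt t)), y' ∈ S := hU self_mem_nhdsWithin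
  have h2 : ∀ᶠ y' in (U : Filter (Zt t)), y' ∈ ch.A.κ.source :=
    hUy (ch.A.κ.open_source.mem_nhds ch.A.mem)
  have h3 : ∀ᶠ y' in (U : Filter (Zt t)), (la t y').Un ε := hUy ((isOpen_un t ε).mem_nhds hε)
  obtain ⟨c, hc, hlim⟩ := hK.ultrafilter_le_nhds (U.map fun y' => (la t y').ev (D.mono k))
    (le_principal_iff.2 (h1.mono fun y' h => h.2.2))
  have hκ : Tendsto ch.A.κ U (𝓝 0) :=
    ch.A.ctr ▸ (ch.A.κ.continuousAt ch.A.mem).tendsto.mono_left hUy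
  have h4 : ∀ y' ∈ S, (la t y').Un (D.mono k) := fun y' h => ⟨h.2.1, fun e => h0 (e ▸ h.2.2)⟩
  have h5 := ((continuousOn_ev t ε).continuousAt
    ((isOpen_reg t _).mem_nhds hε.1)).tendsto.mono_left hUy
  have hc' : c / (la t y).ev ε ≠ 0 := div_ne_zero (fun e => h0 (e ▸ hc)) hε.2
  have h6 : Tendsto (fun y' => (ch.A.κ y').1 ^ (∑ φ, k φ * (ch.e φ).1) *
      (ch.A.κ y').2 ^ (∑ φ, k φ * (ch.e φ).2)) U (𝓝 (c / (la t y).ev ε)) := by
    refine (Tendsto.div hlim h5 hε.2).congr' ?_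
    filter_upwards [h1, h2, h3] with y' a1 a2 a3
    have a4 := (ch.un_mono_iff a2 k).1 (h4 y' a1)
    rw [ch.A.kap y' a2] at a4 ⊢
    have b1 := echart_zpow (ch.A.reg y' a2).1 fun h e => h (a4.1 e)
    have b2 := echart_zpow (ch.A.reg y' a2).2 fun h e => h (a4.2 e)
    rw [Pi.div_apply, he, (la t y').ev_mul _ ((la t y').O.mul_mem a3.1 b1.1) _ b2.1,
      (la t y').ev_mul _ a3.1 _ b1.1, b1.2, b2.2, mul_assoc, mul_div_cancel_left₀ _ a3.2]
  obtain ⟨y', a1, a2⟩ := (h1.and h2).exists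
  obtain ⟨n, hn⟩ := Dat.b_mono (D := D)
  have a4 := (ch.un_mono_iff a2 k).1 (h4 y' a1)
  have a5 : (ch.A.κ y').1 = 0 ∨ (ch.A.κ y').2 = 0 := by
    by_contra h
    push Not at h
    have := (ch.un_mono_iff a2 n).2 ⟨fun e => absurd e h.1, fun e => absurd e h.2⟩
    rw [← hn] at this
    exact this.2 a1.1.2
  rw [ch.un_mono_iff ch.A.mem]
  rcases a5 with e | e
  · simp only [a4.1 e, zpow_zero, one_mul] at h6
    exact ⟨fun _ => a4.1 e, fun _ => DSpm_zpow hκ.snd_nhds h6 hc'⟩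
  · simp only [a4.2 e, zpow_zero, mul_one] at h6
    exact ⟨fun _ => DSpm_zpow hκ.fst_nhds h6 hc', fun _ => a4.2 e⟩

theorem estrt_cmul {L : LA Ω} {c : ℂ} (hc : c ≠ 0) {z : Ω} :
    (algebraMap ℂ Ω c * z ∈ L.O ↔ z ∈ L.O) ∧ L.ev (algebraMap ℂ Ω c * z) = c * L.ev z := by
  have h1 : algebraMap ℂ Ω c * z ∈ L.O ↔ z ∈ L.O := by
    refine ⟨fun h => ?_, fun h => L.O.mul_mem (L.O.algebraMap_mem c) h⟩
    have := L.O.mul_mem (L.O.algebraMap_mem c⁻¹) h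
    rwa [← mul_assoc, ← map_mul, inv_mul_cancel₀ hc, map_one, one_mul] at this
  refine ⟨h1, ?_⟩
  by_cases h : z ∈ L.O
  · rw [L.ev_mul _ (L.O.algebraMap_mem c) _ h, L.ev_alg]
  · rw [L.ev_out _ h, L.ev_out _ fun e => h (h1.1 e), mul_zero]

theorem estrt_b_ne (hG : D.Good M t) (y : Zt t) : D.b ≠ 0 := by
  obtain ⟨y', hy'⟩ := hG.dense_isU.nonempty_iff.2 ⟨y⟩
  obtain ⟨n, hn⟩ := Dat.b_mono (D := D)
  rw [hn]
  exact Finset.prod_ne_zero_iff.2 fun φ _ => zpow_ne_zero _ (LA.Un.ne_zero (hy' φ))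

theorem estrt_mono (hG : D.Good M t) (y : Zt t) {ξ : Ω} (hξ : D.Adm ξ) :
    ∃ (c : ℂ) (n : D.Ix → ℤ), c ≠ 0 ∧ ξ = algebraMap ℂ Ω c * D.mono n := by
  rcases hξ with ⟨k, rfl⟩ | h
  · obtain ⟨n, hn⟩ := (Dat.xiV_mono (estrt_b_ne hG y) k).1
    exact ⟨1, n, one_ne_zero, by rw [map_one, one_mul, hn]⟩
  · exact h.mono

theorem estrt_lim (hG : D.Good M t) {ξ : Ω} (hξ : D.Adm ξ) {y : Zt t} {K : Set ℂ}
    (hK : IsCompact K) (h0 : (0 : ℂ) ∉ K)
    (hy : y ∈ closure {y' | y' ∈ D.B0 t ∧ ξ ∈ (la t y').O ∧ (la t y').ev ξ ∈ K}) :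
    (la t y).Un ξ := by
  obtain ⟨c, n, hc, rfl⟩ := estrt_mono hG y hξ
  have h1 := hG.un_of_limit n (K := (fun z => c⁻¹ * z) '' K) (hK.image (by fun_prop))
    (fun ⟨z, hz, e⟩ => h0 ((mul_eq_zero.1 e).resolve_left (inv_ne_zero hc) ▸ hz))
    (closure_mono (fun y' h => by
      refine ⟨h.1, (estrt_cmul hc).1.1 h.2.1, _, h.2.2, ?_⟩
      show c⁻¹ * _ = _
      rw [(estrt_cmul hc).2, inv_mul_cancel_left₀ hc]) hy)
  exact ⟨(estrt_cmul hc).1.2 h1.1, by rw [(estrt_cmul hc).2]; exact mul_ne_zero hc h1.2⟩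

theorem estrt_par (hG : D.Good M t) {ξ : Ω} (hξ : D.Adm ξ) {y : Zt t} (hy : y ∈ D.Str t ξ) :
    D.Par (la t y) ξ := by
  have := la_noeth t y
  obtain ⟨_, ⟨u, v, e, h⟩, _⟩ := hG.2 y
  rcases hξ with ⟨k, rfl⟩ | hξ
  · exact h.par_vtx hy.1 k ⟨hy.2.1, hy.2.2.1⟩ hy.2.2.2
  · exact h.par_edge hy.1 hξ ⟨hy.2.1, hy.2.2.1⟩

theorem estrt_loc {ξ : Ω} {y : Zt t} (h : D.Par (la t y) ξ) {Nb : Set (Zt t)} (hNb : Nb ∈ 𝓝 y) :
    ∃ (u : Ω) (A : AChart t y u ((la t y).ctr ξ)), A.κ.source ⊆ Nb ∧ ∀ y' ∈ A.κ.source,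
      ξ ∈ (la t y').O ∧ ((la t y').Mx D.b ↔ (A.κ y').1 = 0) ∧
        (A.κ y').2 = (la t y').ev ξ - (la t y).ev ξ := by
  obtain ⟨u, ε, m, hm, hc, hε, hb⟩ := h
  obtain ⟨A, hA⟩ := exists_achart t y hc (inter_mem hNb ((isOpen_un t ε).mem_nhds hε))
  refine ⟨u, A, fun y' h => (hA h).1, fun y' h => ?_⟩
  have h1 := A.reg y' h
  have h2 : (la t y').Un ε := (hA h).2
  have h3 : ξ ∈ (la t y').O := by
    have := (la t y').O.add_mem h1.2 ((la t y').O.algebraMap_mem ((la t y).ev ξ))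
    rwa [LA.ctr, sub_add_cancel] at this
  rw [A.kap y' h]
  refine ⟨h3, ?_, ?_⟩
  · have h4 := (la t y').O.pow_mem h1.1 m
    rw [LA.Mx, hb, (la t y').ev_mul _ h2.1 _ h4, LA.ev_pow h1.1]
    simp [(la t y').O.mul_mem h2.1 h4, h2.2, hm.ne']
  · rw [LA.ctr, LA.ev_sub h3 (Subalgebra.algebraMap_mem _ _), LA.ev_alg]

theorem estrt_cont {ξ : Ω} (Z : Set (Zt t)) (hZ : Z ⊆ D.Str t ξ) :
    Continuous fun y : Z => (la t y.1).ev ξ :=
  (continuousOn_ev t ξ).comp_continuous continuous_subtype_val fun y => (hZ y.2).2.1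

theorem estrt_local (hG : D.Good M t) {ξ : Ω} (hξ : D.Adm ξ) :
    IsLocalHomeomorph fun y : D.Str t ξ => (la t y.1).ev ξ := by
  have hc := estrt_cont (D := D) (t := t) (ξ := ξ) _ subset_rfl
  have ho : IsOpenMap fun y : D.Str t ξ => (la t y.1).ev ξ := by
    refine isOpenMap_iff_nhds_le.2 fun y W hW => ?_
    obtain ⟨Nb, hNb, hs⟩ := (mem_nhds_subtype _ _ _).1 (mem_map.1 hW)
    obtain ⟨u, A, hA, hA'⟩ := estrt_loc (estrt_par hG hξ y.2) hNb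
    have h1 : ∀ᶠ z in 𝓝 ((la t y.1).ev ξ), ((0, z - (la t y.1).ev ξ) : ℂ × ℂ) ∈ A.κ.target := by
      refine ContinuousAt.eventually_mem (by fun_prop) (A.κ.open_target.mem_nhds ?_)
      rw [sub_self]
      have := A.κ.map_source A.mem
      rwa [A.ctr] at this
    filter_upwards [h1, isOpen_ne.mem_nhds y.2.2.2.1, isOpen_ne.mem_nhds y.2.2.2.2] with z h2 h3 h4
    have h5 := hA' _ (A.κ.map_target h2)
    rw [A.κ.right_inv h2] at h5
    have h6 : z = (la t (A.κ.symm (0, z - (la t y.1).ev ξ))).ev ξ := sub_left_inj.1 h5.2.2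
    rw [h6]
    exact hs (a := ⟨_, h5.2.1.2 rfl, h5.1, h6 ▸ h3, h6 ▸ h4⟩) (hA (A.κ.map_target h2))
  refine isLocalHomeomorph_iff_isOpenEmbedding_restrict.2 fun y => ?_
  obtain ⟨u, A, -, hA'⟩ := estrt_loc (estrt_par hG hξ y.2) univ_mem
  have hU : IsOpen (Subtype.val ⁻¹' A.κ.source : Set (D.Str t ξ)) :=
    A.κ.open_source.preimage continuous_subtype_val
  refine ⟨_, hU.mem_nhds A.mem, IsOpenEmbedding.of_continuous_injective_isOpenMap
    (hc.comp continuous_subtype_val) (fun a b hab => ?_) (ho.comp hU.isOpenMap_subtype_val)⟩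
  refine Subtype.ext (Subtype.ext (A.κ.injOn a.2 b.2 (Prod.ext ?_ ?_)))
  · rw [(hA' _ a.2).2.1.1 a.1.2.1, (hA' _ b.2).2.1.1 b.1.2.1]
  · rw [(hA' _ a.2).2.2, (hA' _ b.2).2.2]
    exact congrArg (· - _) hab

theorem estrt_sm {y : Zt t} (hs : D.Sm (la t y)) (hb : y ∈ D.B0 t) (n : D.Ix → ℤ)
    (hy : y ∈ closure {y' | y' ∈ D.B0 t ∧ (la t y').Un (D.mono n)}) : (la t y).Un (D.mono n) := by
  obtain ⟨u, v, hc, hk⟩ := hs
  choose k ε hε he using hk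
  have key : ∀ n : D.Ix → ℤ, ∃ ε', (la t y).Un ε' ∧ D.mono n = ε' * u ^ ∑ φ, n φ * k φ := by
    intro n
    refine ⟨∏ φ, ε φ ^ n φ, Finset.prod_induction _ (la t y).Un (fun _ _ => LA.Un.mul)
      ⟨(la t y).O.one_mem, by rw [LA.ev_one]; exact one_ne_zero⟩
      fun φ _ => ((hε φ).zpow _).1, ?_⟩
    rw [← echart_zpow_sum _ hc.ne_zero.1, ← Finset.prod_mul_distrib]
    refine Finset.prod_congr rfl fun φ _ => ?_
    rw [he φ, zpow_zero, mul_one, mul_zpow, ← zpow_mul, mul_comm (k φ)]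
  obtain ⟨m, hm⟩ := Dat.b_mono (D := D)
  obtain ⟨ε1, h1, e1⟩ := key n
  obtain ⟨ε2, h2, e2⟩ := key m
  obtain ⟨A, hA⟩ := exists_achart t y hc (inter_mem ((isOpen_un t ε1).mem_nhds h1)
    ((isOpen_un t ε2).mem_nhds h2))
  obtain ⟨y', a1, a2, a3⟩ := mem_closure_iff.1 hy _ A.κ.open_source A.mem
  have a4 : (la t y').ev u = 0 := by
    by_contra h
    have := LA.Un.mul (hA a1).2 (LA.Un.zpow ⟨(A.reg y' a1).1, h⟩ (∑ φ, m φ * k φ)).1
    rw [← e2, ← hm] at this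
    exact this.2 a2.2
  have := la_noeth t y'
  have a5 := ((A.coord y' a1).mon_mem (φ := D.mono n) (e := (∑ φ, n φ * k φ, 0))
    ⟨ε1, (hA a1).1, by rw [LA.ctr, a4, map_zero, sub_zero, zpow_zero, mul_one, e1]⟩).2.1 a3
  rw [e1, (Prod.mk_eq_zero.1 a5).1, zpow_zero, mul_one]
  exact h1

theorem estrt_one (hG : D.Good M t) {ξ : Ω} (hξ : D.AdmE ξ) :
    {y | y ∈ D.B0 t ∧ ξ ∈ (la t y).O ∧ (la t y).ev ξ ∈ ({1} : Set ℂ)}.Finite := by
  refine estrt_finite fun y => ?_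
  by_cases hy : y ∈ closure {y | y ∈ D.B0 t ∧ ξ ∈ (la t y).O ∧ (la t y).ev ξ ∈ ({1} : Set ℂ)}
  swap
  · filter_upwards [isClosed_closure.isOpen_compl.mem_nhds hy] with y' h1 h2
    exact (h1 (subset_closure h2)).elim
  have h1 := estrt_lim hG (Or.inr hξ) isCompact_singleton (by simp) hy
  have h2 : y ∈ D.B0 t := closure_minimal (fun _ h => h.1) hG.isClosed_B0 hy
  have h3 : (la t y).ev ξ = 1 := by
    have := mem_closure_iff_nhdsWithin_neBot.1 hy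
    refine tendsto_nhds_unique (l := 𝓝[{y | y ∈ D.B0 t ∧ ξ ∈ (la t y).O ∧
      (la t y).ev ξ ∈ ({1} : Set ℂ)}] y) (((continuousOn_ev t ξ).continuousAt
      ((isOpen_reg t ξ).mem_nhds h1.1)).tendsto.mono_left nhdsWithin_le_nhds)
      (tendsto_const_nhds.congr' ?_)
    filter_upwards [self_mem_nhdsWithin] with y' h
    exact h.2.2.symm
  have := la_noeth t y
  obtain ⟨_, ⟨u, v, e, h⟩, _⟩ := hG.2 y
  obtain ⟨u', A, -, hA⟩ := estrt_loc (h.par_edge h2 hξ h1) univ_mem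
  filter_upwards [A.κ.open_source.mem_nhds A.mem] with y' a1 a2
  refine A.κ.injOn a1 A.mem ?_
  rw [A.ctr]
  refine Prod.ext ((hA y' a1).2.1.1 a2.1) ?_
  rw [(hA y' a1).2.2, h3, a2.2.2]
  simp

theorem Dat.Good.str_cover (hG : D.Good M t) {ξ : Ω} (hξ : D.Adm ξ) :
    IsCoveringMap (D.xiM t ξ _ subset_rfl) ∧ (∀ x, (D.xiM t ξ _ subset_rfl ⁻¹' {x}).Finite) ∧
      ∃ B : Set (Zt t), B.Finite ∧ closure (D.Str t ξ) ⊆ D.Str t ξ ∪ B := by
  have := Zt.t2 t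
  have := Zt.compact t
  have hc : Continuous (D.xiM t ξ _ subset_rfl) := (estrt_cont _ subset_rfl).subtype_mk _
  have hl : IsLocalHomeomorph (D.xiM t ξ _ subset_rfl) :=
    IsLocalHomeomorph.of_comp (g := Subtype.val) (estrt_local hG hξ)
      (isOpen_Pl _).isOpenEmbedding_subtypeVal.isLocalHomeomorph hc
  have hp : IsProperMap (D.xiM t ξ _ subset_rfl) := by
    refine isProperMap_iff_ultrafilter_of_t2.2 ⟨hc, fun U q hq => ?_⟩
    obtain ⟨y, -, hy⟩ := isCompact_univ.ultrafilter_le_nhds (U.map Subtype.val) (by simp)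
    have hy' : Tendsto Subtype.val (U : Filter (D.Str t ξ)) (𝓝 y) := hy
    have hq' : Tendsto (fun y : D.Str t ξ => (la t y.1).ev ξ) U (𝓝 q.1) := tendsto_subtype_rng.1 hq
    have q0 : q.1 ≠ 0 := q.2 0
    have q1 : q.1 ≠ 1 := q.2 1
    have r0 : 0 < ‖q.1‖ / 2 := half_pos (norm_pos_iff.2 q0)
    have h1 := estrt_lim hG hξ (y := y) (isCompact_closedBall q.1 (‖q.1‖ / 2))
      (by
        rw [Metric.mem_closedBall, dist_zero_left]
        linarith)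
      (mem_closure_of_tendsto hy' ((hq'.eventually (Metric.closedBall_mem_nhds _ r0)).mono
        fun a ha => ⟨a.2.1, a.2.2.1, ha⟩))
    have h2 : (la t y).ev ξ = q.1 := tendsto_nhds_unique (((continuousOn_ev t ξ).continuousAt
      ((isOpen_reg t ξ).mem_nhds h1.1)).tendsto.comp hy') hq'
    exact ⟨⟨y, hG.isClosed_B0.mem_of_tendsto hy' (Eventually.of_forall fun a => a.2.1), h1.1, h1.2,
      h2 ▸ q1⟩, tendsto_subtype_rng.2 hy'⟩
  have hf : ∀ q, (D.xiM t ξ _ subset_rfl ⁻¹' {q}).Finite := fun q =>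
    (hp.isCompact_preimage isCompact_singleton).finite
      (hl.isLocalHomeomorphOn.isDiscrete_of_image
        ((Set.finite_singleton q).subset (Set.image_preimage_subset _ _)).isDiscrete)
  refine ⟨isCoveringMap_iff_isCoveringMapOn_univ.2
    (hp.isClosedMap.isCoveringMapOn_of_isLocalHomeomorphOn (fun q _ => hf q)
      hl.isLocalHomeomorphOn), hf, ?_⟩
  have key : ∀ y ∈ closure (D.Str t ξ), D.Sm (la t y) → y ∈ D.B0 t ∧ (la t y).Un ξ := by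
    intro y hy hs
    have h2 : y ∈ D.B0 t := closure_minimal (fun _ h => h.1) hG.isClosed_B0 hy
    obtain ⟨c, n, hc0, rfl⟩ := estrt_mono hG y hξ
    have h3 := estrt_sm hs h2 n (closure_mono (fun y' h => by
      exact ⟨h.1, (estrt_cmul hc0).1.1 h.2.1,
        fun e => h.2.2.1 (by rw [(estrt_cmul hc0).2, e, mul_zero])⟩) hy)
    exact ⟨h2, (estrt_cmul hc0).1.2 h3.1, by
      rw [(estrt_cmul hc0).2]
      exact mul_ne_zero hc0 h3.2⟩
  rcases hξ with ⟨k, rfl⟩ | hξ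
  · refine ⟨_, hG.finite_not_sm, fun y hy => ?_⟩
    by_cases hs : D.Sm (la t y)
    · obtain ⟨h2, h3⟩ := key y hy hs
      obtain ⟨n, hn⟩ := (Dat.xiV_mono (estrt_b_ne hG y) k).2.1
      have h4 := estrt_sm hs h2 n (closure_mono (fun y' h => by
        refine ⟨h.1, ?_⟩
        rw [← hn]
        refine ⟨(la t y').O.sub_mem h.2.1 (la t y').O.one_mem, ?_⟩
        rw [LA.ev_sub h.2.1 (la t y').O.one_mem, LA.ev_one]
        exact sub_ne_zero.2 h.2.2.2) hy)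
      rw [← hn, LA.Un, LA.ev_sub h3.1 (la t y).O.one_mem, LA.ev_one] at h4
      exact Or.inl ⟨h2, h3.1, h3.2, sub_ne_zero.1 h4.2⟩
    · exact Or.inr hs
  · refine ⟨_, hG.finite_not_sm.union (estrt_one hG hξ), fun y hy => ?_⟩
    by_cases hs : D.Sm (la t y)
    · obtain ⟨h2, h3⟩ := key y hy hs
      by_cases h4 : (la t y).ev ξ = 1
      · exact Or.inr (Or.inr ⟨h2, h3.1, h4⟩)
      · exact Or.inl ⟨h2, h3.1, h3.2, h4⟩
    · exact Or.inr (Or.inl hs)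

theorem Dat.Good.str_hol (hG : D.Good M t) {ξ : Ω} (hξ : D.Adm ξ) {W : Type} [TopologicalSpace W]
    {p : W → Zt t} (hp : Continuous p) {g : W → ℂ} (hg : IsHolo (Zt t) p g) (U : Set ℂ) (φ : ℂ → W)
    (hU : IsOpen U) (hφ : ContinuousOn φ U)
    (h : ∀ z ∈ U, p (φ z) ∈ D.Str t ξ ∧ (la t (p (φ z))).ev ξ = z) :
    DifferentiableOn ℂ (fun z => g (φ z)) U := by
  intro z0 hz0
  obtain ⟨u, A, -, hA⟩ := estrt_loc (estrt_par hG hξ (h z0 hz0).1) univ_mem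
  obtain ⟨ψ, hψ, hl⟩ := A.lift
  have hV : IsOpen (U ∩ (p ∘ φ) ⁻¹' A.κ.source) :=
    (hp.comp_continuousOn hφ).isOpen_inter_preimage hU A.κ.open_source
  have h1 : ∀ z ∈ U ∩ (p ∘ φ) ⁻¹' A.κ.source, A.κ (p (φ z)) = (0, z - z0) := fun z hz =>
    Prod.ext ((hA _ hz.2).2.1.1 (h z hz.1).1.1)
      (by rw [(hA (p (φ z)) hz.2).2.2, (h z hz.1).2, (h z0 hz0).2])
  have h2 : ∀ z ∈ U ∩ (p ∘ φ) ⁻¹' A.κ.source, ((0, z - z0) : ℂ × ℂ) ∈ A.κ.target := fun z hz =>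
    h1 z hz ▸ A.κ.map_source hz.2
  have h3 := hg.2 _ φ (fun z => ψ (0, z - z0)) hV (hφ.mono Set.inter_subset_left)
    (hψ.differentiableOn.comp (by fun_prop) h2) fun z hz => by
      obtain ⟨a1, a2⟩ := hl _ (h2 z hz)
      refine ⟨a1, Eq.trans ?_ a2⟩
      rw [← h1 z hz, A.κ.left_inv (x := p (φ z)) hz.2]
  exact (h3.differentiableAt (hV.mem_nhds ⟨hz0, A.mem⟩)).differentiableWithinAt

theorem Dat.Good.light_edge (hG : D.Good M t) {ξ : Ω} (hξ : D.AdmE ξ) (Z : Set (Zt t))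
    (hZ : Z ⊆ D.Str t ξ) : Light (fun y : Z => (la t y.1).ev ξ) 1 1 := by
  have hξ' : D.AdmE (-ξ) := by
    obtain ⟨i, n, m, c, h1, h2, rfl⟩ := hξ
    exact ⟨i, n, m, -c, h1, neg_ne_zero.2 h2, by simp only [Dat.xiE, map_neg, neg_mul, neg_div]⟩
  have hq := (hG.str_cover (Or.inr hξ')).1
  refine ⟨1, one_pos, fun w hw γ hγ => ?_⟩
  have h1 : ∀ s, (la t (γ s).1).ev (-ξ) = -1 + -w * ex s := fun s => by
    have := hγ s
    simp only [Int.cast_one, one_mul] at this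
    rw [LA.ev_neg (hZ (γ s).2).2.1, this]
    ring
  have h2 : ∀ i : Fin 2, 1 ≤ ‖![(0 : ℂ), 1] i - -1‖ := fun i => by
    fin_cases i
    · simp
    · simp only [Fin.mk_one, Matrix.cons_val_one, Matrix.cons_val_zero, sub_neg_eq_add,
        one_add_one_eq_two, Complex.norm_ofNat]
      norm_num
  have h3 : ∀ i : Fin 2, ‖![(0 : ℂ), 1] i - -1‖ ≠ ‖-w‖ := fun i => by
    rw [norm_neg]
    exact (hw.trans_le (h2 i)).ne'
  let Γ : C(I, D.Str t (-ξ)) := ⟨fun s => ⟨(γ s).1, (hZ (γ s).2).1,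
    (la t (γ s).1).O.neg_mem (hZ (γ s).2).2.1, h1 s ▸ TCirc_ne (h3 0) s, h1 s ▸ TCirc_ne (h3 1) s⟩,
    (continuous_subtype_val.comp γ.continuous).subtype_mk _⟩
  let δ : C(I, Pl ![(0 : ℂ), 1]) := ⟨fun s => D.xiM t (-ξ) _ subset_rfl (Γ s),
    hq.continuous.comp Γ.continuous⟩
  have : PathConnectedSpace (Pl ![(0 : ℂ), 1]) :=
    isPathConnected_iff_pathConnectedSpace.1 (isPathConnected_Pl _)
  obtain ⟨P, _, μ, hμ, -⟩ := exists_univ (Pl ![(0 : ℂ), 1])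
  obtain ⟨θ, hθ⟩ := hμ.monodromy hq (δ 0)
  have h4 : δ 1 = δ 0 := Subtype.ext ((h1 1).trans (by rw [TCirc_ex_one]; exact (h1 0).symm))
  have h5 := hθ Γ δ (fun _ => rfl) rfl h4
  rw [circ_empty μ (γ := δ) ⟨-1, -w, h1, fun i => ⟨False.elim, fun h => by
    rw [norm_neg] at h
    exact absurd (hw.trans_le (h2 i)) (not_lt.2 h.le)⟩⟩, map_one] at h5
  exact Subtype.ext (congrArg (fun a => a.1.1) h5)

end Vale.Agent.P300
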