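import Vale.Agent.P300.TRad

/-! P300: asymptotics along arcs. -/

noncomputable section

namespace Vale.Agent.P300

open unitInterval Filter Topology

theorem tasy_mul {f g : ℂ → ℂ} {n k : ℤ} (hf : Asy f n) (hg : Asy g k) :
    Asy (fun z => f z * g z) (n + k) := by
  obtain ⟨a, ha, hf⟩ := hf
  obtain ⟨b, hb, hg⟩ := hg
  refine ⟨a * b, mul_ne_zero ha hb, (hf.mul hg).congr' ?_⟩
  filter_upwards [self_mem_nhdsWithin] with z hz
  rw [zpow_add₀ hz, div_mul_div_comm]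

theorem tasy_const {c : ℂ} (hc : c ≠ 0) : Asy (fun _ => c) 0 := ⟨c, hc, by simp⟩

theorem tasy_ev {p : ℂ → Prop} (h : ∀ᶠ z in 𝓝[≠] 0, p z) : ∃ r0 : ℝ, 0 < r0 ∧ r0 ≤ 1 ∧
    ∀ r : ℝ, 0 < r → r < r0 → ∀ s, ‖r * ex s‖ = r ∧ r * ex s ≠ 0 ∧ p (r * ex s) := by
  obtain ⟨ε, hε, h⟩ := Metric.eventually_nhds_iff.1 (eventually_nhdsWithin_iff.1 h)
  refine ⟨min ε 1, lt_min hε one_pos, min_le_right _ _, fun r hr h1 s => ?_⟩
  have e : ‖r * ex s‖ = r := by simpa using trad_norm norm_one hr.le s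
  have h0 : r * ex s ≠ 0 := norm_pos_iff.1 (e.symm ▸ hr)
  exact ⟨e, h0, h (by rw [dist_zero_right, e]; exact h1.trans_le (min_le_left _ _)) h0⟩

theorem tasy_tau {κ : Type} [Fintype κ] (γ : κ → ℂ) (h : ∀ j, γ j ≠ 0) :
    ∃ τ : ℂ, ‖τ‖ = 1 ∧ ∀ j (t : ℝ), 0 ≤ t → γ j ≠ τ * t := by
  have h1 : (Metric.sphere (0 : ℂ) 1).Infinite :=
    (isPreconnected_sphere (by rw [Complex.rank_real_complex]; exact Cardinal.one_lt_two) 0 1
      ).infinite_of_nontrivial ⟨1, by simp, -1, by simp, by norm_num⟩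
  obtain ⟨τ, hτ, h2⟩ := h1.exists_notMem_finite (Set.finite_range fun j => γ j / ‖γ j‖)
  rw [mem_sphere_zero_iff_norm] at hτ
  refine ⟨τ, hτ, fun j t ht e => h2 ⟨j, ?_⟩⟩
  have h3 : ‖γ j‖ = t := by rw [e, norm_mul, hτ, one_mul, Complex.norm_real, Real.norm_of_nonneg ht]
  have h4 : (t : ℂ) ≠ 0 := fun h5 => h j (by rw [e, h5, mul_zero])
  simp only [h3]
  rw [e, mul_div_cancel_right₀ _ h4]

theorem tasy_lev {f : ℂ → ℂ} {o : ℤ} {γ τ : ℂ} (hf : Tendsto (fun z => f z / z ^ o) (𝓝[≠] 0) (𝓝 γ))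
    (h0 : γ ≠ 0) (hτ : ‖τ‖ = 1) (h : ∀ t : ℝ, 0 ≤ t → γ ≠ τ * t) : ∀ᶠ z in 𝓝[≠] (0 : ℂ),
      ‖z‖ ^ ((o : ℝ) + 1 / 2) < ‖f z‖ ∧ ‖f z‖ < ‖z‖ ^ ((o : ℝ) - 1 / 2) ∧
        ∀ t : ℝ, 0 ≤ t → f z ≠ τ * t * z ^ o := by
  have h1 : Tendsto (fun z : ℂ => ‖z‖ ^ (1 / 2 : ℝ)) (𝓝[≠] 0) (𝓝 0) :=
    ((continuous_norm.rpow_const fun _ => Or.inr (by norm_num)).tendsto' 0 0
      (by simp)).mono_left nhdsWithin_le_nhds
  have h2 : IsClosed ((fun t : ℝ => τ * t) '' Set.Ici 0) :=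
    (Isometry.of_dist_eq (f := fun t : ℝ => τ * t) fun a b => by
      rw [dist_eq_norm, ← mul_sub, norm_mul, hτ, one_mul, ← dist_eq_norm,
        Complex.isometry_ofReal.dist_eq]).isClosedEmbedding.isClosedMap _ isClosed_Ici
  have h3 := hf.eventually (h2.isOpen_compl.mem_nhds fun ⟨t, ht, e⟩ => h t ht e.symm)
  have h4 := (hf.norm.mul h1).eventually (gt_mem_nhds (by simp : ‖γ‖ * 0 < 1))
  filter_upwards [h1.eventually_lt hf.norm (norm_pos_iff.2 h0), h3, h4, self_mem_nhdsWithin]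
    with z a b c hz
  have hz' := norm_pos_iff.2 hz
  have hp := zpow_pos hz' o
  rw [norm_div, norm_zpow] at a c
  refine ⟨?_, ?_, fun t ht e => b ⟨t, ht, ?_⟩⟩
  · rwa [Real.rpow_add hz', Real.rpow_intCast, ← lt_div_iff₀' hp]
  · rwa [Real.rpow_sub hz', Real.rpow_intCast, lt_div_iff₀ (Real.rpow_pos_of_pos hz' _),
      ← div_lt_one hp, mul_div_right_comm]
  · rw [e, mul_div_cancel_right₀ _ (zpow_ne_zero _ hz)]

theorem tasy_lev2 {f : ℂ → ℂ} {o : ℤ} {τ : ℂ} {r s : ℝ} (hr : 0 < r)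
    (h : ∀ t : ℝ, 0 ≤ t → f (r * ex s) ≠ τ * t * (r * ex s) ^ o) (t : ℝ) (ht : 0 < t) :
    f (r * ex s) ≠ τ * t * ex (o * s) := by
  have h0 : (r : ℂ) ^ o ≠ 0 := zpow_ne_zero _ (Complex.ofReal_ne_zero.2 hr.ne')
  have := h (t / r ^ o) (by positivity)
  rwa [mul_zpow, ex_zpow, Complex.ofReal_div, Complex.ofReal_zpow, ← mul_assoc, mul_assoc τ,
    div_mul_cancel₀ _ h0] at this

theorem tasy_near {K : Set ℂ} (hK : IsCompact K) {γ : ℂ} (h : γ ∉ K) {e w : ℂ → ℂ}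
    (he : Tendsto e (𝓝[≠] 0) (𝓝 0)) (hw : Tendsto w (𝓝[≠] 0) (𝓝 γ)) :
    ∀ᶠ z in 𝓝[≠] (0 : ℂ), ∀ k ∈ K, ∀ θ ∈ Set.Icc (0 : ℝ) 1, k + θ * e z ≠ w z := by
  obtain ⟨δ, hδ, h1⟩ := Metric.isOpen_iff.1 hK.isClosed.isOpen_compl γ h
  filter_upwards [Metric.tendsto_nhds.1 he _ (half_pos hδ), Metric.tendsto_nhds.1 hw _ (half_pos hδ)]
    with z a b k hk θ hθ e'
  refine h1 (?_ : dist k γ < δ) hk
  rw [dist_eq_norm] at a b ⊢
  rw [show k - γ = (w z - γ) - θ * (e z - 0) by rw [← e']; ring]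
  refine (norm_sub_le _ _).trans_lt ?_
  rw [norm_mul, Complex.norm_real, Real.norm_of_nonneg hθ.1]
  linarith [mul_le_of_le_one_left (norm_nonneg (e z - 0)) hθ.2]

theorem tasy_zpow {k : ℤ} (hk : 0 < k) : Tendsto (fun z : ℂ => z ^ k) (𝓝[≠] 0) (𝓝 0) := by
  lift k to ℕ using hk.le
  simp only [zpow_natCast]
  exact ((continuous_pow k).tendsto' 0 0 (zero_pow (by omega))).mono_left nhdsWithin_le_nhds

theorem tasy_avoid {K : Set ℂ} (hK : IsCompact K) (h0 : 0 ∉ K) {f e : ℂ → ℂ} {o n : ℤ} {γ : ℂ}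
    (hf : Tendsto (fun z => f z / z ^ o) (𝓝[≠] 0) (𝓝 γ)) (hγ : γ ≠ 0) (h : o = n → γ ∉ K)
    (he : Tendsto e (𝓝[≠] 0) (𝓝 0)) : ∀ᶠ z in 𝓝[≠] (0 : ℂ), ∀ k ∈ K, ∀ θ ∈ Set.Icc (0 : ℝ) 1,
      (k + θ * e z) * z ^ n ≠ f z := by
  rcases lt_trichotomy o n with h1 | rfl | h1
  · obtain ⟨M, hM⟩ := hK.isBounded.exists_norm_le
    have h2 := ((tendsto_const_nhds (x := M)).add he.norm).mul (tasy_zpow (sub_pos.2 h1)).norm
    filter_upwards [h2.eventually_lt hf.norm (by simpa using hγ), self_mem_nhdsWithin]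
      with z a hz k hk θ hθ e'
    rw [← e', mul_div_assoc, ← zpow_sub₀ hz, norm_mul] at a
    refine a.not_ge (mul_le_mul_of_nonneg_right ((norm_add_le _ _).trans
      (add_le_add (hM k hk) ?_)) (norm_nonneg _))
    rw [norm_mul, Complex.norm_real, Real.norm_of_nonneg hθ.1]
    exact mul_le_of_le_one_left (norm_nonneg _) hθ.2
  · filter_upwards [tasy_near hK (h rfl) he hf, self_mem_nhdsWithin] with z a hz k hk θ hθ e'
    exact a k hk θ hθ (eq_div_of_mul_eq (zpow_ne_zero _ hz) e')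
  · have h2 := hf.mul (tasy_zpow (sub_pos.2 h1))
    rw [mul_zero] at h2
    filter_upwards [tasy_near hK h0 he h2, self_mem_nhdsWithin] with z a hz k hk θ hθ e'
    refine a k hk θ hθ ?_
    have := zpow_ne_zero o hz
    have := zpow_ne_zero n hz
    rw [← e', zpow_sub₀ hz]
    field_simp

theorem asy_av {S : Finset ℂ} (hS : ∀ c : ℂ, c ∉ S → Function.Injective fun i => av i c)
    (b : ℂ → ℂ) (E : ℤ) (m : S → ℤ) (hm : ∀ p : S, Asy (fun z => b z - p) (E * m p)) {i j : Fin 5}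
    (hij : j ≠ i) : ∃ o : ℤ, Asy (fun z => av j (b z) - av i (b z)) (E * o) := by
  have h1 : ∀ M : Multiset ℂ, (∀ a ∈ M, a ∈ S) →
      ∃ o : ℤ, Asy (fun z => (M.map fun a => b z - a).prod) (E * o) := by
    intro M
    induction M using Multiset.induction_on with
    | empty => exact fun _ => ⟨0, by simpa using tasy_const one_ne_zero⟩
    | cons a M ih =>
      intro h
      obtain ⟨o, ho⟩ := ih fun x hx => h x (Multiset.mem_cons_of_mem hx)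
      refine ⟨m ⟨a, h a (Multiset.mem_cons_self _ _)⟩ + o, ?_⟩
      simpa only [Multiset.map_cons, Multiset.prod_cons, mul_add] using tasy_mul (hm ⟨a, _⟩) ho
  set p : Polynomial ℂ := av j Polynomial.X - av i Polynomial.X
  have he : ∀ k c, (av k Polynomial.X : Polynomial ℂ).eval c = av k c := fun k c => by
    fin_cases k <;> simp [av]
  have hp : ∀ c, p.eval c = av j c - av i c := fun c => by rw [Polynomial.eval_sub, he, he]
  have hr : ∀ c, p.eval c = 0 → c ∈ S := fun c h => by_contra fun hc =>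
    hij (hS c hc (sub_eq_zero.1 (hp c ▸ h)))
  have h0 : p ≠ 0 := fun h => by
    obtain ⟨c, hc⟩ := Infinite.exists_notMem_finset S
    exact hc (hr c (by rw [h, Polynomial.eval_zero]))
  obtain ⟨o, ho⟩ := h1 p.roots fun a ha => hr a (Polynomial.isRoot_of_mem_roots ha)
  have h2 := tasy_mul (tasy_const (Polynomial.leadingCoeff_ne_zero.2 h0)) ho
  refine ⟨o, ?_⟩
  simpa only [zero_add, ← hp, (IsAlgClosed.splits p).eval_eq_prod_roots] using h2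

theorem exists_levels {κ : Type} [Fintype κ] (f : κ → ℂ → ℂ) (o : κ → ℤ)
    (hf : ∀ j, Asy (f j) (o j)) : ∃ τ : ℂ, ‖τ‖ = 1 ∧ ∃ r0 : ℝ, 0 < r0 ∧ r0 ≤ 1 ∧ ∀ r : ℝ, 0 < r →
      r < r0 → ∀ j (s : ℝ), r ^ ((o j : ℝ) + 1 / 2) < ‖f j (r * ex s)‖ ∧
        ‖f j (r * ex s)‖ < r ^ ((o j : ℝ) - 1 / 2) ∧
        ∀ t : ℝ, 0 < t → f j (r * ex s) ≠ τ * (t : ℂ) * ex (o j * s) := by
  choose γ h0 hγ using hf
  obtain ⟨τ, hτ, h⟩ := tasy_tau γ h0
  obtain ⟨r0, a, b, c⟩ := tasy_ev (eventually_all.2 fun j => tasy_lev (hγ j) (h0 j) hτ (h j))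
  refine ⟨τ, hτ, r0, a, b, fun r hr h1 j s => ?_⟩
  obtain ⟨d, -, e⟩ := c r hr h1 s
  have := e j
  rw [d] at this
  exact ⟨this.1, this.2.1, tasy_lev2 hr this.2.2⟩

theorem exists_levels_arc {κ : Type} [Fintype κ] (f : κ → ℂ → ℂ) (o : κ → ℤ)
    (hf : ∀ j, Asy (f j) (o j)) (X : ℂ → ℂ) (n : ℤ) (hX : Asy X n) {ρ : ℝ} (hρ : 0 < ρ)
    (hc : ContinuousOn X (Metric.ball 0 ρ \ {0}))
    (hmax : ∀ j, ∃ n' ≤ n, Asy (fun z => X z - f j z) n') :
    ∃ τ : ℂ, ‖τ‖ = 1 ∧ ∃ r0 : ℝ, 0 < r0 ∧ r0 ≤ 1 ∧ ∀ r : ℝ, 0 < r → r < r0 →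
      (∀ j (s : ℝ), r ^ ((o j : ℝ) + 1 / 2) < ‖f j (r * ex s)‖ ∧
        ‖f j (r * ex s)‖ < r ^ ((o j : ℝ) - 1 / 2) ∧
        ∀ t : ℝ, 0 < t → f j (r * ex s) ≠ τ * (t : ℂ) * ex (o j * s)) ∧
      ∃ H : I × I → ℂ, Continuous H ∧ (∀ s, H (s, 0) = X (r * ex s)) ∧
        (∀ s : I, H (s, 1) = τ * ((r ^ ((n : ℝ) + 1 / 2) : ℝ) : ℂ) * ex (n * s)) ∧
        (∀ l, H (1, l) = H (0, l)) ∧ ∀ s l, H (s, l) ≠ 0 ∧ ∀ j, H (s, l) ≠ f j (r * ex s) := by
  choose γ h0 hγ using hf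
  obtain ⟨x, hx, hX⟩ := hX
  obtain ⟨τ, hτ, h⟩ := tasy_tau γ h0
  have hfin : (insert 0 {c | ∃ j, o j = n ∧ c = γ j} : Set ℂ).Finite :=
    ((Set.finite_range γ).subset (by rintro c ⟨j, _, e⟩; exact ⟨j, e.symm⟩)).insert 0
  obtain ⟨p, hp⟩ := (hfin.countable.isPathConnected_compl_of_one_lt_rank
    (by rw [Complex.rank_real_complex]; exact Cardinal.one_lt_two)).joinedIn x (by
      rintro (e | ⟨j, rfl, rfl⟩)
      · exact hx e
      obtain ⟨n', hn, c, hc0, h1⟩ := hmax j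
      have h2 := (hX.sub (hγ j)).mul ((continuous_pow (o j - n').toNat).continuousAt.tendsto.mono_left
        (nhdsWithin_le_nhds (s := {0}ᶜ)))
      rw [sub_self, zero_mul] at h2
      refine hc0 (tendsto_nhds_unique h1 (h2.congr' ?_))
      filter_upwards [self_mem_nhdsWithin] with z hz
      have := zpow_ne_zero (o j) hz
      have := zpow_ne_zero n' hz
      rw [← zpow_natCast, Int.toNat_of_nonneg (sub_nonneg.2 hn), zpow_sub₀ hz]
      field_simp) τ (by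
      rintro (e | ⟨j, -, e⟩)
      · simp [e] at hτ
      · exact h j 1 zero_le_one (by simp [e]))
  have hK := isCompact_range p.continuous
  have hK0 : 0 ∉ Set.range p := fun ⟨t, e⟩ => hp t (Or.inl e)
  have he := tendsto_sub_nhds_zero_iff.2 hX
  obtain ⟨r0, a, b, c⟩ := tasy_ev ((eventually_all.2 fun j => (tasy_lev (hγ j) (h0 j) hτ (h j)).and
    (tasy_avoid hK hK0 (hγ j) (h0 j) (n := n) (fun e ⟨t, e'⟩ => hp t (Or.inr ⟨j, e, e'⟩)) he)).and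
    ((tasy_near hK hK0 he tendsto_const_nhds).and
      (mem_nhdsWithin_of_mem_nhds (Metric.ball_mem_nhds 0 hρ))))
  refine ⟨τ, hτ, r0, a, b, fun r hr h1 => ⟨fun j s => ?_, ?_⟩⟩
  · obtain ⟨d, -, e, -⟩ := c r hr h1 s
    have := (e j).1
    rw [d] at this
    exact ⟨this.1, this.2.1, tasy_lev2 hr this.2.2⟩
  have hex := continuous_ex
  have hz : Continuous fun q : I × I => (r * ex q.1) ^ n :=
    Continuous.zpow₀ (by fun_prop) n fun q => Or.inl (c r hr h1 _).2.1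
  have hXc : Continuous fun q : I × I => X (r * ex q.1) := hc.comp_continuous (by fun_prop)
    fun q => ⟨(c r hr h1 _).2.2.2.2, (c r hr h1 _).2.1⟩
  have hpe := p.continuous_extend
  have hr1 := (h1.trans_le b).le
  have hs1 : r ^ (1 / 2 : ℝ) ≤ 1 := Real.rpow_le_one hr.le hr1 (by norm_num)
  refine ⟨fun q => (p.extend (2 * (q.2 : ℝ)) *
    (1 - max (2 * (q.2 : ℝ) - 1) 0 * (1 - r ^ (1 / 2 : ℝ)) : ℝ) + (max (1 - 2 * (q.2 : ℝ)) 0 : ℝ) *
      (X (r * ex q.1) / (r * ex q.1) ^ n - x)) * (r * ex q.1) ^ n,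
    Continuous.mul (Continuous.add (by fun_prop) (Continuous.mul (by fun_prop) ((hXc.div hz
      fun q => zpow_ne_zero _ (c r hr h1 _).2.1).sub continuous_const))) hz,
    fun s => ?_, fun s => ?_, fun l => ?_, fun s l => ?_⟩
  · have := zpow_ne_zero n (c r hr h1 s).2.1
    simp
    field_simp
  · rw [Real.rpow_add hr, Real.rpow_intCast, ← ex_zpow]
    norm_num [p.extend_of_one_le one_le_two, mul_zpow]
    ring
  · simp only [Set.Icc.coe_one, Set.Icc.coe_zero, show ex 1 = ex 0 by simpa using ex_add_one 0]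
  obtain ⟨d, hz0, e, e0, -⟩ := c r hr h1 s
  rcases le_total (2 * (l : ℝ)) 1 with hl | hl
  · have hθ : 1 - 2 * (l : ℝ) ∈ Set.Icc (0 : ℝ) 1 := ⟨by linarith, by linarith [l.2.1]⟩
    have hk : p.extend (2 * l) ∈ Set.range p := p.extend_range ▸ Set.mem_range_self _
    simp only [max_eq_right (sub_nonpos.2 hl), max_eq_left hθ.1, zero_mul, sub_zero,
      Complex.ofReal_one, mul_one]
    exact ⟨mul_ne_zero (e0 _ hk _ hθ) (zpow_ne_zero _ hz0), fun j => (e j).2 _ hk _ hθ⟩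
  · simp only [max_eq_right (sub_nonpos.2 hl), max_eq_left (sub_nonneg.2 hl),
      p.extend_of_one_le hl, Complex.ofReal_zero, zero_mul, add_zero]
    set t := 1 - (2 * (l : ℝ) - 1) * (1 - r ^ (1 / 2 : ℝ))
    have t1 : t ≤ 1 := sub_le_self _ (mul_nonneg (by linarith) (by linarith))
    have t2 : r ^ (1 / 2 : ℝ) ≤ t := by
      have := mul_le_of_le_one_left (sub_nonneg.2 hs1) (by linarith [l.2.2] : 2 * (l : ℝ) - 1 ≤ 1)
      simp only [t]
      linarith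
    have t3 := (Real.rpow_pos_of_pos hr _).trans_le t2
    have hn : ‖τ * t * (r * ex s) ^ n‖ = t * r ^ (n : ℝ) := by
      rw [norm_mul, norm_mul, hτ, one_mul, norm_zpow, d, Complex.norm_real,
        Real.norm_of_nonneg t3.le, Real.rpow_intCast]
    have hp := Real.rpow_pos_of_pos hr n
    refine ⟨norm_pos_iff.1 (hn ▸ mul_pos t3 hp), fun j e' => ?_⟩
    obtain ⟨u1, u2, u3⟩ := (e j).1
    rw [← e', hn, d] at u1 u2
    rcases lt_trichotomy (o j) n with h2 | h2 | h2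
    · have h3 : (o j : ℝ) + 1 ≤ n := by exact_mod_cast h2
      have := Real.rpow_le_rpow_of_exponent_ge hr hr1 (by linarith : (o j : ℝ) + 1 / 2 ≤ n)
      nlinarith
    · exact u3 t t3.le (h2 ▸ e'.symm)
    · have h3 : (n : ℝ) + 1 ≤ o j := by exact_mod_cast h2
      have := Real.rpow_le_rpow_of_exponent_ge hr hr1 (by linarith : 1 / 2 + n ≤ (o j : ℝ) - 1 / 2)
      rw [Real.rpow_add hr] at this
      nlinarith

theorem tasy_sec {C : Finset F5} {S : Finset ℂ} {ε : ℝ} {u0 : U0 S} {P : Type} [Group P]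
    {μ : Mono (U0 S) P} {D : TData P} (hT : TFacts C ε u0 μ D) (hu : u0.1.2 = Rr u0.1.1)
    (E : ℕ) (hE : 0 < E) (B : ℝ → ℝ → ℂ) (hB : Continuous fun q : ℝ × ℝ => B q.1 q.2)
    (hBS : ∀ s, ∀ θ ∈ Set.Icc (0 : ℝ) 1, B s θ ∉ S) (h10 : ∀ θ, B (1 : I) θ = B (0 : I) θ)
    (hper : ∀ s, B ((s + 1) / E) 0 = B (s / E) 0) : ∃ δ β : C(I, U0 S), δ 0 = u0 ∧ δ 1 = β 0 ∧
      (∀ s : I, (β s).1 = (B s 1, (Rr (B s 1) : ℂ))) ∧
      ∃ σ' ∈ D.Sec, μ.m δ * μ.m β * (μ.m δ)⁻¹ = σ' ^ E := by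
  have hR := continuous_Rr
  have hB' : Continuous fun q : I × I => B q.1 (1 - q.2) :=
    hB.comp (f := fun q : I × I => ((q.1 : ℝ), 1 - (q.2 : ℝ))) (by fun_prop)
  have hm : ∀ l : I, 1 - (l : ℝ) ∈ Set.Icc (0 : ℝ) 1 := fun l => (unitInterval.symm l).2
  obtain ⟨w, hw⟩ := (S.finite_toSet.countable.isPathConnected_compl_of_one_lt_rank
    (by rw [Complex.rank_real_complex]; exact Cardinal.one_lt_two)).joinedIn _ u0.2.1 _
    (hBS 0 1 ⟨zero_le_one, le_rfl⟩)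
  obtain ⟨δ, hδ⟩ := trad_path (S := S) (b := w) (x := fun s => Rr (w s)) w.continuous (by fun_prop)
    hw fun s => (sec_mem (hw s)).2
  have hδ0 : δ 0 = u0 := Subtype.ext (by rw [hδ, w.source, ← hu])
  have hδ1 : (δ 1).1 = (B (0 : I) (1 - (0 : I)), (Rr (B (0 : I) (1 - (0 : I))) : ℂ)) := by
    rw [hδ, w.target]
    simp
  obtain ⟨l, hl⟩ := trad_path (S := S) (b := fun s => B (0 : I) (1 - s))
    (x := fun s => Rr (B (0 : I) (1 - s))) (hB'.comp (Continuous.prodMk_right 0))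
    (Complex.continuous_ofReal.comp (hR.comp (hB'.comp (Continuous.prodMk_right 0))))
    (fun s => hBS _ _ (hm s)) fun s => (sec_mem (hBS _ _ (hm s))).2
  obtain ⟨β, hβ⟩ := trad_path (S := S) (b := fun s => B s (1 - (0 : I)))
    (x := fun s => Rr (B s (1 - (0 : I)))) (hB'.comp (Continuous.prodMk_left 0))
    (Complex.continuous_ofReal.comp (hR.comp (hB'.comp (Continuous.prodMk_left 0))))
    (fun s => hBS _ _ (hm 0)) fun s => (sec_mem (hBS _ _ (hm 0))).2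
  have hE' : (E : ℝ) ≠ 0 := by positivity
  have hB0 : Continuous fun s : ℝ => B (s / E) 0 :=
    hB.comp (f := fun s : ℝ => (s / E, (0 : ℝ))) (by fun_prop)
  let Ψ : ℝ → U0 S := fun s => ⟨_, sec_mem (hBS (s / E) 0 ⟨le_rfl, zero_le_one⟩)⟩
  have hΨ : Continuous Ψ := Continuous.subtype_mk
    (hB0.prodMk (Complex.continuous_ofReal.comp (hR.comp hB0))) _
  let g : C(I, U0 S) := ⟨fun s => Ψ s, by fun_prop⟩
  let g' : C(I, U0 S) := ⟨fun s => Ψ ((E : ℤ) * s), by fun_prop⟩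
  have k1 := μ.m_per Ψ hΨ (fun s => Subtype.ext (by simp only [Ψ, hper])) E g g' (fun _ => rfl)
    fun _ => rfl
  have k2 := trad_free μ (b := fun s l => B s (1 - l)) (x := fun s l => Rr (B s (1 - l))) hB'
    (Complex.continuous_ofReal.comp (hR.comp hB')) (fun s l => hBS _ _ (hm l))
    (fun s l => (sec_mem (hBS _ _ (hm l))).2) (fun _ => h10 _) (fun _ => by simp only [h10]) hβ hl
    (β := g') fun s => by simp [g', Ψ, mul_div_cancel_left₀ _ hE']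
  have e1 : l 0 = δ 1 := Subtype.ext ((hl 0).trans hδ1.symm)
  have e2 : g 0 = cat δ l e1 1 := Subtype.ext (by rw [cat_one, hl]; simp [g, Ψ])
  have e3 : rev (cat δ l e1) 0 = cat (cat δ l e1) g e2 1 := by
    rw [rev_zero, cat_one, cat_one]
    refine Subtype.ext ?_
    rw [hl]
    simpa [g, Ψ] using congrArg (fun x => (x, (Rr x : ℂ))) (hper 0).symm
  have s1 : ∀ s, (cat δ l e1 s).1.2 = Rr (cat δ l e1 s).1.1 := fun s => by
    rcases cat_mem δ l e1 s with ⟨t, e⟩ | ⟨t, e⟩ <;> rw [e]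
    · rw [hδ]
    · rw [hl]
  refine ⟨δ, β, hδ0, Subtype.ext (hδ1.trans (hβ 0).symm), fun s => by rw [hβ]; simp, _,
    hT.sec (cat _ _ e3) (by rw [cat_zero, cat_zero, cat_zero, hδ0])
      (by rw [cat_one, rev_one, cat_zero, hδ0]) fun s => ?_, ?_⟩
  · rcases cat_mem _ _ e3 s with ⟨t, e⟩ | ⟨t, e⟩ <;> rw [e]
    · rcases cat_mem _ _ e2 t with ⟨t, e⟩ | ⟨t, e⟩ <;> rw [e]
      exacts [s1 t, rfl]
    · exact s1 _
  · rw [μ.m_cat, μ.m_cat, μ.m_rev, conj_pow, μ.m_cat, k2, k1, zpow_natCast]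
    group

/-- the section over a small loop of the arc is an `E`-th power -/
theorem sec_pow {C : Finset F5} {S : Finset ℂ} {ε : ℝ} {u0 : U0 S} {P : Type} [Group P]
    {μ : Mono (U0 S) P} {D : TData P} (hT : TFacts C ε u0 μ D) (hu : u0.1.2 = Rr u0.1.1)
    (h0 : (0 : ℂ) ∈ S) (E : ℕ) (hE : 0 < E) (b : ℂ → ℂ) {ρ : ℝ} (hρ : 0 < ρ)
    (hc : ContinuousOn b (Metric.ball 0 ρ \ {0})) (m : S → ℤ)
    (hm : ∀ p : S, Asy (fun z => b z - p) (E * m p)) : ∃ r0 : ℝ, 0 < r0 ∧ ∀ r : ℝ, 0 < r →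
      r < r0 → ∃ δ β : C(I, U0 S), δ 0 = u0 ∧ δ 1 = β 0 ∧
        (∀ s : I, (β s).1 = (b (r * ex s), (Rr (b (r * ex s)) : ℂ))) ∧
        ∃ σ' ∈ D.Sec, μ.m δ * μ.m β * (μ.m δ)⁻¹ = σ' ^ E := by
  choose γ h1 hγ using hm
  obtain ⟨p, hp⟩ : ∃ p : S, ∀ q : S, 0 = E * m p → (q : ℂ) - p ∉ ({γ p} : Set ℂ) := by
    by_cases h : ∃ p, m p ≠ 0
    · obtain ⟨p, hp⟩ := h
      exact ⟨p, fun _ e => absurd e.symm (mul_ne_zero (by omega) hp)⟩
    · push Not at h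
      refine ⟨⟨0, h0⟩, fun q _ e => h1 q ?_⟩
      have a := hγ q
      have c := (hγ ⟨0, h0⟩).sub_const (q : ℂ)
      simp only [h, mul_zero, zpow_zero, div_one, sub_zero] at a c
      rw [tendsto_nhds_unique a c, ← show _ = γ _ from e]
      simp
  have he := tendsto_sub_nhds_zero_iff.2 (hγ p)
  have hK0 : (0 : ℂ) ∉ ({γ p} : Set ℂ) := (h1 p).symm
  have hq : ∀ q : S, ∀ᶠ z in 𝓝[≠] (0 : ℂ), ∀ k ∈ ({γ p} : Set ℂ), ∀ θ ∈ Set.Icc (0 : ℝ) 1,
      (k + θ * ((b z - p) / z ^ (E * m p) - γ p)) * z ^ (E * m p) ≠ q - p := by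
    intro q
    rcases eq_or_ne ((q : ℂ) - p) 0 with e | e
    · filter_upwards [tasy_near isCompact_singleton hK0 he tendsto_const_nhds, self_mem_nhdsWithin]
        with z a hz k hk θ hθ
      rw [e]
      exact mul_ne_zero (a k hk θ hθ) (zpow_ne_zero _ hz)
    · exact tasy_avoid isCompact_singleton hK0 (f := fun _ => q - p) (o := 0) (by simp) e (hp q) he
  obtain ⟨r0, a, -, c⟩ := tasy_ev ((eventually_all.2 hq).and
    (mem_nhdsWithin_of_mem_nhds (Metric.ball_mem_nhds 0 hρ)))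
  refine ⟨r0, a, fun r hr h2 => ?_⟩
  have hex := continuous_ex
  let B : ℝ → ℝ → ℂ := fun s θ => p + (γ p + θ * ((b (r * ex s) - p) / (r * ex s) ^ (E * m p) -
    γ p)) * (r * ex s) ^ (E * m p)
  have hBS : ∀ s, ∀ θ ∈ Set.Icc (0 : ℝ) 1, B s θ ∉ S := fun s θ hθ h =>
    (c r hr h2 s).2.2.1 ⟨_, h⟩ _ rfl θ hθ (add_sub_cancel_left _ _).symm
  have hz : Continuous fun s : ℝ => (r * ex s) ^ (E * m p) :=
    Continuous.zpow₀ (by fun_prop) _ fun q => Or.inl (c r hr h2 _).2.1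
  have hb : Continuous fun s : ℝ => b (r * ex s) := hc.comp_continuous (by fun_prop)
    fun q => ⟨(c r hr h2 _).2.2.2, (c r hr h2 _).2.1⟩
  have hd := (hb.sub (continuous_const (y := (p : ℂ)))).div hz
    fun s => zpow_ne_zero _ (c r hr h2 _).2.1
  have hB : Continuous fun q : ℝ × ℝ => B q.1 q.2 := continuous_const.add (Continuous.mul
    (continuous_const.add (Continuous.mul (by fun_prop)
      ((hd.comp continuous_fst).sub continuous_const))) (hz.comp continuous_fst))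
  have hB1 : ∀ s, B s 1 = b (r * ex s) := fun s => by
    have := zpow_ne_zero (E * m p) (c r hr h2 s).2.1
    simp only [B]
    field_simp
    simp
  have h10 : ∀ θ, B (1 : I) θ = B (0 : I) θ := fun θ => by
    simp only [B, Set.Icc.coe_one, Set.Icc.coe_zero, show ex 1 = ex 0 by simpa using ex_add_one 0]
  have hE' : (E : ℝ) ≠ 0 := by positivity
  have hper : ∀ s, B ((s + 1) / E) 0 = B (s / E) 0 := fun s => by
    simp only [B, Complex.ofReal_zero, zero_mul, add_zero, mul_zpow, ex_zpow]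
    rw [show ((E * m p : ℤ) : ℝ) * ((s + 1) / E) = ((E * m p : ℤ) : ℝ) * (s / E) + m p by
      push_cast; field_simp, ex_add, ex_int, mul_one]
  simpa only [hB1] using tasy_sec hT hu E hE B hB hBS h10 hper

end Vale.Agent.P300
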