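import Vale.Agent.P300.TRad
import Vale.Agent.P300.TAsy

/-! P300: classes of small loops on arcs through the boundary. -/

noncomputable section

namespace Vale.Agent.P300

open unitInterval Filter Topology

theorem tarc_ev {Q : ℝ → Prop} {r0 : ℝ} (h0 : 0 < r0) (h : ∀ r, 0 < r → r < r0 → Q r) :
    ∀ᶠ r in 𝓝[>] (0 : ℝ), Q r := by
  filter_upwards [Ioo_mem_nhdsGT h0] with r hr using h r hr.1 hr.2

theorem tarc_ex {Q : ℝ → Prop} (h : ∀ᶠ r in 𝓝[>] (0 : ℝ), Q r) :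
    ∃ r0 : ℝ, 0 < r0 ∧ ∀ r, 0 < r → r < r0 → Q r := by
  obtain ⟨u, hu, h1⟩ := mem_nhdsGT_iff_exists_Ioo_subset.mp h
  exact ⟨u, hu, fun r h2 h3 => h1 ⟨h2, h3⟩⟩

theorem tarc_pow {r : ℝ} (h0 : 0 < r) (h1 : r ≤ 1) {x y : ℝ} (h : x ≤ y) : r ^ y ≤ r ^ x :=
  Real.rpow_le_rpow_of_exponent_ge h0 h1 h

/-- a value in two closed level ranges determines the level -/
theorem tarc_level {r t : ℝ} (h0 : 0 < r) (h1 : r ≤ 1) {o ν : ℤ}
    (a1 : r ^ ((o : ℝ) + 1 / 2) < t) (a2 : t < r ^ ((o : ℝ) - 1 / 2))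
    (b1 : r ^ ((ν : ℝ) + 1 / 2) ≤ t) (b2 : t ≤ r ^ (((ν - 1 : ℤ) : ℝ) + 1 / 2)) : ν = o := by
  rcases lt_trichotomy ν o with h | h | h
  · have h2 : (ν : ℝ) + 1 ≤ o := by exact_mod_cast h
    have := tarc_pow h0 h1 (show (ν : ℝ) + 1 / 2 ≤ (o : ℝ) - 1 / 2 by linarith)
    linarith
  · exact h
  · have h2 : (o : ℝ) + 1 ≤ ν := by exact_mod_cast h
    have := tarc_pow h0 h1 (show (o : ℝ) + 1 / 2 ≤ ((ν - 1 : ℤ) : ℝ) + 1 / 2 by
      push_cast; linarith)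
    linarith

theorem tarc_radial {C : Finset F5} {S : Finset ℂ} {ε : ℝ} {u0 : U0 S} {P : Type} [Group P]
    {μ : Mono (U0 S) P} {D : TData P} (hT : TFacts C ε u0 μ D) (E : ℕ) (B : ℝ → ℂ)
    (hB : Continuous B) (hper : ∀ s, B (s + 1) = B s) (hBS : ∀ s, B s ∉ S) (i : Fin 5) (τ : ℂ)
    (hτ : ‖τ‖ = 1) {r : ℝ} (h0 : 0 < r) (h1 : r ≤ 1) (o : {j // j ≠ i} → ℤ)
    (hl : ∀ (j : {j // j ≠ i}) (s : ℝ),
      r ^ (((E * o j : ℤ) : ℝ) + 1 / 2) < ‖av j.1 (B s) - av i (B s)‖ ∧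
      ‖av j.1 (B s) - av i (B s)‖ < r ^ (((E * o j : ℤ) : ℝ) - 1 / 2) ∧
      ∀ t : ℝ, 0 < t → av j.1 (B s) - av i (B s) ≠ τ * (t : ℂ) * ex ((E * o j : ℤ) * s))
    (ν1 : ℤ) (δ β : C(I, U0 S)) (hδ0 : δ 0 = u0) (hδ1 : δ 1 = β 0)
    (hβ : ∀ s : I, (β s).1 = (B s, (Rr (B s) : ℂ))) :
    ∃ δ' : C(I, U0 S), δ' 0 = u0 ∧
      (δ' 1).1 = (B 0, av i (B 0) + τ * ((r ^ ((ν1 : ℝ) + 1 / 2) : ℝ) : ℂ)) ∧
      ∃ g ∈ Orb C, ∃ e ∈ PowE C E,
        (∀ γ : C(I, U0 S), (∀ s : I, (γ s).1 =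
          (B 0, av i (B 0) + τ * ((r ^ ((ν1 : ℝ) + 1 / 2) : ℝ) : ℂ) * ex s)) →
          μ.m δ' * μ.m γ * (μ.m δ')⁻¹ = D.ι g) ∧
        ∀ ω : C(I, U0 S), (∀ s : I, (ω s).1 =
          (B s, av i (B s) + τ * ((r ^ ((ν1 : ℝ) + 1 / 2) : ℝ) : ℂ) * ex (ν1 * s))) →
          μ.m δ' * μ.m ω * (μ.m δ')⁻¹ = D.ι (g ^ ν1 * e) * (μ.m δ * μ.m β * (μ.m δ)⁻¹) := by
  obtain ⟨ν0, hν0⟩ := (Set.finite_range fun j => (E : ℤ) * o j - 1).bddBelow
  have hν : ∀ j, min ν0 ν1 + 1 ≤ E * o j := fun j => by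
    have h3 : ν0 ≤ (E : ℤ) * o j - 1 := hν0 (Set.mem_range_self j)
    have h2 := min_le_left ν0 ν1
    omega
  refine radial hT E B hB hper hBS i τ hτ (fun ν => r ^ ((ν : ℝ) + 1 / 2)) (min ν0 ν1) ν1
    (min_le_right _ _) (fun ν => Real.rpow_pos_of_pos h0 _)
    (fun ν => tarc_pow h0 h1 (by push_cast; linarith)) ?_ ?_ ?_ ?_ δ β hδ0 hδ1 hβ
  · intro ν _ _ s j hj he
    obtain ⟨a1, a2, _⟩ := hl ⟨j, hj⟩ s
    have h2 := tarc_level h0 h1 a1 a2 he.ge (he.le.trans (tarc_pow h0 h1 (by push_cast; linarith)))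
    rw [← h2] at a1
    exact a1.ne' he
  · intro ν _ _ t ht s j hj he
    obtain ⟨a1, a2, a3⟩ := hl ⟨j, hj⟩ s
    have ht0 : 0 < t := (Real.rpow_pos_of_pos h0 _).trans_le ht.1
    have hn : ‖av j (B s) - av i (B s)‖ = t := by
      rw [he, norm_mul, norm_mul, hτ, norm_ex, Complex.norm_real, Real.norm_of_nonneg ht0.le]
      ring
    have h2 := tarc_level h0 h1 a1 a2 (ht.1.trans hn.ge) (hn.le.trans ht.2)
    rw [← h2] at a3
    exact a3 t ht0 he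
  · intro ν _ _ hd t ht j hj he
    obtain ⟨a1, a2, _⟩ := hl ⟨j, hj⟩ 0
    have h2 := tarc_level h0 h1 a1 a2 (ht.1.trans he.ge) (he.le.trans ht.2)
    exact hd ⟨_, h2⟩
  · intro s j
    by_cases hj : j = i
    · rw [hj, sub_self, norm_zero]
      exact Real.rpow_pos_of_pos h0 _
    · obtain ⟨_, a2, _⟩ := hl ⟨j, hj⟩ s
      refine a2.trans_le (tarc_pow h0 h1 ?_)
      have h2 : ((min ν0 ν1 + 1 : ℤ) : ℝ) ≤ ((E * o ⟨j, hj⟩ : ℤ) : ℝ) := by exact_mod_cast hν _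
      rw [Int.cast_add, Int.cast_one] at h2
      linarith

/-- the power of the section almost fixes a conjugate of every generator -/
theorem tarc_fix {C : Finset F5} {S : Finset ℂ} {ε : ℝ} {u0 : U0 S} {P : Type} [Group P]
    {μ : Mono (U0 S) P} {D : TData P} (hT : TFacts C ε u0 μ D) (E : ℕ) (B : ℝ → ℂ)
    (hB : Continuous B) (hper : ∀ s, B (s + 1) = B s) (hBS : ∀ s, B s ∉ S) (i : Fin 5) (τ : ℂ)
    (hτ : ‖τ‖ = 1) {r : ℝ} (h0 : 0 < r) (h1 : r ≤ 1) (o : {j // j ≠ i} → ℤ)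
    (hl : ∀ (j : {j // j ≠ i}) (s : ℝ),
      r ^ (((E * o j : ℤ) : ℝ) + 1 / 2) < ‖av j.1 (B s) - av i (B s)‖ ∧
      ‖av j.1 (B s) - av i (B s)‖ < r ^ (((E * o j : ℤ) : ℝ) - 1 / 2) ∧
      ∀ t : ℝ, 0 < t → av j.1 (B s) - av i (B s) ≠ τ * (t : ℂ) * ex ((E * o j : ℤ) * s))
    (δ β : C(I, U0 S)) (hδ0 : δ 0 = u0) (hδ1 : δ 1 = β 0)
    (hβ : ∀ s : I, (β s).1 = (B s, (Rr (B s) : ℂ))) (sg : P)
    (hsg : μ.m δ * μ.m β * (μ.m δ)⁻¹ = sg) :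
    ∃ y, IsConj (xx i) y ∧ ∃ e' ∈ PowE C E, sg * D.ι y * sg⁻¹ = D.ι (e' * y) := by
  obtain ⟨ν1, hν1⟩ := (Set.finite_range fun j => (E : ℤ) * o j).bddAbove
  obtain ⟨δ', hδ'0, hδ'1, g, _, e, he, hγ, hω⟩ :=
    tarc_radial hT E B hB hper hBS i τ hτ h0 h1 o hl ν1 δ β hδ0 hδ1 hβ
  set R : ℝ := r ^ ((ν1 : ℝ) + 1 / 2) with hR
  have hR0 : 0 < R := Real.rpow_pos_of_pos h0 _
  have hlt : ∀ j, j ≠ i → ∀ s, R < ‖av j (B s) - av i (B s)‖ := by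
    intro j hj s
    refine lt_of_le_of_lt (tarc_pow h0 h1 ?_) (hl ⟨j, hj⟩ s).1
    have h2 : ((E * o ⟨j, hj⟩ : ℤ) : ℝ) ≤ ν1 := by exact_mod_cast hν1 (Set.mem_range_self _)
    linarith
  have hw : ‖τ * (R : ℂ)‖ = R := by
    rw [norm_mul, hτ, Complex.norm_real, Real.norm_of_nonneg hR0.le, one_mul]
  have hmem : ∀ q : ℝ × ℝ, (B q.1, av i (B q.1) + τ * (R : ℂ) * ex q.2) ∈ U0 S := by
    intro q
    refine ⟨hBS _, fun j hj => ?_⟩
    have h2 : ‖av j (B q.1) - av i (B q.1)‖ = R := by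
      have h3 : av i (B q.1) + τ * (R : ℂ) * ex q.2 = av j (B q.1) := hj
      rw [← h3, add_sub_cancel_left, norm_mul, hw, norm_ex, mul_one]
    by_cases hji : j = i
    · rw [hji, sub_self, norm_zero] at h2
      exact hR0.ne h2
    · exact (hlt j hji _).ne' h2
  set Ψ : ℝ × ℝ → U0 S := fun q => ⟨_, hmem q⟩ with hΨ
  have hΨc : Continuous Ψ := by
    refine Continuous.subtype_mk ?_ _
    exact (hB.comp continuous_fst).prodMk ((((tu0_cont_av i).comp hB).comp continuous_fst).add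
      (continuous_const.mul (continuous_ex.comp continuous_snd)))
  let α : C(I, U0 S) := ⟨fun s => Ψ (s, 0), hΨc.comp (by fun_prop)⟩
  let γ : C(I, U0 S) := ⟨fun s => Ψ (0, s), hΨc.comp (by fun_prop)⟩
  let ω : C(I, U0 S) := ⟨fun s => Ψ ((1 : ℤ) * s, ν1 * s), hΨc.comp (by fun_prop)⟩
  obtain ⟨hcm, htor⟩ := μ.m_torus Ψ hΨc
    (fun s t => Subtype.ext (by simp only [hΨ, hper]))
    (fun s t => Subtype.ext (by simp only [hΨ, ex_add_one])) α γ (fun _ => rfl) (fun _ => rfl)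
  have h4 := htor 1 ν1 ω fun _ => rfl
  have h5 := hγ γ fun _ => rfl
  have h6 := hω ω fun s => by simp [ω, hΨ]
  rw [hsg] at h6
  have hcω : Commute (μ.m ω) (μ.m γ) := by
    rw [h4]
    exact (hcm.zpow_left 1).mul_left ((Commute.refl _).zpow_left ν1)
  have hγ0 : γ 0 = δ' 1 := by
    apply Subtype.ext
    rw [hδ'1]
    simp [γ, hΨ, ex_zero]
  have hcirc : FibCirc {i} γ := by
    refine ⟨fun _ => rfl, av i (B 0), τ * (R : ℂ), fun _ => rfl, fun j => ?_⟩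
    rw [hw, Set.mem_singleton_iff]
    refine ⟨fun hj => ?_, fun hj => ?_⟩
    · rw [hj]
      simpa [γ, hΨ] using hR0
    · by_contra hji
      have := hlt j hji 0
      simp only [γ, hΨ, ContinuousMap.coe_mk, Set.Icc.coe_zero] at hj
      linarith
  obtain ⟨g', _, hg', hc, _⟩ := hT.circ δ' γ hδ'0 hγ0 {i} hcirc
  have hgg : g' = g := D.inj (hg'.symm.trans h5)
  subst hgg
  have hn : (PowE C E).Normal := Subgroup.normalClosure_normal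
  refine ⟨g', hc i rfl, e⁻¹ * (g' * e * g'⁻¹),
    (PowE C E).mul_mem ((PowE C E).inv_mem he) (hn.conj_mem e he g'), ?_⟩
  have h7 : D.ι (g' ^ ν1 * e) * sg * D.ι g' = D.ι g' * (D.ι (g' ^ ν1 * e) * sg) := by
    rw [← h6, ← h5]
    have := hcω.eq
    calc μ.m δ' * μ.m ω * (μ.m δ')⁻¹ * (μ.m δ' * μ.m γ * (μ.m δ')⁻¹)
        = μ.m δ' * (μ.m ω * μ.m γ) * (μ.m δ')⁻¹ := by group
      _ = μ.m δ' * (μ.m γ * μ.m ω) * (μ.m δ')⁻¹ := by rw [this]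
      _ = _ := by group
  have h8 : sg * D.ι g' * sg⁻¹ = (D.ι (g' ^ ν1 * e))⁻¹ * D.ι g' * D.ι (g' ^ ν1 * e) := by
    calc sg * D.ι g' * sg⁻¹
        = (D.ι (g' ^ ν1 * e))⁻¹ * (D.ι (g' ^ ν1 * e) * sg * D.ι g') * sg⁻¹ := by group
      _ = _ := by rw [h7]; group
  rw [h8, ← map_inv, ← map_mul, ← map_mul]
  congr 1
  group

theorem good_of_arc {C : Finset F5} {S : Finset ℂ} {ε : ℝ} {u0 : U0 S} {P : Type} [Group P]
    {μ : Mono (U0 S) P} {D : TData P} (hT : TFacts C ε u0 μ D) (hu : u0.1.2 = Rr u0.1.1)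
    (hS : ∀ c : ℂ, c ∉ S → Function.Injective fun i => av i c) (E : ℕ) (hE : 0 < E)
    (η : ℂ → ℂ × ℂ) {ρ : ℝ} (hρ : 0 < ρ) (hc : ContinuousOn η (Metric.ball 0 ρ \ {0}))
    (hU : ∀ z ∈ Metric.ball (0 : ℂ) ρ \ {0}, η z ∈ U0 S) (m : S → ℤ) (n : Fin 5 → ℤ)
    (hm : ∀ p : S, Asy (fun z => (η z).1 - p) (E * m p))
    (hn : ∀ i, Asy (fun z => (η z).2 - av i (η z).1) (n i)) :
    ∃ r0 : ℝ, 0 < r0 ∧ ∀ r : ℝ, 0 < r → r < r0 → ∀ ω : C(I, U0 S),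
      (∀ s : I, (ω s).1 = η (r * ex s)) → D.Good C E (μ.m ω) := by
  have h0S : (0 : ℂ) ∈ S := by
    by_contra h
    have h1 : (0 : Fin 5) = 1 := hS 0 h (by simp [av])
    exact absurd h1 (by decide)
  have hcb : ContinuousOn (fun z => (η z).1) (Metric.ball 0 ρ \ {0}) := hc.fst
  obtain ⟨ra, hra, hsec⟩ := sec_pow hT hu h0S E hE (fun z => (η z).1) hρ hcb m hm
  choose o ho using fun (l : Fin 5) (j : {j // j ≠ l}) =>
    asy_av hS (fun z => (η z).1) E m hm j.2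
  choose τ hτ rl hrl0 hrl1 hlev using fun l : Fin 5 =>
    exists_levels (fun (j : {j // j ≠ l}) z => av j.1 (η z).1 - av l (η z).1)
      (fun j => E * o l j) (ho l)
  obtain ⟨i, hi⟩ := Finite.exists_max n
  obtain ⟨τ', hτ', rm, hrm0, hrm1, harc⟩ := exists_levels_arc
    (fun (j : {j // j ≠ i}) z => av j.1 (η z).1 - av i (η z).1) (fun j => E * o i j) (ho i)
    (fun z => (η z).2 - av i (η z).1) (n i) (hn i) hρ
    (hc.snd.sub ((tu0_cont_av i).comp_continuousOn hcb))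
    (fun j => ⟨n j.1, hi j.1, by simpa only [sub_sub_sub_cancel_right] using hn j.1⟩)
  apply tarc_ex
  filter_upwards [tarc_ev hra hsec, tarc_ev hrm0 harc,
    eventually_all.2 fun l => tarc_ev (hrl0 l) (hlev l), Ioo_mem_nhdsGT hρ,
    Ioo_mem_nhdsGT (one_pos : (0 : ℝ) < 1)] with r hsec harc hlev hr hr1 ω hω
  obtain ⟨δ, β, hδ0, hδ1, hβ, sg, hsgS, hsg⟩ := hsec
  obtain ⟨hl, H, hH, hH0, hH1, hHp, hHne⟩ := harc
  have hball : ∀ s : ℝ, (r : ℂ) * ex s ∈ Metric.ball (0 : ℂ) ρ \ {0} := by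
    intro s
    have h1 : ‖(r : ℂ) * ex s‖ = r := by
      rw [norm_mul, norm_ex, mul_one, Complex.norm_real, Real.norm_of_nonneg hr.1.le]
    refine ⟨by rw [mem_ball_zero_iff, h1]; exact hr.2, fun h => ?_⟩
    rw [Set.mem_singleton_iff.mp h, norm_zero] at h1
    exact hr.1.ne h1
  set B : ℝ → ℂ := fun s => (η (r * ex s)).1 with hBd
  have hB : Continuous B :=
    hcb.comp_continuous (continuous_const.mul continuous_ex) hball
  have hper : ∀ s, B (s + 1) = B s := fun s => by simp only [hBd, ex_add_one]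
  have hBS : ∀ s, B s ∉ S := fun s => (hU _ (hball s)).1
  obtain ⟨δ', _, _, g, hg, e, he, _, hω'⟩ :=
    tarc_radial hT E B hB hper hBS i τ' hτ' hr.1 hr1.2.le (o i) hl (n i) δ β hδ0 hδ1 hβ
  have hmem : ∀ q : I × I, (B q.1, av i (B q.1) + H q) ∈ U0 S := by
    intro q
    refine ⟨hBS _, fun j hj => ?_⟩
    have h3 : av i (B q.1) + H q = av j (B q.1) := hj
    by_cases hji : j = i
    · rw [hji, add_eq_left] at h3
      exact (hHne q.1 q.2).1 h3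
    · exact (hHne q.1 q.2).2 ⟨j, hji⟩ (eq_sub_of_add_eq' h3)
  set H' : I × I → U0 S := fun q => ⟨_, hmem q⟩ with hH'
  have hBI : Continuous fun q : I × I => B q.1 := hB.comp (by fun_prop)
  have hH'c : Continuous H' :=
    Continuous.subtype_mk (hBI.prodMk (((tu0_cont_av i).comp hBI).add hH)) _
  let l : C(I, U0 S) := ⟨fun s => H' (0, s), hH'c.comp (by fun_prop)⟩
  let t : C(I, U0 S) := ⟨fun s => H' (s, 1), hH'c.comp (by fun_prop)⟩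
  have hB10 : B (1 : I) = B (0 : I) := by simpa using hper 0
  have h1 := μ.conj_of_free H' hH'c
    (fun s => Subtype.ext (by simp only [hH', hB10, hHp])) ω l t
    (fun s => Subtype.ext (by
      rw [hω s]
      simp only [hH', hH0, hBd, add_sub_cancel])) (fun _ => rfl) (fun _ => rfl)
  have h2 := hω' t fun s => by simp only [t, hH', ContinuousMap.coe_mk, hH1]
  rw [hsg] at h2
  refine ⟨μ.m l * (μ.m δ')⁻¹, g, hg, n i, e, he, sg, hsgS, fun j =>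
    tarc_fix hT E B hB hper hBS j (τ j) (hτ j) hr.1 hr1.2.le (o j) (hlev j) δ β hδ0 hδ1 hβ _ hsg,
    ?_⟩
  rw [h1, mul_assoc _ (D.ι _), ← h2]
  group

end Vale.Agent.P300
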