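import Vale.Agent.P300.ELoc
import Vale.Agent.P300.EMrx
import Vale.Agent.P300.TArc

/-! P300: finite coverings of the open part that extend to the whole surface. -/

noncomputable section

namespace Vale.Agent.P300

open unitInterval Topology

/-- values of the loops at a base point -/
def etrivH {Z : Type} [TopologicalSpace Z] {P : Type} [Group P] (μ : Mono Z P) (z0 : Z) :
    Subgroup P where
  carrier := {g | ∃ γ : C(I, Z), γ 0 = z0 ∧ γ 1 = z0 ∧ μ.m γ = g}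
  mul_mem' := by
    rintro _ _ ⟨γ, a, b, rfl⟩ ⟨γ', a', b', rfl⟩
    exact ⟨cat γ γ' (a'.trans b.symm), (cat_zero _ _ _).trans a, (cat_one _ _ _).trans b',
      μ.m_cat _ _ _⟩
  one_mem' := ⟨ContinuousMap.const I z0, rfl, rfl, μ.m_const _ fun _ => rfl⟩
  inv_mem' := by
    rintro _ ⟨γ, a, b, rfl⟩
    exact ⟨rev γ, (rev_zero γ).trans b, (rev_one γ).trans a, μ.m_rev γ⟩

theorem etriv_loop {Z : Type} [TopologicalSpace Z] {z0 : Z} (δ γ δ' : C(I, Z)) (h0 : δ 0 = z0)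
    (h1 : γ 0 = δ 1) (h2 : δ' 0 = z0) (h3 : δ' 1 = γ 1) :
    ∃ β : C(I, Z), β 0 = z0 ∧ β 1 = z0 ∧
      ∀ {P : Type} [Group P] (μ : Mono Z P), μ.m β = μ.m δ * μ.m γ * (μ.m δ')⁻¹ :=
  ⟨cat (cat δ γ h1) (rev δ') ((rev_zero δ').trans (h3.trans (cat_one _ _ _).symm)),
    (cat_zero _ _ _).trans ((cat_zero _ _ _).trans h0),
    (cat_one _ _ _).trans ((rev_one δ').trans h2),
    fun μ => by rw [μ.m_cat, μ.m_cat, μ.m_rev]⟩

theorem etriv_fin {Z : Type} [TopologicalSpace Z] [PathConnectedSpace Z] {P : Type} [Group P]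
    (μ : Mono Z P) (z0 : Z) (Hk : Subgroup P) [Hk.FiniteIndex] :
    ∃ (G : Type) (_ : Group G) (_ : Finite G) (ν : Mono Z G), ∀ γ : C(I, Z), γ 1 = γ 0 →
      (ν.m γ = 1 ↔ ∀ δ : C(I, Z), δ 0 = z0 → γ 0 = δ 1 → μ.m δ * μ.m γ * (μ.m δ)⁻¹ ∈ Hk) := by
  have hd : ∀ z : Z, ∃ d : C(I, Z), d 0 = z0 ∧ d 1 = z := fun z =>
    ⟨(PathConnectedSpace.somePath z0 z).toContinuousMap, Path.source _, Path.target _⟩
  choose d d0 d1 using hd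
  have hw : ∀ γ : C(I, Z), (μ.gauge fun z => μ.m (d z)).m γ ∈ etrivH μ z0 := fun γ => by
    obtain ⟨β, a, b, c⟩ := etriv_loop (d (γ 0)) γ (d (γ 1)) (d0 _) (d1 _).symm (d0 _) (d1 _)
    exact ⟨β, a, b, c μ⟩
  refine ⟨etrivH μ z0 ⧸ (Hk.subgroupOf (etrivH μ z0)).normalCore, inferInstance, inferInstance,
    ⟨fun γ => QuotientGroup.mk ⟨_, hw γ⟩, fun p q => ?_, fun γ γ' h => ?_⟩, fun γ hγ => ?_⟩
  · rw [← QuotientGroup.mk_mul]
    exact congrArg _ (Subtype.ext ((μ.gauge fun z => μ.m (d z)).trans p q))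
  · exact congrArg _ (Subtype.ext ((μ.gauge fun z => μ.m (d z)).htpy γ γ' h))
  · have e : (μ.gauge fun z => μ.m (d z)).m γ = μ.m (d (γ 0)) * μ.m γ * (μ.m (d (γ 0)))⁻¹ := by
      show μ.m (d (γ 0)) * μ.m γ * (μ.m (d (γ 1)))⁻¹ = _
      rw [hγ]
    refine (QuotientGroup.eq_one_iff _).trans ⟨fun h δ h0 h1 => ?_, fun h => ?_⟩
    · have hb : μ.m δ * (μ.m (d (γ 0)))⁻¹ ∈ etrivH μ z0 :=
        ⟨cat δ (rev (d (γ 0))) ((rev_zero _).trans ((d1 _).trans h1)), (cat_zero _ _ _).trans h0,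
          (cat_one _ _ _).trans ((rev_one _).trans (d0 _)), by rw [μ.m_cat, μ.m_rev]⟩
      have h2 : μ.m δ * (μ.m (d (γ 0)))⁻¹ * (μ.gauge fun z => μ.m (d z)).m γ *
          (μ.m δ * (μ.m (d (γ 0)))⁻¹)⁻¹ ∈ Hk := h ⟨_, hb⟩
      rw [e] at h2
      simpa only [mul_inv_rev, inv_inv, mul_assoc, inv_mul_cancel_left] using h2
    · rintro ⟨_, β, a, b, rfl⟩
      have h2 := h (cat β (d (γ 0)) ((d0 _).trans b.symm)) ((cat_zero _ _ _).trans a)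
        ((cat_one _ _ _).trans (d1 _)).symm
      show μ.m β * (μ.gauge fun z => μ.m (d z)).m γ * (μ.m β)⁻¹ ∈ Hk
      rw [μ.m_cat] at h2
      rw [e]
      simpa only [mul_inv_rev, mul_assoc] using h2

theorem etriv_asy {f g : ℂ → ℂ} {n : ℤ} (hg : ContinuousAt g 0) (h0 : g 0 ≠ 0)
    (h : ∀ᶠ z in 𝓝[≠] (0 : ℂ), f z = g z * z ^ n) : Asy f n := by
  refine ⟨g 0, h0, (hg.tendsto.mono_left nhdsWithin_le_nhds).congr' ?_⟩
  filter_upwards [h, self_mem_nhdsWithin] with z hz hz0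
  rw [hz, mul_div_cancel_right₀ _ (zpow_ne_zero n hz0)]

variable {Ω : Type} [Field Ω] [Algebra ℂ Ω] {ι : Type} [Fintype ι]
variable {D : Dat Ω} {M : IntermediateField ℂ Ω} {t : ι → Ω}

theorem etriv_arc (hG : D.Good M t) {ε : ℝ} {C : Finset F5} {P : Type} [Group P]
    {μ : Mono (U0 D.S) P} {Dt : TData P} {u0 : U0 D.S} (hT : TFacts C ε u0 μ Dt)
    (hu : u0.1.2 = Rr u0.1.1) {y : Zt t} (ch : Chart D t y) (sg : ℂ → ℂ × ℂ) (hsg : Continuous sg)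
    (hb : ∀ z ∈ Metric.ball (0 : ℂ) ch.A.ρ, sg z ∈ Metric.ball (0 : ℂ × ℂ) ch.A.ρ)
    (hne : ∀ z, z ≠ 0 → (sg z).1 ≠ 0 ∧ (sg z).2 ≠ 0) (c : D.Ix → ℂ) (n : D.Ix → ℤ)
    (hc : ∀ φ, c φ ≠ 0)
    (hm : ∀ φ z, (sg z).1 ^ (ch.e φ).1 * (sg z).2 ^ (ch.e φ).2 = c φ * z ^ n φ) :
    ∃ r : ℝ, 0 < r ∧ r < ch.A.ρ ∧ ∀ γ : C(I, D.UY t),
      (∀ s : I, (γ s).1 = ch.A.κ.symm (sg (r * ex s))) → Dt.Good C D.E (μ.m (hG.prC.comp γ)) := by
  have hρ := ch.A.hρ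
  have ht : ∀ z ∈ Metric.ball (0 : ℂ) ch.A.ρ, sg z ∈ ch.A.κ.target := fun z hz =>
    ch.A.tgt ▸ hb z hz
  have hs : ∀ z ∈ Metric.ball (0 : ℂ) ch.A.ρ, ch.A.κ.symm (sg z) ∈ ch.A.κ.source := fun z hz =>
    ch.A.κ.map_target (ht z hz)
  have hU : ∀ z ∈ Metric.ball (0 : ℂ) ch.A.ρ \ {0}, D.IsU (la t (ch.A.κ.symm (sg z))) :=
    fun z hz => (ch.isU_iff (hs z hz.1)).2 (by
      rw [ch.A.κ.right_inv (ht z hz.1)]
      exact ⟨fun _ => (hne z hz.2).1, fun _ => (hne z hz.2).2⟩)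
  have hY : ContinuousOn (fun z => ch.A.κ.symm (sg z)) (Metric.ball (0 : ℂ) ch.A.ρ) :=
    ch.A.κ.continuousOn_symm.comp hsg.continuousOn ht
  have hev : ∀ᶠ z in 𝓝[≠] (0 : ℂ), z ∈ Metric.ball (0 : ℂ) ch.A.ρ \ {0} := by
    filter_upwards [mem_nhdsWithin_of_mem_nhds (Metric.ball_mem_nhds (0 : ℂ) hρ),
      self_mem_nhdsWithin] with z a b using ⟨a, b⟩
  have hg : ∀ φ, ContinuousAt (fun z => (la t (ch.A.κ.symm (sg z))).ev (ch.ε φ) * c φ) 0 :=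
    fun φ => ((((continuousOn_ev t (ch.ε φ)).comp hY
      fun z hz => (ch.un _ (hs z hz) φ).1).continuousAt
        (Metric.ball_mem_nhds (0 : ℂ) hρ))).mul continuousAt_const
  have hg0 : ∀ φ, (la t (ch.A.κ.symm (sg 0))).ev (ch.ε φ) * c φ ≠ 0 := fun φ =>
    mul_ne_zero (ch.un _ (hs 0 (Metric.mem_ball_self hρ)) φ).2 (hc φ)
  have hφ : ∀ φ, ∀ z ∈ Metric.ball (0 : ℂ) ch.A.ρ \ {0},
      (la t (ch.A.κ.symm (sg z))).ev (D.phi φ) =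
        (la t (ch.A.κ.symm (sg z))).ev (ch.ε φ) * c φ * z ^ n φ := fun φ z hz => by
    rw [ch.ev_phi (hs z hz.1) (hU z hz), ch.A.κ.right_inv (ht z hz.1), mul_assoc, hm, mul_assoc]
  obtain ⟨r0, hr0, hr⟩ := good_of_arc hT hu D.hS D.E D.hE
    (fun z => ((la t (ch.A.κ.symm (sg z))).ev D.b, (la t (ch.A.κ.symm (sg z))).ev D.x)) hρ
    (((continuousOn_ev t D.b).comp (hY.mono Set.sdiff_subset)
      fun z hz => (Dat.IsU.mem (hU z hz)).1).prodMk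
      ((continuousOn_ev t D.x).comp (hY.mono Set.sdiff_subset)
        fun z hz => (Dat.IsU.mem (hU z hz)).2.1))
    (fun z hz => (Dat.IsU.mem (hU z hz)).2.2.1) (fun p => n (Sum.inl p)) (fun i => n (Sum.inr i))
    (fun p => etriv_asy ((hg (Sum.inl p)).pow D.E) (pow_ne_zero _ (hg0 _)) (by
      filter_upwards [hev] with z hz
      have h1 := (Dat.IsU.mem (hU z hz)).2.2.2.1 p
      have h2 : (la t (ch.A.κ.symm (sg z))).ev (D.rt p) = _ := hφ (Sum.inl p) z hz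
      rw [← h1, h2, mul_pow, ← zpow_natCast (z ^ n (Sum.inl p)), ← zpow_mul, mul_comm (n _)]
      rfl))
    (fun i => etriv_asy (hg (Sum.inr i)) (hg0 _) (by
      filter_upwards [hev] with z hz
      have h1 := (Dat.IsU.mem (hU z hz)).2.2.2.2 i
      have h2 : (la t (ch.A.κ.symm (sg z))).ev (D.x - av i D.b) = _ := hφ (Sum.inr i) z hz
      rw [← h1, h2]))
  have hm0 : 0 < min r0 ch.A.ρ := lt_min hr0 hρ
  refine ⟨min r0 ch.A.ρ / 2, by linarith, by linarith [min_le_right r0 ch.A.ρ], fun γ hγ =>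
    hr (min r0 ch.A.ρ / 2) (by linarith) (by linarith [min_le_left r0 ch.A.ρ]) _ fun s => ?_⟩
  show ((la t (γ s).1).ev D.b, (la t (γ s).1).ev D.x) = _
  rw [hγ s]

theorem etriv_triv (hG : D.Good M t) {ε : ℝ} {C : Finset F5} {P : Type} [Group P]
    {μ : Mono (U0 D.S) P} {Dt : TData P} {u0 : U0 D.S} (hT : TFacts C ε u0 μ Dt)
    (hu : u0.1.2 = Rr u0.1.1) {G : Type} [Group G] (ν : Mono (D.UY t) G)
    (hν : ∀ γ : C(I, D.UY t), γ 1 = γ 0 → Dt.Good C D.E (μ.m (hG.prC.comp γ)) → ν.m γ = 1)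
    (y : Zt t) :
    ∃ O ∈ 𝓝 y, ∀ γ : C(I, D.UY t), (∀ s, (γ s : Zt t) ∈ O) → γ 1 = γ 0 → ν.m γ = 1 := by
  obtain ⟨ch, -⟩ := exists_chart hG y Filter.univ_mem
  have hρ := ch.A.hρ
  have ht : ∀ η : PD ch.A.ρ (∃ φ, (ch.e φ).1 ≠ 0) (∃ φ, (ch.e φ).2 ≠ 0), η.1 ∈ ch.A.κ.target :=
    fun η => ch.A.tgt ▸ η.2.1
  let f : C(PD ch.A.ρ (∃ φ, (ch.e φ).1 ≠ 0) (∃ φ, (ch.e φ).2 ≠ 0), D.UY t) :=
    ⟨fun η => ⟨ch.A.κ.symm η.1, (ch.isU_iff (ch.A.κ.map_target (ht η))).2 (by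
      rw [ch.A.κ.right_inv (ht η)]
      exact η.2.2)⟩,
      (ch.A.κ.continuousOn_symm.comp_continuous continuous_subtype_val ht).subtype_mk _⟩
  have key : ∀ (sg : ℂ → ℂ × ℂ), Continuous sg →
      (∀ z ∈ Metric.ball (0 : ℂ) ch.A.ρ, sg z ∈ Metric.ball (0 : ℂ × ℂ) ch.A.ρ) →
      (∀ z, z ≠ 0 → (sg z).1 ≠ 0 ∧ (sg z).2 ≠ 0) → ∀ (c : D.Ix → ℂ) (n : D.Ix → ℤ), (∀ φ, c φ ≠ 0) →
      (∀ φ z, (sg z).1 ^ (ch.e φ).1 * (sg z).2 ^ (ch.e φ).2 = c φ * z ^ n φ) →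
      ∃ (γ : C(I, PD ch.A.ρ (∃ φ, (ch.e φ).1 ≠ 0) (∃ φ, (ch.e φ).2 ≠ 0))) (w : ℂ),
        (∀ s : I, (γ s).1 = sg (w * ex s)) ∧ (ν.comap f).m γ = 1 := by
    intro sg hsg hb hne c n hc hm
    obtain ⟨r, hr0, hr1, hr⟩ := etriv_arc hG hT hu ch sg hsg hb hne c n hc hm
    have h1 : ∀ s : ℝ, ‖(r : ℂ) * ex s‖ = r := fun s => by
      rw [norm_mul, norm_ex, mul_one, Complex.norm_real, Real.norm_of_nonneg hr0.le]
    have h2 : ∀ s : ℝ, (r : ℂ) * ex s ≠ 0 := fun s h => by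
      have h3 := h1 s
      rw [h, norm_zero] at h3
      exact hr0.ne h3
    refine ⟨⟨fun s => ⟨sg (r * ex s), hb _ (by rw [mem_ball_zero_iff, h1]; exact hr1),
      fun _ => (hne _ (h2 s)).1, fun _ => (hne _ (h2 s)).2⟩,
      (hsg.comp (continuous_const.mul (continuous_ex.comp continuous_subtype_val))).subtype_mk _⟩,
      r, fun _ => rfl, hν _ ?_ (hr _ fun _ => rfl)⟩
    have h4 : ex ((1 : I) : ℝ) = ex ((0 : I) : ℝ) := by simpa using ex_add_one 0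
    refine congrArg f (Subtype.ext ?_)
    show sg (r * ex ((1 : I) : ℝ)) = sg (r * ex ((0 : I) : ℝ))
    rw [h4]
  have h0 : ((ch.A.ρ / 2 : ℝ) : ℂ) ≠ 0 := Complex.ofReal_ne_zero.2 (by positivity)
  have h1 : ‖((ch.A.ρ / 2 : ℝ) : ℂ)‖ < ch.A.ρ := by
    rw [Complex.norm_real, Real.norm_eq_abs, abs_of_pos (by positivity)]
    linarith
  refine ⟨ch.A.κ.source, ch.A.κ.open_source.mem_nhds ch.A.mem, fun γ hγ hl => ?_⟩
  let γ' : C(I, PD ch.A.ρ (∃ φ, (ch.e φ).1 ≠ 0) (∃ φ, (ch.e φ).2 ≠ 0)) :=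
    ⟨fun s => ⟨ch.A.κ (γ s).1, ch.A.tgt ▸ ch.A.κ.map_source (hγ s),
      (ch.isU_iff (hγ s)).1 (γ s).2⟩,
      (ch.A.κ.continuousOn.comp_continuous (continuous_subtype_val.comp γ.continuous)
        hγ).subtype_mk _⟩
  have e : f.comp γ' = γ := ContinuousMap.ext fun s => Subtype.ext (ch.A.κ.left_inv (hγ s))
  rw [← e]
  refine PD_triv (ν.comap f) (fun _ => ?_) (fun _ => ?_) γ'
    (Subtype.ext (congrArg (fun z : D.UY t => ch.A.κ z.1) hl))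
  · obtain ⟨β, w, a, b⟩ := key (fun z => (z, ((ch.A.ρ / 2 : ℝ) : ℂ)))
      (continuous_id.prodMk continuous_const)
      (fun z hz => by
        rw [mem_ball_zero_iff] at hz ⊢
        rw [Prod.norm_mk]
        exact max_lt hz h1)
      (fun z hz => ⟨hz, h0⟩) (fun φ => ((ch.A.ρ / 2 : ℝ) : ℂ) ^ (ch.e φ).2) (fun φ => (ch.e φ).1)
      (fun φ => zpow_ne_zero _ h0) fun φ z => mul_comm _ _
    exact ⟨β, w, _, a, b⟩
  · obtain ⟨β, w, a, b⟩ := key (fun z => (((ch.A.ρ / 2 : ℝ) : ℂ), z))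
      (continuous_const.prodMk continuous_id)
      (fun z hz => by
        rw [mem_ball_zero_iff] at hz ⊢
        rw [Prod.norm_mk]
        exact max_lt h1 hz)
      (fun z hz => ⟨h0, hz⟩) (fun φ => ((ch.A.ρ / 2 : ℝ) : ℂ) ^ (ch.e φ).1) (fun φ => (ch.e φ).2)
      (fun φ => zpow_ne_zero _ h0) fun φ z => rfl
    exact ⟨β, w, _, a, b⟩

theorem Dat.Good.exists_ext (hG : D.Good M t) (hpc : IsPreconnected (D.UY t)) {y0 : D.UY t}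
    {ε : ℝ} {C : Finset F5} {P : Type} [Group P] {μ : Mono (U0 D.S) P} {Dt : TData P}
    (hT : TFacts C ε (D.prU t y0) μ Dt) (hu : (D.prU t y0).1.2 = Rr (D.prU t y0).1.1)
    {H : Subgroup P} (hH : hG.Stab y0 μ H) (Hk : Subgroup P) [Hk.FiniteIndex]
    (hgood : ∀ ω ∈ H, Dt.Good C D.E ω → ω ∈ Hk) :
    ∃ (T : Type) (_ : TopologicalSpace T) (q : T → Zt t), IsCoveringMap q ∧
      Function.Surjective q ∧ (∀ y, (q ⁻¹' {y}).Finite) ∧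
      ∀ (Γ : C(I, T)) (γ δ : C(I, D.UY t)), (∀ s, q (Γ s) = γ s) → Γ 1 = Γ 0 → δ 0 = y0 →
        γ 0 = δ 1 →
        μ.m (hG.prC.comp δ) * μ.m (hG.prC.comp γ) * (μ.m (hG.prC.comp δ))⁻¹ ∈ Hk := by
  have := (hG.pc_UY hpc y0).1
  obtain ⟨G, _, _, ν, hν⟩ := etriv_fin (μ.comap hG.prC) y0 Hk
  obtain ⟨T, _, q, lab, h1, h2, h3⟩ := P300.exists_ext (D.UY t) (isOpen_isU D t) ν
    (fun y Nb h => hG.loc_pc y h)
    (etriv_triv hG hT hu ν fun γ hγ hg => (hν γ hγ).2 fun δ h0 h1 => by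
      obtain ⟨β, a, b, c⟩ := etriv_loop δ γ δ h0 h1 h0 (h1.symm.trans hγ.symm)
      refine hgood _ ?_ (hg.conj (isConj_iff.2 ⟨_, rfl⟩))
      rw [← c (μ.comap hG.prC)]
      exact (hH β a (by rw [b])).2 b)
  refine ⟨T, inferInstance, q, h1, fun y => ?_, fun y => ?_, fun Γ γ δ a b c d => ?_⟩
  · obtain ⟨x, hx, -⟩ := (h2 y).surjOn (Set.mem_univ 1)
    exact ⟨x, hx⟩
  · exact Set.Finite.of_finite_image (Set.toFinite _) (h2 y).injOn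
  · have h4 := h3 Γ γ a
    rw [b] at h4
    exact (hν γ (Subtype.ext (by rw [← a, ← a, b]))).1 (mul_eq_left.1 h4.symm) δ c d

end Vale.Agent.P300
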