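import Vale.Agent.P300.GDefs

/-! P300: Artin's characterisation of braid automorphisms of a free group. -/

namespace Vale.Agent.P300

open FreeGroup

/-- The reduced word of `c` begins with the letter `l`. -/
def GArtinB (c : F5) (l : Fin 5 × Bool) : Prop := c.toWord.head? = some l

theorem GArtin_last {c : F5} {j : Fin 5} {b : Bool} (h : c.toWord.getLast? = some (j, b)) :
    GArtinB c⁻¹ (j, !b) := by
  obtain ⟨L, hL⟩ := List.getLast?_eq_some_iff.1 h
  rw [GArtinB, toWord_inv, hL, invRev_append]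
  simp [invRev]

theorem GArtin_split {c : F5} {l : Fin 5 × Bool} (h : GArtinB c l) :
    ∃ c' : F5, c = mk [l] * c' ∧ c'.norm + 1 ≤ c.norm := by
  obtain ⟨L, hL⟩ := List.head?_eq_some_iff.1 h
  refine ⟨mk L, ?_, ?_⟩
  · rw [mul_mk, List.singleton_append, ← hL, mk_toWord]
  · have h1 := norm_mk_le (L₁ := L)
    have h2 : c.norm = L.length + 1 := by rw [FreeGroup.norm, hL, List.length_cons]
    omega

theorem GArtin_app {L₁ L₂ : List (Fin 5 × Bool)} (h₁ : IsReduced L₁) (h₂ : IsReduced L₂)
    (h : ∀ j b, L₁.getLast? = some (j, b) → L₂.head? ≠ some (j, !b)) : IsReduced (L₁ ++ L₂) := by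
  refine List.isChain_append.2 ⟨h₁, h₂, ?_⟩
  rintro ⟨j, b⟩ hx ⟨j', b'⟩ hy hj
  simp only at hj
  subst hj
  by_contra hb
  refine h j b hx ?_
  rw [Option.mem_def.1 hy]
  cases b <;> cases b' <;> simp_all

theorem GArtin_norm {a c : F5} {j : Fin 5} {b : Bool} (ha : ∀ b, ¬ GArtinB a⁻¹ (j, b))
    (hc : GArtinB c (j, b)) : (a * c).norm = a.norm + c.norm := by
  have h : IsReduced (a.toWord ++ c.toWord) :=
    GArtin_app isReduced_toWord isReduced_toWord fun j' b' h1 h2 => by
      rw [GArtinB, h2] at hc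
      obtain ⟨rfl, -⟩ := Prod.mk.inj (Option.some.inj hc)
      exact ha _ (GArtin_last h1)
  rw [FreeGroup.norm, toWord_mul, h.reduce_eq, List.length_append]
  rfl

theorem GArtin_t (j : Fin 5) : (mk [(j, true)] : F5) = xx j := rfl

theorem GArtin_f (j : Fin 5) : (mk [(j, false)] : F5) = (xx j)⁻¹ := by
  rw [← GArtin_t, inv_mk]
  rfl

/-- One cancellation shortens the conjugator. -/
theorem GArtin_drop {a a' : F5} {j : Fin 5} {b : Bool} (ha : ∀ b, ¬ GArtinB a⁻¹ (j, b))
    (hc : GArtinB (a⁻¹ * a') (j, b)) : (a * (mk [(j, b)])⁻¹ * a⁻¹ * a').norm < a'.norm := by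
  have h1 := GArtin_norm ha hc
  obtain ⟨c', h2, h3⟩ := GArtin_split hc
  have h4 : a * (mk [(j, b)])⁻¹ * a⁻¹ * a' = a * c' := by
    rw [mul_assoc, h2]
    group
  have h5 := norm_mul_le a c'
  rw [mul_inv_cancel_left] at h1
  rw [h4]
  omega

theorem GArtin_red {c : F5} {L : List (Fin 5 × Bool)} {j : Fin 5} (h₂ : IsReduced L)
    (h1 : ¬ GArtinB c⁻¹ (j, true)) (h2 : L.head? ≠ some (j, false)) :
    IsReduced (c.toWord ++ (j, true) :: L) := by
  refine GArtin_app isReduced_toWord
    (GArtin_app (L₁ := [(j, true)]) IsReduced.singleton h₂ fun j' b' h => ?_) fun j' b' h h' => ?_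
  · obtain ⟨rfl, rfl⟩ := Prod.mk.inj (Option.some.inj h)
    exact h2
  · obtain ⟨rfl, hb⟩ := Prod.mk.inj (Option.some.inj h')
    have := GArtin_last h
    rw [← hb] at this
    exact h1 this

theorem GArtin_head {c : F5} {L : List (Fin 5 × Bool)} {j j' : Fin 5}
    (h : ¬ GArtinB c (j, false)) : (c.toWord ++ (j', true) :: L).head? ≠ some (j, false) := by
  rw [GArtinB] at h
  cases hc : c.toWord with
  | nil => simp
  | cons x l =>
    rw [hc] at h
    simpa using h

theorem GArtin_base (A : Fin 5 → F5) (μ : Fin 5 → Fin 5)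
    (hd : (A 0 * xx (μ 0) * (A 0)⁻¹) * (A 1 * xx (μ 1) * (A 1)⁻¹) * (A 2 * xx (μ 2) * (A 2)⁻¹) *
      (A 3 * xx (μ 3) * (A 3)⁻¹) * (A 4 * xx (μ 4) * (A 4)⁻¹) = d5)
    (ha : ∀ i b, ¬ GArtinB (A i)⁻¹ (μ i, b))
    (hb : ∀ k : Fin 4, ¬ GArtinB ((A k.castSucc)⁻¹ * A k.succ) (μ k.castSucc, false))
    (hc : ∀ k : Fin 4, ¬ GArtinB ((A k.succ)⁻¹ * A k.castSucc) (μ k.succ, true)) (i : Fin 5) :
    A i = 1 ∧ μ i = i := by
  have hc' : ∀ k : Fin 4, ¬ GArtinB ((A k.castSucc)⁻¹ * A k.succ)⁻¹ (μ k.succ, true) := fun k => by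
    rw [mul_inv_rev, inv_inv]
    exact hc k
  have r4 : IsReduced (((A 3)⁻¹ * A 4).toWord ++ (μ 4, true) :: ((A 4)⁻¹).toWord) :=
    GArtin_red isReduced_toWord (hc' 3) (ha 4 false)
  have r3 := GArtin_red (c := (A 2)⁻¹ * A 3) (j := μ 3) r4 (hc' 2) (GArtin_head (hb 3))
  have r2 := GArtin_red (c := (A 1)⁻¹ * A 2) (j := μ 2) r3 (hc' 1) (GArtin_head (hb 2))
  have r1 := GArtin_red (c := (A 0)⁻¹ * A 1) (j := μ 1) r2 (hc' 0) (GArtin_head (hb 1))
  have r0 := GArtin_red (c := A 0) (j := μ 0) r1 (ha 0 true) (GArtin_head (hb 0))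
  have hm : ∀ (c : F5) (j : Fin 5) (L : List (Fin 5 × Bool)),
      mk (c.toWord ++ (j, true) :: L) = c * (xx j * mk L) := fun c j L => by
    rw [← mul_mk, mk_toWord, ← GArtin_t, mul_mk, List.singleton_append]
  have e := r0.reduce_eq
  rw [← toWord_mk, hm, hm, hm, hm, hm, mk_toWord] at e
  have e2 : A 0 * (xx (μ 0) * ((A 0)⁻¹ * A 1 * (xx (μ 1) * ((A 1)⁻¹ * A 2 * (xx (μ 2) *
      ((A 2)⁻¹ * A 3 * (xx (μ 3) * ((A 3)⁻¹ * A 4 * (xx (μ 4) * (A 4)⁻¹))))))))) = d5 := by
    rw [← hd]
    simp only [mul_assoc]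
  have e3 : d5.toWord = [(0, true), (1, true), (2, true), (3, true), (4, true)] := by decide
  rw [e2, e3] at e
  have hl := congrArg List.length e
  simp only [List.length_append, List.length_cons, List.length_nil] at hl
  have z0 : (A 0).toWord = [] := List.length_eq_zero_iff.1 (by omega)
  have z1 : ((A 0)⁻¹ * A 1).toWord = [] := List.length_eq_zero_iff.1 (by omega)
  have z2 : ((A 1)⁻¹ * A 2).toWord = [] := List.length_eq_zero_iff.1 (by omega)
  have z3 : ((A 2)⁻¹ * A 3).toWord = [] := List.length_eq_zero_iff.1 (by omega)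
  have z4 : ((A 3)⁻¹ * A 4).toWord = [] := List.length_eq_zero_iff.1 (by omega)
  have z5 : ((A 4)⁻¹).toWord = [] := List.length_eq_zero_iff.1 (by omega)
  rw [z0, z1, z2, z3, z4, z5] at e
  simp only [List.nil_append, List.cons.injEq, Prod.mk.injEq, and_true] at e
  rw [toWord_eq_nil_iff] at z0 z1 z2 z3 z4
  rw [z0, inv_one, one_mul] at z1
  rw [z1, inv_one, one_mul] at z2
  rw [z2, inv_one, one_mul] at z3
  rw [z3, inv_one, one_mul] at z4
  obtain ⟨e0, e1, e2, e3, e4⟩ := e
  fin_cases i
  exacts [⟨z0, e0.symm⟩, ⟨z1, e1.symm⟩, ⟨z2, e2.symm⟩, ⟨z3, e3.symm⟩, ⟨z4, e4.symm⟩]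

theorem GArtin_sig_d5 (k : Fin 4) : sig k d5 = d5 := by
  simp only [d5, _root_.map_mul, sig_xx]
  fin_cases k <;> simp [sigF, mul_assoc]

theorem GArtin_sig_inv_d5 (k : Fin 4) : (sig k)⁻¹ d5 = d5 := by
  conv_lhs => rw [← GArtin_sig_d5 k]
  exact (sig k).symm_apply_apply _

theorem GArtin_mem (k : Fin 4) : sig k ∈ Br := Subgroup.subset_closure ⟨k, rfl⟩

theorem GArtin_ne (k : Fin 4) : k.succ ≠ k.castSucc := (Fin.castSucc_lt_succ (i := k)).ne'

theorem GArtin_sum (f : Fin 5 → ℕ) (k : Fin 4) (u v : ℕ)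
    (h : u + v < f k.castSucc + f k.succ) :
    ∑ i, (if i = k.castSucc then u else if i = k.succ then v else f i) < ∑ i, f i := by
  fin_cases k <;> simp [Fin.sum_univ_five] at h ⊢ <;> omega

theorem GArtin_ind (N : ℕ) : ∀ (β : F5 →* F5) (A : Fin 5 → F5) (μ : Fin 5 → Fin 5),
    (∀ i, β (xx i) = A i * xx (μ i) * (A i)⁻¹) → β d5 = d5 → ∑ i, (A i).norm < N →
    ∃ γ ∈ Br, ∀ g, γ g = β g := by
  induction N with
  | zero => exact fun _ _ _ _ _ h => absurd h (Nat.not_lt_zero _)
  | succ N ih =>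
    intro β A μ h1 h2 hN
    by_cases ha : ∃ i b, GArtinB (A i)⁻¹ (μ i, b)
    · obtain ⟨i, b, hi⟩ := ha
      obtain ⟨c, hc, hn⟩ := GArtin_split hi
      rw [norm_inv_eq] at hn
      refine ih β (Function.update A i c⁻¹) μ (fun j => ?_) h2 ?_
      · by_cases hj : j = i
        · subst hj
          rw [Function.update_self, h1, hc, ← inv_inv (A j), hc]
          cases b
          · rw [GArtin_f]
            group
          · rw [GArtin_t]
            group
        · rw [Function.update_of_ne hj, h1]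
      · have : ∑ j, (Function.update A i c⁻¹ j).norm < ∑ j, (A j).norm := by
          refine Finset.sum_lt_sum (fun j _ => ?_) ⟨i, Finset.mem_univ _, ?_⟩
          · by_cases hj : j = i
            · subst hj
              rw [Function.update_self, norm_inv_eq]
              omega
            · rw [Function.update_of_ne hj]
          · rw [Function.update_self, norm_inv_eq]
            omega
        omega
    simp only [not_exists] at ha
    by_cases hb : ∃ k : Fin 4, GArtinB ((A k.castSucc)⁻¹ * A k.succ) (μ k.castSucc, false)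
    · obtain ⟨k, hk⟩ := hb
      have hd := GArtin_drop (ha _) hk
      rw [GArtin_f, inv_inv, ← h1] at hd
      obtain ⟨γ, hγ, hg⟩ := ih (β.comp (sig k).toMonoidHom)
        (fun i => if i = k.castSucc then β (xx k.castSucc) * A k.succ
          else if i = k.succ then A k.castSucc else A i)
        (fun i => if i = k.castSucc then μ k.succ else if i = k.succ then μ k.castSucc else μ i)
        (fun i => by
          change β (sig k (xx i)) = _
          rw [sig_xx, sigF]
          split_ifs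
          · rw [_root_.map_mul, _root_.map_mul, _root_.map_inv, h1 k.succ]
            group
          · exact h1 _
          · exact h1 _)
        (by
          change β (sig k d5) = _
          rw [GArtin_sig_d5, h2])
        (by
          have := GArtin_sum (fun i => (A i).norm) k (β (xx k.castSucc) * A k.succ).norm
            (A k.castSucc).norm (by omega)
          simp only [apply_ite FreeGroup.norm]
          exact lt_of_lt_of_le this (Nat.lt_succ_iff.1 hN))
      refine ⟨γ * (sig k)⁻¹, Br.mul_mem hγ (Br.inv_mem (GArtin_mem k)), fun g => ?_⟩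
      rw [MulAut.mul_apply, hg]
      exact congrArg β ((sig k).apply_symm_apply g)
    by_cases hc : ∃ k : Fin 4, GArtinB ((A k.succ)⁻¹ * A k.castSucc) (μ k.succ, true)
    · obtain ⟨k, hk⟩ := hc
      have hd := GArtin_drop (ha _) hk
      have e : A k.succ * (mk [(μ k.succ, true)])⁻¹ * (A k.succ)⁻¹ = (β (xx k.succ))⁻¹ := by
        rw [GArtin_t, h1]
        group
      rw [e] at hd
      obtain ⟨γ, hγ, hg⟩ := ih (β.comp ((sig k)⁻¹ : MulAut F5).toMonoidHom)
        (fun i => if i = k.castSucc then A k.succ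
          else if i = k.succ then (β (xx k.succ))⁻¹ * A k.castSucc else A i)
        (fun i => if i = k.castSucc then μ k.succ else if i = k.succ then μ k.castSucc else μ i)
        (fun i => by
          change β ((sig k)⁻¹ (xx i)) = _
          rw [sig_inv_xx, sigI]
          split_ifs
          · exact h1 _
          · rw [_root_.map_mul, _root_.map_mul, _root_.map_inv, h1 k.castSucc]
            group
          · exact h1 _)
        (by
          change β ((sig k)⁻¹ d5) = _
          rw [GArtin_sig_inv_d5, h2])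
        (by
          have := GArtin_sum (fun i => (A i).norm) k (A k.succ).norm
            ((β (xx k.succ))⁻¹ * A k.castSucc).norm (by omega)
          simp only [apply_ite FreeGroup.norm]
          exact lt_of_lt_of_le this (Nat.lt_succ_iff.1 hN))
      refine ⟨γ * sig k, Br.mul_mem hγ (GArtin_mem k), fun g => ?_⟩
      rw [MulAut.mul_apply, hg]
      exact congrArg β ((sig k).symm_apply_apply g)
    simp only [not_exists] at hb hc
    have h3 := GArtin_base A μ (by
      rw [← h1, ← h1, ← h1, ← h1, ← h1, ← _root_.map_mul, ← _root_.map_mul, ← _root_.map_mul,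
        ← _root_.map_mul]
      exact h2) ha hb hc
    have h4 : β = MonoidHom.id F5 := FreeGroup.ext_hom _ _ fun i => by
      have := h1 i
      rw [(h3 i).1, (h3 i).2, one_mul, inv_one, mul_one] at this
      exact this
    exact ⟨1, Br.one_mem, fun g => by rw [h4]; rfl⟩

theorem artin (β : F5 →* F5) (h1 : ∀ i, ∃ j, IsConj (xx j) (β (xx i))) (h2 : β d5 = d5) :
    ∃ γ ∈ Br, ∀ g, γ g = β g := by
  choose μ hμ using h1
  choose A hA using fun i => isConj_iff.1 (hμ i)
  exact GArtin_ind _ β A μ (fun i => (hA i).symm) h2 (Nat.lt_succ_self _)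

end Vale.Agent.P300
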