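import Mathlib

/-! P300: group-theoretic definitions (free group on five generators, braid action,
augmentation filtration of mod 2 group algebras). -/

noncomputable section

namespace Vale.Agent.P300

/-- free group on five generators (fundamental group of the plane minus five points) -/
abbrev F5 : Type := FreeGroup (Fin 5)

/-- the generators -/
def xx (i : Fin 5) : F5 := FreeGroup.of i

/-- loop around the first three points -/
def d3 : F5 := xx 0 * xx 1 * xx 2

/-- loop around all five points -/
def d5 : F5 := xx 0 * xx 1 * xx 2 * xx 3 * xx 4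

/-- pure Artin condition -/
def IsArtin (β : MulAut F5) : Prop := (∀ i, IsConj (xx i) (β (xx i))) ∧ β d5 = d5

/-- conjugates of images of elements of `C` under pure Artin automorphisms -/
def Orb (C : Finset F5) : Set F5 := {g | ∃ β : MulAut F5, IsArtin β ∧ ∃ c ∈ C, IsConj (β c) g}

/-- the normal closure of the `E`-th powers of the elements of `Orb C` -/
def PowE (C : Finset F5) (E : ℕ) : Subgroup F5 :=
  Subgroup.normalClosure {h | ∃ g ∈ Orb C, h = g ^ E}

/-- the normal closure of the squares of the light loops -/
def SqN : Subgroup F5 :=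
  Subgroup.normalClosure ({d3 ^ 2, d5 ^ 2} ∪ Set.range fun i => xx i ^ 2)

/-- image of the generators under the Artin generator number `k` -/
def sigF (k : Fin 4) (i : Fin 5) : F5 :=
  if i = k.castSucc then xx k.castSucc * xx k.succ * (xx k.castSucc)⁻¹
  else if i = k.succ then xx k.castSucc else xx i

/-- image of the generators under the inverse of the Artin generator number `k` -/
def sigI (k : Fin 4) (i : Fin 5) : F5 :=
  if i = k.castSucc then xx k.succ
  else if i = k.succ then (xx k.succ)⁻¹ * xx k.castSucc * xx k.succ else xx i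

theorem lift_xx {G : Type*} [Group G] (f : Fin 5 → G) (i : Fin 5) :
    FreeGroup.lift f (xx i) = f i := FreeGroup.lift_apply_of

/-- Artin generators of the braid group acting on `F5` -/
def sig (k : Fin 4) : MulAut F5 :=
  MonoidHom.toMulEquiv (FreeGroup.lift (sigF k)) (FreeGroup.lift (sigI k))
    (by
      ext i
      fin_cases k <;> fin_cases i <;>
        simp [sigF, sigI, ← xx.eq_1, lift_xx, mul_assoc])
    (by
      ext i
      fin_cases k <;> fin_cases i <;>
        simp [sigF, sigI, ← xx.eq_1, lift_xx, mul_assoc])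

theorem sig_xx (k : Fin 4) (i : Fin 5) : sig k (xx i) = sigF k i := lift_xx _ _

theorem sig_inv_xx (k : Fin 4) (i : Fin 5) : (sig k)⁻¹ (xx i) = sigI k i := lift_xx _ _

/-- the braid group on five strands, as a group of automorphisms of `F5` -/
def Br : Subgroup (MulAut F5) := Subgroup.closure (Set.range sig)

/-- mod 2 group algebra -/
abbrev GA (G : Type) [Group G] : Type := MonoidAlgebra (ZMod 2) G

/-- the augmentation ideal, as a subspace -/
def aug (G : Type) [Group G] : Submodule (ZMod 2) (GA G) :=
  Submodule.span (ZMod 2) (Set.range fun g : G => MonoidAlgebra.of (ZMod 2) G g - 1)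

/-- powers of the augmentation ideal (`fil G 0 = ⊤`) -/
def fil (G : Type) [Group G] (n : ℕ) : Submodule (ZMod 2) (GA G) := aug G ^ n * ⊤

/-- the two-sided ideal generated by a set, as a subspace -/
def idl {G : Type} [Group G] (s : Set (GA G)) : Submodule (ZMod 2) (GA G) :=
  Submodule.span (ZMod 2) {z | ∃ a b : GA G, ∃ f ∈ s, z = a * f * b}

/-- free group on four generators -/
abbrev F4 : Type := FreeGroup (Fin 4)

/-- parity of word length -/
def par : F5 →* Multiplicative (ZMod 2) := FreeGroup.lift fun _ => Multiplicative.ofAdd 1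

/-- inversion of the generators of `F4` -/
def iota4 : F4 →* F4 := FreeGroup.lift fun i => (FreeGroup.of i)⁻¹

/-- group elements congruent to one modulo the ideal generated by `s` and the `n`-th power of the
augmentation ideal -/
def DSet {G : Type} [Group G] (s : Set (GA G)) (n : ℕ) : Set G :=
  {g | MonoidAlgebra.of (ZMod 2) G g - 1 ∈ idl s ⊔ fil G n}

/-- group-theoretic structure of the fundamental group of the family of punctured planes -/
structure TData (P : Type) [Group P] where
  ι : F5 →* P
  Sec : Subgroup P
  inj : Function.Injective ι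
  dec : ∀ γ, ∃ f, ∃ σ ∈ Sec, γ = ι f * σ
  uniq : ∀ f, ι f ∈ Sec → f = 1
  art : ∀ σ ∈ Sec, ∃ α : MulAut F5, IsArtin α ∧ ∀ g, σ * ι g * σ⁻¹ = ι (α g)

/-- shape of the class of a small loop on an arc through the boundary -/
def TData.Good {P : Type} [Group P] (D : TData P) (C : Finset F5) (E : ℕ) (ω : P) : Prop :=
  ∃ ϖ : P, ∃ g ∈ Orb C, ∃ k : ℤ, ∃ e ∈ PowE C E, ∃ σ ∈ D.Sec,
    (∀ i, ∃ y, IsConj (xx i) y ∧ ∃ e' ∈ PowE C E, σ ^ E * D.ι y * (σ ^ E)⁻¹ = D.ι (e' * y)) ∧
    ω = ϖ * D.ι (g ^ k * e) * σ ^ E * ϖ⁻¹

end Vale.Agent.P300
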