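import Vale.Agent.P300.GDefs

/-! P300: basic facts on the augmentation filtration. -/

noncomputable section

namespace Vale.Agent.P300

variable {G : Type} [Group G]

theorem GFil_gen (g : G) : MonoidAlgebra.of (ZMod 2) G g - 1 ∈ aug G :=
  Submodule.subset_span ⟨g, rfl⟩

theorem GFil_of_mul_inv (g : G) :
    MonoidAlgebra.of (ZMod 2) G g * MonoidAlgebra.of (ZMod 2) G g⁻¹ = 1 := by
  rw [← map_mul, mul_inv_cancel, map_one]

theorem GFil_of_inv_mul (g : G) :
    MonoidAlgebra.of (ZMod 2) G g⁻¹ * MonoidAlgebra.of (ZMod 2) G g = 1 := by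
  rw [← map_mul, inv_mul_cancel, map_one]

theorem GFil_aug_left (a : GA G) {z : GA G} (hz : z ∈ aug G) : a * z ∈ aug G := by
  induction hz using Submodule.span_induction with
  | mem x hx =>
    obtain ⟨g, rfl⟩ := hx
    induction a using MonoidAlgebra.induction_on with
    | of h =>
      have : MonoidAlgebra.of (ZMod 2) G h * (MonoidAlgebra.of (ZMod 2) G g - 1) =
          (MonoidAlgebra.of (ZMod 2) G (h * g) - 1) - (MonoidAlgebra.of (ZMod 2) G h - 1) := by
        rw [map_mul]; noncomm_ring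
      rw [this]
      exact sub_mem (GFil_gen _) (GFil_gen _)
    | add x y hx hy => rw [add_mul]; exact add_mem hx hy
    | smul r x hx => rw [smul_mul_assoc]; exact Submodule.smul_mem _ _ hx
  | zero => rw [mul_zero]; exact zero_mem _
  | add x y _ _ hx hy => rw [mul_add]; exact add_mem hx hy
  | smul r x _ hx => rw [mul_smul_comm]; exact Submodule.smul_mem _ _ hx

theorem GFil_aug_right (a : GA G) {z : GA G} (hz : z ∈ aug G) : z * a ∈ aug G := by
  induction hz using Submodule.span_induction with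
  | mem x hx =>
    obtain ⟨g, rfl⟩ := hx
    induction a using MonoidAlgebra.induction_on with
    | of h =>
      have : (MonoidAlgebra.of (ZMod 2) G g - 1) * MonoidAlgebra.of (ZMod 2) G h =
          (MonoidAlgebra.of (ZMod 2) G (g * h) - 1) - (MonoidAlgebra.of (ZMod 2) G h - 1) := by
        rw [map_mul]; noncomm_ring
      rw [this]
      exact sub_mem (GFil_gen _) (GFil_gen _)
    | add x y hx hy => rw [mul_add]; exact add_mem hx hy
    | smul r x hx => rw [mul_smul_comm]; exact Submodule.smul_mem _ _ hx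
  | zero => rw [zero_mul]; exact zero_mem _
  | add x y _ _ hx hy => rw [add_mul]; exact add_mem hx hy
  | smul r x _ hx => rw [smul_mul_assoc]; exact Submodule.smul_mem _ _ hx

theorem GFil_top_mul_top : (⊤ : Submodule (ZMod 2) (GA G)) * ⊤ = ⊤ :=
  eq_top_iff.2 fun z _ => by
    rw [← mul_one z]
    exact Submodule.mul_mem_mul trivial trivial

theorem GFil_top_mul_aug : ⊤ * aug G = aug G :=
  le_antisymm (Submodule.mul_le.2 fun a _ _ hz => GFil_aug_left a hz) fun z hz => by
    rw [← one_mul z]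
    exact Submodule.mul_mem_mul trivial hz

theorem GFil_aug_mul_top : aug G * ⊤ = aug G :=
  le_antisymm (Submodule.mul_le.2 fun _ hz a _ => GFil_aug_right a hz) fun z hz => by
    rw [← mul_one z]
    exact Submodule.mul_mem_mul hz trivial

theorem fil_zero : fil G 0 = ⊤ := by
  rw [fil, pow_zero, one_mul]

theorem GFil_top_mul (n : ℕ) : ⊤ * fil G n = fil G n := by
  cases n with
  | zero => rw [fil_zero, GFil_top_mul_top]
  | succ n => rw [fil, pow_succ', mul_assoc, ← mul_assoc ⊤, GFil_top_mul_aug]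

theorem GFil_mul_top (n : ℕ) : fil G n * ⊤ = fil G n := by
  rw [fil, mul_assoc, GFil_top_mul_top]

theorem GFil_mul (m n : ℕ) : fil G m * fil G n = fil G (m + n) := by
  conv_lhs => rw [fil, mul_assoc, GFil_top_mul]
  rw [fil, fil, pow_add, mul_assoc]

theorem GFil_one : fil G 1 = aug G := by
  rw [fil, pow_one, GFil_aug_mul_top]

theorem GFil_succ (n : ℕ) : fil G (n + 1) = fil G n * aug G := by
  rw [← GFil_mul, GFil_one]

theorem fil_anti : Antitone (fil G) := by
  refine antitone_nat_of_succ_le fun n => ?_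
  rw [GFil_succ]
  exact (mul_le_mul' le_rfl le_top).trans (GFil_mul_top n).le

theorem fil_mul {m n : ℕ} {a b : GA G} (ha : a ∈ fil G m) (hb : b ∈ fil G n) :
    a * b ∈ fil G (m + n) := by
  rw [← GFil_mul]
  exact Submodule.mul_mem_mul ha hb

theorem GFil_left {n : ℕ} (a : GA G) {b : GA G} (hb : b ∈ fil G n) : a * b ∈ fil G n := by
  rw [← GFil_top_mul]
  exact Submodule.mul_mem_mul trivial hb

theorem GFil_right {n : ℕ} (a : GA G) {b : GA G} (hb : b ∈ fil G n) : b * a ∈ fil G n := by
  rw [← GFil_mul_top]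
  exact Submodule.mul_mem_mul hb trivial

theorem of_sub_one_mem (g : G) : MonoidAlgebra.of (ZMod 2) G g - 1 ∈ fil G 1 := by
  rw [GFil_one]
  exact GFil_gen g

theorem GFil_two (a b : G) :
    (MonoidAlgebra.of (ZMod 2) G a - 1) * (MonoidAlgebra.of (ZMod 2) G b - 1) ∈ fil G 2 := by
  have h := fil_mul (of_sub_one_mem a) (of_sub_one_mem b)
  rwa [one_add_one_eq_two] at h

/-- every element of `fil (n+1)` is a sum of products `a * (g - 1)` with `a ∈ fil n` -/
theorem fil_succ (n : ℕ) : fil G (n + 1) = Submodule.span (ZMod 2)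
    {z | ∃ a ∈ fil G n, ∃ g : G, z = a * (MonoidAlgebra.of (ZMod 2) G g - 1)} := by
  refine le_antisymm ?_ (Submodule.span_le.2 ?_)
  · rw [GFil_succ]
    refine Submodule.mul_le.2 fun a ha z hz => ?_
    induction hz using Submodule.span_induction with
    | mem x hx =>
      obtain ⟨g, rfl⟩ := hx
      exact Submodule.subset_span ⟨a, ha, g, rfl⟩
    | zero => rw [mul_zero]; exact zero_mem _
    | add x y _ _ hx hy => rw [mul_add]; exact add_mem hx hy
    | smul r x _ hx => rw [mul_smul_comm]; exact Submodule.smul_mem _ _ hx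
  · rintro _ ⟨a, ha, g, rfl⟩
    exact fil_mul ha (of_sub_one_mem g)

theorem idl_mul_left {s : Set (GA G)} (a : GA G) {z : GA G} (hz : z ∈ idl s) : a * z ∈ idl s := by
  induction hz using Submodule.span_induction with
  | mem x hx =>
    obtain ⟨b, c, f, hf, rfl⟩ := hx
    exact Submodule.subset_span ⟨a * b, c, f, hf, by simp only [mul_assoc]⟩
  | zero => rw [mul_zero]; exact zero_mem _
  | add x y _ _ hx hy => rw [mul_add]; exact add_mem hx hy
  | smul r x _ hx => rw [mul_smul_comm]; exact Submodule.smul_mem _ _ hx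

theorem idl_mul_right {s : Set (GA G)} (a : GA G) {z : GA G} (hz : z ∈ idl s) : z * a ∈ idl s := by
  induction hz using Submodule.span_induction with
  | mem x hx =>
    obtain ⟨b, c, f, hf, rfl⟩ := hx
    exact Submodule.subset_span ⟨b, c * a, f, hf, by simp only [mul_assoc]⟩
  | zero => rw [zero_mul]; exact zero_mem _
  | add x y _ _ hx hy => rw [add_mul]; exact add_mem hx hy
  | smul r x _ hx => rw [smul_mul_assoc]; exact Submodule.smul_mem _ _ hx

theorem mem_idl {s : Set (GA G)} {z : GA G} (hz : z ∈ s) : z ∈ idl s :=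
  Submodule.subset_span ⟨1, 1, z, hz, by rw [one_mul, mul_one]⟩

theorem GFil_idl_empty : idl (∅ : Set (GA G)) = ⊥ := by
  rw [idl, Submodule.span_eq_bot]
  rintro _ ⟨_, _, _, hf, _⟩
  exact hf.elim

theorem GFil_sup_left {s : Set (GA G)} {n : ℕ} (a : GA G) {z : GA G} (hz : z ∈ idl s ⊔ fil G n) :
    a * z ∈ idl s ⊔ fil G n := by
  obtain ⟨x, hx, y, hy, rfl⟩ := Submodule.mem_sup.1 hz
  rw [mul_add]
  exact Submodule.add_mem_sup (idl_mul_left a hx) (GFil_left a hy)

theorem GFil_sup_right {s : Set (GA G)} {n : ℕ} (a : GA G) {z : GA G} (hz : z ∈ idl s ⊔ fil G n) :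
    z * a ∈ idl s ⊔ fil G n := by
  obtain ⟨x, hx, y, hy, rfl⟩ := Submodule.mem_sup.1 hz
  rw [add_mul]
  exact Submodule.add_mem_sup (idl_mul_right a hx) (GFil_right a hy)

theorem GFil_D_mul {s : Set (GA G)} {n : ℕ} {g h : G} (hg : g ∈ DSet s n) (hh : h ∈ DSet s n) :
    g * h ∈ DSet s n := by
  have h1 : MonoidAlgebra.of (ZMod 2) G (g * h) - 1 =
      MonoidAlgebra.of (ZMod 2) G g * (MonoidAlgebra.of (ZMod 2) G h - 1) +
        (MonoidAlgebra.of (ZMod 2) G g - 1) := by
    rw [map_mul]; noncomm_ring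
  change _ ∈ idl s ⊔ fil G n
  rw [h1]
  exact add_mem (GFil_sup_left _ hh) hg

theorem GFil_D_one {s : Set (GA G)} {n : ℕ} : (1 : G) ∈ DSet s n := by
  change _ ∈ idl s ⊔ fil G n
  rw [map_one, sub_self]
  exact zero_mem _

theorem GFil_D_inv {s : Set (GA G)} {n : ℕ} {g : G} (hg : g ∈ DSet s n) : g⁻¹ ∈ DSet s n := by
  have h1 : MonoidAlgebra.of (ZMod 2) G g⁻¹ - 1 =
      -(MonoidAlgebra.of (ZMod 2) G g⁻¹ * (MonoidAlgebra.of (ZMod 2) G g - 1)) := by
    rw [mul_sub, GFil_of_inv_mul, mul_one, neg_sub]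
  change _ ∈ idl s ⊔ fil G n
  rw [h1]
  exact neg_mem (GFil_sup_left _ hg)

/-- the congruence subgroups -/
def DSub (s : Set (GA G)) (n : ℕ) : Subgroup G where
  carrier := DSet s n
  mul_mem' := GFil_D_mul
  one_mem' := GFil_D_one
  inv_mem' := GFil_D_inv

theorem mem_DSub {s : Set (GA G)} {n : ℕ} {g : G} :
    g ∈ DSub s n ↔ MonoidAlgebra.of (ZMod 2) G g - 1 ∈ idl s ⊔ fil G n := Iff.rfl

theorem GFil_mem_empty {n : ℕ} {g : G} :
    g ∈ DSub (∅ : Set (GA G)) n ↔ MonoidAlgebra.of (ZMod 2) G g - 1 ∈ fil G n := by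
  rw [mem_DSub, GFil_idl_empty, bot_sup_eq]

theorem DSub_normal (s : Set (GA G)) (n : ℕ) : (DSub s n).Normal := by
  refine ⟨fun g hg h => ?_⟩
  have h1 : MonoidAlgebra.of (ZMod 2) G (h * g * h⁻¹) - 1 =
      MonoidAlgebra.of (ZMod 2) G h * (MonoidAlgebra.of (ZMod 2) G g - 1) *
        MonoidAlgebra.of (ZMod 2) G h⁻¹ := by
    rw [map_mul, map_mul, mul_sub, sub_mul, mul_one, GFil_of_mul_inv]
  rw [mem_DSub, h1]
  exact GFil_sup_right _ (GFil_sup_left _ hg)

theorem GFil_add_self (z : GA G) : z + z = 0 := by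
  have h : (1 + 1 : ZMod 2) = 0 := rfl
  rw [← one_smul (ZMod 2) z, ← add_smul, h, zero_smul]

theorem pow_sub_one_mem (g : G) (a : ℕ) :
    MonoidAlgebra.of (ZMod 2) G (g ^ 2 ^ a) - 1 ∈ fil G (2 ^ a) := by
  induction a with
  | zero => simpa only [pow_zero, pow_one] using of_sub_one_mem g
  | succ a ih =>
    have h1 : ∀ x : GA G, x * x - 1 = (x - 1) * (x - 1) + ((x - 1) + (x - 1)) := by
      intro x; noncomm_ring
    rw [pow_succ, mul_two, pow_add, map_mul, h1, GFil_add_self, add_zero]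
    exact fil_mul ih ih

theorem pow_mem_DSub (s : Set (GA G)) (n : ℕ) (g : G) : g ^ 2 ^ n ∈ DSub s n :=
  Submodule.mem_sup_right (fil_anti (Nat.lt_two_pow_self.le) (pow_sub_one_mem g n))

theorem commutator_sub_one_mem {g : G} (hg : g ∈ commutator G) :
    MonoidAlgebra.of (ZMod 2) G g - 1 ∈ fil G 2 := by
  have h : commutator G ≤ DSub (∅ : Set (GA G)) 2 := by
    rw [commutator_def, Subgroup.commutator_le]
    intro a _ b _
    have h1 : ∀ x y x' y' : GA G, x * x' = 1 → y * y' = 1 → x * y * x' * y' - 1 =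
        ((x - 1) * (y - 1) - (y - 1) * (x - 1)) * (x' * y') := by
      intro x y x' y' hx hy
      have h2 : y * x * (x' * y') = 1 := by rw [mul_assoc, ← mul_assoc x, hx, one_mul, hy]
      rw [← h2]
      have h3 : (x - 1) * (y - 1) - (y - 1) * (x - 1) = x * y - y * x := by noncomm_ring
      rw [h2, h3, sub_mul, h2, mul_assoc (x * y)]
    rw [GFil_mem_empty, commutatorElement_def, map_mul, map_mul, map_mul,
      h1 _ _ _ _ (GFil_of_mul_inv a) (GFil_of_mul_inv b)]
    exact GFil_right _ (sub_mem (GFil_two a b)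
      (GFil_two b a))
  exact GFil_mem_empty.1 (h hg)

theorem GFil_fg_one [Group.FG G] : ∃ N : Submodule (ZMod 2) (GA G), N.FG ∧ N ≤ aug G ∧
    aug G ≤ N ⊔ fil G 2 := by
  obtain ⟨S, hS, hfin⟩ := Group.fg_iff.1 (inferInstance : Group.FG G)
  refine ⟨Submodule.span (ZMod 2) ((fun g => MonoidAlgebra.of (ZMod 2) G g - 1) '' S),
    Submodule.fg_span (hfin.image _), Submodule.span_mono (Set.image_subset_range _ _),
    Submodule.span_le.2 ?_⟩
  rintro _ ⟨g, rfl⟩
  have hg : g ∈ Subgroup.closure S := hS ▸ Subgroup.mem_top g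
  change _ ∈ Submodule.span (ZMod 2) _ ⊔ fil G 2
  induction hg using Subgroup.closure_induction with
  | mem x hx => exact Submodule.mem_sup_left (Submodule.subset_span ⟨x, hx, rfl⟩)
  | one =>
    simp only [map_one, sub_self]
    exact zero_mem _
  | mul x y _ _ hx hy =>
    have h1 : ∀ a b : GA G, a * b - 1 = (a - 1) + (b - 1) + (a - 1) * (b - 1) := by
      intro a b; noncomm_ring
    simp only [map_mul]
    rw [h1]
    exact add_mem (add_mem hx hy)
      (Submodule.mem_sup_right (GFil_two x y))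
  | inv x _ hx =>
    have h1 : ∀ a b : GA G, b * a = 1 → b - 1 = -(a - 1) - (b - 1) * (a - 1) := by
      intro a b hab
      have h2 : (b - 1) * (a - 1) = b * a - b - a + 1 := by noncomm_ring
      rw [h2, hab]
      abel
    simp only
    rw [h1 _ _ (GFil_of_inv_mul x)]
    exact sub_mem (neg_mem hx)
      (Submodule.mem_sup_right (GFil_two x⁻¹ x))

theorem GFil_fg_step [Group.FG G] (n : ℕ) : ∃ N : Submodule (ZMod 2) (GA G), N.FG ∧
    N ≤ fil G n ∧ fil G n ≤ N ⊔ fil G (n + 1) := by
  induction n with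
  | zero =>
    refine ⟨Submodule.span (ZMod 2) {1}, Submodule.fg_span_singleton _, by simp [fil_zero],
      fun z hz => ?_⟩
    clear hz
    induction z using MonoidAlgebra.induction_on with
    | of g =>
      rw [← add_sub_cancel 1 (MonoidAlgebra.of (ZMod 2) G g)]
      exact Submodule.add_mem_sup (Submodule.mem_span_singleton_self _) (of_sub_one_mem g)
    | add x y hx hy => exact add_mem hx hy
    | smul r x hx => exact Submodule.smul_mem _ _ hx
  | succ n ih =>
    obtain ⟨N, h1, h2, h3⟩ := ih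
    obtain ⟨M, k1, k2, k3⟩ := GFil_fg_one (G := G)
    refine ⟨N * M, h1.mul k1, ?_, ?_⟩
    · rw [GFil_succ]
      exact mul_le_mul' h2 k2
    · calc fil G (n + 1) = fil G n * aug G := GFil_succ n
        _ ≤ (N ⊔ fil G (n + 1)) * aug G := mul_le_mul' h3 le_rfl
        _ = N * aug G ⊔ fil G (n + 1 + 1) := by rw [Submodule.sup_mul, ← GFil_succ]
        _ ≤ N * M ⊔ fil G (n + 1 + 1) := by
          refine sup_le ((mul_le_mul' le_rfl k3).trans ?_) le_sup_right
          rw [Submodule.mul_sup]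
          exact sup_le_sup_left ((mul_le_mul' h2 le_rfl).trans (GFil_mul n 2).le) _

theorem GFil_fg [Group.FG G] (n : ℕ) : ∃ N : Submodule (ZMod 2) (GA G), N.FG ∧
    fil G n ⊔ N = ⊤ := by
  induction n with
  | zero => exact ⟨⊥, Submodule.fg_bot, by rw [fil_zero, top_sup_eq]⟩
  | succ n ih =>
    obtain ⟨N, h1, h2⟩ := ih
    obtain ⟨M, k1, -, k3⟩ := GFil_fg_step (G := G) n
    refine ⟨M ⊔ N, k1.sup h1, eq_top_iff.2 ?_⟩
    rw [← h2, ← sup_assoc]
    exact sup_le_sup_right (k3.trans (sup_comm _ _).le) _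

theorem GFil_finite_quot [Group.FG G] {I : Submodule (ZMod 2) (GA G)} {n : ℕ}
    (h : fil G n ≤ I) : Module.Finite (ZMod 2) (GA G ⧸ I) := by
  obtain ⟨N, h1, h2⟩ := GFil_fg (G := G) n
  have h3 : N.map I.mkQ = ⊤ := by
    rw [Submodule.map_mkQ_eq_top, eq_top_iff, ← h2]
    exact sup_le_sup_right h _
  exact Module.finite_def.2 (h3 ▸ h1.map _)

theorem finite_quot_fil [Group.FG G] (n : ℕ) : Module.Finite (ZMod 2) (GA G ⧸ fil G n) :=
  GFil_finite_quot le_rfl

theorem GFil_sub_mem_iff {s : Set (GA G)} {n : ℕ} (a b : G) :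
    MonoidAlgebra.of (ZMod 2) G a - MonoidAlgebra.of (ZMod 2) G b ∈ idl s ⊔ fil G n ↔
      a⁻¹ * b ∈ DSub s n := by
  rw [mem_DSub]
  constructor
  · intro h
    have h1 : MonoidAlgebra.of (ZMod 2) G (a⁻¹ * b) - 1 = -(MonoidAlgebra.of (ZMod 2) G a⁻¹ *
        (MonoidAlgebra.of (ZMod 2) G a - MonoidAlgebra.of (ZMod 2) G b)) := by
      rw [mul_sub, GFil_of_inv_mul, map_mul, neg_sub]
    rw [h1]
    exact neg_mem (GFil_sup_left _ h)
  · intro h
    have h1 : MonoidAlgebra.of (ZMod 2) G a - MonoidAlgebra.of (ZMod 2) G b =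
        -(MonoidAlgebra.of (ZMod 2) G a * (MonoidAlgebra.of (ZMod 2) G (a⁻¹ * b) - 1)) := by
      rw [mul_sub, ← map_mul, mul_inv_cancel_left, mul_one, neg_sub]
    rw [h1]
    exact neg_mem (GFil_sup_left _ h)

theorem DSub_finiteIndex [Group.FG G] (s : Set (GA G)) (n : ℕ) : (DSub s n).FiniteIndex := by
  have h1 : Module.Finite (ZMod 2) (GA G ⧸ (idl s ⊔ fil G n)) := GFil_finite_quot le_sup_right
  have h2 : Finite (GA G ⧸ (idl s ⊔ fil G n)) := Module.finite_of_finite (ZMod 2)
  have h3 : Finite (G ⧸ DSub s n) := by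
    refine Finite.of_injective (fun q : G ⧸ DSub s n =>
      (idl s ⊔ fil G n).mkQ (MonoidAlgebra.of (ZMod 2) G q.out)) fun p q hpq => ?_
    have h4 := (GFil_sub_mem_iff _ _).1 ((Submodule.Quotient.eq _).1 hpq)
    rw [← QuotientGroup.eq] at h4
    simpa only [QuotientGroup.out_eq'] using h4
  exact Subgroup.finiteIndex_of_finite_quotient

theorem finrank_le_index [Group.FG G] (s : Set (GA G)) (n : ℕ) :
    Module.finrank (ZMod 2) (GA G ⧸ (idl s ⊔ fil G n)) ≤ (DSub s n).index := by
  have h1 := DSub_finiteIndex s n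
  have h2 : Fintype (G ⧸ DSub s n) := Fintype.ofFinite _
  have h3 : Submodule.span (ZMod 2) (Set.range fun q : G ⧸ DSub s n =>
      (idl s ⊔ fil G n).mkQ (MonoidAlgebra.of (ZMod 2) G q.out)) = ⊤ := by
    refine eq_top_iff.2 fun z hz => ?_
    clear hz
    obtain ⟨a, rfl⟩ := (idl s ⊔ fil G n).mkQ_surjective z
    induction a using MonoidAlgebra.induction_on with
    | of g =>
      refine Submodule.subset_span ⟨(g : G ⧸ DSub s n), (Submodule.Quotient.eq _).2 ?_⟩
      rw [GFil_sub_mem_iff, ← QuotientGroup.eq, QuotientGroup.out_eq']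
    | add x y hx hy => rw [map_add]; exact add_mem hx hy
    | smul r x hx => rw [map_smul]; exact Submodule.smul_mem _ _ hx
  have h4 := finrank_range_le_card (R := ZMod 2) fun q : G ⧸ DSub s n =>
    (idl s ⊔ fil G n).mkQ (MonoidAlgebra.of (ZMod 2) G q.out)
  rw [Set.finrank, h3, finrank_top] at h4
  rw [Subgroup.index, Nat.card_eq_fintype_card]
  exact h4

/-- the linear automorphism of the group algebra induced by a group automorphism -/
def lin (α : MulAut G) : GA G ≃ₗ[ZMod 2] GA G :=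
  (MonoidAlgebra.domCongr (ZMod 2) (ZMod 2) α).toLinearEquiv

theorem lin_of (α : MulAut G) (g : G) :
    lin α (MonoidAlgebra.of (ZMod 2) G g) = MonoidAlgebra.of (ZMod 2) G (α g) := by
  simp [lin]

theorem lin_one (α : MulAut G) : lin α (1 : GA G) = 1 :=
  map_one (MonoidAlgebra.domCongr (ZMod 2) (ZMod 2) α)

theorem lin_mul (α : MulAut G) (a b : GA G) : lin α (a * b) = lin α a * lin α b :=
  map_mul (MonoidAlgebra.domCongr (ZMod 2) (ZMod 2) α) a b

theorem lin_comp (α β : MulAut G) (a : GA G) : lin (α * β) a = lin α (lin β a) := by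
  induction a using MonoidAlgebra.induction_on with
  | of g => rw [lin_of, lin_of, lin_of, MulAut.mul_apply]
  | add x y hx hy => simp only [map_add, hx, hy]
  | smul r x hx => simp only [map_smul, hx]

theorem GFil_lin_id (a : GA G) : lin (1 : MulAut G) a = a := by
  induction a using MonoidAlgebra.induction_on with
  | of g => rw [lin_of, MulAut.one_apply]
  | add x y hx hy => simp only [map_add, hx, hy]
  | smul r x hx => simp only [map_smul, hx]

theorem lin_symm (α : MulAut G) : (lin α).symm = lin α⁻¹ := by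
  refine LinearEquiv.ext fun a => ?_
  rw [LinearEquiv.symm_apply_eq, ← lin_comp, mul_inv_cancel, GFil_lin_id]

theorem lin_mem_fil (α : MulAut G) {n : ℕ} {a : GA G} (ha : a ∈ fil G n) : lin α a ∈ fil G n := by
  induction n generalizing a with
  | zero => rw [fil_zero]; trivial
  | succ n ih =>
    rw [fil_succ] at ha
    induction ha using Submodule.span_induction with
    | mem x hx =>
      obtain ⟨b, hb, g, rfl⟩ := hx
      rw [lin_mul, map_sub, lin_of, lin_one]
      exact fil_mul (ih hb) (of_sub_one_mem _)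
    | zero => rw [map_zero]; exact zero_mem _
    | add x y _ _ hx hy => rw [map_add]; exact add_mem hx hy
    | smul r x _ hx => rw [map_smul]; exact Submodule.smul_mem _ _ hx

/-- an automorphism trivial modulo the `(r+1)`-st congruence subgroup raises the filtration by `r` -/
theorem lin_raise (α : MulAut G) (r : ℕ) (h : ∀ g, α g * g⁻¹ ∈ DSub (∅ : Set (GA G)) (r + 1))
    {n : ℕ} {a : GA G} (ha : a ∈ fil G n) : lin α a - a ∈ fil G (n + r) := by
  have h0 : ∀ g, MonoidAlgebra.of (ZMod 2) G (α g) - MonoidAlgebra.of (ZMod 2) G g ∈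
      fil G (r + 1) := by
    intro g
    have h1 := GFil_right (MonoidAlgebra.of (ZMod 2) G g) (GFil_mem_empty.1 (h g))
    rwa [sub_mul, ← map_mul, inv_mul_cancel_right, one_mul] at h1
  have hadd : ∀ x y : GA G, lin α (x + y) - (x + y) = (lin α x - x) + (lin α y - y) := by
    intro x y; rw [map_add]; abel
  have hsmul : ∀ (c : ZMod 2) (x : GA G), lin α (c • x) - c • x = c • (lin α x - x) := by
    intro c x; rw [map_smul, smul_sub]
  induction n generalizing a with
  | zero =>
    clear ha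
    rw [zero_add]
    induction a using MonoidAlgebra.induction_on with
    | of g => rw [lin_of]; exact fil_anti (Nat.le_succ r) (h0 g)
    | add x y hx hy => rw [hadd]; exact add_mem hx hy
    | smul c x hx => rw [hsmul]; exact Submodule.smul_mem _ _ hx
  | succ n ih =>
    rw [fil_succ] at ha
    induction ha using Submodule.span_induction with
    | mem x hx =>
      obtain ⟨b, hb, g, rfl⟩ := hx
      have h1 : ∀ u v p q : GA G, u * (p - 1) - v * (q - 1) = (u - v) * (p - 1) + v * (p - q) := by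
        intro u v p q; noncomm_ring
      rw [lin_mul, map_sub, lin_of, lin_one, h1]
      refine add_mem ?_ ?_
      · rw [Nat.add_right_comm]
        exact fil_mul (ih hb) (of_sub_one_mem _)
      · rw [add_assoc, add_comm 1 r]
        exact fil_mul hb (h0 g)
    | zero => rw [map_zero, sub_zero]; exact zero_mem _
    | add x y _ _ hx hy => rw [hadd]; exact add_mem hx hy
    | smul c x _ hx => rw [hsmul]; exact Submodule.smul_mem _ _ hx

end Vale.Agent.P300
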