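import Mathlib

/-! P300: projective varieties, universal covers and holomorphic convexity. -/

noncomputable section

namespace Vale.Agent.P300

/-- complex projective space of lines in `ι → ℂ` -/
def PSp (ι : Type) : Type := Projectivization ℂ (ι → ℂ)

/-- the line through a nonzero vector -/
def PSp.mk {ι : Type} (v : {v : ι → ℂ // v ≠ 0}) : PSp ι := Projectivization.mk ℂ v.1 v.2

/-- a nonzero vector on a line -/
def PSp.rep {ι : Type} (p : PSp ι) : ι → ℂ := Projectivization.rep p

/-- the classical (quotient) topology -/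
instance {ι : Type} : TopologicalSpace (PSp ι) := TopologicalSpace.coinduced PSp.mk inferInstance

/-- common zero set of homogeneous polynomials -/
def IsProjAlg {ι : Type} (X : Set (PSp ι)) : Prop :=
  ∃ T : Set (MvPolynomial ι ℂ), (∀ P ∈ T, ∃ d, P.IsHomogeneous d) ∧
    X = {p | ∀ P ∈ T, MvPolynomial.eval p.rep P = 0}

/-- the affine cone over `X`, without the origin -/
def cone {ι : Type} (X : Set (PSp ι)) : Set (ι → ℂ) := {v | ∃ h : v ≠ 0, PSp.mk ⟨v, h⟩ ∈ X}

/-- Jacobian criterion: near each of its points the cone is cut out by homogeneous polynomials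
vanishing on it with linearly independent differentials -/
def IsSmoothProj {ι : Type} (X : Set (PSp ι)) : Prop :=
  ∀ v ∈ cone X, ∃ (c : ℕ) (f : Fin c → MvPolynomial ι ℂ), (∀ j, ∃ d, (f j).IsHomogeneous d) ∧
    (∀ j, ∀ w ∈ cone X, MvPolynomial.eval w (f j) = 0) ∧
    LinearIndependent ℂ (fun j i => MvPolynomial.eval v (MvPolynomial.pderiv i (f j))) ∧
    ∀ᶠ w in nhds v, (∀ j, MvPolynomial.eval w (f j) = 0) → w ∈ cone X

/-- holomorphic functions on a covering space, for the complex structure lifted from `X`: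
continuous and holomorphic along every holomorphic map from an open subset of `ℂ` -/
def IsHolo {ι : Type} [Fintype ι] (X : Set (PSp ι)) {W : Type} [TopologicalSpace W] (p : W → X)
    (g : W → ℂ) : Prop :=
  Continuous g ∧ ∀ (D : Set ℂ) (φ : ℂ → W) (ψ : ℂ → ι → ℂ), IsOpen D → ContinuousOn φ D →
    DifferentiableOn ℂ ψ D → (∀ z ∈ D, ∃ h : ψ z ≠ 0, (p (φ z) : PSp ι) = PSp.mk ⟨ψ z, h⟩) →
    DifferentiableOn ℂ (fun z => g (φ z)) D

/-- holomorphic convexity: holomorphic hulls of nonempty compact sets are compact -/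
def IsHolConvex {ι : Type} [Fintype ι] (X : Set (PSp ι)) {W : Type} [TopologicalSpace W]
    (p : W → X) : Prop :=
  ∀ K : Set W, IsCompact K → K.Nonempty →
    IsCompact {v | ∀ g : W → ℂ, IsHolo X p g → ‖g v‖ ≤ sSup ((fun w => ‖g w‖) '' K)}

end Vale.Agent.P300
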