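import Vale.Agent.P300.TCoc
import Vale.Agent.P300.TCirc

/-! P300: the fundamental group of the plane minus finitely many real points is free. -/

noncomputable section

namespace Vale.Agent.P300

open unitInterval Topology

section words

variable {n : ℕ}

theorem TBasis_split (p q r : Fin n → Bool) (hr : ∀ i, r i = (p i || q i))
    (hpq : ∀ i j, p i = true → q j = true → i < j) (L : List (Fin n)) (hL : L.Pairwise (· < ·)) :
    ((L.filter r).map FreeGroup.of).prod =
      ((L.filter p).map FreeGroup.of).prod * ((L.filter q).map FreeGroup.of).prod := by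
  induction L with
  | nil => simp
  | cons x L ih =>
    rw [List.pairwise_cons] at hL
    have ih' := ih hL.2
    cases hp : p x <;> cases hq : q x
    · simp [hr x, hp, hq, ih']
    · have h1 : L.filter p = [] := List.filter_eq_nil_iff.2 fun y hy h =>
        lt_asymm (hL.1 y hy) (hpq y x h hq)
      simp [hr x, hp, hq, ih', h1]
    · simp [hr x, hp, hq, ih', mul_assoc]
    · exact absurd (hpq x x hp hq) (lt_irrefl x)

/-- product of the generators with index at least `k` -/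
def TBasisT (n k : ℕ) : FreeGroup (Fin n) :=
  (((List.finRange n).filter fun i => k ≤ i.val).map FreeGroup.of).prod

theorem TBasis_T_split {k l : ℕ} (h : k ≤ l) : TBasisT n k = seg n k l * TBasisT n l := by
  refine TBasis_split _ _ _ (fun i => ?_) (fun i j hi hj => ?_) _ (List.pairwise_lt_finRange n)
  · rw [Bool.eq_iff_iff]
    simp only [decide_eq_true_eq, Bool.or_eq_true]
    omega
  · simp only [decide_eq_true_eq] at hi hj
    exact Fin.lt_def.2 (by omega)

theorem TBasis_T_self : TBasisT n n = 1 := by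
  rw [TBasisT, List.filter_eq_nil_iff.2 fun i _ => by simp]
  rfl

theorem TBasis_seg_one (i : Fin n) : seg n i.val (i.val + 1) = FreeGroup.of i := by
  have h : ((List.finRange n).filter fun j : Fin n => i.val ≤ j.val ∧ j.val < i.val + 1) =
      (List.finRange n).filter (· = i) := by
    refine List.filter_congr fun j _ => ?_
    rw [Bool.eq_iff_iff]
    simp only [decide_eq_true_eq, Fin.ext_iff]
    omega
  rw [seg, h, List.filter_eq, List.count_finRange]
  simp

theorem TBasis_seg_empty {k l : ℕ} (h : ∀ i : Fin n, ¬ (k ≤ i.val ∧ i.val < l)) :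
    seg n k l = 1 := by
  rw [seg, List.filter_eq_nil_iff.2 fun i _ => by simpa using h i]
  rfl

theorem TBasis_lift {G : Type} [Group G] (C : ℕ → G) (d : ℕ) : ∀ k, k + d = n →
    FreeGroup.lift (fun i : Fin n => C i * (C (i + 1))⁻¹) (TBasisT n k) = C k * (C n)⁻¹ := by
  induction d with
  | zero =>
    rintro k rfl
    simp [TBasis_T_self]
  | succ d ih =>
    intro k hk
    have h1 := TBasis_seg_one (⟨k, by omega⟩ : Fin n)
    rw [TBasis_T_split (Nat.le_succ k), map_mul, ih (k + 1) (by omega), h1, FreeGroup.lift_apply_of]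
    simp [mul_assoc]

end words

variable {n : ℕ} {a : Fin n → ℂ} {G : Type} [Group G]

/-- product of the generators to the right of `r` -/
def TBasisS (a : Fin n → ℂ) (r : ℝ) : FreeGroup (Fin n) :=
  (((List.finRange n).filter fun i => r < (a i).re).map FreeGroup.of).prod

/-- `t` separates the first `k` points from the others -/
def TBasisSep (a : Fin n → ℂ) (k : ℕ) (t : ℝ) : Prop :=
  ∀ i : Fin n, (i.val < k → (a i).re < t) ∧ (k ≤ i.val → t < (a i).re)

/-- `t` is not the real part of a puncture -/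
def TBasisOff (a : Fin n → ℂ) (t : ℝ) : Prop := ∀ i, t ≠ (a i).re

/-- the plane minus vertical rays -/
def TBasisO (a : Fin n → ℂ) (sg : ℝ) : Set (Pl a) := {z | 0 < sg * z.1.im ∨ TBasisOff a z.1.re}

/-- real points -/
def TBasisPt {t : ℝ} (h : TBasisOff a t) : Pl a :=
  ⟨t, fun i e => h i (by rw [← e, Complex.ofReal_re])⟩

theorem TBasisSep.off {k : ℕ} {t : ℝ} (h : TBasisSep a k t) : TBasisOff a t := fun i =>
  (lt_or_ge i.val k).elim (fun h1 => ((h i).1 h1).ne') fun h1 => ((h i).2 h1).ne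

theorem TBasisSep.lt_iff {k : ℕ} {t : ℝ} (h : TBasisSep a k t) (i : Fin n) :
    t < (a i).re ↔ k ≤ i.val :=
  ⟨fun h1 => not_lt.1 fun h2 => lt_asymm h1 ((h i).1 h2), (h i).2⟩

theorem TBasisSep.gt_iff {k : ℕ} {t : ℝ} (h : TBasisSep a k t) (i : Fin n) :
    (a i).re < t ↔ i.val < k :=
  ⟨fun h1 => not_le.1 fun h2 => lt_asymm h1 ((h i).2 h2), (h i).1⟩

theorem TBasisSep.eq {k : ℕ} {t : ℝ} (h : TBasisSep a k t) : TBasisS a t = TBasisT n k := by
  rw [TBasisS, TBasisT, List.filter_congr fun i _ => decide_eq_decide.2 (h.lt_iff i)]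

theorem TBasis_sep (hmono : StrictMono fun i => (a i).re) (k : ℕ) : ∃ t, TBasisSep a k t := by
  obtain ⟨t, h1, h2⟩ := Set.Finite.exists_between'
    (Set.toFinite ((fun i => (a i).re) '' {i | i.val < k}))
    (Set.toFinite ((fun i => (a i).re) '' {i | k ≤ i.val})) (by
      rintro _ ⟨i, hi, rfl⟩ _ ⟨j, hj, rfl⟩
      exact hmono (Fin.lt_def.2 (lt_of_lt_of_le hi hj)))
  exact ⟨t, fun i => ⟨fun h => h1 _ ⟨i, h, rfl⟩, fun h => h2 _ ⟨i, h, rfl⟩⟩⟩

theorem TBasisOff.sep (hmono : StrictMono fun i => (a i).re) {t : ℝ} (h : TBasisOff a t) :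
    ∃ k ≤ n, TBasisSep a k t := by
  classical
  have h0 : ∀ i : Fin n, n ≤ i.val → t < (a i).re := fun i hi => absurd i.2 (not_lt.2 hi)
  have h1 : ∃ k, ∀ i : Fin n, k ≤ i.val → t < (a i).re := ⟨n, h0⟩
  refine ⟨Nat.find h1, Nat.find_min' h1 h0, fun i => ⟨fun hi => ?_, Nat.find_spec h1 i⟩⟩
  refine lt_of_le_of_ne (not_lt.1 fun h2 => Nat.find_min h1 hi fun j hj => ?_) (h i).symm
  exact h2.trans_le (hmono.monotone (Fin.le_def.2 hj))

theorem TBasis_open (sg : ℝ) : IsOpen (TBasisO a sg) := by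
  have h1 : IsOpen {z : Pl a | TBasisOff a z.1.re} := by
    unfold TBasisOff
    rw [Set.ofPred_forall]
    exact isOpen_iInter_of_finite fun i => isOpen_ne_fun (by fun_prop) continuous_const
  have h2 : IsOpen {z : Pl a | 0 < sg * z.1.im} := isOpen_lt continuous_const (by fun_prop)
  exact h2.union h1

theorem TBasis_cover (him : ∀ i, (a i).im = 0) (z : Pl a) :
    z ∈ TBasisO a 1 ∨ z ∈ TBasisO a (-1) := by
  rcases lt_trichotomy z.1.im 0 with h | h | h
  · exact Or.inr (Or.inl (by linarith))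
  · exact Or.inl (Or.inr fun i e => z.2 i (Complex.ext e (h.trans (him i).symm)))
  · exact Or.inl (Or.inl (by linarith))

theorem TBasis_inter {z : Pl a} (h1 : z ∈ TBasisO a 1) (h2 : z ∈ TBasisO a (-1)) :
    TBasisOff a z.1.re := by
  rcases h1 with h1 | h1
  · rcases h2 with h2 | h2
    · linarith
    · exact h2
  · exact h1

theorem TBasis_locConst {z : Pl a} (h : TBasisOff a z.1.re) :
    ∀ᶠ y in 𝓝 z, TBasisS a y.1.re = TBasisS a z.1.re := by
  have hc : Continuous fun y : Pl a => y.1.re := by fun_prop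
  have h1 : ∀ᶠ y in 𝓝 z, ∀ i, (y.1.re < (a i).re ↔ z.1.re < (a i).re) := by
    refine Filter.eventually_all.2 fun i => ?_
    rcases (h i).lt_or_gt with h2 | h2
    · exact (hc.continuousAt.eventually_lt continuousAt_const h2).mono fun y hy =>
        iff_of_true hy h2
    · exact (continuousAt_const.eventually_lt hc.continuousAt h2).mono fun y hy =>
        iff_of_false (not_lt.2 hy.le) (not_lt.2 h2.le)
  refine h1.mono fun y hy => ?_
  rw [TBasisS, TBasisS, List.filter_congr fun i _ => decide_eq_decide.2 (hy i)]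

/-- `e` is a coboundary for `μ` on `O` -/
def TBasisCob (μ : Mono (Pl a) G) (O : Set (Pl a)) (e : Pl a → G) : Prop :=
  ∀ γ : C(I, Pl a), (∀ s, γ s ∈ O) → μ.m γ = (e (γ 0))⁻¹ * e (γ 1)

theorem TBasis_coc (him : ∀ i, (a i).im = 0) :
    ∃ (μ : Mono (Pl a) (FreeGroup (Fin n))) (ep em : Pl a → FreeGroup (Fin n)),
      TBasisCob μ (TBasisO a 1) ep ∧ TBasisCob μ (TBasisO a (-1)) em ∧
      ∀ y, TBasisOff a y.1.re → ep y = TBasisS a y.1.re * em y := by
  obtain ⟨μ, e, h1, h2, -⟩ := exists_of_cocycle (A := Bool)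
    (fun b => TBasisO a (bif b then 1 else -1)) (fun _ => TBasis_open _)
    (fun y => (TBasis_cover him y).elim (fun h => ⟨true, h⟩) fun h => ⟨false, h⟩)
    (fun α β y => (bif α then TBasisS a y.1.re else 1) * (bif β then TBasisS a y.1.re else 1)⁻¹)
    (by
      rintro (_ | _) (_ | _) y hy
      · exact Filter.Eventually.of_forall fun _ => rfl
      · exact (TBasis_locConst (TBasis_inter hy.2 hy.1)).mono fun y' h => by simp [h]
      · exact (TBasis_locConst (TBasis_inter hy.1 hy.2)).mono fun y' h => by simp [h]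
      · exact Filter.Eventually.of_forall fun _ => by simp)
    (fun α β γ y _ => by group)
  refine ⟨μ, e true, e false, h1 true, h1 false, fun y hy => ?_⟩
  simpa using h2 true false y ⟨Or.inr hy, Or.inr hy⟩

theorem TBasis_cob (him : ∀ i, (a i).im = 0) (μ : Mono (Pl a) G) {sg : ℝ} (hsg : sg * sg = 1) :
    ∃ e, TBasisCob μ (TBasisO a sg) e := by
  let D : ℝ → ℝ := fun x => ∏ i, (x - (a i).re) ^ 2
  have hD : Continuous D := by fun_prop
  have hD0 : ∀ x, 0 ≤ D x := fun x => Finset.prod_nonneg fun _ _ => sq_nonneg _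
  have hsg0 : sg ≠ 0 := by
    rintro rfl
    simp at hsg
  let f : ℝ × ℝ → ℂ := fun v =>
    (v.1 : ℂ) + ((sg * (Real.exp v.2 - D v.1 * (Real.exp v.2)⁻¹) / 2 : ℝ) : ℂ) * Complex.I
  have hre : ∀ v, (f v).re = v.1 := fun v => by
    simp only [f, Complex.add_re, Complex.ofReal_re, Complex.re_ofReal_mul, Complex.I_re,
      mul_zero, add_zero]
  have hi : ∀ v, (f v).im = sg * (Real.exp v.2 - D v.1 * (Real.exp v.2)⁻¹) / 2 := fun v => by
    simp only [f, Complex.add_im, Complex.ofReal_im, Complex.im_ofReal_mul, Complex.I_im,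
      mul_one, zero_add]
  have hf : ∀ v, f v ∈ Pl a := by
    intro v i e
    have h1 : v.1 = (a i).re := by rw [← e, hre]
    have h2 := hi v
    have h3 : D v.1 = 0 := Finset.prod_eq_zero (Finset.mem_univ i) (by rw [h1]; simp)
    rw [e, him i, h3, zero_mul, sub_zero] at h2
    exact div_ne_zero (mul_ne_zero hsg0 (Real.exp_pos _).ne') two_ne_zero h2.symm
  have hfc : Continuous f := by
    have h1 : Continuous fun v : ℝ × ℝ => (Real.exp v.2)⁻¹ :=
      Continuous.inv₀ (by fun_prop) fun v => (Real.exp_pos _).ne'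
    fun_prop
  obtain ⟨e, he⟩ := μ.cobdry_convex (X := Set.univ) convex_univ (fun v => ⟨f v, hf v⟩)
    (Continuous.subtype_mk hfc _).continuousOn
  have hpos : ∀ z ∈ TBasisO a sg, 0 < sg * z.1.im + √(z.1.im ^ 2 + D z.1.re) := by
    rintro z (hz | hz)
    · exact add_pos_of_pos_of_nonneg hz (Real.sqrt_nonneg _)
    · have h1 : 0 < D z.1.re :=
        Finset.prod_pos fun i _ => sq_pos_of_ne_zero (sub_ne_zero.2 (hz i))
      have h2 : (-(sg * z.1.im)) ^ 2 = z.1.im ^ 2 := by linear_combination z.1.im ^ 2 * hsg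
      have h3 : -(sg * z.1.im) < √(z.1.im ^ 2 + D z.1.re) :=
        Real.lt_sqrt_of_sq_lt (by linarith)
      linarith
  refine ⟨fun z => e (z.1.re, Real.log (sg * z.1.im + √(z.1.im ^ 2 + D z.1.re))),
    fun γ hγ => he γ (fun s => ((γ s).1.re,
      Real.log (sg * (γ s).1.im + √((γ s).1.im ^ 2 + D (γ s).1.re)))) ?_ (fun _ => trivial)
      fun s => Subtype.ext ?_⟩
  · exact Continuous.prodMk (by fun_prop)
      (Continuous.log (by fun_prop) fun s => (hpos _ (hγ s)).ne')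
  · have h1 := hpos _ (hγ s)
    have h2 := Real.sq_sqrt (add_nonneg (sq_nonneg (γ s).1.im) (hD0 (γ s).1.re))
    show _ = f _
    refine Complex.ext (by rw [hre]) ?_
    rw [hi, Real.exp_log h1]
    generalize √((γ s).1.im ^ 2 + D (γ s).1.re) = r at h1 h2
    generalize (γ s).1.im = y at h1 h2
    have h3 : D (γ s).1.re = (sg * y + r) * (r - sg * y) := by linear_combination y ^ 2 * hsg - h2
    rw [h3, mul_comm (sg * y + r), mul_inv_cancel_right₀ h1.ne']
    linear_combination -y * hsg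

theorem TBasis_strip {k : ℕ} {z z' : Pl a} (h : TBasisSep a k z.1.re)
    (h' : TBasisSep a k z'.1.re) :
    ∃ δ : C(I, Pl a), δ 0 = z ∧ δ 1 = z' ∧ ∀ s, TBasisOff a (δ s).1.re := by
  have h1 : ∀ s : I, TBasisSep a k (((1 - s : ℝ) : ℂ) * z.1 + ((s : ℝ) : ℂ) * z'.1).re := by
    intro s i
    rw [Complex.add_re, Complex.re_ofReal_mul, Complex.re_ofReal_mul]
    refine ⟨fun hi => ?_, fun hi => ?_⟩
    · have h2 := TCirc_comb s.2.1 s.2.2 (sub_pos.2 ((h i).1 hi)) (sub_pos.2 ((h' i).1 hi))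
      linarith
    · have h2 := TCirc_comb s.2.1 s.2.2 (sub_pos.2 ((h i).2 hi)) (sub_pos.2 ((h' i).2 hi))
      linarith
  refine ⟨⟨fun s => ⟨((1 - s : ℝ) : ℂ) * z.1 + ((s : ℝ) : ℂ) * z'.1,
    fun i e => (h1 s).off i (congrArg Complex.re e)⟩, Continuous.subtype_mk (by fun_prop) _⟩,
    Subtype.ext (by simp), Subtype.ext (by simp), fun s => (h1 s).off⟩

theorem TBasis_norm (him : ∀ i, (a i).im = 0) (i : Fin n) (c : ℝ) :
    ‖a i - c‖ = |(a i).re - c| := by
  have h : a i - c = (((a i).re - c : ℝ) : ℂ) := Complex.ext (by simp) (by simp [him i])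
  rw [h, Complex.norm_real, Real.norm_eq_abs]

theorem TBasis_ex_half (s : ℝ) : (ex (s / 2)).im = Real.sin (Real.pi * s) := by
  rw [← Complex.exp_ofReal_mul_I_im, ex]
  congr 2
  push_cast
  ring

theorem TBasis_ex_pi : ex (1 / 2) = -1 := by
  rw [← Complex.exp_pi_mul_I, ex]
  congr 1
  push_cast
  ring

theorem TBasis_circle (him : ∀ i, (a i).im = 0) {p q : ℝ} (hp : TBasisOff a p)
    (hq : TBasisOff a q) (hqp : q < p) :
    ∃ γ : C(I, Pl a), γ 0 = TBasisPt hp ∧ γ 1 = TBasisPt hp ∧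
      IsCirc a {i | q < (a i).re ∧ (a i).re < p} (fun s => γ s) ∧
      ∀ (μ : Mono (Pl a) G) (ep em : Pl a → G), TBasisCob μ (TBasisO a 1) ep →
        TBasisCob μ (TBasisO a (-1)) em → μ.m γ = (ep (TBasisPt hp))⁻¹ * ep (TBasisPt hq) *
          ((em (TBasisPt hq))⁻¹ * em (TBasisPt hp)) := by
  have hρ : 0 < (p - q) / 2 := by linarith
  have hn : ‖(((p - q) / 2 : ℝ) : ℂ)‖ = (p - q) / 2 := by
    rw [Complex.norm_real, Real.norm_eq_abs, abs_of_pos hρ]
  have h1 : ∀ i, ‖a i - (((p + q) / 2 : ℝ) : ℂ)‖ ≠ ‖(((p - q) / 2 : ℝ) : ℂ)‖ := by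
    intro i
    rw [TBasis_norm him, hn]
    intro h
    rcases (abs_eq hρ.le).1 h with h | h
    · exact hp i (by linarith)
    · exact hq i (by linarith)
  have he := continuous_ex
  let E : ℝ → Pl a := fun θ =>
    ⟨(((p + q) / 2 : ℝ) : ℂ) + (((p - q) / 2 : ℝ) : ℂ) * ex θ, fun i => TCirc_ne (h1 i) _⟩
  have hE : Continuous E := Continuous.subtype_mk (by fun_prop) _
  have E0 : E 0 = TBasisPt hp := Subtype.ext (by
    simp only [E, ex_zero, TBasisPt]
    push_cast
    ring)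
  have E1 : E 1 = TBasisPt hp := by
    rw [← E0]
    exact Subtype.ext (by simp only [E, ← ex_add_one 0, zero_add])
  have E2 : E (1 / 2) = TBasisPt hq := Subtype.ext (by
    simp only [E, TBasis_ex_pi, TBasisPt]
    push_cast
    ring)
  have hs : ∀ s : I, s = 0 ∨ s = 1 ∨ 0 < (p - q) / 2 * Real.sin (Real.pi * s) := by
    intro s
    by_cases h0 : s = 0
    · exact Or.inl h0
    by_cases h2 : s = 1
    · exact Or.inr (Or.inl h2)
    have h3 : (0 : ℝ) < s := unitInterval.pos_iff_ne_zero.2 h0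
    have h4 : (s : ℝ) < 1 := unitInterval.lt_one_iff_ne_one.2 h2
    exact Or.inr (Or.inr (mul_pos hρ (Real.sin_pos_of_pos_of_lt_pi (mul_pos Real.pi_pos h3)
      (mul_lt_of_lt_one_right Real.pi_pos h4))))
  refine ⟨⟨fun s => E s, by fun_prop⟩, E0, E1, ⟨_, _, fun _ => rfl, fun i => ?_⟩,
    fun μ ep em hep hem => ?_⟩
  · rw [TBasis_norm him, hn, abs_lt]
    exact ⟨fun h => ⟨by linarith [h.1], by linarith [h.2]⟩, fun h => ⟨by linarith [h.1],
      by linarith [h.2]⟩⟩
  · have h2 := μ.sq (fun v => E (v.1 * (1 + v.2) / 2)) (by fun_prop)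
      ⟨fun s => E (s / 2), by fun_prop⟩ ⟨fun s => E ((1 + s) / 2), by fun_prop⟩
      ⟨fun _ => E 0, by fun_prop⟩ ⟨fun s => E s, by fun_prop⟩ (fun s => by simp) (fun s => by simp)
      (fun s => by simp) fun s => congrArg E (by simp; ring)
    rw [μ.m_const ⟨fun _ => E 0, by fun_prop⟩ fun _ => rfl, one_mul, hep, hem] at h2
    · rw [← h2]
      simp [E0, E1, ← E2]
    · intro s
      rcases hs s with rfl | rfl | h3
      · exact Or.inr (by simpa [← one_div, E2, TBasisPt] using hq)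
      · exact Or.inr (by simpa [E1, TBasisPt] using hp)
      · refine Or.inl ?_
        show 0 < -1 * ((((p + q) / 2 : ℝ) : ℂ) + (((p - q) / 2 : ℝ) : ℂ) * ex ((1 + s) / 2)).im
        rw [add_div 1, ex_add, TBasis_ex_pi, Complex.add_im, Complex.ofReal_im,
          Complex.im_ofReal_mul, neg_one_mul (ex _), Complex.neg_im, TBasis_ex_half]
        linarith
    · intro s
      rcases hs s with rfl | rfl | h3
      · exact Or.inr (by simpa [E0, TBasisPt] using hp)
      · exact Or.inr (by simpa [← one_div, E2, TBasisPt] using hq)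
      · refine Or.inl ?_
        show 0 < 1 * ((((p + q) / 2 : ℝ) : ℂ) + (((p - q) / 2 : ℝ) : ℂ) * ex (s / 2)).im
        rw [Complex.add_im, Complex.ofReal_im, Complex.im_ofReal_mul, TBasis_ex_half]
        linarith

theorem TBasis_full (him : ∀ i, (a i).im = 0) (hmono : StrictMono fun i => (a i).re)
    {μ : Mono (Pl a) (FreeGroup (Fin n))} {ep em : Pl a → FreeGroup (Fin n)}
    (hep : TBasisCob μ (TBasisO a 1) ep) (hem : TBasisCob μ (TBasisO a (-1)) em)
    (he : ∀ y, TBasisOff a y.1.re → ep y = TBasisS a y.1.re * em y) (z : Pl a)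
    (g : FreeGroup (Fin n)) : ∃ γ : C(I, Pl a), γ 0 = z ∧ γ 1 = z ∧ μ.m γ = g := by
  choose t ht using TBasis_sep hmono
  set P := TBasisPt (ht n).off with hP
  let K : Subgroup (FreeGroup (Fin n)) :=
    { carrier := {g | ∃ γ : C(I, Pl a), γ 0 = P ∧ γ 1 = P ∧ μ.m γ = (em P)⁻¹ * g * em P}
      mul_mem' := by
        rintro g g' ⟨γ, h1, h2, h3⟩ ⟨γ', h4, h5, h6⟩
        refine ⟨cat γ γ' (h4.trans h2.symm), (cat_zero _ _ _).trans h1,
          (cat_one _ _ _).trans h5, ?_⟩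
        rw [μ.m_cat, h3, h6]
        group
      one_mem' := ⟨ContinuousMap.const _ P, rfl, rfl, by
        rw [μ.m_const _ fun _ => rfl]
        group⟩
      inv_mem' := by
        rintro g ⟨γ, h1, h2, h3⟩
        refine ⟨rev γ, (rev_zero _).trans h2, (rev_one _).trans h1, ?_⟩
        rw [μ.m_rev, h3]
        group }
  have hT : ∀ k ≤ n, TBasisT n k ∈ K := by
    intro k hk
    rcases hk.eq_or_lt with rfl | hk
    · rw [TBasis_T_self]
      exact K.one_mem
    · obtain ⟨γ, h1, h2, -, h3⟩ := TBasis_circle (G := FreeGroup (Fin n)) him (ht n).off (ht k).off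
        ((((ht k) ⟨k, hk⟩).2 le_rfl).trans (((ht n) ⟨k, hk⟩).1 hk))
      refine ⟨γ, h1, h2, ?_⟩
      rw [h3 μ ep em hep hem, he _ (ht n).off, he _ (ht k).off]
      have e1 : TBasisS a (TBasisPt (ht n).off).1.re = 1 := (ht n).eq.trans TBasis_T_self
      have e2 : TBasisS a (TBasisPt (ht k).off).1.re = TBasisT n k := (ht k).eq
      rw [e1, e2, ← hP]
      group
  have hK : ∀ g, g ∈ K := by
    intro g
    induction g using FreeGroup.induction_on with
    | C1 => exact K.one_mem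
    | of i =>
      have h1 := TBasis_T_split (n := n) (Nat.le_succ i.val)
      rw [TBasis_seg_one] at h1
      rw [eq_mul_inv_of_mul_eq h1.symm]
      exact K.mul_mem (hT _ i.2.le) (K.inv_mem (hT _ i.2))
    | inv_of i h => exact K.inv_mem h
    | mul x y hx hy => exact K.mul_mem hx hy
  have := isPathConnected_iff_pathConnectedSpace.1 (isPathConnected_Pl a)
  let δ : C(I, Pl a) := (PathConnectedSpace.somePath z P).toContinuousMap
  have d0 : δ 0 = z := (PathConnectedSpace.somePath z P).source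
  have d1 : δ 1 = P := (PathConnectedSpace.somePath z P).target
  obtain ⟨γ, h1, h2, h3⟩ := hK (em P * ((μ.m δ)⁻¹ * g * μ.m δ) * (em P)⁻¹)
  refine ⟨cat (cat δ γ (h1.trans d1.symm)) (rev δ)
    ((rev_zero _).trans (d1.trans ((cat_one _ _ _).trans h2).symm)),
    (cat_zero _ _ _).trans ((cat_zero _ _ _).trans d0),
    (cat_one _ _ _).trans ((rev_one _).trans d0), ?_⟩
  rw [μ.m_cat, μ.m_cat, μ.m_rev, h3]
  group

theorem TBasis_faith (him : ∀ i, (a i).im = 0) (hmono : StrictMono fun i => (a i).re)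
    {μ : Mono (Pl a) (FreeGroup (Fin n))} {ep em : Pl a → FreeGroup (Fin n)}
    (hep : TBasisCob μ (TBasisO a 1) ep) (hem : TBasisCob μ (TBasisO a (-1)) em)
    (he : ∀ y, TBasisOff a y.1.re → ep y = TBasisS a y.1.re * em y) (γ : C(I, Pl a))
    (h01 : γ 1 = γ 0) (hγ : μ.m γ = 1) : Null γ := by
  classical
  intro G _ μ1
  choose t ht using TBasis_sep hmono
  obtain ⟨fp, hfp⟩ := TBasis_cob him μ1 (sg := 1) (by norm_num)
  obtain ⟨fm, hfm⟩ := TBasis_cob him μ1 (sg := -1) (by norm_num)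
  let C : ℕ → G := fun k => fp (TBasisPt (ht k).off) * (fm (TBasisPt (ht k).off))⁻¹
  let κ : FreeGroup (Fin n) →* G := FreeGroup.lift fun i : Fin n => C i * (C (i + 1))⁻¹
  have hκ : ∀ z : Pl a, TBasisOff a z.1.re →
      κ (TBasisS a z.1.re) = fp z * (fm z)⁻¹ * (C n)⁻¹ := by
    intro z hz
    obtain ⟨k, hk, h1⟩ := hz.sep hmono
    obtain ⟨d, hd⟩ := Nat.exists_eq_add_of_le hk
    obtain ⟨δ, d0, d1, h2⟩ := TBasis_strip (z' := TBasisPt (ht k).off) h1 (ht k)
    have h3 := (hfp δ fun s => Or.inr (h2 s)).symm.trans (hfm δ fun s => Or.inr (h2 s))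
    rw [d0, d1] at h3
    rw [h1.eq, TBasis_lift C d k hd.symm]
    congr 1
    show fp _ * (fm _)⁻¹ = _
    rw [eq_mul_of_inv_mul_eq h3]
    group
  let ε : Pl a → G := fun z =>
    if z ∈ TBasisO a 1 then (fp z)⁻¹ * κ (ep z) else (fm z)⁻¹ * (C n)⁻¹ * κ (em z)
  have hp : ∀ z ∈ TBasisO a 1, ε z = (fp z)⁻¹ * κ (ep z) := fun z hz => if_pos hz
  have hm : ∀ z ∈ TBasisO a (-1), ε z = (fm z)⁻¹ * (C n)⁻¹ * κ (em z) := by
    intro z hz
    by_cases h1 : z ∈ TBasisO a 1
    · rw [hp z h1, he z (TBasis_inter h1 hz), map_mul, hκ z (TBasis_inter h1 hz)]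
      group
    · exact if_neg h1
  have h1 := μ1.eq_of_local ((μ.map κ).gauge ε) (fun z => ?_) γ
  · rw [h1]
    show ε (γ 0) * κ (μ.m γ) * (ε (γ 1))⁻¹ = 1
    rw [hγ, h01, map_one, mul_one, mul_inv_cancel]
  · rcases TBasis_cover him z with hz | hz
    · refine ⟨_, (TBasis_open _).mem_nhds hz, fun δ hδ => ?_⟩
      show _ = ε (δ 0) * κ (μ.m δ) * (ε (δ 1))⁻¹
      rw [hfp δ hδ, hep δ hδ, hp _ (hδ 0), hp _ (hδ 1), map_mul, map_inv]
      group
    · refine ⟨_, (TBasis_open _).mem_nhds hz, fun δ hδ => ?_⟩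
      show _ = ε (δ 0) * κ (μ.m δ) * (ε (δ 1))⁻¹
      rw [hfm δ hδ, hem δ hδ, hm _ (hδ 0), hm _ (hδ 1), map_mul, map_inv]
      group

theorem freeBasis {n : ℕ} (a : Fin n → ℂ) (him : ∀ i, (a i).im = 0)
    (hmono : StrictMono fun i => (a i).re) :
    ∃ μ : Mono (Pl a) (FreeGroup (Fin n)), IsUniv μ ∧ ∀ (k l : ℕ) (γ : C(I, Pl a)),
      IsCirc a {i | k ≤ i.val ∧ i.val < l} (fun s => γ s) → IsConj (seg n k l) (μ.m γ) := by
  obtain ⟨μ, ep, em, hep, hem, he⟩ := TBasis_coc him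
  refine ⟨μ, ⟨TBasis_full him hmono hep hem he, TBasis_faith him hmono hep hem he⟩,
    fun k l γ hγ => ?_⟩
  by_cases hJ : ∃ i : Fin n, k ≤ i.val ∧ i.val < l
  · obtain ⟨j, hj1, hj2⟩ := hJ
    obtain ⟨q, hq⟩ := TBasis_sep hmono k
    obtain ⟨p, hp⟩ := TBasis_sep hmono l
    obtain ⟨γ', -, -, h1, h2⟩ := TBasis_circle (G := FreeGroup (Fin n)) him hp.off hq.off
      (((hq j).2 hj1).trans ((hp j).1 hj2))
    simp only [hq.lt_iff, hp.gt_iff] at h1
    refine IsConj.trans ?_ (circ_conj μ h1 hγ)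
    rw [h2 μ ep em hep hem, he _ hp.off, he _ hq.off]
    have e1 : TBasisS a (TBasisPt hp.off).1.re = TBasisT n l := hp.eq
    have e2 : TBasisS a (TBasisPt hq.off).1.re = TBasisT n k := hq.eq
    rw [e1, e2, TBasis_T_split (hj1.trans hj2.le)]
    exact isConj_iff.2 ⟨(TBasisT n l * em (TBasisPt hp.off))⁻¹, by group⟩
  · have e : {i : Fin n | k ≤ i.val ∧ i.val < l} = ∅ :=
      Set.eq_empty_of_forall_notMem fun i hi => hJ ⟨i, hi⟩
    rw [e] at hγ
    rw [circ_empty μ hγ, TBasis_seg_empty fun i hi => hJ ⟨i, hi⟩]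

theorem TBasis_single (i : Fin n) : ({i} : Set (Fin n)) = {j | i.val ≤ j.val ∧ j.val < i.val + 1} := by
  ext j
  simp only [Set.mem_singleton_iff, Set.mem_ofPred_eq, Fin.ext_iff]
  omega

theorem TBasis_univ : (Set.univ : Set (Fin n)) = {j | 0 ≤ j.val ∧ j.val < n} := by
  ext j
  simp

theorem exists_mark_real (a : Fin 5 → ℂ) (him : ∀ i, (a i).im = 0)
    (hmono : StrictMono fun i => (a i).re) : ∃ μ : Mono (Pl a) F5, IsMark a μ ∧
      ∀ γ : C(I, Pl a), IsCirc a {0, 1, 2} (fun s => γ s) → IsConj d3 (μ.m γ) := by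
  obtain ⟨μ, h1, h2⟩ := freeBasis a him hmono
  have e5 : seg 5 0 5 = d5 := by simp [seg, d5, xx, List.finRange_succ, mul_assoc]
  have e3 : seg 5 0 3 = d3 := by simp [seg, d3, xx, List.finRange_succ, mul_assoc]
  have s3 : ({0, 1, 2} : Set (Fin 5)) = {j | 0 ≤ j.val ∧ j.val < 3} := by
    ext j
    fin_cases j <;> simp
  refine ⟨μ, ⟨h1, fun i γ h => ?_, fun γ h => ?_⟩, fun γ h => ?_⟩
  · rw [TBasis_single] at h
    have h3 := h2 _ _ γ h
    rwa [TBasis_seg_one] at h3
  · rw [TBasis_univ] at h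
    exact e5 ▸ h2 _ _ γ h
  · rw [s3] at h
    exact e3 ▸ h2 _ _ γ h

theorem exists_basis_two : ∃ μ : Mono (Pl ![(0 : ℂ), 1]) (FreeGroup (Fin 2)), IsUniv μ ∧
    (∀ i (γ : C(I, Pl ![(0 : ℂ), 1])), IsCirc ![(0 : ℂ), 1] {i} (fun s => γ s) →
      IsConj (FreeGroup.of i) (μ.m γ)) ∧
    ∀ γ : C(I, Pl ![(0 : ℂ), 1]), IsCirc ![(0 : ℂ), 1] Set.univ (fun s => γ s) →
      IsConj (FreeGroup.of 0 * FreeGroup.of 1) (μ.m γ) := by
  obtain ⟨μ, h1, h2⟩ := freeBasis ![(0 : ℂ), 1] (fun i => by fin_cases i <;> simp)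
    (Fin.strictMono_iff_lt_succ.2 fun i => by fin_cases i; simp)
  have e2 : seg 2 0 2 = FreeGroup.of 0 * FreeGroup.of 1 := by simp [seg, List.finRange_succ]
  refine ⟨μ, h1, fun i γ h => ?_, fun γ h => ?_⟩
  · rw [TBasis_single] at h
    have h3 := h2 _ _ γ h
    rwa [TBasis_seg_one] at h3
  · rw [TBasis_univ] at h
    exact e2 ▸ h2 _ _ γ h

end Vale.Agent.P300
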