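import Vale.Agent.P300.TMono

/-! P300: coverings and groupoid homomorphisms from locally constant cocycles. -/

noncomputable section

namespace Vale.Agent.P300

open unitInterval Topology

theorem TCoc_cover {Y : Type} [TopologicalSpace Y] {G : Type} [Group G] {A : Type}
    (O : A → Set Y) (hO : ∀ α, IsOpen (O α)) (ix : Y → A) (hix : ∀ y, y ∈ O (ix y))
    (g : A → A → Y → G)
    (hg : ∀ α β, ∀ y ∈ O α ∩ O β, ∀ᶠ y' in 𝓝 y, g α β y' = g α β y)
    (hco : ∀ α β γ, ∀ y ∈ O α ∩ O β ∩ O γ, g α β y * g β γ y = g α γ y) :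
    ∃ (T : Type) (_ : TopologicalSpace T) (q : T → Y) (lab : T → G) (sec : Y → T),
      IsCoveringMap q ∧ (∀ y, Set.BijOn lab (q ⁻¹' {y}) Set.univ) ∧
      (∀ y, q (sec y) = y) ∧ (∀ y, lab (sec y) = 1) ∧
      ∀ α (t : T), q t ∈ O α → ∀ᶠ t' in 𝓝 t,
        lab t' * g (ix (q t')) α (q t') = lab t * g (ix (q t)) α (q t) := by
  let _ : TopologicalSpace G := ⊥
  have : DiscreteTopology G := ⟨rfl⟩
  have h1 : ∀ α, ∀ y ∈ O α, g α α y = 1 := fun α y hy => by
    have h := hco α α α y ⟨⟨hy, hy⟩, hy⟩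
    exact mul_left_cancel (a := g α α y) (by rw [h, mul_one])
  let Z : FiberBundleCore A Y G :=
    { baseSet := O
      isOpen_baseSet := hO
      indexAt := ix
      mem_baseSet_at := hix
      coordChange := fun i j y v => v * g i j y
      coordChange_self := fun i y hy v => by rw [h1 i y hy, mul_one]
      continuousOn_coordChange := fun i j p hp => by
        apply ContinuousAt.continuousWithinAt
        have ha : ∀ᶠ p' : Y × G in 𝓝 p, g i j p'.1 = g i j p.1 :=
          continuous_fst.continuousAt.eventually (hg i j p.1 hp.1)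
        have hb : ∀ᶠ p' : Y × G in 𝓝 p, p'.2 = p.2 :=
          continuous_snd.continuousAt.eventually
            ((isOpen_discrete ({p.2} : Set G)).mem_nhds rfl)
        refine continuousAt_const.congr (f := fun _ => p.2 * g i j p.1) ?_
        filter_upwards [ha, hb] with p' h h'
        rw [h, h']
      coordChange_comp := fun i j k y hy v => by rw [mul_assoc, hco i j k y hy] }
  refine ⟨Z.TotalSpace, inferInstance, Z.proj, fun t => (t.2 : G), fun y => ⟨y, (1 : G)⟩,
    IsCoveringMap.mk _ (fun _ => G) (fun y => Z.localTriv (ix y)) (fun y => hix y),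
    fun y => ⟨fun _ _ => trivial, ?_, fun v _ => ⟨⟨y, v⟩, rfl, rfl⟩⟩, fun _ => rfl, fun _ => rfl,
    fun α t ht => ?_⟩
  · rintro ⟨a, v⟩ ha ⟨b, w⟩ hb h
    obtain rfl : a = y := ha
    obtain rfl : b = a := hb
    obtain rfl : v = w := h
    rfl
  · have hc : ContinuousAt (Z.localTriv α) t :=
      (Z.localTriv α).continuousOn.continuousAt ((Z.localTriv α).open_source.mem_nhds ht)
    have hd : ContinuousAt (fun t' => ((Z.localTriv α) t').2) t :=
      continuous_snd.continuousAt.comp hc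
    exact hd.eventually ((isOpen_discrete ({((Z.localTriv α) t).2} : Set G)).mem_nhds rfl)

theorem TCoc_const {G : Type} (f : I → G) (h : ∀ s, ∀ᶠ s' in 𝓝 s, f s' = f s) : f 1 = f 0 :=
  ((IsLocallyConstant.iff_eventually_eq f).2 h).apply_eq_of_preconnectedSpace 1 0

theorem exists_of_cocycle {Y : Type} [TopologicalSpace Y] {G : Type} [Group G] {A : Type}
    (O : A → Set Y) (hO : ∀ α, IsOpen (O α)) (hc : ∀ y, ∃ α, y ∈ O α) (g : A → A → Y → G)
    (hg : ∀ α β, ∀ y ∈ O α ∩ O β, ∀ᶠ y' in 𝓝 y, g α β y' = g α β y)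
    (hco : ∀ α β γ, ∀ y ∈ O α ∩ O β ∩ O γ, g α β y * g β γ y = g α γ y) :
    ∃ (μ : Mono Y G) (e : A → Y → G),
      (∀ α (γ : C(I, Y)), (∀ s, γ s ∈ O α) → μ.m γ = (e α (γ 0))⁻¹ * e α (γ 1)) ∧
      (∀ α β, ∀ y ∈ O α ∩ O β, e α y = g α β y * e β y) ∧
      ∃ (T : Type) (_ : TopologicalSpace T) (q : T → Y) (lab : T → G), IsCoveringMap q ∧
        (∀ y, Set.BijOn lab (q ⁻¹' {y}) Set.univ) ∧
        ∀ (Γ : C(I, T)) (γ : C(I, Y)), (∀ s, q (Γ s) = γ s) → lab (Γ 1) = lab (Γ 0) * μ.m γ := by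
  choose ix hix using hc
  obtain ⟨T, _, q, lab, sec, hq, hbij, hsec, hlab, hloc⟩ := TCoc_cover O hO ix hix g hg hco
  have h1 : ∀ α, ∀ y ∈ O α, g α α y = 1 := fun α y hy => by
    have h := hco α α α y ⟨⟨hy, hy⟩, hy⟩
    exact mul_left_cancel (a := g α α y) (by rw [h, mul_one])
  let L : C(I, Y) → C(I, T) := fun γ => hq.liftPath γ (sec (γ 0)) (hsec _).symm
  have hL : ∀ γ s, q (L γ s) = γ s := fun γ s => congrFun (hq.liftPath_lifts γ _ _) s
  have hL0 : ∀ γ, L γ 0 = sec (γ 0) := fun γ => hq.liftPath_zero γ _ _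
  have key : ∀ (Γ : C(I, T)) (γ : C(I, Y)), (∀ s, q (Γ s) = γ s) →
      lab (Γ 1) = lab (Γ 0) * lab (L γ 1) := by
    intro Γ γ hΓ
    have h := TCoc_const (fun s => lab (Γ s) * (lab (L γ s))⁻¹) fun s => by
      have ha := Γ.continuous.continuousAt.eventually
        (hloc (ix (γ s)) (Γ s) (by rw [hΓ]; exact hix _))
      have hb := (L γ).continuous.continuousAt.eventually
        (hloc (ix (γ s)) (L γ s) (by rw [hL]; exact hix _))
      filter_upwards [ha, hb] with s' ha hb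
      simp only [hΓ, hL] at ha hb
      rw [eq_mul_inv_of_mul_eq ha, eq_mul_inv_of_mul_eq hb]
      group
    simp only [hL0, hlab, inv_one, mul_one] at h
    rw [← h]
    group
  refine ⟨⟨fun γ => lab (L γ 1), fun {x y z} p p' => ?_, fun γ γ' h => ?_⟩,
    fun α y => g α (ix y) y, fun α γ hγ => ?_, fun α β y hy => ?_, T, inferInstance, q, lab, hq,
    hbij, key⟩
  · have hp : p'.toContinuousMap 0 = q (L p.toContinuousMap 1) := by
      rw [hL]; simp
    let Γ₂ := hq.liftPath p'.toContinuousMap _ hp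
    have h2 : ∀ s, q (Γ₂ s) = p'.toContinuousMap s := fun s =>
      congrFun (hq.liftPath_lifts _ _ _) s
    have h20 : Γ₂ 0 = L p.toContinuousMap 1 := hq.liftPath_zero _ _ _
    let P₁ : Path (L p.toContinuousMap 0) (L p.toContinuousMap 1) := ⟨L p.toContinuousMap, rfl, rfl⟩
    let P₂ : Path (L p.toContinuousMap 1) (Γ₂ 1) := ⟨Γ₂, h20, rfl⟩
    have h3 := key (P₁.trans P₂).toContinuousMap (p.trans p').toContinuousMap fun s => by
      change q ((P₁.trans P₂) s) = (p.trans p') s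
      rw [Path.trans_apply, Path.trans_apply]
      split_ifs
      · exact hL _ _
      · exact h2 _
    have h4 := key Γ₂ p'.toContinuousMap h2
    have h5 : (P₁.trans P₂).toContinuousMap 1 = Γ₂ 1 := (P₁.trans P₂).target
    have h6 : (P₁.trans P₂).toContinuousMap 0 = L p.toContinuousMap 0 := (P₁.trans P₂).source
    rw [h5, h6, hL0, hlab, one_mul, h4, h20] at h3
    exact h3.symm
  · have h0 : γ 0 = γ' 0 := h.fst_eq_snd (by simp : (0 : I) ∈ ({0, 1} : Set I))
    have h2 := hq.liftPath_apply_one_eq_of_homotopicRel h (sec (γ 0)) (hsec _).symm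
      (by rw [hsec, h0])
    have h3 := key (hq.liftPath γ' (sec (γ 0)) (by rw [hsec, h0])) γ'
      (fun s => congrFun (hq.liftPath_lifts _ _ _) s)
    rw [hq.liftPath_zero, hlab, one_mul, ← h2] at h3
    exact h3
  · have h := TCoc_const (fun s => lab (L γ s) * g (ix (γ s)) α (γ s)) fun s => by
      have hb := (L γ).continuous.continuousAt.eventually
        (hloc α (L γ s) (by rw [hL]; exact hγ _))
      filter_upwards [hb] with s' hb
      simpa only [hL] using hb
    simp only [hL0, hlab, one_mul] at h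
    have hinv : ∀ s, g (ix (γ s)) α (γ s) * g α (ix (γ s)) (γ s) = 1 := fun s => by
      rw [hco _ _ _ _ ⟨⟨hix _, hγ _⟩, hix _⟩, h1 _ _ (hix _)]
    change lab (L γ 1) = (g α (ix (γ 0)) (γ 0))⁻¹ * g α (ix (γ 1)) (γ 1)
    rw [← eq_inv_of_mul_eq_one_left (hinv 0), ← h, mul_assoc, hinv 1, mul_one]
  · exact (hco _ _ _ _ ⟨hy, hix _⟩).symm

end Vale.Agent.P300
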