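import Vale.Agent.P300.TU0
import Vale.Agent.P300.GMisc

/-! P300: homomorphisms from the fundamental groupoid to a group, markings of punctured planes. -/

noncomputable section

namespace Vale.Agent.P300

open unitInterval

/-- a homomorphism from the fundamental groupoid of `Z` to the group `G` -/
structure Mono (Z : Type) [TopologicalSpace Z] (G : Type) [Group G] where
  m : C(I, Z) → G
  trans : ∀ {x y z : Z} (p : Path x y) (q : Path y z),
    m (p.trans q).toContinuousMap = m p.toContinuousMap * m q.toContinuousMap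
  htpy : ∀ γ γ' : C(I, Z), γ.HomotopicRel γ' {0, 1} → m γ = m γ'

variable {Z Z' : Type} [TopologicalSpace Z] [TopologicalSpace Z'] {G G' : Type} [Group G] [Group G']

/-- pull-back along a continuous map -/
def Mono.comap (μ : Mono Z G) (f : C(Z', Z)) : Mono Z' G where
  m γ := μ.m (f.comp γ)
  trans p q := by
    have h := μ.trans (p.map f.continuous) (q.map f.continuous)
    rw [← Path.map_trans] at h
    exact h
  htpy γ γ' h := μ.htpy _ _ (h.comp_continuousMap f)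

/-- push-forward along a group homomorphism -/
def Mono.map (μ : Mono Z G) (κ : G →* G') : Mono Z G' where
  m γ := κ (μ.m γ)
  trans p q := by rw [μ.trans, map_mul]
  htpy γ γ' h := by rw [μ.htpy _ _ h]

/-- change of gauge -/
def Mono.gauge (μ : Mono Z G) (e : Z → G) : Mono Z G where
  m γ := e (γ 0) * μ.m γ * (e (γ 1))⁻¹
  trans p q := by
    rw [μ.trans]
    simp [mul_assoc]
  htpy γ γ' h := by
    rw [μ.htpy _ _ h, h.fst_eq_snd (by simp : (0 : I) ∈ ({0, 1} : Set I)),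
      h.fst_eq_snd (by simp : (1 : I) ∈ ({0, 1} : Set I))]

/-- paths killed by every homomorphism -/
def Null (γ : C(I, Z)) : Prop := ∀ (G : Type) [Group G] (μ : Mono Z G), μ.m γ = 1

/-- universal homomorphisms -/
structure IsUniv (μ : Mono Z G) : Prop where
  full : ∀ z g, ∃ γ : C(I, Z), γ 0 = z ∧ γ 1 = z ∧ μ.m γ = g
  faith : ∀ γ : C(I, Z), γ 1 = γ 0 → μ.m γ = 1 → Null γ

/-- `exp (2 π i s)` -/
def ex (s : ℝ) : ℂ := Complex.exp (2 * Real.pi * Complex.I * s)

/-- the plane minus finitely many points -/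
def Pl {n : ℕ} (a : Fin n → ℂ) : Set ℂ := {z | ∀ i, z ≠ a i}

/-- `γ` is a positively oriented round circle enclosing exactly the points with index in `J` -/
def IsCirc {n : ℕ} (a : Fin n → ℂ) (J : Set (Fin n)) (γ : I → ℂ) : Prop :=
  ∃ c w : ℂ, (∀ s : I, γ s = c + w * ex s) ∧ ∀ i, i ∈ J ↔ ‖a i - c‖ < ‖w‖

/-- markings of the plane minus five points -/
structure IsMark (a : Fin 5 → ℂ) (μ : Mono (Pl a) F5) : Prop where
  univ : IsUniv μ
  one : ∀ i (γ : C(I, Pl a)), IsCirc a {i} (fun s => γ s) → IsConj (xx i) (μ.m γ)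
  all : ∀ γ : C(I, Pl a), IsCirc a Set.univ (fun s => γ s) → IsConj d5 (μ.m γ)

/-- total space of a one-parameter family of punctured planes -/
def Fam {n : ℕ} (a : I → Fin n → ℂ) : Set (I × ℂ) := {w | ∀ i, w.2 ≠ a w.1 i}

/-- inclusion of a fibre -/
def fib {n : ℕ} (a : I → Fin n → ℂ) (s : I) : C(Pl (a s), Fam a) :=
  ⟨fun z => ⟨(s, z.1), z.2⟩, by fun_prop⟩

/-- product of the generators with index in `[k, l)` -/
def seg (n k l : ℕ) : FreeGroup (Fin n) :=
  (((List.finRange n).filter fun i => k ≤ i.val ∧ i.val < l).map FreeGroup.of).prod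

/-- `f z` is asymptotic to a nonzero constant times `z ^ n` at the origin -/
def Asy (f : ℂ → ℂ) (n : ℤ) : Prop :=
  ∃ γ : ℂ, γ ≠ 0 ∧ Filter.Tendsto (fun z => f z / z ^ n) (nhdsWithin 0 {0}ᶜ) (nhds γ)

/-- a circle in a fibre of the open part of the plane -/
def FibCirc {S : Finset ℂ} (J : Set (Fin 5)) (γ : C(I, U0 S)) : Prop :=
  (∀ s, (γ s).1.1 = (γ 0).1.1) ∧ IsCirc (fun i => av i (γ 0).1.1) J fun s => (γ s).1.2

/-- the topological facts about the family of punctured planes over the complement of `S` -/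
structure TFacts (C : Finset F5) {S : Finset ℂ} (ε : ℝ) (u0 : U0 S) {P : Type} [Group P]
    (μ : Mono (U0 S) P) (D : TData P) : Prop where
  /-- loops in any fibre realise all classes -/
  fibre : ∀ δ : C(I, U0 S), δ 0 = u0 → ∀ g, ∃ γ : C(I, U0 S), γ 0 = δ 1 ∧ γ 1 = δ 1 ∧
    (∀ s, (γ s).1.1 = (δ 1).1.1) ∧ μ.m δ * μ.m γ * (μ.m δ)⁻¹ = D.ι g
  /-- square roots along the generators -/
  root : ∀ k (γ : C(I, U0 S)), γ 0 = u0 → γ 1 = u0 → (∀ s, (γ s).1.1 = u0.1.1) →
    μ.m γ = D.ι (xx k) → ∀ i (r : C(I, ℂ)), (∀ s, r s ^ 2 = (γ s).1.2 - av i u0.1.1) →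
      (r 1 = r 0 ↔ i ≠ k)
  /-- loops in the section -/
  sec : ∀ γ : C(I, U0 S), γ 0 = u0 → γ 1 = u0 → (∀ s, (γ s).1.2 = Rr (γ s).1.1) → μ.m γ ∈ D.Sec
  /-- classes of circles in the fibres -/
  circ : ∀ δ γ : C(I, U0 S), δ 0 = u0 → γ 0 = δ 1 → ∀ J, FibCirc J γ →
    ∃ g ∈ Orb C, μ.m δ * μ.m γ * (μ.m δ)⁻¹ = D.ι g ∧ (∀ i, J = {i} → IsConj (xx i) g) ∧
      (J = Set.univ → IsConj d5 g) ∧
      (J = {0, 1, 2} → (∀ s, ‖(δ s).1.1‖ < ε) → IsConj d3 g)

end Vale.Agent.P300
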