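import Mathlib

/-! P300: isotopies of the plane following finitely many moving points. -/

noncomputable section

namespace Vale.Agent.P300

open unitInterval

open Topology Filter in
theorem THLP_inv {P : Type} [TopologicalSpace P] (g : P × ℂ → ℂ) (hg : Continuous g)
    (hl : ∀ p y y', ‖g (p, y) - g (p, y')‖ ≤ 1 / 2 * ‖y - y'‖) :
    ∃ k : P × ℂ → ℂ, Continuous k ∧ (∀ p y, k (p, y + g (p, y)) = y) ∧
      ∀ p z, k (p, z) + g (p, k (p, z)) = z := by
  have hc : ∀ x : P × ℂ, ContractingWith (1 / 2) (fun y => x.2 - g (x.1, y)) := fun x => by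
    refine ⟨by norm_num, LipschitzWith.of_dist_le_mul fun y y' => ?_⟩
    rw [dist_eq_norm, dist_eq_norm, sub_sub_sub_cancel_left, norm_sub_rev]
    simpa using hl x.1 y y'
  have hf : ∀ x : P × ℂ, x.2 - g (x.1, ContractingWith.fixedPoint _ (hc x)) =
      ContractingWith.fixedPoint _ (hc x) := fun x => (hc x).fixedPoint_isFixedPt
  refine ⟨fun x => ContractingWith.fixedPoint _ (hc x), ?_, fun p y => ?_, fun p z => ?_⟩
  · rw [continuous_iff_continuousAt]
    intro x
    rw [ContinuousAt, tendsto_iff_dist_tendsto_zero]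
    generalize hy : ContractingWith.fixedPoint _ (hc x) = y
    have h0 : x.2 - g (x.1, y) = y := by rw [← hy]; exact hf x
    have h1 : Continuous fun x' : P × ℂ => dist y (x'.2 - g (x'.1, y)) / (1 - ((1 / 2 : NNReal) : ℝ)) := by
      fun_prop
    have h2 := h1.tendsto x
    rw [h0, dist_self, zero_div] at h2
    refine squeeze_zero (fun _ => dist_nonneg) (fun x' => ?_) h2
    rw [dist_comm]
    exact (hc x').dist_fixedPoint_le y
  · symm
    apply (hc _).fixedPoint_unique
    change y + g (p, y) - g (p, y) = y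
    ring
  · have h := hf (p, z)
    simp only at h ⊢
    linear_combination -h

theorem THLP_tent {δ : ℝ} (hδ : 0 < δ) (y y' c : ℂ) :
    |max 0 (1 - ‖y - c‖ / δ) - max 0 (1 - ‖y' - c‖ / δ)| ≤ ‖y - y'‖ / δ := by
  rw [max_comm 0, max_comm 0]
  refine (abs_max_sub_max_le_abs _ _ _).trans ?_
  rw [sub_sub_sub_cancel_left, ← sub_div, abs_div, abs_of_pos hδ, abs_sub_comm]
  gcongr
  refine (abs_norm_sub_norm_le _ _).trans ?_
  rw [sub_sub_sub_cancel_right]

theorem THLP_step {κ P : Type} [Fintype κ] [TopologicalSpace P] (a b : P → κ → ℂ)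
    (ha : ∀ i, Continuous fun p => a p i) (hb : ∀ i, Continuous fun p => b p i) {δ c : ℝ}
    (hδ : 0 < δ) (hsep : ∀ p i j, i ≠ j → δ ≤ ‖a p i - a p j‖)
    (hab : ∀ p i, ‖b p i - a p i‖ ≤ c) (hc : Fintype.card κ * c / δ ≤ 1 / 2) :
    ∃ h k : P × ℂ → ℂ, Continuous h ∧ Continuous k ∧
      (∀ p z, k (p, h (p, z)) = z) ∧ (∀ p z, h (p, k (p, z)) = z) ∧
      (∀ p z, b p = a p → h (p, z) = z) ∧ ∀ p i, h (p, a p i) = b p i := by
  classical
  let g : P × ℂ → ℂ := fun x =>
    ∑ i, ((max 0 (1 - ‖x.2 - a x.1 i‖ / δ) : ℝ) : ℂ) * (b x.1 i - a x.1 i)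
  have hg : Continuous g := by
    refine continuous_finsetSum _ fun i _ => ?_
    have h1 : Continuous fun x : P × ℂ => a x.1 i := (ha i).comp continuous_fst
    have h2 : Continuous fun x : P × ℂ => b x.1 i := (hb i).comp continuous_fst
    fun_prop
  obtain ⟨k, hk, hk1, hk2⟩ := THLP_inv g hg fun p y y' => by
    simp only [g]
    rw [← Finset.sum_sub_distrib]
    refine (norm_sum_le _ _).trans ?_
    refine (Finset.sum_le_card_nsmul _ _ (‖y - y'‖ / δ * c) fun i _ => ?_).trans ?_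
    · rw [← sub_mul, norm_mul, ← Complex.ofReal_sub, Complex.norm_real, Real.norm_eq_abs]
      exact mul_le_mul (THLP_tent hδ _ _ _) (hab p i) (norm_nonneg _) (by positivity)
    · rw [nsmul_eq_mul, Finset.card_univ]
      calc _ = Fintype.card κ * c / δ * ‖y - y'‖ := by ring
        _ ≤ _ := by gcongr
  refine ⟨fun x => x.2 + g x, k, by fun_prop, hk, hk1, hk2, fun p z h => ?_, fun p i => ?_⟩
  · simp [g, h]
  · simp only [g]
    rw [Finset.sum_eq_single i]
    · simp
    · intro j _ hj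
      have h : 1 - ‖a p i - a p j‖ / δ ≤ 0 := by
        rw [sub_nonpos, one_le_div hδ]
        exact hsep p i j hj.symm
      rw [max_eq_left h]
      simp
    · simp

open Topology Filter in
theorem THLP_sep {κ P : Type} [Finite κ] [TopologicalSpace P] [CompactSpace P]
    (a : P → κ → ℂ) (hc : ∀ i, Continuous fun p => a p i) (hi : ∀ p, Function.Injective (a p)) :
    ∃ δ : ℝ, 0 < δ ∧ ∀ p i j, i ≠ j → δ ≤ ‖a p i - a p j‖ := by
  have h : ∀ ij : κ × κ, ∀ᶠ δ in 𝓝[>] (0 : ℝ), ∀ p, ij.1 ≠ ij.2 → δ ≤ ‖a p ij.1 - a p ij.2‖ := by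
    rintro ⟨i, j⟩
    by_cases hij : i = j
    · exact Eventually.of_forall fun _ _ h => (h hij).elim
    · obtain ⟨d, hd, hd'⟩ := (isCompact_univ (X := P)).exists_forall_le'
        (f := fun p => ‖a p i - a p j‖) ((hc i).sub (hc j)).norm.continuousOn (a := 0)
        (fun p _ => norm_pos_iff.2 (sub_ne_zero.2 fun h => hij (hi p h)))
      filter_upwards [(eventually_le_nhds hd).filter_mono nhdsWithin_le_nhds] with δ hδ p _
      exact hδ.trans (hd' p trivial)
  obtain ⟨δ, h1, h2⟩ := ((eventually_all.2 h).and self_mem_nhdsWithin).exists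
  exact ⟨δ, h2, fun p i j hij => h1 (i, j) p hij⟩

theorem THLP_unif {κ T : Type} [Fintype κ] [TopologicalSpace T] [CompactSpace T]
    (a : I × T → κ → ℂ) (hc : ∀ i, Continuous fun p => a p i) {c : ℝ} (h0 : 0 < c) :
    ∃ η : ℝ, 0 < η ∧ ∀ s s' : I, dist s s' ≤ η → ∀ τ i, ‖a (s, τ) i - a (s', τ) i‖ ≤ c := by
  let F : C(I × T, κ → ℂ) := ⟨a, continuous_pi hc⟩
  obtain ⟨η, hη, h⟩ := Metric.uniformContinuous_iff.1
    (CompactSpace.uniformContinuous_of_continuous F.curry.continuous) c h0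
  refine ⟨η / 2, by positivity, fun s s' hs τ i => ?_⟩
  have h1 := h (a := s) (b := s') (by linarith)
  have h2 := ContinuousMap.dist_apply_le_dist (f := F.curry s) (g := F.curry s') τ
  have h3 := dist_le_pi_dist (F.curry s τ) (F.curry s' τ) i
  rw [← dist_eq_norm]
  exact (h3.trans h2).trans h1.le

theorem exists_isotopy {κ T : Type} [Finite κ] [TopologicalSpace T] [CompactSpace T]
    (a : I × T → κ → ℂ) (hc : ∀ i, Continuous fun p => a p i)
    (hi : ∀ p, Function.Injective (a p)) :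
    ∃ h k : (I × T) × ℂ → ℂ, Continuous h ∧ Continuous k ∧
      (∀ p z, k (p, h (p, z)) = z) ∧ (∀ p z, h (p, k (p, z)) = z) ∧
      (∀ τ z, h ((0, τ), z) = z) ∧ ∀ s τ i, h ((s, τ), a (0, τ) i) = a (s, τ) i := by
  have := Fintype.ofFinite κ
  obtain ⟨δ, hδ, hsep⟩ := THLP_sep a hc hi
  obtain ⟨η, hη, hu⟩ := THLP_unif a hc (c := δ / (2 * (Fintype.card κ + 1))) (by positivity)
  have hcd : (Fintype.card κ : ℝ) * (δ / (2 * (Fintype.card κ + 1))) / δ ≤ 1 / 2 := by
    rw [div_le_iff₀ hδ, ← mul_div_assoc, div_le_iff₀ (by positivity)]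
    linarith
  let u : ℕ → I → I := fun j s => min s (Set.projIcc 0 1 zero_le_one (j * η))
  have huc : ∀ j, Continuous (u j) := fun j => continuous_id.min continuous_const
  have hu0 : ∀ j, u j 0 = 0 := fun j => min_eq_left bot_le
  have hud : ∀ j s, dist (u (j + 1) s) (u j s) ≤ η := fun j s => by
    have h1 : dist (u (j + 1) s) (u j s) ≤ dist (Set.projIcc (0 : ℝ) 1 zero_le_one ((j + 1 : ℕ) * η))
        (Set.projIcc (0 : ℝ) 1 zero_le_one (j * η)) := by
      have hm : ∀ x y : I, ((min x y : I) : ℝ) = min (x : ℝ) y := fun x y =>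
        (Subtype.mono_coe _).map_min
      simp only [u, Subtype.dist_eq, Real.dist_eq, hm]
      refine (abs_min_sub_min_le_max _ _ _ _).trans ?_
      rw [sub_self, abs_zero, max_eq_right (abs_nonneg _)]
    have h2 := (LipschitzWith.projIcc (zero_le_one (α := ℝ))).dist_le_mul ((j + 1 : ℕ) * η) (j * η)
    refine h1.trans (h2.trans (le_of_eq ?_))
    rw [Real.dist_eq]
    push_cast
    rw [one_mul, add_mul, one_mul, add_sub_cancel_left, abs_of_pos hη]
  have key : ∀ j : ℕ, ∃ h k : (I × T) × ℂ → ℂ, Continuous h ∧ Continuous k ∧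
      (∀ p z, k (p, h (p, z)) = z) ∧ (∀ p z, h (p, k (p, z)) = z) ∧
      (∀ τ z, h ((0, τ), z) = z) ∧ ∀ s τ i, h ((s, τ), a (0, τ) i) = a (u j s, τ) i := by
    intro j
    induction j with
    | zero =>
      refine ⟨Prod.snd, Prod.snd, continuous_snd, continuous_snd, fun _ _ => rfl, fun _ _ => rfl,
        fun _ _ => rfl, fun s τ i => ?_⟩
      have h : u 0 s = 0 := by simp [u]
      rw [h]
    | succ j ih =>
      obtain ⟨h, k, hh, hk, h1, h2, h3, h4⟩ := ih
      obtain ⟨H, K, hH, hK, H1, H2, H3, H4⟩ := THLP_step (P := I × T)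
        (fun p => a (u j p.1, p.2)) (fun p => a (u (j + 1) p.1, p.2))
        (fun i => (hc i).comp (((huc j).comp continuous_fst).prodMk continuous_snd))
        (fun i => (hc i).comp (((huc (j + 1)).comp continuous_fst).prodMk continuous_snd))
        hδ (fun p => hsep _) (fun p i => hu _ _ (hud j p.1) p.2 i) hcd
      refine ⟨fun x => H (x.1, h x), fun x => k (x.1, K x), hH.comp (continuous_fst.prodMk hh),
        hk.comp (continuous_fst.prodMk hK), fun p z => ?_, fun p z => ?_, fun τ z => ?_,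
        fun s τ i => ?_⟩
      · simp only [H1, h1]
      · simp only [h2, H2]
      · simp only [h3]
        exact H3 (0, τ) z (by simp only [hu0])
      · simp only [h4]
        exact H4 (s, τ) i
  obtain ⟨N, hN⟩ := exists_nat_ge (1 / η)
  obtain ⟨h, k, hh, hk, h1, h2, h3, h4⟩ := key N
  refine ⟨h, k, hh, hk, h1, h2, h3, fun s τ i => ?_⟩
  have hN' : (1 : ℝ) ≤ N * η := by rwa [div_le_iff₀ hη] at hN
  have h : u N s = s := by
    simp only [u]
    rw [Set.projIcc_of_right_le _ hN']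
    exact min_eq_left le_top
  rw [h4, h]

end Vale.Agent.P300
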