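import Vale.Agent.P300.TBasis
import Vale.Agent.P300.TUniv
import Vale.Agent.P300.THLP

/-! P300: transport and comparison of markings. -/

noncomputable section

namespace Vale.Agent.P300

open unitInterval

theorem TMark_ne {p c w : ℂ} (h : ‖p - c‖ ≠ ‖w‖) (t : ℝ) : c + w * ex t ≠ p := by
  intro e
  apply h
  rw [← e, add_sub_cancel_left, norm_mul, norm_ex, mul_one]

theorem TMark_loop {n : ℕ} {a : Fin n → ℂ} {J : Set (Fin n)} {γ : C(I, Pl a)}
    (h : IsCirc a J fun s => γ s) : γ 1 = γ 0 := by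
  obtain ⟨c, w, h1, -⟩ := h
  have e1 : (γ 1 : ℂ) = c + w * ex ((1 : I) : ℝ) := h1 1
  have e0 : (γ 0 : ℂ) = c + w * ex ((0 : I) : ℝ) := h1 0
  have e2 : ex 1 = ex 0 := by rw [← ex_add_one 0, zero_add]
  refine Subtype.ext ?_
  rw [e1, e0, Set.Icc.coe_one, Set.Icc.coe_zero, e2]

/-- circles moving in a family are freely homotopic -/
theorem TMark_free {n : ℕ} {G : Type} [Group G] {a : I → Fin n → ℂ} (ν : Mono (Fam a) G) (s : I)
    (c w : I → ℂ) (hc : Continuous c) (hw : Continuous w) (h : ∀ l i, ‖a l i - c l‖ ≠ ‖w l‖)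
    (γ0 : C(I, Pl (a 0))) (γ1 : C(I, Pl (a s))) (h0 : ∀ t : I, (γ0 t : ℂ) = c 0 + w 0 * ex t)
    (h1 : ∀ t : I, (γ1 t : ℂ) = c s + w s * ex t) :
    IsConj (ν.m ((fib a 0).comp γ0)) (ν.m ((fib a s).comp γ1)) := by
  have hex := continuous_ex
  let H : I × I → Fam a := fun p =>
    ⟨(p.2 * s, c (p.2 * s) + w (p.2 * s) * ex p.1), fun i => TMark_ne (h _ i) _⟩
  have hH : Continuous H := by
    refine Continuous.subtype_mk ?_ _
    fun_prop
  have e2 : ex 1 = ex 0 := by rw [← ex_add_one 0, zero_add]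
  have key := ν.conj_of_free H hH (fun l => Subtype.ext (by
      simp only [H, Set.Icc.coe_one, Set.Icc.coe_zero, e2])) ((fib a 0).comp γ0)
    ⟨fun l => H (0, l), by fun_prop⟩ ((fib a s).comp γ1)
    (fun t => Subtype.ext (by
      change ((0 : I), (γ0 t : ℂ)) = _
      simp only [H, zero_mul, h0])) (fun _ => rfl)
    (fun t => Subtype.ext (by
      change (s, (γ1 t : ℂ)) = _
      simp only [H, one_mul, h1]))
  exact (isConj_iff.2 ⟨_, key.symm⟩).symm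

theorem TMark_step {a : I → Fin 5 → ℂ} (μ : Mono (Pl (a 0)) F5) (k : C(Fam a, Pl (a 0)))
    (hk : ∀ z, k (fib a 0 z) = z) (s : I) (c w : I → ℂ) (hc : Continuous c) (hw : Continuous w)
    (h : ∀ l i, ‖a l i - c l‖ ≠ ‖w l‖) (γ0 : C(I, Pl (a 0))) (γ1 : C(I, Pl (a s)))
    (h0 : ∀ t : I, (γ0 t : ℂ) = c 0 + w 0 * ex t) (h1 : ∀ t : I, (γ1 t : ℂ) = c s + w s * ex t) :
    IsConj (μ.m γ0) ((μ.comap (k.comp (fib a s))).m γ1) := by
  have h2 := TMark_free (μ.comap k) s c w hc hw h γ0 γ1 h0 h1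
  have e : k.comp ((fib a 0).comp γ0) = γ0 := ContinuousMap.ext fun t => hk _
  have h3 : IsConj (μ.m (k.comp ((fib a 0).comp γ0))) ((μ.comap (k.comp (fib a s))).m γ1) := h2
  rwa [e] at h3

theorem TMark_step' {a : I → Fin 5 → ℂ} (μ : Mono (Pl (a 0)) F5) (k : C(Fam a, Pl (a 0)))
    (hk : ∀ z, k (fib a 0 z) = z) (s : I) (c w : I → ℂ) (hc : Continuous c) (hw : Continuous w)
    (h : ∀ l i, ‖a l i - c l‖ ≠ ‖w l‖) {J : Set (Fin 5)}
    (hJ : ∀ l i, i ∈ J ↔ ‖a l i - c l‖ < ‖w l‖) {g : F5}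
    (hg : ∀ γ : C(I, Pl (a 0)), IsCirc (a 0) J (fun s => γ s) → IsConj g (μ.m γ))
    (γ : C(I, Pl (a s))) (hγ : IsCirc (a s) J fun t => γ t) :
    IsConj g ((μ.comap (k.comp (fib a s))).m γ) := by
  obtain ⟨γ0, h0⟩ := exists_circ (h 0)
  obtain ⟨γ1, h1⟩ := exists_circ (h s)
  exact ((hg γ0 ⟨_, _, h0, hJ 0⟩).trans (TMark_step μ k hk s c w hc hw h γ0 γ1 h0 h1)).trans
    (circ_conj _ ⟨_, _, h1, hJ s⟩ hγ)

theorem TMark_small {a : I → Fin 5 → ℂ} (hc : Continuous a) (ha : ∀ s, Function.Injective (a s))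
    (i : Fin 5) : ∃ w : I → ℂ, Continuous w ∧ (∀ l, 0 < ‖w l‖) ∧
      ∀ l j, j ≠ i → ‖w l‖ < ‖a l j - a l i‖ := by
  have hf : Continuous fun l => ∑ j, ‖a l j - a l i‖⁻¹ := by
    refine continuous_finset_sum _ fun j _ => ?_
    by_cases hj : j = i
    · simp only [hj, sub_self, norm_zero, inv_zero]
      exact continuous_const
    · refine Continuous.inv₀ (by fun_prop) fun l => ?_
      exact norm_ne_zero_iff.2 (sub_ne_zero.2 fun e => hj (ha l e))
  have hp : ∀ l, 0 < 1 + ∑ j, ‖a l j - a l i‖⁻¹ := fun l => by positivity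
  have hn : ∀ l, ‖(((1 + ∑ j, ‖a l j - a l i‖⁻¹)⁻¹ : ℝ) : ℂ)‖ = (1 + ∑ j, ‖a l j - a l i‖⁻¹)⁻¹ :=
    fun l => by rw [Complex.norm_real, Real.norm_of_nonneg (inv_pos.2 (hp l)).le]
  refine ⟨fun l => (((1 + ∑ j, ‖a l j - a l i‖⁻¹)⁻¹ : ℝ) : ℂ), Complex.continuous_ofReal.comp
    ((continuous_const.add hf).inv₀ fun l => (hp l).ne'), fun l => ?_, fun l j hj => ?_⟩
  · rw [hn]
    exact inv_pos.2 (hp l)
  · rw [hn]
    have h1 : 0 < ‖a l j - a l i‖ := norm_pos_iff.2 (sub_ne_zero.2 fun e => hj (ha l e))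
    have h2 : ‖a l j - a l i‖⁻¹ ≤ ∑ j, ‖a l j - a l i‖⁻¹ :=
      Finset.single_le_sum (f := fun j => ‖a l j - a l i‖⁻¹) (fun _ _ => by positivity)
        (Finset.mem_univ j)
    exact inv_lt_of_inv_lt₀ h1 (by linarith)

theorem TMark_big {n : ℕ} (a : Fin n → ℂ) (i : Fin n) :
    ‖a i - 0‖ < ‖((1 + ∑ j, ‖a j‖ : ℝ) : ℂ)‖ := by
  have h2 : ‖a i‖ ≤ ∑ j, ‖a j‖ :=
    Finset.single_le_sum (f := fun j => ‖a j‖) (fun _ _ => norm_nonneg _) (Finset.mem_univ i)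
  rw [Complex.norm_real, Real.norm_of_nonneg (by positivity), sub_zero]
  linarith

/-- transport of a marking along a path of configurations -/
theorem transport (a : I → Fin 5 → ℂ) (hc : Continuous a) (ha : ∀ s, Function.Injective (a s))
    (μ : Mono (Pl (a 0)) F5) (h : IsMark (a 0) μ) : ∃ k : C(Fam a, Pl (a 0)),
      (∀ z, k (fib a 0 z) = z) ∧ (∀ s, IsMark (a s) (μ.comap (k.comp (fib a s)))) ∧
      ∀ (G : Type) [Group G] (ν : Mono (Fam a) G) (Γ : C(I, Fam a)), (Γ 0).1.1 = 0 →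
        (Γ 1).1.1 = 0 → ν.m Γ = ν.m ((fib a 0).comp (k.comp Γ)) := by
  obtain ⟨h', k', hh', hk', e1, e2, e3, e4⟩ := exists_isotopy (T := Unit) (fun p => a p.1)
    (fun i => by fun_prop) fun p => ha p.1
  obtain ⟨H, hH⟩ : ∃ H : I × ℂ → ℂ, H = fun p => h' ((p.1, ()), p.2) := ⟨_, rfl⟩
  obtain ⟨K, hK⟩ : ∃ K : I × ℂ → ℂ, K = fun p => k' ((p.1, ()), p.2) := ⟨_, rfl⟩
  have cH : Continuous H := by rw [hH]; fun_prop
  have cK : Continuous K := by rw [hK]; fun_prop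
  have f1 : ∀ s z, K (s, H (s, z)) = z := fun s z => by rw [hH, hK]; exact e1 _ _
  have f2 : ∀ s z, H (s, K (s, z)) = z := fun s z => by rw [hH, hK]; exact e2 _ _
  have f3 : ∀ z, H (0, z) = z := fun z => by rw [hH]; exact e3 _ _
  have f4 : ∀ s i, H (s, a 0 i) = a s i := fun s i => by rw [hH]; exact e4 s () i
  have f5 : ∀ z, K (0, z) = z := fun z => by
    have := f1 0 z
    rwa [f3] at this
  have g1 : ∀ s z, (∀ i, z ≠ a s i) → ∀ i, K (s, z) ≠ a 0 i := fun s z hz i e =>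
    hz i (by rw [← f2 s z, e, f4])
  have g2 : ∀ s z, (∀ i, z ≠ a 0 i) → ∀ i, H (s, z) ≠ a s i := fun s z hz i e =>
    hz i (by rw [← f1 s z, e, ← f4, f1])
  let k : C(Fam a, Pl (a 0)) :=
    ⟨fun w => ⟨K w.1, g1 w.1.1 w.1.2 w.2⟩, (cK.comp continuous_subtype_val).subtype_mk _⟩
  have hk : ∀ z, k (fib a 0 z) = z := fun z => Subtype.ext (f5 z)
  refine ⟨k, hk, fun s => ⟨?_, fun i => ?_, ?_⟩, fun G _ ν Γ h0 h1 => ?_⟩
  · let f : Pl (a s) ≃ₜ Pl (a 0) :=
      { toFun := k.comp (fib a s)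
        invFun := fun z => ⟨H (s, z.1), g2 s z.1 z.2⟩
        left_inv := fun z => Subtype.ext (f2 s z)
        right_inv := fun z => Subtype.ext (f1 s z)
        continuous_toFun := (k.comp (fib a s)).continuous
        continuous_invFun := Continuous.subtype_mk (by fun_prop) _ }
    exact h.univ.comap f
  · obtain ⟨w, w1, w2, w3⟩ := TMark_small hc ha i
    refine TMark_step' μ k hk s (fun l => a l i) w (by fun_prop) w1 (fun l j => ?_)
      (fun l j => ?_) (h.one i)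
    · by_cases hj : j = i
      · rw [hj, sub_self, norm_zero]
        exact (w2 l).ne
      · exact (w3 l j hj).ne'
    · by_cases hj : j = i
      · rw [hj, sub_self, norm_zero]
        exact iff_of_true rfl (w2 l)
      · exact iff_of_false hj (w3 l j hj).not_gt
  · exact TMark_step' μ k hk s (fun _ => 0) (fun l => ((1 + ∑ j, ‖a l j‖ : ℝ) : ℂ))
      continuous_const (by fun_prop) (fun l j => (TMark_big (a l) j).ne)
      (fun l j => iff_of_true trivial (TMark_big (a l) j)) h.all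
  · let F : I × I → Fam a := fun p =>
      ⟨(p.2 * (Γ p.1).1.1, H (p.2 * (Γ p.1).1.1, K (Γ p.1).1)),
        g2 _ _ (g1 (Γ p.1).1.1 (Γ p.1).1.2 (Γ p.1).2)⟩
    have hF : Continuous F := by
      refine Continuous.subtype_mk ?_ _
      fun_prop
    have hend : ∀ t : I, (Γ t).1.1 = 0 → ∀ l, Γ t = F (t, l) := by
      intro t ht l
      refine Subtype.ext ?_
      have e : (Γ t).1 = (0, (Γ t).1.2) := Prod.ext ht rfl
      change (Γ t).1 = (l * (Γ t).1.1, H (l * (Γ t).1.1, K (Γ t).1))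
      rw [ht, mul_zero, f3, e, f5]
    have key := ν.sq F hF ((fib a 0).comp (k.comp Γ)) (ContinuousMap.const I (Γ 1))
      (ContinuousMap.const I (Γ 0)) Γ (fun t => Subtype.ext (by
        change ((0 : I), K (Γ t).1) = ((0 : I) * (Γ t).1.1, H (0 * (Γ t).1.1, K (Γ t).1))
        rw [zero_mul, f3])) (hend 1 h1) (hend 0 h0) (fun t => Subtype.ext (by
        change (Γ t).1 = ((1 : I) * (Γ t).1.1, H (1 * (Γ t).1.1, K ((Γ t).1.1, (Γ t).1.2)))
        rw [one_mul, f2]))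
    rw [ν.m_const (ContinuousMap.const I (Γ 1)) fun _ => rfl,
      ν.m_const (ContinuousMap.const I (Γ 0)) fun _ => rfl, mul_one, one_mul] at key
    exact key.symm

theorem IsMark.gauge {a : Fin 5 → ℂ} {μ : Mono (Pl a) F5} (h : IsMark a μ) (e : Pl a → F5) :
    IsMark a (μ.gauge e) := by
  have key : ∀ J (γ : C(I, Pl a)), IsCirc a J (fun s => γ s) →
      IsConj (μ.m γ) ((μ.gauge e).m γ) := by
    intro J γ hγ
    refine isConj_iff.2 ⟨e (γ 0), ?_⟩
    change _ = e (γ 0) * μ.m γ * (e (γ 1))⁻¹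
    rw [TMark_loop hγ]
  exact ⟨h.univ.gauge e, fun i γ hγ => (h.one i γ hγ).trans (key _ γ hγ),
    fun γ hγ => (h.all γ hγ).trans (key _ γ hγ)⟩

theorem TMark_pc {n : ℕ} (a : Fin n → ℂ) : PathConnectedSpace (Pl a) :=
  isPathConnected_iff_pathConnectedSpace.1 (isPathConnected_Pl a)

/-- two markings differ by an Artin automorphism and a gauge -/
theorem IsMark.compare {a : Fin 5 → ℂ} (ha : Function.Injective a) {μ μ' : Mono (Pl a) F5}
    (h : IsMark a μ) (h' : IsMark a μ') : ∃ (α : MulAut F5) (e : Pl a → F5), IsArtin α ∧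
      ∀ γ : C(I, Pl a), μ'.m γ = e (γ 0) * α (μ.m γ) * (e (γ 1))⁻¹ := by
  haveI := TMark_pc a
  obtain ⟨γa, hγa⟩ := exists_circ_all a
  obtain ⟨κ, e, -, he⟩ := h.univ.equiv h'.univ (γa 0)
  have key : ∀ J (γ : C(I, Pl a)), IsCirc a J (fun s => γ s) → ∀ g, IsConj g (μ.m γ) →
      IsConj g (μ'.m γ) → IsConj (κ g) g := by
    intro J γ hγ g h1 h2
    have h3 : IsConj (κ g) (κ (μ.m γ)) := κ.toMonoidHom.map_isConj h1
    have h4 : IsConj (κ (μ.m γ)) (μ'.m γ) := by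
      refine isConj_iff.2 ⟨e (γ 0), ?_⟩
      rw [he, TMark_loop hγ]
    exact (h3.trans h4).trans h2.symm
  obtain ⟨c, hc⟩ := isConj_iff.1 (key _ γa hγa d5 (h.all γa hγa) (h'.all γa hγa))
  refine ⟨MulAut.conj c * κ, fun z => e z * c⁻¹, ⟨fun i => ?_, hc⟩, fun γ => ?_⟩
  · obtain ⟨γ, hγ⟩ := exists_circ_one ha i
    exact (key _ γ hγ _ (h.one i γ hγ) (h'.one i γ hγ)).symm.trans (isConj_iff.2 ⟨c, rfl⟩)
  · rw [he, MulAut.mul_apply, MulAut.conj_apply]
    group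

theorem exists_mark (a : Fin 5 → ℂ) (ha : Function.Injective a) : ∃ μ, IsMark a μ := by
  have hm : StrictMono fun i : Fin 5 => (((i : ℕ) : ℝ) : ℂ).re := by
    intro i j hij
    simp only [Complex.ofReal_re]
    exact_mod_cast hij
  obtain ⟨μ, hμ, -⟩ := exists_mark_real (fun i : Fin 5 => (((i : ℕ) : ℝ) : ℂ))
    (fun i => Complex.ofReal_im _) hm
  have hi : Function.Injective fun i : Fin 5 => (((i : ℕ) : ℝ) : ℂ) := fun i j e =>
    hm.injective (congrArg Complex.re e)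
  generalize (fun i : Fin 5 => (((i : ℕ) : ℝ) : ℂ)) = a0 at μ hμ hi
  have hw : ∀ b : Fin 5 → ℂ, ((1 + ∑ j, ‖b j‖ : ℝ) : ℂ) ≠ 0 := fun b =>
    norm_pos_iff.1 ((norm_nonneg _).trans_lt (TMark_big b 0))
  obtain ⟨A, cc, ww, hA, -, -, hinj, h0, h1, -⟩ := exists_conf_path hi ha (hw a0) (hw a)
    (fun i => (TMark_big a0 i).ne) (fun i => (TMark_big a i).ne)
    fun i => iff_of_true (TMark_big a0 i) (TMark_big a i)
  subst h0 h1
  obtain ⟨k, -, hk, -⟩ := transport A hA hinj μ hμ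
  exact ⟨_, hk 1⟩

theorem TMark_off {n : ℕ} {a : Fin n → ℂ} {γ : C(I, Pl a)} {c w : ℂ} (hw : w ≠ 0)
    (h : ∀ s : I, (γ s : ℂ) = c + w * ex s) (i : Fin n) : ‖a i - c‖ ≠ ‖w‖ := by
  intro e
  obtain ⟨t, ht⟩ := exists_ex (w := (a i - c) / w) (by
    rw [norm_div, e, div_self (norm_ne_zero_iff.2 hw)])
  have e1 : ex t = ex (Int.fract t) := by
    conv_lhs => rw [← Int.floor_add_fract t, ex_add, ex_int, one_mul]
  refine (γ ⟨Int.fract t, Int.fract_nonneg t, (Int.fract_lt_one t).le⟩).2 i ?_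
  rw [h]
  change c + w * ex (Int.fract t) = a i
  rw [← e1, ← ht]
  field_simp
  ring

theorem TMark_orb (J : Set (Fin 5)) : ∃ g : F5, ∀ C : Finset F5, g ∈ C → ∀ (a : Fin 5 → ℂ),
    Function.Injective a → ∀ μ : Mono (Pl a) F5, IsMark a μ → ∀ γ : C(I, Pl a),
      IsCirc a J (fun s => γ s) → μ.m γ ∈ Orb C := by
  rcases J.eq_empty_or_nonempty with rfl | ⟨j, hj⟩
  · refine ⟨1, fun C hC a _ μ _ γ hγ => ?_⟩
    rw [circ_empty μ hγ]
    exact mem_Orb_self hC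
  by_cases hex : ∃ a : Fin 5 → ℂ, Function.Injective a ∧ ∃ μ : Mono (Pl a) F5, IsMark a μ ∧
    ∃ γ : C(I, Pl a), IsCirc a J fun s => γ s
  · obtain ⟨a0, ha0, μ0, hμ0, γ0, c0, w0, p0, q0⟩ := hex
    refine ⟨μ0.m γ0, fun C hC a ha μ hμ γ hγ => ?_⟩
    have hl := TMark_loop hγ
    obtain ⟨c, w, p, q⟩ := hγ
    have hw0 : w0 ≠ 0 := norm_pos_iff.1 ((norm_nonneg _).trans_lt ((q0 j).1 hj))
    have hw : w ≠ 0 := norm_pos_iff.1 ((norm_nonneg _).trans_lt ((q j).1 hj))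
    obtain ⟨A, cc, ww, hA, hcc, hww, hinj, h0, h1, c1, c2, c3, c4, hoff⟩ :=
      exists_conf_path ha0 ha hw0 hw (TMark_off hw0 p0) (TMark_off hw p)
        fun i => (q0 i).symm.trans (q i)
    subst h0 h1 c1 c2 c3 c4
    obtain ⟨k, hk0, hk, -⟩ := transport A hA hinj μ0 hμ0
    have h2 := Orb_conj (mem_Orb_self hC) (TMark_step μ0 k hk0 1 cc ww hcc hww hoff γ0 γ p0 p)
    obtain ⟨α, e, hα, he⟩ := (hk 1).compare ha hμ
    refine Orb_conj (Orb_artin h2 hα) (isConj_iff.2 ⟨e (γ 0), ?_⟩)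
    rw [he, hl]
  · exact ⟨1, fun C _ a ha μ hμ γ hγ => absurd ⟨a, ha, μ, hμ, γ, hγ⟩ hex⟩

/-- finitely many orbits of circles -/
theorem exists_orb : ∃ C : Finset F5, ∀ (a : Fin 5 → ℂ), Function.Injective a →
    ∀ μ : Mono (Pl a) F5, IsMark a μ → ∀ J (γ : C(I, Pl a)), IsCirc a J (fun s => γ s) →
      μ.m γ ∈ Orb C := by
  choose g hg using TMark_orb
  exact ⟨(Set.finite_range g).toFinset, fun a ha μ hμ J γ hγ =>
    hg J _ ((Set.finite_range g).mem_toFinset.2 ⟨J, rfl⟩) a ha μ hμ γ hγ⟩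

theorem TMark_log {u : ℂ} (hu : ‖u‖ < 1) (n : ℤ) : ∃ l : C(I, ℂ), l 1 = l 0 ∧
    ∀ s : I, Complex.exp (l s) = 1 + u * ex (n * s) := by
  have hex := continuous_ex
  have hs : ∀ t : ℝ, 1 + u * ex t ∈ Complex.slitPlane := fun t =>
    Complex.mem_slitPlane_of_norm_lt_one (by rwa [norm_mul, norm_ex, mul_one])
  refine ⟨⟨fun s => Complex.log (1 + u * ex (n * s)), Continuous.clog (by fun_prop) fun s => hs _⟩,
    ?_, fun s => Complex.exp_log (Complex.slitPlane_ne_zero (hs _))⟩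
  change Complex.log (1 + u * ex (n * ((1 : I) : ℝ))) = Complex.log (1 + u * ex (n * ((0 : I) : ℝ)))
  rw [Set.Icc.coe_one, Set.Icc.coe_zero, mul_one, mul_zero, ex_int, ex_zero]

theorem TMark_out {p c w : ℂ} (h : ‖w‖ < ‖p - c‖) : ∃ l : C(I, ℂ), l 1 - l 0 = 0 ∧
    ∀ s : I, Complex.exp (l s) = c + w * ex s - p := by
  have h0 : c - p ≠ 0 := by
    rw [sub_ne_zero]
    rintro rfl
    rw [sub_self, norm_zero] at h
    exact (norm_nonneg _).not_gt h
  obtain ⟨l, h1, h2⟩ := TMark_log (u := w / (c - p)) (by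
    rw [norm_div, div_lt_one (norm_pos_iff.2 h0), norm_sub_rev]
    exact h) 1
  refine ⟨⟨fun s => Complex.log (c - p) + l s, by fun_prop⟩, ?_, fun s => ?_⟩
  · change Complex.log (c - p) + l 1 - (Complex.log (c - p) + l 0) = 0
    rw [h1, sub_self]
  · change Complex.exp (Complex.log (c - p) + l s) = _
    rw [Complex.exp_add, Complex.exp_log h0, h2, Int.cast_one, one_mul]
    field_simp
    ring

theorem TMark_in {p c w : ℂ} (h : ‖p - c‖ < ‖w‖) : ∃ l : C(I, ℂ),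
    l 1 - l 0 = 2 * Real.pi * Complex.I ∧ ∀ s : I, Complex.exp (l s) = c + w * ex s - p := by
  have h0 : w ≠ 0 := norm_pos_iff.1 ((norm_nonneg _).trans_lt h)
  obtain ⟨l, h1, h2⟩ := TMark_log (u := (c - p) / w) (by
    rw [norm_div, div_lt_one (norm_pos_iff.2 h0), norm_sub_rev]
    exact h) (-1)
  refine ⟨⟨fun s => Complex.log w + 2 * Real.pi * Complex.I * ((s : ℝ) : ℂ) + l s, by fun_prop⟩,
    ?_, fun s => ?_⟩
  · change Complex.log w + 2 * Real.pi * Complex.I * (((1 : I) : ℝ) : ℂ) + l 1 -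
      (Complex.log w + 2 * Real.pi * Complex.I * (((0 : I) : ℝ) : ℂ) + l 0) = _
    rw [h1, Set.Icc.coe_one, Set.Icc.coe_zero]
    push_cast
    ring
  · change Complex.exp (Complex.log w + 2 * Real.pi * Complex.I * ((s : ℝ) : ℂ) + l s) = _
    have e : ex s * ex (((-1 : ℤ) : ℝ) * s) = 1 := by
      rw [← ex_add, ← ex_zero]
      congr 1
      push_cast
      ring
    rw [Complex.exp_add, Complex.exp_add, Complex.exp_log h0, h2]
    change w * ex s * _ = _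
    have e2 : w * ((c - p) / w) = c - p := mul_div_cancel₀ _ h0
    linear_combination (w * ((c - p) / w)) * e + e2

/-- square roots along loops representing the generators -/
theorem IsMark.root {a : Fin 5 → ℂ} (ha : Function.Injective a) {μ : Mono (Pl a) F5}
    (h : IsMark a μ) (k : Fin 5) (γ : C(I, Pl a)) (hγ : γ 1 = γ 0) (hk : μ.m γ = xx k) (i : Fin 5)
    (r : C(I, ℂ)) (hr : ∀ s, r s ^ 2 = γ s - a i) : r 1 = r 0 ↔ i ≠ k := by
  haveI := TMark_pc a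
  obtain ⟨ν, ν1, ν2⟩ := exists_wind
  let f : C(Pl a, {z : ℂ | z ≠ 0}) :=
    ⟨fun z => ⟨z.1 - a i, sub_ne_zero.2 (z.2 i)⟩, Continuous.subtype_mk (by fun_prop) _⟩
  obtain ⟨κ, e, -, he⟩ := h.univ.lift (ν.comap f) (γ 0)
  have hloop : ∀ δ : C(I, Pl a), δ 1 = δ 0 → ν.m (f.comp δ) = κ (μ.m δ) := by
    intro δ hδ
    have h1 : ν.m (f.comp δ) = _ := he δ
    rw [h1, hδ, mul_inv_cancel_comm]
  obtain ⟨δ, hδ⟩ := exists_circ_one ha k
  have h2 : ν.m (f.comp γ) = ν.m (f.comp δ) := by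
    rw [hloop γ hγ, hloop δ (TMark_loop hδ), hk]
    exact isConj_iff_eq.1 (κ.map_isConj (h.one k δ hδ))
  obtain ⟨c, w, p, q⟩ := hδ
  have hw : w ≠ 0 := norm_pos_iff.1 ((norm_nonneg _).trans_lt ((q k).1 rfl))
  obtain ⟨l, hl⟩ := ν1 (f.comp γ)
  have hl' : ∀ s, Complex.exp (l s) = γ s - a i := hl
  have h3 : ∀ l' : C(I, ℂ), (∀ s : I, Complex.exp (l' s) = c + w * ex s - a i) →
      l 1 - l 0 = l' 1 - l' 0 := by
    intro l' hl2
    have h4 := ν2 (f.comp δ) l' fun s => by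
      rw [hl2]
      change _ = (δ s : ℂ) - a i
      rw [show (δ s : ℂ) = c + w * ex s from p s]
    rw [← h2, ν2 _ l hl] at h4
    exact Multiplicative.ofAdd.injective h4
  have h5 : ∃ ε : ℂ, ε ≠ 0 ∧ ∀ s, r s = ε * Complex.exp (l s / 2) := by
    have h6 := (isPreconnected_univ (α := I)).eq_one_or_eq_neg_one_of_sq_eq
      (f := fun s => r s * Complex.exp (-(l s / 2))) (by fun_prop) fun s _ => by
        change (r s * Complex.exp (-(l s / 2))) ^ 2 = 1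
        rw [mul_pow, hr, ← hl', ← Complex.exp_nat_mul, ← Complex.exp_add, ← Complex.exp_zero]
        congr 1
        push_cast
        ring
    have h7 : ∀ ε : ℂ, (∀ s, r s * Complex.exp (-(l s / 2)) = ε) →
        ∀ s, r s = ε * Complex.exp (l s / 2) := by
      intro ε hε s
      rw [← hε s, mul_assoc, ← Complex.exp_add, neg_add_cancel, Complex.exp_zero, mul_one]
    rcases h6 with h6 | h6
    · exact ⟨1, one_ne_zero, h7 1 fun s => h6 (Set.mem_univ s)⟩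
    · exact ⟨-1, neg_ne_zero.2 one_ne_zero, h7 (-1) fun s => h6 (Set.mem_univ s)⟩
  obtain ⟨ε, hε, h8⟩ := h5
  rw [h8, h8]
  by_cases hik : i = k
  · obtain ⟨l', a1, a2⟩ := TMark_in ((q i).1 hik)
    have a3 : l 1 / 2 = l 0 / 2 + Real.pi * Complex.I := by
      have := h3 l' a2
      rw [a1] at this
      linear_combination this / 2
    refine iff_of_false (fun h9 => ?_) (not_not.2 hik)
    rw [a3, Complex.exp_add, Complex.exp_pi_mul_I] at h9
    have a4 : ε * Complex.exp (l 0 / 2) = 0 := by linear_combination h9 / (-2)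
    exact mul_ne_zero hε (Complex.exp_ne_zero _) a4
  · obtain ⟨l', a1, a2⟩ := TMark_out (lt_of_le_of_ne (not_lt.1 fun h9 => hik ((q i).2 h9))
      (TMark_off hw p i).symm)
    have a3 := h3 l' a2
    rw [a1, sub_eq_zero] at a3
    exact iff_of_true (by rw [a3]) hik

end Vale.Agent.P300
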