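import Vale.Agent.P300.TDefs

/-! P300: basic properties of groupoid homomorphisms. -/

noncomputable section

namespace Vale.Agent.P300

open unitInterval

variable {Z Z' : Type} [TopologicalSpace Z] [TopologicalSpace Z'] {G G' : Type} [Group G] [Group G']

/-- concatenation of paths given as continuous maps -/
def cat (γ γ' : C(I, Z)) (h : γ' 0 = γ 1) : C(I, Z) :=
  ((⟨γ, rfl, rfl⟩ : Path (γ 0) (γ 1)).trans ⟨γ', h, rfl⟩).toContinuousMap

/-- the reversed path -/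
def rev (γ : C(I, Z)) : C(I, Z) := γ.comp ⟨unitInterval.symm, continuous_symm⟩

theorem cat_zero (γ γ' : C(I, Z)) (h : γ' 0 = γ 1) : cat γ γ' h 0 = γ 0 := by
  exact Path.source ((⟨γ, rfl, rfl⟩ : Path (γ 0) (γ 1)).trans ⟨γ', h, rfl⟩)
theorem cat_one (γ γ' : C(I, Z)) (h : γ' 0 = γ 1) : cat γ γ' h 1 = γ' 1 := by
  exact Path.target ((⟨γ, rfl, rfl⟩ : Path (γ 0) (γ 1)).trans ⟨γ', h, rfl⟩)
theorem cat_mem (γ γ' : C(I, Z)) (h : γ' 0 = γ 1) (s : I) :
    (∃ s', cat γ γ' h s = γ s') ∨ ∃ s', cat γ γ' h s = γ' s' := by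
  have h1 : cat γ γ' h s ∈ Set.range ((⟨γ, rfl, rfl⟩ : Path (γ 0) (γ 1)).trans
      (⟨γ', h, rfl⟩ : Path (γ 1) (γ' 1))) := ⟨s, rfl⟩
  rw [Path.trans_range] at h1
  rcases h1 with ⟨s', hs⟩ | ⟨s', hs⟩
  · exact Or.inl ⟨s', hs.symm⟩
  · exact Or.inr ⟨s', hs.symm⟩
theorem comp_cat (f : C(Z, Z')) (γ γ' : C(I, Z)) (h : γ' 0 = γ 1) :
    f.comp (cat γ γ' h) = cat (f.comp γ) (f.comp γ') (congrArg f h) := by
  have h1 := Path.map_trans (⟨γ, rfl, rfl⟩ : Path (γ 0) (γ 1))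
    (⟨γ', h, rfl⟩ : Path (γ 1) (γ' 1)) f.continuous
  exact congrArg Path.toContinuousMap h1
theorem rev_zero (γ : C(I, Z)) : rev γ 0 = γ 1 := by
  simp [rev]
theorem rev_one (γ : C(I, Z)) : rev γ 1 = γ 0 := by
  simp [rev]
theorem comp_rev (f : C(Z, Z')) (γ : C(I, Z)) : f.comp (rev γ) = rev (f.comp γ) := rfl

namespace Mono

variable (μ : Mono Z G)

theorem TMono_refl (x : Z) : μ.m (Path.refl x).toContinuousMap = 1 := by
  have h := μ.trans (Path.refl x) (Path.refl x)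
  rw [Path.refl_trans_refl] at h
  exact (mul_eq_left.1 h.symm)

theorem TMono_htpy {x y : Z} {p q : Path x y} (h : p.Homotopic q) :
    μ.m p.toContinuousMap = μ.m q.toContinuousMap := μ.htpy _ _ h

theorem m_cat (γ γ' : C(I, Z)) (h : γ' 0 = γ 1) : μ.m (cat γ γ' h) = μ.m γ * μ.m γ' := by
  exact μ.trans (⟨γ, rfl, rfl⟩ : Path (γ 0) (γ 1)) (⟨γ', h, rfl⟩ : Path (γ 1) (γ' 1))
theorem m_const (γ : C(I, Z)) (h : ∀ s, γ s = γ 0) : μ.m γ = 1 := by
  have h1 : γ = (Path.refl (γ 0)).toContinuousMap := by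
    ext s
    exact h s
  rw [h1]
  exact μ.TMono_refl _
theorem m_rev (γ : C(I, Z)) : μ.m (rev γ) = (μ.m γ)⁻¹ := by
  have h1 := μ.trans (⟨γ, rfl, rfl⟩ : Path (γ 0) (γ 1)) (⟨γ, rfl, rfl⟩ : Path (γ 0) (γ 1)).symm
  have h2 := μ.TMono_htpy
    (⟨Path.Homotopy.reflTransSymm (⟨γ, rfl, rfl⟩ : Path (γ 0) (γ 1))⟩ : Path.Homotopic _ _)
  rw [μ.TMono_refl, h1] at h2
  exact (eq_inv_of_mul_eq_one_right h2.symm)

theorem TMono_on {O : Set Z} (hO : IsPathConnected O)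
    (h : ∀ γ : C(I, Z), (∀ s, γ s ∈ O) → γ 1 = γ 0 → μ.m γ = 1) :
    ∃ e : Z → G, ∀ γ : C(I, Z), (∀ s, γ s ∈ O) → μ.m γ = (e (γ 0))⁻¹ * e (γ 1) := by
  classical
  obtain ⟨x, -, hx⟩ := hO
  have h1 : ∀ z, z ∈ O → ∃ δ : C(I, Z), δ 0 = x ∧ δ 1 = z ∧ ∀ s, δ s ∈ O := by
    intro z hz
    obtain ⟨p, hp⟩ := hx hz
    exact ⟨p.toContinuousMap, p.source, p.target, hp⟩
  choose P h0 h1' hP using h1
  refine ⟨fun z => if hz : z ∈ O then μ.m (P z hz) else 1, fun γ hγ => ?_⟩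
  simp only [dif_pos (hγ 0), dif_pos (hγ 1)]
  have e1 : γ 0 = P _ (hγ 0) 1 := (h1' _ _).symm
  have e2 : rev (P _ (hγ 1)) 0 = cat (P _ (hγ 0)) γ e1 1 := by
    rw [rev_zero, cat_one, h1']
  have h3 := h (cat (cat (P _ (hγ 0)) γ e1) (rev (P _ (hγ 1))) e2) (fun s => by
    rcases cat_mem _ _ e2 s with ⟨s', hs⟩ | ⟨s', hs⟩
    · rw [hs]
      rcases cat_mem _ _ e1 s' with ⟨s'', hs'⟩ | ⟨s'', hs'⟩
      · rw [hs']; exact hP _ _ _
      · rw [hs']; exact hγ _
    · rw [hs]; exact hP _ _ _) (by rw [cat_one, cat_zero, cat_zero, rev_one, h0, h0])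
  rw [m_cat, m_cat, m_rev, mul_inv_eq_one] at h3
  rw [← h3, inv_mul_cancel_left]

/-- on a simply connected space every homomorphism is a coboundary -/
theorem cobdry [SimplyConnectedSpace Z] :
    ∃ e : Z → G, ∀ γ : C(I, Z), μ.m γ = (e (γ 0))⁻¹ * e (γ 1) := by
  obtain ⟨e, he⟩ := μ.TMono_on (O := Set.univ) isPathConnected_univ (fun γ _ h => by
    have h1 := μ.TMono_htpy (SimplyConnectedSpace.paths_homotopic
      (⟨γ, rfl, h⟩ : Path (γ 0) (γ 0)) (Path.refl _))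
    rw [μ.TMono_refl] at h1
    exact h1)
  exact ⟨e, fun γ => he γ fun _ => Set.mem_univ _⟩

/-- a homomorphism trivial on the loops in a path connected set is a coboundary there -/
theorem cobdry_on {O : Set Z} (hO : IsPathConnected O)
    (h : ∀ γ : C(I, Z), (∀ s, γ s ∈ O) → γ 1 = γ 0 → μ.m γ = 1) :
    ∃ e : Z → G, ∀ γ : C(I, Z), (∀ s, γ s ∈ O) → μ.m γ = (e (γ 0))⁻¹ * e (γ 1) := by
  exact μ.TMono_on hO h

/-- paths that factor through a convex set -/
theorem cobdry_convex {V : Type} [AddCommGroup V] [Module ℝ V] [TopologicalSpace V]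
    [IsTopologicalAddGroup V] [ContinuousSMul ℝ V] {X : Set V} (hX : Convex ℝ X) (F : V → Z)
    (hF : ContinuousOn F X) : ∃ e : V → G, ∀ (γ : C(I, Z)) (c : I → V), Continuous c →
      (∀ s, c s ∈ X) → (∀ s, γ s = F (c s)) → μ.m γ = (e (c 0))⁻¹ * e (c 1) := by
  classical
  rcases X.eq_empty_or_nonempty with rfl | hne
  · exact ⟨fun _ => 1, fun γ c _ hc _ => (hc 0).elim⟩
  have := hX.contractibleSpace hne
  obtain ⟨e, he⟩ := (μ.comap ⟨X.domRestrict F, hF.domRestrict⟩).cobdry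
  refine ⟨fun v => if hv : v ∈ X then e ⟨v, hv⟩ else 1, fun γ c hc hcX hγ => ?_⟩
  simp only [dif_pos (hcX 0), dif_pos (hcX 1)]
  have h1 := he ⟨fun s => ⟨c s, hcX s⟩, hc.subtype_mk _⟩
  have h2 : γ = (⟨X.domRestrict F, hF.domRestrict⟩ : C(X, Z)).comp
      ⟨fun s => ⟨c s, hcX s⟩, hc.subtype_mk _⟩ := by
    ext s
    exact hγ s
  rw [h2]
  exact h1

/-- the square relation: bottom, right, left, top -/
theorem sq (H : I × I → Z) (hH : Continuous H) (b r l t : C(I, Z)) (hb : ∀ s, b s = H (s, 0))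
    (hr : ∀ s, r s = H (1, s)) (hl : ∀ s, l s = H (0, s)) (ht : ∀ s, t s = H (s, 1)) :
    μ.m b * μ.m r = μ.m l * μ.m t := by
  obtain ⟨e, he⟩ := μ.cobdry_convex (V := ℝ × ℝ) convex_univ
    (fun v => H (Set.projIcc 0 1 zero_le_one v.1, Set.projIcc 0 1 zero_le_one v.2))
    (hH.comp ((continuous_projIcc.comp continuous_fst).prodMk
      (continuous_projIcc.comp continuous_snd))).continuousOn
  have z0 : Set.projIcc (0 : ℝ) 1 zero_le_one 0 = (0 : I) := Set.projIcc_left _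
  have z1 : Set.projIcc (0 : ℝ) 1 zero_le_one 1 = (1 : I) := Set.projIcc_right _
  have zs : ∀ s : I, Set.projIcc (0 : ℝ) 1 zero_le_one s = s := fun s => Set.projIcc_val _ s
  have e1 := he b (fun s => (s, 0)) (by fun_prop) (fun _ => trivial) (fun s => by
    simp only [z0, zs, hb])
  have e2 := he r (fun s => (1, s)) (by fun_prop) (fun _ => trivial) (fun s => by
    simp only [z1, zs, hr])
  have e3 := he l (fun s => (0, s)) (by fun_prop) (fun _ => trivial) (fun s => by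
    simp only [z0, zs, hl])
  have e4 := he t (fun s => (s, 1)) (by fun_prop) (fun _ => trivial) (fun s => by
    simp only [z1, zs, ht])
  simp only [Set.Icc.coe_zero, Set.Icc.coe_one] at e1 e2 e3 e4
  rw [e1, e2, e3, e4]
  simp only [mul_assoc, mul_inv_cancel_left]

/-- freely homotopic loops have conjugate values -/
theorem conj_of_free (H : I × I → Z) (hH : Continuous H) (hl : ∀ s, H (1, s) = H (0, s))
    (b l t : C(I, Z)) (hb : ∀ s, b s = H (s, 0)) (hl' : ∀ s, l s = H (0, s))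
    (ht : ∀ s, t s = H (s, 1)) : μ.m b = μ.m l * μ.m t * (μ.m l)⁻¹ := by
  have h1 := μ.sq H hH b l l t hb (fun s => by rw [hl', hl]) hl' ht
  rw [← h1, mul_inv_cancel_right]

/-- product of two homomorphisms -/
def TMono_prod (μ' : Mono Z G') : Mono Z (G × G') where
  m γ := (μ.m γ, μ'.m γ)
  trans p q := by rw [μ.trans, μ'.trans]; rfl
  htpy γ γ' h := by rw [μ.htpy _ _ h, μ'.htpy _ _ h]

theorem TMono_ind (Q : Z → G → Z → Prop)
    (hQ : ∀ x y z g g', Q x g y → Q y g' z → Q x (g * g') z) (γ : C(I, Z))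
    (h : ∀ s : I, ∃ O ∈ nhds (γ s), ∀ γ' : C(I, Z), (∀ s', γ' s' ∈ O) → (∀ s', ∃ s'', γ' s' = γ s'') →
      Q (γ' 0) (μ.m γ') (γ' 1)) : Q (γ 0) (μ.m γ) (γ 1) := by
  choose O hO hQO using h
  have hF : Continuous fun v : ℝ => γ (Set.projIcc 0 1 zero_le_one v) :=
    γ.continuous.comp continuous_projIcc
  obtain ⟨e, he⟩ := μ.cobdry_convex (V := ℝ) convex_univ _ hF.continuousOn
  have zs : ∀ s : I, Set.projIcc (0 : ℝ) 1 zero_le_one s = s := fun s => Set.projIcc_val _ s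
  obtain ⟨t, t0, tm, ⟨N, hN⟩, ht⟩ := exists_monotone_Icc_subset_open_cover_unitInterval
    (c := fun s : I => interior (γ ⁻¹' O s)) (fun _ => isOpen_interior) (fun s _ =>
      Set.mem_iUnion.2 ⟨s, mem_interior_iff_mem_nhds.2
        (γ.continuous.continuousAt.preimage_mem_nhds (hO s))⟩)
  have step : ∀ n, Q (γ (t n)) ((e (t n))⁻¹ * e (t (n + 1))) (γ (t (n + 1))) := by
    intro n
    obtain ⟨i, hi⟩ := ht n
    have hc : Continuous fun s : I => (t n : ℝ) + s * (t (n + 1) - t n) := by fun_prop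
    have hle : (t n : ℝ) ≤ t (n + 1) := tm (Nat.le_succ n)
    have h1 := hQO i ⟨fun s => γ (Set.projIcc 0 1 zero_le_one
      ((t n : ℝ) + s * (t (n + 1) - t n))), hF.comp hc⟩ (fun s => by
        have a0 := s.2.1
        have a1 := s.2.2
        have b0 := (t n).2.1
        have b1 := (t (n + 1)).2.2
        have c0 : (t n : ℝ) ≤ (t n : ℝ) + s * (t (n + 1) - t n) := by nlinarith
        have c1 : (t n : ℝ) + s * (t (n + 1) - t n) ≤ t (n + 1) := by nlinarith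
        have hm : (t n : ℝ) + s * (t (n + 1) - t n) ∈ Set.Icc (0 : ℝ) 1 :=
          ⟨b0.trans c0, c1.trans b1⟩
        have : Set.projIcc 0 1 zero_le_one ((t n : ℝ) + s * (t (n + 1) - t n)) ∈
            Set.Icc (t n) (t (n + 1)) := by
          rw [Set.projIcc_of_mem _ hm]
          exact ⟨c0, c1⟩
        exact (interior_subset (hi this) : _ ∈ γ ⁻¹' O i)) (fun s => ⟨_, rfl⟩)
    rw [he _ _ hc (fun _ => trivial) (fun _ => rfl)] at h1
    simp only [ContinuousMap.coe_mk, Set.Icc.coe_zero, Set.Icc.coe_one, zero_mul, add_zero,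
      one_mul, add_sub_cancel, zs] at h1
    exact h1
  have all : ∀ n, Q (γ (t 0)) ((e (t 0))⁻¹ * e (t (n + 1))) (γ (t (n + 1))) := by
    intro n
    induction n with
    | zero => exact step 0
    | succ n ih =>
      have h1 := hQ _ _ _ _ _ ih (step (n + 1))
      rwa [mul_assoc, mul_inv_cancel_left] at h1
  have h1 := all N
  rw [hN (N + 1) (Nat.le_succ N), t0] at h1
  rw [he γ (fun s => s) continuous_subtype_val (fun _ => trivial) (fun s => by rw [zs])]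
  exact h1

/-- homomorphisms that agree on short paths agree -/
theorem eq_of_local (μ' : Mono Z G)
    (h : ∀ z, ∃ O ∈ nhds z, ∀ γ : C(I, Z), (∀ s, γ s ∈ O) → μ.m γ = μ'.m γ) (γ : C(I, Z)) :
    μ.m γ = μ'.m γ := by
  refine (μ.TMono_prod μ').TMono_ind (fun _ g _ => g.1 = g.2) ?_ γ fun s => ?_
  · intro x y z g g' h1 h2
    simp only [Prod.fst_mul, Prod.snd_mul, h1, h2]
  · obtain ⟨O, hO, h1⟩ := h (γ s)
    exact ⟨O, hO, fun γ' h2 _ => h1 γ' h2⟩

/-- a property of values of short paths closed under products holds for all paths -/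
theorem induction_local (Q : Z → G → Z → Prop)
    (hQ : ∀ x y z g g', Q x g y → Q y g' z → Q x (g * g') z) (γ : C(I, Z))
    (h : ∀ s : I, ∃ O ∈ nhds (γ s), ∀ γ' : C(I, Z), (∀ s', γ' s' ∈ O) → (∀ s', ∃ s'', γ' s' = γ s'') →
      Q (γ' 0) (μ.m γ') (γ' 1)) : Q (γ 0) (μ.m γ) (γ 1) := by
  exact μ.TMono_ind Q hQ γ h

theorem TMono_pow (f : ℤ → G) (g : G) (h : ∀ k, f (k + 1) = f k * g) (n : ℤ) :
    f n = f 0 * g ^ n := by
  induction n using Int.induction_on with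
  | zero => simp
  | succ n ih => rw [h, ih, zpow_add_one, mul_assoc]
  | pred n ih =>
    have h1 := h (-(n : ℤ) - 1)
    rw [sub_add_cancel, ih] at h1
    rw [zpow_sub_one, ← mul_assoc, h1, mul_inv_cancel_right]

/-- iterated loops -/
theorem m_per (Ψ : ℝ → Z) (hΨ : Continuous Ψ) (hp : ∀ s, Ψ (s + 1) = Ψ s) (n : ℤ)
    (γ γ' : C(I, Z)) (hγ : ∀ s : I, γ s = Ψ s) (hγ' : ∀ s : I, γ' s = Ψ (n * s)) :
    μ.m γ' = μ.m γ ^ n := by
  obtain ⟨e, he⟩ := μ.cobdry_convex (V := ℝ) convex_univ Ψ hΨ.continuousOn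
  have hP : Function.Periodic Ψ 1 := hp
  have h1 : ∀ k : ℤ, e ((k + 1 : ℤ) : ℝ) = e k * μ.m γ := by
    intro k
    rw [he γ (fun s => s + k) (by fun_prop) (fun _ => trivial) (fun s => by
      have := hP.int_mul k s
      rw [mul_one] at this
      rw [hγ, this])]
    simp [add_comm]
  have h2 := TMono_pow (fun k : ℤ => e k) _ h1 n
  rw [he γ' (fun s => n * s) (by fun_prop) (fun _ => trivial) hγ']
  simp only [Set.Icc.coe_zero, Set.Icc.coe_one, mul_zero, mul_one]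
  simp only [Int.cast_zero] at h2
  rw [h2, inv_mul_cancel_left]

/-- loops on a torus -/
theorem m_torus (Ψ : ℝ × ℝ → Z) (hΨ : Continuous Ψ) (h1 : ∀ s t, Ψ (s + 1, t) = Ψ (s, t))
    (h2 : ∀ s t, Ψ (s, t + 1) = Ψ (s, t)) (α β : C(I, Z)) (hα : ∀ s : I, α s = Ψ (s, 0))
    (hβ : ∀ s : I, β s = Ψ (0, s)) : Commute (μ.m α) (μ.m β) ∧ ∀ (k l : ℤ) (γ : C(I, Z)),
      (∀ s : I, γ s = Ψ (k * s, l * s)) → μ.m γ = μ.m α ^ k * μ.m β ^ l := by
  obtain ⟨e, he⟩ := μ.cobdry_convex (V := ℝ × ℝ) convex_univ Ψ hΨ.continuousOn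
  have p1 : ∀ (k : ℤ) s t, Ψ (s + k, t) = Ψ (s, t) := by
    intro k s t
    have hP : Function.Periodic (fun s => Ψ (s, t)) 1 := fun s => h1 s t
    have := hP.int_mul k s
    rwa [mul_one] at this
  have p2 : ∀ (k : ℤ) s t, Ψ (s, t + k) = Ψ (s, t) := by
    intro k s t
    have hP : Function.Periodic (fun t => Ψ (s, t)) 1 := fun t => h2 s t
    have := hP.int_mul k t
    rwa [mul_one] at this
  have a1 : ∀ k l : ℤ, e (((k + 1 : ℤ) : ℝ), (l : ℝ)) = e (k, l) * μ.m α := by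
    intro k l
    rw [he α (fun s => (s + k, 0 + l)) (by fun_prop) (fun _ => trivial) (fun s => by
      rw [hα, p1, p2])]
    simp [add_comm]
  have a2 : ∀ k l : ℤ, e ((k : ℝ), ((l + 1 : ℤ) : ℝ)) = e (k, l) * μ.m β := by
    intro k l
    rw [he β (fun s => (0 + k, s + l)) (by fun_prop) (fun _ => trivial) (fun s => by
      rw [hβ, p1, p2])]
    simp [add_comm]
  refine ⟨?_, fun k l γ hγ => ?_⟩
  · have b1 := (a1 0 (0 + 1)).symm.trans (a2 (0 + 1) 0)
    rw [a2 0 0, a1 0 0, mul_assoc, mul_assoc] at b1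
    exact (mul_left_cancel b1).symm
  · have b1 := TMono_pow (fun k : ℤ => e (k, ((0 : ℤ) : ℝ))) _ (fun k => a1 k 0) k
    have b2 := TMono_pow (fun l : ℤ => e (k, l)) _ (fun l => a2 k l) l
    rw [he γ (fun s => (k * s, l * s)) (by fun_prop) (fun _ => trivial) hγ]
    simp only [Set.Icc.coe_zero, Set.Icc.coe_one, mul_zero, mul_one]
    simp only [Int.cast_zero] at b1 b2
    rw [b2, b1, mul_assoc, inv_mul_cancel_left]

end Mono

theorem ex_zero : ex 0 = 1 := by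
  simp [ex]
theorem ex_add (s t : ℝ) : ex (s + t) = ex s * ex t := by
  simp only [ex, ← Complex.exp_add]
  push_cast
  ring_nf
theorem ex_int (n : ℤ) : ex n = 1 := by
  rw [ex, Complex.exp_eq_one_iff]
  exact ⟨n, by push_cast; ring⟩
theorem ex_add_one (s : ℝ) : ex (s + 1) = ex s := by
  have h := ex_int 1
  rw [Int.cast_one] at h
  rw [ex_add, h, mul_one]
theorem norm_ex (s : ℝ) : ‖ex s‖ = 1 := by
  have h : (2 * Real.pi * Complex.I * s : ℂ) = ((2 * Real.pi * s : ℝ) : ℂ) * Complex.I := by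
    push_cast; ring
  rw [ex, h, Complex.norm_exp_ofReal_mul_I]
theorem continuous_ex : Continuous ex := by
  unfold ex
  fun_prop
theorem ex_zpow (s : ℝ) (n : ℤ) : ex s ^ n = ex (n * s) := by
  simp only [ex, ← Complex.exp_int_mul]
  push_cast
  ring_nf
theorem ex_eq_one_iff (s : ℝ) : ex s = 1 ↔ ∃ n : ℤ, s = n := by
  constructor
  · intro h
    rw [ex, Complex.exp_eq_one_iff] at h
    obtain ⟨n, hn⟩ := h
    refine ⟨n, ?_⟩
    have h2 : (2 * Real.pi * Complex.I : ℂ) ≠ 0 := Complex.two_pi_I_ne_zero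
    have h3 : (s : ℂ) = n := by
      apply mul_left_cancel₀ h2
      rw [hn]; ring
    exact_mod_cast h3
  · rintro ⟨n, rfl⟩
    exact ex_int n
theorem exists_ex {w : ℂ} (hw : ‖w‖ = 1) : ∃ s : ℝ, w = ex s := by
  refine ⟨w.arg / (2 * Real.pi), ?_⟩
  have h := Complex.norm_mul_exp_arg_mul_I w
  rw [hw, Complex.ofReal_one, one_mul] at h
  have h2 : (Real.pi : ℂ) ≠ 0 := by exact_mod_cast Real.pi_ne_zero
  have h3 : (2 * Real.pi * Complex.I * ((w.arg / (2 * Real.pi) : ℝ) : ℂ) : ℂ) =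
      w.arg * Complex.I := by
    push_cast; field_simp
  rw [ex, h3, h]

theorem TMono_Pl {n : ℕ} (a : Fin n → ℂ) : Pl a = (Set.range a)ᶜ := by
  ext z
  simp only [Pl, Set.mem_ofPred_eq, Set.mem_compl_iff, Set.mem_range, not_exists]
  exact ⟨fun h i hi => h i hi.symm, fun h i hi => h i hi.symm⟩

theorem isOpen_Pl {n : ℕ} (a : Fin n → ℂ) : IsOpen (Pl a) := by
  rw [TMono_Pl]
  exact (Set.finite_range a).isClosed.isOpen_compl
theorem isPathConnected_Pl {n : ℕ} (a : Fin n → ℂ) : IsPathConnected (Pl a) := by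
  rw [TMono_Pl]
  refine (Set.finite_range a).countable.isPathConnected_compl_of_one_lt_rank ?_
  rw [Complex.rank_real_complex]
  norm_num

end Vale.Agent.P300
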