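import Vale.Agent.P300.TMono

/-! P300: moving a point outwards through the clusters of the five points. -/

noncomputable section

namespace Vale.Agent.P300

open unitInterval

theorem TData.Good.conj {P : Type} [Group P] {D : TData P} {C : Finset F5} {E : ℕ} {ω ω' : P}
    (h : D.Good C E ω) (h' : IsConj ω ω') : D.Good C E ω' := by
  obtain ⟨ϖ, g, hg, k, e, he, u, hu, h1, rfl⟩ := h
  obtain ⟨c, rfl⟩ := isConj_iff.1 h'
  exact ⟨c * ϖ, g, hg, k, e, he, u, hu, h1, by group⟩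

theorem trad_path {S : Finset ℂ} {b x : I → ℂ} (hb : Continuous b) (hx : Continuous x)
    (hS : ∀ s, b s ∉ S) (h : ∀ s j, x s ≠ av j (b s)) :
    ∃ γ : C(I, U0 S), ∀ s, (γ s).1 = (b s, x s) :=
  ⟨⟨fun s => ⟨(b s, x s), hS s, h s⟩, (hb.prodMk hx).subtype_mk _⟩, fun _ => rfl⟩

theorem trad_free {S : Finset ℂ} {P : Type} [Group P] (μ : Mono (U0 S) P) {b x : I → I → ℂ}
    (hb : Continuous fun p : I × I => b p.1 p.2) (hx : Continuous fun p : I × I => x p.1 p.2)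
    (hS : ∀ s l, b s l ∉ S) (h : ∀ s l j, x s l ≠ av j (b s l)) (hb1 : ∀ l, b 1 l = b 0 l)
    (hx1 : ∀ l, x 1 l = x 0 l) {α l β : C(I, U0 S)} (hα : ∀ s, (α s).1 = (b s 0, x s 0))
    (hl : ∀ s, (l s).1 = (b 0 s, x 0 s)) (hβ : ∀ s, (β s).1 = (b s 1, x s 1)) :
    μ.m α = μ.m l * μ.m β * (μ.m l)⁻¹ :=
  μ.conj_of_free (fun p => ⟨(b p.1 p.2, x p.1 p.2), hS _ _, h _ _⟩) ((hb.prodMk hx).subtype_mk _)
    (fun s => Subtype.ext (Prod.ext (hb1 s) (hx1 s))) α l β (fun s => Subtype.ext (hα s))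
    (fun s => Subtype.ext (hl s)) fun s => Subtype.ext (hβ s)

/-- moving the base point along the side of a free homotopy -/
theorem trad_move {S : Finset ℂ} {P : Type} [Group P] (μ : Mono (U0 S) P) {b x : I → I → ℂ}
    (hb : Continuous fun p : I × I => b p.1 p.2) (hx : Continuous fun p : I × I => x p.1 p.2)
    (hS : ∀ s l, b s l ∉ S) (h : ∀ s l j, x s l ≠ av j (b s l)) (hb1 : ∀ l, b 1 l = b 0 l)
    (hx1 : ∀ l, x 1 l = x 0 l) (δ : C(I, U0 S)) (hδ : (δ 1).1 = (b 0 0, x 0 0)) :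
    ∃ δ' l α β : C(I, U0 S), δ' 0 = δ 0 ∧ (δ' 1).1 = (b 0 1, x 0 1) ∧ μ.m δ' = μ.m δ * μ.m l ∧
      (∀ s, (l s).1 = (b 0 s, x 0 s)) ∧ (∀ s, (α s).1 = (b s 0, x s 0)) ∧
      (∀ s, (β s).1 = (b s 1, x s 1)) ∧
      μ.m δ' * μ.m β * (μ.m δ')⁻¹ = μ.m δ * μ.m α * (μ.m δ)⁻¹ := by
  obtain ⟨l, hl⟩ := trad_path (hb.comp (Continuous.prodMk_right 0))
    (hx.comp (Continuous.prodMk_right 0)) (hS 0) (h 0)
  obtain ⟨α, hα⟩ := trad_path (hb.comp (Continuous.prodMk_left 0))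
    (hx.comp (Continuous.prodMk_left 0)) (hS · 0) (h · 0)
  obtain ⟨β, hβ⟩ := trad_path (hb.comp (Continuous.prodMk_left 1))
    (hx.comp (Continuous.prodMk_left 1)) (hS · 1) (h · 1)
  have e : l 0 = δ 1 := Subtype.ext ((hl 0).trans hδ.symm)
  refine ⟨cat δ l e, l, α, β, cat_zero _ _ _, by rw [cat_one]; exact hl 1, μ.m_cat _ _ _, hl, hα,
    hβ, ?_⟩
  rw [μ.m_cat, trad_free μ hb hx hS h hb1 hx1 hα hl hβ]
  group

theorem trad_ext {S : Finset ℂ} {f : I → ℂ × ℂ} {γ γ' : C(I, U0 S)} (h : ∀ s, (γ s).1 = f s)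
    (h' : ∀ s, (γ' s).1 = f s) : γ = γ' :=
  ContinuousMap.ext fun s => Subtype.ext ((h s).trans (h' s).symm)

theorem trad_ne {B : ℂ} {i : Fin 5} {y : ℂ} (h0 : y ≠ 0) (h : ∀ j, j ≠ i → av j B - av i B ≠ y)
    (j : Fin 5) : av i B + y ≠ av j B := fun e => by
  rcases eq_or_ne j i with rfl | hj
  · exact h0 (add_eq_left.1 e)
  · exact h j hj (by rw [← e, add_sub_cancel_left])

theorem trad_norm {τ : ℂ} (hτ : ‖τ‖ = 1) {t : ℝ} (ht : 0 ≤ t) (s : ℝ) : ‖τ * t * ex s‖ = t := by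
  rw [norm_mul, norm_mul, hτ, norm_ex, Complex.norm_real, Real.norm_of_nonneg ht, one_mul, mul_one]

theorem trad_torus {C : Finset F5} {S : Finset ℂ} {ε : ℝ} {u0 : U0 S} {P : Type} [Group P]
    {μ : Mono (U0 S) P} {D : TData P} (hT : TFacts C ε u0 μ D) {B : ℝ → ℂ}
    (hB : Continuous B) (hper : ∀ s, B (s + 1) = B s) (hBS : ∀ s, B s ∉ S) {i : Fin 5} {τ : ℂ}
    (hτ : ‖τ‖ = 1) {r : ℝ} (hr : 0 < r) (tor : ∀ s j, j ≠ i → ‖av j (B s) - av i (B s)‖ ≠ r)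
    (δ : C(I, U0 S)) (hδ0 : δ 0 = u0) (hδ1 : (δ 1).1 = (B 0, av i (B 0) + τ * r)) :
    ∃ g ∈ Orb C, ∃ A : P, (∀ γ : C(I, U0 S), (∀ s : I, (γ s).1 = (B 0, av i (B 0) + τ * r * ex s)) →
      μ.m δ * μ.m γ * (μ.m δ)⁻¹ = D.ι g) ∧ ∀ (ν : ℤ) (ω : C(I, U0 S)),
        (∀ s : I, (ω s).1 = (B s, av i (B s) + τ * r * ex (ν * s))) →
          μ.m δ * μ.m ω * (μ.m δ)⁻¹ = D.ι g ^ ν * A := by
  have := continuous_ex
  have := (tu0_cont_av i).comp hB
  let Ψ : ℝ × ℝ → U0 S := fun p => ⟨(B p.1, av i (B p.1) + τ * r * ex p.2), hBS _,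
    trad_ne (norm_pos_iff.1 ((trad_norm hτ hr.le _).symm ▸ hr))
      fun j hj e => tor _ j hj (e ▸ trad_norm hτ hr.le _)⟩
  have hΨ : Continuous Ψ := Continuous.subtype_mk ((hB.comp continuous_fst).prodMk
    ((this.comp continuous_fst).add (by fun_prop))) _
  let α : C(I, U0 S) := ⟨fun s => Ψ (s, 0), by fun_prop⟩
  let γ : C(I, U0 S) := ⟨fun s => Ψ (0, s), by fun_prop⟩
  obtain ⟨hc, h⟩ := μ.m_torus Ψ hΨ (fun s t => Subtype.ext (by simp only [Ψ, hper]))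
    (fun s t => Subtype.ext (by simp only [Ψ, ex_add_one])) α γ (fun _ => rfl) fun _ => rfl
  obtain ⟨g, hg, e, -⟩ := hT.circ δ γ hδ0 (Subtype.ext (by rw [hδ1]; simp [γ, Ψ, ex_zero]))
    {j | ‖av j (B 0) - av i (B 0)‖ < ‖τ * r‖} ⟨fun _ => rfl, _, _, fun _ => rfl, fun _ => Iff.rfl⟩
  refine ⟨g, hg, μ.m δ * μ.m α * (μ.m δ)⁻¹, fun γ' h' => ?_, fun ν ω hω => ?_⟩
  · rw [trad_ext h' (γ' := γ) fun _ => rfl, e]
  · rw [h 1 ν ω fun s => Subtype.ext (by rw [hω]; simp [Ψ]), zpow_one, (hc.zpow_right ν).eq, ← e,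
      conj_zpow]
    group

theorem radial {C : Finset F5} {S : Finset ℂ} {ε : ℝ} {u0 : U0 S} {P : Type} [Group P]
    {μ : Mono (U0 S) P} {D : TData P} (hT : TFacts C ε u0 μ D) (E : ℕ) (B : ℝ → ℂ)
    (hB : Continuous B) (hper : ∀ s, B (s + 1) = B s) (hBS : ∀ s, B s ∉ S) (i : Fin 5) (τ : ℂ)
    (hτ : ‖τ‖ = 1) (r : ℤ → ℝ) (ν0 ν1 : ℤ) (hν : ν0 ≤ ν1) (hr : ∀ ν, 0 < r ν)
    (anti : ∀ ν, r ν ≤ r (ν - 1))
    (tor : ∀ ν, ν0 ≤ ν → ν ≤ ν1 → ∀ s j, j ≠ i → ‖av j (B s) - av i (B s)‖ ≠ r ν)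
    (ray : ∀ ν, ν0 < ν → ν ≤ ν1 → ∀ t ∈ Set.Icc (r ν) (r (ν - 1)), ∀ (s : ℝ) j, j ≠ i →
      av j (B s) - av i (B s) ≠ τ * (t : ℂ) * ex (ν * s))
    (ann : ∀ ν, ν0 < ν → ν ≤ ν1 → ¬ (E : ℤ) ∣ ν → ∀ t ∈ Set.Icc (r ν) (r (ν - 1)), ∀ j, j ≠ i →
      ‖av j (B 0) - av i (B 0)‖ ≠ t)
    (out : ∀ s j, ‖av j (B s) - av i (B s)‖ < r ν0)
    (δ β : C(I, U0 S)) (hδ0 : δ 0 = u0) (hδ1 : δ 1 = β 0)
    (hβ : ∀ s : I, (β s).1 = (B s, (Rr (B s) : ℂ))) :
    ∃ δ' : C(I, U0 S), δ' 0 = u0 ∧ (δ' 1).1 = (B 0, av i (B 0) + τ * (r ν1 : ℂ)) ∧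
      ∃ g ∈ Orb C, ∃ e ∈ PowE C E,
        (∀ γ : C(I, U0 S), (∀ s : I, (γ s).1 = (B 0, av i (B 0) + τ * (r ν1 : ℂ) * ex s)) →
          μ.m δ' * μ.m γ * (μ.m δ')⁻¹ = D.ι g) ∧
        ∀ ω : C(I, U0 S), (∀ s : I, (ω s).1 = (B s, av i (B s) + τ * (r ν1 : ℂ) * ex (ν1 * s))) →
          μ.m δ' * μ.m ω * (μ.m δ')⁻¹ = D.ι (g ^ ν1 * e) * (μ.m δ * μ.m β * (μ.m δ)⁻¹) := by
  have hex := continuous_ex
  have hB' : Continuous fun p : I × I => B p.1 := by fun_prop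
  have hav : Continuous fun p : I × I => av i (B p.1) := (tu0_cont_av i).comp hB'
  have hR : Continuous fun p : I × I => Rr (B p.1) := continuous_Rr.comp hB'
  have h10 : B ((1 : I) : ℝ) = B ((0 : I) : ℝ) := by simpa using hper 0
  have hpow : ∀ g ∈ Orb C, ∀ k : ℤ, (E : ℤ) ∣ k → g ^ k ∈ PowE C E := by
    rintro g hg _ ⟨k, rfl⟩
    rw [zpow_mul, zpow_natCast]
    exact zpow_mem (Subgroup.subset_normalClosure (by exact ⟨g, hg, rfl⟩)) k
  induction ν1, hν using Int.leInduction with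
  | base =>
    obtain ⟨θ, rfl⟩ := exists_ex hτ
    obtain ⟨δ1, -, α1, β1, a0, a1, -, -, a2, a3, a4⟩ := trad_move μ (b := fun s _ => B s)
      (x := fun s l => ((1 - l : ℝ) : ℂ) * Rr (B s) +
        ((l : ℝ) : ℂ) * (av i (B s) + ((2 * Rr (B s) + r ν0 : ℝ) : ℂ)))
      hB' (by fun_prop) (fun s _ => hBS s) (fun s l j e => by
        have h1 := congrArg Complex.re e
        have h2 := (Complex.re_le_norm (av j (B s))).trans (le_sub_iff_add_le.2 (norm_av_le j _))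
        have h3 := (abs_le.1 ((Complex.abs_re_le_norm (av i (B s))).trans
          (le_sub_iff_add_le.2 (norm_av_le i _)))).1
        simp only [Complex.add_re, Complex.re_ofReal_mul, Complex.ofReal_re] at h1
        nlinarith [mul_nonneg l.2.1 (by linarith [hr ν0] :
          0 ≤ (av i (B s)).re + Rr (B s) + r ν0)]) (fun _ => h10)
      (fun l => by simp only [h10]) δ (by rw [hδ1, hβ]; simp)
    obtain ⟨δ2, -, α2, β2, b0, b1, -, -, b2, b3, b4⟩ := trad_move μ (b := fun s _ => B s)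
      (x := fun s l => av i (B s) +
        1 * (((1 - l) * (2 * Rr (B s)) + r ν0 : ℝ) : ℂ) * ex (l * θ))
      hB' (by fun_prop) (fun s _ => hBS s) (fun s l => by
        have h1 : 0 ≤ (1 - l) * (2 * Rr (B s)) := mul_nonneg (sub_nonneg.2 l.2.2)
          (by linarith [norm_av_le i (B s), norm_nonneg (av i (B s))])
        have h2 := trad_norm norm_one (add_nonneg h1 (hr ν0).le) (l * θ)
        refine trad_ne (norm_pos_iff.1 (by linarith [hr ν0])) fun j _ e => ?_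
        have := out s j
        rw [e, h2] at this
        linarith) (fun _ => h10)
      (fun l => by simp only [h10]) δ1 (by rw [a1]; simp [ex_zero])
    have c1 : (δ2 1).1 = (B 0, av i (B 0) + ex θ * r ν0) := by
      rw [b1]
      simp [mul_comm]
    obtain ⟨g, hg, A, t1, t2⟩ := trad_torus hT hB hper hBS hτ (hr ν0) (tor ν0 le_rfl le_rfl) δ2
      (b0.trans (a0.trans hδ0)) c1
    refine ⟨δ2, b0.trans (a0.trans hδ0), c1, g, hg, 1, one_mem _, t1, fun ω hω => ?_⟩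
    have c2 := t2 0 β2 fun s => by
      rw [b3]
      simp [mul_comm, ex_zero]
    rw [zpow_zero, one_mul, b4, trad_ext b2 (γ' := β1) (fun s => by rw [a3]; simp [ex_zero]), a4,
      trad_ext a2 (γ' := β) (fun s => by rw [hβ]; simp)] at c2
    rw [t2 ν0 ω hω, mul_one, map_zpow, c2]
  | succ ν hν ih =>
    obtain ⟨δ1, a0, a1, g, hg, e, he, a2, a3⟩ := ih (fun k h1 h2 => tor k h1 (by omega))
      (fun k h1 h2 => ray k h1 (by omega)) fun k h1 h2 => ann k h1 (by omega)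
    obtain ⟨g0, -, A, t1, t2⟩ := trad_torus hT hB hper hBS hτ (hr ν) (tor ν hν (by omega)) δ1 a0 a1
    have hle := anti (ν + 1)
    have hm : ∀ l : I, (1 - l) * r ν + l * r (ν + 1) ∈ Set.Icc (r (ν + 1)) (r (ν + 1 - 1)) := by
      intro l
      rw [add_sub_cancel_right] at hle ⊢
      constructor <;> nlinarith [l.2.1, l.2.2]
    have hz : ∀ (l : I) s, τ * ((1 - l) * r ν + l * r (ν + 1) : ℝ) * ex s ≠ 0 := fun l s =>
      have := (hr _).trans_le (hm l).1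
      norm_pos_iff.1 ((trad_norm hτ this.le s).symm ▸ this)
    have e1 : ∀ k : ℤ, ex (k * ((1 : I) : ℝ)) = ex (k * ((0 : I) : ℝ)) := fun k => by
      simp [ex_int, ex_zero]
    obtain ⟨δ2, l, α, ω1, b0, b1, b5, b6, b2, b3, b4⟩ := trad_move μ (b := fun s _ => B s)
      (x := fun s l => av i (B s) +
        τ * ((1 - l) * r ν + l * r (ν + 1) : ℝ) * ex (((ν + 1 : ℤ) : ℝ) * s))
      hB' (by fun_prop) (fun s _ => hBS s)
      (fun s l => trad_ne (hz _ _) (ray (ν + 1) (by omega) le_rfl _ (hm l) s)) (fun _ => h10)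
      (fun l => by simp only [h10, e1]) δ1 (by rw [a1]; simp [ex_zero])
    have c1 : (δ2 1).1 = (B 0, av i (B 0) + τ * r (ν + 1)) := by
      rw [b1]
      simp [ex_zero]
    have hmem : ∀ (k : ℤ), ν0 ≤ k → k ≤ ν + 1 → ∀ (s t : ℝ) j,
        av i (B s) + τ * r k * ex t ≠ av j (B s) := fun k h1 h2 s t =>
      trad_ne (norm_pos_iff.1 ((trad_norm hτ (hr k).le t).symm ▸ hr k))
        fun j hj e => tor k h1 h2 s j hj (e ▸ trad_norm hτ (hr k).le t)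
    obtain ⟨γ0, c2⟩ := trad_path (S := S) (b := fun _ => B 0)
      (x := fun s => av i (B 0) + τ * r ν * ex s) continuous_const (by fun_prop) (fun _ => hBS 0)
      fun s => hmem ν hν (by omega) 0 s
    obtain ⟨ω0, c3⟩ := trad_path (S := S) (b := fun s => B s)
      (x := fun s => av i (B s) + τ * r ν * ex (ν * s)) (by fun_prop)
      ((hav.comp (Continuous.prodMk_left 0)).add (by fun_prop)) (fun s => hBS s)
      fun s => hmem ν hν (by omega) s _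
    have c4 : ∀ ω : C(I, U0 S), (∀ s : I, (ω s).1 =
        (B s, av i (B s) + τ * r (ν + 1) * ex (((ν + 1 : ℤ) : ℝ) * s))) →
        μ.m δ2 * μ.m ω * (μ.m δ2)⁻¹ = D.ι (g ^ (ν + 1) * e) * (μ.m δ * μ.m β * (μ.m δ)⁻¹) := by
      intro ω hω
      rw [trad_ext hω (γ' := ω1) (fun s => by rw [b3]; simp), b4,
        t2 (ν + 1) α (fun s => by rw [b2]; simp), add_comm ν, zpow_one_add, mul_assoc,
        ← t2 ν ω0 c3, a3 ω0 c3, ← t1 γ0 c2, a2 γ0 c2, zpow_one_add, mul_assoc g, map_mul D.ι g,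
        mul_assoc (D.ι g)]
    by_cases hE : (E : ℤ) ∣ ν + 1
    · obtain ⟨g', hg', -, t3, -⟩ := trad_torus hT hB hper hBS hτ (hr (ν + 1))
        (tor _ (by omega) le_rfl) δ2 (b0.trans a0) c1
      refine ⟨δ2, b0.trans a0, c1, g', hg', (g' ^ (ν + 1))⁻¹ * (g ^ (ν + 1) * e),
        mul_mem (inv_mem (hpow _ hg' _ hE)) (mul_mem (hpow _ hg _ hE) he), t3, fun ω hω => ?_⟩
      rw [mul_inv_cancel_left]
      exact c4 ω hω
    · refine ⟨δ2, b0.trans a0, c1, g, hg, e, he, fun γ hγ => ?_, c4⟩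
      have := trad_free μ (b := fun _ _ => B 0)
        (x := fun s l => av i (B 0) + τ * ((1 - l) * r ν + l * r (ν + 1) : ℝ) * ex s)
        continuous_const (by fun_prop) (fun _ _ => hBS 0)
        (fun s l => trad_ne (hz _ _) fun j hj e => ann (ν + 1) (by omega) le_rfl hE _ (hm l) j hj
          (e ▸ trad_norm hτ ((hr _).le.trans (hm l).1) s)) (fun _ => rfl)
        (fun l => by rw [show ex ((1 : I) : ℝ) = ex ((0 : I) : ℝ) by simpa using e1 1]) (α := γ0) (l := l) (β := γ) (fun s => by rw [c2]; simp)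
        (fun s => by rw [b6]; simp) (fun s => by rw [hγ]; simp)
      rw [← a2 γ0 c2, this, b5]
      group

end Vale.Agent.P300
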